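import Vale.Agent.P088F.ADd

/-! P088, part A: the Carleman estimate with explicit constants. -/

open MeasureTheory Set Filter Topology
open scoped ContDiff

noncomputable section

namespace Vale.Agent.P088.Car

variable {E F : Type} [NormedAddCommGroup E] [NormedSpace ℝ E] [NormedAddCommGroup F]
  [NormedSpace ℝ F] {ι : Type} [Fintype ι]

/-- The sum of squares. -/
def sq2 (ξ : ι → ℝ) : ℝ := ∑ i, ξ i ^ 2

theorem sq2_nonneg (ξ : ι → ℝ) : 0 ≤ sq2 ξ := Finset.sum_nonneg fun _ _ => sq_nonneg _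

/-- The squared length of the gradient of the weight. -/
def qq (e : ι → E) (a : ι → ι → E → ℝ) (φ : E → ℝ) : E → ℝ := al e (fx e a φ) φ

/-- The weight `φ` with the auxiliary multiplier `g` is admissible at `x`. -/
structure Adm (e : ι → E) (a : ι → ι → E → ℝ) (φ g : E → ℝ) (m M : ℝ) (x : E) : Prop where
  sa : ∀ i j, SA (a i j) x
  sy : ∀ i j, a i j x = a j i x
  sφ : SA φ x
  sg : SA g x
  grad : ∀ ξ, m * sq2 ξ ≤
    LL e a (fx e a φ) x ξ + g x * qf a x ξ ξ + M * (∑ k, fx e a φ k x * ξ k) ^ 2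
  zero : m ≤ al e (fx e a φ) (qq e a φ) x - qq e a φ x * g x
  b0 : (dv e a φ x + g x) ^ 2 + 2 * g x ^ 2 ≤ M
  b1 : ∀ ξ, qf a x (gr e (fun y => dv e a φ y + g y) x) ξ ^ 2 ≤ M * sq2 ξ
  b2 : sq2 (gr e φ x) ≤ M

variable {e : ι → E} {a : ι → ι → E → ℝ} {φ g v f : E → ℝ} {u : E → F} {x : E} {m M τ : ℝ}

theorem fx_smul (hf : SA f x) (hu : SA u x) (i : ι) :
    fx e a (fun y => f y • u y) i =ᶠ[𝓝 x] fun y => f y • fx e a u i y + fx e a f i y • u y := by
  filter_upwards [hf.ev 1, hu.ev 1] with y h1 h2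
  simp only [fx, dd, fderiv_fun_smul (h1.differentiableAt one_ne_zero)
    (h2.differentiableAt one_ne_zero), add_apply, smul_apply, ContinuousLinearMap.smulRight_apply,
    smul_add, Finset.sum_add_distrib, Finset.smul_sum, Finset.sum_smul, smul_smul, smul_eq_mul,
    mul_comm (f y)]

/-- The product rule for the operator. -/
theorem dv_smul (ha : ∀ i j, SA (a i j) x) (hf : SA f x) (hu : SA u x) :
    dv e a (fun y => f y • u y) x = f x • dv e a u x + ∑ i, dd (e i) f x • fx e a u i x +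
      ∑ i, fx e a f i x • dd (e i) u x + dv e a f x • u x := by
  have h : ∀ i, dd (e i) (fx e a (fun y => f y • u y) i) x =
      dd (e i) f x • fx e a u i x + f x • dd (e i) (fx e a u i) x +
        (dd (e i) (fx e a f i) x • u x + fx e a f i x • dd (e i) u x) := fun i => by
    rw [dd_congr (fx_smul hf hu i), dd_add (u := fun y => f y • fx e a u i y)
      (w := fun y => fx e a f i y • u y) (hf.smul (sa_fx ha hu i)) ((sa_fx ha hf i).smul hu),
      dd_smul hf (sa_fx ha hu i), dd_smul (sa_fx ha hf i) hu]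
  simp only [dv, h, Finset.sum_add_distrib, Finset.smul_sum, Finset.sum_smul]
  abel

theorem qf_eq (ξ : ι → ℝ) (f : E → ℝ) : qf a x ξ (gr e f x) = ∑ i, ξ i * fx e a f i x := by
  simp only [qf, fx, gr, Finset.mul_sum, smul_eq_mul]
  exact Finset.sum_congr rfl fun i _ => Finset.sum_congr rfl fun j _ => by ring

omit [NormedAddCommGroup E] [NormedSpace ℝ E] in
theorem qf_symm (hs : ∀ i j, a i j x = a j i x) (ξ η : ι → ℝ) : qf a x ξ η = qf a x η ξ := by
  rw [qf, Finset.sum_comm]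
  exact Finset.sum_congr rfl fun i _ => Finset.sum_congr rfl fun j _ => by rw [hs]; ring

theorem dv_mul (ha : ∀ i j, SA (a i j) x) (hs : ∀ i j, a i j x = a j i x) (hf : SA f x)
    (hv : SA v x) : dv e a (fun y => f y * v y) x =
      f x * dv e a v x + 2 * al e (fx e a f) v x + dv e a f x * v x := by
  have h := dv_smul (e := e) ha hf hv
  have h1 : ∑ i, dd (e i) f x * fx e a v i x = al e (fx e a f) v x := by
    refine (qf_eq (gr e f x) v).symm.trans ?_
    rw [qf_symm hs, qf_eq]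
    exact Finset.sum_congr rfl fun i _ => mul_comm _ _
  simp only [smul_eq_mul, h1] at h
  rw [h, al]
  ring

theorem al_mul {X : ι → E → ℝ} (hf : SA f x) (hv : SA v x) :
    al e X (fun y => f y * v y) x = al e X f x * v x + f x * al e X v x := by
  simp only [al, dd_mul hf hv, Finset.sum_mul, Finset.mul_sum, ← Finset.sum_add_distrib]
  exact Finset.sum_congr rfl fun i _ => by ring

theorem qf_gr_mul (hf : SA f x) (hv : SA v x) (η : ι → ℝ) :
    qf a x (gr e (fun y => f y * v y) x) η =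
      v x * qf a x (gr e f x) η + f x * qf a x (gr e v x) η := by
  simp only [qf, gr, dd_mul hf hv, Finset.mul_sum, ← Finset.sum_add_distrib]
  exact Finset.sum_congr rfl fun i _ => Finset.sum_congr rfl fun j _ => by ring

theorem sa_qq (ha : ∀ i j, SA (a i j) x) (hφ : SA φ x) : SA (qq e a φ) x :=
  sa_al (sa_fx ha hφ) hφ

/-- The vector field of the Carleman identity. -/
def cw (e : ι → E) (a : ι → ι → E → ℝ) (φ g v : E → ℝ) (τ : ℝ) (i : ι) (y : E) : ℝ :=
  -2 * τ * (2 * (al e (fx e a φ) v y * fx e a v i y) -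
      fx e a φ i y * qf a y (gr e v y) (gr e v y)) +
    (-2 * τ * ((dv e a φ y + g y) * v y * fx e a v i y) +
      -2 * τ ^ 3 * (fx e a φ i y * (qq e a φ y * (v y * v y))))

theorem sa_cw (h : Adm e a φ g m M x) (hv : SA v x) (i : ι) : SA (cw e a φ g v τ i) x :=
  (contDiffAt_const.mul ((contDiffAt_const.mul ((sa_al (sa_fx h.sa h.sφ) hv).mul
    (sa_fx h.sa hv i))).sub ((sa_fx h.sa h.sφ i).mul (sa_qf h.sa hv hv)))).add
    ((contDiffAt_const.mul ((((sa_dv h.sa h.sφ).add h.sg).mul hv).mul (sa_fx h.sa hv i))).add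
      (contDiffAt_const.mul ((sa_fx h.sa h.sφ i).mul ((sa_qq h.sa h.sφ).mul (hv.mul hv)))))

theorem core_pt (h : Adm e a φ g m M x) (hv : SA v x) (hm : 0 < m) (h1 : 1 ≤ τ) (h2 : M ≤ τ)
    (h3 : M + M / m ≤ τ * m) :
    τ * m * sq2 (gr e v x) + τ ^ 3 * m * v x ^ 2 + ∑ i, dd (e i) (cw e a φ g v τ i) x ≤
      2 * (dv e a v x - 2 * τ * al e (fx e a φ) v x - τ * dv e a φ x * v x +
        τ ^ 2 * qq e a φ x * v x) ^ 2 := by
  have hX := sa_fx (e := e) h.sa h.sφ
  have hc : SA (fun y => dv e a φ y + g y) x := (sa_dv h.sa h.sφ).add h.sg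
  have hq := sa_qq (e := e) h.sa h.sφ
  have hF := sa_fx (e := e) h.sa hv
  have s1 := fun i => ((contDiffAt_const (c := (2 : ℝ))).mul ((sa_al (e := e) hX hv).mul
    (hF i))).sub ((hX i).mul (sa_qf (e := e) h.sa hv hv))
  have s2 := fun i => (hc.mul hv).mul (hF i)
  have s3 := fun i => (hX i).mul (hq.mul (hv.mul hv))
  have e1 := rellich_pt (e := e) h.sa h.sy hX hv
  have e2 := green_pt (e := e) h.sa hv (hc.mul hv)
  have e3 := div_pt (e := e) hX (hq.mul (hv.mul hv))
  rw [qf_gr_mul hc hv] at e2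
  rw [al_mul hq (hv.mul hv), al_mul hv hv] at e3
  have e4 : ∀ i, dd (e i) (cw e a φ g v τ i) x = _ := fun i =>
    (dd_add (contDiffAt_const.mul (s1 i)) ((contDiffAt_const.mul (s2 i)).add
      (contDiffAt_const.mul (s3 i))) (e i)).trans (by
        rw [dd_add (contDiffAt_const.mul (s2 i)) (contDiffAt_const.mul (s3 i)),
          dd_cmul _ (s1 i), dd_cmul _ (s2 i), dd_cmul _ (s3 i)])
  simp only [e4, Finset.sum_add_distrib, ← Finset.mul_sum]
  rw [e1, e2, e3]
  have g1 := h.grad (gr e v x)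
  have g2 := h.zero
  have g3 := h.b0
  have g4 := h.b1 (gr e v x)
  have g5 := sq2_nonneg (gr e v x)
  change _ ≤ _ + _ + M * al e (fx e a φ) v x ^ 2 at g1
  change _ + _ + (_ * (_ + _ - dv e a φ x * _) + (_ + _ * (dv e a φ x * _ + _))) ≤ _
  generalize al e (fx e a φ) v x = Y at *
  generalize dv e a v x = P at *
  generalize dv e a φ x = d at *
  generalize qq e a φ x = q at *
  generalize al e (fx e a φ) (qq e a φ) x = Z at *
  generalize qf a x (gr e (fun y => dv e a φ y + g y) x) (gr e v x) = b at *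
  generalize qf a x (gr e v x) (gr e v x) = Q at *
  generalize LL e a (fx e a φ) x (gr e v x) = L at *
  generalize sq2 (gr e v x) = S at *
  generalize g x = γ at *
  generalize v x = w at *
  have t0 : 0 < τ := by linarith
  have w2 := sq_nonneg w
  have k1 : -(m * S) - M / m * w ^ 2 ≤ 2 * w * b := by
    have h4 : 0 ≤ (m * S + M / m * w ^ 2) := by
      have : 0 ≤ M := le_trans (by positivity) g3
      positivity
    have h5 : (2 * w * b) ^ 2 ≤ (m * S + M / m * w ^ 2) ^ 2 := by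
      have h6 : m * (M / m) = M := by field_simp
      have h7 : w ^ 2 * b ^ 2 ≤ w ^ 2 * (m * (M / m) * S) := by rw [h6]; gcongr
      nlinarith [sq_nonneg (m * S - M / m * w ^ 2)]
    linarith [neg_le_of_abs_le (abs_le_of_sq_le_sq' h5 h4 |> abs_le.2)]
  have k2 : τ * (M * Y ^ 2) ≤ τ * (τ * Y ^ 2) := by gcongr
  have k3 : τ ^ 3 * w ^ 2 * m ≤ τ ^ 3 * w ^ 2 * (Z - q * γ) := by gcongr
  have k4 : τ ^ 2 * w ^ 2 * ((d + γ) ^ 2 + 2 * γ ^ 2) ≤ τ ^ 2 * w ^ 2 * M := by gcongr
  have k5 : τ ^ 2 * w ^ 2 * (M + M / m) ≤ τ ^ 2 * w ^ 2 * (τ * m) := by gcongr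
  have k6 : τ * (M / m * w ^ 2) ≤ τ ^ 2 * (M / m * w ^ 2) := by
    have : 0 ≤ M := le_trans (by positivity) g3
    gcongr
    nlinarith
  have k7 := mul_le_mul_of_nonneg_left g1 t0.le
  have k8 := mul_le_mul_of_nonneg_left k1 t0.le
  nlinarith [sq_nonneg (P + τ ^ 2 * q * w), sq_nonneg (τ * Y + τ * (d + γ) * w),
    sq_nonneg (P - 2 * τ * Y - τ * d * w + τ ^ 2 * q * w + τ * γ * w)]

theorem conj_pt (h : Adm e a φ g m M x) (hv : SA v x) (hm : 0 < m) (h1 : 1 ≤ τ) (h2 : M ≤ τ)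
    (h3 : M + M / m ≤ τ * m) :
    m / (2 * M + 2) * (Real.exp (2 * τ * φ x) * (τ * sq2 (gr e v x) + τ ^ 3 * v x ^ 2)) +
        ∑ i, dd (e i) (cw e a φ g (fun y => Real.exp (τ * φ y) * v y) τ i) x ≤
      2 * (Real.exp (2 * τ * φ x) * dv e a v x ^ 2) := by
  have hτ : SA (fun y => τ * φ y) x := contDiffAt_const.mul h.sφ
  have hE : SA (fun y => Real.exp (τ * φ y)) x := hτ.exp
  have k := core_pt h (hE.mul hv) hm h1 h2 h3
  have d1 : ∀ i, dd (e i) (fun y => Real.exp (τ * φ y)) =ᶠ[𝓝 x]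
      fun y => Real.exp (τ * φ y) * (τ * dd (e i) φ y) := fun i => by
    filter_upwards [h.sφ.ev 1] with y hy
    simp only [dd, ((hy.differentiableAt one_ne_zero).hasFDerivAt.const_mul τ).exp.fderiv,
      smul_apply, smul_eq_mul]
  have d2 : ∀ i, fx e a (fun y => Real.exp (τ * φ y)) i =ᶠ[𝓝 x]
      fun y => τ * (Real.exp (τ * φ y) * fx e a φ i y) := fun i => by
    filter_upwards [eventually_all.2 d1] with y hy
    simp only [fx, hy, Finset.mul_sum, smul_eq_mul]
    exact Finset.sum_congr rfl fun j _ => by ring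
  have d3 : dv e a (fun y => Real.exp (τ * φ y)) x =
      Real.exp (τ * φ x) * (τ ^ 2 * qq e a φ x + τ * dv e a φ x) := by
    simp only [dv, fun i => dd_congr (d2 i) (e i),
      fun i => dd_cmul τ (hE.mul (sa_fx (e := e) h.sa h.sφ i)) (e i),
      fun i => dd_mul hE (sa_fx (e := e) h.sa h.sφ i) (e i), fun i => (d1 i).self_of_nhds, qq, al,
      Finset.mul_sum, mul_add, ← Finset.sum_add_distrib]
    exact Finset.sum_congr rfl fun j _ => by ring
  have d4 : al e (fx e a fun y => Real.exp (τ * φ y)) v x =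
      τ * (Real.exp (τ * φ x) * al e (fx e a φ) v x) := by
    simp only [al, fun i => (d2 i).self_of_nhds, Finset.mul_sum]
    exact Finset.sum_congr rfl fun j _ => by ring
  have d5 : al e (fx e a φ) (fun y => Real.exp (τ * φ y)) x =
      τ * (Real.exp (τ * φ x) * qq e a φ x) := by
    simp only [qq, al, fun i => (d1 i).self_of_nhds, Finset.mul_sum]
    exact Finset.sum_congr rfl fun j _ => by ring
  have d6 : Real.exp (τ * φ x) ^ 2 * sq2 (gr e v x) ≤
      2 * sq2 (gr e (fun y => Real.exp (τ * φ y) * v y) x) +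
        2 * (τ * Real.exp (τ * φ x) * v x) ^ 2 * sq2 (gr e φ x) := by
    simp only [sq2, gr, fun i => dd_mul hE hv (e i), fun i => (d1 i).self_of_nhds, Finset.mul_sum,
      ← Finset.sum_add_distrib]
    refine Finset.sum_le_sum fun i _ => ?_
    nlinarith [sq_nonneg (Real.exp (τ * φ x) * dd (e i) v x +
      2 * (Real.exp (τ * φ x) * (τ * dd (e i) φ x) * v x))]
  have d7 : Real.exp (2 * τ * φ x) = Real.exp (τ * φ x) ^ 2 := by
    rw [← Real.exp_nat_mul, mul_assoc]; rfl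
  rw [dv_mul h.sa h.sy hE hv, al_mul hE hv, d3, d4, d5] at k
  rw [d7]
  have hM : 0 ≤ M := (sq2_nonneg _).trans h.b2
  have t0 : 0 < τ := by linarith
  have d8 : 2 * (τ * Real.exp (τ * φ x) * v x) ^ 2 * sq2 (gr e φ x) ≤
      2 * (τ * Real.exp (τ * φ x) * v x) ^ 2 * M := by gcongr; exact h.b2
  have d9 := sq2_nonneg (gr e (fun y => Real.exp (τ * φ y) * v y) x)
  refine le_trans (add_le_add_left ?_ _) (k.trans (le_of_eq (by ring)))
  rw [div_mul_eq_mul_div, div_le_iff₀ (by positivity)]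
  have d10 := mul_le_mul_of_nonneg_left (d6.trans (add_le_add_right d8 _)) (mul_pos t0 hm).le
  have d11 : 0 ≤ τ * m * M * sq2 (gr e (fun y => Real.exp (τ * φ y) * v y) x) := by positivity
  have d12 : 0 ≤ τ ^ 3 * m * (Real.exp (τ * φ x) * v x) ^ 2 := by positivity
  nlinarith

variable [FiniteDimensional ℝ E] [MeasurableSpace E] [BorelSpace E] (μ : Measure E)
  [μ.IsAddHaarMeasure] {K : Set E}

/-- The Carleman estimate. -/
theorem carl_core (hK : IsCompact K) (h : ∀ x ∈ K, Adm e a φ g m M x) (hv : ∀ x ∈ K, SA v x)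
    (h0 : ∀ x ∉ K, v x = 0) (hm : 0 < m) (h1 : 1 ≤ τ) (h2 : M ≤ τ) (h3 : M + M / m ≤ τ * m) :
    m / (2 * M + 2) * ∫ x, Real.exp (2 * τ * φ x) * (τ * sq2 (gr e v x) + τ ^ 3 * v x ^ 2) ∂μ ≤
      2 * ∫ x, Real.exp (2 * τ * φ x) * dv e a v x ^ 2 ∂μ := by
  have z1 := fun i => dd_zero hK.isClosed h0 (e i)
  have z2 : ∀ i, ∀ x ∉ K, fx e a v i x = 0 := fun i x hx => by simp [fx, z1 _ x hx]
  have z3 : ∀ x ∉ K, dv e a v x = 0 := fun x hx => by
    simp [dv, dd_zero hK.isClosed (z2 _) _ x hx]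
  have z4 : ∀ x ∉ K, Real.exp (τ * φ x) * v x = 0 := fun x hx => by simp [h0 x hx]
  have z5 : ∀ i, ∀ x ∉ K, cw e a φ g (fun y => Real.exp (τ * φ y) * v y) τ i x = 0 :=
    fun i x hx => by simp [cw, fx, qf, gr, dd_zero hK.isClosed z4 _ x hx, h0 x hx]
  have hE : ∀ x ∈ K, ∀ t : ℝ, SA (fun y => Real.exp (t * φ y)) x := fun x hx t =>
    (contDiffAt_const.mul (h x hx).sφ).exp
  rw [← integral_const_mul, ← integral_const_mul]
  refine int_le_of_div μ e hK (int_loc μ hK (fun x hx => ?_) fun x hx => ?_)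
    (int_loc μ hK (fun x hx => ?_) fun x hx => by simp [z3 x hx])
    (fun i x hx => sa_cw (h x hx) ((hE x hx τ).mul (hv x hx)) i) z5 fun x => ?_
  · exact contDiffAt_const.mul ((hE x hx _).mul ((contDiffAt_const.mul
      (ContDiffAt.sum fun i _ => ((hv x hx).dd _).pow 2)).add
        (contDiffAt_const.mul ((hv x hx).pow 2))))
  · simp [sq2, gr, z1 _ x hx, h0 x hx]
  · exact contDiffAt_const.mul ((hE x hx _).mul ((sa_dv (h x hx).sa (hv x hx)).pow 2))
  · by_cases hx : x ∈ K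
    · exact conj_pt (h x hx) (hv x hx) hm h1 h2 h3
    · simp [sq2, gr, z1 _ x hx, h0 x hx, z3 x hx, dd_zero hK.isClosed (z5 _) _ x hx]

end Vale.Agent.P088.Car
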