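import Mathlib

/-! P088, part A: directional derivatives and the multiplier identities. -/

open MeasureTheory Set Filter Topology
open scoped ContDiff

noncomputable section

namespace Vale.Agent.P088.Car

variable {E F : Type} [NormedAddCommGroup E] [NormedSpace ℝ E] [NormedAddCommGroup F]
  [NormedSpace ℝ F] {ι : Type} [Fintype ι]

/-- The derivative in the direction `v`. -/
def dd (v : E) (f : E → F) (x : E) : F := fderiv ℝ f x v

/-- Smooth at a point. -/
abbrev SA (f : E → F) (x : E) : Prop := ContDiffAt ℝ ∞ f x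

section calc1
variable {f g : E → ℝ} {u w : E → F} {x : E}

theorem SA.df (h : SA u x) : DifferentiableAt ℝ u x := h.differentiableAt (by simp)

theorem SA.dd (h : SA u x) (v : E) : SA (dd v u) x :=
  (h.fderiv_right (m := ∞) le_rfl).clm_apply contDiffAt_const

theorem SA.ev (h : SA u x) (k : ℕ) : ∀ᶠ y in 𝓝 x, ContDiffAt ℝ k u y :=
  (h.of_le (by exact_mod_cast le_top)).eventually (by simp)

theorem dd_congr (h : u =ᶠ[𝓝 x] w) (v : E) : dd v u x = dd v w x := by
  simp only [dd, h.fderiv_eq]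

theorem dd_congr_ev (h : u =ᶠ[𝓝 x] w) (v : E) : dd v u =ᶠ[𝓝 x] dd v w :=
  h.eventually_nhds.mono fun _ hy => dd_congr hy v

theorem dd_const (c : F) (v x : E) : dd v (fun _ => c) x = 0 := by simp [dd]

theorem dd_add (hu : SA u x) (hw : SA w x) (v : E) :
    dd v (fun y => u y + w y) x = dd v u x + dd v w x := by
  simp only [dd, fderiv_fun_add hu.df hw.df, add_apply]

theorem dd_sub (hu : SA u x) (hw : SA w x) (v : E) :
    dd v (fun y => u y - w y) x = dd v u x - dd v w x := by
  simp only [dd, fderiv_fun_sub hu.df hw.df, sub_apply]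

theorem dd_smul (hf : SA f x) (hu : SA u x) (v : E) :
    dd v (fun y => f y • u y) x = dd v f x • u x + f x • dd v u x := by
  simp only [dd, fderiv_fun_smul hf.df hu.df, add_apply, smul_apply,
    ContinuousLinearMap.smulRight_apply]
  rw [add_comm]

theorem dd_mul (hf : SA f x) (hg : SA g x) (v : E) :
    dd v (fun y => f y * g y) x = dd v f x * g x + f x * dd v g x := dd_smul hf hg v

theorem dd_sum {κ : Type} (s : Finset κ) {U : κ → E → F} (h : ∀ i, SA (U i) x) (v : E) :
    dd v (fun y => ∑ i ∈ s, U i y) x = ∑ i ∈ s, dd v (U i) x := by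
  simp only [dd, fderiv_fun_sum fun i (_ : i ∈ s) => (h i).df, sum_apply]

theorem dd_clm {G : Type} [NormedAddCommGroup G] [NormedSpace ℝ G] (l : F →L[ℝ] G) (hu : SA u x)
    (v : E) : dd v (fun y => l (u y)) x = l (dd v u x) := by
  have h := (l.hasFDerivAt.comp x hu.df.hasFDerivAt).fderiv
  simp only [dd]
  rw [show (fun y => l (u y)) = l ∘ u from rfl, h]
  rfl

theorem dd_exp (hf : SA f x) (v : E) :
    dd v (fun y => Real.exp (f y)) x = Real.exp (f x) * dd v f x := by
  simp only [dd, hf.df.hasFDerivAt.exp.fderiv, smul_apply, smul_eq_mul]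

theorem dd_cmul (c : ℝ) (hf : SA f x) (v : E) : dd v (fun y => c * f y) x = c * dd v f x := by
  rw [dd_mul contDiffAt_const hf, dd_const, zero_mul, zero_add]

theorem dd_comm (h : SA u x) (v v' : E) : dd v (dd v' u) x = dd v' (dd v u) x := by
  have h1 : DifferentiableAt ℝ (fderiv ℝ u) x :=
    (h.fderiv_right (m := ∞) le_rfl).differentiableAt (by simp)
  have h2 : ∀ a b : E, dd a (dd b u) x = fderiv ℝ (fderiv ℝ u) x a b := fun a b => by
    show fderiv ℝ (fun y => fderiv ℝ u y b) x a = _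
    rw [fderiv_clm_apply h1 (differentiableAt_const b)]
    simp
  rw [h2, h2]
  exact h.isSymmSndFDerivAt (by simp; exact WithTop.coe_le_coe.2 le_top) v v'

theorem dd_zero {K : Set E} (hK : IsClosed K) (h : ∀ y ∉ K, u y = 0) (v : E) (y : E)
    (hy : y ∉ K) : dd v u y = 0 := by
  rw [dd_congr (w := fun _ => 0) (Filter.mem_of_superset (hK.isOpen_compl.mem_nhds hy) h),
    dd_const]

theorem sm_of_loc {K : Set E} (hK : IsClosed K) (h : ∀ y ∈ K, SA u y) (h0 : ∀ y ∉ K, u y = 0) :
    ContDiff ℝ ∞ u := by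
  refine contDiff_iff_contDiffAt.2 fun y => ?_
  by_cases hy : y ∈ K
  · exact h y hy
  · exact contDiffAt_const.congr_of_eventuallyEq
      (Filter.mem_of_superset (hK.isOpen_compl.mem_nhds hy) h0)

end calc1

section int
variable [FiniteDimensional ℝ E] [MeasurableSpace E] [BorelSpace E] (μ : Measure E)
  [μ.IsAddHaarMeasure] {K : Set E} {f : E → ℝ}

omit [FiniteDimensional ℝ E] in
theorem int_loc (hK : IsCompact K) (h : ∀ y ∈ K, SA f y) (h0 : ∀ y ∉ K, f y = 0) :
    Integrable f μ :=
  (sm_of_loc hK.isClosed h h0).continuous.integrable_of_hasCompactSupport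
    (HasCompactSupport.intro hK h0)

theorem int_dd (hK : IsCompact K) (h : ∀ y ∈ K, SA f y) (h0 : ∀ y ∉ K, f y = 0) (v : E) :
    ∫ y, dd v f y ∂μ = 0 := by
  have h1 := int_loc μ hK h h0
  have h2 := int_loc μ hK (fun y hy => (h y hy).dd v) (dd_zero hK.isClosed h0 v)
  have h3 := integral_mul_fderiv_eq_neg_fderiv_mul_of_integrable (μ := μ) (v := v)
    (f := fun _ => (1 : ℝ)) (g := f) (by simp) (by simp only [one_mul]; exact h2) (by simpa using h1)
    (fun _ _ => differentiableAt_const _)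
    fun y _ => (sm_of_loc hK.isClosed h h0).differentiable (by simp) y
  simpa [dd] using h3

/-- A pointwise inequality up to a divergence can be integrated. -/
theorem int_le_of_div (e : ι → E) (hK : IsCompact K) {g : E → ℝ} {W : ι → E → ℝ}
    (hf : Integrable f μ) (hg : Integrable g μ) (hW : ∀ i, ∀ y ∈ K, SA (W i) y)
    (h0 : ∀ i, ∀ y ∉ K, W i y = 0) (h : ∀ y, f y + ∑ i, dd (e i) (W i) y ≤ g y) :
    ∫ y, f y ∂μ ≤ ∫ y, g y ∂μ := by
  have h1 := fun i => int_loc μ hK (fun y hy => (hW i y hy).dd (e i))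
    (dd_zero hK.isClosed (h0 i) (e i))
  have h2 := integral_mono (hf.add (integrable_finsetSum _ fun i _ => h1 i)) hg h
  simp only [Pi.add_apply] at h2
  rw [integral_add hf (integrable_finsetSum _ fun i _ => h1 i),
    integral_finsetSum _ fun i _ => h1 i] at h2
  simpa [int_dd μ hK (hW _) (h0 _)] using h2

end int

variable (e : ι → E) (a : ι → ι → E → ℝ)

/-- The flux. -/
def fx (u : E → F) (i : ι) (x : E) : F := ∑ j, a i j x • dd (e j) u x

/-- The operator in divergence form. -/
def dv (u : E → F) (x : E) : F := ∑ i, dd (e i) (fx e a u i) x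

/-- The derivative along a vector field. -/
def al (X : ι → E → ℝ) (f : E → ℝ) (x : E) : ℝ := ∑ k, X k x * dd (e k) f x

/-- The divergence. -/
def dg (X : ι → E → ℝ) (x : E) : ℝ := ∑ k, dd (e k) (X k) x

/-- The bilinear form of the coefficients. -/
def qf (x : E) (ξ η : ι → ℝ) : ℝ := ∑ i, ∑ j, a i j x * ξ i * η j

/-- The gradient. -/
def gr (f : E → ℝ) (x : E) : ι → ℝ := fun i => dd (e i) f x

/-- The deformation tensor. -/
def LL (X : ι → E → ℝ) (x : E) (ξ : ι → ℝ) : ℝ :=
  2 * ∑ i, ∑ k, (∑ j, a i j x * ξ j) * dd (e i) (X k) x * ξ k -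
    ∑ k, X k x * ∑ i, ∑ j, dd (e k) (a i j) x * ξ i * ξ j

variable {e a} {X : ι → E → ℝ} {v w c : E → ℝ} {u : E → F} {x : E}

theorem sa_fx (ha : ∀ i j, SA (a i j) x) (hu : SA u x) (i : ι) : SA (fx e a u i) x :=
  ContDiffAt.sum fun j _ => (ha i j).smul (hu.dd _)

theorem sa_dv (ha : ∀ i j, SA (a i j) x) (hu : SA u x) : SA (dv e a u) x :=
  ContDiffAt.sum fun i _ => (sa_fx ha hu i).dd _

theorem sa_al (hX : ∀ k, SA (X k) x) (hv : SA v x) : SA (al e X v) x :=
  ContDiffAt.sum fun k _ => (hX k).mul (hv.dd _)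

theorem sa_dg (hX : ∀ k, SA (X k) x) : SA (dg e X) x := ContDiffAt.sum fun k _ => (hX k).dd _

theorem sa_qf (ha : ∀ i j, SA (a i j) x) (hv : SA v x) (hw : SA w x) :
    SA (fun y => qf a y (gr e v y) (gr e w y)) x :=
  ContDiffAt.sum fun i _ => ContDiffAt.sum fun j _ => ((ha i j).mul (hv.dd _)).mul (hw.dd _)

/-- Green's identity at a point. -/
theorem green_pt (ha : ∀ i j, SA (a i j) x) (hv : SA v x) (hw : SA w x) :
    ∑ i, dd (e i) (fun y => w y * fx e a v i y) x =
      w x * dv e a v x + qf a x (gr e w x) (gr e v x) := by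
  rw [Finset.sum_congr rfl fun i _ => dd_mul hw (sa_fx (e := e) ha hv i) (e i),
    Finset.sum_add_distrib, add_comm, dv, Finset.mul_sum]
  congr 1
  refine Finset.sum_congr rfl fun i _ => ?_
  rw [fx, Finset.mul_sum]
  exact Finset.sum_congr rfl fun j _ => by simp only [gr, smul_eq_mul]; ring

theorem div_pt (hX : ∀ k, SA (X k) x) (hw : SA w x) :
    ∑ k, dd (e k) (fun y => X k y * w y) x = dg e X x * w x + al e X w x := by
  simp only [fun k => dd_mul (hX k) hw (e k), Finset.sum_add_distrib, dg, al, Finset.sum_mul]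

/-- The Rellich identity at a point. -/
theorem rellich_pt (ha : ∀ i j, SA (a i j) x) (hs : ∀ i j, a i j x = a j i x)
    (hX : ∀ k, SA (X k) x) (hv : SA v x) :
    ∑ i, dd (e i) (fun y => 2 * (al e X v y * fx e a v i y) -
        X i y * qf a y (gr e v y) (gr e v y)) x =
      2 * (al e X v x * dv e a v x) + LL e a X x (gr e v x) -
        dg e X x * qf a x (gr e v x) (gr e v x) := by
  have h1 := green_pt (e := e) ha hv (sa_al (e := e) hX hv)
  have h2 := div_pt (e := e) hX (sa_qf (e := e) ha hv hv)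
  have h3 : ∀ i, gr e (al e X v) x i = ∑ k, (dd (e i) (X k) x * dd (e k) v x +
      X k x * dd (e k) (dd (e i) v) x) := fun i => by
    show dd (e i) (fun y => ∑ k, X k y * dd (e k) v y) x = _
    rw [dd_sum _ fun k => (hX k).mul (hv.dd _)]
    exact Finset.sum_congr rfl fun k _ => by rw [dd_mul (hX k) (hv.dd _), dd_comm hv]
  have h4 : ∀ k, dd (e k) (fun y => qf a y (gr e v y) (gr e v y)) x =
      ∑ i, ∑ j, dd (e k) (a i j) x * dd (e i) v x * dd (e j) v x +
        2 * ∑ i, ∑ j, a i j x * dd (e k) (dd (e i) v) x * dd (e j) v x := fun k => by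
    show dd (e k) (fun y => ∑ i, ∑ j, a i j y * dd (e i) v y * dd (e j) v y) x = _
    rw [dd_sum _ fun i => ContDiffAt.sum fun j _ => ((ha i j).mul (hv.dd _)).mul (hv.dd _)]
    simp only [fun i => dd_sum Finset.univ
      (fun j => ((ha i j).mul (hv.dd (e i))).mul (hv.dd (e j))) (e k),
      fun i j => dd_mul ((ha i j).mul (hv.dd (e i))) (hv.dd (e j)) (e k),
      fun i j => dd_mul (ha i j) (hv.dd (e i)) (e k), add_mul, Finset.sum_add_distrib]
    have : ∑ i, ∑ j, a i j x * dd (e i) v x * dd (e k) (dd (e j) v) x =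
        ∑ i, ∑ j, a i j x * dd (e k) (dd (e i) v) x * dd (e j) v x := by
      rw [Finset.sum_comm]
      exact Finset.sum_congr rfl fun i _ => Finset.sum_congr rfl fun j _ => by rw [hs]; ring
    rw [this]
    ring
  have h5 : qf a x (gr e (al e X v) x) (gr e v x) =
      ∑ i, ∑ k, (∑ j, a i j x * dd (e j) v x) * dd (e i) (X k) x * dd (e k) v x +
        ∑ k, X k x * ∑ i, ∑ j, a i j x * dd (e k) (dd (e i) v) x * dd (e j) v x := by
    simp only [qf, h3]
    simp only [gr, Finset.mul_sum, Finset.sum_mul, mul_add, add_mul, Finset.sum_add_distrib]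
    congr 1
    · refine Finset.sum_congr rfl fun i _ => ?_
      rw [Finset.sum_comm]
      exact Finset.sum_congr rfl fun k _ => Finset.sum_congr rfl fun j _ => by ring
    · rw [Finset.sum_comm_cycle]
      exact Finset.sum_congr rfl fun k _ => Finset.sum_congr rfl fun i _ =>
        Finset.sum_congr rfl fun j _ => by ring
  rw [Finset.sum_congr rfl fun i _ => dd_sub (contDiffAt_const.mul ((sa_al (e := e) hX hv).mul
    (sa_fx (e := e) ha hv i))) ((hX i).mul (sa_qf (e := e) ha hv hv)) (e i),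
    Finset.sum_sub_distrib, Finset.sum_congr rfl
      fun i _ => dd_cmul 2 ((sa_al (e := e) hX hv).mul (sa_fx (e := e) ha hv i)) (e i),
    ← Finset.mul_sum, h1, h2, h5]
  simp only [al, h4, LL, gr, mul_add, Finset.sum_add_distrib, mul_left_comm _ (2 : ℝ),
    ← Finset.mul_sum]
  ring

end Vale.Agent.P088.Car
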