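import Vale.Agent.P088F.AMar

/-! P088, part A: admissible weights for coefficients close to the identity. -/

open MeasureTheory Set Filter Topology
open scoped ContDiff

noncomputable section

namespace Vale.Agent.P088.Car

variable {E : Type} [NormedAddCommGroup E] [NormedSpace ℝ E] {ι : Type} {S : Type}

/-- The families `f` and `g` differ by `t` times a bounded family. -/
def Nr (e : ι → E) (p : S → E) (t : S → ℝ) (k : ℕ) (f g : S → E → ℝ) : Prop :=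
  UB e p k f ∧ UB e p k g ∧ ∃ h, UB e p k h ∧ ∀ s, f s =ᶠ[𝓝 (p s)] fun y => g s y + t s * h s y

variable {e : ι → E} {p : S → E} {t : S → ℝ} {k : ℕ} {f g f' g' : S → E → ℝ}

theorem UB.nr (h : UB e p k f) : Nr e p t k f f :=
  ⟨h, h, fun _ _ => 0, ub_c 0, fun _ => .of_forall fun _ => by simp⟩

theorem Nr.pred (h : Nr e p t (k + 1) f g) : Nr e p t k f g :=
  ⟨h.1.pred, h.2.1.pred, h.2.2.imp fun _ h' => ⟨h'.1.pred, h'.2⟩⟩

theorem Nr.comp {S' : Type} (h : Nr e p t k f g) (c : S' → S) :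
    Nr e (fun s => p (c s)) (fun s => t (c s)) k (fun s => f (c s)) fun s => g (c s) := by
  obtain ⟨h1, h2, r, h3, h4⟩ := h
  exact ⟨h1.comp c, h2.comp c, _, h3.comp c, fun s => h4 (c s)⟩

theorem Nr.add (h : Nr e p t k f g) (h' : Nr e p t k f' g') :
    Nr e p t k (fun s y => f s y + f' s y) fun s y => g s y + g' s y := by
  obtain ⟨h1, h2, r, h3, h4⟩ := h
  obtain ⟨k1, k2, r', k3, k4⟩ := h'
  refine ⟨h1.add k1, h2.add k2, _, h3.add k3, fun s => ?_⟩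
  filter_upwards [h4 s, k4 s] with y a b
  rw [a, b]
  ring

theorem Nr.sub (h : Nr e p t k f g) (h' : Nr e p t k f' g') :
    Nr e p t k (fun s y => f s y - f' s y) fun s y => g s y - g' s y := by
  obtain ⟨h1, h2, r, h3, h4⟩ := h
  obtain ⟨k1, k2, r', k3, k4⟩ := h'
  refine ⟨h1.sub k1, h2.sub k2, _, h3.sub k3, fun s => ?_⟩
  filter_upwards [h4 s, k4 s] with y a b
  rw [a, b]
  ring

theorem Nr.mul (h : Nr e p t k f g) (h' : Nr e p t k f' g') :
    Nr e p t k (fun s y => f s y * f' s y) fun s y => g s y * g' s y := by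
  obtain ⟨h1, h2, r, h3, h4⟩ := h
  obtain ⟨k1, k2, r', k3, k4⟩ := h'
  refine ⟨h1.mul k1, h2.mul k2, _, (h3.mul k1).add (h2.mul k3), fun s => ?_⟩
  filter_upwards [h4 s, k4 s] with y a b
  rw [a, b]
  ring

theorem Nr.dd (h : Nr e p t (k + 1) f g) (i : ι) :
    Nr e p t k (fun s => dd (e i) (f s)) fun s => dd (e i) (g s) := by
  obtain ⟨h1, h2, r, h3, h4⟩ := h
  refine ⟨h1.dd i, h2.dd i, _, h3.dd i, fun s => (dd_congr_ev (h4 s) _).trans ?_⟩
  filter_upwards [(h2.sa s).ev 1, (h3.sa s).ev 1] with y a b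
  have b' := b.differentiableAt one_ne_zero
  simp only [Car.dd, fderiv_fun_add (a.differentiableAt one_ne_zero) (b'.const_mul _),
    fderiv_const_mul b', add_apply, smul_apply, smul_eq_mul]

theorem nr_sum {κ : Type} (T : Finset κ) {F G : κ → S → E → ℝ} (h : ∀ i, Nr e p t k (F i) (G i)) :
    Nr e p t k (fun s y => ∑ i ∈ T, F i s y) fun s y => ∑ i ∈ T, G i s y := by
  choose r h1 h2 using fun i => (h i).2.2
  refine ⟨ub_sum T fun i => (h i).1, ub_sum T fun i => (h i).2.1, _, ub_sum T h1, fun s => ?_⟩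
  filter_upwards [(eventually_all_finset T).2 fun i _ => h2 i s] with y a
  rw [Finset.mul_sum, ← Finset.sum_add_distrib]
  exact Finset.sum_congr rfl a

theorem Nr.bd (h : Nr e p t k f g) : ∃ L, 0 < L ∧ ∀ s, |f s (p s) - g s (p s)| ≤ |t s| * L := by
  obtain ⟨-, -, r, h3, h4⟩ := h
  obtain ⟨L, h0, hL⟩ := h3.bd
  refine ⟨L, h0, fun s => ?_⟩
  rw [(h4 s).self_of_nhds, add_sub_cancel_left, abs_mul]
  exact mul_le_mul_of_nonneg_left (hL s) (abs_nonneg _)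

variable [Fintype ι] {a b X Y : S → ι → ι → E → ℝ} {φ : S → E → ℝ}

theorem nr_fx (ha : ∀ i j, Nr e p t k (fun s => a s i j) fun s => b s i j) (hφ : UB e p (k + 1) φ)
    (i : ι) : Nr e p t k (fun s => fx e (a s) (φ s) i) fun s => fx e (b s) (φ s) i :=
  nr_sum _ fun j => (ha i j).mul (hφ.dd j).nr

theorem nr_qq (ha : ∀ i j, Nr e p t k (fun s => a s i j) fun s => b s i j)
    (hφ : UB e p (k + 1) φ) : Nr e p t k (fun s => qq e (a s) (φ s)) fun s => qq e (b s) (φ s) :=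
  nr_sum _ fun j => (nr_fx ha hφ j).mul (hφ.dd j).nr

theorem nr_zz (ha : ∀ i j, Nr e p t (k + 1) (fun s => a s i j) fun s => b s i j)
    (hφ : UB e p (k + 2) φ) : Nr e p t k (fun s => zz e (a s) (φ s)) fun s => zz e (b s) (φ s) :=
  nr_sum _ fun j => (nr_fx ha hφ j).pred.mul ((nr_qq ha hφ).dd j)

theorem nr_hh (ha : ∀ i j, Nr e p t (k + 1) (fun s => a s i j) fun s => b s i j)
    (hφ : UB e p (k + 2) φ) (γ Λ : ℝ) {ξ : S → ι → ℝ} (h : ∀ i, UB e p k fun s _ => ξ s i) :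
    Nr e p t k (fun s => hh e (a s) (φ s) γ Λ (ξ s)) fun s => hh e (b s) (φ s) γ Λ (ξ s) := by
  have h1 := nr_sum Finset.univ fun i => (nr_fx ha hφ i).pred.mul (h i).nr
  refine ((((ub_c 2).nr.mul (nr_sum _ fun i => nr_sum _ fun l => ((nr_sum _ fun j =>
    (ha i j).pred.mul (h j).nr).mul ((nr_fx ha hφ l).dd i)).mul (h l).nr)).sub
    (nr_sum _ fun l => (nr_fx ha hφ l).pred.mul (nr_sum _ fun i => nr_sum _ fun j =>
      (((ha i j).dd l).mul (h i).nr).mul (h j).nr))).add ((ub_c γ).nr.mul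
      (nr_sum _ fun i => nr_sum _ fun j => ((ha i j).pred.mul (h i).nr).mul (h j).nr))).add
    ((ub_c Λ).nr.mul ?_)
  simpa only [sq] using h1.mul h1

/-- The margins are stable under small perturbations of the coefficients. -/
theorem mar_near (ha : ∀ i j, Nr e p t 1 (fun s => a s i j) fun s => b s i j) (hφ : UB e p 2 φ)
    (γ Λ : ℝ) : ∃ L, 0 < L ∧ ∀ s m, Mar e (b s) (φ s) γ m Λ (p s) →
      Mar e (a s) (φ s) γ (m - |t s| * L) Λ (p s) := by
  obtain ⟨L1, p1, h1⟩ := (nr_hh (p := fun s : S × Cu ι => p s.1) (a := fun s => a s.1)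
    (b := fun s => b s.1) (fun i j => (ha i j).comp Prod.fst) (hφ.comp Prod.fst) γ Λ ub_cu).bd
  obtain ⟨L2, p2, h2⟩ := ((nr_zz ha hφ).sub ((nr_qq ha hφ).pred.mul (ub_c γ).nr)).bd
  refine ⟨L1 + L2, by positivity, fun s m h => ⟨fun ξ => ?_, ?_⟩⟩
  · have h3 := hom_bd (H := fun ξ => hh e (a s) (φ s) γ Λ ξ (p s) - hh e (b s) (φ s) γ Λ ξ (p s))
      (M := |t s| * L1) (fun c ξ => by rw [hh_smul, hh_smul, mul_sub])
      (fun ξ hξ => h1 (s, ⟨ξ, hξ⟩)) ξ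
    have h4 := mul_nonneg (mul_nonneg (abs_nonneg (t s)) p2.le) (sq2_nonneg ξ)
    have h5 := h.1 ξ
    have h6 := (abs_le.1 h3).1
    linarith
  · have h4 := mul_nonneg (abs_nonneg (t s)) p1.le
    have h5 := h.2
    have h6 := (abs_le.1 (h2 s)).1
    linarith

variable [DecidableEq ι]

/-- The identity matrix. -/
def kd (E : Type) (i j : ι) (_ : E) : ℝ := if i = j then 1 else 0

theorem fx_kd (φ : E → ℝ) (i : ι) : fx e (kd E) φ i = dd (e i) φ := by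
  funext y
  simp [fx, kd]

theorem mar_kd {φ : E → ℝ} {x : E} {γ m : ℝ} (hφ : SA φ x)
    (h1 : ∀ ξ, m * sq2 ξ ≤ 2 * ∑ i, ∑ j, ξ i * dd (e i) (dd (e j) φ) x * ξ j + γ * sq2 ξ)
    (h2 : m ≤ 2 * ∑ i, ∑ j, dd (e i) φ x * dd (e i) (dd (e j) φ) x * dd (e j) φ x -
      γ * ∑ i, dd (e i) φ x ^ 2) : Mar e (kd E) φ γ m 0 x := by
  have e1 : qq e (kd E) φ = fun y => ∑ i, dd (e i) φ y * dd (e i) φ y := by
    funext y
    simp only [qq, al, fx_kd]
  refine ⟨fun ξ => (h1 ξ).trans_eq ?_, h2.trans_eq ?_⟩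
  · have e2 : ∀ i j l : ι, dd (e l) (kd E i j) x = 0 := fun i j l => dd_const _ _ _
    simp [hh, LL, fx_kd, e2, kd, qf, sq2, sq]
  · rw [zz, al, e1]
    simp only [fx_kd, dd_sum _ fun i => (hφ.dd (e i)).mul (hφ.dd (e i)),
      dd_mul (hφ.dd _) (hφ.dd _), Finset.mul_sum, Finset.sum_mul]
    congr 1
    · exact Finset.sum_congr rfl fun i _ => Finset.sum_congr rfl fun j _ => by ring
    · exact Finset.sum_congr rfl fun i _ => by ring

/-- Weights with flat margins are admissible for coefficients close to the identity. -/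
theorem adm_of_flat (e : ι → E) (B γ : ℝ) {m : ℝ} (hm : 0 < m) : ∃ ε M, 0 < ε ∧ 0 < M ∧
    ∀ (a : ι → ι → E → ℝ) (φ : E → ℝ) (x : E), (∀ i j, SA (a i j) x) →
      (∀ i j, a i j x = a j i x) → SA φ x →
      (∀ i j, ∀ k ≤ 2, ‖iteratedFDeriv ℝ k (fun y => a i j y - kd E i j y) x‖ ≤ ε) →
      (∀ k ≤ 3, ‖iteratedFDeriv ℝ k φ x‖ ≤ B) →
      (∀ ξ, 2 * m * sq2 ξ ≤ 2 * ∑ i, ∑ j, ξ i * dd (e i) (dd (e j) φ) x * ξ j + γ * sq2 ξ) →
      2 * m ≤ 2 * ∑ i, ∑ j, dd (e i) φ x * dd (e i) (dd (e j) φ) x * dd (e j) φ x -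
        γ * ∑ i, dd (e i) φ x ^ 2 → Adm e a φ (fun _ => γ) m M x := by
  let S := {s : (ι → ι → E → ℝ) × (E → ℝ) × E × ℝ // (∀ i j, SA (s.1 i j) s.2.2.1) ∧
    SA s.2.1 s.2.2.1 ∧ (∀ i j, ∀ k ≤ 2, ‖iteratedFDeriv ℝ k (s.1 i j) s.2.2.1‖ ≤ 1) ∧
    (∀ k ≤ 3, ‖iteratedFDeriv ℝ k s.2.1 s.2.2.1‖ ≤ B) ∧ |s.2.2.2| ≤ 1}
  let A : S → ι → ι → E → ℝ := fun s i j y => kd E i j y + s.1.2.2.2 * s.1.1 i j y
  have hb : ∀ i j, UB e (fun s : S => s.1.2.2.1) 2 fun s => s.1.1 i j := fun i j =>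
    ub_of_bd (fun s => s.2.1 i j) fun s => s.2.2.2.1 i j
  have hφ : UB e (fun s : S => s.1.2.2.1) 3 fun s => s.1.2.1 :=
    ub_of_bd (fun s => s.2.2.1) fun s => s.2.2.2.2.1
  have hA : ∀ i j, Nr e (fun s : S => s.1.2.2.1) (fun s => s.1.2.2.2) 2 (fun s => A s i j)
      fun _ => kd E i j := fun i j =>
    ⟨(ub_c _).add ((ub_const fun s : S => s.2.2.2.2.2).mul (hb i j)), ub_c _, _, hb i j,
      fun _ => EventuallyEq.rfl⟩
  obtain ⟨L, hL, h1⟩ := mar_near (a := A) (b := fun _ => kd E) (fun i j => (hA i j).pred) hφ.pred γ 0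
  let S' := {s : S // (∀ i j, A s i j s.1.2.2.1 = A s j i s.1.2.2.1) ∧
    Mar e (A s) s.1.2.1 γ m 0 s.1.2.2.1}
  obtain ⟨M, hM, h2⟩ := adm_of_mar (p := fun s : S' => s.1.1.2.2.1) (a := fun s => A s.1)
    (φ := fun s => s.1.1.2.1) (g := fun _ _ => γ) (fun i j => (hA i j).1.comp Subtype.val)
    (fun s => s.2.1) (hφ.comp Subtype.val) (ub_c γ) fun s => s.2.2
  obtain ⟨ε, e0, e1, e2⟩ : ∃ ε, 0 < ε ∧ ε ≤ 1 ∧ ε * L ≤ m :=
    ⟨min 1 (m / L), by positivity, min_le_left _ _, (le_div_iff₀ hL).1 (min_le_right _ _)⟩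
  refine ⟨ε, M, e0, hM, fun a φ x ha hs hφ' hb' hB k1 k2 => ?_⟩
  have c1 : ∀ i j, SA (fun y => a i j y - kd E i j y) x := fun i j => (ha i j).sub contDiffAt_const
  let s : S := ⟨(fun i j y => ε⁻¹ • (a i j y - kd E i j y), φ, x, ε),
    fun i j => (c1 i j).const_smul _, hφ', fun i j k hk => by
      have c2 := iteratedFDeriv_const_smul_apply' (a := ε⁻¹) (i := k)
        ((c1 i j).of_le (by exact_mod_cast le_top))
      rw [c2, norm_smul, Real.norm_of_nonneg (inv_pos.2 e0).le, inv_mul_le_iff₀ e0, mul_one]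
      exact hb' i j k hk, hB, by rwa [abs_of_pos e0]⟩
  have c3 : A s = a := by
    funext i j y
    simp only [A, s, smul_eq_mul, mul_inv_cancel_left₀ e0.ne', add_sub_cancel]
  have c4 := h1 s (2 * m) (mar_kd hφ' k1 k2)
  have c5 : m ≤ 2 * m - |ε| * L := by rw [abs_of_pos e0]; linarith
  have c6 : Adm e (A s) φ (fun _ => γ) m M x := h2 ⟨s, by rw [c3]; exact hs, fun ξ =>
    (mul_le_mul_of_nonneg_right c5 (sq2_nonneg ξ)).trans (c4.1 ξ), c5.trans c4.2⟩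
  rwa [c3] at c6

end Vale.Agent.P088.Car
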