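import Vale.Agent.P088F.AUb

/-! P088, part A: from margins to admissible weights. -/

open MeasureTheory Set Filter Topology Metric
open scoped ContDiff

noncomputable section

namespace Vale.Agent.P088.Car

variable {E : Type} [NormedAddCommGroup E] [NormedSpace ℝ E] {ι : Type} [Fintype ι] {S : Type}

/-- The derivative of `qq` along the gradient of the weight. -/
def zz (e : ι → E) (a : ι → ι → E → ℝ) (φ : E → ℝ) : E → ℝ := al e (fx e a φ) (qq e a φ)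

/-- The quadratic form in the gradient terms. -/
def hh (e : ι → E) (a : ι → ι → E → ℝ) (φ : E → ℝ) (γ Λ : ℝ) (ξ : ι → ℝ) (x : E) : ℝ :=
  LL e a (fx e a φ) x ξ + γ * qf a x ξ ξ + Λ * (∑ k, fx e a φ k x * ξ k) ^ 2

/-- The two margins at `x` for the multiplier with value `γ`. -/
def Mar (e : ι → E) (a : ι → ι → E → ℝ) (φ : E → ℝ) (γ m Λ : ℝ) (x : E) : Prop :=
  (∀ ξ, m * sq2 ξ ≤ hh e a φ γ Λ ξ x) ∧ m ≤ zz e a φ x - qq e a φ x * γ

/-- Strong pseudoconvexity at `x`. -/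
def Psc (e : ι → E) (a : ι → ι → E → ℝ) (φ : E → ℝ) (c Λ : ℝ) (x : E) : Prop :=
  ∀ ξ, c * sq2 ξ ≤ hh e a φ (zz e a φ x / qq e a φ x) Λ ξ x

variable {e : ι → E} {p : S → E} {a b : S → ι → ι → E → ℝ} {φ g : S → E → ℝ} {m Λ c μ : ℝ}

theorem hh_smul (a : ι → ι → E → ℝ) (φ : E → ℝ) (γ Λ t : ℝ) (ξ : ι → ℝ) (x : E) :
    hh e a φ γ Λ (t • ξ) x = t ^ 2 * hh e a φ γ Λ ξ x := by
  simp only [hh, LL_smul, qf_smul, sum_smul']
  ring

theorem ub_zz {k : ℕ} (ha : ∀ i j, UB e p (k + 1) fun s => a s i j) (hφ : UB e p (k + 2) φ) :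
    UB e p k fun s => zz e (a s) (φ s) :=
  ub_al (ub_fx (fun i j => (ha i j).pred) hφ.pred) (ub_qq ha hφ)

theorem ub_hh {k : ℕ} (ha : ∀ i j, UB e p (k + 1) fun s => a s i j) (hφ : UB e p (k + 2) φ)
    {γ : S → ℝ} {B : ℝ} (hγ : ∀ s, |γ s| ≤ B) (Λ : ℝ) :
    UB e (fun s : S × Cu ι => p s.1) k fun s => hh e (a s.1) (φ s.1) (γ s.1) Λ s.2.1 :=
  ((ub_LL (fun i j => (ha i j).comp Prod.fst) (fun i => (ub_fx ha hφ i).comp Prod.fst) ub_cu).add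
    ((ub_const (c := fun s : S × Cu ι => γ s.1) fun s => hγ s.1).mul
      (ub_qf (fun i j => (ha i j).pred.comp Prod.fst) ub_cu
      ub_cu))).add ((ub_c Λ).mul (ub_sum Finset.univ fun i =>
        ((ub_fx ha hφ i).pred.comp Prod.fst).mul (ub_cu i)).sq)

theorem qf_bd (ha : ∀ i j, UB e p 0 fun s => a s i j) :
    ∃ A, 0 < A ∧ ∀ s ξ, |qf (a s) (p s) ξ ξ| ≤ A * sq2 ξ := by
  obtain ⟨A, h0, hA⟩ := (ub_qf (p := fun s : S × Cu ι => p s.1) (a := fun s => a s.1)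
    (fun i j => (ha i j).comp Prod.fst) ub_cu ub_cu).bd
  exact ⟨A, h0, fun s => hom_bd (fun t ξ => by rw [qf_smul, sq]) fun ξ hξ => hA (s, ⟨ξ, hξ⟩)⟩

theorem adm_of_mar (ha : ∀ i j, UB e p 2 fun s => a s i j)
    (hs : ∀ s i j, a s i j (p s) = a s j i (p s)) (hφ : UB e p 3 φ) (hg : UB e p 1 g)
    (h : ∀ s, Mar e (a s) (φ s) (g s (p s)) m Λ (p s)) :
    ∃ M, 0 < M ∧ ∀ s, Adm e (a s) (φ s) (g s) m M (p s) := by
  have hc := (ub_dv ha hφ).add hg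
  obtain ⟨M0, p0, h0⟩ := (hc.sq.add ((ub_c 2).mul hg.sq)).bd
  obtain ⟨M1, p1, h1⟩ := (ub_qf (p := fun s : S × Cu ι => p s.1) (a := fun s => a s.1)
    (fun i j => (ha i j).zero.comp Prod.fst) (fun i => (hc.dd i).comp Prod.fst) ub_cu).sq.bd
  obtain ⟨M2, p2, h2⟩ := (ub_sq2 fun i => hφ.dd i).bd
  have pΛ := abs_nonneg Λ
  refine ⟨M0 + M1 + M2 + |Λ|, by positivity, fun s => ⟨fun i j => (ha i j).sa s, hs s, hφ.sa s,
    hg.sa s, fun ξ => ((h s).1 ξ).trans ?_, (h s).2, ?_, fun ξ => ?_, ?_⟩⟩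
  · unfold hh
    gcongr
    linarith [le_abs_self Λ]
  · linarith [(le_abs_self _).trans (h0 s)]
  · refine ((le_abs_self _).trans (hom_bd (H := fun ξ => qf (a s) (p s)
      (gr e (fun y => dv e (a s) (φ s) y + g s y) (p s)) ξ ^ 2) (fun t ξ => ?_)
      (fun ξ hξ => h1 (s, ⟨ξ, hξ⟩)) ξ)).trans ?_
    · rw [← one_smul ℝ (gr e _ _), qf_smul]
      simp [mul_pow]
    · exact mul_le_mul_of_nonneg_right (by linarith) (sq2_nonneg _)
  · linarith [(le_abs_self _).trans (h2 s), show sq2 (gr e (φ s) (p s)) =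
      sq2 fun i => dd (e i) (φ s) (p s) from rfl]

theorem qq_eq (a : ι → ι → E → ℝ) (φ : E → ℝ) (x : E) :
    qq e a φ x = qf a x (gr e φ x) (gr e φ x) := by
  rw [qf_eq]
  exact Finset.sum_congr rfl fun _ _ => mul_comm _ _

theorem mar_of_psc (ha : ∀ i j, UB e p 0 fun s => a s i j) (hc : 0 < c) (hμ : 0 < μ)
    (hq : ∀ s, μ ≤ qq e (a s) (φ s) (p s)) (h : ∀ s, Psc e (a s) (φ s) c Λ (p s)) :
    ∃ c' m, 0 < m ∧ ∀ s, Mar e (a s) (φ s)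
      (zz e (a s) (φ s) (p s) / qq e (a s) (φ s) (p s) - c') m Λ (p s) := by
  obtain ⟨A, hA, h1⟩ := qf_bd ha
  refine ⟨c / (2 * A), min (c / 2) (μ * (c / (2 * A))), by positivity, fun s => ⟨fun ξ => ?_, ?_⟩⟩
  · have h2 := h s ξ
    have h3 : c / (2 * A) * qf (a s) (p s) ξ ξ ≤ c / (2 * A) * (A * sq2 ξ) := by
      gcongr
      exact (le_abs_self _).trans (h1 s ξ)
    have h4 : c / (2 * A) * (A * sq2 ξ) = c / 2 * sq2 ξ := by field_simp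
    have h5 := mul_le_mul_of_nonneg_right (min_le_left (c / 2) (μ * (c / (2 * A)))) (sq2_nonneg ξ)
    unfold hh at h2 ⊢
    linarith
  · rw [mul_sub, mul_div_cancel₀ _ (hμ.trans_le (hq s)).ne', sub_sub_cancel]
    exact (min_le_right _ _).trans (by gcongr; exact hq s)

/-- Strong pseudoconvexity at every point gives admissible weights. -/
theorem adm_of_psc (ha : ∀ i j, UB e p 2 fun s => a s i j)
    (hs : ∀ s i j, a s i j (p s) = a s j i (p s)) (hφ : UB e p 3 φ) (hc : 0 < c) (hμ : 0 < μ)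
    (hq : ∀ s, μ ≤ qq e (a s) (φ s) (p s)) (h : ∀ s, Psc e (a s) (φ s) c Λ (p s)) :
    ∃ c' m M, 0 < m ∧ 0 < M ∧ ∀ s, Adm e (a s) (φ s)
      (fun y => zz e (a s) (φ s) y * (qq e (a s) (φ s) y)⁻¹ - c') m M (p s) := by
  obtain ⟨c', m, hm, h1⟩ := mar_of_psc (fun i j => (ha i j).zero) hc hμ hq h
  obtain ⟨M, hM, h2⟩ := adm_of_mar ha hs hφ (((ub_zz ha hφ).mul
    ((ub_qq (fun i j => (ha i j).pred) hφ.pred).inv hμ hq)).sub (ub_c c')) h1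
  exact ⟨c', m, M, hm, hM, h2⟩

/-- Points in balls around the base points. -/
abbrev Bl (p : S → E) (r : ℝ) : Type := {q : S × E // q.2 ∈ ball (p q.1) r}

theorem ub_lip (he : ∀ l : E →L[ℝ] ℝ, ‖l‖ ≤ ∑ i, |l (e i)|) {r : ℝ} {f : S → E → ℝ}
    (h : UB e (fun s : Bl p r => s.1.2) 1 fun s => f s.1.1) :
    ∃ L, 0 < L ∧ ∀ s, ∀ x ∈ ball (p s) r, |f s x - f s (p s)| ≤ L * dist x (p s) := by
  choose M h0 hM using fun i => (h.dd i).bd
  have h1 : 0 ≤ ∑ i, M i := Finset.sum_nonneg fun i _ => (h0 i).le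
  refine ⟨∑ i, M i + 1, by positivity, fun s x hx => ?_⟩
  rw [dist_eq_norm]
  refine (convex_ball (p s) r).norm_image_sub_le_of_norm_fderiv_le (𝕜 := ℝ)
    (fun y hy => (h.sa ⟨(s, y), hy⟩).df) (fun y hy => (he _).trans ?_)
    (mem_ball_self (dist_nonneg.trans_lt hx)) hx
  exact (Finset.sum_le_sum fun i _ => hM i ⟨(s, y), hy⟩).trans (by linarith)

/-- The margins with a constant multiplier persist on a uniform ball. -/
theorem mar_loc (he : ∀ l : E →L[ℝ] ℝ, ‖l‖ ≤ ∑ i, |l (e i)|) {r : ℝ} (hr : 0 < r)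
    (ha : ∀ i j, UB e (fun s : Bl p r => s.1.2) 2 fun s => a s.1.1 i j)
    (hφ : UB e (fun s : Bl p r => s.1.2) 3 fun s => φ s.1.1) {γ : S → ℝ} {B : ℝ}
    (hγ : ∀ s, |γ s| ≤ B) (hm : 0 < m) (h : ∀ s, Mar e (a s) (φ s) (γ s) m Λ (p s)) :
    ∃ d, 0 < d ∧ d ≤ r ∧ ∀ s, ∀ x ∈ ball (p s) d, Mar e (a s) (φ s) (γ s) (m / 2) Λ x := by
  obtain ⟨L1, p1, h1⟩ := ub_lip (p := fun s : S × Cu ι => p s.1) he
    (f := fun s => hh e (a s.1) (φ s.1) (γ s.1) Λ s.2.1)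
    ((ub_hh (γ := fun s : Bl p r => γ s.1.1) ha hφ (fun s => hγ s.1.1) Λ).comp
      fun s : Bl (fun s : S × Cu ι => p s.1) r =>
        ((⟨(s.1.1.1, s.1.2), s.2⟩, s.1.1.2) : Bl p r × Cu ι))
  obtain ⟨L2, p2, h2⟩ := ub_lip (p := p) he
    (f := fun s y => zz e (a s) (φ s) y - qq e (a s) (φ s) y * γ s)
    ((ub_zz ha hφ).sub ((ub_qq (fun i j => (ha i j).pred) hφ.pred).mul
      (ub_const (c := fun s : Bl p r => γ s.1.1) fun s => hγ s.1.1)))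
  refine ⟨min r (m / 2 / (L1 + L2)), by positivity, min_le_left _ _, fun s x hx => ?_⟩
  have hx1 : x ∈ ball (p s) r := ball_subset_ball (min_le_left _ _) hx
  have hx2 : dist x (p s) * (L1 + L2) ≤ m / 2 :=
    (le_div_iff₀ (by positivity)).1 ((mem_ball.1 hx).le.trans (min_le_right _ _))
  have hd := dist_nonneg (x := x) (y := p s)
  refine ⟨fun ξ => ?_, ?_⟩
  · have h3 := hom_bd (H := fun ξ => hh e (a s) (φ s) (γ s) Λ ξ x - hh e (a s) (φ s) (γ s) Λ ξ (p s))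
      (M := m / 2) (fun t ξ => by simp only [hh_smul]; ring)
      (fun ξ hξ => (h1 (s, ⟨ξ, hξ⟩) x hx1).trans (by nlinarith)) ξ
    linarith [(h s).1 ξ, neg_le_of_abs_le h3]
  · have h3 := neg_le_of_abs_le (h2 s x hx1)
    nlinarith [(h s).2]

/-- Strong pseudoconvexity at the base point gives admissible weights on a uniform ball. -/
theorem adm_loc (he : ∀ l : E →L[ℝ] ℝ, ‖l‖ ≤ ∑ i, |l (e i)|) {r : ℝ} (hr : 0 < r)
    (ha : ∀ i j, UB e (fun s : Bl p r => s.1.2) 2 fun s => a s.1.1 i j)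
    (hs : ∀ s i j, ∀ x ∈ ball (p s) r, a s i j x = a s j i x)
    (hφ : UB e (fun s : Bl p r => s.1.2) 3 fun s => φ s.1.1) (hc : 0 < c) (hμ : 0 < μ)
    (hq : ∀ s, μ ≤ qq e (a s) (φ s) (p s)) (h : ∀ s, Psc e (a s) (φ s) c Λ (p s)) :
    ∃ (γ : S → ℝ) (d m M : ℝ), 0 < d ∧ d ≤ r ∧ 0 < m ∧ 0 < M ∧
      ∀ s, ∀ x ∈ ball (p s) d, Adm e (a s) (φ s) (fun _ => γ s) m M x := by
  have ha0 := fun i j => (ha i j).comp fun s : S => (⟨(s, p s), mem_ball_self hr⟩ : Bl p r)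
  have hφ0 := hφ.comp fun s : S => (⟨(s, p s), mem_ball_self hr⟩ : Bl p r)
  obtain ⟨c', m, hm, h1⟩ := mar_of_psc (fun i j => (ha0 i j).zero) hc hμ hq h
  obtain ⟨B, -, hB⟩ := (((ub_zz ha0 hφ0).mul
    ((ub_qq (fun i j => (ha0 i j).pred) hφ0.pred).inv hμ hq)).sub (ub_c c')).bd
  obtain ⟨d, hd, hdr, h2⟩ := mar_loc he hr ha hφ hB hm h1
  obtain ⟨M, hM, h3⟩ := adm_of_mar (p := fun s : Bl p d => s.1.2) (a := fun s => a s.1.1)
    (φ := fun s => φ s.1.1) (m := m / 2) (Λ := Λ)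
    (fun i j => (ha i j).comp fun s : Bl p d => ⟨s.1, ball_subset_ball hdr s.2⟩)
    (fun s i j => hs _ i j _ (ball_subset_ball hdr s.2))
    (hφ.comp fun s : Bl p d => ⟨s.1, ball_subset_ball hdr s.2⟩)
    (ub_const fun s : Bl p d => hB s.1.1)
    fun s => h2 _ _ s.2
  exact ⟨fun s => zz e (a s) (φ s) (p s) * (qq e (a s) (φ s) (p s))⁻¹ - c', d, m / 2, M,
    hd, hdr, half_pos hm, hM, fun s x hx => h3 ⟨(s, x), hx⟩⟩

end Vale.Agent.P088.Car
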