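import Vale.Agent.P088F.AUcp

/-! P088, part A: pseudoconvexity on the orthogonal complement suffices. -/

open MeasureTheory Set Filter Topology Metric
open scoped ContDiff

noncomputable section

namespace Vale.Agent.P088.Car

variable {E F : Type} [NormedAddCommGroup E] [NormedSpace ℝ E] [NormedAddCommGroup F]
  [NormedSpace ℝ F] {ι κ S : Type} [Fintype ι] [Fintype κ] {e : ι → E}

section pt
variable {a : ι → ι → E → ℝ} {φ : E → ℝ} {x : E}

omit [Fintype ι] in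
theorem dd_neg (v : E) (f : E → F) : dd v (fun y => -f y) = fun y => -dd v f y := by
  funext y
  simp only [dd, fderiv_fun_neg, neg_apply]

theorem fx_neg (i : ι) : fx e a (fun y => -φ y) i = fun y => -fx e a φ i y := by
  funext y
  simp only [fx, dd_neg, smul_neg, Finset.sum_neg_distrib]

theorem qq_neg : qq e a (fun y => -φ y) = qq e a φ := by
  funext y
  simp only [qq, al, fx_neg, dd_neg, neg_mul_neg]

theorem zz_neg : zz e a (fun y => -φ y) x = -zz e a φ x := by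
  simp only [zz, al, qq_neg, fx_neg, neg_mul, Finset.sum_neg_distrib]

theorem LL_neg (ξ : ι → ℝ) : LL e a (fx e a fun y => -φ y) x ξ = -LL e a (fx e a φ) x ξ := by
  simp only [LL, fx_neg, dd_neg, neg_mul, mul_neg, Finset.sum_neg_distrib]
  ring

theorem dd_fx (ha : ∀ i j, SA (a i j) x) (hφ : SA φ x) (i k : ι) : dd (e i) (fx e a φ k) x =
    ∑ l, (dd (e i) (a k l) x * dd (e l) φ x + a k l x * dd (e i) (dd (e l) φ) x) := by
  show dd (e i) (fun y => ∑ l, a k l y * dd (e l) φ y) x = _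
  rw [dd_sum _ fun l => (ha k l).mul (hφ.dd _)]
  exact Finset.sum_congr rfl fun l _ => dd_mul (ha k l) (hφ.dd _) _

theorem zz_eq (ha : ∀ i j, SA (a i j) x) (hs : ∀ i j, a i j x = a j i x) (hφ : SA φ x) :
    zz e a φ x = LL e a (fx e a φ) x (gr e φ x) := by
  have hX := sa_fx (e := e) ha hφ
  have h1 : ∀ l, dd (e l) (qq e a φ) x = ∑ k, dd (e l) (fx e a φ k) x * dd (e k) φ x +
      ∑ k, fx e a φ k x * dd (e l) (dd (e k) φ) x := fun l => by
    show dd (e l) (fun y => ∑ k, fx e a φ k y * dd (e k) φ y) x = _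
    rw [dd_sum _ fun k => (hX k).mul (hφ.dd _), ← Finset.sum_add_distrib]
    exact Finset.sum_congr rfl fun k _ => dd_mul (hX k) (hφ.dd _) _
  have h2 : ∀ l, ∑ k, dd (e l) (fx e a φ k) x * dd (e k) φ x =
      ∑ i, ∑ j, dd (e l) (a i j) x * dd (e i) φ x * dd (e j) φ x +
        ∑ k, fx e a φ k x * dd (e l) (dd (e k) φ) x := fun l => by
    simp only [dd_fx ha hφ, Finset.sum_mul, add_mul, Finset.sum_add_distrib]
    congr 1
    · exact Finset.sum_congr rfl fun i _ => Finset.sum_congr rfl fun j _ => by ring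
    · rw [Finset.sum_comm]
      refine Finset.sum_congr rfl fun k _ => ?_
      rw [fx, Finset.sum_mul]
      exact Finset.sum_congr rfl fun j _ => by rw [hs j k, smul_eq_mul]; ring
  have h3 : ∀ i, ∑ k, (∑ j, a i j x * gr e φ x j) * dd (e i) (fx e a φ k) x * gr e φ x k =
      fx e a φ i x * ∑ k, dd (e i) (fx e a φ k) x * dd (e k) φ x := fun i => by
    rw [Finset.mul_sum]
    exact Finset.sum_congr rfl fun k _ => mul_assoc _ _ _
  simp only [LL, h3]
  simp only [zz, al, h1, h2, mul_add, Finset.sum_add_distrib, gr]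
  ring

omit [NormedAddCommGroup E] [NormedSpace ℝ E] in
theorem qf_bil {A δ : ℝ} (h : ∀ i j, |a i j x| ≤ A) (hδ : 0 < δ) (ξ η : ι → ℝ) :
    |qf a x ξ η| ≤ A * Fintype.card ι * (δ * sq2 ξ + sq2 η / δ) := by
  have h1 : ∀ i j, |a i j x * ξ i * η j| ≤ A * (δ * ξ i ^ 2) + A * (η j ^ 2 / δ) := fun i j => by
    rw [mul_assoc, abs_mul, ← mul_add]
    refine mul_le_mul (h i j) ?_ (abs_nonneg _) ((abs_nonneg _).trans (h i j))
    have h2 : η j ^ 2 / δ = δ * (η j / δ) ^ 2 := by field_simp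
    have h3 : ξ i * η j = δ * (ξ i * (η j / δ)) := by field_simp
    rw [h2, h3, ← mul_add, abs_mul, abs_of_pos hδ]
    refine mul_le_mul_of_nonneg_left (abs_le.2 ⟨?_, ?_⟩) hδ.le <;>
      nlinarith [sq_nonneg (ξ i + η j / δ), sq_nonneg (ξ i - η j / δ)]
  refine (Finset.abs_sum_le_sum_abs _ _).trans ((Finset.sum_le_sum fun i _ =>
    (Finset.abs_sum_le_sum_abs _ _).trans (Finset.sum_le_sum fun j _ => h1 i j)).trans
      (le_of_eq ?_))
  simp only [Finset.sum_add_distrib, Finset.sum_const, Finset.card_univ, nsmul_eq_mul, sq2,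
    ← Finset.mul_sum, ← Finset.sum_div]
  ring

omit [NormedAddCommGroup E] [NormedSpace ℝ E] in
theorem finsler {A c μ : ℝ} (h : ∀ i j, |a i j x| ≤ A) (hA : 0 < A) (hc : 0 < c) (hμ : 0 < μ)
    {X w : ι → ℝ} (hw : sq2 w ≤ A) (hq : μ ≤ ∑ k, X k * w k)
    (hp : ∀ ξ, ∑ k, X k * ξ k = 0 → 2 * c * sq2 ξ ≤ qf a x ξ ξ) (ξ : ι → ℝ) :
    c / 2 * sq2 ξ ≤ qf a x ξ ξ + (4 * (A * (Fintype.card ι + 1)) ^ 2 / c +
      2 * (A * (Fintype.card ι + 1)) + c) * (A / μ ^ 2) * (∑ k, X k * ξ k) ^ 2 := by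
  set q := ∑ k, X k * w k
  set t := (∑ k, X k * ξ k) / q with ht
  have q0 : 0 < q := hμ.trans_le hq
  set B := A * (Fintype.card ι + 1) with hB
  have B0 : 0 < B := by positivity
  have h1 := hp (ξ - t • w) (by
    simp only [Pi.sub_apply, mul_sub, Finset.sum_sub_distrib, sum_smul']
    rw [ht, div_mul_cancel₀ _ q0.ne', sub_self])
  have h2 : qf a x ξ ξ = qf a x (ξ - t • w) (ξ - t • w) + qf a x (ξ - t • w) (t • w) +
      qf a x (t • w) (ξ - t • w) + qf a x (t • w) (t • w) := by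
    simp only [qf, Pi.sub_apply, ← Finset.sum_add_distrib]
    exact Finset.sum_congr rfl fun i _ => Finset.sum_congr rfl fun j _ => by ring
  have h3 : sq2 ξ ≤ 2 * sq2 (ξ - t • w) + 2 * sq2 (t • w) := by
    simp only [sq2, Pi.sub_apply, Finset.mul_sum, ← Finset.sum_add_distrib]
    exact Finset.sum_le_sum fun i _ => by nlinarith [sq_nonneg (ξ i - 2 * (t • w) i)]
  have h4 : sq2 (t • w) ≤ A / μ ^ 2 * (∑ k, X k * ξ k) ^ 2 := by
    have e1 : sq2 (t • w) = t ^ 2 * sq2 w := by simp [sq2, mul_pow, Finset.mul_sum]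
    have e2 : t ^ 2 ≤ (∑ k, X k * ξ k) ^ 2 / μ ^ 2 := by rw [ht, div_pow]; gcongr
    rw [e1]
    refine (mul_le_mul e2 hw (sq2_nonneg _) (by positivity)).trans (le_of_eq (by ring))
  have hb : ∀ {δ : ℝ}, 0 < δ → ∀ ξ η, -(B * (δ * sq2 ξ + sq2 η / δ)) ≤ qf a x ξ η :=
    fun hδ ξ η => (neg_le_neg (by
      have := sq2_nonneg ξ
      have := sq2_nonneg η
      rw [hB]
      gcongr
      linarith)).trans (neg_le_of_abs_le (qf_bil h hδ ξ η))
  have h5 := hb (δ := c / (2 * B)) (by positivity) (ξ - t • w) (t • w)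
  have h6 := hb (δ := 2 * B / c) (by positivity) (t • w) (ξ - t • w)
  have h7 := hb one_pos (t • w) (t • w)
  have e5 : B * (c / (2 * B) * sq2 (ξ - t • w) + sq2 (t • w) / (c / (2 * B))) =
      c / 2 * sq2 (ξ - t • w) + 2 * B ^ 2 / c * sq2 (t • w) := by field_simp
  have e6 : B * (2 * B / c * sq2 (t • w) + sq2 (ξ - t • w) / (2 * B / c)) =
      c / 2 * sq2 (ξ - t • w) + 2 * B ^ 2 / c * sq2 (t • w) := by field_simp; ring
  have h8 := mul_le_mul_of_nonneg_left h4 (by positivity : 0 ≤ 4 * B ^ 2 / c + 2 * B + c)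
  have h9 := mul_le_mul_of_nonneg_left h3 (half_pos hc).le
  have e7 : 4 * B ^ 2 / c = 2 * (2 * B ^ 2 / c) := by ring
  rw [e5] at h5
  rw [e6] at h6
  rw [mul_assoc _ (A / μ ^ 2), e7]
  rw [e7] at h8
  nlinarith

/-- The matrix of the quadratic form `hh`. -/
def hm (e : ι → E) (a : ι → ι → E → ℝ) (φ : E → ℝ) (γ : ℝ) (j k : ι) (y : E) : ℝ :=
  2 * ∑ i, a i j y * dd (e i) (fx e a φ k) y - ∑ l, fx e a φ l y * dd (e l) (a j k) y + γ * a j k y

theorem hh_eq (γ Λ : ℝ) (ξ : ι → ℝ) :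
    hh e a φ γ Λ ξ x = qf (hm e a φ γ) x ξ ξ + Λ * (∑ k, fx e a φ k x * ξ k) ^ 2 := by
  simp only [hh, LL, qf, hm, add_mul, sub_mul, Finset.sum_add_distrib, Finset.sum_sub_distrib,
    Finset.mul_sum, Finset.sum_mul]
  congr 3
  · rw [Finset.sum_comm_cycle, Finset.sum_comm_cycle, Finset.sum_comm]
    exact Finset.sum_congr rfl fun _ _ => Finset.sum_congr rfl fun _ _ =>
      Finset.sum_congr rfl fun _ _ => by ring
  · rw [Finset.sum_comm_cycle, Finset.sum_comm_cycle]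
    exact Finset.sum_congr rfl fun _ _ => Finset.sum_congr rfl fun _ _ =>
      Finset.sum_congr rfl fun _ _ => by ring
  · exact funext fun _ => Finset.sum_congr rfl fun _ _ => by ring

theorem n0_dv_le {u : κ → E → F} {B : ℝ} (ha : ∀ i j, SA (a i j) x) (hu : ∀ k, SA (u k) x)
    (hB : ∀ i j, |dd (e i) (a i j) x| ≤ B) : n0 (fun k => dv e a (u k)) x ≤
      2 * n0 (fun k => nd e a (u k)) x + 2 * (Fintype.card ι) ^ 3 * B ^ 2 * n1 e u x := by
  simp only [n0, n1, Finset.mul_sum _ _ (2 : ℝ), Finset.mul_sum _ _ (2 * _ * B ^ 2),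
    ← Finset.sum_add_distrib]
  refine Finset.sum_le_sum fun k _ => ?_
  have h6 := nsq_sum (fun q : ι × ι => dd (e q.1) (a q.1 q.2) x)
    (fun q => dd (e q.2) (u k) x) fun q => hB q.1 q.2
  simp only [Fintype.sum_prod_type, Finset.sum_const, Finset.card_univ, nsmul_eq_mul,
    Fintype.card_prod, Nat.cast_mul] at h6
  rw [dv_eq_nd ha (hu k), ← Finset.mul_sum]
  refine (pow_le_pow_left₀ (norm_nonneg _) (norm_add_le _ _) 2).trans ?_
  nlinarith [sq_nonneg (‖nd e a (u k) x‖ - ‖∑ i, ∑ j, dd (e i) (a i j) x • dd (e j) (u k) x‖)]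

end pt

theorem psc_of_perp {p : S → E} {a : S → ι → ι → E → ℝ} {φ : S → E → ℝ} {c μ : ℝ}
    (ha : ∀ i j, UB e p 1 fun s => a s i j) (hφ : UB e p 2 φ) (hc : 0 < c) (hμ : 0 < μ)
    (hq : ∀ s, μ ≤ qq e (a s) (φ s) (p s))
    (h : ∀ s ξ, ∑ k, fx e (a s) (φ s) k (p s) * ξ k = 0 → 2 * c * sq2 ξ ≤
      hh e (a s) (φ s) (zz e (a s) (φ s) (p s) / qq e (a s) (φ s) (p s)) 0 ξ (p s)) :
    ∃ Λ, ∀ s, Psc e (a s) (φ s) (c / 2) Λ (p s) := by
  obtain ⟨B, -, hB⟩ := ((ub_zz ha hφ).mul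
    ((ub_qq (fun i j => (ha i j).pred) hφ.pred).inv hμ hq)).bd
  have h1 : ∀ j k, UB e p 0 fun s =>
      hm e (a s) (φ s) (zz e (a s) (φ s) (p s) / qq e (a s) (φ s) (p s)) j k := fun j k =>
    (((ub_c 2).mul (ub_sum Finset.univ fun i => (ha i j).pred.mul ((ub_fx ha hφ k).dd i))).sub
      (ub_sum Finset.univ fun l => (ub_fx ha hφ l).pred.mul ((ha j k).dd l))).add
      ((ub_const hB).mul (ha j k).pred)
  choose A hA h2 using fun q : ι × ι => (h1 q.1 q.2).bd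
  obtain ⟨D, hD, h3⟩ := (ub_sq2 fun i => hφ.dd i).bd
  have h4 : 0 ≤ ∑ q, A q := Finset.sum_nonneg fun q _ => (hA q).le
  exact ⟨_, fun s ξ => (finsler (A := ∑ q, A q + D) (w := gr e (φ s) (p s))
    (fun i j => (h2 (i, j) s).trans
      (by linarith [Finset.single_le_sum (fun q _ => (hA q).le) (Finset.mem_univ (i, j))]))
    (by positivity) hc hμ (((le_abs_self _).trans (h3 s)).trans (by linarith)) (hq s)
    (fun ξ hξ => by simpa only [hh_eq, zero_mul, add_zero] using h s ξ hξ) ξ).trans_eq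
      (hh_eq _ _ ξ).symm⟩

end Vale.Agent.P088.Car
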