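import Vale.Agent.P088F.ACore

/-! P088, part A: uniformly bounded families of germs. -/

open MeasureTheory Set Filter Topology
open scoped ContDiff

noncomputable section

namespace Vale.Agent.P088.Car

variable {E : Type} [NormedAddCommGroup E] [NormedSpace ℝ E] {ι : Type} {S : Type}

/-- The germs `f s` at `p s` have uniformly bounded derivatives up to order `k`. -/
def UB (e : ι → E) (p : S → E) : ℕ → (S → E → ℝ) → Prop
  | 0, f => ∃ M, ∀ s, SA (f s) (p s) ∧ |f s (p s)| ≤ M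
  | k + 1, f => (∃ M, ∀ s, SA (f s) (p s) ∧ |f s (p s)| ≤ M) ∧
      ∀ i, UB e p k fun s => dd (e i) (f s)

variable {e : ι → E} {p : S → E} {k : ℕ} {f g : S → E → ℝ}

theorem UB.zero (h : UB e p k f) : UB e p 0 f := by
  cases k
  exacts [h, h.1]

theorem UB.sa (h : UB e p k f) (s : S) : SA (f s) (p s) := (h.zero.choose_spec s).1

theorem UB.bd (h : UB e p k f) : ∃ M, 0 < M ∧ ∀ s, |f s (p s)| ≤ M := by
  obtain ⟨M, hM⟩ := h.zero
  exact ⟨|M| + 1, by positivity, fun s => (hM s).2.trans (by linarith [le_abs_self M])⟩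

theorem UB.dd (h : UB e p (k + 1) f) (i : ι) : UB e p k fun s => dd (e i) (f s) := h.2 i

theorem UB.pred (h : UB e p (k + 1) f) : UB e p k f := by
  induction k generalizing f with
  | zero => exact h.1
  | succ k ih => exact ⟨h.1, fun i => ih (h.2 i)⟩

theorem UB.congr (h : UB e p k f) (hg : ∀ s, f s =ᶠ[𝓝 (p s)] g s) : UB e p k g := by
  have h0 : ∀ {f g : S → E → ℝ}, UB e p 0 f → (∀ s, f s =ᶠ[𝓝 (p s)] g s) → UB e p 0 g :=
    fun ⟨M, hM⟩ hg => ⟨M, fun s => ⟨(hM s).1.congr_of_eventuallyEq (hg s).symm,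
      (hg s).self_of_nhds ▸ (hM s).2⟩⟩
  induction k generalizing f g with
  | zero => exact h0 h hg
  | succ k ih => exact ⟨h0 h.1 hg, fun i => ih (h.2 i) fun s => dd_congr_ev (hg s) _⟩

theorem ub_const {c : S → ℝ} {M : ℝ} (h : ∀ s, |c s| ≤ M) : UB e p k fun s _ => c s := by
  induction k generalizing c M with
  | zero => exact ⟨M, fun s => ⟨contDiffAt_const, h s⟩⟩
  | succ k ih =>
    exact ⟨⟨M, fun s => ⟨contDiffAt_const, h s⟩⟩, fun i => (ih (c := fun _ => 0) (M := 0)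
      (by simp)).congr fun s => .of_forall fun y => (dd_const _ _ _).symm⟩

theorem ub_c (c : ℝ) : UB e p k fun _ _ => c := ub_const (M := |c|) fun _ => le_rfl

theorem UB.add (h : UB e p k f) (h' : UB e p k g) : UB e p k fun s y => f s y + g s y := by
  have h0 : ∀ {f g : S → E → ℝ}, UB e p 0 f → UB e p 0 g → UB e p 0 fun s y => f s y + g s y :=
    fun ⟨M, hM⟩ ⟨M', hM'⟩ => ⟨M + M', fun s => ⟨(hM s).1.add (hM' s).1,
      (abs_add_le _ _).trans (add_le_add (hM s).2 (hM' s).2)⟩⟩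
  induction k generalizing f g with
  | zero => exact h0 h h'
  | succ k ih =>
    refine ⟨h0 h.1 h'.1, fun i => (ih (h.2 i) (h'.2 i)).congr fun s => ?_⟩
    filter_upwards [(h.sa s).ev 1, (h'.sa s).ev 1] with y h1 h2
    simp only [Car.dd, fderiv_fun_add (h1.differentiableAt one_ne_zero)
      (h2.differentiableAt one_ne_zero), add_apply]

theorem UB.mul (h : UB e p k f) (h' : UB e p k g) : UB e p k fun s y => f s y * g s y := by
  have h0 : ∀ {f g : S → E → ℝ}, UB e p 0 f → UB e p 0 g → UB e p 0 fun s y => f s y * g s y :=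
    fun ⟨M, hM⟩ ⟨M', hM'⟩ => ⟨M * M', fun s => ⟨(hM s).1.mul (hM' s).1, by
      rw [abs_mul]
      exact mul_le_mul (hM s).2 (hM' s).2 (abs_nonneg _) ((abs_nonneg _).trans (hM s).2)⟩⟩
  induction k generalizing f g with
  | zero => exact h0 h h'
  | succ k ih =>
    refine ⟨h0 h.1 h'.1, fun i => ((ih (h.2 i) h'.pred).add (ih h.pred (h'.2 i))).congr fun s => ?_⟩
    filter_upwards [(h.sa s).ev 1, (h'.sa s).ev 1] with y h1 h2
    simp only [Car.dd, fderiv_fun_mul (h1.differentiableAt one_ne_zero)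
      (h2.differentiableAt one_ne_zero), add_apply, smul_apply, smul_eq_mul]
    ring

theorem UB.sub (h : UB e p k f) (h' : UB e p k g) : UB e p k fun s y => f s y - g s y :=
  (h.add ((ub_c (-1)).mul h')).congr fun _ => .of_forall fun _ => by ring

theorem UB.sq (h : UB e p k f) : UB e p k fun s y => f s y ^ 2 :=
  (h.mul h).congr fun _ => .of_forall fun _ => by ring

theorem ub_sum {κ : Type} (t : Finset κ) {F : κ → S → E → ℝ} (h : ∀ i, UB e p k (F i)) :
    UB e p k fun s y => ∑ i ∈ t, F i s y := by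
  classical
  induction t using Finset.induction_on with
  | empty => exact (ub_c 0).congr fun _ => .of_forall fun _ => by simp
  | insert j t hj ih =>
    exact ((h j).add ih).congr fun _ => .of_forall fun _ => by simp [Finset.sum_insert hj]

theorem UB.exp (h : UB e p k f) : UB e p k fun s y => Real.exp (f s y) := by
  have h0 : ∀ {f : S → E → ℝ}, UB e p 0 f → UB e p 0 fun s y => Real.exp (f s y) :=
    fun ⟨M, hM⟩ => ⟨Real.exp M, fun s => ⟨(hM s).1.exp, by
      rw [abs_of_pos (Real.exp_pos _)]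
      exact Real.exp_le_exp.2 ((le_abs_self _).trans (hM s).2)⟩⟩
  induction k generalizing f with
  | zero => exact h0 h
  | succ k ih =>
    refine ⟨h0 h.1, fun i => ((ih h.pred).mul (h.2 i)).congr fun s => ?_⟩
    filter_upwards [(h.sa s).ev 1] with y h1
    simp only [Car.dd, (h1.differentiableAt one_ne_zero).hasFDerivAt.exp.fderiv, smul_apply,
      smul_eq_mul]

theorem UB.inv (h : UB e p k f) {c : ℝ} (hc : 0 < c) (hf : ∀ s, c ≤ f s (p s)) :
    UB e p k fun s y => (f s y)⁻¹ := by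
  have h0 : UB e p 0 fun s y => (f s y)⁻¹ :=
    ⟨c⁻¹, fun s => ⟨(h.sa s).inv (hc.trans_le (hf s)).ne', by
      rw [abs_of_pos (inv_pos.2 (hc.trans_le (hf s)))]
      exact inv_anti₀ hc (hf s)⟩⟩
  induction k with
  | zero => exact h0
  | succ k ih =>
    refine ⟨h0, fun i => (((ub_c (-1)).mul (ih h.pred).sq).mul (h.2 i)).congr fun s => ?_⟩
    filter_upwards [(h.sa s).ev 1, (h.sa s).continuousAt.eventually_ne (hc.trans_le (hf s)).ne']
      with y h1 h2
    have h3 := ((hasDerivAt_inv h2).comp_hasFDerivAt y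
      (h1.differentiableAt one_ne_zero).hasFDerivAt).fderiv
    simp only [Car.dd]
    rw [show (fun y => (f s y)⁻¹) = (fun y => y⁻¹) ∘ f s from rfl, h3]
    simp

theorem ub_of_bd {M : ℝ} (h : ∀ s, SA (f s) (p s))
    (hM : ∀ s, ∀ i ≤ k, ‖iteratedFDeriv ℝ i (f s) (p s)‖ ≤ M) : UB e p k f := by
  have h0 : ∀ {f : S → E → ℝ} {M : ℝ}, (∀ s, SA (f s) (p s)) →
      (∀ s, ‖iteratedFDeriv ℝ 0 (f s) (p s)‖ ≤ M) → UB e p 0 f :=
    fun h hM => ⟨_, fun s => ⟨h s, by simpa using hM s⟩⟩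
  induction k generalizing f M with
  | zero => exact h0 h fun s => hM s 0 le_rfl
  | succ k ih =>
    refine ⟨h0 h fun s => hM s 0 (Nat.zero_le _), fun i => ih (M := ‖e i‖ * M)
      (fun s => (h s).dd _) fun s j hj => ?_⟩
    refine (norm_iteratedFDeriv_clm_apply_const ((h s).fderiv_right (m := ∞) le_rfl)
      (by exact_mod_cast le_top)).trans ?_
    rw [norm_iteratedFDeriv_fderiv]
    exact mul_le_mul_of_nonneg_left (hM s _ (by omega)) (norm_nonneg _)

theorem ub_of_compact {K : Set E} (hK : IsCompact K) (hp : ∀ s, p s ∈ K) {F : E → ℝ}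
    (h : ∀ x ∈ K, SA F x) : UB e p k fun _ => F := by
  have h0 : ∀ {F : E → ℝ}, (∀ x ∈ K, SA F x) → UB e p 0 fun _ => F := fun h => by
    obtain ⟨M, hM⟩ := hK.exists_bound_of_continuousOn
      fun x hx => (h x hx).continuousAt.continuousWithinAt
    exact ⟨M, fun s => ⟨h _ (hp s), hM _ (hp s)⟩⟩
  induction k generalizing F with
  | zero => exact h0 h
  | succ k ih => exact ⟨h0 h, fun i => ih fun x hx => (h x hx).dd _⟩

theorem UB.comp {S' : Type} (h : UB e p k f) (t : S' → S) :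
    UB e (fun s => p (t s)) k fun s => f (t s) := by
  have h0 : ∀ {f : S → E → ℝ}, UB e p 0 f → UB e (fun s => p (t s)) 0 fun s => f (t s) :=
    fun ⟨M, hM⟩ => ⟨M, fun s => hM (t s)⟩
  induction k generalizing f with
  | zero => exact h0 h
  | succ k ih => exact ⟨h0 h.1, fun i => ih (h.2 i)⟩

/-- Vectors in the unit cube. -/
abbrev Cu (ι : Type) : Type := {ξ : ι → ℝ // ∀ i, |ξ i| ≤ 1}

theorem ub_cu (i : ι) : UB e (fun s : S × Cu ι => p s.1) k fun s _ => s.2.1 i :=
  ub_const fun s => s.2.2 i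

variable [Fintype ι] {a : S → ι → ι → E → ℝ} {X : S → ι → E → ℝ} {ξ η : S → ι → E → ℝ}

theorem ub_fx (ha : ∀ i j, UB e p k fun s => a s i j) (hf : UB e p (k + 1) f) (i : ι) :
    UB e p k fun s => fx e (a s) (f s) i := ub_sum _ fun j => (ha i j).mul (hf.dd j)

theorem ub_al (hX : ∀ i, UB e p k fun s => X s i) (hf : UB e p (k + 1) f) :
    UB e p k fun s => al e (X s) (f s) := ub_sum _ fun j => (hX j).mul (hf.dd j)

theorem ub_dv (ha : ∀ i j, UB e p (k + 1) fun s => a s i j) (hf : UB e p (k + 2) f) :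
    UB e p k fun s => dv e (a s) (f s) := ub_sum _ fun i => (ub_fx ha hf i).dd i

theorem ub_qq (ha : ∀ i j, UB e p k fun s => a s i j) (hf : UB e p (k + 1) f) :
    UB e p k fun s => qq e (a s) (f s) := ub_al (ub_fx ha hf) hf

theorem ub_qf (ha : ∀ i j, UB e p k fun s => a s i j) (h : ∀ i, UB e p k fun s => ξ s i)
    (h' : ∀ i, UB e p k fun s => η s i) :
    UB e p k fun s y => qf (a s) y (fun i => ξ s i y) fun i => η s i y :=
  ub_sum _ fun i => ub_sum _ fun j => ((ha i j).mul (h i)).mul (h' j)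

theorem ub_LL (ha : ∀ i j, UB e p (k + 1) fun s => a s i j) (hX : ∀ i, UB e p (k + 1) fun s => X s i)
    (h : ∀ i, UB e p k fun s => ξ s i) :
    UB e p k fun s y => LL e (a s) (X s) y fun i => ξ s i y :=
  ((ub_c 2).mul (ub_sum _ fun i => ub_sum _ fun l => ((ub_sum _ fun j =>
    (ha i j).pred.mul (h j)).mul ((hX l).dd i)).mul (h l))).sub
    (ub_sum _ fun l => (hX l).pred.mul (ub_sum _ fun i => ub_sum _ fun j =>
      (((ha i j).dd l).mul (h i)).mul (h j)))

theorem ub_sq2 (h : ∀ i, UB e p k fun s => ξ s i) : UB e p k fun s y => sq2 fun i => ξ s i y :=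
  ub_sum _ fun i => (h i).sq

/-- A homogeneous quadratic expression that is bounded on the unit cube. -/
theorem hom_bd {H : (ι → ℝ) → ℝ} (hH : ∀ t ξ, H (t • ξ) = t ^ 2 * H ξ) {M : ℝ}
    (h : ∀ ξ : ι → ℝ, (∀ i, |ξ i| ≤ 1) → |H ξ| ≤ M) (ξ : ι → ℝ) : |H ξ| ≤ M * sq2 ξ := by
  rcases (sq2_nonneg ξ).eq_or_lt with h0 | h0
  · have h1 : ξ = (0 : ℝ) • ξ := by
      funext i
      have := (Finset.sum_eq_zero_iff_of_nonneg fun i _ => sq_nonneg (ξ i)).1 h0.symm i
        (Finset.mem_univ i)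
      simpa using this
    rw [← h0, h1, hH]
    simp
  · have hr := Real.sqrt_pos.2 h0
    have h1 : ξ = √(sq2 ξ) • ((√(sq2 ξ))⁻¹ • ξ) := by rw [smul_smul, mul_inv_cancel₀ hr.ne', one_smul]
    have h2 := h ((√(sq2 ξ))⁻¹ • ξ) fun i => by
      rw [Pi.smul_apply, smul_eq_mul, abs_mul, abs_of_pos (inv_pos.2 hr), inv_mul_le_iff₀ hr,
        mul_one]
      exact Real.abs_le_sqrt (Finset.single_le_sum (fun i _ => sq_nonneg (ξ i)) (Finset.mem_univ i))
    calc |H ξ| = |H (√(sq2 ξ) • ((√(sq2 ξ))⁻¹ • ξ))| := by rw [← h1]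
      _ ≤ _ := by
        rw [hH, Real.sq_sqrt h0.le, abs_mul, abs_of_pos h0, mul_comm]
        gcongr

omit [NormedAddCommGroup E] [NormedSpace ℝ E] in
theorem qf_smul (a : ι → ι → E → ℝ) (x : E) (t t' : ℝ) (ξ η : ι → ℝ) :
    qf a x (t • ξ) (t' • η) = t * t' * qf a x ξ η := by
  simp only [qf, Pi.smul_apply, smul_eq_mul, Finset.mul_sum]
  exact Finset.sum_congr rfl fun i _ => Finset.sum_congr rfl fun j _ => by ring

theorem LL_smul (a : ι → ι → E → ℝ) (X : ι → E → ℝ) (x : E) (t : ℝ) (ξ : ι → ℝ) :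
    LL e a X x (t • ξ) = t ^ 2 * LL e a X x ξ := by
  simp only [LL, Pi.smul_apply, smul_eq_mul, Finset.mul_sum, Finset.sum_mul, mul_sub]
  congr 1 <;> exact Finset.sum_congr rfl fun i _ => Finset.sum_congr rfl fun j _ =>
    Finset.sum_congr rfl fun l _ => by ring

theorem sum_smul' (X ξ : ι → ℝ) (t : ℝ) : ∑ i, X i * (t • ξ) i = t * ∑ i, X i * ξ i := by
  simp only [Pi.smul_apply, smul_eq_mul, Finset.mul_sum]
  exact Finset.sum_congr rfl fun i _ => by ring

end Vale.Agent.P088.Car
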