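import Vale.Agent.P088F.ACore

/-! P088, part A: the Carleman estimate for families with lower order terms. -/

open MeasureTheory Set Filter Topology
open scoped ContDiff

noncomputable section

namespace Vale.Agent.P088.Car

variable {E F : Type} [NormedAddCommGroup E] [NormedSpace ℝ E] [NormedAddCommGroup F]
  [NormedSpace ℝ F] {ι κ β : Type} [Fintype ι] [Fintype κ] [Fintype β]

/-- The norm of `F` is a sum of squares of functionals. -/
def Sq (l : β → F →L[ℝ] ℝ) : Prop := ∀ w, ∑ b, l b w ^ 2 = ‖w‖ ^ 2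

theorem sq_real : Sq fun _ : Unit => ContinuousLinearMap.id ℝ ℝ := fun w => by simp

theorem sq_complex : Sq ![Complex.reCLM, Complex.imCLM] := fun w => by
  rw [Complex.sq_norm, Complex.normSq_apply]
  simp [Fin.sum_univ_two, sq]

theorem sq_euc (N : ℕ) : Sq fun b : Fin N × Fin 2 => ((![Complex.reCLM, Complex.imCLM] b.2).comp
    ((EuclideanSpace.proj b.1 : EuclideanSpace ℂ (Fin N) →L[ℂ] ℂ).restrictScalars ℝ) :
      EuclideanSpace ℂ (Fin N) →L[ℝ] ℝ) := fun w => by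
  rw [Fintype.sum_prod_type, EuclideanSpace.norm_sq_eq]
  exact Finset.sum_congr rfl fun k _ => sq_complex (w k)

/-- The squared norm of a family. -/
def n0 (u : κ → E → F) (x : E) : ℝ := ∑ k, ‖u k x‖ ^ 2

/-- The squared norm of the gradient of a family. -/
def n1 (e : ι → E) (u : κ → E → F) (x : E) : ℝ := ∑ k, ∑ i, ‖dd (e i) (u k) x‖ ^ 2

/-- The operator in nondivergence form. -/
def nd (e : ι → E) (a : ι → ι → E → ℝ) (u : E → F) (x : E) : F :=
  ∑ i, ∑ j, a i j x • dd (e i) (dd (e j) u) x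

variable {e : ι → E} {a : ι → ι → E → ℝ} {φ g χ : E → ℝ} {u : κ → E → F} {w : E → F} {x : E}
  {m M τ C : ℝ} {l : β → F →L[ℝ] ℝ}

omit [NormedAddCommGroup E] [NormedSpace ℝ E] [NormedSpace ℝ F] in
theorem n0_nonneg (u : κ → E → F) (x : E) : 0 ≤ n0 u x :=
  Finset.sum_nonneg fun _ _ => sq_nonneg _

theorem n1_nonneg (u : κ → E → F) (x : E) : 0 ≤ n1 e u x :=
  Finset.sum_nonneg fun _ _ => Finset.sum_nonneg fun _ _ => sq_nonneg _

theorem dv_clm {G : Type} [NormedAddCommGroup G] [NormedSpace ℝ G] (L : F →L[ℝ] G)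
    (ha : ∀ i j, SA (a i j) x) (hw : SA w x) : dv e a (fun y => L (w y)) x = L (dv e a w x) := by
  have h : ∀ i, fx e a (fun y => L (w y)) i =ᶠ[𝓝 x] fun y => L (fx e a w i y) := fun i => by
    filter_upwards [hw.ev 1] with y hy
    simp only [fx, map_sum, map_smul, dd]
    refine Finset.sum_congr rfl fun j _ => ?_
    rw [show (fun y => L (w y)) = L ∘ w from rfl,
      (L.hasFDerivAt.comp y (hy.differentiableAt one_ne_zero).hasFDerivAt).fderiv]
    rfl
  simp only [dv, map_sum, fun i => dd_congr (h i) (e i), fun i => dd_clm L (sa_fx (e := e) ha hw i) (e i)]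

theorem dv_eq_nd (ha : ∀ i j, SA (a i j) x) (hw : SA w x) :
    dv e a w x = nd e a w x + ∑ i, ∑ j, dd (e i) (a i j) x • dd (e j) w x := by
  simp only [dv, nd, ← Finset.sum_add_distrib]
  refine Finset.sum_congr rfl fun i _ => ?_
  show dd (e i) (fun y => ∑ j, a i j y • dd (e j) w y) x = _
  rw [dd_sum (U := fun j y => a i j y • dd (e j) w y) _ fun j => (ha i j).smul (hw.dd _)]
  exact Finset.sum_congr rfl fun j _ => by rw [dd_smul (ha i j) (hw.dd _), add_comm]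

theorem dv_zero {K : Set E} (hK : IsClosed K) (h0 : ∀ x ∉ K, w x = 0) (x : E) (hx : x ∉ K) :
    dv e a w x = 0 :=
  Finset.sum_eq_zero fun i _ => dd_zero hK
    (fun y hy => Finset.sum_eq_zero fun j _ => by rw [dd_zero hK h0 _ y hy, smul_zero]) _ x hx

theorem Sq.sa (hl : Sq l) (hw : SA w x) : SA (fun y => ‖w y‖ ^ 2) x := by
  simp only [← hl _]
  exact ContDiffAt.sum fun b _ => ((l b).contDiff.contDiffAt.comp x hw).pow 2

theorem Sq.sa0 (hl : Sq l) (hu : ∀ k, SA (u k) x) : SA (n0 u) x :=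
  ContDiffAt.sum fun k _ => hl.sa (hu k)

theorem Sq.sa1 (hl : Sq l) (hu : ∀ k, SA (u k) x) : SA (n1 e u) x :=
  ContDiffAt.sum fun k _ => ContDiffAt.sum fun _ _ => hl.sa ((hu k).dd _)

theorem nsq_sum {σ : Type} [Fintype σ] (c : σ → ℝ) (v : σ → F) {B : ℝ} (h : ∀ i, |c i| ≤ B) :
    ‖∑ i, c i • v i‖ ^ 2 ≤ Fintype.card σ * B ^ 2 * ∑ i, ‖v i‖ ^ 2 := by
  have h1 : ‖∑ i, c i • v i‖ ≤ ∑ i, B * ‖v i‖ := (norm_sum_le _ _).trans
    (Finset.sum_le_sum fun i _ => by rw [norm_smul]; gcongr; exact h i)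
  refine (pow_le_pow_left₀ (norm_nonneg _) h1 2).trans (sq_sum_le_card_mul_sum_sq.trans ?_)
  simp only [mul_pow, ← Finset.mul_sum, Finset.card_univ, mul_assoc, le_refl]

variable [FiniteDimensional ℝ E] [MeasurableSpace E] [BorelSpace E] (μ : Measure E)
  [μ.IsAddHaarMeasure] {K : Set E}

theorem carl_sum (hl : Sq l) (hK : IsCompact K) (h : ∀ x ∈ K, Adm e a φ g m M x)
    (hu : ∀ k, ∀ x ∈ K, SA (u k) x) (h0 : ∀ k, ∀ x ∉ K, u k x = 0) (hm : 0 < m) (h1 : 1 ≤ τ)
    (h2 : M ≤ τ) (h3 : M + M / m ≤ τ * m) :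
    m / (2 * M + 2) * ∫ x, Real.exp (2 * τ * φ x) * (τ * n1 e u x + τ ^ 3 * n0 u x) ∂μ ≤
      2 * ∫ x, Real.exp (2 * τ * φ x) * n0 (fun k => dv e a (u k)) x ∂μ := by
  have hv : ∀ q : κ × β, ∀ x ∈ K, SA (fun y => l q.2 (u q.1 y)) x := fun q x hx =>
    (l q.2).contDiff.contDiffAt.comp x (hu q.1 x hx)
  have hz : ∀ q : κ × β, ∀ x ∉ K, l q.2 (u q.1 x) = 0 := fun q x hx => by simp [h0 _ x hx]
  have k := Finset.sum_le_sum fun (q : κ × β) (_ : q ∈ Finset.univ) =>
    carl_core μ hK h (hv q) (hz q) hm h1 h2 h3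
  have hE : ∀ x ∈ K, SA (fun y => Real.exp (2 * τ * φ y)) x := fun x hx =>
    (contDiffAt_const.mul (h x hx).sφ).exp
  have z1 := fun q i => dd_zero hK.isClosed (hz q) (e i)
  have z3 := fun q => dv_zero (e := e) (a := a) hK.isClosed (hz q)
  have y1 := fun k i => dd_zero hK.isClosed (h0 k) (e i)
  have y3 := fun k => dv_zero (e := e) (a := a) hK.isClosed (h0 k)
  rw [← Finset.mul_sum, ← Finset.mul_sum, ← integral_finsetSum, ← integral_finsetSum] at k
  · refine (le_of_eq ?_).trans (k.trans (le_of_eq ?_)) <;> congr 2 <;> funext x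
    · by_cases hx : x ∈ K
      · simp only [← Finset.mul_sum, Finset.sum_add_distrib, Fintype.sum_prod_type, n0, n1, sq2, gr,
          fun b k i => dd_clm (l b) (hu k x hx) (e i), ← hl _]
        congr 3
        exact Finset.sum_congr rfl fun k _ => Finset.sum_comm
      · simp [n0, n1, sq2, gr, y1 _ _ x hx, fun k b i => z1 (k, b) i x hx, h0 _ x hx,
          Fintype.sum_prod_type]
    · by_cases hx : x ∈ K
      · simp only [← Finset.mul_sum, Fintype.sum_prod_type, n0,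
          fun b k => dv_clm (e := e) (l b) (h x hx).sa (hu k x hx), ← hl _]
      · simp [n0, y3 _ x hx, fun k b => z3 (k, b) x hx, Fintype.sum_prod_type]
  · exact fun q _ => int_loc μ hK
      (fun x hx => (hE x hx).mul ((sa_dv (h x hx).sa (hv q x hx)).pow 2))
      fun x hx => by simp [z3 q x hx]
  · exact fun q _ => int_loc μ hK (fun x hx => (hE x hx).mul ((contDiffAt_const.mul
      (ContDiffAt.sum fun i _ => ((hv q x hx).dd _).pow 2)).add
        (contDiffAt_const.mul ((hv q x hx).pow 2))))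
      fun x hx => by simp [sq2, gr, z1 q _ x hx, h0 _ x hx]

/-- The Carleman estimate with lower order terms and a source. -/
theorem carl_fam (hl : Sq l) (hK : IsCompact K) (h : ∀ x ∈ K, Adm e a φ g m M x)
    (hu : ∀ k, ∀ x ∈ K, SA (u k) x) (h0 : ∀ k, ∀ x ∉ K, u k x = 0) (hm : 0 < m) (hM : 0 ≤ M)
    (hC : 0 ≤ C) (h1 : 1 ≤ τ) (h2 : M ≤ τ) (h3 : M + M / m ≤ τ * m)
    (h4 : C * (8 * M + 8) ≤ τ * m) {r : E → ℝ}
    (hr : IntegrableOn (fun x => Real.exp (2 * τ * φ x) * r x) K μ)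
    (hd : ∀ x ∈ K, n0 (fun k => dv e a (u k)) x ≤ C * (n1 e u x + n0 u x) + r x) :
    ∫ x, Real.exp (2 * τ * φ x) * (τ * n1 e u x + τ ^ 3 * n0 u x) ∂μ ≤
      (8 * M + 8) / m * ∫ x in K, Real.exp (2 * τ * φ x) * r x ∂μ := by
  have k := carl_sum μ hl hK h hu h0 hm h1 h2 h3
  have hE : ∀ x ∈ K, SA (fun y => Real.exp (2 * τ * φ y)) x := fun x hx =>
    (contDiffAt_const.mul (h x hx).sφ).exp
  have y1 := fun k i => dd_zero hK.isClosed (h0 k) (e i)
  have y3 := fun k => dv_zero (e := e) (a := a) hK.isClosed (h0 k)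
  have z : ∀ x ∉ K, Real.exp (2 * τ * φ x) * (τ * n1 e u x + τ ^ 3 * n0 u x) = 0 :=
    fun x hx => by simp [n0, n1, y1 _ _ x hx, h0 _ x hx]
  have z' : ∀ x ∉ K, Real.exp (2 * τ * φ x) * n0 (fun k => dv e a (u k)) x = 0 :=
    fun x hx => by simp [n0, y3 _ x hx]
  have i1 := int_loc μ hK (fun x hx => (hE x hx).mul ((contDiffAt_const.mul
    (hl.sa1 (e := e) fun k => hu k x hx)).add (contDiffAt_const.mul (hl.sa0 fun k => hu k x hx)))) z
  have i2 := int_loc μ hK (fun x hx => (hE x hx).mul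
    (hl.sa0 fun k => sa_dv (e := e) (h x hx).sa (hu k x hx))) z'
  have t0 : 0 < τ := by linarith
  have k2 : ∫ x, Real.exp (2 * τ * φ x) * n0 (fun k => dv e a (u k)) x ∂μ ≤
      C / τ * ∫ x, Real.exp (2 * τ * φ x) * (τ * n1 e u x + τ ^ 3 * n0 u x) ∂μ +
        ∫ x in K, Real.exp (2 * τ * φ x) * r x ∂μ := by
    rw [← setIntegral_eq_integral_of_forall_compl_eq_zero z,
      ← setIntegral_eq_integral_of_forall_compl_eq_zero z', ← integral_const_mul,
      ← integral_add (i1.integrableOn.const_mul _) hr]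
    refine setIntegral_mono_on i2.integrableOn ((i1.integrableOn.const_mul _).add hr)
      hK.measurableSet fun x hx => ?_
    have e1 : C / τ * (Real.exp (2 * τ * φ x) * (τ * n1 e u x + τ ^ 3 * n0 u x)) =
        Real.exp (2 * τ * φ x) * (C * (n1 e u x + τ ^ 2 * n0 u x)) := by field_simp
    rw [e1, ← mul_add]
    refine mul_le_mul_of_nonneg_left ((hd x hx).trans ?_) (Real.exp_pos _).le
    have := n0_nonneg u x
    gcongr
    nlinarith [one_le_pow₀ (n := 2) h1]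
  have p0 : 0 ≤ ∫ x, Real.exp (2 * τ * φ x) * (τ * n1 e u x + τ ^ 3 * n0 u x) ∂μ :=
    integral_nonneg fun x => by
      have := n0_nonneg u x
      have := n1_nonneg (e := e) u x
      positivity
  have k3 : C / τ ≤ m / (8 * M + 8) := by
    rw [div_le_div_iff₀ t0 (by positivity)]
    linarith
  have k4 := mul_le_mul_of_nonneg_right k3 p0
  have k5 : m / (2 * M + 2) = 4 * (m / (8 * M + 8)) := by field_simp; ring
  rw [div_mul_eq_mul_div, le_div_iff₀ hm]
  have k6 : m = (8 * M + 8) * (m / (8 * M + 8)) := by field_simp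
  rw [k5] at k
  generalize m / (8 * M + 8) = θ at *
  rw [k6]
  nlinarith

/-- The same for the operator in nondivergence form; `B` bounds the derivatives of `a`. -/
theorem carl_nd (hl : Sq l) (hK : IsCompact K) (h : ∀ x ∈ K, Adm e a φ g m M x)
    (hu : ∀ k, ∀ x ∈ K, SA (u k) x) (h0 : ∀ k, ∀ x ∉ K, u k x = 0) (hm : 0 < m) (hM : 0 ≤ M)
    (hC : 0 ≤ C) {B : ℝ} (hB : ∀ x ∈ K, ∀ i j, |dd (e i) (a i j) x| ≤ B) (h1 : 1 ≤ τ) (h2 : M ≤ τ)
    (h3 : M + M / m ≤ τ * m)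
    (h4 : (2 * C + 2 * (Fintype.card ι) ^ 3 * B ^ 2) * (8 * M + 8) ≤ τ * m) {r : E → ℝ}
    (hr : IntegrableOn (fun x => Real.exp (2 * τ * φ x) * r x) K μ)
    (hd : ∀ x ∈ K, n0 (fun k => nd e a (u k)) x ≤ C * (n1 e u x + n0 u x) + r x) :
    ∫ x, Real.exp (2 * τ * φ x) * (τ * n1 e u x + τ ^ 3 * n0 u x) ∂μ ≤
      (16 * M + 16) / m * ∫ x in K, Real.exp (2 * τ * φ x) * r x ∂μ := by
  refine (carl_fam μ hl hK h hu h0 hm hM (by positivity) h1 h2 h3 h4 (r := fun x => 2 * r x)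
    ((hr.const_mul 2).congr (.of_forall fun x => by ring)) fun x hx => ?_).trans (le_of_eq ?_)
  · have h5 : ∀ k, ‖dv e a (u k) x‖ ^ 2 ≤ 2 * ‖nd e a (u k) x‖ ^ 2 +
        2 * (Fintype.card ι) ^ 3 * B ^ 2 * ∑ i, ‖dd (e i) (u k) x‖ ^ 2 := fun k => by
      have h6 := nsq_sum (fun q : ι × ι => dd (e q.1) (a q.1 q.2) x)
        (fun q => dd (e q.2) (u k) x) fun q => hB x hx q.1 q.2
      simp only [Fintype.sum_prod_type, Finset.sum_const, Finset.card_univ, nsmul_eq_mul,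
        Fintype.card_prod, Nat.cast_mul] at h6
      rw [dv_eq_nd (h x hx).sa (hu k x hx)]
      refine (pow_le_pow_left₀ (norm_nonneg _) (norm_add_le _ _) 2).trans ?_
      nlinarith [sq_nonneg (‖nd e a (u k) x‖ - ‖∑ i, ∑ j, dd (e i) (a i j) x • dd (e j) (u k) x‖)]
    have h7 := Finset.sum_le_sum fun k (_ : k ∈ Finset.univ) => h5 k
    rw [Finset.sum_add_distrib, ← Finset.mul_sum, ← Finset.mul_sum] at h7
    have h8 := hd x hx
    have h9 : 0 ≤ 2 * (Fintype.card ι : ℝ) ^ 3 * B ^ 2 * n0 u x := by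
      have := n0_nonneg u x
      positivity
    unfold n0 n1 at *
    nlinarith
  · simp only [mul_left_comm _ (2 : ℝ), integral_const_mul]
    ring

end Vale.Agent.P088.Car
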