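import Vale.Agent.P088F.AMar
import Vale.Agent.P088F.AVec

/-! P088, part A: convexified weights and unique continuation. -/

open MeasureTheory Set Filter Topology Metric
open scoped ContDiff

noncomputable section

namespace Vale.Agent.P088.Car

variable {E F : Type} [NormedAddCommGroup E] [NormedAddCommGroup F] [NormedSpace ℝ F]
  {ι κ β S : Type} [Fintype ι] [Fintype κ] [Fintype β] {e : ι → E}

section exp
variable [NormedSpace ℝ E] {a : ι → ι → E → ℝ} {ψ f : E → ℝ} {x : E}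

theorem LL_scale {X X' : ι → E → ℝ} (hf : SA f x) (hX : ∀ k, SA (X k) x)
    (h : ∀ k, X' k =ᶠ[𝓝 x] fun y => f y * X k y) (ξ : ι → ℝ) :
    LL e a X' x ξ = f x * LL e a X x ξ + 2 * (qf a x (gr e f x) ξ * ∑ k, X k x * ξ k) := by
  simp only [LL, qf, gr, fun k i => dd_congr (h k) (e i), fun k i => dd_mul hf (hX k) (e i),
    fun k => (h k).self_of_nhds, mul_add, add_mul, Finset.sum_add_distrib, mul_sub]
  have h1 : ∑ i, ∑ k, (∑ j, a i j x * ξ j) * (dd (e i) f x * X k x) * ξ k =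
      (∑ i, ∑ j, a i j x * dd (e i) f x * ξ j) * ∑ k, X k x * ξ k := by
    rw [Finset.sum_mul]
    refine Finset.sum_congr rfl fun i _ => ?_
    rw [Finset.mul_sum]
    refine Finset.sum_congr rfl fun k _ => ?_
    simp only [Finset.sum_mul]
    exact Finset.sum_congr rfl fun j _ => by ring
  rw [h1]
  simp only [Finset.mul_sum, mul_assoc, mul_left_comm (f x)]
  ring

theorem exp_pt (ha : ∀ i j, SA (a i j) x) (hs : ∀ i j, a i j x = a j i x) (hψ : SA ψ x) (t : ℝ)
    (hq : qq e a ψ x ≠ 0) :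
    qq e a (fun y => Real.exp (t * ψ y)) x = (t * Real.exp (t * ψ x)) ^ 2 * qq e a ψ x ∧
    ∀ ξ, hh e a (fun y => Real.exp (t * ψ y)) (zz e a (fun y => Real.exp (t * ψ y)) x /
        qq e a (fun y => Real.exp (t * ψ y)) x) 0 ξ x =
      t * Real.exp (t * ψ x) * (hh e a ψ (zz e a ψ x / qq e a ψ x) 0 ξ x +
        2 * t * (∑ k, fx e a ψ k x * ξ k) ^ 2 + 2 * t * qq e a ψ x * qf a x ξ ξ) := by
  have hE : SA (fun y => Real.exp (t * ψ y)) x := (contDiffAt_const.mul hψ).exp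
  have hf : SA (fun y => t * Real.exp (t * ψ y)) x := contDiffAt_const.mul hE
  have d1 : ∀ i, dd (e i) (fun y => Real.exp (t * ψ y)) =ᶠ[𝓝 x]
      fun y => t * Real.exp (t * ψ y) * dd (e i) ψ y := fun i => by
    filter_upwards [hψ.ev 1] with y hy
    simp only [dd, ((hy.differentiableAt one_ne_zero).hasFDerivAt.const_mul t).exp.fderiv,
      smul_apply, smul_eq_mul]
    ring
  have d2 : ∀ i, fx e a (fun y => Real.exp (t * ψ y)) i =ᶠ[𝓝 x]
      fun y => t * Real.exp (t * ψ y) * fx e a ψ i y := fun i => by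
    filter_upwards [eventually_all.2 d1] with y hy
    simp only [fx, hy, Finset.mul_sum, smul_eq_mul]
    exact Finset.sum_congr rfl fun j _ => by ring
  have d3 : qq e a (fun y => Real.exp (t * ψ y)) =ᶠ[𝓝 x]
      fun y => t * Real.exp (t * ψ y) * (t * Real.exp (t * ψ y) * qq e a ψ y) := by
    filter_upwards [eventually_all.2 d1, eventually_all.2 d2] with y h1 h2
    simp only [qq, al, h1, h2, Finset.mul_sum]
    exact Finset.sum_congr rfl fun j _ => by ring
  have d4 : ∀ i, dd (e i) (fun y => t * Real.exp (t * ψ y)) x =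
      t * (t * Real.exp (t * ψ x)) * dd (e i) ψ x := fun i => by
    rw [dd_cmul t hE, (d1 i).self_of_nhds]; ring
  have d5 : zz e a (fun y => Real.exp (t * ψ y)) x =
      (t * Real.exp (t * ψ x)) ^ 3 * (2 * t * qq e a ψ x * qq e a ψ x + zz e a ψ x) := by
    have : qq e a ψ x = ∑ k, fx e a ψ k x * dd (e k) ψ x := rfl
    nth_rewrite 2 [this]
    simp only [zz, al, fun i => dd_congr d3 (e i), fun i => (d2 i).self_of_nhds,
      fun i => dd_mul hf (hf.mul (sa_qq (e := e) ha hψ)) (e i),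
      fun i => dd_mul hf (sa_qq (e := e) ha hψ) (e i), d4, Finset.mul_sum, mul_add,
      ← Finset.sum_add_distrib]
    exact Finset.sum_congr rfl fun j _ => by ring
  have d6 : ∀ ξ, qf a x (gr e (fun y => t * Real.exp (t * ψ y)) x) ξ =
      t * (t * Real.exp (t * ψ x)) * ∑ k, fx e a ψ k x * ξ k := fun ξ => by
    have : gr e (fun y => t * Real.exp (t * ψ y)) x = (t * (t * Real.exp (t * ψ x))) • gr e ψ x :=
      funext d4
    rw [this, ← one_smul ℝ ξ, qf_smul, one_smul, mul_one, qf_symm hs, qf_eq]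
    simp only [mul_comm (ξ _)]
  refine ⟨by rw [d3.self_of_nhds]; ring, fun ξ => ?_⟩
  rw [hh, hh, LL_scale hf (sa_fx ha hψ) d2, d5, d6, d3.self_of_nhds]
  have := Real.exp_ne_zero (t * ψ x)
  field_simp
  ring

/-- Exponential convexification gives strong pseudoconvexity. -/
theorem psc_exp {p : S → E} {a : S → ι → ι → E → ℝ} {ψ : S → E → ℝ} {μ : ℝ}
    (ha : ∀ i j, UB e p 1 fun s => a s i j) (hs : ∀ s i j, a s i j (p s) = a s j i (p s))
    (hψ : UB e p 2 ψ) (hμ : 0 < μ) (hell : ∀ s ξ, μ * sq2 ξ ≤ qf (a s) (p s) ξ ξ)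
    (hq : ∀ s, μ ≤ qq e (a s) (ψ s) (p s)) :
    ∃ t₀, 0 < t₀ ∧ ∀ t, t₀ ≤ t → ∃ c, 0 < c ∧ ∀ s,
      c ≤ qq e (a s) (fun y => Real.exp (t * ψ s y)) (p s) ∧
        Psc e (a s) (fun y => Real.exp (t * ψ s y)) c 0 (p s) := by
  obtain ⟨B, -, hB⟩ := ((ub_zz ha hψ).mul
    ((ub_qq (fun i j => (ha i j).pred) hψ.pred).inv hμ hq)).bd
  obtain ⟨A, hA, h1⟩ := (ub_hh ha hψ hB 0).bd
  obtain ⟨D, -, hD⟩ := hψ.bd
  refine ⟨(A + 1) / (2 * μ * μ), by positivity, fun t ht => ?_⟩
  have t0 : 0 < t := lt_of_lt_of_le (by positivity) ht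
  have t1 : A + 1 ≤ t * (2 * μ * μ) := (div_le_iff₀ (by positivity)).1 ht
  refine ⟨min (t * Real.exp (t * -D)) ((t * Real.exp (t * -D)) ^ 2 * μ), by positivity,
    fun s => ?_⟩
  obtain ⟨e1, e2⟩ := exp_pt (e := e) (fun i j => (ha i j).sa s) (hs s) (hψ.sa s) t
    (hμ.trans_le (hq s)).ne'
  have h2 : t * Real.exp (t * -D) ≤ t * Real.exp (t * ψ s (p s)) := by
    gcongr
    exact neg_le_of_abs_le (hD s)
  refine ⟨(min_le_right _ _).trans (by rw [e1]; gcongr; exact hq s), fun ξ => ?_⟩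
  rw [e2]
  have h3 := neg_le_of_abs_le (hom_bd (H := fun ξ => hh e (a s) (ψ s)
    (zz e (a s) (ψ s) (p s) * (qq e (a s) (ψ s) (p s))⁻¹) 0 ξ (p s))
    (fun t ξ => hh_smul _ _ _ _ t ξ _)
    (fun ξ hξ => h1 (s, ⟨ξ, hξ⟩)) ξ)
  have h4 := sq2_nonneg ξ
  have h5 : 2 * t * μ * (μ * sq2 ξ) ≤ 2 * t * qq e (a s) (ψ s) (p s) * qf (a s) (p s) ξ ξ := by
    have := hμ.trans_le (hq s)
    gcongr
    exacts [hq s, hell s ξ]
  have h6 : 0 ≤ 2 * t * (∑ k, fx e (a s) (ψ s) k (p s) * ξ k) ^ 2 := by positivity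
  refine mul_le_mul ((min_le_left _ _).trans h2) ?_ h4 (by positivity)
  rw [div_eq_mul_inv]
  nlinarith

omit [NormedSpace ℝ E] in
theorem ell_compact {K : Set E} (hK : IsCompact K) (ha : ∀ i j, ContinuousOn (a i j) K)
    (hp : ∀ x ∈ K, ∀ ξ, ξ ≠ 0 → 0 < qf a x ξ ξ) :
    ∃ μ, 0 < μ ∧ ∀ x ∈ K, ∀ ξ, μ * sq2 ξ ≤ qf a x ξ ξ := by
  have hc : ContinuousOn (fun q : E × (ι → ℝ) => qf a q.1 q.2 q.2) (K ×ˢ sphere 0 1) :=
    continuousOn_finsetSum _ fun i _ => continuousOn_finsetSum _ fun j _ =>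
      (((ha i j).comp continuousOn_fst fun q hq => hq.1).mul (by fun_prop)).mul (by fun_prop)
  obtain ⟨c, hc0, h1⟩ := (hK.prod (isCompact_sphere (0 : ι → ℝ) 1)).exists_forall_le' hc
    (a := 0) fun q hq => hp q.1 hq.1 q.2 (ne_of_mem_sphere hq.2 one_ne_zero)
  refine ⟨c / (Fintype.card ι + 1), by positivity, fun x hx ξ => ?_⟩
  rcases eq_or_ne ξ 0 with rfl | h0
  · simp [sq2, qf]
  have hn := norm_pos_iff.2 h0
  have h2 := h1 (x, ‖ξ‖⁻¹ • ξ) ⟨hx, by simp [norm_smul, hn.ne']⟩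
  have h3 : sq2 ξ ≤ Fintype.card ι * ‖ξ‖ ^ 2 := by
    simpa [sq2] using Finset.sum_le_card_nsmul Finset.univ (fun i => ξ i ^ 2) (‖ξ‖ ^ 2)
      fun i _ => sq_le_sq' (neg_le_of_abs_le (norm_le_pi_norm ξ i))
        (le_of_abs_le (norm_le_pi_norm ξ i))
  simp only [qf_smul] at h2
  rw [← mul_inv, ← div_eq_inv_mul, le_div_iff₀ (by positivity)] at h2
  rw [div_mul_eq_mul_div, div_le_iff₀ (by positivity)]
  nlinarith [mul_pos hc0 (mul_pos hn hn)]

end exp

variable [InnerProductSpace ℝ E] [FiniteDimensional ℝ E] [MeasurableSpace E] [BorelSpace E]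
  {a : ι → ι → E → ℝ} {u : κ → E → F} {l : β → F →L[ℝ] ℝ}

omit [FiniteDimensional ℝ E] [MeasurableSpace E] [BorelSpace E] in
/-- Radial weights are admissible away from the centre. -/
theorem adm_rad (he : ∀ l : E →L[ℝ] ℝ, ‖l‖ ≤ ∑ i, |l (e i)|) {K : Set E} (hK : IsCompact K)
    {y : E} (hy : y ∉ K) (ha : ∀ i j, ∀ x ∈ K, SA (a i j) x) (hs : ∀ x ∈ K, ∀ i j, a i j x = a j i x)
    (hp : ∀ x ∈ K, ∀ ξ, ξ ≠ 0 → 0 < qf a x ξ ξ) :
    ∃ (t m M : ℝ) (g : E → ℝ), 0 < t ∧ 0 < m ∧ 0 < M ∧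
      ∀ x ∈ K, Adm e a (fun x => Real.exp (t * -‖x - y‖ ^ 2)) g m M x := by
  have hψ : ∀ x, SA (fun x : E => -‖x - y‖ ^ 2) x := fun x =>
    ((contDiff_id.sub contDiff_const).norm_sq ℝ).neg.contDiffAt
  obtain ⟨μ, hμ, h1⟩ := ell_compact hK (fun i j x hx => (ha i j x hx).continuousAt.continuousWithinAt) hp
  obtain ⟨ν, hν, h2⟩ := hK.exists_forall_le' (f := qq e a fun x => -‖x - y‖ ^ 2) (a := 0)
    (fun x hx => (sa_qq (fun i j => ha i j x hx) (hψ x)).continuousAt.continuousWithinAt)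
    fun x hx => by
      rw [qq_eq]
      refine hp x hx _ fun h0 => hy ?_
      have h3 := he (fderiv ℝ (fun x : E => -‖x - y‖ ^ 2) x)
      have h4 : ∀ i, fderiv ℝ (fun x : E => -‖x - y‖ ^ 2) x (e i) = 0 := congrFun h0
      simp only [h4, abs_zero, Finset.sum_const_zero, norm_le_zero_iff] at h3
      have h5 : fderiv ℝ (fun x : E => -‖x - y‖ ^ 2) x = _ :=
        ((hasFDerivAt_id x).sub_const y).norm_sq.neg.fderiv
      have h6 := congrArg (fun L : E →L[ℝ] ℝ => L (x - y)) (h5.symm.trans h3)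
      have h8 : inner ℝ x (x - y) = inner ℝ y (x - y) := by simpa [sub_eq_zero] using h6
      have h7 : x = y := by
        rwa [← sub_eq_zero, ← inner_sub_left, inner_self_eq_zero, sub_eq_zero] at h8
      rwa [← h7]
  have ua : ∀ k i j, UB e (fun s : K => s.1) k fun _ => a i j := fun k i j =>
    ub_of_compact hK (fun s => s.2) (ha i j)
  have uψ : ∀ k, UB e (fun s : K => s.1) k fun _ x => -‖x - y‖ ^ 2 := fun k =>
    ub_of_compact hK (fun s => s.2) fun x _ => hψ x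
  obtain ⟨t, ht, h3⟩ := psc_exp (a := fun _ => a) (ua 1) (fun s => hs _ s.2) (uψ 2) (lt_min hμ hν)
    (fun s ξ => (mul_le_mul_of_nonneg_right (min_le_left _ _) (sq2_nonneg ξ)).trans (h1 _ s.2 ξ))
    fun s => (min_le_right _ _).trans (h2 _ s.2)
  obtain ⟨c, hc, h4⟩ := h3 t le_rfl
  obtain ⟨c', m, M, hm, hM, h5⟩ := adm_of_psc (a := fun _ => a) (ua 2) (fun s => hs _ s.2)
    ((ub_c t).mul (uψ 3)).exp hc hc (fun s => (h4 s).1) fun s => (h4 s).2
  exact ⟨t, m, M, _, ht, hm, hM, fun x hx => h5 ⟨x, hx⟩⟩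

theorem ucp_ball (he : ∀ l : E →L[ℝ] ℝ, ‖l‖ ≤ ∑ i, |l (e i)|) (hl : Sq l) {y : E} {ρ R R' C : ℝ}
    (hρ : 0 < ρ) (hR : 0 < R) (hR' : R < R') (ha : ∀ i j, ∀ x ∈ closedBall y R', SA (a i j) x)
    (hs : ∀ x ∈ closedBall y R', ∀ i j, a i j x = a j i x)
    (hp : ∀ x ∈ closedBall y R', ∀ ξ, ξ ≠ 0 → 0 < qf a x ξ ξ)
    (hu : ∀ k, ∀ x ∈ closedBall y R', SA (u k) x)
    (hd : ∀ x ∈ closedBall y R', n0 (fun k => dv e a (u k)) x ≤ C * (n1 e u x + n0 u x))
    (h0 : ∀ k, ∀ x ∈ ball y ρ, u k x = 0) : ∀ k, ∀ x ∈ ball y R, u k x = 0 := by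
  have hK : IsCompact (closedBall y R' \ ball y ρ) := (isCompact_closedBall y R').diff isOpen_ball
  obtain ⟨t, m, M, g, ht, hm, hM, h⟩ := adm_rad he hK (fun h => h.2 (mem_ball_self hρ))
    (fun i j x hx => ha i j x hx.1) (fun x hx => hs x hx.1) fun x hx => hp x hx.1
  let χ : ContDiffBump y := ⟨R, R', hR, hR'⟩
  set v : κ → E → F := fun k x => χ x • u k x with hv
  have v1 : ∀ k, ∀ x ∈ closedBall y R' \ ball y ρ, SA (v k) x := fun k x hx =>
    χ.contDiff.contDiffAt.smul (hu k x hx.1)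
  have v0 : ∀ k, ∀ x ∉ closedBall y R' \ ball y ρ, v k x = 0 := fun k x hx => by
    by_cases h1 : x ∈ ball y ρ
    · simp [hv, h0 k x h1]
    · have h2 : x ∉ closedBall y R' := fun h2 => hx ⟨h2, h1⟩
      simp [hv, χ.zero_of_le_dist (not_le.1 h2).le]
  have v2 : ∀ k, ∀ x ∈ ball y R, v k =ᶠ[𝓝 x] u k := fun k x hx => by
    filter_upwards [isOpen_ball.mem_nhds hx] with z hz
    simp [hv, χ.one_of_mem_closedBall (ball_subset_closedBall hz)]
  obtain ⟨B, hB⟩ := hK.exists_bound_of_continuousOn (f := n0 fun k => dv e a (v k))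
    fun x hx => (hl.sa0 fun k => sa_dv (h x hx).sa (v1 k x hx)).continuousAt.continuousWithinAt
  have c0 : Continuous (n0 v) := (sm_of_loc hK.isClosed (fun x hx => hl.sa0 fun k => v1 k x hx)
    fun x hx => by simp [n0, v0 _ x hx]).continuous
  have i0 : IntegrableOn (n0 v) (ball y R) (Measure.addHaar : Measure E) :=
    (c0.continuousOn.integrableOn_compact (isCompact_closedBall y R)).mono_set
      ball_subset_closedBall
  have cφ : Continuous fun x : E => Real.exp (t * -‖x - y‖ ^ 2) := by fun_prop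
  have key : ∀ᶠ τ : ℝ in atTop, τ * ∫ x in ball y R, n0 v x ∂Measure.addHaar ≤
      (8 * M + 8) / m * ((Measure.addHaar : Measure E).real (closedBall y R' \ ball y ρ) * |B|) := by
    filter_upwards [eventually_ge_atTop 1, eventually_ge_atTop M,
      eventually_ge_atTop ((M + M / m) / m), eventually_ge_atTop (|C| * (8 * M + 8) / m)]
      with τ h1 h2 h3 h4
    have cE : Continuous fun x : E => Real.exp (2 * τ * Real.exp (t * -‖x - y‖ ^ 2)) := by fun_prop
    have ir : IntegrableOn (fun x => Real.exp (2 * τ * Real.exp (t * -‖x - y‖ ^ 2)) *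
        (ball y R)ᶜ.indicator (fun _ => |B|) x) (closedBall y R' \ ball y ρ) Measure.addHaar := by
      refine (((cE.mul (continuous_const (y := |B|))).continuousOn.integrableOn_compact
        hK).indicator (measurableSet_ball (x := y) (ε := R)).compl).congr (.of_forall fun x => ?_)
      exact indicator_mul_right _ _ _
    have k := carl_fam Measure.addHaar hl hK h v1 v0 hm hM.le (abs_nonneg C) h1 h2
      ((div_le_iff₀ hm).1 h3) ((div_le_iff₀ hm).1 h4) ir fun x hx => by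
        have p0 := n0_nonneg v x
        have p1 := n1_nonneg (e := e) v x
        by_cases hx' : x ∈ ball y R
        · have e0 : n0 v x = n0 u x := by simp only [n0, fun k => (v2 k x hx').self_of_nhds]
          have e1 : n1 e v x = n1 e u x := by simp only [n1, fun k i => dd_congr (v2 k x hx') (e i)]
          have e2 : ∀ k, dv e a (v k) x = dv e a (u k) x := fun k =>
            Finset.sum_congr rfl fun i _ => dd_congr (by
              filter_upwards [eventually_all.2 fun j => dd_congr_ev (v2 k x hx') (e j)] with z hz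
              simp only [fx, hz]) _
          rw [indicator_of_notMem (not_not.2 hx'), add_zero]
          refine le_trans ?_ (mul_le_mul_of_nonneg_right (le_abs_self C) (add_nonneg p1 p0))
          rw [e0, e1]
          simpa only [n0, e2] using hd x hx.1
        · rw [indicator_of_mem hx']
          have := (le_abs_self _).trans ((hB x hx).trans (le_abs_self B))
          have p2 : 0 ≤ |C| * (n1 e v x + n0 v x) := by positivity
          linarith
    have t0 : 0 < τ := by linarith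
    have hE := Real.exp_pos (2 * τ * Real.exp (t * -R ^ 2))
    have k1 : ∫ x in closedBall y R' \ ball y ρ, Real.exp (2 * τ * Real.exp (t * -‖x - y‖ ^ 2)) *
        (ball y R)ᶜ.indicator (fun _ => |B|) x ∂Measure.addHaar ≤
        ∫ _ in closedBall y R' \ ball y ρ,
          Real.exp (2 * τ * Real.exp (t * -R ^ 2)) * |B| ∂Measure.addHaar := by
      refine setIntegral_mono_on ir (integrableOn_const hK.measure_lt_top.ne) hK.measurableSet
        fun x _ => ?_
      by_cases hx' : x ∈ ball y R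
      · rw [indicator_of_notMem (not_not.2 hx'), mul_zero]; positivity
      · rw [indicator_of_mem hx']
        rw [mem_ball_iff_norm, not_lt] at hx'
        gcongr
    have k2 : ∫ x in ball y R, Real.exp (2 * τ * Real.exp (t * -R ^ 2)) * (τ * n0 v x)
        ∂Measure.addHaar ≤ ∫ x, Real.exp (2 * τ * Real.exp (t * -‖x - y‖ ^ 2)) *
          (τ * n1 e v x + τ ^ 3 * n0 v x) ∂Measure.addHaar := by
      have i1 := int_loc Measure.addHaar hK (fun x hx => ((contDiffAt_const (c := 2 * τ)).mul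
        (h x hx).sφ).exp.mul (((contDiffAt_const (c := τ)).mul (hl.sa1 (e := e) fun k =>
          v1 k x hx)).add ((contDiffAt_const (c := τ ^ 3)).mul (hl.sa0 fun k => v1 k x hx))))
        fun x hx => by simp [n0, n1, dd_zero hK.isClosed (v0 _) _ x hx, v0 _ x hx]
      refine (setIntegral_mono_on ((i0.const_mul τ).const_mul _) i1.integrableOn measurableSet_ball
        fun x hx => ?_).trans (setIntegral_le_integral i1 (.of_forall fun x => ?_))
      · have p0 := n0_nonneg v x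
        have p1 := mul_nonneg t0.le (n1_nonneg (e := e) v x)
        have p2 : τ * n0 v x ≤ τ ^ 3 * n0 v x := by
          gcongr
          exact le_self_pow₀ h1 (by norm_num)
        rw [mem_ball_iff_norm] at hx
        gcongr
        linarith
      · have p0 := n0_nonneg v x
        have p1 := n1_nonneg (e := e) v x
        positivity
    rw [integral_const_mul, integral_const_mul] at k2
    rw [setIntegral_const, smul_eq_mul] at k1
    have k3 := k2.trans (k.trans (mul_le_mul_of_nonneg_left k1 (by positivity)))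
    refine le_of_mul_le_mul_left (k3.trans (le_of_eq ?_)) hE
    ring
  have j0 : ∫ x in ball y R, n0 v x ∂Measure.addHaar = 0 := by
    refine le_antisymm (not_lt.1 fun hJ => ?_) (integral_nonneg fun x => n0_nonneg v x)
    obtain ⟨τ, h1, h2⟩ := (key.and ((tendsto_id.atTop_mul_const hJ).eventually_gt_atTop _)).exists
    exact h2.not_ge h1
  have j1 := Measure.eqOn_open_of_ae_eq
    ((setIntegral_eq_zero_iff_of_nonneg_ae (.of_forall fun x => n0_nonneg v x) i0).1 j0)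
    isOpen_ball c0.continuousOn continuousOn_const
  intro k x hx
  have j2 := (Finset.sum_eq_zero_iff_of_nonneg fun k _ => sq_nonneg ‖v k x‖).1 (j1 hx) k
    (Finset.mem_univ k)
  rw [← (v2 k x hx).self_of_nhds]
  simpa using j2

/-- Unique continuation. -/
theorem ucp' (he : ∀ l : E →L[ℝ] ℝ, ‖l‖ ≤ ∑ i, |l (e i)|) (hl : Sq l) {O O₁ : Set E}
    (hO : IsOpen O) (hc : IsPreconnected O) (ha : ∀ i j, ∀ x ∈ O, SA (a i j) x)
    (hs : ∀ x ∈ O, ∀ i j, a i j x = a j i x) (hp : ∀ x ∈ O, ∀ ξ, ξ ≠ 0 → 0 < qf a x ξ ξ)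
    (hu : ∀ k, ∀ x ∈ O, SA (u k) x)
    (hd : ∀ K, K ⊆ O → IsCompact K →
      ∃ C, ∀ x ∈ K, n0 (fun k => dv e a (u k)) x ≤ C * (n1 e u x + n0 u x))
    (h1 : IsOpen O₁) (h2 : O₁.Nonempty) (h3 : O₁ ⊆ O) (h0 : ∀ k, ∀ x ∈ O₁, u k x = 0) :
    ∀ k, ∀ x ∈ O, u k x = 0 := by
  have h4 : O ⊆ interior {x | ∀ k, u k x = 0} := by
    refine hc.subset_of_closure_inter_subset isOpen_interior
      (h2.mono (subset_inter h3 (interior_maximal (fun x hx k => h0 k x hx) h1))) ?_
    rintro x ⟨hx, hxO⟩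
    obtain ⟨r, hr, hb⟩ := Metric.isOpen_iff.1 hO x hxO
    obtain ⟨y, hy, hxy⟩ := Metric.mem_closure_iff.1 hx (r / 4) (by positivity)
    obtain ⟨ρ, hρ, hρb⟩ := Metric.mem_nhds_iff.1 (mem_interior_iff_mem_nhds.1 hy)
    have hs' : closedBall y (r / 2) ⊆ O := fun z hz => hb (by
      rw [mem_closedBall] at hz
      rw [mem_ball]
      linarith [dist_triangle_right z x y])
    obtain ⟨C, hC⟩ := hd _ hs' (isCompact_closedBall _ _)
    have h5 := ucp_ball he hl hρ (by positivity : 0 < r / 4) (by linarith : r / 4 < r / 2)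
      (fun i j z hz => ha i j z (hs' hz)) (fun z hz => hs z (hs' hz)) (fun z hz => hp z (hs' hz))
      (fun k z hz => hu k z (hs' hz)) hC fun k z hz => hρb hz k
    exact interior_maximal (fun z hz k => h5 k z hz) isOpen_ball hxy
  exact fun k x hx => interior_subset (h4 hx) k

/-- The standard basis. -/
def es (n : ℕ) (i : Fin n) : EuclideanSpace ℝ (Fin n) := EuclideanSpace.single i 1

theorem he_es (n : ℕ) (l : EuclideanSpace ℝ (Fin n) →L[ℝ] ℝ) : ‖l‖ ≤ ∑ i, |l (es n i)| := by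
  refine l.opNorm_le_bound (Finset.sum_nonneg fun _ _ => abs_nonneg _) fun x => ?_
  have h : x = ∑ i, x i • es n i := by
    simpa [es] using ((EuclideanSpace.basisFun (Fin n) ℝ).sum_repr x).symm
  conv_lhs => rw [h]
  rw [map_sum, Finset.sum_mul]
  refine (norm_sum_le _ _).trans (Finset.sum_le_sum fun i _ => ?_)
  rw [map_smul, norm_smul, mul_comm]
  exact mul_le_mul_of_nonneg_left (PiLp.norm_apply_le x i) (abs_nonneg _)

theorem ucp {n : ℕ} {a : Fin n → Fin n → EuclideanSpace ℝ (Fin n) → ℝ}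
    {u : κ → EuclideanSpace ℝ (Fin n) → F} (hl : Sq l) {O O₁ : Set (EuclideanSpace ℝ (Fin n))}
    (hO : IsOpen O) (hc : IsPreconnected O) (ha : ∀ i j, ∀ x ∈ O, SA (a i j) x)
    (hs : ∀ x ∈ O, ∀ i j, a i j x = a j i x) (hp : ∀ x ∈ O, ∀ ξ, ξ ≠ 0 → 0 < qf a x ξ ξ)
    (hu : ∀ k, ∀ x ∈ O, SA (u k) x)
    (hd : ∀ K, K ⊆ O → IsCompact K →
      ∃ C, ∀ x ∈ K, n0 (fun k => dv (es n) a (u k)) x ≤ C * (n1 (es n) u x + n0 u x))
    (h1 : IsOpen O₁) (h2 : O₁.Nonempty) (h3 : O₁ ⊆ O) (h0 : ∀ k, ∀ x ∈ O₁, u k x = 0) :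
    ∀ k, ∀ x ∈ O, u k x = 0 := ucp' (he_es n) hl hO hc ha hs hp hu hd h1 h2 h3 h0

end Vale.Agent.P088.Car
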