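import Vale.Agent.P088F.BDefs

/-! P088, part B: pointwise algebra. -/

open MeasureTheory Set Metric Matrix Filter Topology
open scoped ContDiff

noncomputable section

namespace Vale.Agent.P088.B

variable {n N : ℕ} [NeZero n] {W : Type} [NormedAddCommGroup W] [NormedSpace ℝ W]

theorem balg_pol {A : Matrix (Fin n) (Fin n) ℝ} (hA : ∀ i j, A i j = A j i)
    (h : ∀ ξ : Ec n, ξ 0 = 0 → ∑ j, ∑ k, A j k * ξ j * ξ k = 0) {a b : Fin n} (ha : a ≠ 0)
    (hb : b ≠ 0) : A a b = 0 := by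
  have h1 : ∀ a b : Fin n, a ≠ 0 → b ≠ 0 → A a a + A b a + (A a b + A b b) = 0 := by
    intro a b ha hb
    have := h (bv a + bv b) (by simp [bv, ha.symm, hb.symm])
    simpa [bv, mul_add, add_mul, Finset.sum_add_distrib, Pi.single_apply] using this
  have h2 := h1 a b ha hb
  have h3 := h1 a a ha ha
  have h4 := h1 b b hb hb
  have h5 := hA a b
  linarith

theorem balg_prod (x y : ℝ) : ∏ j : Fin n, (if j = 0 then x else y) = x * y ^ (n - 1) := by
  rw [← Finset.mul_prod_erase _ _ (Finset.mem_univ (0 : Fin n)), if_pos rfl,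
    Finset.prod_congr rfl fun j hj => if_neg (Finset.ne_of_mem_erase hj), Finset.prod_const,
    Finset.card_erase_of_mem (Finset.mem_univ _), Finset.card_univ, Fintype.card_fin]

omit [NeZero n] in
theorem balg_sym {s : Matrix (Fin n) (Fin n) ℝ} (h : s.PosDef) (i j : Fin n) : s i j = s j i := by
  simpa using h.1.apply j i

theorem alg0 (hn : 3 ≤ n) {s₁ s₂ : Matrix (Fin n) (Fin n) ℝ} (h₁ : s₁.PosDef) (h₂ : s₂.PosDef)
    (b₁ : ∀ j, j ≠ 0 → s₁ 0 j = 0) (b₂ : ∀ j, j ≠ 0 → s₂ 0 j = 0)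
    (d₁ : s₁.det = s₁ 0 0 ^ (n - 2)) (d₂ : s₂.det = s₂ 0 0 ^ (n - 2))
    (h : ∀ ξ : Ec n, ξ 0 = 0 →
      s₁ 0 0 * ∑ j, ∑ k, s₁ j k * ξ j * ξ k = s₂ 0 0 * ∑ j, ∑ k, s₂ j k * ξ j * ξ k) :
    s₁ = s₂ := by
  have p₁ : 0 < s₁ 0 0 := h₁.diag_pos
  have p₂ : 0 < s₂ 0 0 := h₂.diag_pos
  have h1 : ∀ a b, a ≠ 0 → b ≠ 0 → s₁ 0 0 * s₁ a b = s₂ 0 0 * s₂ a b := fun a b ha hb =>
    sub_eq_zero.1 (balg_pol (A := Matrix.of fun j k => s₁ 0 0 * s₁ j k - s₂ 0 0 * s₂ j k)
      (fun i j => by simp only [of_apply, balg_sym h₁ i j, balg_sym h₂ i j]) (fun ξ hξ => by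
        have := h ξ hξ
        simp only [Finset.mul_sum, ← mul_assoc] at this
        simp only [of_apply, sub_mul, Finset.sum_sub_distrib, this, sub_self]) ha hb)
  have h2 : diagonal (fun j => if j = 0 then s₂ 0 0 else s₁ 0 0) * s₁ =
      diagonal (fun j => if j = 0 then s₁ 0 0 else s₂ 0 0) * s₂ := by
    ext a b
    rw [diagonal_mul, diagonal_mul]
    by_cases ha : a = 0
    · subst ha
      by_cases hb : b = 0
      · rw [hb, if_pos rfl, if_pos rfl, mul_comm]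
      · rw [b₁ b hb, b₂ b hb, mul_zero, mul_zero]
    · rw [if_neg ha, if_neg ha]
      by_cases hb : b = 0
      · rw [hb, balg_sym h₁ a, balg_sym h₂ a, b₁ a ha, b₂ a ha, mul_zero, mul_zero]
      · exact h1 a b ha hb
  have h3 := congrArg det h2
  rw [det_mul, det_mul, det_diagonal, det_diagonal, balg_prod, balg_prod, d₁, d₂] at h3
  obtain ⟨m, hm⟩ : ∃ m, n - 2 = m + 1 := ⟨n - 3, by omega⟩
  rw [show n - 1 = m + 2 by omega, hm] at h3
  have h4 : s₁ 0 0 = s₂ 0 0 := by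
    refine (pow_left_inj₀ p₁.le p₂.le (n := 2 * m + 2) (by omega)).1
      (mul_left_cancel₀ (mul_pos p₁ p₂).ne' ?_)
    linear_combination h3
  ext a b
  by_cases ha : a = 0
  · subst ha
    by_cases hb : b = 0
    · rw [hb, h4]
    · rw [b₁ b hb, b₂ b hb]
  · by_cases hb : b = 0
    · rw [hb, balg_sym h₁ a, balg_sym h₂ a, b₁ a ha, b₂ a ha]
    · exact mul_left_cancel₀ p₂.ne' (h4 ▸ h1 a b ha hb)

theorem balg_lim {E : Type} [NormedAddCommGroup E] [NormedSpace ℝ E] {G : E → ℝ} {L : E →L[ℝ] ℝ}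
    {y S : ℝ → E} (k : ℕ) (hG : HasStrictFDerivAt G L (y 0)) (hy : ContinuousAt y 0)
    (hS : ContinuousAt S 0)
    (h : ∀ᶠ t in 𝓝[>] (0 : ℝ), G (y t + t ^ (k + 1) • S t) = 0 ∧ G (y t) = 0) : L (S 0) = 0 := by
  have h1 : ContinuousAt (fun t : ℝ => (y t + t ^ (k + 1) • S t, y t)) 0 :=
    (hy.add ((continuousAt_id.pow _).smul hS)).prodMk hy
  have h2 : Tendsto (fun t : ℝ => (y t + t ^ (k + 1) • S t, y t)) (𝓝[>] 0) (𝓝 (y 0, y 0)) := by
    simpa using h1.tendsto.mono_left nhdsWithin_le_nhds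
  have h3 := hG.isLittleO.comp_tendsto h2
  have h4 : (fun t => L (S t)) =o[𝓝[>] 0] S := by
    refine Asymptotics.IsLittleO.of_bound fun c hc => ?_
    filter_upwards [h3.bound hc, h, self_mem_nhdsWithin] with t h5 h6 h7
    have h8 : 0 < t ^ (k + 1) := pow_pos h7 _
    simp only [Function.comp, h6.1, h6.2, add_sub_cancel_left, sub_self, zero_sub, norm_neg,
      map_smul, norm_smul, Real.norm_of_nonneg h8.le] at h5
    exact le_of_mul_le_mul_left (h5.trans_eq (mul_left_comm _ _ _)) h8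
  have h5 : Tendsto S (𝓝[>] 0) (𝓝 (S 0)) := hS.tendsto.mono_left nhdsWithin_le_nhds
  exact tendsto_nhds_unique ((L.continuous.tendsto _).comp h5)
    ((Asymptotics.isLittleO_one_iff ℝ).1 (h4.trans_isBigO (h5.isBigO_one ℝ)))

theorem alg1 (hn : 3 ≤ n) (k : ℕ) {s₁ s₂ S : ℝ → Matrix (Fin n) (Fin n) ℝ}
    (c₂ : ∀ i j, ContinuousAt (fun t => s₂ t i j) 0) (cS : ∀ i j, ContinuousAt (fun t => S t i j) 0)
    (hd : ∀ᶠ t in 𝓝[>] (0 : ℝ), s₁ t - s₂ t = t ^ (k + 1) • S t ∧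
      (s₁ t).det = s₁ t 0 0 ^ (n - 2) ∧ (s₂ t).det = s₂ t 0 0 ^ (n - 2))
    (h₂ : (s₂ 0).PosDef) (b₂ : ∀ j, j ≠ 0 → s₂ 0 0 j = 0) (d₂ : (s₂ 0).det = s₂ 0 0 0 ^ (n - 2))
    (sS : ∀ i j, S 0 i j = S 0 j i) (bS : ∀ j, j ≠ 0 → S 0 0 j = 0)
    (h : ∀ ξ : Ec n, ξ 0 = 0 →
      S 0 0 0 * ∑ i, ∑ j, s₂ 0 i j * ξ i * ξ j + s₂ 0 0 0 * ∑ i, ∑ j, S 0 i j * ξ i * ξ j = 0) :
    S 0 = 0 := by
  have p₂ : 0 < s₂ 0 0 0 := h₂.diag_pos
  have h1 : ∀ a b, a ≠ 0 → b ≠ 0 → S 0 0 0 * s₂ 0 a b + s₂ 0 0 0 * S 0 a b = 0 :=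
    fun a b ha hb => balg_pol
      (A := Matrix.of fun j k => S 0 0 0 * s₂ 0 j k + s₂ 0 0 0 * S 0 j k)
      (fun i j => by simp only [of_apply, balg_sym h₂ i j, sS i j]) (fun ξ hξ => by
        have := h ξ hξ
        simp only [Finset.mul_sum, ← mul_assoc] at this
        simp only [of_apply, add_mul, Finset.sum_add_distrib, this]) ha hb
  obtain ⟨c, hc⟩ : ∃ c, S 0 0 0 = c * s₂ 0 0 0 := ⟨_, (div_mul_cancel₀ _ p₂.ne').symm⟩
  have h2 : ∀ a b, S 0 a b = (if a = 0 then c else -c) * s₂ 0 a b := by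
    intro a b
    by_cases ha : a = 0
    · subst ha
      by_cases hb : b = 0
      · rw [hb, if_pos rfl, hc]
      · rw [bS b hb, b₂ b hb, mul_zero]
    · rw [if_neg ha]
      by_cases hb : b = 0
      · rw [hb, balg_sym h₂ a, sS a, bS a ha, b₂ a ha, mul_zero]
      · have := h1 a b ha hb
        rw [hc] at this
        exact mul_left_cancel₀ p₂.ne' (by linear_combination this)
  let G : (Fin n → Fin n → ℝ) → ℝ := fun A => (Matrix.of A).det - A 0 0 ^ (n - 2)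
  have hG : ContDiff ℝ 1 G := by
    simp only [G, det_apply', of_apply]
    fun_prop
  have h3 := (hG.contDiffAt (x := fun i j => s₂ 0 i j)).hasStrictFDerivAt one_ne_zero
  have h4 := balg_lim (y := fun t i j => s₂ t i j) (S := fun t i j => S t i j) k h3
    (continuousAt_pi.2 fun i => continuousAt_pi.2 (c₂ i))
    (continuousAt_pi.2 fun i => continuousAt_pi.2 (cS i)) (hd.mono fun t ht => ⟨by
      have e : s₁ t = s₂ t + t ^ (k + 1) • S t := by rw [← ht.1, add_sub_cancel]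
      have h5 := ht.2.1
      rw [e] at h5
      exact sub_eq_zero.2 h5, sub_eq_zero.2 ht.2.2⟩)
  have h5 : HasDerivAt (fun r : ℝ => G ((fun i j => s₂ 0 i j) + r • fun i j => S 0 i j)) _ 0 :=
    h3.hasFDerivAt.hasLineDerivAt fun i j => S 0 i j
  rw [h4] at h5
  obtain ⟨m, hm⟩ : ∃ m, n - 2 = m + 1 := ⟨n - 3, by omega⟩
  have h6 : (fun r : ℝ => G ((fun i j => s₂ 0 i j) + r • fun i j => S 0 i j)) = fun r =>
      ((1 + r * c) * (1 - r * c) ^ (m + 2) - (1 + r * c) ^ (m + 1)) * s₂ 0 0 0 ^ (m + 1) := by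
    funext r
    have e : Matrix.of ((fun i j => s₂ 0 i j) + r • fun i j => S 0 i j) =
        diagonal (fun j => if j = 0 then 1 + r * c else 1 - r * c) * s₂ 0 := by
      ext a b
      rw [diagonal_mul]
      simp only [of_apply, Pi.add_apply, Pi.smul_apply, smul_eq_mul, h2 a b]
      split_ifs <;> ring
    simp only [G]
    rw [e, det_mul, det_diagonal, balg_prod, d₂, show n - 1 = m + 2 by omega, hm]
    simp only [Pi.add_apply, Pi.smul_apply, smul_eq_mul, hc]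
    rw [show s₂ 0 0 0 + r * (c * s₂ 0 0 0) = (1 + r * c) * s₂ 0 0 0 by ring, mul_pow]
    ring
  have h7 : HasDerivAt (fun r : ℝ => r * c) c 0 := by simpa using (hasDerivAt_id (0 : ℝ)).mul_const c
  have h8 := ((((h7.const_add 1).mul ((h7.const_sub 1).pow (m + 2))).sub
    ((h7.const_add 1).pow (m + 1))).mul_const (s₂ 0 0 0 ^ (m + 1)))
  rw [h6] at h5
  have h9 := h5.unique h8
  have h10 : c = 0 := by
    have h11 : (2 * (m : ℝ) + 2) * s₂ 0 0 0 ^ (m + 1) ≠ 0 := by positivity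
    refine mul_left_cancel₀ h11 ?_
    simp at h9
    rcases h9 with h9 | h9
    · linear_combination (-s₂ 0 0 0 ^ (m + 1)) * h9
    · exact absurd h9 p₂.ne'
  ext a b
  rw [h2, h10, neg_zero, ite_self, zero_mul, Matrix.zero_apply]

theorem alg2 {s : Matrix (Fin n) (Fin n) ℝ} (hs : s.PosDef) (b : ∀ j, j ≠ 0 → s 0 j = 0)
    {T : Fin n → Op N} (sk : ∀ j, star (T j) = -T j) (h0 : T 0 = 0)
    (h : ∀ ξ : Ec n, ξ 0 = 0 → ∀ v : Fb N,
      ∑ j, ∑ k, s j k * ξ j * (inner ℂ (Complex.I • v) (T k v)).re = 0) (k : Fin n) :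
    T k = 0 := by
  have h1 : ∀ v : Fb N, inner ℂ (T k v) v = 0 := by
    intro v
    have h2 : s *ᵥ (fun k => (inner ℂ (Complex.I • v) (T k v)).re) = 0 := by
      funext j
      by_cases hj : j = 0
      · subst hj
        change ∑ i, s 0 i * (inner ℂ (Complex.I • v) (T i v)).re = 0
        refine Finset.sum_eq_zero fun i _ => ?_
        by_cases hi : i = 0
        · simp [hi, h0]
        · simp [b i hi]
      · have := h (bv j) (by simp [bv, Ne.symm hj]) v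
        rw [Finset.sum_eq_single j (fun i _ hi => by simp [bv, hi]) (by simp)] at this
        simpa [bv, mulVec, dotProduct] using this
    have h3 := congrFun ((mulVec_injective_iff_isUnit.2 hs.isUnit) (h2.trans (mulVec_zero s).symm)) k
    have h4 : inner ℂ v (T k v) = -inner ℂ (T k v) v := by
      rw [← ContinuousLinearMap.adjoint_inner_left, ← ContinuousLinearMap.star_eq_adjoint, sk,
        _root_.neg_apply, inner_neg_left]
    have h5 := congrArg Complex.re h4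
    rw [← inner_conj_symm (T k v) v] at h5
    rw [inner_eq_zero_symm]
    simp only [inner_smul_left, Complex.conj_I, Complex.mul_re, Complex.neg_re, Complex.neg_im,
      Complex.I_re, Complex.I_im, Pi.zero_apply, Complex.conj_re] at h3 h5
    exact Complex.ext (by rw [Complex.zero_re]; linarith) (by rw [Complex.zero_im]; linarith)
  exact ContinuousLinearMap.coe_injective ((inner_map_self_eq_zero (T k : Fb N →ₗ[ℂ] Fb N)).1 h1)

end Vale.Agent.P088.B
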