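import Vale.Agent.P088F.BDefs

/-! P088, part B: calculus of coordinate derivatives. -/

open MeasureTheory Set Metric Matrix Filter Topology
open scoped ContDiff

noncomputable section

namespace Vale.Agent.P088.B

variable {n N : ℕ} {W : Type} [NormedAddCommGroup W] [NormedSpace ℝ W]

variable {u v : Ec n → W} {x : Ec n} {j : Fin n} {K : Set (Ec n)}

theorem sm_df (hu : ContDiff ℝ ∞ u) (x : Ec n) : DifferentiableAt ℝ u x :=
  hu.differentiable (by simp) x

theorem coord_smooth (i : Fin n) : ContDiff ℝ ∞ fun y : Ec n => y i :=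
  ((EuclideanSpace.proj i : Ec n →L[ℝ] ℝ)).contDiff

theorem pd_smooth (hu : ContDiff ℝ ∞ u) (j : Fin n) : ContDiff ℝ ∞ (pd j u) :=
  (hu.fderiv_right (m := ∞) (by simp)).clm_apply contDiff_const

theorem pd_const (c : W) (j : Fin n) (x : Ec n) : pd j (fun _ => c) x = 0 := by
  simp [pd]

theorem pd_add (hu : DifferentiableAt ℝ u x) (hv : DifferentiableAt ℝ v x) :
    pd j (fun y => u y + v y) x = pd j u x + pd j v x := by
  simp [pd, fderiv_fun_add hu hv]

theorem pd_sub (hu : DifferentiableAt ℝ u x) (hv : DifferentiableAt ℝ v x) :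
    pd j (fun y => u y - v y) x = pd j u x - pd j v x := by
  simp [pd, fderiv_fun_sub hu hv]

theorem pd_neg : pd j (fun y => -u y) x = -pd j u x := by
  simp [pd, fderiv_fun_neg]

theorem pd_smul {f : Ec n → ℝ} (hf : DifferentiableAt ℝ f x) (hu : DifferentiableAt ℝ u x) :
    pd j (fun y => f y • u y) x = pd j f x • u x + f x • pd j u x := by
  simp [pd, fderiv_fun_smul hf hu, add_comm]

theorem pd_mul {f g : Ec n → ℝ} (hf : DifferentiableAt ℝ f x) (hg : DifferentiableAt ℝ g x) :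
    pd j (fun y => f y * g y) x = pd j f x * g x + f x * pd j g x := pd_smul hf hg

theorem pd_csmul {f : Ec n → ℂ} {w : Ec n → Fb N} (hf : DifferentiableAt ℝ f x)
    (hw : DifferentiableAt ℝ w x) :
    pd j (fun y => f y • w y) x = pd j f x • w x + f x • pd j w x := by
  simp [pd, fderiv_fun_smul hf hw, add_comm]

theorem pd_sum {κ : Type} (s : Finset κ) {U : κ → Ec n → W}
    (h : ∀ i ∈ s, DifferentiableAt ℝ (U i) x) :
    pd j (fun y => ∑ i ∈ s, U i y) x = ∑ i ∈ s, pd j (U i) x := by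
  simp [pd, fderiv_fun_sum h]

theorem pd_congr (h : u =ᶠ[𝓝 x] v) : pd j u x = pd j v x := by
  simp [pd, h.fderiv_eq]

theorem pd_off (hK : IsClosed K) (h : ∀ x ∉ K, u x = 0) (j : Fin n) : ∀ x ∉ K, pd j u x = 0 := by
  intro x hx
  have : u =ᶠ[𝓝 x] fun _ => 0 := by
    filter_upwards [hK.isOpen_compl.mem_nhds hx] with y hy using h y hy
  rw [pd_congr this, pd_const]

theorem pd_clm {W' : Type} [NormedAddCommGroup W'] [NormedSpace ℝ W'] (l : W →L[ℝ] W')
    (hu : DifferentiableAt ℝ u x) : pd j (fun y => l (u y)) x = l (pd j u x) := by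
  have := (l.hasFDerivAt.comp x hu.hasFDerivAt).fderiv
  simp only [pd]
  rw [show (fun y => l (u y)) = l ∘ u from rfl, this]
  rfl

theorem pd_coord (i j : Fin n) (x : Ec n) :
    pd j (fun y : Ec n => y i) x = if j = i then 1 else 0 := by
  have := ((EuclideanSpace.proj i : Ec n →L[ℝ] ℝ)).hasFDerivAt (x := x) |>.fderiv
  simp only [pd]
  rw [show (fun y : Ec n => y i) = (EuclideanSpace.proj i : Ec n →L[ℝ] ℝ) from rfl, this]
  by_cases h : j = i
  · simp [bv, h]
  · simp [bv, h, Ne.symm h]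

theorem pd_pow (i j : Fin n) (k : ℕ) (x : Ec n) :
    pd j (fun y : Ec n => y i ^ k) x = if j = i then k * x i ^ (k - 1) else 0 := by
  have h := ((hasDerivAt_pow k (x i)).comp_hasFDerivAt x
    (sm_df (coord_smooth i) x).hasFDerivAt).fderiv
  have h2 := pd_coord i j x
  simp only [pd] at h2 ⊢
  rw [show (fun y : Ec n => y i ^ k) = (fun t : ℝ => t ^ k) ∘ fun y : Ec n => y i from rfl, h]
  simp only [_root_.smul_apply, h2, smul_eq_mul]
  split_ifs <;> simp

theorem op_smooth' {T : Ec n → Op N} {w : Ec n → Fb N} (hT : ContDiff ℝ ∞ T)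
    (hw : ContDiff ℝ ∞ w) : ContDiff ℝ ∞ fun y => T y (w y) :=
  (((ContinuousLinearMap.restrictScalarsL ℂ (Fb N) (Fb N) ℝ ℝ).contDiff.comp hT).clm_apply hw :)

theorem pd_op {T : Ec n → Op N} {w : Ec n → Fb N} (hT : DifferentiableAt ℝ T x)
    (hw : DifferentiableAt ℝ w x) :
    pd j (fun y => T y (w y)) x = pd j T x (w x) + T x (pd j w x) := by
  have h1 := (ContinuousLinearMap.restrictScalarsL ℂ (Fb N) (Fb N) ℝ ℝ).hasFDerivAt.comp x
    hT.hasFDerivAt
  have h2 := (h1.clm_apply hw.hasFDerivAt).fderiv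
  simp only [pd]
  erw [h2]
  simp [add_comm]

theorem pd_inner {w w' : Ec n → Fb N} (hw : DifferentiableAt ℝ w x)
    (hw' : DifferentiableAt ℝ w' x) :
    pd j (fun y => inner ℂ (w y) (w' y)) x =
      inner ℂ (pd j w x) (w' x) + inner ℂ (w x) (pd j w' x) := by
  simp only [pd]
  rw [fderiv_inner_apply ℂ hw hw', add_comm]

end Vale.Agent.P088.B
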