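import Vale.Agent.P088F.BCo

/-! P088, part B: integration by parts on the half space. -/

open MeasureTheory Set Metric Matrix Filter Topology
open scoped ContDiff

noncomputable section

namespace Vale.Agent.P088.B

variable {n N : ℕ} [NeZero n] {W : Type} [NormedAddCommGroup W] [NormedSpace ℝ W]

variable {K : Set (Ec n)}

theorem Hs_open : IsOpen (Hs n) := by
  exact isOpen_lt continuous_const (coord_smooth 0).continuous

omit [NeZero n] in
theorem int_of_off {F : Ec n → W} (hF : Continuous F) (hK : IsCompact K)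
    (h0 : ∀ x ∉ K, F x = 0) : Integrable F := by
  exact hF.integrable_of_hasCompactSupport (HasCompactSupport.intro hK h0)

theorem bibp_null : ∀ᵐ x : Ec n, x 0 ≠ 0 := by
  have h := Measure.addHaar_submodule (volume : Measure (Ec n))
    (LinearMap.ker (EuclideanSpace.proj (0 : Fin n) : Ec n →L[ℝ] ℝ).toLinearMap) fun e => by
      have h1 : bv 0 ∈ LinearMap.ker
        (EuclideanSpace.proj (0 : Fin n) : Ec n →L[ℝ] ℝ).toLinearMap := e ▸ Submodule.mem_top
      simp [bv] at h1
  rw [ae_iff]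
  refine measure_mono_null (fun x hx => ?_) h
  simpa using hx

theorem bibp_lip {F : Ec n → W} {L : ℝ} (hL : 0 ≤ L) (hF : ∀ x y, ‖F x - F y‖ ≤ L * ‖x - y‖)
    (hb : ∀ x : Ec n, x 0 = 0 → F x = 0) (x y : Ec n) :
    ‖(Hs n).indicator F x - (Hs n).indicator F y‖ ≤ L * ‖x - y‖ := by
  have key : ∀ x y : Ec n, x ∈ Hs n → y ∉ Hs n → ‖F x‖ ≤ L * ‖x - y‖ := fun x y hx hy => by
    have h1 := hF x (pr x)
    have hx' : 0 < x 0 := hx
    have hy' : y 0 ≤ 0 := not_lt.1 hy
    have h2 : ‖x - pr x‖ = x 0 := by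
      simp [pr, bv, norm_smul, abs_of_pos hx']
    have h3 : |x 0 - y 0| ≤ ‖x - y‖ := PiLp.norm_apply_le (x - y) 0
    rw [hb _ (pr_zero x), sub_zero, h2] at h1
    exact h1.trans (mul_le_mul_of_nonneg_left (by linarith [le_abs_self (x 0 - y 0)]) hL)
  by_cases hx : x ∈ Hs n <;> by_cases hy : y ∈ Hs n
  · rw [indicator_of_mem hx, indicator_of_mem hy]
    exact hF x y
  · rw [indicator_of_mem hx, indicator_of_notMem hy, sub_zero]
    exact key x y hx hy
  · rw [indicator_of_notMem hx, indicator_of_mem hy, zero_sub, norm_neg, norm_sub_rev]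
    exact key y x hy hx
  · rw [indicator_of_notMem hx, indicator_of_notMem hy, sub_zero, norm_zero]
    positivity

theorem int_pd_half [CompleteSpace W] {F : Ec n → W} (hF : ContDiff ℝ ∞ F) (hK : IsCompact K)
    (h0 : ∀ x ∉ K, F x = 0) (hb : ∀ x : Ec n, x 0 = 0 → F x = 0) (j : Fin n) :
    ∫ x in Hs n, pd j F x = 0 := by
  obtain ⟨L, hL⟩ := hF.lipschitzWith_of_hasCompactSupport (HasCompactSupport.intro hK h0) (by simp)
  have h1 := bibp_lip L.2 (fun x y => hL.norm_sub_le x y) hb
  have hG : Integrable ((Hs n).indicator F) :=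
    (int_of_off hF.continuous hK h0).indicator Hs_open.measurableSet
  obtain ⟨R, hR⟩ := hK.isBounded.subset_closedBall 0
  have hz : ∀ x : Ec n, R < ‖x‖ → (Hs n).indicator F x = 0 := fun x hx =>
    indicator_apply_eq_zero.2 fun _ => h0 x fun h => not_le.2 hx (mem_closedBall_zero_iff.1 (hR h))
  have h2 := tendsto_integral_filter_of_dominated_convergence (μ := volume) (l := 𝓝[>] (0 : ℝ))
    (F := fun t x => t⁻¹ • ((Hs n).indicator F (x + t • bv j) - (Hs n).indicator F x))
    (f := (Hs n).indicator (pd j F))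
    ((closedBall (0 : Ec n) (R + ‖(bv j : Ec n)‖)).indicator fun _ => L * ‖(bv j : Ec n)‖)
    (Eventually.of_forall fun t => (((hG.comp_add_right _).sub hG).smul t⁻¹).aestronglyMeasurable)
    ?_ ((integrableOn_const measure_closedBall_lt_top.ne).integrable_indicator
      measurableSet_closedBall) ?_
  · have h3 : ∀ t : ℝ, ∫ x, t⁻¹ • ((Hs n).indicator F (x + t • bv j) - (Hs n).indicator F x) = 0 :=
      fun t => by
        rw [integral_smul, integral_sub (hG.comp_add_right _) hG, integral_add_right_eq_self,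
          sub_self, smul_zero]
    simp only [h3] at h2
    rw [← integral_indicator Hs_open.measurableSet]
    exact tendsto_nhds_unique h2 tendsto_const_nhds
  · filter_upwards [Ioo_mem_nhdsGT one_pos] with t ht
    refine Eventually.of_forall fun x => ?_
    by_cases hx : x ∈ closedBall (0 : Ec n) (R + ‖(bv j : Ec n)‖)
    · rw [indicator_of_mem hx, norm_smul, norm_inv, Real.norm_of_nonneg ht.1.le,
        inv_mul_le_iff₀ ht.1]
      refine (h1 _ _).trans_eq ?_
      rw [add_sub_cancel_left, norm_smul, Real.norm_of_nonneg ht.1.le]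
      exact mul_left_comm _ _ _
    · rw [indicator_of_notMem hx]
      rw [mem_closedBall_zero_iff, not_le] at hx
      have h3 := norm_sub_le (x + t • bv j) (t • bv j)
      rw [add_sub_cancel_right, norm_smul, Real.norm_of_nonneg ht.1.le] at h3
      have h4 := mul_le_of_le_one_left (norm_nonneg (bv j : Ec n)) ht.2.le
      rw [hz x (by linarith [norm_nonneg (bv j : Ec n)]), hz _ (by linarith), sub_zero, smul_zero,
        norm_zero]
  · filter_upwards [bibp_null] with x hx
    refine HasLineDerivAt.tendsto_slope_zero_right ?_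
    rcases lt_or_gt_of_ne hx with h | h
    · have h3 : (Hs n).indicator F =ᶠ[𝓝 x] fun _ => 0 := by
        filter_upwards [(isOpen_lt (coord_smooth 0).continuous continuous_const).mem_nhds h]
          with y hy using indicator_of_notMem (fun e : y ∈ Hs n => lt_asymm hy e) F
      rw [indicator_of_notMem fun e : x ∈ Hs n => lt_asymm h e]
      exact ((hasFDerivAt_const (0 : W) x).congr_of_eventuallyEq h3).hasLineDerivAt (bv j)
    · have h3 : (Hs n).indicator F =ᶠ[𝓝 x] F := by
        filter_upwards [Hs_open.mem_nhds h] with y hy using indicator_of_mem hy F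
      rw [indicator_of_mem (show x ∈ Hs n from h)]
      exact ((sm_df hF x).hasFDerivAt.congr_of_eventuallyEq h3).hasLineDerivAt (bv j)

theorem green {D : Co n N} (hD : D.Good) {ρ u : Ec n → Fb N} (hρ : ContDiff ℝ ∞ ρ)
    (hu : ContDiff ℝ ∞ u) (hK : IsCompact K) (h0 : ∀ x ∉ K, u x = 0)
    (hb : ∀ x ∈ K, x 0 = 0 → ρ x = 0) :
    ∫ x in Hs n, D.en ρ u x = -∫ x in Hs n, inner ℂ (ρ x) (D.op u x) := by
  have hw : ∀ j, ContDiff ℝ ∞ fun y => ∑ k, D.sg y j k • D.cd k u y := fun j =>
    ContDiff.sum fun k _ => (hD.sg_smooth j k).smul (hD.cd_smooth hu k)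
  have hw0 : ∀ j, ∀ y ∉ K, ∑ k, D.sg y j k • D.cd k u y = 0 := fun j y hy =>
    Finset.sum_eq_zero fun k _ => by rw [D.cd_off hK.isClosed h0 k y hy, smul_zero]
  have hF : ∀ j, ContDiff ℝ ∞ fun y => inner ℂ (ρ y) (∑ k, D.sg y j k • D.cd k u y) := fun j =>
    hρ.inner ℂ (hw j)
  have hF0 : ∀ j, ∀ y ∉ K, inner ℂ (ρ y) (∑ k, D.sg y j k • D.cd k u y) = 0 := fun j y hy => by
    rw [hw0 j y hy, inner_zero_right]
  have h1 : ∀ j, ∫ x in Hs n, pd j (fun y => inner ℂ (ρ y) (∑ k, D.sg y j k • D.cd k u y)) x = 0 :=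
    fun j => int_pd_half (hF j) hK (hF0 j) (fun x hx => by
      by_cases h : x ∈ K
      · rw [hb x h hx, inner_zero_left]
      · exact hF0 j x h) j
  have h2 : ∀ x, D.en ρ u x + inner ℂ (ρ x) (D.op u x) =
      ∑ j, pd j (fun y => inner ℂ (ρ y) (∑ k, D.sg y j k • D.cd k u y)) x := fun x => by
    rw [Co.en, Co.op, inner_sum, ← Finset.sum_add_distrib]
    refine Finset.sum_congr rfl fun j _ => ?_
    have a1 : ∑ k, D.sg x j k • inner ℂ (D.cd j ρ x) (D.cd k u x) =
        inner ℂ (D.cd j ρ x) (∑ k, D.sg x j k • D.cd k u x) := by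
      rw [inner_sum]
      exact Finset.sum_congr rfl fun k _ => (inner_smul_right_eq_smul _ _ _).symm
    have a2 : ∀ w, inner ℂ (D.C x j (ρ x)) w = -inner ℂ (ρ x) (D.C x j w) := fun w => by
      rw [← ContinuousLinearMap.adjoint_inner_right, ← ContinuousLinearMap.star_eq_adjoint, hD.skew,
        _root_.neg_apply, inner_neg_right]
    rw [a1, pd_inner (sm_df hρ x) (sm_df (hw j) x), Co.cd.eq_1 D j ρ,
      Co.cd.eq_1 D j fun y => ∑ k, D.sg y j k • D.cd k u y, inner_add_left, inner_add_right, a2]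
    ring
  have i1 : IntegrableOn (D.en ρ u) (Hs n) :=
    (int_of_off (hD.en_smooth hρ hu).continuous hK (D.en_off hK.isClosed h0 ρ)).integrableOn
  have i2 : IntegrableOn (fun x => inner ℂ (ρ x) (D.op u x)) (Hs n) :=
    (int_of_off (hρ.inner ℂ (hD.op_smooth hu)).continuous hK fun x hx => by
      rw [D.op_off hK.isClosed h0 x hx, inner_zero_right]).integrableOn
  rw [eq_neg_iff_add_eq_zero, ← integral_add i1 i2]
  simp only [h2]
  rw [integral_finsetSum _ fun j _ => (int_of_off (pd_smooth (hF j) j).continuous hK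
    (pd_off hK.isClosed (hF0 j) j)).integrableOn]
  exact Finset.sum_eq_zero fun j _ => h1 j

end Vale.Agent.P088.B
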