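import Vale.Agent.P088F.BPbE
import Vale.Agent.P088F.BIbp

/-! P088, part B: invariance of the boundary data. -/

open MeasureTheory Set Metric Matrix Filter Topology
open scoped ContDiff

noncomputable section

namespace Vale.Agent.P088.B

variable {n N : ℕ} [NeZero n] {W : Type} [NormedAddCommGroup W] [NormedSpace ℝ W]

variable {z : Ec n} {r R : ℝ} {Ψ Φ : Ec n → Ec n} {U : Ec n → Op N} {D D' : Co n N}
  {K : Set (Ec n)} {u : Ec n → Fb N}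

/-- Push-forward of a compactly supported section. -/
theorem Chg.push (h : Chg z r Ψ Φ U) (hK : IsCompact K) (hKr : K ⊆ ball z r)
    (hu : ContDiff ℝ ∞ u) (h0 : ∀ x ∉ K, u x = 0) :
    ∃ w : Ec n → Fb N, ContDiff ℝ ∞ w ∧ (∀ y ∉ Ψ '' K, w y = 0) ∧
      (∀ x ∈ ball z r, star (U x) (w (Ψ x)) = u x) ∧ ∀ y : Ec n, y 0 = 0 → w y = u y := by
  have hv : ∀ x ∈ ball z r, (Ψ '' ball z r).indicator (fun y => U (Φ y) (u (Φ y))) (Ψ x) =
      U x (u x) := fun x hx => by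
    rw [indicator_of_mem (mem_image_of_mem Ψ hx), h.left x hx]
  have hz : ∀ y ∉ Ψ '' K, (Ψ '' ball z r).indicator (fun y => U (Φ y) (u (Φ y))) y = 0 := by
    intro y hy
    by_cases hb : y ∈ Ψ '' ball z r
    · obtain ⟨x, hx, rfl⟩ := hb
      rw [hv x hx, h0 x fun hxK => hy (mem_image_of_mem Ψ hxK), map_zero]
    · exact indicator_of_notMem hb _
  refine ⟨_, contDiff_iff_contDiffAt.2 fun y => ?_, hz, fun x hx => ?_, fun y hy => ?_⟩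
  · by_cases hb : y ∈ Ψ '' ball z r
    · refine (op_smooth' (h.sU.comp h.sΦ) (hu.comp h.sΦ)).contDiffAt.congr_of_eventuallyEq ?_
      filter_upwards [(h.opn _ Subset.rfl isOpen_ball).mem_nhds hb] with y' hy'
      exact indicator_of_mem hy' _
    · refine (contDiffAt_const (c := (0 : Fb N))).congr_of_eventuallyEq ?_
      filter_upwards [(hK.image h.sΨ.continuous).isClosed.isOpen_compl.mem_nhds
        fun hy => hb (image_mono hKr hy)] with y' hy'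
      exact hz y' hy'
  · rw [hv x hx]
    exact congrArg (fun T : Op N => T (u x)) (Unitary.star_mul_self_of_mem (h.uni x hx))
  · by_cases hb : y ∈ Ψ '' ball z r
    · obtain ⟨x, hx, rfl⟩ := hb
      have hx0 : x 0 = 0 := le_antisymm (not_lt.1 fun h1 => ((h.pos x hx).2 h1).ne' hy)
        (not_lt.1 fun h1 => ((h.neg x hx).2 h1).ne hy)
      rw [hv x hx, (h.bd x hx hx0).1, (h.bd x hx hx0).2]
      rfl
    · rw [indicator_of_notMem hb,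
        h0 y fun hyK => hb ⟨y, hKr hyK, (h.bd y (hKr hyK) hy).1⟩]

theorem bchg_sub (h : Chg z r Ψ Φ U) : Ψ '' (ball z r ∩ Hs n) ⊆ Hs n := by
  rintro _ ⟨x, hx, rfl⟩
  exact (h.pos x hx.1).2 hx.2

theorem bchg_pt (h : Chg z r Ψ Φ U) (hE : ∀ x ∈ ball z r, D'.Eq (D.pb Ψ U) x)
    {w ρ ρ' : Ec n → Fb N} (hρ : ContDiff ℝ ∞ ρ) (hw : ContDiff ℝ ∞ w)
    (hρ' : ∀ x ∈ ball z r, star (U x) (ρ (Ψ x)) = ρ' x)
    (hwu : ∀ x ∈ ball z r, star (U x) (w (Ψ x)) = u x) {x : Ec n} (hx : x ∈ ball z r) :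
    D'.en ρ' u x = |(jac Ψ x).det| • D.en ρ w (Ψ x) := by
  have hb := isOpen_ball.mem_nhds hx
  rw [← pb_en h.sΨ h.sU hρ hw (by filter_upwards [hb] with y hy using h.uni y hy) (h.det x hx)]
  refine Co.en_congr (hE x hx) ?_ ?_
  · filter_upwards [hb] with y hy using (hρ' y hy).symm
  · filter_upwards [hb] with y hy using (hwu y hy).symm

theorem Chg.int_en (h : Chg z r Ψ Φ U) (hD : D.Good) (hE : ∀ x ∈ ball z r, D'.Eq (D.pb Ψ U) x)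
    (hK : IsCompact K) (hKr : K ⊆ ball z r) (h0 : ∀ x ∉ K, u x = 0) {w ρ ρ' : Ec n → Fb N}
    (hw : ContDiff ℝ ∞ w) (hw0 : ∀ y ∉ Ψ '' K, w y = 0)
    (hwu : ∀ x ∈ ball z r, star (U x) (w (Ψ x)) = u x) (hρ : ContDiff ℝ ∞ ρ)
    (hρ' : ∀ x ∈ ball z r, star (U x) (ρ (Ψ x)) = ρ' x) :
    ∫ x in Hs n, D'.en ρ' u x = ∫ y in Hs n, D.en ρ w y := by
  have hm : MeasurableSet (ball z r ∩ Hs n) := (isOpen_ball.inter Hs_open).measurableSet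
  rw [setIntegral_eq_of_subset_of_forall_sdiff_eq_zero (s := ball z r ∩ Hs n)
      Hs_open.measurableSet inter_subset_right
      fun x hx => D'.en_off hK.isClosed h0 _ x fun hxK => hx.2 ⟨hKr hxK, hx.1⟩,
    setIntegral_eq_of_subset_of_forall_sdiff_eq_zero (s := Ψ '' (ball z r ∩ Hs n))
      Hs_open.measurableSet (bchg_sub h) ?_, h.int hm inter_subset_left]
  · exact setIntegral_congr_fun hm fun x hx => bchg_pt h hE hρ hw hρ' hwu hx.1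
  · intro y hy
    refine D.en_off (hK.image h.sΨ.continuous).isClosed hw0 _ y ?_
    rintro ⟨x, hx, rfl⟩
    exact hy.2 ⟨x, ⟨hKr hx, (h.pos x (hKr hx)).1 hy.1⟩, rfl⟩

theorem Chg.dfc (h : Chg z r Ψ Φ U) (hm : MapsTo Ψ (ball z r) (ball z R)) (hD : D.Good)
    (hE : ∀ x ∈ ball z r, D'.Eq (D.pb Ψ U) x) (hK : IsCompact K) (hKr : K ⊆ ball z r)
    (h0 : ∀ x ∉ K, u x = 0) {w : Ec n → Fb N} (hw : ContDiff ℝ ∞ w)
    (hw0 : ∀ y ∉ Ψ '' K, w y = 0) (hwu : ∀ x ∈ ball z r, star (U x) (w (Ψ x)) = u x) {e : ℝ}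
    (he : D.Dfc (ball z R) w e) : D'.Dfc (ball z r) u e := by
  obtain ⟨ρ, hρ, hρ0, he1, he2⟩ := he
  have hms : MeasurableSet (ball z r ∩ Hs n) := (isOpen_ball.inter Hs_open).measurableSet
  refine ⟨fun x => star (U x) (ρ (Ψ x)), op_smooth' (star_smooth h.sU) (hρ.comp h.sΨ),
    fun x hx hx0 => ?_, ?_, le_trans ?_ he2⟩
  · have h1 := hm hx
    rw [(h.bd x hx hx0).1] at h1
    simp only [(h.bd x hx hx0).1, hρ0 x h1 hx0, map_zero]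
  · rw [he1, h.int_en hD hE hK hKr h0 hw hw0 hwu hρ fun _ _ => rfl]
  · have hc : Continuous fun y => (D.en ρ ρ y).re :=
      Complex.continuous_re.comp (hD.en_smooth hρ hρ).continuous
    rw [setIntegral_congr_fun hms (g := fun x => |(jac Ψ x).det| • (D.en ρ ρ (Ψ x)).re)
      fun x hx => by
        simp only
        rw [bchg_pt h hE hρ hρ (fun _ _ => rfl) (fun _ _ => rfl) hx.1, Complex.smul_re],
      ← h.int hms inter_subset_left fun y => (D.en ρ ρ y).re]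
    refine setIntegral_mono_set
      ((hc.continuousOn.integrableOn_compact (isCompact_closedBall z R)).mono_set
        (inter_subset_left.trans ball_subset_closedBall))
      (ae_of_all _ fun y => hD.en_nonneg ρ y) (LE.le.eventuallyLE ?_)
    rintro _ ⟨x, hx, rfl⟩
    exact ⟨hm hx.1, bchg_sub h ⟨x, hx, rfl⟩⟩

theorem dne_pb {D₁ D₂ D₁' D₂' : Co n N} {Ψ₁ Φ₁ Ψ₂ Φ₂ : Ec n → Ec n} {U₁ U₂ : Ec n → Op N}
    (h₁ : D₁.Good) (h₂ : D₂.Good) (c₁ : Chg z r Ψ₁ Φ₁ U₁) (c₂ : Chg z r Ψ₂ Φ₂ U₂)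
    (m₁ : MapsTo Ψ₁ (ball z r) (ball z R)) (m₂ : MapsTo Ψ₂ (ball z r) (ball z R))
    (e₁ : ∀ x ∈ ball z r, D₁'.Eq (D₁.pb Ψ₁ U₁) x) (e₂ : ∀ x ∈ ball z r, D₂'.Eq (D₂.pb Ψ₂ U₂) x)
    (hE : DNE D₁ D₂ (ball z R)) : DNE D₁' D₂' (ball z r) := by
  intro u₁ u₂ s₁ s₂ K hK hKr z₁ z₂ hb
  obtain ⟨w₁, a₁, b₁, d₁, f₁⟩ := c₁.push hK hKr s₁ z₁
  obtain ⟨w₂, a₂, b₂, d₂, f₂⟩ := c₂.push hK hKr s₂ z₂
  obtain ⟨p₁, p₂, q₁, q₂, hq⟩ := hE w₁ w₂ a₁ a₂ (Ψ₁ '' K ∪ Ψ₂ '' K)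
    ((hK.image c₁.sΨ.continuous).union (hK.image c₂.sΨ.continuous))
    (union_subset (m₁.mono_left hKr).image_subset (m₂.mono_left hKr).image_subset)
    (fun y hy => b₁ y fun h => hy (Or.inl h)) (fun y hy => b₂ y fun h => hy (Or.inr h))
    fun y hy => by rw [f₁ y hy, f₂ y hy, hb y hy]
  refine ⟨p₁, p₂, c₁.dfc m₁ h₁ e₁ hK hKr z₁ a₁ b₁ d₁ q₁, c₂.dfc m₂ h₂ e₂ hK hKr z₂ a₂ b₂ d₂ q₂, ?_⟩
  rw [c₁.int_en h₁ e₁ hK hKr z₁ a₁ b₁ d₁ a₁ d₁, c₂.int_en h₂ e₂ hK hKr z₂ a₂ b₂ d₂ a₂ d₂, hq]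

end Vale.Agent.P088.B
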