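import Vale.Agent.P088F.BDefs
import Vale.Agent.P264.Had

/-! P088, part B: division by the normal coordinate and gluing. -/

open MeasureTheory Set Metric Matrix Filter Topology
open scoped ContDiff

noncomputable section

namespace Vale.Agent.P088.B

variable {n N : ℕ} [NeZero n] {W : Type} [NormedAddCommGroup W] [NormedSpace ℝ W]

theorem pr_zero (x : Ec n) : pr x 0 = 0 := by
  simp [pr, bv]

theorem pr_ne (x : Ec n) {j : Fin n} (hj : j ≠ 0) : pr x j = x j := by
  simp [pr, bv, hj]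

theorem pr_of {x : Ec n} (h : x 0 = 0) : pr x = x := by
  rw [pr, h, zero_smul, sub_zero]

omit [NeZero n] in
theorem bhad_coord (i : Fin n) : ContDiff ℝ ∞ fun y : Ec n => y i :=
  (EuclideanSpace.proj i : Ec n →L[ℝ] ℝ).contDiff

theorem pr_smooth : ContDiff ℝ ∞ (pr : Ec n → Ec n) :=
  contDiff_id.sub ((bhad_coord 0).smul contDiff_const)

theorem pr_add (x : Ec n) (t : ℝ) : pr (x + t • bv 0) = pr x := by
  have h : (x + t • (bv 0 : Ec n)) 0 = x 0 + t := by simp [bv]
  rw [pr, pr, h, add_smul]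
  abel

theorem pr_mem {z x : Ec n} {r : ℝ} (hz : z 0 = 0) (hx : x ∈ ball z r) : pr x ∈ ball z r := by
  refine lt_of_le_of_lt ?_ (mem_ball.1 hx)
  rw [EuclideanSpace.dist_eq, EuclideanSpace.dist_eq]
  refine Real.sqrt_le_sqrt (Finset.sum_le_sum fun j _ => ?_)
  by_cases hj : j = 0
  · rw [hj, pr_zero, hz, dist_self, zero_pow two_ne_zero]
    exact sq_nonneg _
  · rw [pr_ne x hj]

/-- Hadamard division. -/
theorem hadamard [FiniteDimensional ℝ W] {f : Ec n → W} (hf : ContDiff ℝ ∞ f) :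
    ∃ g : Ec n → W, ContDiff ℝ ∞ g ∧ (∀ x, f x = f (pr x) + x 0 • g x) ∧
      ∀ x, x 0 = 0 → g x = pd 0 f x := by
  have := FiniteDimensional.complete ℝ W
  have hd : ContDiff ℝ ∞ (pd 0 f) := (hf.fderiv_right (m := ∞) le_rfl).clm_apply contDiff_const
  have hq : ContDiff ℝ ∞ fun q : Ec n × ℝ => pd 0 f (pr q.1 + (q.2 * q.1 0) • bv 0) :=
    hd.comp ((pr_smooth.comp contDiff_fst).add
      ((contDiff_snd.mul ((bhad_coord 0).comp contDiff_fst)).smul contDiff_const))
  refine ⟨fun x => ∫ s in (0 : ℝ)..1, pd 0 f (pr x + (s * x 0) • bv 0),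
    contDiff_iff_contDiffAt.2 fun x => P264.had_integral zero_le_one fun t _ => hq.contDiffAt,
    fun x => ?_, fun x hx => ?_⟩
  · have h1 : ∀ s : ℝ, HasDerivAt (fun s : ℝ => f (pr x + (s * x 0) • bv 0))
        (x 0 • pd 0 f (pr x + (s * x 0) • bv 0)) s := fun s => by
      have h2 : HasDerivAt (fun s : ℝ => pr x + (s * x 0) • (bv 0 : Ec n)) ((1 * x 0) • bv 0) s :=
        (((hasDerivAt_id s).mul_const (x 0)).smul_const _).const_add _
      have h3 := (hf.differentiable (by simp) _).hasFDerivAt.comp_hasDerivAt s h2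
      rw [one_mul, map_smul] at h3
      exact h3
    have h3 : Continuous fun s : ℝ => x 0 • pd 0 f (pr x + (s * x 0) • bv 0) :=
      (hd.continuous.comp (by fun_prop)).const_smul _
    have h4 := intervalIntegral.integral_eq_sub_of_hasDerivAt (a := 0) (b := 1) (fun s _ => h1 s)
      (h3.intervalIntegrable _ _)
    rw [intervalIntegral.integral_smul, one_mul, zero_mul, zero_smul, add_zero] at h4
    rw [h4, add_sub_cancel, pr, sub_add_cancel]
  · simp [hx, pr_of hx]

theorem Dv.succ [FiniteDimensional ℝ W] {z : Ec n} {r : ℝ} (hz : z 0 = 0) {k : ℕ}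
    {d S : Ec n → W} (hS : ContDiff ℝ ∞ S) (h : ∀ x ∈ ball z r, d x = x 0 ^ k • S x)
    (h0 : ∀ x ∈ ball z r, x 0 = 0 → S x = 0) : Dv (ball z r) (k + 1) d := by
  obtain ⟨g, hg, h1, -⟩ := hadamard hS
  refine ⟨g, hg, fun x hx => ?_⟩
  rw [h x hx, h1 x, h0 _ (pr_mem hz hx) (pr_zero x), zero_add, smul_smul, pow_succ]

theorem bhad_deriv (k : ℕ) (t : ℝ) : HasDerivAt (fun t : ℝ => max t 0 ^ (k + 2))
    (((k + 2 : ℕ) : ℝ) * max t 0 ^ (k + 1)) t := by
  have h1 : 0 ≤ t → HasDerivWithinAt (fun t : ℝ => max t 0 ^ (k + 2))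
      (((k + 2 : ℕ) : ℝ) * max t 0 ^ (k + 1)) (Ici 0) t := fun ht => by
    rw [max_eq_left ht]
    exact (hasDerivAt_pow (k + 2) t).hasDerivWithinAt.congr
      (fun s hs => by rw [max_eq_left hs]) (by rw [max_eq_left ht])
  have h2 : t ≤ 0 → HasDerivWithinAt (fun t : ℝ => max t 0 ^ (k + 2))
      (((k + 2 : ℕ) : ℝ) * max t 0 ^ (k + 1)) (Iic 0) t := fun ht => by
    rw [max_eq_right ht, zero_pow k.succ_ne_zero, mul_zero]
    exact (hasDerivWithinAt_const t _ ((0 : ℝ) ^ (k + 2))).congr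
      (fun s hs => by rw [max_eq_right hs]) (by rw [max_eq_right ht])
  rcases lt_trichotomy t 0 with ht | ht | ht
  · exact (h2 ht.le).hasDerivAt (Iic_mem_nhds ht)
  · have h3 := (h2 ht.le).union (h1 ht.ge)
    rwa [Iic_union_Ici, hasDerivWithinAt_univ] at h3
  · exact (h1 ht.le).hasDerivAt (Ici_mem_nhds ht)

theorem bhad_max (k : ℕ) : ContDiff ℝ k fun t : ℝ => max t 0 ^ (k + 1) := by
  induction k with
  | zero => exact contDiff_zero.2 (by fun_prop)
  | succ k ih =>
    rw [Nat.cast_succ, contDiff_succ_iff_deriv]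
    refine ⟨fun t => (bhad_deriv k t).differentiableAt, by simp, ?_⟩
    rw [show deriv (fun t : ℝ => max t 0 ^ (k + 1 + 1)) = _ from
      funext fun t => (bhad_deriv k t).deriv]
    exact contDiff_const.mul ih

/-- A function divisible by all powers of the normal coordinate can be cut at the hyperplane. -/
theorem glue_dv {s : Set (Ec n)} {d : Ec n → W} (h : ∀ k, Dv s k d) :
    ContDiffOn ℝ ∞ (fun x => if 0 ≤ x 0 then d x else 0) s := by
  refine contDiffOn_infty.2 fun k => ?_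
  obtain ⟨S, hS, h1⟩ := h (k + 1)
  have hk : (k : ℕ∞ω) ≤ ∞ := by exact_mod_cast le_top
  have h2 : ContDiff ℝ k fun x : Ec n => max (x 0) 0 ^ (k + 1) • S x :=
    ((bhad_max k).comp ((bhad_coord 0).of_le hk)).smul (hS.of_le hk)
  refine h2.contDiffOn.congr fun x hx => ?_
  split_ifs with h0
  · rw [max_eq_left h0, h1 x hx]
  · rw [max_eq_right (not_le.1 h0).le, zero_pow k.succ_ne_zero, zero_smul]

omit [NeZero n] in
theorem bhad_bump {z : Ec n} {r : ℝ} (b : ContDiffBump z) (hb : b.rOut < r) {f : Ec n → W}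
    (hf : ContDiffOn ℝ ∞ f (ball z r)) : ContDiff ℝ ∞ fun x => b x • f x := by
  refine contDiff_iff_contDiffAt.2 fun x => ?_
  by_cases hx : x ∈ ball z r
  · exact b.contDiff.contDiffAt.smul (hf.contDiffAt (isOpen_ball.mem_nhds hx))
  · have h1 : x ∉ tsupport b := fun h => hx (closedBall_subset_ball hb (b.tsupport_eq ▸ h))
    refine (contDiffAt_const (c := (0 : W))).congr_of_eventuallyEq ?_
    filter_upwards [notMem_tsupport_iff_eventuallyEq.1 h1] with y hy
    rw [hy, Pi.zero_apply, zero_smul]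

omit [NeZero n] in
theorem bhad_exists (z : Ec n) {r r' : ℝ} (hr : r' < r) (h0 : 0 < r) :
    ∃ b : ContDiffBump z, b.rOut < r ∧ ∀ x ∈ ball z r', b x = 1 := by
  have h1 : max r' (r / 2) < r := max_lt hr (half_lt_self h0)
  refine ⟨⟨max r' (r / 2), (max r' (r / 2) + r) / 2, lt_max_of_lt_right (half_pos h0),
    by linarith⟩, by change (max r' (r / 2) + r) / 2 < r; linarith, fun x hx => ?_⟩
  exact ContDiffBump.one_of_mem_closedBall _
    (ball_subset_closedBall (ball_subset_ball (le_max_left _ _) hx))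

omit [NeZero n] in
/-- A smooth function on a ball agrees on a smaller ball with a global one. -/
theorem glob_fun {z : Ec n} {r r' : ℝ} (hr : r' < r) {f : Ec n → W}
    (hf : ContDiffOn ℝ ∞ f (ball z r)) :
    ∃ F : Ec n → W, ContDiff ℝ ∞ F ∧ ∀ x ∈ ball z r', F x = f x := by
  rcases le_or_gt r 0 with h0 | h0
  · exact ⟨fun _ => 0, contDiff_const, fun x hx =>
      absurd (pos_of_mem_ball hx) (not_lt.2 (hr.le.trans h0))⟩
  · obtain ⟨b, hb, h1⟩ := bhad_exists z hr h0
    exact ⟨_, bhad_bump b hb hf, fun x hx => by rw [h1 x hx, one_smul]⟩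

theorem bhad_rsmul (c : ℝ) (T : Op N) : c • T = (c : ℂ) • T := by
  ext v : 1
  simp

theorem bhad_skew (c : ℝ) {T : Op N} (h : c ≠ 0 → star T = -T) : star (c • T) = -(c • T) := by
  rw [bhad_rsmul, star_smul, Complex.star_def, Complex.conj_ofReal]
  by_cases hc : c = 0
  · ext v : 1
    simp [hc]
  · rw [h hc]
    ext v : 1
    simp

/-- Coefficients on a ball agree on a smaller ball with global ones. -/
theorem glob_co {z : Ec n} {r r' : ℝ} (hr : r' < r) {D : Co n N}
    (sG : ∀ j k, ContDiffOn ℝ ∞ (fun x => D.G x j k) (ball z r))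
    (sC : ∀ j, ContDiffOn ℝ ∞ (fun x => D.C x j) (ball z r))
    (pos : ∀ x ∈ ball z r, (D.G x).PosDef)
    (skew : ∀ x ∈ ball z r, ∀ j, star (D.C x j) = -D.C x j) :
    ∃ D' : Co n N, D'.Good ∧ (∀ x ∈ ball z r', D'.Eq D x) ∧
      ((∀ x ∈ ball z r, (∀ j, D.G x 0 j = if j = 0 then 1 else 0) ∧ D.C x 0 = 0) → D'.Nf) := by
  have hone : ∀ j : Fin n, (1 : Matrix (Fin n) (Fin n) ℝ) 0 j = if j = 0 then 1 else 0 := fun j => by
    simp only [Matrix.one_apply, eq_comm]
  rcases le_or_gt r 0 with h0 | h0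
  · have hg : Co.Good (⟨fun _ => 1, fun _ _ => 0⟩ : Co n N) :=
      ⟨fun _ _ => contDiff_const, fun _ => contDiff_const, fun _ => PosDef.one,
        fun _ _ => (star_zero (Op N)).trans neg_zero.symm⟩
    exact ⟨_, hg, fun x hx => absurd (pos_of_mem_ball hx) (not_lt.2 (hr.le.trans h0)),
      fun _ => ⟨hg, fun _ => hone, fun _ => rfl⟩⟩
  obtain ⟨b, hb, h1⟩ := bhad_exists z hr h0
  have hm : ∀ x, b x ≠ 0 → x ∈ ball z r := fun x hx =>
    ball_subset_ball hb.le (b.support_eq ▸ Function.mem_support.2 hx)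
  have hg : Co.Good (⟨fun x => b x • D.G x + (1 - b x) • (1 : Matrix (Fin n) (Fin n) ℝ),
      fun x j => b x • D.C x j⟩ : Co n N) := by
    refine ⟨fun j k => (bhad_bump b hb (sG j k)).add
      ((contDiff_const.sub b.contDiff).smul contDiff_const), fun j => bhad_bump b hb (sC j),
      fun x => ?_, fun x j => bhad_skew _ fun hx => skew x (hm x hx) j⟩
    by_cases hx : b x = 0
    · simpa [hx] using (PosDef.one : (1 : Matrix (Fin n) (Fin n) ℝ).PosDef)
    · exact ((pos x (hm x hx)).smul (b.nonneg.lt_of_ne' hx)).add_posSemidef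
        (PosSemidef.one.smul (sub_nonneg.2 b.le_one))
  refine ⟨_, hg, fun x hx => ⟨?_, funext fun j => ?_⟩, fun h => ⟨hg, fun x j => ?_, fun x => ?_⟩⟩
  · simp [h1 x hx]
  · simp [h1 x hx]
  · change b x • D.G x 0 j + (1 - b x) • (1 : Matrix (Fin n) (Fin n) ℝ) 0 j = _
    by_cases hx : b x = 0
    · rw [hx, zero_smul, zero_add, sub_zero, one_smul, hone]
    · rw [(h x (hm x hx)).1 j, hone, ← add_smul, add_sub_cancel, one_smul]
  · change b x • D.C x 0 = 0
    ext v : 1
    by_cases hx : b x = 0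
    · simp [hx]
    · simp [(h x (hm x hx)).2]

end Vale.Agent.P088.B
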