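import Vale.Agent.P088F.BCalc
import Vale.Agent.P088F.BHad
import Vale.Agent.P088.Chart

/-! P088, part B: elementary facts on coefficients. -/

open MeasureTheory Set Metric Matrix Filter Topology
open scoped ContDiff

noncomputable section

namespace Vale.Agent.P088.B

variable {n N : ℕ} [NeZero n] {W : Type} [NormedAddCommGroup W] [NormedSpace ℝ W]

variable {D : Co n N} {u v : Ec n → Fb N} {K : Set (Ec n)} {ξ : Ec n}

omit [NeZero n] in
theorem Co.Good.inv_smooth (h : D.Good) (j k : Fin n) : ContDiff ℝ ∞ fun x => (D.G x)⁻¹ j k := by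
  rw [← contDiffOn_univ]
  simp only [Matrix.inv_def, Ring.inverse_eq_inv', Matrix.smul_apply, smul_eq_mul,
    Matrix.adjugate_apply]
  refine ((contDiffOn_det fun i l => (h.sG i l).contDiffOn).inv
    fun z _ => (h.pos z).det_pos.ne').mul (contDiffOn_det fun i l => ?_)
  simp only [Matrix.updateRow_apply]
  split_ifs
  exacts [contDiffOn_const, (h.sG i l).contDiffOn]

omit [NeZero n] in
theorem Co.Good.dens_pos (h : D.Good) (x : Ec n) : 0 < √(D.G x).det := by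
  exact Real.sqrt_pos.2 (h.pos x).det_pos

omit [NeZero n] in
theorem Co.Good.dens_smooth (h : D.Good) : ContDiff ℝ ∞ fun x => √(D.G x).det := by
  exact (contDiffOn_univ.1 (contDiffOn_det fun i l => (h.sG i l).contDiffOn)).sqrt
    fun x => (h.pos x).det_pos.ne'

omit [NeZero n] in
theorem Co.Good.sg_smooth (h : D.Good) (j k : Fin n) : ContDiff ℝ ∞ fun x => D.sg x j k := by
  exact h.dens_smooth.mul (h.inv_smooth j k)

omit [NeZero n] in
theorem Co.Good.sg_pos (h : D.Good) (x : Ec n) : (D.sg x).PosDef := by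
  exact (h.pos x).inv.smul (h.dens_pos x)

omit [NeZero n] in
theorem Co.Good.sg_symm (h : D.Good) (x : Ec n) (j k : Fin n) : D.sg x j k = D.sg x k j := by
  exact ((h.sg_pos x).isHermitian.apply j k).symm

omit [NeZero n] in
theorem Co.Good.det_sg (h : D.Good) (hn : 2 ≤ n) (x : Ec n) :
    (D.sg x).det = √(D.G x).det ^ (n - 2) := by
  obtain ⟨m, rfl⟩ := Nat.exists_eq_add_of_le' hn
  have h1 := h.dens_pos x
  have h2 : √(D.G x).det ^ 2 = (D.G x).det := Real.sq_sqrt (h.pos x).det_pos.le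
  rw [Co.sg, det_smul, det_nonsing_inv, Ring.inverse_eq_inv', Fintype.card_fin, Nat.add_sub_cancel,
    pow_add, h2, mul_assoc, mul_inv_cancel₀ (h.pos x).det_pos.ne', mul_one]

omit [NeZero n] in
theorem Co.Good.cd_smooth (h : D.Good) (hu : ContDiff ℝ ∞ u) (j : Fin n) :
    ContDiff ℝ ∞ (D.cd j u) := by
  exact (pd_smooth hu j).add (op_smooth' (h.sC j) hu)

omit [NeZero n] in
theorem Co.Good.en_smooth (h : D.Good) (hu : ContDiff ℝ ∞ u) (hv : ContDiff ℝ ∞ v) :
    ContDiff ℝ ∞ (D.en u v) := by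
  exact ContDiff.sum fun j _ => ContDiff.sum fun k _ =>
    (h.sg_smooth j k).smul ((h.cd_smooth hu j).inner ℂ (h.cd_smooth hv k))

omit [NeZero n] in
theorem Co.Good.op_smooth (h : D.Good) (hu : ContDiff ℝ ∞ u) : ContDiff ℝ ∞ (D.op u) := by
  exact ContDiff.sum fun j _ => h.cd_smooth
    (ContDiff.sum fun k _ => (h.sg_smooth j k).smul (h.cd_smooth hu k)) j

omit [NeZero n] in
theorem bco_en (D : Co n N) (u : Ec n → Fb N) (x : Ec n) :
    (D.en u u x).re = ipm (D.sg x) (fun j => D.cd j u x) fun j => D.cd j u x := by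
  have e : ∀ a b : Fb N, (inner ℂ a b).re = inner ℝ a b := fun a b => by
    simp [PiLp.inner_apply, Complex.inner]
  simp only [Co.en, ipm, Complex.re_sum, Complex.real_smul, Complex.re_ofReal_mul, e]

omit [NeZero n] in
theorem Co.Good.en_nonneg (h : D.Good) (u : Ec n → Fb N) (x : Ec n) : 0 ≤ (D.en u u x).re := by
  rw [bco_en]
  exact ipm_nonneg (h.sg_pos x) _

omit [NeZero n] in
theorem Co.cd_off (D : Co n N) (hK : IsClosed K) (h : ∀ x ∉ K, u x = 0) (j : Fin n) :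
    ∀ x ∉ K, D.cd j u x = 0 := by
  intro x hx
  rw [Co.cd, pd_off hK h j x hx, h x hx, map_zero, add_zero]

omit [NeZero n] in
theorem Co.en_off (D : Co n N) (hK : IsClosed K) (h : ∀ x ∉ K, u x = 0) (v : Ec n → Fb N) :
    ∀ x ∉ K, D.en v u x = 0 := by
  intro x hx
  refine Finset.sum_eq_zero fun j _ => Finset.sum_eq_zero fun k _ => ?_
  rw [D.cd_off hK h k x hx, inner_zero_right, smul_zero]

omit [NeZero n] in
theorem Co.op_off (D : Co n N) (hK : IsClosed K) (h : ∀ x ∉ K, u x = 0) :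
    ∀ x ∉ K, D.op u x = 0 := by
  intro x hx
  refine Finset.sum_eq_zero fun j _ => D.cd_off hK (fun y hy => ?_) j x hx
  refine Finset.sum_eq_zero fun k _ => ?_
  rw [D.cd_off hK h k y hy, smul_zero]

omit [NeZero n] in
theorem Co.en_congr {D' : Co n N} {u' v' : Ec n → Fb N} {x : Ec n} (h : D.Eq D' x)
    (hu : u =ᶠ[𝓝 x] u') (hv : v =ᶠ[𝓝 x] v') : D.en u v x = D'.en u' v' x := by
  simp only [Co.en, Co.sg, Co.cd, h.1, h.2, pd_congr hu, pd_congr hv, hu.eq_of_nhds,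
    hv.eq_of_nhds]

theorem Co.Nf.inv0 (h : D.Nf) (x : Ec n) (j : Fin n) :
    (D.G x)⁻¹ 0 j = if j = 0 then 1 else 0 := by
  have h1 := congrFun (congrFun
    (Matrix.mul_nonsing_inv (D.G x) (h.pos x).det_pos.ne'.isUnit) 0) j
  rw [Matrix.mul_apply] at h1
  simp only [h.g0, ite_mul, one_mul, zero_mul, Finset.sum_ite_eq', Finset.mem_univ, if_true] at h1
  rw [h1, Matrix.one_apply]
  simp only [eq_comm]

theorem Co.Nf.sg0 (h : D.Nf) (x : Ec n) (j : Fin n) :
    D.sg x 0 j = if j = 0 then √(D.G x).det else 0 := by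
  rw [Co.sg, Matrix.smul_apply, h.inv0, smul_eq_mul]
  split_ifs <;> simp

theorem Co.Nf.sg00_pos (h : D.Nf) (x : Ec n) : 0 < D.sg x 0 0 := by
  rw [h.sg0, if_pos rfl]
  exact h.toGood.dens_pos x

theorem Co.Nf.det_sg (h : D.Nf) (hn : 2 ≤ n) (x : Ec n) :
    (D.sg x).det = D.sg x 0 0 ^ (n - 2) := by
  rw [h.sg0, if_pos rfl]
  exact h.toGood.det_sg hn x

theorem Co.Nf.inv_eq (h : D.Nf) (x : Ec n) : (D.G x)⁻¹ = (D.sg x 0 0)⁻¹ • D.sg x := by
  rw [h.sg0, if_pos rfl, Co.sg, smul_smul, inv_mul_cancel₀ (h.toGood.dens_pos x).ne', one_smul]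

theorem bco_split {V : Type} [NormedAddCommGroup V] [InnerProductSpace ℝ V]
    {a : Matrix (Fin n) (Fin n) ℝ} (h : ∀ j, j ≠ 0 → a 0 j = 0) (h' : ∀ j, j ≠ 0 → a j 0 = 0)
    (L : Fin n → V) : ipm a L L = a 0 0 * ‖L 0‖ ^ 2 +
      ipm a (fun j => if j = 0 then 0 else L j) fun j => if j = 0 then 0 else L j := by
  have e : a 0 0 * ‖L 0‖ ^ 2 = ∑ i : Fin n, ∑ j : Fin n,
      if i = 0 then (if j = 0 then a 0 0 * ‖L 0‖ ^ 2 else 0) else 0 := by
    rw [Finset.sum_comm]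
    simp
  rw [e, ipm, ipm, ← Finset.sum_add_distrib]
  refine Finset.sum_congr rfl fun i _ => ?_
  rw [← Finset.sum_add_distrib]
  refine Finset.sum_congr rfl fun j _ => ?_
  by_cases hi : i = 0
  · subst hi
    by_cases hj : j = 0
    · subst hj
      simp
    · simp [hj, h j hj]
  · by_cases hj : j = 0
    · subst hj
      simp [hi, h' i hi]
    · simp [hi, hj]

theorem Co.Nf.en_ge (h : D.Nf) (u : Ec n → Fb N) (x : Ec n) :
    D.sg x 0 0 * ‖pd 0 u x‖ ^ 2 ≤ (D.en u u x).re := by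
  have e : D.cd 0 u x = pd 0 u x := by simp [Co.cd, h.c0]
  have z : ∀ j, j ≠ 0 → D.sg x 0 j = 0 := fun j hj => by rw [h.sg0, if_neg hj]
  rw [bco_en, bco_split z (fun j hj => (h.toGood.sg_symm x j 0).trans (z j hj)), e]
  exact le_add_of_nonneg_right (ipm_nonneg (h.toGood.sg_pos x) _)

omit [NeZero n] in
theorem bco_pos (h : D.Good) (hξ : ξ ≠ 0) (x : Ec n) :
    0 < ∑ j, ∑ k, (D.G x)⁻¹ j k * ξ j * ξ k := by
  have h1 : (fun j => ξ j) ≠ 0 := fun e => hξ (by ext j; exact congrFun e j)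
  refine ((h.pos x).inv.dotProduct_mulVec_pos h1).trans_eq ?_
  simp only [dotProduct, mulVec, star_trivial, Finset.mul_sum]
  refine Finset.sum_congr rfl fun j _ => Finset.sum_congr rfl fun k _ => ?_
  ring

theorem Co.Good.mu_pos (h : D.Good) (hξ : ξ ≠ 0) (x : Ec n) : 0 < D.mu ξ x := by
  exact Real.sqrt_pos.2 (bco_pos h hξ _)

theorem Co.Good.mu_smooth (h : D.Good) (hξ : ξ ≠ 0) : ContDiff ℝ ∞ (D.mu ξ) := by
  refine ContDiff.sqrt (ContDiff.sum fun j _ => ContDiff.sum fun k _ => ?_)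
    fun x => (bco_pos h hξ _).ne'
  exact (((h.inv_smooth j k).comp pr_smooth).mul contDiff_const).mul contDiff_const

theorem Co.mu_neg (D : Co n N) (ξ : Ec n) : D.mu (-ξ) = D.mu ξ := by
  funext x
  simp [Co.mu]

theorem Co.pd_mu (D : Co n N) (ξ x : Ec n) : pd 0 (D.mu ξ) x = 0 := by
  by_cases hd : DifferentiableAt ℝ (D.mu ξ) x
  · have h1 : HasDerivAt (fun s : ℝ => x + s • (bv 0 : Ec n)) (bv 0) 0 := by
      simpa using ((hasDerivAt_id (0 : ℝ)).smul_const (bv 0 : Ec n)).const_add x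
    have h2 : HasDerivAt (fun s : ℝ => D.mu ξ (x + s • (bv 0 : Ec n))) (pd 0 (D.mu ξ) x) 0 :=
      HasFDerivAt.comp_hasDerivAt_of_eq 0 hd.hasFDerivAt h1 (by simp)
    have h3 : (fun s : ℝ => D.mu ξ (x + s • (bv 0 : Ec n))) = fun _ => D.mu ξ x := by
      funext s
      simp only [Co.mu, pr_add]
    rw [h3] at h2
    exact h2.unique (hasDerivAt_const _ _)
  · simp [pd, fderiv_zero_of_not_differentiableAt hd]

theorem Co.Nf.mu_sq (h : D.Nf) (ξ : Ec n) {x : Ec n} (hx : x 0 = 0) :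
    D.sg x 0 0 * D.mu ξ x ^ 2 = ∑ j, ∑ k, D.sg x j k * ξ j * ξ k := by
  have h0 : 0 ≤ ∑ j, ∑ k, (D.G x)⁻¹ j k * ξ j * ξ k := by
    by_cases hξ : ξ = 0
    · simp [hξ]
    · exact (bco_pos h.toGood hξ x).le
  rw [Co.mu, pr_of hx, Real.sq_sqrt h0, h.sg0, if_pos rfl]
  simp only [Co.sg, Matrix.smul_apply, smul_eq_mul, Finset.mul_sum, mul_assoc]

end Vale.Agent.P088.B
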