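import Vale.Agent.P088.Stmt

/-! P088, part B (boundary determination): definitions in coordinates. -/

open MeasureTheory Set Metric Matrix
open scoped ContDiff

noncomputable section

namespace Vale.Agent.P088.B

variable {n N : ℕ} {W : Type} [NormedAddCommGroup W] [NormedSpace ℝ W]

/-- Coefficients of a metric and of a connection in coordinates. -/
structure Co (n N : ℕ) where
  G : Ec n → Matrix (Fin n) (Fin n) ℝ
  C : Ec n → Fin n → Op N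

/-- Smooth, positive, skew-Hermitian on the whole space. -/
structure Co.Good (D : Co n N) : Prop where
  sG : ∀ j k, ContDiff ℝ ∞ fun x => D.G x j k
  sC : ∀ j, ContDiff ℝ ∞ fun x => D.C x j
  pos : ∀ x, (D.G x).PosDef
  skew : ∀ x j, star (D.C x j) = -D.C x j

/-- Derivative in the direction of a coordinate. -/
def pd (j : Fin n) (u : Ec n → W) (x : Ec n) : W := fderiv ℝ u x (bv j)

/-- Covariant derivative. -/
def Co.cd (D : Co n N) (j : Fin n) (u : Ec n → Fb N) (x : Ec n) : Fb N :=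
  pd j u x + D.C x j (u x)

/-- The conductivity of the metric. -/
def Co.sg (D : Co n N) (x : Ec n) : Matrix (Fin n) (Fin n) ℝ := √(D.G x).det • (D.G x)⁻¹

/-- Energy density. -/
def Co.en (D : Co n N) (u v : Ec n → Fb N) (x : Ec n) : ℂ :=
  ∑ j, ∑ k, D.sg x j k • inner ℂ (D.cd j u x) (D.cd k v x)

/-- The operator in divergence form. -/
def Co.op (D : Co n N) (u : Ec n → Fb N) (x : Ec n) : Fb N :=
  ∑ j, D.cd j (fun y => ∑ k, D.sg y j k • D.cd k u y) x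

/-- Jacobian matrix. -/
def jac (Ψ : Ec n → Ec n) (x : Ec n) : Matrix (Fin n) (Fin n) ℝ :=
  Matrix.of fun j k => fderiv ℝ Ψ x (bv k) j

/-- Pull-back by a map and a gauge transformation. -/
def Co.pb (D : Co n N) (Ψ : Ec n → Ec n) (U : Ec n → Op N) : Co n N where
  G x := (jac Ψ x)ᵀ * D.G (Ψ x) * jac Ψ x
  C x j := star (U x) * (∑ k, jac Ψ x k j • D.C (Ψ x) k) * U x + star (U x) * pd j U x

/-- Equality of coefficients at a point. -/
def Co.Eq (D D' : Co n N) (x : Ec n) : Prop := D.G x = D'.G x ∧ D.C x = D'.C x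

variable [NeZero n]

/-- Boundary normal coordinates and radial gauge. -/
structure Co.Nf (D : Co n N) : Prop extends D.Good where
  g0 : ∀ x j, D.G x 0 j = if j = 0 then 1 else 0
  c0 : ∀ x, D.C x 0 = 0

/-- The open half space. -/
def Hs (n : ℕ) [NeZero n] : Set (Ec n) := {x | 0 < x 0}

/-- The closed half space. -/
def Hc (n : ℕ) [NeZero n] : Set (Ec n) := {x | 0 ≤ x 0}

/-- Projection to the hyperplane. -/
def pr (x : Ec n) : Ec n := x - x 0 • bv 0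

/-- A change of coordinates and gauge near a boundary point, trivial on the boundary. -/
structure Chg (z : Ec n) (r : ℝ) (Ψ Φ : Ec n → Ec n) (U : Ec n → Op N) : Prop where
  sΨ : ContDiff ℝ ∞ Ψ
  sΦ : ContDiff ℝ ∞ Φ
  sU : ContDiff ℝ ∞ U
  left : ∀ x ∈ ball z r, Φ (Ψ x) = x
  opn : ∀ s ⊆ ball z r, IsOpen s → IsOpen (Ψ '' s)
  det : ∀ x ∈ ball z r, (jac Ψ x).det ≠ 0
  bd : ∀ x ∈ ball z r, x 0 = 0 → Ψ x = x ∧ U x = 1
  pos : ∀ x ∈ ball z r, 0 < Ψ x 0 ↔ 0 < x 0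
  neg : ∀ x ∈ ball z r, Ψ x 0 < 0 ↔ x 0 < 0
  uni : ∀ x ∈ ball z r, U x ∈ unitary (Op N)

/-- `e` is the defect of `u` in the Dirichlet principle. -/
def Co.Dfc (D : Co n N) (s : Set (Ec n)) (u : Ec n → Fb N) (e : ℝ) : Prop :=
  ∃ ρ : Ec n → Fb N, ContDiff ℝ ∞ ρ ∧ (∀ x ∈ s, x 0 = 0 → ρ x = 0) ∧
    e = (∫ x in Hs n, D.en ρ u x).re ∧ ∫ x in s ∩ Hs n, (D.en ρ ρ x).re ≤ e

/-- Equality of the boundary data, in coordinates. -/
def DNE (D₁ D₂ : Co n N) (s : Set (Ec n)) : Prop :=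
  ∀ u₁ u₂ : Ec n → Fb N, ContDiff ℝ ∞ u₁ → ContDiff ℝ ∞ u₂ → ∀ K, IsCompact K → K ⊆ s →
    (∀ x ∉ K, u₁ x = 0) → (∀ x ∉ K, u₂ x = 0) → (∀ x : Ec n, x 0 = 0 → u₁ x = u₂ x) →
    ∃ e₁ e₂, D₁.Dfc s u₁ e₁ ∧ D₂.Dfc s u₂ e₂ ∧
      (∫ x in Hs n, D₁.en u₁ u₁ x).re - e₁ = (∫ x in Hs n, D₂.en u₂ u₂ x).re - e₂

/-- Divisibility by a power of the normal coordinate. -/
def Dv (s : Set (Ec n)) (k : ℕ) (d : Ec n → W) : Prop :=
  ∃ S : Ec n → W, ContDiff ℝ ∞ S ∧ ∀ x ∈ s, d x = x 0 ^ k • S x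

/-- The coefficients agree to infinite order on the hyperplane. -/
def Flat (D₁ D₂ : Co n N) (s : Set (Ec n)) : Prop :=
  ∀ k : ℕ, (∀ i j, Dv s k fun x => D₁.G x i j - D₂.G x i j) ∧
    ∀ j, Dv s k fun x => D₁.C x j - D₂.C x j

/-- Amplitudes of order `m`, supported in `K`. -/
inductive Sy (K : Set (Ec n)) (m : ℤ) : (ℝ → Ec n → W) → Prop
  | term (p : ℤ) (j : ℕ) (c : Ec n → W) (hc : ContDiff ℝ ∞ c) (hK : ∀ x ∉ K, c x = 0)
      (h : p - j ≤ m) : Sy K m fun l x => (l ^ p * x 0 ^ j) • c x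
  | add {f g : ℝ → Ec n → W} (hf : Sy K m f) (hg : Sy K m g) : Sy K m fun l x => f l x + g l x
  | congr {f g : ℝ → Ec n → W} (hf : Sy K m f) (h : ∀ l, 1 ≤ l → ∀ x, g l x = f l x) : Sy K m g

/-- The phase. -/
def ph (ξ : Ec n) (μ : Ec n → ℝ) (x : Ec n) : ℂ :=
  Complex.I * ((∑ j, ξ j * x j : ℝ) : ℂ) - ((μ x * x 0 : ℝ) : ℂ)

/-- The exponential. -/
def ex (ξ : Ec n) (μ : Ec n → ℝ) (l : ℝ) (x : Ec n) : ℂ := Complex.exp (l * ph ξ μ x)

/-- Conjugated covariant derivative. -/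
def Co.dl (D : Co n N) (ξ : Ec n) (μ : Ec n → ℝ) (l : ℝ) (j : Fin n) (a : Ec n → Fb N)
    (x : Ec n) : Fb N := ((l : ℂ) * pd j (ph ξ μ) x) • a x + D.cd j a x

/-- Conjugated operator. -/
def Co.pl (D : Co n N) (ξ : Ec n) (μ : Ec n → ℝ) (l : ℝ) (a : Ec n → Fb N) (x : Ec n) : Fb N :=
  ∑ j, D.dl ξ μ l j (fun y => ∑ k, D.sg y j k • D.dl ξ μ l k a y) x

/-- Length of a tangential covector at the foot point. -/
def Co.mu (D : Co n N) (ξ : Ec n) (x : Ec n) : ℝ :=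
  √(∑ j, ∑ k, (D.G (pr x))⁻¹ j k * ξ j * ξ k)

/-- The leading gradient of the phase. -/
def ph0 (ξ : Ec n) (μ : Ec n → ℝ) (j : Fin n) (x : Ec n) : ℂ :=
  Complex.I * (ξ j : ℂ) - if j = 0 then (μ x : ℂ) else 0

/-- The model operator in the normal variable. -/
def mo (μ : Ec n → ℝ) (l : ℝ) (a : Ec n → W) (x : Ec n) : W :=
  pd 0 (pd 0 a) x - (2 * l * μ x) • pd 0 a x

end Vale.Agent.P088.B
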