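import Vale.Agent.P088F.BIbp

/-! P088, part B: weighted inequalities on the half space. -/

open MeasureTheory Set Metric Matrix Filter Topology
open scoped ContDiff

noncomputable section

namespace Vale.Agent.P088.B

variable {n N : ℕ} [NeZero n] {W : Type} [NormedAddCommGroup W] [NormedSpace ℝ W]

theorem bhar_cut {z : Ec n} (hz : z 0 = 0) {r R : ℝ} (hr : 0 ≤ r) (hR : r < R) :
    ∃ χ : Ec n → ℝ, ContDiff ℝ ∞ χ ∧ (∀ x, 0 ≤ χ x ∧ χ x ≤ 1) ∧ (∀ x ∈ closedBall z r, χ x = 1) ∧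
      (∀ x ∉ closedBall z R, χ x = 0) ∧ ∀ x ∈ Hs n, pd 0 χ x ≤ 0 := by
  have hd : 0 < R ^ 2 - r ^ 2 := by nlinarith
  have hs : ContDiff ℝ ∞ Real.smoothTransition := Real.smoothTransition.contDiff
  refine ⟨fun x => Real.smoothTransition ((R ^ 2 - ‖x - z‖ ^ 2) / (R ^ 2 - r ^ 2)),
    hs.comp ((contDiff_const.sub ((contDiff_id.sub contDiff_const).norm_sq ℝ)).div_const _),
    fun x => ⟨Real.smoothTransition.nonneg _, Real.smoothTransition.le_one _⟩, fun x hx => ?_,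
    fun x hx => ?_, fun x hx => ?_⟩
  · rw [mem_closedBall, dist_eq_norm] at hx
    refine Real.smoothTransition.one_of_one_le ((one_le_div hd).2 ?_)
    nlinarith [norm_nonneg (x - z)]
  · rw [mem_closedBall, dist_eq_norm, not_le] at hx
    refine Real.smoothTransition.zero_of_nonpos (div_nonpos_of_nonpos_of_nonneg ?_ hd.le)
    nlinarith
  · have h1 := ((((hasFDerivAt_id x).sub_const z).norm_sq).const_sub (R ^ 2)).mul_const
      (R ^ 2 - r ^ 2)⁻¹
    have h2 := (hs.differentiable (by simp)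
      ((R ^ 2 - ‖x - z‖ ^ 2) * (R ^ 2 - r ^ 2)⁻¹)).hasDerivAt.comp_hasFDerivAt x h1
    have h3 : 0 ≤ deriv Real.smoothTransition ((R ^ 2 - ‖x - z‖ ^ 2) * (R ^ 2 - r ^ 2)⁻¹) :=
      Real.smoothTransition.monotone.deriv_nonneg
    have h4 : 0 < x 0 := hx
    refine (congrArg (fun L : Ec n →L[ℝ] ℝ => L (bv 0)) h2.fderiv).trans_le ?_
    have h5 : inner ℝ (x - z) (bv 0 : Ec n) = x 0 := by simp [bv, hz, EuclideanSpace.inner_single_right]
    simp only [_root_.smul_apply, _root_.neg_apply,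
      ContinuousLinearMap.comp_apply, ContinuousLinearMap.id_apply, id, innerSL_apply_apply, h5,
      smul_eq_mul, nsmul_eq_mul]
    have h6 := inv_pos.2 hd
    exact mul_nonpos_of_nonneg_of_nonpos h3 (mul_nonpos_of_nonneg_of_nonpos h6.le (by
      simp only [Nat.cast_ofNat]
      linarith))

theorem bhar_low {χ g : Ec n → ℝ} {S : Set (Ec n)} (hS : MeasurableSet S)
    (hi : Integrable fun x => χ x * g x) (h0 : ∀ x, 0 ≤ χ x * g x) (h1 : ∀ x ∈ S, χ x = 1) :
    ∫ x in S ∩ Hs n, g x ≤ ∫ x in Hs n, χ x * g x := by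
  refine le_trans (le_of_eq ?_) (setIntegral_mono_set hi.integrableOn (.of_forall h0)
    (inter_subset_right (s := S)).eventuallyLE)
  exact setIntegral_congr_fun (hS.inter Hs_open.measurableSet) fun x hx => by
    simp only [h1 x hx.1, one_mul]

theorem bhar_exp (a : ℝ) : ContDiff ℝ ∞ (fun x : Ec n => Real.exp (-(a * x 0))) ∧
    ∀ x : Ec n, pd 0 (fun x : Ec n => Real.exp (-(a * x 0))) x = -(a * Real.exp (-(a * x 0))) := by
  refine ⟨(contDiff_const.mul (coord_smooth 0)).neg.exp, fun x => ?_⟩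
  have h := ((sm_df (coord_smooth 0) x).hasFDerivAt.const_mul a).neg.exp
  have k : fderiv ℝ (fun y : Ec n => y 0) x (bv 0) = 1 := (pd_coord 0 0 x).trans (if_pos rfl)
  refine (congrArg (fun L : Ec n →L[ℝ] ℝ => L (bv 0)) h.fderiv).trans ?_
  simp only [_root_.smul_apply, _root_.neg_apply, k, smul_eq_mul,
    Pi.neg_apply]
  ring

theorem box_up {K : Set (Ec n)} (hK : IsCompact K) :
    ∃ C : ℝ, 0 ≤ C ∧ ∀ a : ℝ, 0 < a → ∫ x in K ∩ Hs n, Real.exp (-(a * x 0)) ≤ C / a := by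
  obtain ⟨r, hr, hK'⟩ := hK.isBounded.subset_closedBall_lt 0 (0 : Ec n)
  obtain ⟨χ, c1, c2, c3, c4, -⟩ := bhar_cut (z := (0 : Ec n)) rfl hr.le (lt_add_one r)
  have hB := isCompact_closedBall (0 : Ec n) (r + 1)
  have i0 := int_of_off (pd_smooth c1 0).continuous hB (pd_off hB.isClosed c4 0)
  refine ⟨∫ x in Hs n, |pd 0 χ x|, integral_nonneg fun x => abs_nonneg _, fun a ha => ?_⟩
  obtain ⟨e1, e2⟩ := bhar_exp (n := n) a
  have s1 := c1.mul ((contDiff_const (c := (1 : ℝ))).sub e1)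
  have z1 : ∀ x ∉ closedBall (0 : Ec n) (r + 1), χ x * (1 - Real.exp (-(a * x 0))) = 0 :=
    fun x hx => by rw [c4 x hx, zero_mul]
  have k := int_pd_half s1 hB z1 (fun x hx => by simp [hx]) 0
  have i1 := int_of_off (pd_smooth s1 0).continuous hB (pd_off hB.isClosed z1 0)
  have i2 : Integrable fun x : Ec n => χ x * Real.exp (-(a * x 0)) :=
    int_of_off (c1.mul e1).continuous hB fun x hx => by rw [c4 x hx, zero_mul]
  refine (bhar_low hK.measurableSet i2 (fun x => mul_nonneg (c2 x).1 (Real.exp_pos _).le)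
    fun x hx => c3 x (hK' hx)).trans ?_
  rw [le_div_iff₀' ha, ← integral_const_mul, ← zero_add (∫ x in Hs n, |pd 0 χ x|), ← k,
    ← integral_add i1.integrableOn i0.abs.integrableOn]
  refine setIntegral_mono_on (i2.const_mul a).integrableOn (i1.add i0.abs).integrableOn
    Hs_open.measurableSet fun x hx => ?_
  rw [pd_mul (sm_df c1 x) (sm_df (contDiff_const.sub e1) x),
    pd_sub (differentiableAt_const _) (sm_df e1 x), pd_const, e2]
  have h1 := Real.exp_pos (-(a * x 0))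
  have h2 : Real.exp (-(a * x 0)) ≤ 1 :=
    Real.exp_le_one_iff.2 (neg_nonpos.2 (mul_pos ha hx).le)
  nlinarith [neg_abs_le (pd 0 χ x), abs_nonneg (pd 0 χ x)]

theorem hardy_exp {ρ : Ec n → Fb N} (hρ : ContDiff ℝ ∞ ρ) {z : Ec n} (hz : z 0 = 0) {r r' : ℝ}
    (hr : r' < r) (hb : ∀ x ∈ ball z r, x 0 = 0 → ρ x = 0) {a : ℝ} (ha : 0 < a) :
    ∫ x in closedBall z r' ∩ Hs n, Real.exp (-(a * x 0)) * ‖ρ x‖ ^ 2 ≤
      4 / a ^ 2 * ∫ x in ball z r ∩ Hs n, ‖pd 0 ρ x‖ ^ 2 := by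
  by_cases h0 : r' < 0
  · rw [closedBall_eq_empty.2 h0, empty_inter, Measure.restrict_empty, integral_zero_measure]
    exact mul_nonneg (by positivity) (integral_nonneg fun x => by positivity)
  obtain ⟨R, hR, hR'⟩ := exists_between hr
  obtain ⟨χ, c1, c2, c3, c4, c5⟩ := bhar_cut hz (not_lt.1 h0) hR
  have hB := isCompact_closedBall z R
  have hs := closedBall_subset_ball (x := z) hR'
  obtain ⟨e1, e2⟩ := bhar_exp (n := n) a
  have n1 : ContDiff ℝ ∞ fun x => ‖ρ x‖ ^ 2 := hρ.norm_sq ℂ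
  have n2 : Continuous fun x => ‖pd 0 ρ x‖ ^ 2 := (pd_smooth hρ 0).continuous.norm.pow 2
  have n3 : ∀ x, pd 0 (fun x => ‖ρ x‖ ^ 2) x ≤ 2 * (‖ρ x‖ * ‖pd 0 ρ x‖) := fun x => by
    refine (congrArg (fun L : Ec n →L[ℝ] ℝ => L (bv 0))
      (sm_df hρ x).hasFDerivAt.norm_sq.fderiv).trans_le ?_
    simp only [_root_.smul_apply, ContinuousLinearMap.comp_apply, innerSL_apply_apply,
      nsmul_eq_mul, Nat.cast_ofNat]
    exact mul_le_mul_of_nonneg_left (real_inner_le_norm _ _) zero_le_two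
  have s1 := c1.mul (e1.mul n1)
  have z1 : ∀ x ∉ closedBall z R, χ x * (Real.exp (-(a * x 0)) * ‖ρ x‖ ^ 2) = 0 :=
    fun x hx => by rw [c4 x hx, zero_mul]
  have k := int_pd_half s1 hB z1 (fun x hx => by
    by_cases h : x ∈ closedBall z R
    · simp [hb x (hs h) hx]
    · exact z1 x h) 0
  have i1 := int_of_off (pd_smooth s1 0).continuous hB (pd_off hB.isClosed z1 0)
  have i2 := int_of_off s1.continuous hB z1
  have i3 : Integrable fun x => χ x * ‖pd 0 ρ x‖ ^ 2 :=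
    int_of_off (c1.continuous.mul n2) hB fun x hx => by rw [c4 x hx, zero_mul]
  have m := (isOpen_ball (x := z) (ε := r)).measurableSet.inter (Hs_open (n := n)).measurableSet
  have u : ∫ x in Hs n, χ x * ‖pd 0 ρ x‖ ^ 2 ≤ ∫ x in ball z r ∩ Hs n, ‖pd 0 ρ x‖ ^ 2 := by
    rw [setIntegral_eq_of_subset_of_forall_sdiff_eq_zero Hs_open.measurableSet
      (inter_subset_right (s := ball z r)) fun x hx => by
        rw [c4 x fun h => hx.2 ⟨hs h, hx.1⟩, zero_mul]]
    exact setIntegral_mono_on i3.integrableOn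
      ((n2.continuousOn.integrableOn_compact (isCompact_closedBall z r)).mono_set
        (inter_subset_left.trans ball_subset_closedBall)) m fun x _ =>
        mul_le_of_le_one_left (sq_nonneg _) (c2 x).2
  refine (bhar_low measurableSet_closedBall i2
    (fun x => mul_nonneg (c2 x).1 (by positivity)) c3).trans
    (le_trans ?_ (mul_le_mul_of_nonneg_left u (by positivity)))
  rw [← integral_const_mul, ← add_zero (∫ x in Hs n, χ x * _), ← mul_zero (2 / a), ← k,
    ← integral_const_mul, ← integral_add i2.integrableOn (i1.const_mul _).integrableOn]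
  refine setIntegral_mono_on (i2.add (i1.const_mul _)).integrableOn (i3.const_mul _).integrableOn
    Hs_open.measurableSet fun x hx => ?_
  rw [pd_mul (sm_df c1 x) (sm_df (e1.mul n1) x), pd_mul (sm_df e1 x) (sm_df n1 x), e2]
  have h1 := Real.exp_pos (-(a * x 0))
  have h2 : Real.exp (-(a * x 0)) ≤ 1 :=
    Real.exp_le_one_iff.2 (neg_nonpos.2 (mul_pos ha hx).le)
  have h3 := n3 x
  have h4 := c5 x hx
  have h5 := (c2 x).1
  generalize Real.exp (-(a * x 0)) = e at *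
  generalize pd 0 (fun x => ‖ρ x‖ ^ 2) x = d at *
  generalize ‖ρ x‖ = p at *
  generalize ‖pd 0 ρ x‖ = q at *
  generalize pd 0 χ x = c' at *
  generalize χ x = c at *
  obtain ⟨b, hb', rfl⟩ : ∃ b, 0 < b ∧ a = b⁻¹ := ⟨a⁻¹, inv_pos.2 ha, (inv_inv a).symm⟩
  have g1 : b * (c' * (e * p ^ 2)) ≤ 0 :=
    mul_nonpos_of_nonneg_of_nonpos hb'.le (mul_nonpos_of_nonpos_of_nonneg h4 (by positivity))
  have g2 : c * e * b * d ≤ c * e * b * (2 * (p * q)) :=
    mul_le_mul_of_nonneg_left h3 (by positivity)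
  have g3 : 0 ≤ c * e * (p - 2 * b * q) ^ 2 := by positivity
  have g4 : c * (b * q) ^ 2 * e ≤ c * (b * q) ^ 2 := mul_le_of_le_one_right (by positivity) h2
  have g5 : 2 / b⁻¹ * (c' * (e * p ^ 2) + c * (-(b⁻¹ * e) * p ^ 2 + e * d)) =
      2 * (b * (c' * (e * p ^ 2))) - 2 * (c * (e * p ^ 2)) + 2 * (c * e * b * d) := by
    field_simp
    ring
  rw [g5, show 4 / b⁻¹ ^ 2 = 4 * b ^ 2 by field_simp]
  nlinarith

end Vale.Agent.P088.B
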