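import Vale.Agent.P088F.BSy
import Vale.Agent.P088F.BHar

/-! P088, part B: bounds for amplitudes. -/

open MeasureTheory Set Metric Matrix Filter Topology
open scoped ContDiff

noncomputable section

namespace Vale.Agent.P088.B

variable {n N : ℕ} [NeZero n] {W : Type} [NormedAddCommGroup W] [NormedSpace ℝ W]

variable {K : Set (Ec n)} {m : ℤ} {μ : Ec n → ℝ}

theorem bsyb_exb (hK : IsCompact K) {a : ℝ} (ha : 0 < a) (h0 : ∀ x ∈ K, 2 * a ≤ μ x)
    {f : ℝ → Ec n → W} (hf : Sy K m f) : ∃ C : ℝ, 0 ≤ C ∧ ∀ l : ℝ, 1 ≤ l → ∀ x : Ec n, 0 < x 0 →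
      Real.exp (-(l * μ x * x 0)) * ‖f l x‖ ≤ C * l ^ m * Real.exp (-(a * l * x 0)) := by
  induction hf with
  | term p j c hc hK' h =>
    obtain ⟨B, hB⟩ := hK.exists_bound_of_continuousOn hc.continuous.continuousOn
    refine ⟨|B| * (j.factorial / a ^ j), by positivity, fun l hl x hx => ?_⟩
    have hl0 : 0 < l := one_pos.trans_le hl
    beta_reduce
    by_cases hxK : x ∈ K
    swap
    · rw [hK' x hxK, smul_zero, norm_zero, mul_zero]
      positivity
    have e1 : l ^ p * x 0 ^ j = l ^ (p - j) * (l * x 0) ^ j := by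
      rw [zpow_sub₀ hl0.ne', zpow_natCast, mul_pow]
      field_simp
    have e2 : l ^ (p - j) ≤ l ^ m := zpow_le_zpow_right₀ hl h
    have e3 : (l * x 0) ^ j * Real.exp (-(a * l * x 0)) ≤ j.factorial / a ^ j := by
      have h1 := Real.pow_div_factorial_le_exp (a * l * x 0) (by positivity) j
      rw [div_le_iff₀ (by positivity), mul_assoc, mul_pow, ← mul_assoc] at h1
      rw [Real.exp_neg, ← div_eq_mul_inv, div_le_div_iff₀ (by positivity) (by positivity)]
      linarith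
    have e4 : Real.exp (-(l * μ x * x 0)) ≤
        Real.exp (-(a * l * x 0)) * Real.exp (-(a * l * x 0)) := by
      rw [← Real.exp_add, Real.exp_le_exp]
      linarith [mul_le_mul_of_nonneg_left (h0 x hxK) (mul_pos hl0 hx).le]
    have e5 := (hB x hxK).trans (le_abs_self B)
    rw [norm_smul, Real.norm_of_nonneg (by positivity), e1]
    calc _ ≤ Real.exp (-(a * l * x 0)) * Real.exp (-(a * l * x 0)) *
          (l ^ m * (l * x 0) ^ j * |B|) := by gcongr
      _ = |B| * ((l * x 0) ^ j * Real.exp (-(a * l * x 0))) * l ^ m *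
          Real.exp (-(a * l * x 0)) := by ring
      _ ≤ _ := by gcongr
  | add _ _ ih ih' =>
    obtain ⟨C, hC, h1⟩ := ih
    obtain ⟨C', hC', h2⟩ := ih'
    refine ⟨C + C', add_nonneg hC hC', fun l hl x hx => ?_⟩
    refine (mul_le_mul_of_nonneg_left (norm_add_le _ _) (Real.exp_pos _).le).trans ?_
    linarith [h1 l hl x hx, h2 l hl x hx]
  | congr _ h ih =>
    obtain ⟨C, hC, h1⟩ := ih
    exact ⟨C, hC, fun l hl x hx => h l hl x ▸ h1 l hl x hx⟩

theorem Sy.exb (hK : IsCompact K) (hμ : Continuous μ) (h0 : ∀ x, 0 < μ x) {f : ℝ → Ec n → W}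
    (hf : Sy K m f) : ∃ C c : ℝ, 0 ≤ C ∧ 0 < c ∧ ∀ l : ℝ, 1 ≤ l → ∀ x : Ec n, 0 < x 0 →
      Real.exp (-(l * μ x * x 0)) * ‖f l x‖ ≤ C * l ^ m * Real.exp (-(c * l * x 0)) := by
  obtain ⟨a, ha, h1⟩ := hK.exists_forall_le' hμ.continuousOn fun x _ => h0 x
  obtain ⟨C, hC, h2⟩ := bsyb_exb (μ := μ) hK (half_pos ha) (fun x hx => by linarith [h1 x hx]) hf
  exact ⟨C, a / 2, hC, half_pos ha, h2⟩

theorem Sy.int (hK : IsCompact K) (hμ : Continuous μ) (h0 : ∀ x, 0 < μ x) {f : ℝ → Ec n → ℝ}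
    (hf : Sy K m f) : ∃ C : ℝ, ∀ l : ℝ, 1 ≤ l →
      |∫ x in Hs n, Real.exp (-(l * μ x * x 0)) * f l x| ≤ C * l ^ (m - 1) := by
  obtain ⟨C, c, hC, hc, h1⟩ := hf.exb hK hμ h0
  obtain ⟨C', -, h2⟩ := box_up hK
  refine ⟨C * C' / c, fun l hl => ?_⟩
  have hl0 : 0 < l := one_pos.trans_le hl
  have h3 : Continuous fun x : Ec n => C * l ^ m * Real.exp (-(c * l * x 0)) := by
    have := (coord_smooth (n := n) 0).continuous
    fun_prop
  rw [setIntegral_eq_of_subset_of_forall_sdiff_eq_zero (s := K ∩ Hs n) Hs_open.measurableSet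
    inter_subset_right fun x hx => by rw [hf.off hl x fun h => hx.2 ⟨h, hx.1⟩, mul_zero],
    ← Real.norm_eq_abs]
  refine (norm_integral_le_of_norm_le ((h3.continuousOn.integrableOn_compact (μ := volume)
    hK).mono_set inter_subset_left) ((ae_restrict_mem (hK.measurableSet.inter Hs_open.measurableSet)).mono
      fun x hx => ?_)).trans ?_
  · rw [norm_mul, Real.norm_of_nonneg (Real.exp_pos _).le]
    exact h1 l hl x hx.2
  · rw [integral_const_mul, zpow_sub_one₀ hl0.ne']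
    refine (mul_le_mul_of_nonneg_left (h2 _ (mul_pos hc hl0)) (by positivity)).trans_eq ?_
    field_simp

theorem Sy.intg (hK : IsCompact K) (hμ : Continuous μ) {f : ℝ → Ec n → ℝ}
    (hf : Sy K m f) {l : ℝ} (hl : 1 ≤ l) :
    Integrable fun x => Real.exp (-(l * μ x * x 0)) * f l x := by
  have h1 := (coord_smooth (n := n) 0).continuous
  have h2 := (hf.smooth hl).continuous
  exact int_of_off (by fun_prop) hK fun x hx => by rw [hf.off hl x hx, mul_zero]

theorem bsyb_pd (hμ : ContDiff ℝ ∞ μ) (hd : ∀ x, pd 0 μ x = 0) (l : ℝ) :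
    ContDiff ℝ ∞ (fun y : Ec n => Real.exp (-(l * μ y * y 0))) ∧ ∀ x : Ec n,
      pd 0 (fun y : Ec n => Real.exp (-(l * μ y * y 0))) x =
        -(l * (Real.exp (-(l * μ x * x 0)) * μ x)) := by
  have h1 : ContDiff ℝ ∞ fun y => l * μ y := contDiff_const.mul hμ
  have h2 := (h1.mul (coord_smooth 0)).neg
  refine ⟨h2.exp, fun x => ?_⟩
  have h3 : pd 0 (fun y : Ec n => -(l * μ y * y 0)) x = -(l * μ x) := by
    rw [pd_neg, pd_mul (sm_df h1 x) (sm_df (coord_smooth 0) x),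
      pd_mul (differentiableAt_const l) (sm_df hμ x), pd_const, hd, pd_coord]
    simp
  rw [pd, (sm_df h2 x).hasFDerivAt.exp.fderiv, _root_.smul_apply, ← pd, h3, smul_eq_mul]
  ring

/-- Change of the exponent by an integration by parts in the normal variable. -/
theorem int_swap (hK : IsCompact K) (hμ : ContDiff ℝ ∞ μ) (h0 : ∀ x, 0 < μ x)
    (hd : ∀ x, pd 0 μ x = 0) {c : Ec n → ℝ} (hc : ContDiff ℝ ∞ c) (hcK : ∀ x ∉ K, c x = 0) :
    ∃ C : ℝ, ∀ l : ℝ, 1 ≤ l → |(∫ x in Hs n, Real.exp (-(l * μ x * x 0)) * (μ x * c x)) -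
      ∫ x in Hs n, Real.exp (-(l * 1 * x 0)) * c x| ≤ C * l ^ (-2 : ℤ) := by
  have s0 := Sy.of hc hcK
  have s1 := Sy.of (pd_smooth hc 0) (pd_off hK.isClosed hcK 0)
  obtain ⟨C, h1⟩ := s1.int hK hμ.continuous h0
  obtain ⟨C', h2⟩ := s1.int (μ := fun _ => 1) hK continuous_const fun _ => one_pos
  refine ⟨C + C', fun l hl => ?_⟩
  have hl0 : 0 < l := one_pos.trans_le hl
  obtain ⟨h3, h4⟩ := bsyb_pd hμ hd l
  obtain ⟨h5, h6⟩ := bsyb_pd (n := n) (μ := fun _ => 1) contDiff_const (pd_const 1 0) l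
  have h7 := int_pd_half (hc.mul (h3.sub h5)) hK (fun x hx => by rw [hcK x hx, zero_mul])
    (fun x hx => by simp [hx]) 0
  have e : pd 0 (fun x => c x * (Real.exp (-(l * μ x * x 0)) - Real.exp (-(l * 1 * x 0)))) =
      fun x => (Real.exp (-(l * μ x * x 0)) * pd 0 c x - Real.exp (-(l * 1 * x 0)) * pd 0 c x) -
        l * (Real.exp (-(l * μ x * x 0)) * (μ x * c x) - Real.exp (-(l * 1 * x 0)) * c x) := by
    funext x
    rw [pd_mul (sm_df hc x) (sm_df (h3.sub h5) x), pd_sub (sm_df h3 x) (sm_df h5 x), h4, h6]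
    ring
  have i1 := (s1.intg hK hμ.continuous hl).integrableOn (s := Hs n)
  have i2 := (s1.intg (μ := fun _ => 1) hK continuous_const hl).integrableOn (s := Hs n)
  have i3 := ((s0.mul hμ).intg hK hμ.continuous hl).integrableOn (s := Hs n)
  have i4 := (s0.intg (μ := fun _ => 1) hK continuous_const hl).integrableOn (s := Hs n)
  have h8 := integral_sub (i1.sub i2) ((i3.sub i4).const_mul l)
  simp only [Pi.sub_apply] at h8
  simp only [e] at h7
  rw [h8, integral_const_mul, integral_sub i1 i2, integral_sub i3 i4, sub_eq_zero] at h7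
  refine le_of_mul_le_mul_left ?_ hl0
  have e2 : l * ((C + C') * l ^ (-2 : ℤ)) = C * l ^ (0 - 1 : ℤ) + C' * l ^ (0 - 1 : ℤ) := by
    rw [zero_sub, _root_.zpow_neg, _root_.zpow_neg, zpow_ofNat, zpow_ofNat]
    field_simp
  rw [e2, ← abs_of_pos hl0, ← abs_mul, abs_of_pos hl0, ← h7]
  exact (abs_sub _ _).trans (add_le_add (h1 l hl) (h2 l hl))

end Vale.Agent.P088.B
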