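import Vale.Agent.P088F.BEx

/-! P088, part B: approximate solutions of any order. -/

open MeasureTheory Set Metric Matrix Filter Topology
open scoped ContDiff

noncomputable section

namespace Vale.Agent.P088.B

variable {n N : ℕ} [NeZero n] {W : Type} [NormedAddCommGroup W] [NormedSpace ℝ W]

variable {K : Set (Ec n)} {m : ℤ} {μ : Ec n → ℝ} {ξ : Ec n} {D : Co n N}

theorem bwkb_ne (hK : IsClosed K) (hD : D.Good) (hμ : ContDiff ℝ ∞ μ) {b : ℝ → Ec n → Fb N}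
    (hb : Sy K m b) {j : Fin n} (hj : j ≠ 0) :
    Sy K m fun l x => D.dl ξ μ l j (b l) x - l • (Complex.I * ξ j) • b l x :=
  ((hb.dl0 (ξ := ξ) hD hμ j).add (hb.pd_ne hK hj)).congr fun l _ x => by simp [ph0, hj]

theorem bwkb_zero (hD : D.Nf) (hξ : ξ ≠ 0) (hξ0 : ξ 0 = 0) (l : ℝ) (b : Ec n → Fb N) (x : Ec n) :
    D.dl ξ (D.mu ξ) l 0 b x = pd 0 b x - (l * D.mu ξ x) • b x := by
  rw [Co.dl, pd_ph ξ (hD.toGood.mu_smooth hξ), Co.pd_mu, Co.cd, hD.c0]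
  ext i
  simp [ph0, hξ0]
  ring

theorem bwkb_j0 (hD : D.Nf) (hξ : ξ ≠ 0) (hξ0 : ξ 0 = 0) (l : ℝ) {a : Ec n → Fb N}
    (ha : ContDiff ℝ ∞ a) (x : Ec n) :
    D.dl ξ (D.mu ξ) l 0 (fun y => ∑ k, D.sg y 0 k • D.dl ξ (D.mu ξ) l k a y) x =
      D.sg x 0 0 • mo (D.mu ξ) l a x + (l ^ 2 * (D.sg x 0 0 * D.mu ξ x ^ 2)) • a x +
        pd 0 (fun y => D.sg y 0 0) x • D.dl ξ (D.mu ξ) l 0 a x := by
  have hμ := hD.toGood.mu_smooth hξ
  have e : (fun y => ∑ k, D.sg y 0 k • D.dl ξ (D.mu ξ) l k a y) =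
      fun y => D.sg y 0 0 • D.dl ξ (D.mu ξ) l 0 a y := funext fun y =>
    Finset.sum_eq_single 0 (fun k _ hk => by rw [hD.sg0, if_neg hk, zero_smul]) (by simp)
  have e2 : D.dl ξ (D.mu ξ) l 0 a = fun y => pd 0 a y - (l * D.mu ξ y) • a y :=
    funext (bwkb_zero hD hξ hξ0 l a)
  have h1 : ContDiff ℝ ∞ fun y => l * D.mu ξ y := contDiff_const.mul hμ
  have h2 : ContDiff ℝ ∞ fun y => (l * D.mu ξ y) • a y := h1.smul ha
  rw [e, bwkb_zero hD hξ hξ0, pd_smul (sm_df (hD.toGood.sg_smooth 0 0) x)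
    (sm_df (dl_smooth hD.toGood hμ ha 0) x), e2,
    pd_sub (sm_df (pd_smooth ha 0) x) (sm_df h2 x), pd_smul (sm_df h1 x) (sm_df ha x),
    pd_mul (differentiableAt_const l) (sm_df hμ x), pd_const, Co.pd_mu, mo]
  module

theorem bwkb_j (hK : IsClosed K) (hD : D.Nf) (hμ : ContDiff ℝ ∞ μ) {a : ℝ → Ec n → Fb N}
    (ha : Sy K m a) {j : Fin n} (hj : j ≠ 0) :
    Sy K (m + 1) fun l x => D.dl ξ μ l j (fun y => ∑ k, D.sg y j k • D.dl ξ μ l k (a l) y) x +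
      (l ^ 2 * ∑ k, D.sg x j k * ξ j * ξ k) • a l x := by
  have h1 : Sy K m fun l x => ∑ k, D.sg x j k •
      (D.dl ξ μ l k (a l) x - l • (Complex.I * ξ k) • a l x) := by
    refine Sy.sum _ fun k _ => ?_
    by_cases hk : k = 0
    · exact Sy.zero.congr fun l _ x => by
        rw [hk, hD.toGood.sg_symm, hD.sg0, if_neg hj, zero_smul]
    · exact (bwkb_ne hK hD.toGood hμ ha hk).smul (hD.toGood.sg_smooth j k)
  have h2 : Sy K (m + 1) fun l y => ∑ k, D.sg y j k • D.dl ξ μ l k (a l) y :=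
    Sy.sum _ fun k _ => (ha.dl hK hD.toGood hμ k).smul (hD.toGood.sg_smooth j k)
  refine ((bwkb_ne (ξ := ξ) hK hD.toGood hμ h2 hj).add
    (h1.csmul (c := fun _ => Complex.I * ξ j) contDiff_const).lam).congr fun l _ x => ?_
  rw [sub_add, sub_eq_add_neg, ← smul_sub, ← smul_sub, ← Finset.sum_sub_distrib, Finset.mul_sum,
    Finset.sum_smul, Finset.smul_sum, Finset.smul_sum, ← Finset.sum_neg_distrib]
  refine congrArg _ (Finset.sum_congr rfl fun k _ => ?_)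
  ext i
  simp
  linear_combination ((l : ℂ) ^ 2 * D.sg x j k * ξ j * ξ k * a l x i) * Complex.I_mul_I

theorem pl_main (hK : IsClosed K) (hD : D.Nf) (hξ : ξ ≠ 0) (hξ0 : ξ 0 = 0)
    {a : ℝ → Ec n → Fb N} (ha : Sy K m a) :
    Sy K (m + 1) fun l x => D.pl ξ (D.mu ξ) l (a l) x - D.sg x 0 0 • mo (D.mu ξ) l (a l) x := by
  have hμ := hD.toGood.mu_smooth hξ
  obtain ⟨g, hg, e, -⟩ := hadamard
    (f := fun x => D.sg x 0 0 * D.mu ξ x ^ 2 - ∑ j, ∑ k, D.sg x j k * ξ j * ξ k)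
    (((hD.toGood.sg_smooth 0 0).mul (hμ.pow 2)).sub (ContDiff.sum fun j _ => ContDiff.sum fun k _ =>
      ((hD.toGood.sg_smooth j k).mul contDiff_const).mul contDiff_const))
  have h1 : Sy K (m + 1) fun l x => l • l • x 0 ^ 1 • g x • a l x :=
    ((ha.smul hg).tpow 1).lam.lam.mono (by omega)
  have h2 := Sy.sum (Finset.univ.erase 0) fun j hj =>
    bwkb_j (ξ := ξ) hK hD hμ ha (Finset.ne_of_mem_erase hj)
  have h3 := (ha.dl (ξ := ξ) hK hD.toGood hμ 0).smul (pd_smooth (hD.toGood.sg_smooth 0 0) 0)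
  refine ((h1.add h2).add h3).congr fun l hl x => ?_
  have e1 := e x
  rw [hD.mu_sq ξ (pr_zero x), sub_self, zero_add,
    ← Finset.add_sum_erase _ _ (Finset.mem_univ (0 : Fin n)), smul_eq_mul] at e1
  simp only [hξ0, mul_zero, zero_mul, Finset.sum_const_zero, zero_add] at e1
  rw [Co.pl, ← Finset.add_sum_erase _ _ (Finset.mem_univ (0 : Fin n)),
    bwkb_j0 hD hξ hξ0 l (ha.smooth hl), Finset.sum_add_distrib, ← Finset.sum_smul,
    ← Finset.mul_sum, sub_eq_iff_eq_add.1 e1]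
  module

theorem bwkb_pd {c : Ec n → W} (hc : ContDiff ℝ ∞ c) (s : ℝ) (j : ℕ) (x : Ec n) :
    pd 0 (fun y => (s * y 0 ^ j) • c y) x =
      (s * x 0 ^ (j - 1)) • (j : ℝ) • c x + (s * x 0 ^ j) • pd 0 c x := by
  have h := (coord_smooth (0 : Fin n)).pow j
  rw [pd_smul (sm_df (contDiff_const.mul h) x) (sm_df hc x),
    pd_mul (differentiableAt_const s) (sm_df h x), pd_const, pd_pow, if_pos rfl]
  module

theorem bwkb_add {a b : Ec n → W} (ha : ContDiff ℝ ∞ a) (hb : ContDiff ℝ ∞ b) (l : ℝ) (x : Ec n) :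
    mo μ l (fun y => a y + b y) x = mo μ l a x + mo μ l b x := by
  have e : pd 0 (fun y => a y + b y) = fun y => pd 0 a y + pd 0 b y :=
    funext fun y => pd_add (sm_df ha y) (sm_df hb y)
  rw [mo, e, pd_add (sm_df (pd_smooth ha 0) x) (sm_df (pd_smooth hb 0) x), mo, mo]
  module

theorem bwkb_term (hK : IsClosed K) (hμ : ContDiff ℝ ∞ μ) (h0 : ∀ x, 0 < μ x) (j : ℕ) :
    ∀ (p : ℤ) (c : Ec n → W), ContDiff ℝ ∞ c → (∀ x ∉ K, c x = 0) →
      ∃ q : ℝ → Ec n → W, Sy K (p - j - 2) q ∧ (∀ l, 1 ≤ l → ∀ x : Ec n, x 0 = 0 → q l x = 0) ∧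
        Sy K (p - j - 1) fun l x => mo μ l (q l) x - (l ^ p * x 0 ^ j) • c x := by
  induction j using Nat.strong_induction_on with
  | _ j ih =>
  intro p c hc hcK
  obtain ⟨d, hd⟩ : ∃ d : Ec n → W, d = fun x => (-(2 * μ x * (j + 1 : ℕ))⁻¹) • c x := ⟨_, rfl⟩
  have d1 : ContDiff ℝ ∞ d := hd ▸ (((contDiff_const.mul hμ).mul contDiff_const).inv fun x => by
    have := h0 x
    positivity).neg.smul hc
  have d2 : ∀ x ∉ K, d x = 0 := fun x hx => by simp [hd, hcK x hx]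
  have e1 : ContDiff ℝ ∞ fun x => ((j + 1 : ℕ) : ℝ) • d x := d1.const_smul _
  have e2 : ∀ x ∉ K, ((j + 1 : ℕ) : ℝ) • d x = 0 := fun x hx => by rw [d2 x hx, smul_zero]
  obtain ⟨r, r1, r2, r3⟩ : ∃ r : ℝ → Ec n → W, Sy K (p - j - 2) r ∧
      (∀ l, 1 ≤ l → ∀ x : Ec n, x 0 = 0 → r l x = 0) ∧ Sy K (p - j - 1) fun l x => mo μ l (r l) x -
        (l ^ (p - 1) * x 0 ^ (j - 1)) • -((j : ℝ) • ((j + 1 : ℕ) : ℝ) • d x) := by
    rcases j with _ | j
    · refine ⟨fun _ _ => 0, Sy.zero, fun _ _ _ _ => rfl, Sy.zero.congr fun l _ x => ?_⟩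
      have : pd 0 (fun _ : Ec n => (0 : W)) = fun _ => 0 := funext (pd_const 0 0)
      simp [mo, this]
    · obtain ⟨r, r1, r2, r3⟩ := ih j (by omega) (p - 1) _ (e1.const_smul ((j + 1 : ℕ) : ℝ)).neg
        fun x hx => by rw [e2 x hx, smul_zero, neg_zero]
      exact ⟨r, r1.mono (by omega), r2, r3.mono (by omega)⟩
  have q1 := Sy.term (m := p - j - 2) (p - 1) (j + 1) d d1 d2 (by omega)
  have B := Sy.term (m := p - j - 2) (p - 1) (j + 1) _ (pd_smooth d1 0) (pd_off hK d2 0) (by omega)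
  have A := Sy.term (m := p - j - 1) (p - 1) j _ (pd_smooth e1 0) (pd_off hK e2 0) (by omega)
  refine ⟨_, q1.add r1, fun l hl x hx => by simp [hx, r2 l hl x hx], ?_⟩
  refine (((A.add ((B.pd hK 0).mono (by omega))).sub
    ((B.smul (c := fun x => 2 * μ x) (contDiff_const.mul hμ)).lam.mono (by omega))).add r3).congr
    fun l hl x => ?_
  have e : pd 0 (fun y : Ec n => (l ^ (p - 1) * y 0 ^ (j + 1)) • d y) = fun y =>
      (l ^ (p - 1) * y 0 ^ j) • ((j + 1 : ℕ) : ℝ) • d y + (l ^ (p - 1) * y 0 ^ (j + 1)) • pd 0 d y :=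
    funext (bwkb_pd d1 _ (j + 1))
  have e3 : c x = -((2 * μ x) • ((j + 1 : ℕ) : ℝ) • d x) := by
    have := (h0 x).ne'
    rw [hd, smul_smul, smul_smul, ← neg_smul]
    field_simp
    rw [one_smul]
  have e4 : l ^ p = l ^ (p - 1) * l := by rw [zpow_sub_one₀ (by linarith)]; field_simp
  have e5 := (Sy.term (m := p) (p - 1) j _ e1 e2 (by omega)).smooth hl
  rw [bwkb_add (q1.smooth hl) (r1.smooth hl), mo, e, pd_add (sm_df e5 x) (sm_df (B.smooth hl) x),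
    bwkb_pd e1, e3, e4]
  module

theorem mo_solve (hK : IsClosed K) (hμ : ContDiff ℝ ∞ μ) (h0 : ∀ x, 0 < μ x)
    {f : ℝ → Ec n → W} (hf : Sy K m f) :
    ∃ q : ℝ → Ec n → W, Sy K (m - 2) q ∧ (∀ l, 1 ≤ l → ∀ x : Ec n, x 0 = 0 → q l x = 0) ∧
      Sy K (m - 1) fun l x => mo μ l (q l) x - f l x := by
  induction hf with
  | term p j c hc hcK h =>
    obtain ⟨q, q1, q2, q3⟩ := bwkb_term hK hμ h0 j p c hc hcK
    exact ⟨q, q1.mono (by omega), q2, q3.mono (by omega)⟩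
  | add _ _ ih ih' =>
    obtain ⟨q, q1, q2, q3⟩ := ih
    obtain ⟨r, r1, r2, r3⟩ := ih'
    refine ⟨_, q1.add r1, fun l hl x hx => by rw [q2 l hl x hx, r2 l hl x hx, add_zero],
      (q3.add r3).congr fun l hl x => ?_⟩
    rw [bwkb_add (q1.smooth hl) (r1.smooth hl)]
    exact add_sub_add_comm _ _ _ _
  | congr _ h ih =>
    obtain ⟨q, q1, q2, q3⟩ := ih
    exact ⟨q, q1, q2, q3.congr fun l hl x => by rw [h l hl x]⟩

theorem wkb (hK : IsClosed K) (hD : D.Nf) (hξ : ξ ≠ 0) (hξ0 : ξ 0 = 0) {β : Ec n → ℝ}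
    (hβ : ContDiff ℝ ∞ β) (hβK : ∀ x ∉ K, β x = 0) (v : Fb N) (J : ℕ) :
    ∃ a : ℝ → Ec n → Fb N, Sy K (-1) a ∧ (∀ l, 1 ≤ l → ∀ x : Ec n, x 0 = 0 → a l x = 0) ∧
      Sy K (1 - J) fun l => D.pl ξ (D.mu ξ) l fun y => β y • v + a l y := by
  have hμ := hD.toGood.mu_smooth hξ
  have hs := hD.toGood.sg_smooth 0 0
  have b1 : ContDiff ℝ ∞ fun y => β y • v := hβ.smul contDiff_const
  have b2 : ∀ x ∉ K, β x • v = 0 := fun x hx => by rw [hβK x hx, zero_smul]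
  induction J with
  | zero =>
    refine ⟨fun _ _ => 0, Sy.zero, fun _ _ _ _ => rfl, ?_⟩
    have h1 := pl_main hK hD hξ hξ0 (Sy.of b1 b2)
    have h2 := Sy.of (pd_smooth (pd_smooth b1 0) 0) (pd_off hK (pd_off hK b2 0) 0)
    have h3 := ((Sy.of (pd_smooth b1 0) (pd_off hK b2 0)).smul
      (c := fun x => 2 * D.mu ξ x) (contDiff_const.mul hμ)).lam
    refine ((h1.add (((h2.mono (by omega)).sub h3).smul hs)).mono (by omega)).congr fun l _ x => ?_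
    simp only [add_zero, mo]
    module
  | succ J ih =>
    obtain ⟨a, a1, a2, a3⟩ := ih
    obtain ⟨q, q1, q2, q3⟩ := mo_solve hK hμ (hD.toGood.mu_pos hξ)
      (a3.smul (hs.inv fun x => (hD.sg00_pos x).ne').neg)
    refine ⟨_, a1.add (q1.mono (by omega)),
      fun l hl x hx => by rw [a2 l hl x hx, q2 l hl x hx, add_zero], ?_⟩
    refine (((pl_main hK hD hξ hξ0 q1).mono (by omega)).add
      ((q3.smul hs).mono (by omega))).congr fun l hl x => ?_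
    simp only [← add_assoc]
    rw [pl_add hD.toGood hμ (b1.add (a1.smooth hl)) (q1.smooth hl), smul_sub, smul_smul, mul_neg,
      Pi.inv_apply, mul_inv_cancel₀ (hD.sg00_pos x).ne']
    module

end Vale.Agent.P088.B
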