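import Vale.Agent.P088F.BQm
import Vale.Agent.P088F.BSyB
import Vale.Agent.P088F.BWkb

/-! P088, part B: defect and energy of the approximate solutions. -/

open MeasureTheory Set Metric Matrix Filter Topology
open scoped ContDiff

noncomputable section

namespace Vale.Agent.P088.B

variable {n N : ℕ} [NeZero n] {W : Type} [NormedAddCommGroup W] [NormedSpace ℝ W]

variable {m : ℤ} {μ : Ec n → ℝ} {ξ z : Ec n} {D : Co n N} {r r' : ℝ}

theorem dfc_bound (hD : D.Nf) (hz : z 0 = 0) (hr : r' < r) (hμ : ContDiff ℝ ∞ μ)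
    (h0 : ∀ x, 0 < μ x) {a : ℝ → Ec n → Fb N} (ha : Sy (closedBall z r') 0 a)
    (hp : Sy (closedBall z r') m fun l => D.pl ξ μ l (a l)) :
    ∃ C : ℝ, ∀ l : ℝ, 1 ≤ l → ∀ e : ℝ, D.Dfc (ball z r) (fun y => ex ξ μ l y • a l y) e →
      |e| ≤ C * l ^ (2 * m - 3) := by
  obtain ⟨C, -, hC⟩ := qm hD hz hr
  obtain ⟨C', c, -, h2, h3⟩ := hp.exb (isCompact_closedBall z r') hμ.continuous h0
  refine ⟨C * C' ^ 2 / c ^ 3, fun l hl e he => ?_⟩
  have hl0 : 0 < l := one_pos.trans_le hl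
  refine (hC (fun y => ex ξ μ l y • a l y) e (c * l) (C' * l ^ m) ((ex_smooth ξ hμ l).smul (ha.smooth hl))
    (fun x hx => by simp only [ha.off hl x hx, smul_zero]) (mul_pos h2 hl0) (fun x hx => by
      rw [op_ex hD.toGood hμ (ha.smooth hl), norm_smul, norm_ex]
      exact h3 l hl x hx) he).trans_eq ?_
  rw [zpow_sub₀ hl0.ne', two_mul, zpow_add₀ hl0.ne', zpow_ofNat]
  field_simp

theorem bdfc_inner (l b : ℝ) (p q : ℂ) (v : Fb N) :
    (inner ℂ (l • p • b • v) (l • q • b • v)).re =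
      l ^ 2 * b ^ 2 * ‖v‖ ^ 2 * (p.re * q.re + p.im * q.im) := by
  simp only [← Complex.coe_smul, inner_smul_left, inner_smul_right, inner_self_eq_norm_sq_to_K,
    Complex.conj_ofReal]
  simp only [Complex.coe_algebraMap, pow_two, Complex.mul_re, Complex.mul_im, Complex.ofReal_re, Complex.ofReal_im,
    Complex.conj_re, Complex.conj_im]
  ring

theorem bdfc_lead (D : Co n N) (ξ : Ec n) (μ : Ec n → ℝ) (l b : ℝ) (v : Fb N) (x : Ec n) :
    ∑ j, ∑ k, D.sg x j k * (inner ℂ (l • ph0 ξ μ j x • b • v) (l • ph0 ξ μ k x • b • v)).re =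
      l ^ 2 * b ^ 2 * ‖v‖ ^ 2 * (D.sg x 0 0 * μ x ^ 2 + ∑ j, ∑ k, D.sg x j k * ξ j * ξ k) := by
  have h1 : ∀ j, (ph0 ξ μ j x).re = if j = 0 then -μ x else 0 := fun j => by
    unfold ph0; split_ifs <;> simp
  have h2 : ∀ j, (ph0 ξ μ j x).im = ξ j := fun j => by
    unfold ph0; split_ifs <;> simp
  have h3 : D.sg x 0 0 * μ x ^ 2 = ∑ j, ∑ k, D.sg x j k *
      ((if j = 0 then -μ x else 0) * if k = 0 then -μ x else 0) := by
    simp only [ite_mul, mul_ite, mul_zero, zero_mul, Finset.sum_ite_eq', Finset.mem_univ, if_true]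
    ring
  simp only [bdfc_inner, h1, h2]
  rw [h3, ← Finset.sum_add_distrib, Finset.mul_sum]
  refine Finset.sum_congr rfl fun j _ => ?_
  rw [← Finset.sum_add_distrib, Finset.mul_sum]
  exact Finset.sum_congr rfl fun k _ => by ring

/-- Energy of the simplest approximate solution. -/
theorem en_lead {K : Set (Ec n)} (hK : IsCompact K) (hD : D.Nf) (hξ : ξ ≠ 0) (hξ0 : ξ 0 = 0)
    {β : Ec n → ℝ} (hβ : ContDiff ℝ ∞ β) (hβK : ∀ x ∉ K, β x = 0) (v : Fb N) :
    ∃ C : ℝ, ∀ l : ℝ, 1 ≤ l →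
      |(∫ x in Hs n, D.en (fun y => ex ξ (D.mu ξ) l y • β y • v)
          (fun y => ex ξ (D.mu ξ) l y • β y • v) x).re -
        l ^ 2 * ∫ x in Hs n, Real.exp (-(l * 1 * x 0)) *
          (β x ^ 2 * (D.sg x 0 0 * D.mu ξ x * ‖v‖ ^ 2))| ≤ C := by
  have hG := hD.toGood
  have hμ := hG.mu_smooth hξ
  have h0 := hG.mu_pos hξ
  have hμ2 : ContDiff ℝ ∞ fun x => 2 * D.mu ξ x := contDiff_const.mul hμ
  have h02 : ∀ x, 0 < 2 * D.mu ξ x := fun x => mul_pos two_pos (h0 x)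
  have hbv : ContDiff ℝ ∞ fun x => β x • v := hβ.smul contDiff_const
  have hS : Sy K 0 fun _ x => β x • v := Sy.of hbv fun x hx => by rw [hβK x hx, zero_smul]
  have hA : ∀ j, Sy K (0 + 1) fun l => D.dl ξ (D.mu ξ) l j fun x => β x • v := fun j =>
    hS.dl hK.isClosed hG hμ j
  have hL : ∀ j, Sy K (0 + 1) fun l x => l • ph0 ξ (D.mu ξ) j x • β x • v := fun j =>
    (hS.csmul (ph0_smooth ξ hμ j)).lam
  have hAL : ∀ j, Sy K 0 fun l x => D.dl ξ (D.mu ξ) l j (fun y => β y • v) x -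
      l • ph0 ξ (D.mu ξ) j x • β x • v := fun j => by
    simpa only [add_zero] using Sy.dl_lead (ξ := ξ) hK.isClosed hG hμ hβ hβK v Sy.zero j
  obtain ⟨g, hg, hg', -⟩ := hadamard (f := fun x => ∑ j, ∑ k, D.sg x j k * ξ j * ξ k -
    D.sg x 0 0 * D.mu ξ x ^ 2) ((ContDiff.sum fun j _ => ContDiff.sum fun k _ =>
      ((hG.sg_smooth j k).mul contDiff_const).mul contDiff_const).sub
        ((hG.sg_smooth 0 0).mul (hμ.pow 2)))
  have hg2 : ∀ x, ∑ j, ∑ k, D.sg x j k * ξ j * ξ k = D.sg x 0 0 * D.mu ξ x ^ 2 + x 0 * g x :=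
    fun x => by
      have h1 := hg' x
      rw [hD.mu_sq ξ (pr_zero x), sub_self, zero_add, smul_eq_mul] at h1
      linarith
  have hc : ContDiff ℝ ∞ fun x => β x ^ 2 * (D.sg x 0 0 * D.mu ξ x * ‖v‖ ^ 2) :=
    (hβ.pow 2).mul (((hG.sg_smooth 0 0).mul hμ).mul contDiff_const)
  have hcK : ∀ x ∉ K, β x ^ 2 * (D.sg x 0 0 * D.mu ξ x * ‖v‖ ^ 2) = 0 := fun x hx => by
    rw [hβK x hx]; ring
  have hR : Sy K (0 + 1 + 1 - (1 : ℕ)) fun l x => x 0 ^ 1 • l • l • (β x ^ 2 * ‖v‖ ^ 2 * g x) :=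
    (Sy.of (((hβ.pow 2).mul contDiff_const).mul hg) fun x hx => by
      rw [hβK x hx]; ring).lam.lam.tpow 1
  have hF : Sy K 1 fun l x => ∑ j, ∑ k, D.sg x j k *
      (inner ℂ (D.dl ξ (D.mu ξ) l j (fun y => β y • v) x)
        (D.dl ξ (D.mu ξ) l k (fun y => β y • v) x)).re -
      l ^ 2 * (2 * D.mu ξ x * (β x ^ 2 * (D.sg x 0 0 * D.mu ξ x * ‖v‖ ^ 2))) := by
    refine ((Sy.sum Finset.univ fun j _ => Sy.sum Finset.univ fun k _ =>
      ((((hAL j).inner (hA k)).mono (m' := 1) (by norm_num)).add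
        (((hL j).inner (hAL k)).mono (by norm_num))).re.mul (hG.sg_smooth j k)).add
          (hR.mono (by norm_num))).congr fun l _ x => ?_
    have h1 := bdfc_lead D ξ (D.mu ξ) l (β x) v x
    rw [hg2 x] at h1
    simp only [inner_sub_left, inner_sub_right, sub_add_sub_cancel, Complex.sub_re, mul_sub,
      Finset.sum_sub_distrib, h1, smul_eq_mul]
    ring
  obtain ⟨C, hC⟩ := hF.int hK hμ2.continuous h02
  obtain ⟨C', hC'⟩ := int_swap hK hμ2 h02 (fun x => by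
    rw [pd_mul (sm_df contDiff_const x) (sm_df hμ x), pd_const, D.pd_mu]; ring) hc hcK
  refine ⟨C + C', fun l hl => ?_⟩
  have hl0 : 0 < l := one_pos.trans_le hl
  have hu : ContDiff ℝ ∞ fun y => ex ξ (D.mu ξ) l y • β y • v := (ex_smooth ξ hμ l).smul hbv
  have hi := int_of_off (hG.en_smooth hu hu).continuous hK
    (D.en_off hK.isClosed (fun x hx => by rw [hβK x hx, zero_smul, smul_zero]) _)
  have i1 := (hF.intg hK hμ2.continuous hl).integrableOn (s := Hs n)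
  have i2 := ((Sy.of (hμ2.mul hc) fun x hx => by rw [hcK x hx, mul_zero]).intg hK
    hμ2.continuous hl).integrableOn (s := Hs n)
  have e1 := integral_re (𝕜 := ℂ) (hi.integrableOn (s := Hs n))
  simp only [RCLike.re_to_complex] at e1
  have e2 := integral_add i1 (i2.const_mul (l ^ 2))
  rw [integral_const_mul] at e2
  have h1 := hC l hl
  have h2 := mul_le_mul_of_nonneg_left (hC' l hl) (sq_nonneg l)
  rw [sub_self, zpow_zero, mul_one] at h1
  rw [← abs_of_nonneg (sq_nonneg l), ← abs_mul, abs_of_nonneg (sq_nonneg l),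
    show l ^ 2 * (C' * l ^ (-2 : ℤ)) = C' by rw [_root_.zpow_neg, zpow_ofNat]; field_simp] at h2
  rw [← e1, integral_congr_ae (Eventually.of_forall fun x => ?_) |>.trans e2]
  · refine le_trans (le_of_eq ?_) ((abs_add_le _ _).trans (add_le_add h1 h2))
    congr 1
    ring
  · simp only [en_ex hμ hbv]
    ring

end Vale.Agent.P088.B
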