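import Vale.Agent.P088F.BExt0

/-! P088, part B: a map that fixes the hyperplane and is transversal to it is a local diffeomorphism.

`fderiv Ψ z v = v` when `v 0 = 0` (differentiate `t ↦ Ψ (z + t • v)`), so `fderiv Ψ z` is injective, hence an
equivalence (`LinearEquiv.ofInjectiveEndo`, `toContinuousLinearEquiv`). Use `ContDiffAt.toOpenPartialHomeomorph`,
a ball inside its source on which `(jac Ψ x).det ≠ 0` and `0 < fderiv Ψ x (bv 0) 0` (continuity),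
`OpenPartialHomeomorph.isOpen_image_of_subset_source`. The inverse is smooth at each point of the image of the ball
(`OpenPartialHomeomorph.contDiffAt_symm`, the derivative is an equivalence as the determinant is not zero), so on a
ball about `Ψ z = z`; make it global with `glob_fun` and shrink. Signs: `t ↦ Ψ (pr x + t • bv 0) 0` vanishes at `0`
and is strictly increasing for `|t| ≤ |x 0|` (`seg_mem`). -/

open MeasureTheory Set Metric Matrix Filter Topology Asymptotics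
open scoped ContDiff

noncomputable section

namespace Vale.Agent.P088.B

variable {n : ℕ} [NeZero n]

omit [NeZero n] in
theorem bnorb_det (Ψ : Ec n → Ec n) (x : Ec n) : (jac Ψ x).det = (fderiv ℝ Ψ x).det := by
  have e : jac Ψ x = LinearMap.toMatrix (EuclideanSpace.basisFun (Fin n) ℝ).toBasis
      (EuclideanSpace.basisFun (Fin n) ℝ).toBasis (fderiv ℝ Ψ x : Ec n →ₗ[ℝ] Ec n) := by
    ext j k
    simp [jac, LinearMap.toMatrix_apply, bv]
  rw [e, LinearMap.det_toMatrix]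

omit [NeZero n] in
theorem bnorb_line {Ψ : Ec n → Ec n} (hΨ : ContDiff ℝ ∞ Ψ) (y v : Ec n) (t : ℝ) :
    HasDerivAt (fun s : ℝ => Ψ (y + s • v)) (fderiv ℝ Ψ (y + t • v) v) t := by
  have h1 : HasDerivAt (fun s : ℝ => y + s • v) v t := by
    simpa using ((hasDerivAt_id t).smul_const v).const_add y
  exact (hΨ.differentiable (by simp) _).hasFDerivAt.comp_hasDerivAt t h1

theorem bnorb_fix {Ψ : Ec n → Ec n} {z : Ec n} {r : ℝ} (hz : z 0 = 0) (hr : 0 < r)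
    (hΨ : ContDiff ℝ ∞ Ψ) (hb : ∀ x ∈ ball z r, x 0 = 0 → Ψ x = x) {v : Ec n} (hv : v 0 = 0) :
    fderiv ℝ Ψ z v = v := by
  have h1 : HasDerivAt (fun s : ℝ => z + s • v) v 0 := by
    simpa using ((hasDerivAt_id (0 : ℝ)).smul_const v).const_add z
  have h2 := bnorb_line hΨ z v 0
  rw [zero_smul, add_zero] at h2
  have h3 : ∀ᶠ s in 𝓝 (0 : ℝ), z + s • v ∈ ball z r := by
    refine h1.continuousAt.preimage_mem_nhds ?_
    rw [zero_smul, add_zero]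
    exact ball_mem_nhds z hr
  refine h2.unique (h1.congr_of_eventuallyEq ?_)
  filter_upwards [h3] with s hs
  exact hb _ hs (by simp [hz, hv])

theorem bnorb_ne {Ψ : Ec n → Ec n} {z : Ec n} {r : ℝ} (hz : z 0 = 0) (hr : 0 < r)
    (hΨ : ContDiff ℝ ∞ Ψ) (hb : ∀ x ∈ ball z r, x 0 = 0 → Ψ x = x)
    (h0 : 0 < fderiv ℝ Ψ z (bv 0) 0) : (fderiv ℝ Ψ z).det ≠ 0 := by
  intro h
  refine LinearMap.det_eq_zero_iff_ker_ne_bot.1 h (LinearMap.ker_eq_bot'.2 fun v hv => ?_)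
  have hv' : fderiv ℝ Ψ z v = 0 := hv
  have p0 : pr v 0 = 0 := by simp [pr, bv]
  have e : fderiv ℝ Ψ z v = pr v + v 0 • fderiv ℝ Ψ z (bv 0) := by
    conv_lhs => rw [← pr_add_self v]
    rw [map_add, map_smul, bnorb_fix hz hr hΨ hb p0]
  have e0 : (0 : ℝ) = v 0 * fderiv ℝ Ψ z (bv 0) 0 := by
    have := congrArg (fun w : Ec n => w 0) (hv'.symm.trans e)
    simpa [p0] using this
  have v0 : v 0 = 0 := (mul_eq_zero.1 e0.symm).resolve_right h0.ne'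
  rw [← bnorb_fix hz hr hΨ hb v0, hv']

theorem bnorb_sign {Ψ : Ec n → Ec n} {z x : Ec n} {r : ℝ} (hz : z 0 = 0)
    (hΨ : ContDiff ℝ ∞ Ψ) (hb : ∀ x ∈ ball z r, x 0 = 0 → Ψ x = x)
    (h0 : ∀ x ∈ ball z r, 0 < fderiv ℝ Ψ x (bv 0) 0) (hx : x ∈ ball z r) :
    (0 < Ψ x 0 ↔ 0 < x 0) ∧ (Ψ x 0 < 0 ↔ x 0 < 0) := by
  have hd : ∀ t : ℝ, HasDerivAt (fun s : ℝ => Ψ (pr x + s • bv 0) 0)
      (fderiv ℝ Ψ (pr x + t • bv 0) (bv 0) 0) t := fun t =>
    (EuclideanSpace.proj (0 : Fin n) : Ec n →L[ℝ] ℝ).hasFDerivAt.comp_hasDerivAt t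
      (bnorb_line hΨ (pr x) (bv 0) t)
  have hm : StrictMonoOn (fun s : ℝ => Ψ (pr x + s • bv 0) 0) (Icc (-|x 0|) |x 0|) := by
    refine strictMonoOn_of_deriv_pos (convex_Icc _ _)
      (fun t _ => (hd t).continuousAt.continuousWithinAt) fun t ht => ?_
    rw [(hd t).deriv]
    exact h0 _ (seg_mem hz hx (abs_le.2 (mem_Icc.1 (interior_subset ht))))
  have m0 : (0 : ℝ) ∈ Icc (-|x 0|) |x 0| := ⟨neg_nonpos.2 (abs_nonneg _), abs_nonneg _⟩
  have m1 : x 0 ∈ Icc (-|x 0|) |x 0| := ⟨neg_abs_le _, le_abs_self _⟩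
  have f0 : Ψ (pr x + (0 : ℝ) • bv 0) 0 = 0 := by
    rw [hb _ (seg_mem hz hx (by simp)) (seg_zero x 0), seg_zero]
  have a := hm.lt_iff_lt m0 m1
  have b := hm.lt_iff_lt m1 m0
  simp only [f0, pr_add_self] at a b
  exact ⟨a, b⟩

theorem loc_diffeo {Ψ : Ec n → Ec n} {z : Ec n} {r : ℝ} (hz : z 0 = 0) (hr : 0 < r)
    (hΨ : ContDiff ℝ ∞ Ψ) (hb : ∀ x ∈ ball z r, x 0 = 0 → Ψ x = x)
    (h0 : 0 < fderiv ℝ Ψ z (bv 0) 0) :
    ∃ r₀ > 0, r₀ ≤ r ∧ ∃ Φ : Ec n → Ec n, ContDiff ℝ ∞ Φ ∧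
      (∀ s ⊆ ball z r₀, IsOpen s → IsOpen (Ψ '' s)) ∧ ∀ x ∈ ball z r₀, Φ (Ψ x) = x ∧
        (jac Ψ x).det ≠ 0 ∧ (0 < Ψ x 0 ↔ 0 < x 0) ∧ (Ψ x 0 < 0 ↔ x 0 < 0) := by
  have hd : ∀ x, HasFDerivAt Ψ (fderiv ℝ Ψ x) x := fun x =>
    (hΨ.differentiable (by simp) x).hasFDerivAt
  have hE : ∀ x, ∀ k : (fderiv ℝ Ψ x).det ≠ 0, HasFDerivAt Ψ
      ((fderiv ℝ Ψ x).toContinuousLinearEquivOfDetNeZero k : Ec n →L[ℝ] Ec n) x := fun x k => by
    rw [ContinuousLinearMap.coe_toContinuousLinearEquivOfDetNeZero]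
    exact hd x
  have hz' := bnorb_ne hz hr hΨ hb h0
  obtain ⟨e, he, hs⟩ : ∃ e : OpenPartialHomeomorph (Ec n) (Ec n), (e : Ec n → Ec n) = Ψ ∧
      z ∈ e.source :=
    ⟨(hΨ.contDiffAt (x := z)).toOpenPartialHomeomorph Ψ (hE z hz') (by simp), rfl,
      ContDiffAt.mem_toOpenPartialHomeomorph_source _ _ _⟩
  have cf : Continuous (fderiv ℝ Ψ) := hΨ.continuous_fderiv (by simp)
  have c1 : Continuous fun x => (fderiv ℝ Ψ x).det := ContinuousLinearMap.continuous_det.comp cf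
  have c2 : Continuous fun x => fderiv ℝ Ψ x (bv 0) 0 :=
    cont_zero.comp (cf.clm_apply continuous_const)
  have n1 : ∀ᶠ x in 𝓝 z, x ∈ e.source ∧ (fderiv ℝ Ψ x).det ≠ 0 ∧ 0 < fderiv ℝ Ψ x (bv 0) 0 :=
    (show ∀ᶠ x in 𝓝 z, x ∈ e.source from e.open_source.mem_nhds hs).and
      ((c1.continuousAt.eventually_ne hz').and (continuousAt_const.eventually_lt c2.continuousAt h0))
  obtain ⟨r₁, hr₁, b₁⟩ := Metric.eventually_nhds_iff_ball.1 n1
  have op : ∀ s ⊆ ball z r₁, IsOpen s → IsOpen (Ψ '' s) := fun s h1 h2 => by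
    rw [← he]
    exact e.isOpen_image_of_subset_source h2 fun x hx => (b₁ x (h1 hx)).1
  have zz : Ψ z = z := hb z (mem_ball_self hr) hz
  obtain ⟨r₂, hr₂, b₂⟩ := Metric.isOpen_iff.1 (op _ Subset.rfl isOpen_ball) z
    ⟨z, mem_ball_self hr₁, zz⟩
  have sm : ContDiffOn ℝ ∞ e.symm (ball z r₂) := fun y hy => by
    obtain ⟨x, hx, rfl⟩ := b₂ hy
    have k := b₁ x hx
    have l : e.symm (Ψ x) = x := by
      rw [← he]
      exact e.left_inv k.1
    refine (e.contDiffAt_symm (f₀' := (fderiv ℝ Ψ x).toContinuousLinearEquivOfDetNeZero k.2.1)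
      ?_ ?_ ?_).contDiffWithinAt
    · rw [← he]
      exact e.map_source k.1
    · rw [l, he]
      exact hE x k.2.1
    · rw [l, he]
      exact hΨ.contDiffAt
  obtain ⟨Φ, hΦ, eΦ⟩ := glob_fun (half_lt_self hr₂) sm
  have n2 : ∀ᶠ x in 𝓝 z, Ψ x ∈ ball z (r₂ / 2) := by
    refine hΨ.continuous.continuousAt.preimage_mem_nhds ?_
    rw [zz]
    exact ball_mem_nhds z (half_pos hr₂)
  obtain ⟨r₃, hr₃, b₃⟩ := Metric.eventually_nhds_iff_ball.1 n2
  have s0 : ball z (min r (min r₁ r₃)) ⊆ ball z r := ball_subset_ball (min_le_left _ _)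
  have s1 : ball z (min r (min r₁ r₃)) ⊆ ball z r₁ :=
    ball_subset_ball ((min_le_right _ _).trans (min_le_left _ _))
  have s3 : ball z (min r (min r₁ r₃)) ⊆ ball z r₃ :=
    ball_subset_ball ((min_le_right _ _).trans (min_le_right _ _))
  refine ⟨min r (min r₁ r₃), lt_min hr (lt_min hr₁ hr₃), min_le_left _ _, Φ, hΦ,
    fun s h1 h2 => op s (h1.trans s1) h2, fun x hx => ⟨?_, ?_, ?_⟩⟩
  · rw [eΦ _ (b₃ x (s3 hx)), ← he]
    exact e.left_inv (b₁ x (s1 hx)).1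
  · rw [bnorb_det]
    exact (b₁ x (s1 hx)).2.1
  · exact bnorb_sign hz hΨ (fun y hy => hb y (s0 hy)) (fun y hy => (b₁ y (s1 hy)).2.2) hx

end Vale.Agent.P088.B
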