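import Vale.Agent.P088F.BExt0
import Vale.Agent.P234.Flow

/-! P088, part B: the radial gauge.

Take the flow `φ` (`P234.exists_smooth_flow`) of `(y, X) ↦ (bv 0, -(b y * X))` on `Ec n × Op N` near `(z, 1)`, and put
`U x = (φ (x 0, (pr x, 1))).2`; the first component of the flow is `y + t • bv 0` (model: `aode_flow` in
`Vale/Agent/P292/AOde.lean`). The derivative of `U` at `x` in direction `bv 0` is the derivative of
`s ↦ U (x + s • bv 0)` (`pr_add`). `star U * U` has derivative zero along normals, so it is `1`; in finite dimension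
a left inverse is a right inverse (injective implies surjective). Make `U` global with `glob_fun`. -/

open MeasureTheory Set Metric Matrix Filter Topology Asymptotics
open scoped ContDiff

noncomputable section

namespace Vale.Agent.P088.B

variable {n N : ℕ} [NeZero n]

theorem bnorc_eq {V : Type} [NormedAddCommGroup V] [NormedSpace ℝ V] {f g f' : ℝ → V} {δ : ℝ}
    (hf : ∀ t ∈ ball (0 : ℝ) δ, HasDerivAt f (f' t) t)
    (hg : ∀ t ∈ ball (0 : ℝ) δ, HasDerivAt g (f' t) t) (h0 : f 0 = g 0) {t : ℝ}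
    (ht : t ∈ ball (0 : ℝ) δ) : f t = g t :=
  isOpen_ball.eqOn_of_deriv_eq (convex_ball 0 δ).isPreconnected
    (fun s hs => (hf s hs).differentiableAt.differentiableWithinAt)
    (fun s hs => (hg s hs).differentiableAt.differentiableWithinAt)
    (fun s hs => (hf s hs).deriv.trans (hg s hs).deriv.symm)
    (mem_ball_self (pos_of_mem_ball ht)) h0 ht

theorem bnorc_ring {R : Type} [Ring R] (a b c : R) : -(a * -b) * c + a * -(b * c) = 0 := by
  noncomm_ring

theorem bnorc_uni {X : Op N} (h : star X * X = 1) : X ∈ unitary (Op N) := by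
  haveI : IsArtinianRing (Op N) := IsArtinianRing.of_finite ℂ (Op N)
  exact ⟨h, mul_eq_one_symm h⟩

theorem bnorc_flow {b : Ec n → Op N} (hb : ContDiff ℝ ∞ b) (z : Ec n) :
    ∃ (δ : ℝ) (Q : ℝ × Ec n → Op N), 0 < δ ∧ ContDiffOn ℝ ∞ Q (ball 0 δ ×ˢ ball z δ) ∧
      ∀ y ∈ ball z δ, Q (0, y) = 1 ∧ ∀ t ∈ ball (0 : ℝ) δ,
        HasDerivAt (fun s => Q (s, y)) (-(b (y + t • bv 0) * Q (t, y))) t := by
  have hW : ContDiff ℝ ∞ fun w : Ec n × Op N => ((bv 0, -(b w.1 * w.2)) : Ec n × Op N) :=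
    contDiff_const.prodMk ((hb.comp contDiff_fst).mul contDiff_snd).neg
  obtain ⟨φ, δ, hδ, h1, h2, h3⟩ := P234.exists_smooth_flow hW (z, 1)
  have hm : ∀ y ∈ ball z δ, (y, (1 : Op N)) ∈ ball (z, (1 : Op N)) δ := fun y hy => by
    rw [← ball_prod_same]
    exact ⟨hy, mem_ball_self hδ⟩
  refine ⟨δ, fun p => (φ (p.1, p.2, 1)).2, hδ, ?_, fun y hy => ⟨?_, fun t ht => ?_⟩⟩
  · exact (h1.comp (f := fun p : ℝ × Ec n => (p.1, p.2, (1 : Op N))) (by fun_prop)
      fun p hp => ⟨hp.1, hm _ hp.2⟩).snd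
  · show (φ (0, y, 1)).2 = _
    rw [h2 _ (hm y hy)]
  · have d := h3 _ (hm y hy)
    have e1 : (φ (t, y, 1)).1 = y + t • bv 0 :=
      bnorc_eq (f' := fun _ => bv 0) (g := fun s => y + s • bv 0) (fun s hs => (d s hs).fst)
        (fun s _ => by
          have d1 := ((hasDerivAt_id s).smul_const (bv 0 : Ec n)).const_add y
          rw [one_smul] at d1
          exact d1)
        (by rw [h2 _ (hm y hy), zero_smul, add_zero]) ht
    have d2 := (d t ht).snd
    rw [e1] at d2
    exact d2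

theorem radial {b : Ec n → Op N} (hb : ContDiff ℝ ∞ b) (hs : ∀ x, star (b x) = -b x) {z : Ec n}
    (hz : z 0 = 0) : ∃ r > 0, ∃ U : Ec n → Op N, ContDiff ℝ ∞ U ∧
      ∀ x ∈ ball z r, U x ∈ unitary (Op N) ∧ (x 0 = 0 → U x = 1) ∧ pd 0 U x = -(b x * U x) := by
  obtain ⟨δ, Q, hδ, h1, h2⟩ := bnorc_flow hb z
  have h0 : ∀ x ∈ ball z δ, x 0 ∈ ball (0 : ℝ) δ := fun x hx => by
    rw [← hz]
    exact (PiLp.dist_apply_le x z 0).trans_lt hx
  have h3 : ContDiffOn ℝ ∞ (fun x : Ec n => Q (x 0, pr x)) (ball z δ) :=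
    h1.comp (smooth_zero.prodMk pr_smooth).contDiffOn fun x hx => ⟨h0 x hx, pr_mem hz hx⟩
  obtain ⟨U, hU, e⟩ := glob_fun (half_lt_self hδ) h3
  refine ⟨δ / 2, half_pos hδ, U, hU, fun x hx => ?_⟩
  have hx' := ball_subset_ball (half_le_self hδ.le) hx
  obtain ⟨k0, k⟩ := h2 _ (pr_mem hz hx')
  refine ⟨bnorc_uni ?_, fun h => by rw [e x hx, h, k0], ?_⟩
  · rw [e x hx]
    refine bnorc_eq (f := fun s => star (Q (s, pr x)) * Q (s, pr x)) (g := fun _ => 1)
      (f' := fun _ => 0) (fun s h => ?_) (fun s _ => hasDerivAt_const s _)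
      (by rw [k0, star_one, one_mul]) (h0 x hx')
    have d := (k s h).star.mul (k s h)
    rw [star_neg, star_mul, hs] at d
    exact d.congr_deriv (bnorc_ring _ _ _)
  · have l : HasDerivAt (fun s : ℝ => x + s • (bv 0 : Ec n)) (bv 0) 0 := by
      have d1 := ((hasDerivAt_id (0 : ℝ)).smul_const (bv 0 : Ec n)).const_add x
      rw [one_smul] at d1
      exact d1
    have d1 : HasDerivAt (fun s : ℝ => U (x + s • bv 0)) (pd 0 U x) 0 :=
      HasFDerivAt.comp_hasDerivAt_of_eq 0 (hU.differentiable (by simp) x).hasFDerivAt l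
        (by rw [zero_smul, add_zero])
    have d2 : HasDerivAt (fun s : ℝ => Q (x 0 + s, pr x)) (-(b x * U x)) 0 := by
      have d := k _ (h0 x hx')
      rw [pr_add_self, ← e x hx] at d
      exact HasDerivAt.comp_const_add (x 0) 0 (f := fun s => Q (s, pr x)) (by rwa [add_zero])
    refine d1.unique (d2.congr_of_eventuallyEq ?_)
    have m : ∀ᶠ s : ℝ in 𝓝 0, x + s • (bv 0 : Ec n) ∈ ball z (δ / 2) :=
      l.continuousAt.eventually (isOpen_ball.mem_nhds (by simpa using hx))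
    filter_upwards [m] with s hs
    rw [e _ hs, pr_add]
    simp [bv]

end Vale.Agent.P088.B
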