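import Vale.Agent.P088.Stmt

/-! P088: rewriting rules for the adjoint on `Op N`. -/

open scoped ContDiff

namespace Vale.Agent.P088.B

variable {N : ℕ}

theorem st_smul (c : ℝ) (a : Op N) : star (c • a) = c • star a :=
  (starL' ℝ (A := Op N)).map_smul c a

theorem st_add (a b : Op N) : star (a + b) = star a + star b := star_add a b

theorem st_sub (a b : Op N) : star (a - b) = star a - star b := star_sub a b

theorem st_mul (a b : Op N) : star (a * b) = star b * star a := star_mul a b

theorem st_neg (a : Op N) : star (-a) = -star a := star_neg a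

theorem st_sum {ι : Type} (s : Finset ι) (a : ι → Op N) :
    star (∑ k ∈ s, a k) = ∑ k ∈ s, star (a k) := star_sum s a

theorem sm_neg (c : ℝ) (a : Op N) : c • (-a) = -(c • a) := smul_neg c a

theorem st_smooth {E : Type} [NormedAddCommGroup E] [NormedSpace ℝ E] {U : E → Op N}
    (h : ContDiff ℝ ∞ U) : ContDiff ℝ ∞ fun x => star (U x) :=
  (starL' ℝ (A := Op N)).contDiff.comp h

theorem st_skew (a : Op N) :
    star ((1 / 2 : ℝ) • (a - star a)) = -((1 / 2 : ℝ) • (a - star a)) := by
  rw [st_smul, st_sub, star_star, ← sm_neg, neg_sub]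

theorem st_comb {m : ℕ} (c : Fin m → ℝ) {x : Fin m → Op N} (h : ∀ k, star (x k) = -x k) :
    star (∑ k, c k • x k) = -∑ k, c k • x k := by
  simp only [st_sum, st_smul, h, sm_neg, Finset.sum_neg_distrib]

theorem st_ring {R : Type} [Ring R] {U B P U' P' : R} (e : P' * U + U' * P = 0) :
    U' * (-B * U) + P' * U = -(U' * B * U + U' * P) := by
  rw [eq_neg_of_add_eq_zero_left e]
  noncomm_ring

theorem st_gauge {U B P : Op N} (hB : star B = -B) (e : star P * U + star U * P = 0) :
    star (star U * B * U + star U * P) = -(star U * B * U + star U * P) := by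
  rw [st_add, st_mul, st_mul, st_mul, star_star, hB]
  exact st_ring e

end Vale.Agent.P088.B
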