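import Vale.Agent.P088F.BNorA
import Vale.Agent.P088F.BNorB
import Vale.Agent.P088F.BNorC
import Vale.Agent.P088F.BSt

/-! P088, part B: boundary normal coordinates and radial gauge. -/

open MeasureTheory Set Metric Matrix Filter Topology
open scoped ContDiff

noncomputable section

namespace Vale.Agent.P088.B

variable {n N : ℕ} [NeZero n] {W : Type} [NormedAddCommGroup W] [NormedSpace ℝ W]

theorem bnor_zero {R : Type} [Ring R] (a b c : R) : a * b * c + a * -(b * c) = 0 := by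
  noncomm_ring

section

omit [NeZero n]

variable {D : Co n N} {Ψ : Ec n → Ec n} {U : Ec n → Op N}

theorem bnor_jac (sΨ : ContDiff ℝ ∞ Ψ) (k j : Fin n) : ContDiff ℝ ∞ fun x => jac Ψ x k j :=
  (EuclideanSpace.proj k : Ec n →L[ℝ] ℝ).contDiff.comp
    ((sΨ.fderiv_right (m := ∞) le_rfl).clm_apply contDiff_const)

theorem bnor_sB (hD : D.Good) (sΨ : ContDiff ℝ ∞ Ψ) (j : Fin n) :
    ContDiff ℝ ∞ fun x => ∑ k, jac Ψ x k j • D.C (Ψ x) k :=
  ContDiff.sum fun k _ => (bnor_jac sΨ k j).smul ((hD.sC k).comp sΨ)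

theorem bnor_sG (hD : D.Good) (sΨ : ContDiff ℝ ∞ Ψ) (j k : Fin n) :
    ContDiff ℝ ∞ fun x => (D.pb Ψ U).G x j k := by
  simp only [Co.pb, mul_apply, transpose_apply]
  exact ContDiff.sum fun a _ => (ContDiff.sum fun b _ =>
    (bnor_jac sΨ b j).mul ((hD.sG b a).comp sΨ)).mul (bnor_jac sΨ a k)

theorem bnor_sC (hD : D.Good) (sΨ : ContDiff ℝ ∞ Ψ) (sU : ContDiff ℝ ∞ U) (j : Fin n) :
    ContDiff ℝ ∞ fun x => (D.pb Ψ U).C x j := by
  have sS : ContDiff ℝ ∞ fun x => star (U x) := st_smooth sU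
  have sP : ContDiff ℝ ∞ (pd j U) := (sU.fderiv_right (m := ∞) le_rfl).clm_apply contDiff_const
  exact ((sS.mul (bnor_sB hD sΨ j)).mul sU).add (sS.mul sP)

theorem bnor_pos (hD : D.Good) {x : Ec n} (h : (jac Ψ x).det ≠ 0) : ((D.pb Ψ U).G x).PosDef := by
  have a := (hD.pos (Ψ x)).conjTranspose_mul_mul_same
    (mulVec_injective_iff_isUnit.2 ((isUnit_iff_isUnit_det _).2 h.isUnit))
  rwa [conjTranspose_eq_transpose_of_trivial] at a

theorem bnor_skew (hD : D.Good) (sU : ContDiff ℝ ∞ U) {z x : Ec n} {r : ℝ}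
    (h : ∀ x ∈ ball z r, U x ∈ unitary (Op N)) (hx : x ∈ ball z r) (j : Fin n) :
    star ((D.pb Ψ U).C x j) = -(D.pb Ψ U).C x j := by
  have a := nora_ld (sU.differentiable (by simp) x) (bv j)
  have e := (a.star.mul a).unique ((hasDerivAt_const (0 : ℝ) (1 : Op N)).congr_of_eventuallyEq
    ((nora_ev hx (bv j)).mono fun t ht => (h _ ht).1))
  simp only [zero_smul, add_zero] at e
  exact st_gauge (st_comb _ (hD.skew _)) e

end

theorem normal {D : Co n N} (hD : D.Good) {z : Ec n} (hz : z 0 = 0) {R : ℝ} (hR : 0 < R) :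
    ∃ r > 0, ∃ (Ψ Φ : Ec n → Ec n) (U : Ec n → Op N) (D' : Co n N), Chg z r Ψ Φ U ∧
      MapsTo Ψ (ball z r) (ball z R) ∧ D'.Nf ∧ ∀ x ∈ ball z r, D'.Eq (D.pb Ψ U) x := by
  obtain ⟨r₁, h₁, Ψ, sΨ, b1, b2, b3⟩ := normal_map hD hz
  obtain ⟨r₂, h₂, l₂, Φ, sΦ, c1, c2⟩ := loc_diffeo hz h₁ sΨ b1 b2
  obtain ⟨r₃, h₃, U, sU, d1⟩ := radial (bnor_sB hD sΨ 0) (fun x => st_comb _ (hD.skew _)) hz
  obtain ⟨r₄, h₄, e1⟩ := Metric.eventually_nhds_iff_ball.1 (sΨ.continuous.continuousAt.eventually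
    (isOpen_ball.mem_nhds (show Ψ z ∈ ball z R by
      rw [b1 z (mem_ball_self h₁) hz]; exact mem_ball_self hR)))
  obtain ⟨ρ, hρ, s2, s3, s4⟩ : ∃ ρ > 0, ball z ρ ⊆ ball z r₂ ∧ ball z ρ ⊆ ball z r₃ ∧
      ball z ρ ⊆ ball z r₄ := ⟨min r₂ (min r₃ r₄), lt_min h₂ (lt_min h₃ h₄),
    ball_subset_ball (min_le_left _ _), ball_subset_ball ((min_le_right _ _).trans (min_le_left _ _)),
    ball_subset_ball ((min_le_right _ _).trans (min_le_right _ _))⟩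
  have s1 := s2.trans (ball_subset_ball l₂)
  have s0 : ball z (ρ / 2) ⊆ ball z ρ := ball_subset_ball (half_le_self hρ.le)
  obtain ⟨D', -, f1, f2⟩ := glob_co (D := D.pb Ψ U) (half_lt_self hρ)
    (fun j k => (bnor_sG hD sΨ j k).contDiffOn) (fun j => (bnor_sC hD sΨ sU j).contDiffOn)
    (fun x hx => bnor_pos hD (c2 x (s2 hx)).2.1)
    fun x hx j => bnor_skew hD sU (fun y hy => (d1 y (s3 hy)).1) hx j
  refine ⟨ρ / 2, half_pos hρ, Ψ, Φ, U, D', ⟨sΨ, sΦ, sU, fun x hx => (c2 x (s2 (s0 hx))).1,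
    fun s hs => c1 s (hs.trans (s0.trans s2)), fun x hx => (c2 x (s2 (s0 hx))).2.1,
    fun x hx h0 => ⟨b1 x (s1 (s0 hx)) h0, (d1 x (s3 (s0 hx))).2.1 h0⟩,
    fun x hx => (c2 x (s2 (s0 hx))).2.2.1, fun x hx => (c2 x (s2 (s0 hx))).2.2.2,
    fun x hx => (d1 x (s3 (s0 hx))).1⟩, fun x hx => e1 x (s4 (s0 hx)),
    f2 fun x hx => ⟨b3 x (s1 hx), ?_⟩, f1⟩
  simp only [Co.pb, (d1 x (s3 hx)).2.2]
  exact bnor_zero _ _ _

end Vale.Agent.P088.B
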