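import Vale.Agent.P088F.BFlat
import Vale.Agent.P088F.BChg
import Vale.Agent.P088F.BNor

/-! P088, part B: boundary determination in coordinates. -/

open MeasureTheory Set Metric Matrix Filter Topology
open scoped ContDiff

noncomputable section

namespace Vale.Agent.P088.B

variable {n N : ℕ} [NeZero n] {W : Type} [NormedAddCommGroup W] [NormedSpace ℝ W]

theorem glue_co {D₁ D₂ : Co n N} (h₁ : D₁.Good) (h₂ : D₂.Good) {z : Ec n} {r r' : ℝ}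
    (hr : r' < r) (h : Flat D₁ D₂ (ball z r)) :
    ∃ D : Co n N, D.Good ∧ (∀ x ∈ ball z r', 0 ≤ x 0 → D.Eq D₂ x) ∧
      ∀ x ∈ ball z r', x 0 < 0 → D.Eq D₁ x := by
  obtain ⟨D, h1, h2, -⟩ := glob_co (D := ⟨fun x => if 0 ≤ x 0 then D₂.G x else D₁.G x,
    fun x => if 0 ≤ x 0 then D₂.C x else D₁.C x⟩) hr
    (fun j k => ((h₁.sG j k).contDiffOn.sub (glue_dv fun m => (h m).1 j k)).congr fun x _ => by
      by_cases h0 : 0 ≤ x 0 <;> simp [h0])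
    (fun j => ((h₁.sC j).contDiffOn.sub (glue_dv fun m => (h m).2 j)).congr fun x _ => by
      by_cases h0 : 0 ≤ x 0 <;> simp [h0])
    (fun x _ => by
      by_cases h0 : 0 ≤ x 0
      · simpa only [if_pos h0] using h₂.pos x
      · simpa only [if_neg h0] using h₁.pos x)
    fun x _ j => by
      by_cases h0 : 0 ≤ x 0
      · simpa only [if_pos h0] using h₂.skew x j
      · simpa only [if_neg h0] using h₁.skew x j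
  exact ⟨D, h1, fun x hx h0 => ⟨(h2 x hx).1.trans (if_pos h0), (h2 x hx).2.trans (if_pos h0)⟩,
    fun x hx h0 => ⟨(h2 x hx).1.trans (if_neg h0.not_ge), (h2 x hx).2.trans (if_neg h0.not_ge)⟩⟩

theorem bdry_nf (hn : 3 ≤ n) (hN : 0 < N) {D₁ D₂ : Co n N} (h₁ : D₁.Good) (h₂ : D₂.Good)
    {z : Ec n} (hz : z 0 = 0) {R : ℝ} (hR : 0 < R) (hE : DNE D₁ D₂ (ball z R)) :
    ∃ r > 0, ∃ (Ψ₁ Φ₁ Ψ₂ Φ₂ : Ec n → Ec n) (U₁ U₂ : Ec n → Op N) (E₁ E₂ : Co n N),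
      Chg z r Ψ₁ Φ₁ U₁ ∧ Chg z r Ψ₂ Φ₂ U₂ ∧ MapsTo Ψ₁ (ball z r) (ball z R) ∧
      MapsTo Ψ₂ (ball z r) (ball z R) ∧ E₁.Good ∧ E₂.Good ∧
      (∀ x ∈ ball z r, 0 ≤ x 0 → E₁.Eq (D₁.pb Ψ₁ U₁) x) ∧
      (∀ x ∈ ball z r, 0 ≤ x 0 → E₂.Eq (D₂.pb Ψ₂ U₂) x) ∧
      ∀ x ∈ ball z r, x 0 < 0 → E₂.Eq E₁ x := by
  obtain ⟨r₁, hr₁, Ψ₁, Φ₁, U₁, E₁, c₁, m₁, n₁, e₁⟩ := normal h₁ hz hR
  obtain ⟨r₂, hr₂, Ψ₂, Φ₂, U₂, E₂, c₂, m₂, n₂, e₂⟩ := normal h₂ hz hR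
  have hm : 0 < min r₁ r₂ := lt_min hr₁ hr₂
  have b₁ : ball z (min r₁ r₂) ⊆ ball z r₁ := ball_subset_ball (min_le_left _ _)
  have b₂ : ball z (min r₁ r₂) ⊆ ball z r₂ := ball_subset_ball (min_le_right _ _)
  have hF := flat_nf hn hN n₁ n₂ hz (dne_pb h₁ h₂ (c₁.mono (min_le_left r₁ r₂))
    (c₂.mono (min_le_right r₁ r₂)) (m₁.mono_left b₁) (m₂.mono_left b₂)
    (fun x hx => e₁ x (b₁ hx)) (fun x hx => e₂ x (b₂ hx)) hE)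
  have hl : min r₁ r₂ / 2 < min r₁ r₂ := half_lt_self hm
  obtain ⟨E, hG, a, b⟩ := glue_co n₁.toGood n₂.toGood hl hF
  have b₀ : ball z (min r₁ r₂ / 2) ⊆ ball z (min r₁ r₂) := ball_subset_ball hl.le
  refine ⟨_, half_pos hm, Ψ₁, Φ₁, Ψ₂, Φ₂, U₁, U₂, E₁, E, c₁.mono (hl.le.trans (min_le_left _ _)),
    c₂.mono (hl.le.trans (min_le_right _ _)), m₁.mono_left (b₀.trans b₁),
    m₂.mono_left (b₀.trans b₂), n₁.toGood, hG, fun x hx _ => e₁ x (b₁ (b₀ hx)),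
    fun x hx h0 => ?_, b⟩
  have h := e₂ x (b₂ (b₀ hx))
  exact ⟨(a x hx h0).1.trans h.1, (a x hx h0).2.trans h.2⟩

end Vale.Agent.P088.B
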