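import Vale.Agent.P088F.BSy
import Vale.Agent.P088F.BCo

/-! P088, part B: conjugation by the exponential. -/

open MeasureTheory Set Metric Matrix Filter Topology
open scoped ContDiff

noncomputable section

namespace Vale.Agent.P088.B

variable {n N : ℕ} [NeZero n] {W : Type} [NormedAddCommGroup W] [NormedSpace ℝ W]

variable {K : Set (Ec n)} {m : ℤ} {μ : Ec n → ℝ} {ξ : Ec n} {D : Co n N} {l : ℝ}

omit [NeZero n] in
theorem BEx_lin (ξ : Ec n) : ContDiff ℝ ∞ fun y : Ec n => ∑ i, ξ i * y i :=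
  ContDiff.sum fun i _ => contDiff_const.mul (coord_smooth i)

theorem ph_smooth (ξ : Ec n) (hμ : ContDiff ℝ ∞ μ) : ContDiff ℝ ∞ (ph ξ μ) := by
  exact (contDiff_const.mul (Complex.ofRealCLM.contDiff.comp (BEx_lin ξ))).sub
    (Complex.ofRealCLM.contDiff.comp (hμ.mul (coord_smooth 0)))

theorem ex_smooth (ξ : Ec n) (hμ : ContDiff ℝ ∞ μ) (l : ℝ) : ContDiff ℝ ∞ (ex ξ μ l) := by
  exact (contDiff_const.mul (ph_smooth ξ hμ)).cexp

theorem ph0_smooth (ξ : Ec n) (hμ : ContDiff ℝ ∞ μ) (j : Fin n) : ContDiff ℝ ∞ (ph0 ξ μ j) := by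
  refine contDiff_const.sub ?_
  split_ifs
  exacts [Complex.ofRealCLM.contDiff.comp hμ, contDiff_const]

theorem pd_ph (ξ : Ec n) (hμ : ContDiff ℝ ∞ μ) (j : Fin n) (x : Ec n) :
    pd j (ph ξ μ) x = ph0 ξ μ j x - ((x 0 * pd j μ x : ℝ) : ℂ) := by
  have s1 := BEx_lin ξ
  have s2 := hμ.mul (coord_smooth 0)
  let L : ℝ →L[ℝ] ℂ := Complex.I • Complex.ofRealCLM
  have e1 : pd j (fun y : Ec n => ∑ i, ξ i * y i) x = ξ j := by
    rw [pd_sum _ fun i _ => sm_df (contDiff_const.mul (coord_smooth i)) x]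
    simp only [fun i => pd_mul (j := j) (differentiableAt_const (ξ i)) (sm_df (coord_smooth i) x),
      pd_const, pd_coord]
    simp
  have e2 := pd_mul (j := j) (sm_df hμ x) (sm_df (coord_smooth 0) x)
  refine (pd_sub (sm_df (L.contDiff.comp s1) x)
    (sm_df (Complex.ofRealCLM.contDiff.comp s2) x)).trans ?_
  refine (congrArg₂ (· - ·) ((pd_clm L (sm_df s1 x)).trans (congrArg L e1))
    ((pd_clm Complex.ofRealCLM (sm_df s2 x)).trans (congrArg _ e2))).trans ?_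
  rw [pd_coord, ph0]
  split_ifs <;> simp [L] <;> ring

theorem norm_ex (ξ : Ec n) (μ : Ec n → ℝ) (l : ℝ) (x : Ec n) :
    ‖ex ξ μ l x‖ = Real.exp (-(l * μ x * x 0)) := by
  rw [ex, Complex.norm_exp, Complex.re_ofReal_mul, ph, Complex.sub_re, Complex.I_mul_re,
    Complex.ofReal_im, Complex.ofReal_re]
  exact congrArg _ (by ring)

theorem ex_bd (ξ : Ec n) (μ μ' : Ec n → ℝ) (l : ℝ) {x : Ec n} (hx : x 0 = 0) :
    ex ξ μ l x = ex ξ μ' l x := by
  simp only [ex, ph, hx, mul_zero]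

theorem dl_smooth (hD : D.Good) (hμ : ContDiff ℝ ∞ μ) {a : Ec n → Fb N} (ha : ContDiff ℝ ∞ a)
    (j : Fin n) : ContDiff ℝ ∞ (D.dl ξ μ l j a) := by
  exact ((contDiff_const.mul (pd_smooth (ph_smooth ξ hμ) j)).smul ha).add (hD.cd_smooth ha j)

theorem BEx_in (hD : D.Good) (hμ : ContDiff ℝ ∞ μ) {a : Ec n → Fb N} (ha : ContDiff ℝ ∞ a)
    (j : Fin n) : ContDiff ℝ ∞ fun y => ∑ k, D.sg y j k • D.dl ξ μ l k a y :=
  ContDiff.sum fun k _ => (hD.sg_smooth j k).smul (dl_smooth hD hμ ha k)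

theorem dl_add {a b : Ec n → Fb N} (ha : ContDiff ℝ ∞ a) (hb : ContDiff ℝ ∞ b) (j : Fin n)
    (x : Ec n) : D.dl ξ μ l j (fun y => a y + b y) x = D.dl ξ μ l j a x + D.dl ξ μ l j b x := by
  simp only [Co.dl, Co.cd, pd_add (sm_df ha x) (sm_df hb x), smul_add, map_add]
  abel

theorem pl_add (hD : D.Good) (hμ : ContDiff ℝ ∞ μ) {a b : Ec n → Fb N} (ha : ContDiff ℝ ∞ a)
    (hb : ContDiff ℝ ∞ b) (x : Ec n) :
    D.pl ξ μ l (fun y => a y + b y) x = D.pl ξ μ l a x + D.pl ξ μ l b x := by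
  simp only [Co.pl, ← Finset.sum_add_distrib]
  refine Finset.sum_congr rfl fun j _ => ?_
  rw [← dl_add (BEx_in hD hμ ha j) (BEx_in hD hμ hb j)]
  simp only [dl_add ha hb, smul_add, Finset.sum_add_distrib]

theorem cd_ex (hμ : ContDiff ℝ ∞ μ) {a : Ec n → Fb N} (ha : ContDiff ℝ ∞ a) (j : Fin n)
    (x : Ec n) : D.cd j (fun y => ex ξ μ l y • a y) x = ex ξ μ l x • D.dl ξ μ l j a x := by
  have e : pd j (ex ξ μ l) x = ex ξ μ l x * (l * pd j (ph ξ μ) x) := by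
    have h := (((sm_df (ph_smooth ξ hμ) x).hasFDerivAt.const_mul (l : ℂ)).cexp).fderiv
    rw [pd, show ex ξ μ l = fun y => Complex.exp (l * ph ξ μ y) from rfl, h]
    rfl
  rw [Co.cd, pd_csmul (sm_df (ex_smooth ξ hμ l) x) (sm_df ha x), e, Co.dl, Co.cd, map_smul,
    mul_smul, smul_add, smul_add, add_assoc]

theorem op_ex (hD : D.Good) (hμ : ContDiff ℝ ∞ μ) {a : Ec n → Fb N} (ha : ContDiff ℝ ∞ a)
    (x : Ec n) : D.op (fun y => ex ξ μ l y • a y) x = ex ξ μ l x • D.pl ξ μ l a x := by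
  rw [Co.op, Co.pl, Finset.smul_sum]
  refine Finset.sum_congr rfl fun j _ => ?_
  rw [← cd_ex hμ (BEx_in hD hμ ha j)]
  simp only [cd_ex hμ ha, Finset.smul_sum, smul_comm (ex ξ μ l _)]

theorem en_ex (hμ : ContDiff ℝ ∞ μ) {a : Ec n → Fb N} (ha : ContDiff ℝ ∞ a) (x : Ec n) :
    (D.en (fun y => ex ξ μ l y • a y) (fun y => ex ξ μ l y • a y) x).re =
      Real.exp (-(l * (2 * μ x) * x 0)) *
        ∑ j, ∑ k, D.sg x j k * (inner ℂ (D.dl ξ μ l j a x) (D.dl ξ μ l k a x)).re := by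
  have e : (starRingEnd ℂ) (ex ξ μ l x) * ex ξ μ l x =
      (Real.exp (-(l * (2 * μ x) * x 0)) : ℝ) := by
    rw [Complex.conj_mul', norm_ex, ← Complex.ofReal_pow, sq, ← Real.exp_add]
    exact congrArg _ (congrArg _ (by ring))
  simp only [Co.en, cd_ex hμ ha, Complex.re_sum, Complex.real_smul, Finset.mul_sum]
  refine Finset.sum_congr rfl fun j _ => Finset.sum_congr rfl fun k _ => ?_
  rw [inner_smul_left, inner_smul_right, ← mul_assoc (starRingEnd ℂ _), e, Complex.re_ofReal_mul,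
    Complex.re_ofReal_mul, mul_left_comm]

/-- The conjugated derivative up to terms of the same order as the amplitude. -/
theorem Sy.dl0 (hD : D.Good) (hμ : ContDiff ℝ ∞ μ) {a : ℝ → Ec n → Fb N} (ha : Sy K m a)
    (j : Fin n) :
    Sy K m fun l x => D.dl ξ μ l j (a l) x - l • ph0 ξ μ j x • a l x - B.pd j (a l) x := by
  refine ((((((ha.smul (pd_smooth hμ j)).lam.tpow 1).neg).mono (by simp)).add
    (ha.op (hD.sC j))).congr fun l _ x => ?_)
  rw [Co.dl, Co.cd, pd_ph ξ hμ, mul_sub, sub_smul, mul_smul, mul_smul, pow_one,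
    Complex.coe_smul, Complex.coe_smul, Complex.coe_smul, mul_smul, smul_comm l (x 0)]
  abel

theorem Sy.dl (hK : IsClosed K) (hD : D.Good) (hμ : ContDiff ℝ ∞ μ) {a : ℝ → Ec n → Fb N}
    (ha : Sy K m a) (j : Fin n) : Sy K (m + 1) fun l => D.dl ξ μ l j (a l) := by
  refine ((((ha.dl0 (ξ := ξ) hD hμ j).mono (by simp)).add (ha.csmul (ph0_smooth ξ hμ j)).lam).add
    (ha.pd hK j)).congr fun l _ x => ?_
  abel

/-- Leading term of the conjugated derivative of `β v + a`. -/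
theorem Sy.dl_lead (hK : IsClosed K) (hD : D.Good) (hμ : ContDiff ℝ ∞ μ) {β : Ec n → ℝ}
    (hβ : ContDiff ℝ ∞ β) (hβK : ∀ x ∉ K, β x = 0) (v : Fb N) {a : ℝ → Ec n → Fb N}
    (ha : Sy K (-1) a) (j : Fin n) :
    Sy K 0 fun l x => D.dl ξ μ l j (fun y => β y • v + a l y) x - l • ph0 ξ μ j x • β x • v := by
  have s : ContDiff ℝ ∞ fun y => β y • v := hβ.smul contDiff_const
  have o : ∀ x ∉ K, β x • v = 0 := fun x hx => by rw [hβK x hx, zero_smul]
  refine ((((Sy.of s o).dl0 (ξ := ξ) hD hμ j).add (Sy.of (pd_smooth s j) (pd_off hK o j))).add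
    ((ha.dl (ξ := ξ) hK hD hμ j).mono (by simp))).congr fun l hl x => ?_
  rw [dl_add s (ha.smooth hl)]
  abel

end Vale.Agent.P088.B
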