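import Vale.Agent.P088F.BExt0

/-! P088, part B: Taylor expansion in the normal variable.

`taylor_bd`: induction on `k` over all `h` and `y`. Along `t ↦ pr y + t • bv 0`, `t ∈ Icc 0 (y 0)`, the remainder of
order `k + 1` of `h` vanishes at `t = 0` and has as derivative (within) the remainder of order `k` of `nd 1 h` at
the point `pr y + t • bv 0` (same `pr`, by `pr_add`); use `norm_image_sub_le_of_norm_deriv_le_segment`.
`taylor`: the compact set `closedBall x 1 ∩ Hc n` is stable under these segments (`seg_dist`). -/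

open MeasureTheory Set Metric Matrix Filter Topology Asymptotics
open scoped ContDiff

noncomputable section

namespace Vale.Agent.P088.B

variable {n : ℕ} [NeZero n] {W : Type} [NormedAddCommGroup W] [NormedSpace ℝ W] {h : Ec n → W}

theorem nd_smooth (hs : ContDiffOn ℝ ∞ h (Hc n)) (k : ℕ) : ContDiffOn ℝ ∞ (nd k h) (Hc n) := by
  induction k generalizing h with
  | zero => exact hs
  | succ k ih =>
    exact ih ((hs.fderivWithin uniqueDiffOn_Hc (m := ∞) (by simp)).clm_apply contDiffOn_const)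

theorem nd_zero {K : Set (Ec n)} (hK : IsClosed K) (h0 : ∀ x ∉ K, h x = 0) (k : ℕ) :
    ∀ x ∉ K, nd k h x = 0 := by
  induction k generalizing h with
  | zero => exact h0
  | succ k ih =>
    refine ih fun x hx => ?_
    have e : h =ᶠ[𝓝 x] fun _ => 0 := eventually_of_mem (hK.isOpen_compl.mem_nhds hx) h0
    rw [e.fderivWithin_eq_of_nhds]
    simp

theorem bextb_seg {p : Ec n} (hp : p 0 = 0) {T C : ℝ} (k : ℕ) : ∀ {h : Ec n → W},
    ContDiffOn ℝ ∞ h (Hc n) → (∀ t ∈ Icc 0 T, ‖nd k h (p + t • bv 0)‖ ≤ C) → ∀ s ∈ Icc 0 T,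
      ‖h (p + s • bv 0) - ∑ j ∈ Finset.range k, (s ^ j / (j.factorial : ℝ)) • nd j h p‖ ≤
        C * s ^ k := by
  induction k with
  | zero => exact fun _ hC s hs => by simpa [nd] using hC s hs
  | succ k ih =>
    intro h hh hC s hs
    have h1 := ih (nd_smooth hh 1) hC
    have C0 : 0 ≤ C := (norm_nonneg _).trans (hC s hs)
    have hm : ∀ t ∈ Icc 0 s, p + t • bv 0 ∈ Hc n := fun t ht => by
      simpa [Hc, hp, bv_zero] using ht.1
    have h2 := norm_image_sub_le_of_norm_deriv_le_segment' (a := 0) (b := s) (C := C * s ^ k)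
      (f := fun t => h (p + t • bv 0) - (∑ j ∈ Finset.range k,
        (t ^ (j + 1) / ((j + 1).factorial : ℝ)) • nd (j + 1) h p + h p))
      (f' := fun t => nd 1 h (p + t • bv 0) - ∑ j ∈ Finset.range k,
        (t ^ j / (j.factorial : ℝ)) • nd j (nd 1 h) p) (fun t ht => ?_) (fun t ht => ?_) s
      ⟨hs.1, le_rfl⟩
    · rw [Finset.sum_range_succ', pow_succ, ← mul_assoc]
      simpa [nd] using h2
    · have d1 : HasDerivWithinAt (fun t : ℝ => p + t • (bv 0 : Ec n)) (bv 0) (Icc 0 s) t := by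
        simpa using (((hasDerivAt_id t).smul_const (bv 0 : Ec n)).const_add p).hasDerivWithinAt
      refine ((hh.differentiableOn (by simp) _ (hm t ht)).hasFDerivWithinAt.comp_hasDerivWithinAt t
        d1 hm).sub (HasDerivAt.hasDerivWithinAt (HasDerivAt.add_const _
          (HasDerivAt.fun_sum fun j _ => HasDerivAt.smul_const ?_ _)))
      refine ((hasDerivAt_pow (j + 1) t).div_const _).congr_deriv ?_
      rw [Nat.factorial_succ, Nat.add_sub_cancel, Nat.cast_mul]
      exact mul_div_mul_left _ _ (by positivity)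
    · exact (h1 t ⟨ht.1, ht.2.le.trans hs.2⟩).trans
        (mul_le_mul_of_nonneg_left (pow_le_pow_left₀ ht.1 ht.2.le k) C0)

theorem taylor_bd (hs : ContDiffOn ℝ ∞ h (Hc n)) (k : ℕ) {y : Ec n} (hy : y ∈ Hc n) {C : ℝ}
    (hC : ∀ t ∈ Icc 0 (y 0), ‖nd k h (pr y + t • bv 0)‖ ≤ C) :
    ‖h y - ∑ j ∈ Finset.range k, (y 0 ^ j / (j.factorial : ℝ)) • nd j h (pr y)‖ ≤ C * y 0 ^ k := by
  have h1 := bextb_seg (pr_zero y) k hs hC (y 0) ⟨hy, le_rfl⟩
  rwa [pr_add_self] at h1

theorem taylor (hs : ContDiffOn ℝ ∞ h (Hc n)) (k : ℕ) :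
    Van k fun y => h y - ∑ j ∈ Finset.range k, (y 0 ^ j / (j.factorial : ℝ)) • nd j h (pr y) := by
  intro x hx
  obtain ⟨C, hC⟩ := ((isCompact_closedBall x 1).inter_right isClosed_Hc).exists_bound_of_continuousOn
    ((nd_smooth hs k).continuousOn.mono inter_subset_right)
  refine IsBigO.of_bound C (eventually_of_mem
    (inter_mem_nhdsWithin _ (ball_mem_nhds x one_pos)) fun y hy => ?_)
  have y0 : 0 ≤ y 0 := hy.1
  rw [Real.norm_of_nonneg (pow_nonneg y0 k)]
  refine taylor_bd hs k hy.1 fun t ht => hC _ ⟨ball_subset_closedBall (seg_mem hx hy.2 ?_), ?_⟩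
  · exact abs_le_abs ht.2 (by linarith [ht.1])
  · show 0 ≤ (pr y + t • bv 0 : Ec n) 0
    rw [seg_zero]
    exact ht.1

end Vale.Agent.P088.B
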