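import Vale.Agent.P088F.BExt0

/-! P088, part B: the lemma of Borel.

Let `χ` be a bump on `ℝ` (one on `[-1, 1]`, zero outside `[-2, 2]`), `ψ j s = s ^ j * χ s`, and
`T j y = (l j ^ j)⁻¹ • ψ j (l j * y 0) • c j y = χ (l j * y 0) • y 0 ^ j • c j y`. For `i < j` and `1 ≤ l` the
derivative of order `i` of `T j` is at most `C j / l` (`norm_iteratedFDeriv_smul_le`, bounded derivatives of
`ψ j` and `c j`; the derivative of order `a` of `y ↦ ψ (l * y 0)` is at most `l ^ a` times the bound: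
`ContinuousLinearMap.iteratedFDeriv_comp_right`). Choose `l j ≥ 2` so that this is at most `(1 / 2) ^ j`, and
`2 / l j * sup ‖c j‖ ≤ (1 / 2) ^ j`. The sum `F` of the series `T j` is smooth by `contDiff_tsum_of_eventually`.
Near a point of the hyperplane `χ (l j * y 0) = 1` for `j ≤ k`, and `‖T j y‖ ≤ |y 0| ^ k * (1 / 2) ^ j` for `k < j`. -/

open MeasureTheory Set Metric Matrix Filter Topology Asymptotics
open scoped ContDiff

noncomputable section

namespace Vale.Agent.P088.B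

variable {n : ℕ} [NeZero n] {W : Type} [NormedAddCommGroup W] [NormedSpace ℝ W] [CompleteSpace W]

theorem bextc_bdd {E G : Type} [NormedAddCommGroup E] [NormedSpace ℝ E] [NormedAddCommGroup G]
    [NormedSpace ℝ G] {f : E → G} (hf : ContDiff ℝ ∞ f) (hs : HasCompactSupport f) (N : ℕ) :
    ∃ M : ℝ, 0 ≤ M ∧ ∀ i ≤ N, ∀ x, ‖iteratedFDeriv ℝ i f x‖ ≤ M := by
  have h : ∀ i : ℕ, ∃ M : ℝ, ∀ x, ‖iteratedFDeriv ℝ i f x‖ ≤ M := fun i =>
    (hf.continuous_iteratedFDeriv (by exact_mod_cast le_top)).bounded_above_of_compact_support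
      (hs.iteratedFDeriv i)
  choose M hM using h
  refine ⟨∑ i ∈ Finset.range (N + 1), |M i|, Finset.sum_nonneg fun _ _ => abs_nonneg _, fun i hi x => ?_⟩
  exact ((hM i x).trans (le_abs_self _)).trans
    (Finset.single_le_sum (f := fun i => |M i|) (fun _ _ => abs_nonneg _)
      (Finset.mem_range.2 (Nat.lt_succ_of_le hi)))

omit [CompleteSpace W] in
theorem bextc_est {ψ : ℝ → ℝ} (hψ : ContDiff ℝ ∞ ψ) (hψs : HasCompactSupport ψ) {c : Ec n → W}
    (hc : ContDiff ℝ ∞ c) (hs : HasCompactSupport c) (j : ℕ) :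
    ∃ C : ℝ, 0 ≤ C ∧ ∀ l : ℝ, 1 ≤ l → ∀ i < j, ∀ x,
      ‖iteratedFDeriv ℝ i (fun y : Ec n => (l ^ j)⁻¹ • ψ (l * y 0) • c y) x‖ ≤ C / l := by
  obtain ⟨A, hA0, hA⟩ := bextc_bdd hψ hψs j
  obtain ⟨B, hB0, hB⟩ := bextc_bdd hc hs j
  refine ⟨2 ^ j * A * B, by positivity, fun l hl i hi x => ?_⟩
  have hl0 : 0 < l := one_pos.trans_le hl
  let L : Ec n →L[ℝ] ℝ := l • (EuclideanSpace.proj (0 : Fin n) : Ec n →L[ℝ] ℝ)
  have hL : ‖L‖ ≤ l := by
    refine ContinuousLinearMap.opNorm_le_bound _ hl0.le fun y => ?_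
    have h1 : L y = l * y 0 := rfl
    rw [h1, norm_mul, Real.norm_of_nonneg hl0.le]
    exact mul_le_mul_of_nonneg_left (PiLp.norm_apply_le y 0) hl0.le
  have he : (fun y : Ec n => ψ (l * y 0)) = ψ ∘ L := rfl
  have hsm : ContDiff ℝ ∞ fun y : Ec n => ψ (l * y 0) := by
    rw [he]; exact hψ.comp L.contDiff
  have hd : ∀ a ≤ i, ‖iteratedFDeriv ℝ a (fun y : Ec n => ψ (l * y 0)) x‖ ≤ A * l ^ i := by
    intro a ha
    rw [he, L.iteratedFDeriv_comp_right hψ x (by exact_mod_cast le_top)]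
    refine (ContinuousMultilinearMap.norm_compContinuousLinearMap_le _ _).trans ?_
    rw [Finset.prod_const, Finset.card_univ, Fintype.card_fin]
    refine mul_le_mul (hA a (by omega) _) ?_ (by positivity) hA0
    exact (pow_le_pow_left₀ (norm_nonneg _) hL a).trans (pow_le_pow_right₀ hl ha)
  have hsm2 : ContDiff ℝ ∞ fun y : Ec n => ψ (l * y 0) • c y := hsm.smul hc
  rw [iteratedFDeriv_const_smul_apply' (hsm2.contDiffAt.of_le (by exact_mod_cast le_top)), norm_smul,
    norm_inv, norm_pow, Real.norm_of_nonneg hl0.le]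
  have h1 : ‖iteratedFDeriv ℝ i (fun y : Ec n => ψ (l * y 0) • c y) x‖ ≤ 2 ^ i * (A * l ^ i) * B := by
    refine (norm_iteratedFDeriv_smul_le hsm hc x (by exact_mod_cast le_top)).trans ?_
    have h2 : (2 : ℝ) ^ i = ∑ a ∈ Finset.range (i + 1), (i.choose a : ℝ) := by
      exact_mod_cast (Nat.sum_range_choose i).symm
    rw [h2, Finset.sum_mul, Finset.sum_mul]
    refine Finset.sum_le_sum fun a ha => ?_
    have ha' : a ≤ i := Nat.lt_succ_iff.1 (Finset.mem_range.1 ha)
    refine mul_le_mul (mul_le_mul_of_nonneg_left (hd a ha') (Nat.cast_nonneg _)) (hB _ (by omega) _)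
      (norm_nonneg _) (by positivity)
  have h3 : l ^ i * l ≤ l ^ j := by
    rw [← pow_succ]; exact pow_le_pow_right₀ hl hi
  have h4 : (2 : ℝ) ^ i ≤ 2 ^ j := pow_le_pow_right₀ one_le_two hi.le
  rw [le_div_iff₀ hl0, mul_assoc, inv_mul_le_iff₀ (by positivity)]
  calc ‖iteratedFDeriv ℝ i (fun y : Ec n => ψ (l * y 0) • c y) x‖ * l
      ≤ 2 ^ i * (A * l ^ i) * B * l := mul_le_mul_of_nonneg_right h1 hl0.le
    _ = l ^ i * l * (2 ^ i * A * B) := by ring
    _ ≤ l ^ j * (2 ^ j * A * B) := by gcongr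

theorem bextc_choose (C : ℝ) (j : ℕ) : ∃ l : ℝ, 1 ≤ l ∧ C / l ≤ (1 / 2) ^ j := by
  refine ⟨max 1 (C * 2 ^ j), le_max_left _ _, ?_⟩
  have h0 : (0 : ℝ) < max 1 (C * 2 ^ j) := one_pos.trans_le (le_max_left _ _)
  rw [div_le_iff₀ h0, one_div, inv_pow, ← div_eq_inv_mul, le_div_iff₀ (by positivity)]
  exact le_max_right _ _

theorem borel (c : ℕ → Ec n → W) (hc : ∀ j, ContDiff ℝ ∞ (c j)) (hs : ∀ j, HasCompactSupport (c j)) :
    ∃ F : Ec n → W, ContDiff ℝ ∞ F ∧ ∀ (k : ℕ) (x : Ec n), x 0 = 0 →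
      (fun y => F y - ∑ j ∈ Finset.range k, y 0 ^ j • c j y) =O[𝓝 x] fun y => y 0 ^ k := by
  let χ : ContDiffBump (0 : ℝ) := ⟨1, 2, one_pos, one_lt_two⟩
  have hψ : ∀ j : ℕ, ContDiff ℝ ∞ fun s : ℝ => s ^ j * χ s := fun j =>
    (contDiff_id.pow j).mul χ.contDiff
  have hψs : ∀ j : ℕ, HasCompactSupport fun s : ℝ => s ^ j * χ s := fun j =>
    χ.hasCompactSupport.mul_left
  choose C hC0 hC using fun j => bextc_est (hψ j) (hψs j) (hc j) (hs j) j
  choose M hM using fun j => (hc j).continuous.bounded_above_of_compact_support (hs j)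
  have hM0 : ∀ j, 0 ≤ M j := fun j => (norm_nonneg _).trans (hM j 0)
  choose l hl1 hl using fun j => bextc_choose (C j + 2 * M j) j
  have hl0 : ∀ j, 0 < l j := fun j => one_pos.trans_le (hl1 j)
  have hlC : ∀ j, C j / l j ≤ (1 / 2) ^ j := fun j =>
    (div_le_div_of_nonneg_right (by linarith [hM0 j]) (hl0 j).le).trans (hl j)
  have hlM : ∀ j, 2 * M j / l j ≤ (1 / 2) ^ j := fun j =>
    (div_le_div_of_nonneg_right (by linarith [hC0 j]) (hl0 j).le).trans (hl j)
  let T : ℕ → Ec n → W := fun j y => (l j ^ j)⁻¹ • ((l j * y 0) ^ j * χ (l j * y 0)) • c j y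
  have hT : ∀ j y, T j y = χ (l j * y 0) • y 0 ^ j • c j y := by
    intro j y
    have h1 : l j ^ j ≠ 0 := pow_ne_zero _ (hl0 j).ne'
    simp only [T, smul_smul]
    congr 1
    rw [mul_pow]
    field_simp
  have hTs : ∀ j, ContDiff ℝ ∞ (T j) := fun j =>
    ContDiff.const_smul _ (((hψ j).comp (contDiff_const.mul smooth_zero)).smul (hc j))
  refine ⟨fun y => ∑' j, T j y, ?_, fun k x hx => ?_⟩
  · refine contDiff_tsum_of_eventually (N := ⊤) (v := fun _ j => (1 / 2 : ℝ) ^ j) hTs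
      (fun _ _ => summable_geometric_two) fun i _ => ?_
    rw [Nat.cofinite_eq_atTop]
    filter_upwards [eventually_gt_atTop i] with j hj y
    exact (hC j (l j) (hl1 j) i hj y).trans (hlC j)
  · have hx0 : Tendsto (fun y : Ec n => y 0) (𝓝 x) (𝓝 0) := by
      have := cont_zero.tendsto x
      rwa [hx] at this
    have e1 : ∀ᶠ y : Ec n in 𝓝 x, |y 0| ≤ 1 := by
      have := hx0.eventually (closedBall_mem_nhds (0 : ℝ) one_pos)
      filter_upwards [this] with y hy
      simpa [Real.dist_eq] using hy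
    have e2 : ∀ᶠ y : Ec n in 𝓝 x, ∀ j ∈ Finset.range (k + 1), χ (l j * y 0) = 1 := by
      rw [eventually_all_finset]
      intro j _
      have h1 : Tendsto (fun y : Ec n => l j * y 0) (𝓝 x) (𝓝 0) := by
        simpa using hx0.const_mul (l j)
      filter_upwards [h1.eventually (closedBall_mem_nhds (0 : ℝ) one_pos)] with y hy
      exact χ.one_of_mem_closedBall hy
    refine IsBigO.of_bound (M k + 2) ?_
    filter_upwards [e1, e2] with y hy1 hy2
    have hb : ∀ j, ‖T (j + (k + 1)) y‖ ≤ |y 0| ^ k * (1 / 2) ^ j := by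
      intro j
      set m := j + (k + 1) with hm
      rw [hT]
      by_cases h : l m * y 0 ∈ ball (0 : ℝ) 2
      · have h2 : |y 0| ≤ 2 / l m := by
          rw [le_div_iff₀ (hl0 m)]
          rw [mem_ball_zero_iff, Real.norm_eq_abs, abs_mul, abs_of_pos (hl0 m)] at h
          linarith
        have h3 : |y 0| ^ m ≤ |y 0| ^ k * (2 / l m) := by
          calc |y 0| ^ m ≤ |y 0| ^ (k + 1) := pow_le_pow_of_le_one (abs_nonneg _) hy1 (by omega)
            _ = |y 0| ^ k * |y 0| := pow_succ _ _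
            _ ≤ _ := by gcongr
        have h4 : (1 / 2 : ℝ) ^ m ≤ (1 / 2) ^ j :=
          pow_le_pow_of_le_one (by norm_num) (by norm_num) (by omega)
        have h5 := hl0 m
        rw [norm_smul, norm_smul, norm_pow, Real.norm_eq_abs, Real.norm_eq_abs,
          abs_of_nonneg χ.nonneg]
        calc χ (l m * y 0) * (|y 0| ^ m * ‖c m y‖) ≤ 1 * (|y 0| ^ k * (2 / l m) * M m) := by
              refine mul_le_mul χ.le_one (mul_le_mul h3 (hM m y) (norm_nonneg _) (by positivity))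
                (by positivity) zero_le_one
          _ = |y 0| ^ k * (2 * M m / l m) := by ring
          _ ≤ _ := mul_le_mul_of_nonneg_left ((hlM m).trans h4) (by positivity)
      · have h2 : χ (l m * y 0) = 0 := χ.zero_of_le_dist (not_lt.1 h)
        rw [h2, zero_smul, norm_zero]
        positivity
    have hsum : HasSum (fun j : ℕ => |y 0| ^ k * (1 / 2 : ℝ) ^ j) (|y 0| ^ k * 2) :=
      hasSum_geometric_two.mul_left _
    have hS : Summable fun j => T (j + (k + 1)) y := Summable.of_norm_bounded hsum.summable hb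
    have h1 : ∑ j ∈ Finset.range (k + 1), T j y = ∑ j ∈ Finset.range (k + 1), y 0 ^ j • c j y :=
      Finset.sum_congr rfl fun j hj => by rw [hT, hy2 j hj, one_smul]
    rw [← hS.sum_add_tsum_nat_add' (f := fun j => T j y), h1, Finset.sum_range_succ, add_assoc,
      add_sub_cancel_left, norm_pow, Real.norm_eq_abs]
    refine (norm_add_le _ _).trans ?_
    have h2 := tsum_of_norm_bounded hsum hb
    have h3 : ‖y 0 ^ k • c k y‖ ≤ |y 0| ^ k * M k := by
      rw [norm_smul, norm_pow, Real.norm_eq_abs]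
      exact mul_le_mul_of_nonneg_left (hM k y) (by positivity)
    linarith

end Vale.Agent.P088.B
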