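import Vale.Agent.P088F.BExtA
import Vale.Agent.P088F.BExtB
import Vale.Agent.P088F.BExtC
import Vale.Agent.P088F.BSt

/-! P088, part B: smooth extension from a half space. -/

open MeasureTheory Set Metric Matrix Filter Topology
open scoped ContDiff

noncomputable section

namespace Vale.Agent.P088.B

variable {n N : ℕ} [NeZero n] {W : Type} [NormedAddCommGroup W] [NormedSpace ℝ W]

/-- Extension of a function with bounded support. -/
theorem bext_glob [CompleteSpace W] {z : Ec n} {r : ℝ} (hr : 0 < r) {h : Ec n → W}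
    (hs : ContDiffOn ℝ ∞ h (Hc n)) (h0 : ∀ x ∉ closedBall z r, h x = 0) :
    ∃ F : Ec n → W, ContDiff ℝ ∞ F ∧ ∀ x ∈ Hc n, F x = h x := by
  let β : ContDiffBump z := ⟨r + 1, r + 2, by linarith, by linarith⟩
  set a : ℕ → Ec n → W := fun j y => (j.factorial : ℝ)⁻¹ • nd j h (pr y) with ha
  have sa : ∀ j, ContDiff ℝ ∞ (a j) := fun j =>
    ((nd_smooth hs j).comp_contDiff pr_smooth fun y => (pr_zero y).ge).const_smul _
  obtain ⟨F, sF, hF⟩ := borel (fun j y => β y • a j y) (fun j => β.contDiff.smul (sa j))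
    fun j => β.hasCompactSupport.smul_right
  have hv : ∀ k, Van k fun y => h y - F y := fun k x hx => by
    have e : ∀ᶠ y in 𝓝 x, ∀ j, β y • a j y = a j y := by
      by_cases hb : x ∈ ball z (r + 1)
      · filter_upwards [isOpen_ball.mem_nhds hb] with y hy j
        rw [β.one_of_mem_closedBall (ball_subset_closedBall hy), one_smul]
      · have h1 : pr x ∉ closedBall z r := by
          rw [pr_of hx]
          exact fun h => hb (closedBall_subset_ball (lt_add_one r) h)
        filter_upwards [pr_smooth.continuous.continuousAt.eventually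
          (isClosed_closedBall.isOpen_compl.mem_nhds h1)] with y hy j
        simp only [ha, nd_zero isClosed_closedBall h0 j _ hy, smul_zero]
    refine ((taylor hs k x hx).sub ((hF k x hx).mono nhdsWithin_le_nhds)).congr' ?_ EventuallyEq.rfl
    filter_upwards [nhdsWithin_le_nhds e] with y hy
    simp only [hy]
    simp only [ha, smul_smul, div_eq_mul_inv, sub_sub_sub_cancel_right]
  refine ⟨fun x => F x + (Hc n).indicator (fun y => h y - F y) x,
    sF.add (flat_ext (hs.sub sF.contDiffOn) hv), fun x hx => ?_⟩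
  simp only [indicator_of_mem hx, add_sub_cancel]

/-- Extension across the hyperplane. -/
theorem ext_half [FiniteDimensional ℝ W] {z : Ec n} {r r' : ℝ} (hr : r' < r) {f : Ec n → W}
    (hf : ContDiffOn ℝ ∞ f (ball z r ∩ Hc n)) :
    ∃ F : Ec n → W, ContDiff ℝ ∞ F ∧ ∀ x ∈ ball z r' ∩ Hc n, F x = f x := by
  have := FiniteDimensional.complete ℝ W
  rcases le_or_gt r' 0 with h | h
  · exact ⟨0, contDiff_const, fun x hx => absurd (pos_of_mem_ball hx.1) h.not_gt⟩
  let β : ContDiffBump z := ⟨r', (r' + r) / 2, h, by linarith⟩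
  have h0 : ∀ x ∉ closedBall z ((r' + r) / 2), β x • f x = 0 := fun x hx => by
    rw [β.zero_of_le_dist (not_le.1 hx).le, zero_smul]
  obtain ⟨F, sF, hF⟩ := bext_glob (z := z) (r := (r' + r) / 2) (by linarith)
    (h := fun x => β x • f x) (fun x hx => by
      by_cases hb : x ∈ ball z r
      · exact β.contDiff.contDiffAt.contDiffWithinAt.smul ((hf x ⟨hb, hx⟩).mono_of_mem_nhdsWithin
          (inter_mem (nhdsWithin_le_nhds (isOpen_ball.mem_nhds hb)) self_mem_nhdsWithin))
      · refine ((contDiffAt_const (c := (0 : W))).congr_of_eventuallyEq ?_).contDiffWithinAt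
        exact mem_of_superset (isClosed_closedBall.isOpen_compl.mem_nhds
          fun h => hb (closedBall_subset_ball (by linarith) h)) h0) h0
  refine ⟨F, sF, fun x hx => ?_⟩
  rw [hF x hx.2, β.one_of_mem_closedBall (ball_subset_closedBall hx.1), one_smul]

omit [NeZero n] in
theorem bext_pos {g : Ec n → Matrix (Fin n) (Fin n) ℝ} {z : Ec n}
    (hg : ∀ i j, Continuous fun x => g x i j) (hs : ∀ x i j, g x i j = g x j i)
    (hz : (g z).PosDef) : ∀ᶠ x in 𝓝 z, (g x).PosDef := by
  have hc : Continuous fun q : Ec n × (Fin n → ℝ) => star q.2 ⬝ᵥ g q.1 *ᵥ q.2 := by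
    simp only [dotProduct, mulVec, star_trivial]
    exact continuous_finset_sum _ fun i _ => (by fun_prop : Continuous _).mul
      (continuous_finset_sum _ fun j _ => ((hg i j).comp continuous_fst).mul (by fun_prop))
  have h := (isCompact_sphere (0 : Fin n → ℝ) 1).eventually_forall_of_forall_eventually
    (x₀ := z) (P := fun x v => 0 < star v ⬝ᵥ g x *ᵥ v) fun v hv =>
      hc.continuousAt.eventually (lt_mem_nhds (hz.dotProduct_mulVec_pos (ne_zero_of_mem_unit_sphere
        ⟨v, hv⟩)))
  filter_upwards [h] with x hx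
  refine PosDef.of_dotProduct_mulVec_pos (IsHermitian.ext fun i j => hs x j i) fun v hv => ?_
  have h1 := norm_pos_iff.2 hv
  have h2 := hx (‖v‖⁻¹ • v) (by simp [norm_smul, h1.ne'])
  rw [star_trivial, mulVec_smul, smul_dotProduct, dotProduct_smul, smul_eq_mul, smul_eq_mul] at h2
  exact (mul_pos_iff_of_pos_left (inv_pos.2 h1)).1 ((mul_pos_iff_of_pos_left (inv_pos.2 h1)).1 h2)

/-- Extension of coefficients. -/
theorem ext_co {z : Ec n} (hz : z 0 = 0) {r : ℝ} (hr : 0 < r) {D : Co n N}
    (sG : ∀ j k, ContDiffOn ℝ ∞ (fun x => D.G x j k) (ball z r ∩ Hc n))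
    (sC : ∀ j, ContDiffOn ℝ ∞ (fun x => D.C x j) (ball z r ∩ Hc n))
    (pos : ∀ x ∈ ball z r ∩ Hc n, (D.G x).PosDef)
    (skew : ∀ x ∈ ball z r ∩ Hc n, ∀ j, star (D.C x j) = -D.C x j) :
    ∃ r' > 0, r' ≤ r ∧ ∃ D' : Co n N, D'.Good ∧ ∀ x ∈ ball z r' ∩ Hc n, D'.Eq D x := by
  choose G sG' hG using fun j k => ext_half (half_lt_self hr) (sG j k)
  choose C sC' hC using fun j => ext_half (half_lt_self hr) (sC j)
  have hs : ball z (r / 2) ∩ Hc n ⊆ ball z r ∩ Hc n :=
    inter_subset_inter_left _ (ball_subset_ball (half_le_self hr.le))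
  let E : Co n N := ⟨fun x => Matrix.of fun j k => 1 / 2 * (G j k x + G k j x),
    fun x j => (1 / 2 : ℝ) • (C j x - star (C j x))⟩
  have sE : ∀ j k, ContDiff ℝ ∞ fun x => E.G x j k := fun j k =>
    contDiff_const.mul ((sG' j k).add (sG' k j))
  have hE : ∀ x ∈ ball z (r / 2) ∩ Hc n, E.Eq D x := fun x hx => ⟨by
    ext j k
    have e : D.G x k j = D.G x j k := (pos x (hs hx)).isHermitian.apply j k
    simp only [E, of_apply, hG _ _ x hx, e]
    ring, funext fun j => by
    simp only [E, hC _ x hx, skew x (hs hx), sub_neg_eq_add, ← two_smul ℝ (D.C x j), smul_smul]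
    norm_num⟩
  have hz' : z ∈ ball z (r / 2) ∩ Hc n := ⟨mem_ball_self (half_pos hr), hz.ge⟩
  obtain ⟨ρ, hρ, hp⟩ := Metric.eventually_nhds_iff_ball.1 (bext_pos (fun i j => (sE i j).continuous)
    (fun x i j => congrArg (1 / 2 * ·) (add_comm (G i j x) (G j i x))) ((hE z hz').1 ▸ pos z (hs hz')))
  obtain ⟨D', hD', h, -⟩ := glob_co (D := E) (half_lt_self hρ) (fun j k => (sE j k).contDiffOn)
    (fun j => (((sC' j).sub (st_smooth (sC' j))).const_smul
      (1 / 2 : ℝ)).contDiffOn) hp fun x _ j => st_skew _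
  refine ⟨min (ρ / 2) (r / 2), lt_min (half_pos hρ) (half_pos hr),
    (min_le_right _ _).trans (half_le_self hr.le), D', hD', fun x hx => ?_⟩
  have a := h x (ball_subset_ball (min_le_left _ _) hx.1)
  have b := hE x ⟨ball_subset_ball (min_le_right _ _) hx.1, hx.2⟩
  exact ⟨a.1.trans b.1, a.2.trans b.2⟩

end Vale.Agent.P088.B
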