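import Vale.Agent.P088F.BHad

/-! P088, part B: the closed half space. -/

open MeasureTheory Set Metric Matrix Filter Topology Asymptotics
open scoped ContDiff

noncomputable section

namespace Vale.Agent.P088.B

variable {n : ℕ} [NeZero n] {W : Type} [NormedAddCommGroup W]

/-- Vanishing of order `k` on the hyperplane, from above. -/
def Van (k : ℕ) (h : Ec n → W) : Prop :=
  ∀ x : Ec n, x 0 = 0 → h =O[𝓝[Hc n] x] fun y => y 0 ^ k

/-- Iterated normal derivatives on the closed half space. -/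
def nd [NormedSpace ℝ W] : ℕ → (Ec n → W) → Ec n → W
  | 0, h => h
  | k + 1, h => nd k fun z => fderivWithin ℝ h (Hc n) z (bv 0)

theorem bv_zero : (bv 0 : Ec n) 0 = 1 := by simp [bv]

theorem cont_zero : Continuous fun x : Ec n => x 0 := (EuclideanSpace.proj (0 : Fin n)).continuous

theorem smooth_zero : ContDiff ℝ ∞ fun x : Ec n => x 0 :=
  (EuclideanSpace.proj (0 : Fin n) : Ec n →L[ℝ] ℝ).contDiff

theorem convex_Hc : Convex ℝ (Hc n) :=
  convex_halfSpace_ge (EuclideanSpace.proj (0 : Fin n) : Ec n →L[ℝ] ℝ).toLinearMap.isLinear 0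

theorem isClosed_Hc : IsClosed (Hc n) := isClosed_le continuous_const cont_zero

theorem isOpen_Hs : IsOpen (Hs n) := isOpen_lt continuous_const cont_zero

theorem uniqueDiffOn_Hc : UniqueDiffOn ℝ (Hc n) := by
  have h := (modelWithCornersEuclideanHalfSpace n).uniqueDiffOn
  rwa [range_modelWithCornersEuclideanHalfSpace] at h

theorem pr_add_self (x : Ec n) : pr x + x 0 • bv 0 = x := sub_add_cancel _ _

theorem seg_zero (x : Ec n) (t : ℝ) : (pr x + t • bv 0 : Ec n) 0 = t := by simp [pr, bv]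

theorem seg_dist {z : Ec n} (hz : z 0 = 0) (x : Ec n) {t : ℝ} (ht : |t| ≤ |x 0|) :
    dist (pr x + t • bv 0) z ≤ dist x z := by
  rw [EuclideanSpace.dist_eq, EuclideanSpace.dist_eq]
  refine Real.sqrt_le_sqrt (Finset.sum_le_sum fun i _ => ?_)
  by_cases h : i = 0
  · subst h
    rw [seg_zero, hz, Real.dist_eq, Real.dist_eq, sub_zero, sub_zero, sq_abs, sq_abs]
    exact sq_le_sq.2 ht
  · simp [pr, bv, h]

theorem seg_mem {z x : Ec n} {r : ℝ} (hz : z 0 = 0) (hx : x ∈ ball z r) {t : ℝ}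
    (ht : |t| ≤ |x 0|) : pr x + t • bv 0 ∈ ball z r := (seg_dist hz x ht).trans_lt hx

end Vale.Agent.P088.B
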