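import Vale.Agent.P088F.BExt0

/-! P088, part B: flat functions extend by zero.

`van_fderiv`: let `k ≥ 1`, `x 0 = 0`, `K = closedBall x ε ∩ Hc n` compact convex with
`‖h y‖ ≤ C * y 0 ^ (2 * k)` on `K`, and `D = fderivWithin ℝ h (Hc n)` Lipschitz on `K` with constant `L` (its
derivative within is continuous, `Convex.norm_image_sub_le_of_norm_hasFDerivWithin_le`). For `y` near `x`
with `0 < y 0`, `v` a unit vector with `0 ≤ v 0` (else use `-v`), `s = y 0 ^ k`:
`‖h (y + s • v) - h y - s • D y v‖ ≤ L * s * s` (the primed version of the same lemma, on `closedBall y s ∩ Hc n`),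
and `(y + s • v) 0 ≤ 2 * y 0`, so `‖D y v‖ ≤ C₁ * y 0 ^ k`. If `y 0 = 0` then `D y = 0` by order two and
`uniqueDiffOn_Hc`. Order zero follows from continuity.
`flat_ext`: the extension by zero has as derivative the extension by zero of `D` at every point (on the hyperplane
order two gives derivative zero); induction on `m` over all target spaces `W` gives `ContDiff ℝ m`
(`contDiff_succ_iff_fderiv`), then `contDiff_infty`. -/

open MeasureTheory Set Metric Matrix Filter Topology Asymptotics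
open scoped ContDiff

noncomputable section

namespace Vale.Agent.P088.B

variable {n : ℕ} [NeZero n] {W : Type} [NormedAddCommGroup W] [NormedSpace ℝ W] {h : Ec n → W}

theorem bexta_sq {x : Ec n} (hx : x 0 = 0) (l : Filter (Ec n)) :
    (fun y : Ec n => y 0 ^ 2) =O[l] fun y => ‖y - x‖ ^ 2 := by
  refine IsBigO.of_bound' (Eventually.of_forall fun y => ?_)
  have h := PiLp.norm_apply_le (y - x) 0
  rw [PiLp.sub_apply, hx, sub_zero] at h
  rw [norm_pow, norm_pow, norm_norm]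
  exact pow_le_pow_left₀ (norm_nonneg _) h 2

theorem bexta_zero (hf : Van 2 h) {x : Ec n} (hx : x 0 = 0) : fderivWithin ℝ h (Hc n) x = 0 :=
  (((hf x hx).trans (bexta_sq hx _)).hasFDerivWithinAt hx.ge one_lt_two).fderivWithin
    (uniqueDiffOn_Hc x hx.ge)

theorem bexta_step (hs : ContDiffOn ℝ ∞ h (Hc n)) {y v : Ec n} (hy : y ∈ Hc n) (hv : ‖v‖ = 1)
    (hv0 : 0 ≤ v 0) {s L A : ℝ} (h0 : 0 < s) (hL : ∀ z ∈ closedBall y s ∩ Hc n,
      ‖fderivWithin ℝ h (Hc n) z - fderivWithin ℝ h (Hc n) y‖ ≤ L * s)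
    (hA : ∀ z ∈ closedBall y s ∩ Hc n, ‖h z‖ ≤ A * (s * s)) :
    ‖fderivWithin ℝ h (Hc n) y v‖ ≤ (2 * A + L) * s := by
  have h1 : y ∈ closedBall y s ∩ Hc n := ⟨mem_closedBall_self h0.le, hy⟩
  have h2 : y + s • v ∈ closedBall y s ∩ Hc n :=
    ⟨by simp [norm_smul, hv, abs_of_pos h0], add_nonneg hy (mul_nonneg h0.le hv0)⟩
  have h3 := ((convex_closedBall y s).inter convex_Hc).norm_image_sub_le_of_norm_hasFDerivWithin_le'
    (fun z hz => (hs.differentiableOn (by simp) z hz.2).hasFDerivWithinAt.mono inter_subset_right)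
    hL h1 h2
  rw [add_sub_cancel_left, norm_smul, hv, Real.norm_of_nonneg h0.le, map_smul] at h3
  have h4 := norm_sub_le (h (y + s • v) - h y)
    (h (y + s • v) - h y - s • fderivWithin ℝ h (Hc n) y v)
  rw [sub_sub_cancel, norm_smul, Real.norm_of_nonneg h0.le] at h4
  have h5 := norm_sub_le (h (y + s • v)) (h y)
  refine le_of_mul_le_mul_left ?_ h0
  linarith [hA _ h1, hA _ h2]

theorem bexta_succ (hs : ContDiffOn ℝ ∞ h (Hc n)) (hf : ∀ k, Van k h) (k : ℕ) :
    Van (k + 1) (fderivWithin ℝ h (Hc n)) := by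
  intro x hx
  obtain ⟨L, t, ht, hL⟩ := (((hs.fderivWithin (m := ∞) uniqueDiffOn_Hc (by simp)).of_le
    (by simp)) x hx.ge).exists_lipschitzOnWith convex_Hc
  obtain ⟨C, hC0, hC⟩ := (hf (2 * (k + 1)) x hx).exists_nonneg
  obtain ⟨ε, hε, h1⟩ := Metric.mem_nhdsWithin_iff.1 (inter_mem ht hC.bound)
  refine IsBigO.of_bound (2 * (C * 2 ^ (2 * (k + 1))) + L) ?_
  have h2 : ∀ᶠ y : Ec n in 𝓝 x, y 0 < min 1 (ε / 2) :=
    cont_zero.continuousAt.eventually_lt_const (hx.trans_lt (lt_min one_pos (half_pos hε)))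
  filter_upwards [self_mem_nhdsWithin, mem_nhdsWithin_of_mem_nhds h2,
    mem_nhdsWithin_of_mem_nhds (ball_mem_nhds x (half_pos hε))] with y hy h3 h4
  rcases (show 0 ≤ y 0 from hy).eq_or_lt with h5 | h5
  · rw [bexta_zero (hf 2) h5.symm, norm_zero]
    positivity
  obtain ⟨s, hs'⟩ : ∃ s, s = y 0 ^ (k + 1) := ⟨_, rfl⟩
  have h6 : 0 < s := hs' ▸ pow_pos h5 _
  have h7 : s ≤ y 0 := hs' ▸ pow_le_of_le_one h5.le (h3.le.trans (min_le_left _ _)) k.succ_ne_zero
  have h8 : closedBall y s ∩ Hc n ⊆ ball x ε ∩ Hc n := fun z hz => ⟨by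
    have := dist_triangle z y x
    have := mem_closedBall.1 hz.1
    have := mem_ball.1 h4
    have := h3.trans_le (min_le_right _ _)
    rw [mem_ball]
    linarith, hz.2⟩
  have h9 : ∀ v : Ec n, ‖v‖ = 1 → 0 ≤ v 0 →
      ‖fderivWithin ℝ h (Hc n) y v‖ ≤ (2 * (C * 2 ^ (2 * (k + 1))) + L) * s := fun v hv hv0 => by
    refine bexta_step hs hy hv hv0 h6 (fun z hz => ?_) fun z hz => (h1 (h8 hz)).2.trans ?_
    · exact (hL.norm_sub_le (h1 (h8 hz)).1 (h1 (h8 ⟨mem_closedBall_self h6.le, hy⟩)).1).trans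
        (mul_le_mul_of_nonneg_left (mem_closedBall_iff_norm.1 hz.1) L.2)
    · have h10 := (PiLp.norm_apply_le (z - y) 0).trans (mem_closedBall_iff_norm.1 hz.1)
      rw [PiLp.sub_apply, Real.norm_eq_abs, abs_le] at h10
      rw [mul_assoc, Real.norm_of_nonneg (pow_nonneg hz.2 _), hs', ← pow_add, ← two_mul, ← mul_pow]
      exact mul_le_mul_of_nonneg_left (pow_le_pow_left₀ hz.2 (by linarith [h10.2]) _) hC0
  rw [← hs', Real.norm_of_nonneg h6.le]
  refine ContinuousLinearMap.opNorm_le_of_unit_norm (by positivity) fun v hv => ?_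
  rcases le_total 0 (v 0) with h10 | h10
  · exact h9 v hv h10
  · have h11 := h9 (-v) (by rw [norm_neg, hv]) (neg_nonneg.2 h10)
    rwa [map_neg, norm_neg] at h11

theorem van_fderiv (hs : ContDiffOn ℝ ∞ h (Hc n)) (hf : ∀ k, Van k h) (k : ℕ) :
    Van k (fderivWithin ℝ h (Hc n)) := by
  refine fun x hx => (bexta_succ hs hf k x hx).trans ?_
  have h1 : (fun y : Ec n => y 0) =O[𝓝[Hc n] x] fun _ => (1 : ℝ) :=
    cont_zero.continuousWithinAt.isBigO_one ℝ
  simpa only [pow_succ, mul_one] using (isBigO_refl (fun y : Ec n => y 0 ^ k) _).mul h1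

theorem bexta_has (hs : ContDiffOn ℝ ∞ h (Hc n)) (hf : Van 2 h) (x : Ec n) :
    HasFDerivAt ((Hc n).indicator h) ((Hc n).indicator (fderivWithin ℝ h (Hc n)) x) x := by
  rcases lt_trichotomy (x 0) 0 with hx | hx | hx
  · rw [indicator_of_notMem (show x ∉ Hc n from hx.not_ge)]
    exact (hasFDerivAt_const 0 x).congr_of_eventuallyEq (mem_of_superset
      (isClosed_Hc.isOpen_compl.mem_nhds hx.not_ge) fun y hy => indicator_of_notMem hy _)
  · rw [indicator_of_mem (show x ∈ Hc n from hx.ge), bexta_zero hf hx]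
    refine IsBigO.hasFDerivAt (IsBigO.trans ?_ (bexta_sq hx _)) one_lt_two
    obtain ⟨C, hC0, hC⟩ := (hf x hx).exists_nonneg
    refine IsBigO.of_bound C ((eventually_nhdsWithin_iff.1 hC.bound).mono fun y hy => ?_)
    by_cases h1 : y ∈ Hc n
    · rw [indicator_of_mem h1]
      exact hy h1
    · rw [indicator_of_notMem h1, norm_zero]
      positivity
  · have h1 : Hc n ∈ 𝓝 x := mem_of_superset (isOpen_Hs.mem_nhds hx) fun y hy =>
      (show 0 < y 0 from hy).le
    rw [indicator_of_mem (show x ∈ Hc n from hx.le)]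
    exact ((hs.differentiableOn (by simp) x hx.le).hasFDerivWithinAt.hasFDerivAt
      h1).congr_of_eventuallyEq (mem_of_superset h1 fun y hy => indicator_of_mem hy _)

theorem bexta_nat (m : ℕ) : ∀ {W : Type} [NormedAddCommGroup W] [NormedSpace ℝ W] {h : Ec n → W},
    ContDiffOn ℝ ∞ h (Hc n) → (∀ k, Van k h) → ContDiff ℝ m ((Hc n).indicator h) := by
  induction m with
  | zero =>
    exact fun hs hf => contDiff_zero.2 (continuous_iff_continuousAt.2 fun x =>
      (bexta_has hs (hf 2) x).continuousAt)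
  | succ m ih =>
    exact fun hs hf => contDiff_succ_iff_hasFDerivAt.2 ⟨_, ih (hs.fderivWithin uniqueDiffOn_Hc
      (by simp)) (van_fderiv hs hf), bexta_has hs (hf 2)⟩

theorem flat_ext (hs : ContDiffOn ℝ ∞ h (Hc n)) (hf : ∀ k, Van k h) :
    ContDiff ℝ ∞ ((Hc n).indicator h) := by
  exact contDiff_infty.2 fun m => bexta_nat m hs hf

end Vale.Agent.P088.B
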