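import Vale.Agent.P088F.BIbp

/-! P088, part B: from decay of integrals to vanishing on the boundary. -/

open MeasureTheory Set Metric Matrix Filter Topology
open scoped ContDiff

noncomputable section

namespace Vale.Agent.P088.B

variable {n N : ℕ} [NeZero n] {W : Type} [NormedAddCommGroup W] [NormedSpace ℝ W]

theorem box_low {z : Ec n} (hz : z 0 = 0) {δ : ℝ} (hδ : 0 < δ) :
    ∃ c > 0, ∃ l₀ : ℝ, ∀ l, l₀ ≤ l →
      c / l ≤ volume.real {x : Ec n | x ∈ ball z δ ∧ 1 / l < x 0 ∧ x 0 < 2 / l} := by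
  have hn : (0 : ℝ) ≤ n := Nat.cast_nonneg n
  obtain ⟨d, hd, hdn⟩ : ∃ d : ℝ, 0 < d ∧ n * d ^ 2 < δ ^ 2 := by
    refine ⟨δ / (n + 1), by positivity, ?_⟩
    rw [div_pow, ← mul_div_assoc, div_lt_iff₀ (by positivity)]
    have : 0 < δ ^ 2 := by positivity
    nlinarith [mul_pos this (show (0 : ℝ) < n ^ 2 + n + 1 by positivity)]
  refine ⟨∏ _i ∈ Finset.univ.erase (0 : Fin n), 2 * d, Finset.prod_pos fun _ _ => by positivity,
    2 / d, fun l hl => ?_⟩
  have hl0 : 0 < l := lt_of_lt_of_le (by positivity) hl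
  have h2 : 2 / l ≤ d := by
    rw [div_le_iff₀ hl0]
    rw [div_le_iff₀ hd] at hl
    linarith
  have h1 : 0 < 1 / l := by positivity
  have h12 : 2 / l - 1 / l = 1 / l := by ring
  let a : Fin n → ℝ := fun i => if i = 0 then 1 / l else z i - d
  let b : Fin n → ℝ := fun i => if i = 0 then 2 / l else z i + d
  have hab : a ≤ b := fun i => by
    simp only [a, b]
    split_ifs <;> linarith
  have hsub : (WithLp.ofLp : Ec n → Fin n → ℝ) ⁻¹' (univ.pi fun i => Ioo (a i) (b i)) ⊆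
      {x : Ec n | x ∈ ball z δ ∧ 1 / l < x 0 ∧ x 0 < 2 / l} := by
    intro x hx
    have h0 := hx 0 (mem_univ _)
    simp only [a, b, if_true, mem_Ioo] at h0
    refine ⟨?_, h0.1, h0.2⟩
    rw [mem_ball, EuclideanSpace.dist_eq, Real.sqrt_lt' hδ]
    refine lt_of_le_of_lt ?_ hdn
    have hi : ∀ i ∈ (Finset.univ : Finset (Fin n)), dist (x i) (z i) ^ 2 ≤ d ^ 2 := fun i _ => by
      refine pow_le_pow_left₀ dist_nonneg ?_ 2
      rw [Real.dist_eq, abs_le]
      have hi := hx i (mem_univ _)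
      simp only [a, b, mem_Ioo] at hi
      split_ifs at hi with h
      · rw [h] at hi
        rw [h, hz]
        constructor <;> linarith [hi.1, hi.2]
      · constructor <;> linarith [hi.1, hi.2]
    simpa using Finset.sum_le_card_nsmul _ _ _ hi
  refine le_trans (le_of_eq ?_) (measureReal_mono hsub
    (measure_ne_top_of_subset (fun x hx => hx.1) measure_ball_lt_top.ne))
  rw [(PiLp.volume_preserving_ofLp (Fin n)).measureReal_preimage
    (MeasurableSet.univ_pi fun _ => measurableSet_Ioo).nullMeasurableSet, Measure.real,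
    Real.volume_pi_Ioo_toReal hab, ← Finset.mul_prod_erase _ _ (Finset.mem_univ (0 : Fin n))]
  have e : ∏ i ∈ Finset.univ.erase (0 : Fin n), (b i - a i) =
      ∏ _i ∈ Finset.univ.erase (0 : Fin n), 2 * d := Finset.prod_congr rfl fun i hi => by
    simp only [a, b, if_neg (Finset.ne_of_mem_erase hi)]
    ring
  rw [e]
  simp only [a, b, if_true]
  ring

theorem van_pos {z : Ec n} {r : ℝ} (j : ℕ) {c μ : Ec n → ℝ} (hc : Continuous c)
    (hμ : Continuous μ)
    (h : ∀ β : Ec n → ℝ, ContDiff ℝ ∞ β → ∀ r' < r, (∀ x ∉ closedBall z r', β x = 0) →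
      ∃ C : ℝ, ∀ l : ℝ, 1 ≤ l →
        |∫ x in Hs n, Real.exp (-(l * μ x * x 0)) * (β x ^ 2 * x 0 ^ j * c x)| ≤
          C * l ^ (-(j : ℤ) - 2)) {x : Ec n} (hx : x ∈ ball z r) (hx0 : x 0 = 0)
    (hpos : 0 < c x) : False := by
  have hr : 0 < r - dist x z := sub_pos.2 hx
  have e1 : ∀ᶠ y in 𝓝 x, c x / 2 < c y :=
    hc.continuousAt.eventually (lt_mem_nhds (half_lt_self hpos))
  have e2 : ∀ᶠ y in 𝓝 x, μ y < |μ x| + 1 :=
    hμ.continuousAt.eventually (gt_mem_nhds (by linarith [le_abs_self (μ x)]))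
  obtain ⟨ε, hε, hb⟩ := Metric.eventually_nhds_iff_ball.1 (e1.and e2)
  obtain ⟨δ, hδ, hδε, hδr⟩ : ∃ δ : ℝ, 0 < δ ∧ δ ≤ ε ∧ dist x z + δ < r :=
    ⟨min ε ((r - dist x z) / 2), lt_min hε (half_pos hr), min_le_left _ _, by
      linarith [min_le_right ε ((r - dist x z) / 2)]⟩
  let β : ContDiffBump x := ⟨δ / 2, δ, half_pos hδ, half_lt_self hδ⟩
  have hβ0 : ∀ y, δ ≤ dist y x → β y = 0 := fun y hy => β.zero_of_le_dist hy
  obtain ⟨C, hC⟩ := h β β.contDiff (dist x z + δ) hδr fun y hy => hβ0 y (by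
    rw [mem_closedBall, not_le] at hy
    linarith [dist_triangle y x z])
  obtain ⟨k, hk, l₀, hl₀⟩ := box_low hx0 (half_pos hδ)
  set M : ℝ := |μ x| + 1 with hM
  have hM0 : 0 < M := by positivity
  set A : ℝ := Real.exp (-(2 * M)) * (c x / 2) * k with hA
  have hA0 : 0 < A := by positivity
  obtain ⟨l, hl1, hl2, hl3⟩ : ∃ l : ℝ, 1 ≤ l ∧ l₀ ≤ l ∧ C / A < l :=
    ⟨max (max 1 l₀) (C / A + 1), (le_max_left _ _).trans (le_max_left _ _),
      (le_max_right _ _).trans (le_max_left _ _), lt_of_lt_of_le (lt_add_one _) (le_max_right _ _)⟩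
  have hl0 : 0 < l := lt_of_lt_of_le one_pos hl1
  set S : Set (Ec n) := {y : Ec n | y ∈ ball x (δ / 2) ∧ 1 / l < y 0 ∧ y 0 < 2 / l} with hS
  set F : Ec n → ℝ := fun y => Real.exp (-(l * μ y * y 0)) * (β y ^ 2 * y 0 ^ j * c y) with hF
  have hc0 : Continuous fun y : Ec n => y 0 := (coord_smooth 0).continuous
  have hβc : Continuous β := β.continuous
  have hFi : Integrable F := by
    refine int_of_off (K := closedBall x δ) (by fun_prop) (isCompact_closedBall _ _) fun y hy => ?_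
    rw [mem_closedBall, not_le] at hy
    simp only [hF, hβ0 y hy.le]
    simp
  have hSm : MeasurableSet S :=
    (isOpen_ball.inter ((isOpen_lt continuous_const hc0).inter
      (isOpen_lt hc0 continuous_const))).measurableSet
  have h1l : 0 < 1 / l := by positivity
  have hSH : S ⊆ Hs n := fun y hy => h1l.trans hy.2.1
  have hF0 : ∀ y ∈ Hs n, 0 ≤ F y := fun y hy => by
    have hy0 : 0 < y 0 := hy
    rcases le_or_gt δ (dist y x) with h1 | h1
    · simp only [hF, hβ0 y h1]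
      simp
    · have : 0 < c y := (half_pos hpos).trans (hb y (mem_ball.2 (h1.trans_le hδε))).1
      simp only [hF]
      positivity
  have hFS : ∀ y ∈ S, Real.exp (-(2 * M)) * ((1 / l) ^ j * (c x / 2)) ≤ F y := fun y hy => by
    have hy1 : dist y x < δ / 2 := hy.1
    have hy2 := hb y (mem_ball.2 (by linarith))
    have hy0 : 0 < y 0 := hSH hy
    have hβ1 : β y = 1 := β.one_of_mem_closedBall (mem_closedBall.2 hy1.le)
    have h3 : l * y 0 < 2 := by
      have := hy.2.2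
      rw [lt_div_iff₀ hl0] at this
      linarith
    have h4 : l * μ y * y 0 ≤ 2 * M := by
      have h5 : 0 < l * y 0 := mul_pos hl0 hy0
      nlinarith [hy2.2]
    simp only [hF, hβ1, one_pow, one_mul]
    refine mul_le_mul (Real.exp_le_exp.2 (by linarith)) ?_ (by positivity) (Real.exp_pos _).le
    exact mul_le_mul (pow_le_pow_left₀ h1l.le hy.2.1.le j) hy2.1.le (by positivity)
      (by positivity)
  have i1 := setIntegral_ge_of_const_le_real hSm
    (measure_ne_top_of_subset (fun y hy => hy.1) measure_ball_lt_top.ne) hFS hFi.integrableOn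
  have i2 : ∫ y in S, F y ≤ ∫ y in Hs n, F y :=
    setIntegral_mono_set hFi.integrableOn
      ((ae_restrict_iff' Hs_open.measurableSet).2 (Eventually.of_forall hF0)) hSH.eventuallyLE
  have i3 : ∫ y in Hs n, F y ≤ C * l ^ (-(j : ℤ) - 2) := (le_abs_self _).trans (hC l hl1)
  have i4 : Real.exp (-(2 * M)) * ((1 / l) ^ j * (c x / 2)) * (k / l) ≤
      C * l ^ (-(j : ℤ) - 2) :=
    (mul_le_mul_of_nonneg_left (hl₀ l hl2) (by positivity)).trans (i1.trans (i2.trans i3))
  have e3 : l ^ (-(j : ℤ) - 2) = (1 / l) ^ j / l ^ 2 := by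
    rw [zpow_sub₀ hl0.ne', _root_.zpow_neg, zpow_natCast, one_div, inv_pow]
    rfl
  have hp : 0 < (1 / l) ^ j / l ^ 2 := by positivity
  have e4 : Real.exp (-(2 * M)) * ((1 / l) ^ j * (c x / 2)) * (k / l) =
      A * l * ((1 / l) ^ j / l ^ 2) := by
    rw [hA]
    field_simp
  rw [e3, e4] at i4
  have i5 := le_of_mul_le_mul_right i4 hp
  rw [div_lt_iff₀ hA0] at hl3
  linarith

theorem van {z : Ec n} {r : ℝ} (j : ℕ) {c μ : Ec n → ℝ} (hc : Continuous c) (hμ : Continuous μ)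
    (h : ∀ β : Ec n → ℝ, ContDiff ℝ ∞ β → ∀ r' < r, (∀ x ∉ closedBall z r', β x = 0) →
      ∃ C : ℝ, ∀ l : ℝ, 1 ≤ l →
        |∫ x in Hs n, Real.exp (-(l * μ x * x 0)) * (β x ^ 2 * x 0 ^ j * c x)| ≤
          C * l ^ (-(j : ℤ) - 2)) :
    ∀ x ∈ ball z r, x 0 = 0 → c x = 0 := by
  intro x hx hx0
  rcases lt_trichotomy (c x) 0 with h1 | h1 | h1
  · refine (van_pos (c := fun y => -c y) j hc.neg hμ (fun β hβ r' hr h0 => ?_) hx hx0
      (neg_pos.2 h1)).elim
    obtain ⟨C, hC⟩ := h β hβ r' hr h0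
    refine ⟨C, fun l hl => ?_⟩
    simp only [mul_neg, integral_neg, abs_neg]
    exact hC l hl
  · exact h1
  · exact (van_pos j hc hμ h hx hx0 h1).elim

/-- Passing to the boundary in an identity valid inside. -/
theorem lim_bd {z : Ec n} {r : ℝ} {f : Ec n → W} (hf : Continuous f) (k : ℕ)
    (h : ∀ x ∈ ball z r, x 0 ^ k • f x = 0) : ∀ x ∈ ball z r, f x = 0 := by
  intro x hx
  have h1 : ∀ y ∈ ball z r, y 0 ≠ 0 → f y = 0 := fun y hy h0 =>
    (smul_eq_zero.1 (h y hy)).resolve_left (pow_ne_zero k h0)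
  by_cases h0 : x 0 = 0
  swap
  · exact h1 x hx h0
  have hg : Continuous fun t : ℝ => x + t • bv (0 : Fin n) := by fun_prop
  have ht : Tendsto (fun t : ℝ => x + t • bv (0 : Fin n)) (𝓝[>] 0) (𝓝 x) := by
    have := hg.tendsto 0
    simp only [zero_smul, add_zero] at this
    exact this.mono_left nhdsWithin_le_nhds
  refine tendsto_nhds_unique_of_eventuallyEq (hf.continuousAt.tendsto.comp ht)
    tendsto_const_nhds ?_
  filter_upwards [ht.eventually (isOpen_ball.mem_nhds hx), self_mem_nhdsWithin] with t h2 h3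
  refine h1 _ h2 ?_
  have h4 : (x + t • bv (0 : Fin n)) 0 = t := by simp [bv, h0]
  rw [h4]
  exact ne_of_gt h3

end Vale.Agent.P088.B
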