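import Vale.Agent.P088F.BDfc
import Vale.Agent.P088F.BVan
import Vale.Agent.P088F.BAlg

/-! P088, part B: the metric on the boundary. -/

open MeasureTheory Set Metric Matrix Filter Topology
open scoped ContDiff

noncomputable section

namespace Vale.Agent.P088.B

variable {n N : ℕ} [NeZero n] {W : Type} [NormedAddCommGroup W] [NormedSpace ℝ W]

theorem bstep0_one {D : Co n N} (hD : D.Nf) {z ξ : Ec n} (hz : z 0 = 0) {r r' : ℝ} (hr : r' < r)
    (hξ : ξ ≠ 0) (hξ0 : ξ 0 = 0) {β : Ec n → ℝ} (hβ : ContDiff ℝ ∞ β)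
    (hK : ∀ x ∉ closedBall z r', β x = 0) (v : Fb N) :
    ∃ C : ℝ, ∀ l : ℝ, 1 ≤ l → ∀ e,
      D.Dfc (ball z r) (fun y => ex ξ (D.mu ξ) l y • β y • v) e →
      |(∫ x in Hs n, D.en (fun y => ex ξ (D.mu ξ) l y • β y • v)
          (fun y => ex ξ (D.mu ξ) l y • β y • v) x).re - e -
        l ^ 2 * ∫ x in Hs n, Real.exp (-(l * 1 * x 0)) *
          (β x ^ 2 * (D.sg x 0 0 * D.mu ξ x * ‖v‖ ^ 2))| ≤ C := by
  have hμ := hD.toGood.mu_smooth hξ
  have ha : ContDiff ℝ ∞ fun y => β y • v := hβ.smul contDiff_const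
  have h0 : ∀ x ∉ closedBall z r', β x • v = 0 := fun x hx => by rw [hK x hx, zero_smul]
  have h1 := pd_off isClosed_closedBall h0 0
  have s0 := Sy.of ha h0
  have s1 : Sy (closedBall z r') (0 + 1) fun l x => mo (D.mu ξ) l (fun y => β y • v) x :=
    (((Sy.of (pd_smooth (pd_smooth ha 0) 0) (pd_off isClosed_closedBall h1 0)).mono
      zero_le_one).sub ((Sy.of (pd_smooth ha 0) h1).smul
        (contDiff_const (c := (2 : ℝ)).mul hμ)).lam).congr fun l _ x => by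
      rw [mo, smul_smul, mul_left_comm, mul_assoc]
  have s2 : Sy (closedBall z r') (0 + 1) fun l => D.pl ξ (D.mu ξ) l fun y => β y • v :=
    ((pl_main isClosed_closedBall hD hξ hξ0 s0).add (s1.smul (hD.toGood.sg_smooth 0 0))).congr
      fun l _ x => (sub_add_cancel _ _).symm
  obtain ⟨C, hC⟩ := dfc_bound hD hz hr hμ (hD.toGood.mu_pos hξ) s0 s2
  obtain ⟨C', hC'⟩ := en_lead (isCompact_closedBall z r') hD hξ hξ0 hβ hK v
  refine ⟨C' + |C|, fun l hl e he => ?_⟩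
  have h2 : |e| ≤ |C| := (hC l hl e he).trans ((le_abs_self _).trans (by
    rw [abs_mul, abs_of_pos (zpow_pos (zero_lt_one.trans_le hl) _)]
    exact mul_le_of_le_one_right (abs_nonneg C) (zpow_le_one_of_nonpos₀ hl (by norm_num))))
  rw [sub_right_comm]
  exact (abs_sub _ _).trans (add_le_add (hC' l hl) h2)

theorem step0 (hn : 3 ≤ n) (hN : 0 < N) {D₁ D₂ : Co n N} (h₁ : D₁.Nf) (h₂ : D₂.Nf) {z : Ec n}
    (hz : z 0 = 0) {r : ℝ} (h : DNE D₁ D₂ (ball z r)) :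
    ∀ x ∈ ball z r, x 0 = 0 → D₁.sg x = D₂.sg x := by
  intro x hx hx0
  refine alg0 hn (h₁.toGood.sg_pos x) (h₂.toGood.sg_pos x)
    (fun j hj => by rw [h₁.sg0, if_neg hj]) (fun j hj => by rw [h₂.sg0, if_neg hj])
    (h₁.det_sg (by omega) x) (h₂.det_sg (by omega) x) fun ξ hξ0 => ?_
  by_cases hξ : ξ = 0
  · simp [hξ]
  obtain ⟨v, hv⟩ : ∃ v : Fb N, ‖v‖ = 1 := ⟨EuclideanSpace.single ⟨0, hN⟩ 1, by simp⟩
  have hc : ∀ {D : Co n N}, D.Nf → Continuous fun y => D.sg y 0 0 * D.mu ξ y * ‖v‖ ^ 2 := fun h =>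
    ((h.toGood.sg_smooth 0 0).continuous.mul (h.toGood.mu_smooth hξ).continuous).mul
      continuous_const
  have key := van (z := z) (r := r) 0 ((hc h₁).sub (hc h₂)) (continuous_const (y := (1 : ℝ)))
    (fun β hβ r' hr hK => by
      obtain ⟨C₁, k₁⟩ := bstep0_one h₁ hz hr hξ hξ0 hβ hK v
      obtain ⟨C₂, k₂⟩ := bstep0_one h₂ hz hr hξ hξ0 hβ hK v
      refine ⟨C₁ + C₂, fun l hl => ?_⟩
      have hs : ∀ {D : Co n N}, D.Nf → ContDiff ℝ ∞ fun y => ex ξ (D.mu ξ) l y • β y • v :=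
        fun h => (ex_smooth ξ (h.toGood.mu_smooth hξ) l).smul (hβ.smul contDiff_const)
      obtain ⟨e₁, e₂, d₁, d₂, he⟩ := h _ _ (hs h₁) (hs h₂) _ (isCompact_closedBall z r')
        (closedBall_subset_ball hr) (fun y hy => by rw [hK y hy, zero_smul, smul_zero])
        (fun y hy => by rw [hK y hy, zero_smul, smul_zero])
        fun y hy => by rw [ex_bd ξ _ (D₂.mu ξ) l hy]
      have a₁ := k₁ l hl e₁ d₁
      have a₂ := k₂ l hl e₂ d₂
      have hi : ∀ {D : Co n N}, D.Nf → IntegrableOn (fun y : Ec n => Real.exp (-(l * 1 * y 0)) *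
          (β y ^ 2 * (D.sg y 0 0 * D.mu ξ y * ‖v‖ ^ 2))) (Hs n) := fun h =>
        (int_of_off ((continuous_const.mul (coord_smooth 0).continuous).neg.rexp.mul
          ((hβ.continuous.pow 2).mul (hc h))) (isCompact_closedBall z r') fun y hy => by
            simp [hK y hy]).integrableOn
      have hl0 : 0 < l ^ 2 := pow_pos (by linarith) 2
      simp only [pow_zero, mul_one (β _ ^ 2), Pi.sub_apply, mul_sub]
      rw [integral_sub (hi h₁) (hi h₂), show (-((0 : ℕ) : ℤ) - 2) = -((2 : ℕ) : ℤ) by norm_num,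
        _root_.zpow_neg, _root_.zpow_natCast, le_mul_inv_iff₀ hl0, ← abs_of_pos hl0, ← abs_mul, sub_mul]
      rw [he] at a₁
      rw [abs_le] at a₁ a₂ ⊢
      constructor <;> linarith [a₁.1, a₁.2, a₂.1, a₂.2]) x hx hx0
  simp only [Pi.sub_apply, hv, one_pow, mul_one, sub_eq_zero] at key
  rw [← h₁.mu_sq ξ hx0, ← h₂.mu_sq ξ hx0]
  linear_combination (D₁.sg x 0 0 * D₁.mu ξ x + D₂.sg x 0 0 * D₂.mu ξ x) * key

end Vale.Agent.P088.B
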