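import Vale.Agent.P088F.BStepC
import Vale.Agent.P088F.BStep0

/-! P088, part B: agreement to infinite order. -/

open MeasureTheory Set Metric Matrix Filter Topology
open scoped ContDiff

noncomputable section

namespace Vale.Agent.P088.B

variable {n N : ℕ} [NeZero n] {W : Type} [NormedAddCommGroup W] [NormedSpace ℝ W]

variable {z : Ec n} {D₁ D₂ : Co n N} {k : ℕ} {r : ℝ}
  {S : Fin n → Fin n → Ec n → ℝ} {T : Fin n → Ec n → Op N}

theorem bflat_cont : Continuous (star : Op N → Op N) :=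
  (ContinuousLinearMap.adjoint (𝕜 := ℂ) (E := Fb N) (F := Fb N)).continuous

theorem bflat_sub (A B : Op N) : star (A - B) = star A - star B :=
  map_sub (ContinuousLinearMap.adjoint (𝕜 := ℂ) (E := Fb N) (F := Fb N)) A B

theorem bflat_smul (c : ℝ) (A : Op N) : star (c • A) = c • star A := by
  have h := map_smulₛₗ (ContinuousLinearMap.adjoint (𝕜 := ℂ) (E := Fb N) (F := Fb N)) (c : ℂ) A
  rw [Complex.conj_ofReal] at h
  exact h

theorem step_zero (hn : 3 ≤ n) (hN : 0 < N) (h₁ : D₁.Nf) (h₂ : D₂.Nf) (hz : z 0 = 0)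
    (hE : DNE D₁ D₂ (ball z r)) (h : Ord D₁ D₂ (ball z r) k S T) :
    ∀ x ∈ ball z r, x 0 = 0 → (∀ i j, S i j x = 0) ∧ ∀ j, T j x = 0 := by
  intro x hx hx0
  have e0 : D₁.sg x = D₂.sg x := by
    ext i j
    have := h.eS x hx i j
    rwa [hx0, zero_pow k.succ_ne_zero, zero_mul, sub_eq_zero] at this
  have b₁ : ∀ y j, j ≠ 0 → D₁.sg y 0 j = 0 := fun y j hj => by rw [h₁.sg0, if_neg hj]
  have b₂ : ∀ y j, j ≠ 0 → D₂.sg y 0 j = 0 := fun y j hj => by rw [h₂.sg0, if_neg hj]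
  have sS : ∀ i j, S i j x = S j i x := fun i j => sub_eq_zero.1 (lim_bd
    (f := fun y => S i j y - S j i y) ((h.sS i j).continuous.sub (h.sS j i).continuous) (k + 1)
    (fun y hy => by
      rw [smul_eq_mul, mul_sub, ← h.eS y hy, ← h.eS y hy, h₁.toGood.sg_symm y i j,
        h₂.toGood.sg_symm y i j, sub_self]) x hx)
  have bS : ∀ j, j ≠ 0 → S 0 j x = 0 := fun j hj => lim_bd (h.sS 0 j).continuous (k + 1)
    (fun y hy => by rw [smul_eq_mul, ← h.eS y hy, b₁ y j hj, b₂ y j hj, sub_self]) x hx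
  have sT : ∀ j, star (T j x) = -T j x := fun j => eq_neg_of_add_eq_zero_left (lim_bd
    (f := fun y => star (T j y) + T j y) ((bflat_cont.comp (h.sT j).continuous).add
      (h.sT j).continuous) k (fun y hy => by
      rw [smul_add, ← bflat_smul, ← h.eT y hy, bflat_sub, h₁.skew, h₂.skew]
      abel) x hx)
  have T0 : T 0 x = 0 := lim_bd (h.sT 0).continuous k
    (fun y hy => by rw [← h.eT y hy, h₁.c0, h₂.c0, sub_self]) x hx
  obtain ⟨l, cl, l0, lt⟩ : ∃ l : ℝ → Ec n, Continuous l ∧ l 0 = x ∧ ∀ t, l t 0 = t :=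
    ⟨fun t => x + t • bv 0, by fun_prop, by simp, fun t => by simp [hx0, bv]⟩
  have ev : ∀ᶠ t in 𝓝[>] (0 : ℝ), l t ∈ ball z r :=
    nhdsWithin_le_nhds (cl.continuousAt.preimage_mem_nhds (isOpen_ball.mem_nhds (l0 ▸ hx)))
  refine ⟨fun i j => ?_, fun j => alg2 (h₂.toGood.sg_pos x) (b₂ x) (T := fun j => T j x) sT T0
    (fun ξ h0 v => ?_) j⟩
  · have key := alg1 hn k (s₁ := fun t => D₁.sg (l t)) (s₂ := fun t => D₂.sg (l t))
      (S := fun t => Matrix.of fun i j => S i j (l t))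
      (fun i j => ((h₂.toGood.sg_smooth i j).continuous.comp cl).continuousAt)
      (fun i j => ((h.sS i j).continuous.comp cl).continuousAt)
      (ev.mono fun t ht => ⟨by
        ext i j
        rw [Matrix.sub_apply, h.eS _ ht, lt]
        rfl, h₁.det_sg (by omega) _, h₂.det_sg (by omega) _⟩)
      (h₂.toGood.sg_pos _) (b₂ _) (h₂.det_sg (by omega) _)
      (fun i j => by simpa only [l0, Matrix.of_apply] using sS i j)
      (fun j hj => by simpa only [l0, Matrix.of_apply] using bS j hj) fun ξ h0 => by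
        simp only [l0, Matrix.of_apply]
        by_cases hξ : ξ = 0
        · simp [hξ]
        have k1 := (step_van h₁ h₂ hz hE h hξ h0 (EuclideanSpace.single ⟨0, hN⟩ 1) x hx hx0).1
        have k2 := h₁.mu_sq ξ hx0
        rw [PiLp.norm_single, norm_one, one_pow, mul_one, ce] at k1
        rw [e0] at k2
        linear_combination D₂.sg x 0 0 * k1 - S 0 0 x * k2
    simpa only [l0, Matrix.of_apply, Matrix.zero_apply] using congrFun (congrFun key i) j
  · by_cases hξ : ξ = 0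
    · simp [hξ]
    · exact (mul_eq_zero.1 (step_van h₁ h₂ hz hE h hξ h0 v x hx hx0).2).resolve_left two_ne_zero

theorem ord_all (hn : 3 ≤ n) (hN : 0 < N) (h₁ : D₁.Nf) (h₂ : D₂.Nf) (hz : z 0 = 0)
    (hE : DNE D₁ D₂ (ball z r)) (k : ℕ) : ∃ S T, Ord D₁ D₂ (ball z r) k S T := by
  induction k with
  | zero =>
    have a : ∀ i j, Dv (ball z r) (0 + 1) fun x => D₁.sg x i j - D₂.sg x i j := fun i j =>
      Dv.succ hz ((h₁.toGood.sg_smooth i j).sub (h₂.toGood.sg_smooth i j))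
        (fun x _ => by rw [pow_zero, one_smul])
        fun x hx h0 => by rw [step0 hn hN h₁ h₂ hz hE x hx h0, sub_self]
    choose S a1 a2 using a
    exact ⟨S, fun j x => D₁.C x j - D₂.C x j, a1, fun j => (h₁.sC j).sub (h₂.sC j),
      fun x hx i j => a2 i j x hx, fun x _ j => by rw [pow_zero, one_smul]⟩
  | succ k ih =>
    obtain ⟨S, T, h⟩ := ih
    have z0 := step_zero hn hN h₁ h₂ hz hE h
    have a : ∀ i j, Dv (ball z r) (k + 1 + 1) fun x => D₁.sg x i j - D₂.sg x i j := fun i j =>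
      Dv.succ hz (h.sS i j) (fun x hx => h.eS x hx i j) fun x hx h0 => (z0 x hx h0).1 i j
    have b : ∀ j, Dv (ball z r) (k + 1) fun x => D₁.C x j - D₂.C x j := fun j =>
      Dv.succ hz (h.sT j) (fun x hx => h.eT x hx j) fun x hx h0 => (z0 x hx h0).2 j
    choose S' a1 a2 using a
    choose T' b1 b2 using b
    exact ⟨S', T', a1, b1, fun x hx i j => a2 i j x hx, fun x hx j => b2 j x hx⟩

theorem flat_nf (hn : 3 ≤ n) (hN : 0 < N) (h₁ : D₁.Nf) (h₂ : D₂.Nf) (hz : z 0 = 0)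
    (hE : DNE D₁ D₂ (ball z r)) : Flat D₁ D₂ (ball z r) := by
  intro k
  obtain ⟨S, T, h⟩ := ord_all hn hN h₁ h₂ hz hE k
  refine ⟨fun i j => ?_, fun j => ⟨T j, h.sT j, fun x hx => h.eT x hx j⟩⟩
  have w₁ := (h₁.toGood.sg_smooth 0 0).inv fun x => (h₁.sg00_pos x).ne'
  have w₂ := (h₂.toGood.sg_smooth 0 0).inv fun x => (h₂.sg00_pos x).ne'
  refine ⟨fun x => ∑ q, (∑ p, D₁.G x i p * (x 0 * (S 0 0 x * (D₁.sg x 0 0)⁻¹ * (D₂.sg x 0 0)⁻¹ *
    D₂.sg x p q - (D₁.sg x 0 0)⁻¹ * S p q x))) * D₂.G x q j,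
    ContDiff.sum fun q _ => (ContDiff.sum fun p _ => (h₁.sG i p).mul ((coord_smooth 0).mul
      (((((h.sS 0 0).mul w₁).mul w₂).mul (h₂.toGood.sg_smooth p q)).sub
        (w₁.mul (h.sS p q))))).mul (h₂.sG q j), fun x hx => ?_⟩
  have e : D₁.G x - D₂.G x = D₁.G x * ((D₂.G x)⁻¹ - (D₁.G x)⁻¹) * D₂.G x := by
    rw [mul_sub, sub_mul, Matrix.mul_nonsing_inv _ (h₁.pos x).det_pos.ne'.isUnit, one_mul,
      Matrix.nonsing_inv_mul_cancel_right _ _ (h₂.pos x).det_pos.ne'.isUnit]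
  have m : ∀ p q, ((D₂.G x)⁻¹ - (D₁.G x)⁻¹) p q = x 0 ^ k * (x 0 * (S 0 0 x * (D₁.sg x 0 0)⁻¹ *
      (D₂.sg x 0 0)⁻¹ * D₂.sg x p q - (D₁.sg x 0 0)⁻¹ * S p q x)) := fun p q => by
    have k1 := h.eS x hx 0 0
    have k2 := h.eS x hx p q
    have k3 := mul_inv_cancel₀ (h₁.sg00_pos x).ne'
    have k4 := mul_inv_cancel₀ (h₂.sg00_pos x).ne'
    rw [Matrix.sub_apply, h₁.inv_eq, h₂.inv_eq, Matrix.smul_apply, Matrix.smul_apply, smul_eq_mul,
      smul_eq_mul]
    linear_combination (D₁.sg x 0 0)⁻¹ * (D₂.sg x 0 0)⁻¹ * D₂.sg x p q * k1 -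
      (D₁.sg x 0 0)⁻¹ * k2 - (D₂.sg x 0 0)⁻¹ * D₂.sg x p q * k3 +
      (D₁.sg x 0 0)⁻¹ * D₂.sg x p q * k4
  have e' := congrFun (congrFun e i) j
  rw [Matrix.sub_apply] at e'
  simp only [e', Matrix.mul_apply, m, smul_eq_mul, Finset.mul_sum, Finset.sum_mul]
  exact Finset.sum_congr rfl fun q _ => Finset.sum_congr rfl fun p _ => by ring

end Vale.Agent.P088.B
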