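import Vale.Agent.P088F.TC2

/-! P088: isometries in coordinates, pointwise formulas and inverses. -/

open MeasureTheory Set Filter Metric Topology Matrix
open scoped ContDiff ENNReal

noncomputable section

namespace Vale.Agent.P088.Gl

variable {n N : ℕ} {Ω Ω' : Set (Ec n)} {γ₁ γ₂ γ₃ : Geo n N} {Ψ Φ : Ec n → Ec n}
  {V U : Ec n → Op N} {z : Ec n}

theorem op_mul_smul (c : ℝ) (a b : Op N) : a * (c • b) = c • (a * b) :=
  ContinuousLinearMap.ext fun v => a.map_smul_of_tower c (b v)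

theorem op_smul_mul (c : ℝ) (a b : Op N) : (c • a) * b = c • (a * b) := rfl

theorem op_neg_mul (a b : Op N) : -a * b = -(a * b) := rfl

theorem op_mul_neg (a b : Op N) : a * -b = -(a * b) :=
  ContinuousLinearMap.ext fun v => a.map_neg (b v)

theorem op_zero_smul (a : Op N) : (0 : ℝ) • a = 0 := zero_smul ℝ a

theorem op_sum_smul {ι : Type} (s : Finset ι) (f : ι → ℝ) (a : Op N) :
    (∑ i ∈ s, f i) • a = ∑ i ∈ s, f i • a :=
  ContinuousLinearMap.ext fun v => by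
    simp only [ContinuousLinearMap.smul_apply, ContinuousLinearMap.sum_apply, Finset.sum_smul]

section op
variable {E : Type} [NormedAddCommGroup E] [NormedSpace ℝ E] {B : E → Op N} {u : E → Fb N} {x : E}
  {s : Set E}

theorem hasFDerivAt_op {B' : E →L[ℝ] Op N} {u' : E →L[ℝ] Fb N} (hB : HasFDerivAt B B' x)
    (hu : HasFDerivAt u u' x) : ∃ L : E →L[ℝ] Fb N, HasFDerivAt (fun y => B y (u y)) L x ∧
      ∀ v, L v = B' v (u x) + B x (u' v) :=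
  ⟨_, ((ContinuousLinearMap.restrictScalarsL ℂ (Fb N) (Fb N) ℝ ℝ).hasFDerivAt.comp x hB).clm_apply hu,
    fun _ => add_comm _ _⟩

theorem fderiv_op (hB : DifferentiableAt ℝ B x) (hu : DifferentiableAt ℝ u x) (v : E) :
    fderiv ℝ (fun y => B y (u y)) x v = fderiv ℝ B x v (u x) + B x (fderiv ℝ u x v) := by
  obtain ⟨L, h1, h2⟩ := hasFDerivAt_op hB.hasFDerivAt hu.hasFDerivAt
  rw [h1.fderiv, h2]

theorem contDiffAt_op (hB : ContDiffAt ℝ ∞ B x) (hu : ContDiffAt ℝ ∞ u x) :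
    ContDiffAt ℝ ∞ (fun y => B y (u y)) x :=
  ((ContinuousLinearMap.restrictScalarsL ℂ (Fb N) (Fb N) ℝ ℝ).contDiff.contDiffAt.comp x hB).clm_apply hu

theorem contDiffOn_op (hB : ContDiffOn ℝ ∞ B s) (hu : ContDiffOn ℝ ∞ u s) :
    ContDiffOn ℝ ∞ (fun y => B y (u y)) s :=
  ((ContinuousLinearMap.restrictScalarsL ℂ (Fb N) (Fb N) ℝ ℝ).contDiff.comp_contDiffOn hB).clm_apply hu

theorem contDiffOn_star (hB : ContDiffOn ℝ ∞ B s) : ContDiffOn ℝ ∞ (fun y => star (B y)) s :=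
  (starL' ℝ : Op N ≃L[ℝ] Op N).contDiff.comp_contDiffOn hB

end op

theorem uni_inner {W : Op N} (h : W ∈ unitary (Op N)) (a b : Fb N) :
    inner ℂ (W a) (W b) = inner ℂ a b := by
  rw [← ContinuousLinearMap.adjoint_inner_right, ← ContinuousLinearMap.star_eq_adjoint,
    ← ContinuousLinearMap.mul_apply, h.1, ContinuousLinearMap.one_apply]

theorem uni_norm {W : Op N} (h : W ∈ unitary (Op N)) (a : Fb N) : ‖W a‖ = ‖a‖ := by
  rw [@norm_eq_sqrt_re_inner ℂ, uni_inner h, ← @norm_eq_sqrt_re_inner ℂ]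

theorem uni_left {W : Op N} (h : W ∈ unitary (Op N)) (a : Fb N) : star W (W a) = a := by
  rw [← ContinuousLinearMap.mul_apply, h.1, ContinuousLinearMap.one_apply]

theorem uni_right {W : Op N} (h : W ∈ unitary (Op N)) (a : Fb N) : W (star W a) = a := by
  rw [← ContinuousLinearMap.mul_apply, h.2, ContinuousLinearMap.one_apply]

theorem jac_det (Ψ : Ec n → Ec n) (z : Ec n) : (jac Ψ z).det = (fderiv ℝ Ψ z).det := by
  rw [ContinuousLinearMap.det, ← LinearMap.det_toMatrix (EuclideanSpace.basisFun (Fin n) ℝ).toBasis]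
  congr 1

theorem fderiv_bv (Ψ : Ec n → Ec n) (z : Ec n) (i : Fin n) :
    fderiv ℝ Ψ z (bv i) = ∑ k, jac Ψ z k i • bv k := bv_sum _

theorem jac_comp (hΦ : DifferentiableAt ℝ Φ (Ψ z)) (hΨ : DifferentiableAt ℝ Ψ z) :
    jac (Φ ∘ Ψ) z = jac Φ (Ψ z) * jac Ψ z := by
  ext k i
  rw [Matrix.mul_apply, jac, Matrix.of_apply, fderiv_comp z hΦ hΨ, ContinuousLinearMap.comp_apply,
    fderiv_bv, map_sum]
  simp [jac, mul_comm]

theorem jac_congr (h : Φ =ᶠ[𝓝 z] Ψ) : jac Φ z = jac Ψ z := by simp only [jac, h.fderiv_eq]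

theorem jac_id (z : Ec n) : jac id z = 1 := by
  ext k i
  simp [jac, bv, Matrix.one_apply]

theorem ctr_mat (g J : Matrix (Fin n) (Fin n) ℝ) (hJ : J.det ≠ 0) (P Q : Fin n → Fb N) :
    ∑ i, ∑ j, (Jᵀ * g * J)⁻¹ i j • inner ℂ (∑ k, J k i • P k) (∑ l, J l j • Q l) =
      ∑ k, ∑ l, g⁻¹ k l • inner ℂ (P k) (Q l) := by
  have h1 : IsUnit J.det := hJ.isUnit
  have h2 : g⁻¹ = J * (Jᵀ * g * J)⁻¹ * Jᵀ := by
    rw [Matrix.mul_inv_rev, Matrix.mul_inv_rev, Matrix.mul_nonsing_inv_cancel_left _ _ h1,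
      Matrix.nonsing_inv_mul_cancel_right _ _ (by rwa [Matrix.det_transpose])]
  rw [h2]
  generalize (Jᵀ * g * J)⁻¹ = c
  have e : ∀ (a b : ℝ) (x y : Fb N), inner ℂ (a • x) (b • y) = (b * a) • inner ℂ x y :=
    fun a b x y => by
      rw [mul_smul]
      exact (inner_smul_real_right _ y b).trans (congrArg _ (inner_smul_real_left x y a))
  simp only [Matrix.mul_apply, Matrix.transpose_apply, sum_inner, inner_sum, e, Finset.sum_smul, Finset.smul_sum, Finset.sum_mul, smul_smul]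
  calc _ = ∑ i, ∑ l, ∑ j, ∑ k, (c i j * (J l j * J k i)) • inner ℂ (P k) (Q l) :=
        Finset.sum_congr rfl fun i _ => Finset.sum_comm
    _ = ∑ l, ∑ i, ∑ k, ∑ j, (c i j * (J l j * J k i)) • inner ℂ (P k) (Q l) :=
        Finset.sum_comm.trans
          (Finset.sum_congr rfl fun l _ => Finset.sum_congr rfl fun i _ => Finset.sum_comm)
    _ = ∑ l, ∑ k, ∑ j, ∑ i, (c i j * (J l j * J k i)) • inner ℂ (P k) (Q l) :=
        Finset.sum_congr rfl fun l _ =>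
          Finset.sum_comm.trans (Finset.sum_congr rfl fun k _ => Finset.sum_comm)
    _ = _ := Finset.sum_comm.trans (Finset.sum_congr rfl fun k _ => Finset.sum_congr rfl fun l _ =>
        Finset.sum_congr rfl fun j _ => Finset.sum_congr rfl fun i _ => by congr 1; ring)

/-- Local diffeomorphisms. -/
theorem map_nhds_of_jac (h : ContDiffAt ℝ ∞ Ψ z) (hd : (jac Ψ z).det ≠ 0) :
    map Ψ (𝓝 z) = 𝓝 (Ψ z) :=
  HasStrictFDerivAt.map_nhds_eq_of_equiv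
    (f' := (fderiv ℝ Ψ z).toContinuousLinearEquivOfDetNeZero (jac_det Ψ z ▸ hd))
    (h.hasStrictFDerivAt (by simp))

theorem contDiffAt_inv {θ : Ec n → Ec n} (h : ContDiffAt ℝ ∞ Ψ z) (hd : (jac Ψ z).det ≠ 0)
    (hθ : ∀ᶠ y in 𝓝 z, θ (Ψ y) = y) : ContDiffAt ℝ ∞ θ (Ψ z) := by
  have h1 : HasFDerivAt Ψ ((fderiv ℝ Ψ z).toContinuousLinearEquivOfDetNeZero (jac_det Ψ z ▸ hd) :
      Ec n →L[ℝ] Ec n) z := (h.differentiableAt (by simp)).hasFDerivAt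
  exact (h.to_localInverse h1 (by simp)).congr_of_eventuallyEq
    ((h.hasStrictFDerivAt' h1 (by simp)).localInverse_unique hθ)

theorem Geo.Sm.sub {γ : Geo n N} (h : γ.Sm Ω) (hs : Ω' ⊆ Ω) : γ.Sm Ω' :=
  ⟨fun i j => (h.g i j).mono hs, fun z hz => h.pos z (hs hz), fun i => (h.a i).mono hs,
    fun i z hz => h.skew i z (hs hz)⟩

theorem ET.mono {F : Ec n → Fb N} (h : ET Ω F) (hs : Ω ⊆ Ω') : ET Ω' F :=
  ⟨h.1, h.2.1, h.2.2.trans hs⟩

theorem EW.mono {γ : Geo n N} {u F : Ec n → Fb N} (h : EW Ω γ u F) (hs : Ω' ⊆ Ω) : EW Ω' γ u F :=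
  ⟨h.1.mono hs, fun ζ hζ => h.2 ζ (hζ.mono hs)⟩

namespace EIso

theorem mono (h : EIso Ω γ₁ γ₂ Ψ V) (ho : IsOpen Ω') (hs : Ω' ⊆ Ω) : EIso Ω' γ₁ γ₂ Ψ V :=
  ⟨ho, h.sΨ.mono hs, h.inj.mono hs, h.sV.mono hs, fun z hz => h.uni z (hs hz),
    fun z hz => h.met z (hs hz), fun z hz => h.con z (hs hz)⟩

theorem atΨ (h : EIso Ω γ₁ γ₂ Ψ V) (hz : z ∈ Ω) : ContDiffAt ℝ ∞ Ψ z :=
  h.sΨ.contDiffAt (h.op.mem_nhds hz)

theorem atV (h : EIso Ω γ₁ γ₂ Ψ V) (hz : z ∈ Ω) : ContDiffAt ℝ ∞ V z :=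
  h.sV.contDiffAt (h.op.mem_nhds hz)

theorem dΨ (h : EIso Ω γ₁ γ₂ Ψ V) (hz : z ∈ Ω) : DifferentiableAt ℝ Ψ z :=
  (h.atΨ hz).differentiableAt (by simp)

theorem dV (h : EIso Ω γ₁ γ₂ Ψ V) (hz : z ∈ Ω) : DifferentiableAt ℝ V z :=
  (h.atV hz).differentiableAt (by simp)

theorem congr (h : EIso Ω γ₁ γ₂ Ψ V) (e : EqOn Φ Ψ Ω) (e' : EqOn U V Ω) : EIso Ω γ₁ γ₂ Φ U := by
  refine ⟨h.op, h.sΨ.congr e, h.inj.congr e.symm, h.sV.congr e', fun z hz => e' hz ▸ h.uni z hz,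
    fun z hz => ?_, fun z hz i => ?_⟩
  · rw [jac_congr (e.eventuallyEq_of_mem (h.op.mem_nhds hz)), e hz, h.met z hz]
  · rw [jac_congr (e.eventuallyEq_of_mem (h.op.mem_nhds hz)), e hz, e' hz, h.con z hz,
      (e'.eventuallyEq_of_mem (h.op.mem_nhds hz)).fderiv_eq]

theorem det (h : EIso Ω γ₁ γ₂ Ψ V) (h₂ : γ₂.Sm Ω) (hz : z ∈ Ω) : (jac Ψ z).det ≠ 0 := fun e => by
  have := (h₂.pos z hz).det_pos
  rw [h.met z hz, Matrix.det_mul, e, mul_zero] at this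
  exact lt_irrefl _ this

theorem vol (h : EIso Ω γ₁ γ₂ Ψ V) (hz : z ∈ Ω) :
    γ₂.vol z = |(fderiv ℝ Ψ z).det| * γ₁.vol (Ψ z) := by
  rw [Geo.vol, Geo.vol, h.met z hz, Matrix.det_mul, Matrix.det_mul, Matrix.det_transpose, jac_det,
    mul_right_comm, Real.sqrt_mul (mul_self_nonneg _), Real.sqrt_mul_self_eq_abs]

theorem D (h : EIso Ω γ₁ γ₂ Ψ V) (hz : z ∈ Ω) {u₁ u₂ : Ec n → Fb N}
    (h₁ : DifferentiableAt ℝ u₁ (Ψ z)) (h₂ : DifferentiableAt ℝ u₂ z)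
    (e : ∀ᶠ y in 𝓝 z, u₁ (Ψ y) = V y (u₂ y)) (i : Fin n) :
    V z (γ₂.D i u₂ z) = ∑ k, jac Ψ z k i • γ₁.D k u₁ (Ψ z) := by
  have e1 : fderiv ℝ (u₁ ∘ Ψ) z = fderiv ℝ (fun y => V y (u₂ y)) z := EventuallyEq.fderiv_eq e
  have e2 := congrArg (· (bv i)) e1
  simp only [fderiv_comp z h₁ (h.dΨ hz), ContinuousLinearMap.comp_apply, fderiv_bv Ψ, map_sum,
    map_smul, fderiv_op (h.dV hz) h₂] at e2
  rw [Geo.D, map_add, ← ContinuousLinearMap.mul_apply, h.con z hz]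
  simp only [Geo.D, smul_add, Finset.sum_add_distrib, e2, ContinuousLinearMap.add_apply,
    ContinuousLinearMap.mul_apply, ContinuousLinearMap.sum_apply, ContinuousLinearMap.smul_apply,
    e.self_of_nhds]
  abel

theorem den (h : EIso Ω γ₁ γ₂ Ψ V) (h₂ : γ₂.Sm Ω) (hz : z ∈ Ω) {u₁ u₂ w₁ w₂ : Ec n → Fb N}
    (a₁ : DifferentiableAt ℝ u₁ (Ψ z)) (a₂ : DifferentiableAt ℝ u₂ z)
    (e : ∀ᶠ y in 𝓝 z, u₁ (Ψ y) = V y (u₂ y)) (b₁ : DifferentiableAt ℝ w₁ (Ψ z))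
    (b₂ : DifferentiableAt ℝ w₂ z) (e' : ∀ᶠ y in 𝓝 z, w₁ (Ψ y) = V y (w₂ y)) :
    γ₂.den u₂ w₂ z = γ₁.den u₁ w₁ (Ψ z) := by
  rw [Geo.den, Geo.den, ← ctr_mat (γ₁.g (Ψ z)) _ (h.det h₂ hz), ← h.met z hz]
  simp only [← h.D hz a₁ a₂ e, ← h.D hz b₁ b₂ e', uni_inner (h.uni z hz)]

theorem map_nhds (h : EIso Ω γ₁ γ₂ Ψ V) (h₂ : γ₂.Sm Ω) (hz : z ∈ Ω) : map Ψ (𝓝 z) = 𝓝 (Ψ z) :=
  map_nhds_of_jac (h.atΨ hz) (h.det h₂ hz)

theorem open_image (h : EIso Ω γ₁ γ₂ Ψ V) (h₂ : γ₂.Sm Ω) (ho : IsOpen Ω') (hs : Ω' ⊆ Ω) :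
    IsOpen (Ψ '' Ω') := by
  refine isOpen_iff_mem_nhds.2 ?_
  rintro _ ⟨z, hz, rfl⟩
  rw [← h.map_nhds h₂ (hs hz)]
  exact image_mem_map (ho.mem_nhds hz)

theorem refl (γ : Geo n N) (ho : IsOpen Ω) : EIso Ω γ γ id fun _ => 1 := by
  refine ⟨ho, contDiffOn_id, injOn_id _, contDiffOn_const, fun _ _ => one_mem _, fun z _ => ?_,
    fun z _ i => ?_⟩
  · simp [jac_id]
  · simp [jac_id, Matrix.one_apply, op_zero_smul]

theorem trans (h : EIso Ω' γ₁ γ₂ Φ U) (h' : EIso Ω γ₂ γ₃ Ψ V) (hm : MapsTo Ψ Ω Ω') :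
    EIso Ω γ₁ γ₃ (Φ ∘ Ψ) fun z => U (Ψ z) * V z := by
  refine ⟨h'.op, h.sΨ.comp h'.sΨ hm, h.inj.comp h'.inj hm, (h.sV.comp h'.sΨ hm).mul h'.sV,
    fun z hz => mul_mem (h.uni _ (hm hz)) (h'.uni z hz), fun z hz => ?_, fun z hz i => ?_⟩
  · rw [h'.met z hz, h.met _ (hm hz), jac_comp (h.dΨ (hm hz)) (h'.dΨ hz), Matrix.transpose_mul]
    simp only [Matrix.mul_assoc, Function.comp_apply]
  · have d := ((h.dV (hm hz)).hasFDerivAt.comp z (h'.dΨ hz).hasFDerivAt).mul' (h'.dV hz).hasFDerivAt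
    have e : fderiv ℝ (fun z => U (Ψ z) * V z) z (bv i) = U (Ψ z) * fderiv ℝ V z (bv i) +
        fderiv ℝ U (Ψ z) (fderiv ℝ Ψ z (bv i)) * V z := congrArg (· (bv i)) d.fderiv
    have e1 : ∑ k, (jac Φ (Ψ z) * jac Ψ z) k i • γ₁.a k (Φ (Ψ z)) =
        ∑ l, jac Ψ z l i • ∑ k, jac Φ (Ψ z) k l • γ₁.a k (Φ (Ψ z)) := by
      simp only [Matrix.mul_apply, op_sum_smul, Finset.smul_sum, smul_smul, mul_comm]
      exact Finset.sum_comm
    have e2 : U (Ψ z) * ∑ l, jac Ψ z l i • γ₂.a l (Ψ z) =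
        (∑ l, jac Ψ z l i • ∑ k, jac Φ (Ψ z) k l • γ₁.a k (Φ (Ψ z))) * U (Ψ z) +
          fderiv ℝ U (Ψ z) (fderiv ℝ Ψ z (bv i)) := by
      rw [fderiv_bv Ψ, map_sum, Finset.mul_sum, Finset.sum_mul, ← Finset.sum_add_distrib]
      refine Finset.sum_congr rfl fun l _ => ?_
      rw [op_mul_smul, h.con _ (hm hz), smul_add, map_smul, op_smul_mul]
    rw [e, mul_assoc, h'.con z hz, jac_comp (h.dΨ (hm hz)) (h'.dΨ hz), Function.comp_apply, e1,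
      mul_add, ← mul_assoc, e2, add_mul, mul_assoc]
    abel

/-- The inverse of an isometry. -/
theorem symm (h : EIso Ω γ₁ γ₂ Ψ V) (h₂ : γ₂.Sm Ω) {θ : Ec n → Ec n} (hθ : ∀ z ∈ Ω, θ (Ψ z) = z) :
    EIso (Ψ '' Ω) γ₂ γ₁ θ fun w => star (V (θ w)) := by
  have ho := h.open_image h₂ h.op Subset.rfl
  have ev : ∀ z ∈ Ω, ∀ᶠ y in 𝓝 z, θ (Ψ y) = y := fun z hz => mem_of_superset (h.op.mem_nhds hz) hθ
  have c : ∀ z ∈ Ω, ContDiffAt ℝ ∞ θ (Ψ z) := fun z hz =>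
    contDiffAt_inv (h.atΨ hz) (h.det h₂ hz) (ev z hz)
  have sθ : ContDiffOn ℝ ∞ θ (Ψ '' Ω) := forall_mem_image.2 fun z hz => (c z hz).contDiffWithinAt
  have mθ : MapsTo θ (Ψ '' Ω) Ω := forall_mem_image.2 fun z hz => (hθ z hz).symm ▸ hz
  have sW := contDiffOn_star (h.sV.comp sθ mθ)
  have j1 : ∀ z ∈ Ω, jac Ψ z * jac θ (Ψ z) = 1 := fun z hz => by
    rw [mul_eq_one_comm, ← jac_comp ((c z hz).differentiableAt (by simp)) (h.dΨ hz), ← jac_id z]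
    exact jac_congr (ev z hz)
  refine ⟨ho, sθ, ?_, sW, forall_mem_image.2 fun z hz => ?_, forall_mem_image.2 fun z hz => ?_,
    forall_mem_image.2 fun z hz i => ?_⟩
  · rintro _ ⟨z, hz, rfl⟩ _ ⟨y, hy, rfl⟩ e
    rw [hθ z hz, hθ y hy] at e
    rw [e]
  · rw [hθ z hz]
    exact Unitary.star_mem (h.uni z hz)
  · rw [hθ z hz, h.met z hz, ← Matrix.mul_assoc, ← Matrix.mul_assoc, ← Matrix.transpose_mul,
      Matrix.mul_assoc, j1 z hz, Matrix.transpose_one, Matrix.one_mul, Matrix.mul_one]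
  · have dθ := (c z hz).differentiableAt (by simp)
    have dV : HasFDerivAt V (fderiv ℝ V z) (θ (Ψ z)) := (hθ z hz).symm ▸ (h.dV hz).hasFDerivAt
    have dW := (sW.contDiffAt (ho.mem_nhds (mem_image_of_mem Ψ hz))).differentiableAt (by simp)
    have d := dW.hasFDerivAt.mul' (dV.comp _ dθ.hasFDerivAt)
    have e0 : (fun w => star (V (θ w)) * V (θ w)) =ᶠ[𝓝 (Ψ z)] fun _ => 1 :=
      mem_of_superset (ho.mem_nhds (mem_image_of_mem Ψ hz)) fun w hw => (h.uni _ (mθ hw)).1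
    have e : star (V (θ (Ψ z))) * fderiv ℝ V z (fderiv ℝ θ (Ψ z) (bv i)) +
        fderiv ℝ (fun w => star (V (θ w))) (Ψ z) (bv i) * V (θ (Ψ z)) = 0 :=
      congrArg (· (bv i)) ((d.congr_of_eventuallyEq e0.symm).unique (hasFDerivAt_const _ _))
    have e1 : V z * ∑ l, jac θ (Ψ z) l i • γ₂.a l z =
        γ₁.a i (Ψ z) * V z + fderiv ℝ V z (fderiv ℝ θ (Ψ z) (bv i)) := by
      have : ∑ l, jac θ (Ψ z) l i • ∑ k, jac Ψ z k l • γ₁.a k (Ψ z) = γ₁.a i (Ψ z) := by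
        have b : ∀ k, ∑ l, jac θ (Ψ z) l i * jac Ψ z k l = (1 : Matrix (Fin n) (Fin n) ℝ) k i :=
          fun k => by rw [← j1 z hz, Matrix.mul_apply]; simp only [mul_comm]
        simp only [Finset.smul_sum, smul_smul]
        rw [Finset.sum_comm]
        simp [← op_sum_smul, b, Matrix.one_apply, op_zero_smul]
      rw [← this, fderiv_bv θ, map_sum, Finset.mul_sum, Finset.sum_mul, ← Finset.sum_add_distrib]
      refine Finset.sum_congr rfl fun l _ => ?_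
      rw [op_mul_smul, h.con z hz, smul_add, map_smul, op_smul_mul]
    rw [hθ z hz] at e ⊢
    obtain ⟨u1, u2⟩ := h.uni z hz
    generalize fderiv ℝ (fun w => star (V (θ w))) (Ψ z) (bv i) = a at e ⊢
    generalize fderiv ℝ V z (fderiv ℝ θ (Ψ z) (bv i)) = b at e e1
    generalize ∑ l, jac θ (Ψ z) l i • γ₂.a l z = s at e1 ⊢
    have e2 : s = star (V z) * (γ₁.a i (Ψ z) * V z + b) := by rw [← e1, ← mul_assoc, u1, one_mul]
    have e3 : a = -(star (V z) * b * star (V z)) := by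
      have e4 : star (V z) * b = -(a * V z) := eq_neg_of_add_eq_zero_left e
      rw [e4, op_neg_mul, neg_neg, mul_assoc, u2, mul_one]
    rw [e2, e3, mul_add, add_mul, mul_assoc, mul_assoc, u2, mul_one, add_neg_cancel_right]

theorem exists_symm (h : EIso Ω γ₁ γ₂ Ψ V) (h₂ : γ₂.Sm Ω) : ∃ θ : Ec n → Ec n,
    (∀ z ∈ Ω, θ (Ψ z) = z) ∧ EIso (Ψ '' Ω) γ₂ γ₁ θ fun w => star (V (θ w)) :=
  ⟨Function.invFunOn Ψ Ω, fun _ hz => h.inj.leftInvOn_invFunOn hz,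
    h.symm h₂ fun _ hz => h.inj.leftInvOn_invFunOn hz⟩

end EIso

end Vale.Agent.P088.Gl
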