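import Vale.Agent.P088F.BCo
import Vale.Agent.P088F.TE1

/-! P088, part B: energy of pull-backs. -/

open MeasureTheory Set Metric Matrix Filter Topology
open scoped ContDiff

noncomputable section

namespace Vale.Agent.P088.B

variable {n N : ℕ} [NeZero n] {W : Type} [NormedAddCommGroup W] [NormedSpace ℝ W]

variable {D : Co n N} {Ψ : Ec n → Ec n} {U : Ec n → Op N} {x : Ec n} {u v : Ec n → Fb N}

omit [NeZero n] in
theorem star_smooth (hU : ContDiff ℝ ∞ U) : ContDiff ℝ ∞ fun x => star (U x) := by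
  exact contDiffOn_univ.1 (Gl.contDiffOn_star hU.contDiffOn)

omit [NeZero n] in
theorem pd_comp {u : Ec n → W} (hΨ : DifferentiableAt ℝ Ψ x) (hu : DifferentiableAt ℝ u (Ψ x))
    (j : Fin n) : pd j (fun y => u (Ψ y)) x = ∑ k, jac Ψ x k j • pd k u (Ψ x) := by
  have e : fderiv ℝ Ψ x (bv j) = ∑ k, jac Ψ x k j • bv k := Gl.fderiv_bv Ψ x j
  have e2 : fderiv ℝ (fun y => u (Ψ y)) x = (fderiv ℝ u (Ψ x)).comp (fderiv ℝ Ψ x) :=
    fderiv_comp x hu hΨ
  rw [pd, e2, ContinuousLinearMap.comp_apply, e, map_sum]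
  simp only [map_smul, pd]

omit [NeZero n] in
theorem pb_cd (hΨ : ContDiff ℝ ∞ Ψ) (hU : ContDiff ℝ ∞ U) (hu : ContDiff ℝ ∞ u)
    (h : ∀ᶠ y in 𝓝 x, U y ∈ unitary (Op N)) (j : Fin n) :
    (D.pb Ψ U).cd j (fun y => star (U y) (u (Ψ y))) x =
      star (U x) (∑ k, jac Ψ x k j • D.cd k u (Ψ x)) := by
  have hw : ContDiff ℝ ∞ fun y => star (U y) (u (Ψ y)) :=
    op_smooth' (star_smooth hU) (hu.comp hΨ)
  have e : (fun y => U y (star (U y) (u (Ψ y)))) =ᶠ[𝓝 x] fun y => u (Ψ y) :=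
    h.mono fun y hy => Gl.uni_right hy _
  have e1 := pd_congr (j := j) e
  rw [pd_op (sm_df hU x) (sm_df hw x), pd_comp (sm_df hΨ x) (sm_df hu _)] at e1
  have hx := h.self_of_nhds
  simp only [Co.cd, Co.pb, smul_add, Finset.sum_add_distrib, ← e1, map_add, Gl.uni_left hx,
    ContinuousLinearMap.add_apply, ContinuousLinearMap.mul_apply, Gl.uni_right hx,
    ContinuousLinearMap.sum_apply, ContinuousLinearMap.smul_apply]
  abel

omit [NeZero n] in
theorem pb_en (hΨ : ContDiff ℝ ∞ Ψ) (hU : ContDiff ℝ ∞ U) (hu : ContDiff ℝ ∞ u)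
    (hv : ContDiff ℝ ∞ v) (h : ∀ᶠ y in 𝓝 x, U y ∈ unitary (Op N)) (hd : (jac Ψ x).det ≠ 0) :
    (D.pb Ψ U).en (fun y => star (U y) (u (Ψ y))) (fun y => star (U y) (v (Ψ y))) x =
      |(jac Ψ x).det| • D.en u v (Ψ x) := by
  have hs : star (U x) ∈ unitary (Op N) := Unitary.star_mem h.self_of_nhds
  have e : √((jac Ψ x)ᵀ * D.G (Ψ x) * jac Ψ x).det = |(jac Ψ x).det| * √(D.G (Ψ x)).det := by
    rw [Matrix.det_mul, Matrix.det_mul, Matrix.det_transpose, mul_right_comm,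
      Real.sqrt_mul (mul_self_nonneg _), Real.sqrt_mul_self_eq_abs]
  have e1 := Gl.ctr_mat (D.G (Ψ x)) (jac Ψ x) hd (fun k => D.cd k u (Ψ x)) fun k => D.cd k v (Ψ x)
  simp only [Co.en, pb_cd hΨ hU hu h, pb_cd hΨ hU hv h, Gl.uni_inner hs]
  simp only [Co.sg, Co.pb, Matrix.smul_apply, smul_eq_mul, e, mul_smul, ← Finset.smul_sum, e1]

theorem Chg.mono {z : Ec n} {r r' : ℝ} {Φ : Ec n → Ec n} (h : Chg z r Ψ Φ U) (hr : r' ≤ r) :
    Chg z r' Ψ Φ U := by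
  have hb : ball z r' ⊆ ball z r := ball_subset_ball hr
  exact ⟨h.sΨ, h.sΦ, h.sU, fun x hx => h.left x (hb hx), fun s hs => h.opn s (hs.trans hb),
    fun x hx => h.det x (hb hx), fun x hx => h.bd x (hb hx), fun x hx => h.pos x (hb hx),
    fun x hx => h.neg x (hb hx), fun x hx => h.uni x (hb hx)⟩

/-- Change of variables. -/
theorem Chg.int {z : Ec n} {r : ℝ} {Φ : Ec n → Ec n} (h : Chg z r Ψ Φ U) {s : Set (Ec n)}
    (hs : MeasurableSet s) (hsr : s ⊆ ball z r) (F : Ec n → W) :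
    ∫ y in Ψ '' s, F y = ∫ x in s, |(jac Ψ x).det| • F (Ψ x) := by
  have hi : InjOn Ψ s := fun a ha b hb e => by
    rw [← h.left a (hsr ha), e, h.left b (hsr hb)]
  have e : ∀ x, (jac Ψ x).det = (fderiv ℝ Ψ x).det := Gl.jac_det Ψ
  simp only [e]
  exact integral_image_eq_integral_abs_det_fderiv_smul volume hs
    (fun x _ => (sm_df h.sΨ x).hasFDerivAt.hasFDerivWithinAt) hi F

end Vale.Agent.P088.B
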