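import Vale.Agent.P088F.BManA
import Vale.Agent.P088F.BPbE

/-! P088, part B: boundary charts. -/

open MeasureTheory Set Metric Matrix Filter Topology Bundle
open scoped ContDiff Manifold

noncomputable section

namespace Vale.Agent.P088.B

variable {n N : ℕ} [NeZero n] {M : Type} [TopologicalSpace M]
  [ChartedSpace (EuclideanHalfSpace n) M] [IsManifold (𝓡∂ n) ∞ M]

/-- Translated coefficients. -/
def Co.geo (E : Co n N) (z : Ec n) : Gl.Geo n N :=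
  ⟨fun y => E.G (z + y), fun i y => E.C (z + y) i⟩

theorem range_hc : range (𝓡∂ n) = Hc n := by
  exact range_modelWithCornersEuclideanHalfSpace n

theorem xp_of {Γ : Set M} {g : Met (𝓡∂ n) M} {A : Conn (𝓡∂ n) M N} {p : M} {z : Ec n}
    (hp : z = extChartAt (𝓡∂ n) p p) (hz : z 0 = 0) {R r : ℝ} (hr : 0 < r)
    (hT : closedBall z R ∩ Hc n ⊆ (extChartAt (𝓡∂ n) p).target)
    (hΓ : ∀ y ∈ closedBall z R, y 0 = 0 → (extChartAt (𝓡∂ n) p).symm y ∈ Γ) {D E : Co n N}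
    (hD : ∀ y ∈ ball z R ∩ Hc n, D.Eq (cc g A p) y) {Ψ Φ : Ec n → Ec n} {U : Ec n → Op N}
    (c : Chg z r Ψ Φ U) (m : MapsTo Ψ (ball z r) (ball z R)) (hE : E.Good)
    (e : ∀ x ∈ ball z r, 0 ≤ x 0 → E.Eq (D.pb Ψ U) x) :
    Gl.XP Γ g A p r (fun y => Ψ (z + y)) (fun w => Φ w - z) (fun y => U (z + y)) (E.geo z) := by
  have hb : ∀ {y : Ec n}, y ∈ ball (0 : Ec n) r → z + y ∈ ball z r := fun hy => by
    rwa [add_mem_ball_iff_norm, ← mem_ball_zero_iff]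
  have h0 : ∀ y : Ec n, (z + y) 0 = y 0 := fun y => by rw [PiLp.add_apply, hz, zero_add]
  have sa : ContDiff ℝ ∞ fun y : Ec n => z + y := contDiff_const.add contDiff_id
  have nn : ∀ {y : Ec n}, y ∈ ball (0 : Ec n) r → 0 ≤ y 0 → 0 ≤ Ψ (z + y) 0 := fun hy h =>
    not_lt.1 fun h' => not_lt.2 h (h0 _ ▸ (c.neg _ (hb hy)).1 h')
  have mp : MapsTo (fun y => Ψ (z + y)) (Gl.hp n r) (extChartAt (𝓡∂ n) p).target := fun y hy =>
    hT ⟨ball_subset_closedBall (m (hb hy.1)), nn hy.1 hy.2⟩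
  have inv : ∀ y ∈ ball (0 : Ec n) r, Φ (Ψ (z + y)) - z = y := fun y hy => by
    rw [c.left _ (hb hy), add_sub_cancel_left]
  have ej : ∀ y, Gl.jac (fun y => Ψ (z + y)) y = jac Ψ (z + y) := fun y => by
    rw [Gl.jac, jac, fderiv_comp_add_left]
  have ee : ∀ y ∈ Gl.up n r, E.Eq (D.pb Ψ U) (z + y) ∧ D.Eq (cc g A p) (Ψ (z + y)) := fun y hy =>
    ⟨e _ (hb hy.1) ((h0 y).symm ▸ le_of_lt hy.2), hD _ ⟨m (hb hy.1), nn hy.1 (le_of_lt hy.2)⟩⟩
  refine ⟨hr, ⟨fun i j => ((hE.sG i j).comp sa).contDiffOn, fun y _ => hE.pos _,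
      fun i => ((hE.sC i).comp sa).contDiffOn, fun i y _ => hE.skew _ _⟩, ?_,
    (c.sΨ.comp sa).contDiffOn, mp, ⟨Ψ '' ball z r, c.opn _ Subset.rfl isOpen_ball, ?_⟩,
    (c.sΦ.sub contDiff_const).contDiffOn, fun y hy => inv y hy.1, fun y hy h => ?_,
    fun y hy => ?_, (c.sU.comp sa).contDiffOn,
    fun y hy h => (c.bd _ (hb hy.1) ((h0 y).trans h)).2,
    ⟨isOpen_ball.inter (isOpen_lt continuous_const (by fun_prop)), (c.sΨ.comp sa).contDiffOn,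
      fun y hy y' hy' h => ?_, (c.sU.comp sa).contDiffOn, fun y hy => c.uni _ (hb hy.1),
      fun y hy => ?_, fun y hy i => ?_⟩⟩
  · rw [add_zero, (c.bd z (mem_ball_self hr) hz).1, hp]
  · refine Subset.antisymm ?_ ?_
    · rintro _ ⟨y, hy, rfl⟩
      exact ⟨⟨_, hb hy.1, rfl⟩, nn hy.1 hy.2⟩
    · rintro _ ⟨⟨x, hx, rfl⟩, h⟩
      refine ⟨x - z, ⟨mem_ball_zero_iff.2 (mem_ball_iff_norm.1 hx), ?_⟩, by
        show Ψ (z + (x - z)) = Ψ x
        rw [add_sub_cancel]⟩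
      have h1 : 0 ≤ x 0 := not_lt.1 fun h' => not_lt.2 h ((c.neg x hx).2 h')
      have h2 := h0 (x - z)
      rw [add_sub_cancel] at h2
      exact h1.trans_eq h2
  · have h1 := (h0 y).trans h
    rw [(c.bd _ (hb hy.1) h1).1]
    refine ⟨h1, hΓ _ ?_ h1⟩
    have h2 := m (hb hy.1)
    rw [(c.bd _ (hb hy.1) h1).1] at h2
    exact ball_subset_closedBall h2
  · have hy0 : 0 < y 0 := hy.2
    refine Gl.mem_cd.2 ⟨mp ⟨hy.1, hy0.le⟩, ?_⟩
    rw [interior_range_modelWithCornersEuclideanHalfSpace]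
    exact (c.pos _ (hb hy.1)).2 ((h0 y).symm ▸ hy.2)
  · rw [← inv y hy.1, ← inv y' hy'.1]
    exact congrArg (fun w => Φ w - z) h
  · rw [ej]
    refine (ee y hy).1.1.trans ?_
    show (jac Ψ (z + y))ᵀ * D.G (Ψ (z + y)) * jac Ψ (z + y) = _
    rw [(ee y hy).2.1]
    rfl
  · have h1 : U (z + y) * star (U (z + y)) = 1 := (c.uni _ (hb hy.1)).2
    have h2 : (E.geo z).a i y = star (U (z + y)) *
        (∑ k, jac Ψ (z + y) k i • (cc g A p).C (Ψ (z + y)) k) * U (z + y) +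
        star (U (z + y)) * pd i U (z + y) := by
      rw [← (ee y hy).2.2]
      exact congrFun (ee y hy).1.2 i
    rw [h2, ej, fderiv_comp_add_left, mul_add, ← mul_assoc, ← mul_assoc, ← mul_assoc, h1, one_mul,
      one_mul]
    rfl

end Vale.Agent.P088.B
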