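import Vale.Agent.P088F.BMan
import Vale.Agent.P088F.BEuc
import Vale.Agent.P088F.BXp

/-! P088, part B: boundary determination. -/

open MeasureTheory Set Metric Matrix Filter Topology Bundle
open scoped ContDiff Manifold

noncomputable section

namespace Vale.Agent.P088.B

variable {n N : ℕ} [NeZero n]

/-- Boundary determination with extension. -/
theorem bd (hn : 3 ≤ n) (hN : 0 < N) : Gl.BD n N := by
  intro M _ _ _ _ _ _ _ _ Γ g₁ g₂ μ₁ μ₂ A₁ A₂ S₁ S₂ hP d₁ d₂ hE p hp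
  obtain ⟨O, hO, hΓ⟩ := hP.op
  have hI := range_hc (n := n)
  obtain ⟨R₀, hR₀, hT, hb⟩ := gam_ball hI hO hΓ hp
  have hpb : p ∈ (𝓡∂ n).boundary M := (hΓ ▸ hp).2
  have hz : extChartAt (𝓡∂ n) p p 0 = 0 := (bd_iff hI (mem_extChartAt_source p)).1 hpb
  obtain ⟨r₁, hr₁, l₁, D₁, h₁, e₁⟩ := cc_ext hI g₁ A₁ hpb hR₀ hT
  obtain ⟨r₂, hr₂, l₂, D₂, h₂, e₂⟩ := cc_ext hI g₂ A₂ hpb hR₀ hT
  set z := extChartAt (𝓡∂ n) p p with hzp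
  have hm : 0 < min r₁ r₂ / 2 := by positivity
  have m₁ : min r₁ r₂ / 2 ≤ r₁ := by linarith [min_le_left r₁ r₂]
  have m₂ : min r₁ r₂ / 2 ≤ r₂ := by linarith [min_le_right r₁ r₂]
  have m₀ : min r₁ r₂ / 2 < R₀ := by linarith [min_le_left r₁ r₂]
  have e₁' : ∀ y ∈ ball z (min r₁ r₂ / 2) ∩ Hc n, D₁.Eq (cc g₁ A₁ p) y :=
    fun y hy => e₁ y ⟨ball_subset_ball m₁ hy.1, hy.2⟩
  have e₂' : ∀ y ∈ ball z (min r₁ r₂ / 2) ∩ Hc n, D₂.Eq (cc g₂ A₂ p) y :=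
    fun y hy => e₂ y ⟨ball_subset_ball m₂ hy.1, hy.2⟩
  obtain ⟨r, hr, Ψ₁, Φ₁, Ψ₂, Φ₂, U₁, U₂, E₁, E₂, c₁, c₂, p₁, p₂, k₁, k₂, a₁, a₂, b⟩ :=
    bdry_nf hn hN h₁ h₂ hz hm (dne_man hI d₁.vol d₂.vol d₁.sol d₂.sol
      (fun f hf => hE f f hf hf) m₀ hT hb h₁ h₂ e₁' e₂')
  have hT' : closedBall z (min r₁ r₂ / 2) ∩ Hc n ⊆ (extChartAt (𝓡∂ n) p).target :=
    fun y hy => hT ⟨closedBall_subset_closedBall m₀.le hy.1, hy.2⟩
  have hb' : ∀ y ∈ closedBall z (min r₁ r₂ / 2), y 0 = 0 → (extChartAt (𝓡∂ n) p).symm y ∈ Γ :=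
    fun y hy => hb y (closedBall_subset_closedBall m₀.le hy)
  have hm' : ∀ y ∈ ball (0 : Ec n) r, z + y ∈ ball z r := fun y hy => by
    simpa [mem_ball, dist_eq_norm] using hy
  refine ⟨r, _, _, _, _, _, _, _, _, xp_of hzp hz hr hT' hb' e₁' c₁ p₁ k₁ a₁,
    xp_of hzp hz hr hT' hb' e₂' c₂ p₂ k₂ a₂, fun y hy h0 => ?_, fun y hy => ?_⟩
  · have h : (z + y) 0 = 0 := by simp [hz, h0]
    exact (c₁.bd _ (hm' y hy.1) h).1.trans (c₂.bd _ (hm' y hy.1) h).1.symm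
  · have h : (z + y) 0 < 0 := by simpa [hz] using hy.2
    have := b _ (hm' y hy.1) h
    exact ⟨this.1.symm, fun i => (congrFun this.2 i).symm⟩

end Vale.Agent.P088.B
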