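import Vale.Agent.P088F.BManB

/-! P088, part B: the boundary data in a chart. -/

open MeasureTheory Set Metric Matrix Filter Topology Bundle
open scoped ContDiff Manifold

noncomputable section

namespace Vale.Agent.P088.B

variable {n N : ℕ} [NeZero n] {H : Type} [TopologicalSpace H] {I : ModelWithCorners ℝ (Ec n) H}
  {M : Type} [TopologicalSpace M] [ChartedSpace H M] [IsManifold I ∞ M]

variable [T2Space M] [MeasurableSpace M] [BorelSpace M] [CompactSpace M] {g : Met I M}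
  {μ : Measure M} {A : Conn I M N} {p : M} {R R' : ℝ} {D : Co n N} {K : Set (Ec n)}

omit [NeZero n] [T2Space M] in
theorem bman_comm (hv : IsVol g μ) {u w : M → Fb N} (hu : ContMDiff I 𝓘(ℝ, Fb N) ∞ u)
    (hw : ContMDiff I 𝓘(ℝ, Fb N) ∞ w) : (form g μ A u w).re = (form g μ A w u).re := by
  rw [form_re hv hu hw, form_re hv hw hu]
  exact integral_congr_ae (ae_of_all _ fun x => ipm_comm (gi_pos g x) _ _)

/-- Dirichlet principle in the chart. -/
theorem dfc_man (hI : range I = Hc n) (hv : IsVol g μ) (hD : D.Good) (hR : R' < R)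
    (hT : closedBall (extChartAt I p p) R ∩ Hc n ⊆ (extChartAt I p).target)
    (hE : ∀ y ∈ ball (extChartAt I p p) R' ∩ Hc n, D.Eq (cc g A p) y) (hK : IsCompact K)
    (hKR : K ⊆ ball (extChartAt I p p) R') {u : Ec n → Fb N} (hu : ContDiff ℝ ∞ u)
    (h0 : ∀ y ∉ K, u y = 0) {f s : M → Fb N} (hs : IsSol g μ A f s)
    (hf : EqOn (lift I p u) f (I.boundary M)) :
    ∃ e, D.Dfc (ball (extChartAt I p p) R') u e ∧
      (∫ y in Hs n, D.en u u y).re - e = (form g μ A s s).re := by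
  have hT' : closedBall (extChartAt I p p) R' ∩ Hc n ⊆ (extChartAt I p).target :=
    (inter_subset_inter_left _ (closedBall_subset_closedBall hR.le)).trans hT
  have hw : ContMDiff I 𝓘(ℝ, Fb N) ∞ (lift I p u) := lift_smooth hI hK
    ((inter_subset_inter_left _ (hKR.trans ball_subset_closedBall)).trans hT') hu h0
  have ha := sm_sub hw hs.smooth
  obtain ⟨ρ, hρ, eρ⟩ := ext_half hR ((chart_contDiff ha p).mono
    ((inter_subset_inter_left _ ball_subset_closedBall).trans hT))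
  have b0 : ∀ x ∈ I.boundary M, lift I p u x - s x = 0 := fun x hx => by
    rw [hf hx, hs.bd hx, sub_self]
  have h1 := form_loc hI hv hD hT' hE hK hKR hu h0 hρ ha eρ
  have h2 := form_loc hI hv hD hT' hE hK hKR hu h0 hu hw fun y hy =>
    (lift_symm u (hT' ⟨ball_subset_closedBall hy.1, hy.2⟩)).symm
  have h3 := form_ge hI hv hR hT hE ha eρ
  have h4 := hs.pyth hv hw hf
  have h5 := En_sub (A := A) hv hs.smooth hw
  have h6 := En_sub (A := A) hv hw hs.smooth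
  have h7 := En_sub (A := A) hv hw ha
  simp only [sub_sub_cancel] at h7
  rw [bman_comm hv hw hs.smooth] at h6
  rw [bman_comm hv hw ha, form_re hv ha hw, h1] at h7
  rw [← En_eq hv hw] at h2
  rw [← En_eq hv ha] at h3
  refine ⟨_, ⟨ρ, hρ, fun y hy y0 => ?_, rfl, by linarith⟩, ?_⟩
  · have k : y ∈ (extChartAt I p).target := hT' ⟨ball_subset_closedBall hy, y0.ge⟩
    rw [eρ y ⟨hy, y0.ge⟩]
    exact b0 _ ((bd_iff hI ((extChartAt I p).map_target k)).2
      (by rw [(extChartAt I p).right_inv k, y0]))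
  · change _ = En g μ A s
    linarith

theorem dne_man (hI : range I = Hc n) {g₁ g₂ : Met I M} {μ₁ μ₂ : Measure M} {A₁ A₂ : Conn I M N}
    (v₁ : IsVol g₁ μ₁) (v₂ : IsVol g₂ μ₂) {Γ : Set M} {S₁ S₂ : (M → Fb N) → M → Fb N}
    (s₁ : ∀ f, IsTest I Γ f → IsSol g₁ μ₁ A₁ f (S₁ f))
    (s₂ : ∀ f, IsTest I Γ f → IsSol g₂ μ₂ A₂ f (S₂ f))
    (hE : ∀ f, IsTest I Γ f → form g₁ μ₁ A₁ (S₁ f) (S₁ f) = form g₂ μ₂ A₂ (S₂ f) (S₂ f))
    (hR : R' < R) (hT : closedBall (extChartAt I p p) R ∩ Hc n ⊆ (extChartAt I p).target)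
    (hΓ : ∀ y ∈ closedBall (extChartAt I p p) R, y 0 = 0 → (extChartAt I p).symm y ∈ Γ)
    {D₁ D₂ : Co n N} (h₁ : D₁.Good) (h₂ : D₂.Good)
    (e₁ : ∀ y ∈ ball (extChartAt I p p) R' ∩ Hc n, D₁.Eq (cc g₁ A₁ p) y)
    (e₂ : ∀ y ∈ ball (extChartAt I p p) R' ∩ Hc n, D₂.Eq (cc g₂ A₂ p) y) :
    DNE D₁ D₂ (ball (extChartAt I p p) R') := by
  intro u₁ u₂ hu₁ hu₂ K hK hKR z₁ z₂ e
  have hs : K ⊆ closedBall (extChartAt I p p) R :=
    hKR.trans (ball_subset_closedBall.trans (closedBall_subset_closedBall hR.le))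
  have ht : IsTest I Γ (lift I p u₁) := lift_test hI hK
    ((inter_subset_inter_left _ hs).trans hT) (fun y hy => hΓ y (hs hy)) hu₁ z₁
  obtain ⟨a₁, b₁, c₁⟩ := dfc_man hI v₁ h₁ hR hT e₁ hK hKR hu₁ z₁ (s₁ _ ht) fun _ _ => rfl
  obtain ⟨a₂, b₂, c₂⟩ := dfc_man hI v₂ h₂ hR hT e₂ hK hKR hu₂ z₂ (s₂ _ ht) (lift_bd hI e).symm
  exact ⟨a₁, a₂, b₁, b₂, by rw [c₁, c₂, hE _ ht]⟩

end Vale.Agent.P088.B
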