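import Vale.Agent.P088.Calc

/-! The Dirichlet principle and the shape of the data and of the conclusion. -/

open Set MeasureTheory
open scoped Manifold ContDiff RealInnerProductSpace

noncomputable section

namespace Vale.Agent.P088

variable {n N : ℕ} {H : Type} [TopologicalSpace H] {I : ModelWithCorners ℝ (Ec n) H}
  {M : Type} [TopologicalSpace M] [ChartedSpace H M] [IsManifold I ∞ M]

/-- The conclusion of the theorem. -/
def Concl (Γ : Set M) (g₁ g₂ : Met I M) (A₁ A₂ : Conn I M N) : Prop :=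
  ∃ (Φ : Diffeomorph I I M M ∞) (U : M → Op N),
    ContMDiff I 𝓘(ℝ, Op N) ∞ U ∧ (∀ x, U x ∈ unitary (Op N)) ∧ (∀ x ∈ Γ, Φ x = x ∧ U x = 1) ∧
    (∀ x v w, g₂.inner x v w = g₁.inner (Φ x) (mfderiv I I Φ x v) (mfderiv I I Φ x w)) ∧
    ∀ x v, A₂.A x v = star (U x) * A₁.A (Φ x) (mfderiv I I Φ x v) * U x + star (U x) * dif I U x v

variable [MeasurableSpace M]

/-- The energy. -/
def En (g : Met I M) (μ : Measure M) (A : Conn I M N) (u : M → Fb N) : ℝ := (form g μ A u u).re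

/-- The second energy can be made at most the first one, for boundary values in `Γ`. -/
def LeD (Γ : Set M) (g₁ : Met I M) (μ₁ : Measure M) (A₁ : Conn I M N) (g₂ : Met I M)
    (μ₂ : Measure M) (A₂ : Conn I M N) : Prop :=
  ∀ u, IsTest I Γ u → ∃ v, ContMDiff I 𝓘(ℝ, Fb N) ∞ v ∧ EqOn v u (I.boundary M) ∧
    En g₂ μ₂ A₂ v ≤ En g₁ μ₁ A₁ u

/-- Equal data, in variational form. -/
def EqD (Γ : Set M) (g₁ : Met I M) (μ₁ : Measure M) (A₁ : Conn I M N) (g₂ : Met I M)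
    (μ₂ : Measure M) (A₂ : Conn I M N) : Prop :=
  LeD Γ g₁ μ₁ A₁ g₂ μ₂ A₂ ∧ LeD Γ g₂ μ₂ A₂ g₁ μ₁ A₁

variable {Γ : Set M} {g g₁ g₂ : Met I M} {μ μ₁ μ₂ : Measure M} {A A₁ A₂ : Conn I M N}
  {f u v w : M → Fb N}

theorem EqD.symm (h : EqD Γ g₁ μ₁ A₁ g₂ μ₂ A₂) : EqD Γ g₂ μ₂ A₂ g₁ μ₁ A₁ := ⟨h.2, h.1⟩

omit [IsManifold I ∞ M] [MeasurableSpace M] in
theorem IsTest.congr (h : IsTest I Γ u) (hv : ContMDiff I 𝓘(ℝ, Fb N) ∞ v)
    (e : EqOn v u (I.boundary M)) : IsTest I Γ v :=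
  ⟨hv, (closure_mono fun _ hx => And.intro hx.1 (e hx.1 ▸ hx.2)).trans h.2⟩

omit [IsManifold I ∞ M] [MeasurableSpace M] in
theorem IsTest.mono {Γ' : Set M} (h : IsTest I Γ u) (hΓ : Γ ⊆ Γ') : IsTest I Γ' u :=
  ⟨h.1, h.2.trans hΓ⟩

theorem LeD.mono {Γ' : Set M} (h : LeD Γ g₁ μ₁ A₁ g₂ μ₂ A₂) (hΓ : Γ' ⊆ Γ) :
    LeD Γ' g₁ μ₁ A₁ g₂ μ₂ A₂ := fun u hu => h u (hu.mono hΓ)

theorem EqD.mono {Γ' : Set M} (h : EqD Γ g₁ μ₁ A₁ g₂ μ₂ A₂) (hΓ : Γ' ⊆ Γ) :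
    EqD Γ' g₁ μ₁ A₁ g₂ μ₂ A₂ := ⟨h.1.mono hΓ, h.2.mono hΓ⟩

variable [BorelSpace M] [CompactSpace M]

theorem En_eq (hv : IsVol g μ) (hu : ContMDiff I 𝓘(ℝ, Fb N) ∞ u) :
    En g μ A u = ∫ x, en g (cov A u) (cov A u) x ∂μ := form_re hv hu hu

theorem En_nonneg (hv : IsVol g μ) (hu : ContMDiff I 𝓘(ℝ, Fb N) ∞ u) : 0 ≤ En g μ A u := by
  rw [En_eq hv hu]
  exact integral_nonneg fun x => ipm_nonneg (gi_pos g x) _

theorem En_sub (hv : IsVol g μ) (hu : ContMDiff I 𝓘(ℝ, Fb N) ∞ u)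
    (hw : ContMDiff I 𝓘(ℝ, Fb N) ∞ w) : En g μ A (fun x => u x - w x) =
      En g μ A u - 2 * (form g μ A u w).re + En g μ A w := by
  have c1 := hv.int (en_cont g (Fld.cov A hu) (Fld.cov A hu))
  have c2 := hv.int (en_cont g (Fld.cov A hu) (Fld.cov A hw))
  have c3 := hv.int (en_cont g (Fld.cov A hw) (Fld.cov A hw))
  have c4 : Integrable (fun x => en g (cov A u) (cov A u) x - 2 * en g (cov A u) (cov A w) x) μ :=
    c1.sub (c2.const_mul 2)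
  rw [En_eq hv (sm_sub hu hw), En_eq hv hu, En_eq hv hw, form_re hv hu hw, ← integral_const_mul,
    ← integral_sub c1 (c2.const_mul 2), ← integral_add c4 c3]
  refine integral_congr_ae (ae_of_all _ fun x => ?_)
  have e : (fun i => cov A (fun x => u x - w x) x (bv i)) =
      fun i => cov A u x (bv i) - cov A w x (bv i) := funext fun i => cov_sub hu hw x _
  simp only [en]
  rw [e, ipm_sub_left, ipm_sub_right, ipm_sub_right,
    ipm_comm (gi_pos g x) (fun i => cov A w x (bv i)) fun i => cov A u x (bv i)]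
  ring

/-- Pythagoras for a solution and a function with the same boundary values. -/
theorem IsSol.pyth (hv : IsVol g μ) (h : IsSol g μ A f u) (hw : ContMDiff I 𝓘(ℝ, Fb N) ∞ w)
    (e : EqOn w f (I.boundary M)) :
    En g μ A w = En g μ A u + En g μ A fun x => u x - w x := by
  have hζ := sm_sub h.smooth hw
  have h1 := En_sub (A := A) hv h.smooth hζ
  rw [form_re hv h.smooth hζ, h.test hv hζ fun x hx => by rw [h.bd hx, e hx, sub_self]] at h1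
  simp only [sub_sub_cancel] at h1
  exact h1.trans (by ring)

/-- The Dirichlet principle. -/
theorem IsSol.en_le (hv : IsVol g μ) (h : IsSol g μ A f u) (hw : ContMDiff I 𝓘(ℝ, Fb N) ∞ w)
    (e : EqOn w f (I.boundary M)) : En g μ A u ≤ En g μ A w := by
  rw [h.pyth hv hw e]
  exact le_add_of_nonneg_right (En_nonneg hv (sm_sub h.smooth hw))

theorem eqD_of_data (hμ₁ : IsVol g₁ μ₁) (hμ₂ : IsVol g₂ μ₂) {S₁ S₂ : (M → Fb N) → M → Fb N}
    (hS₁ : ∀ f, IsTest I Γ f → IsSol g₁ μ₁ A₁ f (S₁ f))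
    (hS₂ : ∀ f, IsTest I Γ f → IsSol g₂ μ₂ A₂ f (S₂ f))
    (hD : ∀ f h, IsTest I Γ f → IsTest I Γ h →
      form g₁ μ₁ A₁ (S₁ f) (S₁ h) = form g₂ μ₂ A₂ (S₂ f) (S₂ h)) :
    EqD Γ g₁ μ₁ A₁ g₂ μ₂ A₂ :=
  ⟨fun u hu => ⟨S₂ u, (hS₂ u hu).smooth, (hS₂ u hu).bd, (congrArg Complex.re (hD u u hu hu)).ge.trans
      ((hS₁ u hu).en_le hμ₁ hu.1 fun _ _ => rfl)⟩,
    fun u hu => ⟨S₁ u, (hS₁ u hu).smooth, (hS₁ u hu).bd, (congrArg Complex.re (hD u u hu hu)).le.trans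
      ((hS₂ u hu).en_le hμ₂ hu.1 fun _ _ => rfl)⟩⟩

end Vale.Agent.P088
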