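import Vale.Agent.P088F.TDefs
import Vale.Agent.P088.Calc

/-! P088: transfer from the manifold to a chart, pointwise and integral formulas. -/

open MeasureTheory Set Filter Bundle Metric Topology Matrix
open scoped Manifold ContDiff ENNReal

noncomputable section

namespace Vale.Agent.P088.Gl

variable {n N : ℕ} {H : Type} [TopologicalSpace H] {I : ModelWithCorners ℝ (Ec n) H}
  {M : Type} [TopologicalSpace M] [ChartedSpace H M]
  {V : Type} [NormedAddCommGroup V] [NormedSpace ℝ V] {p x : M} {z : Ec n} {Ω : Set (Ec n)}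

theorem isOpen_cd (I : ModelWithCorners ℝ (Ec n) H) (p : M) : IsOpen (cd I p) := isOpen_interior

theorem cd_sub (I : ModelWithCorners ℝ (Ec n) H) (p : M) : cd I p ⊆ (extChartAt I p).target :=
  interior_subset

theorem cd_nhds (hz : z ∈ cd I p) : (extChartAt I p).target ∈ 𝓝 z := mem_interior_iff_mem_nhds.1 hz

theorem cd_range (hz : z ∈ cd I p) : range I ∈ 𝓝 z :=
  mem_of_superset (cd_nhds hz) (extChartAt_target_subset_range p)

theorem mem_cd : z ∈ cd I p ↔ z ∈ (extChartAt I p).target ∧ z ∈ interior (range I) := by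
  refine ⟨fun h => ⟨cd_sub I p h, mem_interior_iff_mem_nhds.2 (cd_range h)⟩, fun h => ?_⟩
  have h2 := extChartAt_target_mem_nhdsWithin_of_mem h.1
  rw [nhdsWithin_eq_nhds.2 (mem_interior_iff_mem_nhds.1 h.2)] at h2
  exact mem_interior_iff_mem_nhds.2 h2

theorem symm_contAt (hz : z ∈ cd I p) : ContinuousAt (extChartAt I p).symm z :=
  (continuousOn_extChartAt_symm p).continuousAt (cd_nhds hz)

omit [NormedSpace ℝ V] in
theorem pl_ps (F : Ec n → V) (hz : z ∈ (extChartAt I p).target) : pl I p (ps I p F) z = F z := by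
  rw [pl, ps, indicator_of_mem ((extChartAt I p).map_target hz), (extChartAt I p).right_inv hz]

omit [NormedSpace ℝ V] in
theorem ps_of_mem (F : Ec n → V) (hx : x ∈ (extChartAt I p).source) :
    ps I p F x = F (extChartAt I p x) := indicator_of_mem hx _

omit [NormedSpace ℝ V] in
theorem ps_of_notMem (F : Ec n → V) (hx : x ∉ (extChartAt I p).source) : ps I p F x = 0 :=
  indicator_of_notMem hx _

omit [NormedSpace ℝ V] in
theorem ps_pl (u : M → V) (hx : x ∈ (extChartAt I p).source) : ps I p (pl I p u) x = u x := by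
  rw [ps_of_mem _ hx, pl, (extChartAt I p).left_inv hx]

omit [NormedSpace ℝ V] in
theorem ps_add (F F' : Ec n → V) : ps I p (F + F') = ps I p F + ps I p F' := by
  funext x
  by_cases hx : x ∈ (extChartAt I p).source
  · simp only [Pi.add_apply, ps_of_mem _ hx]
  · simp only [Pi.add_apply, ps_of_notMem _ hx, add_zero]

theorem ps_smul (c : ℂ) (F : Ec n → Fb N) : ps I p (c • F) = c • ps I p F := by
  funext x
  by_cases hx : x ∈ (extChartAt I p).source
  · simp only [Pi.smul_apply, ps_of_mem _ hx]
  · simp only [Pi.smul_apply, ps_of_notMem _ hx, smul_zero]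

omit [NormedSpace ℝ V] in
theorem tsupport_ps [T2Space M] {F : Ec n → V} (hc : HasCompactSupport F)
    (hs : tsupport F ⊆ (extChartAt I p).target) :
    tsupport (ps I p F) ⊆ (extChartAt I p).symm '' tsupport F := by
  refine closure_minimal (fun x hx => ?_)
    (hc.isCompact.image_of_continuousOn ((continuousOn_extChartAt_symm p).mono hs)).isClosed
  by_cases h : x ∈ (extChartAt I p).source
  · exact ⟨_, subset_tsupport _ fun e => hx ((ps_of_mem F h).trans e), (extChartAt I p).left_inv h⟩
  · exact absurd (ps_of_notMem F h) hx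

variable [IsManifold I ∞ M] {g : Met I M} {A : Conn I M N}

theorem cd_iff (hx : x ∈ (extChartAt I p).source) : extChartAt I p x ∈ cd I p ↔ x ∈ I.interior M :=
  mem_cd.trans ((and_iff_right ((extChartAt I p).map_source hx)).trans (interior_iff hx).symm)

theorem symm_interior (hz : z ∈ cd I p) : (extChartAt I p).symm z ∈ I.interior M :=
  (cd_iff ((extChartAt I p).map_target (cd_sub I p hz))).1
    (((extChartAt I p).right_inv (cd_sub I p hz)).symm ▸ hz)

theorem cg_sm (g : Met I M) (A : Conn I M N) (p : M) : (cg g A p).Sm (cd I p) where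
  g i j := (gm_smooth g p i j).mono (cd_sub I p)
  pos _ hz := gm_pos g (cd_sub I p hz)
  a i := ((A.smooth.comp_contMDiffOn (sec_smooth p (bv i))).contDiffOn).mono (cd_sub I p)
  skew _ _ _ := A.skew _ _

theorem ps_smooth [T2Space M] {F : Ec n → V} (hF : ContDiffOn ℝ ∞ F (extChartAt I p).target)
    (hc : HasCompactSupport F) (hs : tsupport F ⊆ (extChartAt I p).target) :
    ContMDiff I 𝓘(ℝ, V) ∞ (ps I p F) := by
  refine contMDiff_of_tsupport fun x hx => ?_
  obtain ⟨z, hz, rfl⟩ := tsupport_ps hc hs hx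
  have h1 := extChartAt_source_mem_nhds' ((extChartAt I p).map_target (hs hz))
  have h2 : ContMDiffOn I 𝓘(ℝ, V) ∞ (fun x => F (extChartAt I p x)) (extChartAt I p).source :=
    hF.contMDiffOn.comp (extChartAt_source I p ▸ contMDiffOn_extChartAt) (extChartAt I p).mapsTo
  exact ((h2.congr fun y hy => ps_of_mem F hy) _ (mem_of_mem_nhds h1)).contMDiffAt h1

theorem ET.mt [T2Space M] {F : Ec n → Fb N} (hF : ET Ω F) (hΩ : Ω ⊆ cd I p) {O : Set M}
    (hO : MapsTo (extChartAt I p).symm Ω O) : MT I O (ps I p F) :=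
  have hs := hF.2.2.trans (hΩ.trans (cd_sub I p))
  ⟨ps_smooth hF.1.contDiffOn hF.2.1 hs, (tsupport_ps hF.2.1 hs).trans
    (image_subset_iff.2 fun _ hz => hO (hF.2.2 hz))⟩

theorem ET.mti [T2Space M] {F : Ec n → Fb N} (hF : ET Ω F) (hΩ : Ω ⊆ cd I p) :
    MT I (I.interior M) (ps I p F) := hF.mt hΩ fun _ hz => symm_interior (hΩ hz)

theorem pl_contDiffOn {u : M → V} {O : Set M} (hu : ContMDiffOn I 𝓘(ℝ, V) ∞ u O)
    (hΩ : Ω ⊆ (extChartAt I p).target) (hO : MapsTo (extChartAt I p).symm Ω O) :
    ContDiffOn ℝ ∞ (pl I p u) Ω :=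
  (hu.comp ((contMDiffOn_extChartAt_symm p).mono hΩ) hO).contDiffOn

theorem pl_hasFDerivWithinAt {u : M → V} (hz : z ∈ (extChartAt I p).target)
    (hu : MDifferentiableAt I 𝓘(ℝ, V) u ((extChartAt I p).symm z)) :
    HasFDerivWithinAt (pl I p u) ((dif I u ((extChartAt I p).symm z)).comp (fr I p z)) (range I) z :=
  (hu.hasMFDerivAt.comp_hasMFDerivWithinAt z
    (mdifferentiableWithinAt_extChartAt_symm hz).hasMFDerivWithinAt).hasFDerivWithinAt

theorem pl_hasFDerivAt {u : M → V} (hz : z ∈ cd I p)
    (hu : MDifferentiableAt I 𝓘(ℝ, V) u ((extChartAt I p).symm z)) :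
    HasFDerivAt (pl I p u) ((dif I u ((extChartAt I p).symm z)).comp (fr I p z)) z :=
  (pl_hasFDerivWithinAt (cd_sub I p hz) hu).hasFDerivAt (cd_range hz)

theorem cg_D {u : M → Fb N} (hz : z ∈ cd I p)
    (hu : MDifferentiableAt I 𝓘(ℝ, Fb N) u ((extChartAt I p).symm z)) (i : Fin n) :
    (cg g A p).D i (pl I p u) z = cov A u ((extChartAt I p).symm z) (fr I p z (bv i)) := by
  rw [Geo.D, (pl_hasFDerivAt hz hu).fderiv]
  rfl

theorem cov_lin (A : Conn I M N) (u : M → Fb N) (x : M) : IsLinearMap ℝ (cov A u x) := by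
  refine ⟨fun v w => ?_, fun c v => ?_⟩
  · simp only [cov, map_add, ContinuousLinearMap.add_apply]
    abel
  · simp only [cov, map_smul, ContinuousLinearMap.smul_apply, smul_add]

theorem mden_fr (u w : M → Fb N) (hz : z ∈ (extChartAt I p).target) :
    mden g A u w ((extChartAt I p).symm z) = ∑ i, ∑ j, (gm g p z)⁻¹ i j •
      inner ℂ (cov A u _ (fr I p z (bv i))) (cov A w _ (fr I p z (bv j))) :=
  (ctr_change (g.inner ((extChartAt I p).symm z)).toLinearMap₁₂ (fr I p z).toLinearMap (gm_pos g hz)
    ((LinearMap.mk₂ ℝ (fun a b : Fb N => inner ℂ a b) inner_add_left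
      (fun c a b => inner_smul_real_left a b c) inner_add_right
      fun c a b => inner_smul_real_right a b c).compl₁₂
      ((cov_lin A u ((extChartAt I p).symm z)).mk' _)
      ((cov_lin A w ((extChartAt I p).symm z)).mk' _))).symm

theorem mden_chart {u w : M → Fb N} (hz : z ∈ cd I p)
    (hu : MDifferentiableAt I 𝓘(ℝ, Fb N) u ((extChartAt I p).symm z))
    (hw : MDifferentiableAt I 𝓘(ℝ, Fb N) w ((extChartAt I p).symm z)) :
    mden g A u w ((extChartAt I p).symm z) = (cg g A p).den (pl I p u) (pl I p w) z := by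
  rw [mden_fr u w (cd_sub I p hz), Geo.den]
  simp only [cg_D hz hu, cg_D hz hw]
  rfl

theorem cov_zero {w : M → Fb N} (h : x ∉ tsupport w) (v : TangentSpace I x) : cov A w x v = 0 := by
  have h1 : w =ᶠ[𝓝 x] fun _ => 0 := notMem_tsupport_iff_eventuallyEq.1 h
  rw [cov, dif_zero h1, h1.eq_of_nhds, map_zero, add_zero]
  rfl

theorem mden_zero_right (u : M → Fb N) {w : M → Fb N} (h : x ∉ tsupport w) : mden g A u w x = 0 := by
  have e : ∀ i, cov A w x (bv i) = 0 := fun i => cov_zero h _
  simp only [mden, e, inner_zero_right, smul_zero, Finset.sum_const_zero]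

theorem mden_zero_left {u : M → Fb N} (w : M → Fb N) (h : x ∉ tsupport u) : mden g A u w x = 0 := by
  have e : ∀ i, cov A u x (bv i) = 0 := fun i => cov_zero h _
  simp only [mden, e, inner_zero_left, smul_zero, Finset.sum_const_zero]

theorem Geo.D_zero (γ : Geo n N) {w : Ec n → Fb N} (h : z ∉ tsupport w) (i : Fin n) :
    γ.D i w z = 0 := by
  have h1 : w =ᶠ[𝓝 z] fun _ => 0 := notMem_tsupport_iff_eventuallyEq.1 h
  rw [Geo.D, h1.fderiv_eq, h1.eq_of_nhds]
  simp

theorem Geo.den_zero_right (γ : Geo n N) (u : Ec n → Fb N) {w : Ec n → Fb N}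
    (h : z ∉ tsupport w) : γ.den u w z = 0 := by
  simp only [Geo.den, γ.D_zero h, inner_zero_right, smul_zero, Finset.sum_const_zero]

theorem Geo.den_zero_left (γ : Geo n N) {u : Ec n → Fb N} (w : Ec n → Fb N)
    (h : z ∉ tsupport u) : γ.den u w z = 0 := by
  simp only [Geo.den, γ.D_zero h, inner_zero_left, smul_zero, Finset.sum_const_zero]

theorem Geo.den_congr (γ : Geo n N) {u u' w w' : Ec n → Fb N} (hu : u =ᶠ[𝓝 z] u')
    (hw : w =ᶠ[𝓝 z] w') : γ.den u w z = γ.den u' w' z := by
  simp only [Geo.den, Geo.D, hu.fderiv_eq, hw.fderiv_eq, hu.eq_of_nhds, hw.eq_of_nhds]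

variable [MeasurableSpace M] [BorelSpace M] [T2Space M] {μ : Measure M}

omit [BorelSpace M] [T2Space M] in
theorem form_eq (g : Met I M) (μ : Measure M) (A : Conn I M N) (u w : M → Fb N) :
    form g μ A u w = ∫ x, mden g A u w x ∂μ := rfl

omit [T2Space M] in
theorem vol_map (hv : IsVol g μ) (p : M) : ∃ ν : Measure (extChartAt I p).target,
    μ.restrict (extChartAt I p).source =
      ν.map ((extChartAt I p).target.domRestrict (extChartAt I p).symm) ∧
    ν.map (↑) = (volume.restrict (extChartAt I p).target).withDensity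
      fun z => ENNReal.ofReal √(gm g p z).det := by
  obtain ⟨l, hl⟩ : ∃ l, l = (volume.restrict (extChartAt I p).target).withDensity
    fun z => ENNReal.ofReal √(gm g p z).det := ⟨_, rfl⟩
  have h1 : (l.comap (↑) : Measure (extChartAt I p).target).map (↑) = l := by
    rw [map_comap_subtype_coe (target_meas p), hl, restrict_withDensity (target_meas p),
      Measure.restrict_restrict (target_meas p), inter_self]
  refine ⟨l.comap (↑), ?_, h1.trans hl⟩
  have h2 : AEMeasurable (extChartAt I p).symm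
      ((l.comap (↑) : Measure (extChartAt I p).target).map (↑)) := by
    rw [h1, hl]
    exact symm_aem p _
  rw [hv p]
  refine Eq.trans ?_ (h2.map_map_of_aemeasurable measurable_subtype_coe.aemeasurable)
  rw [h1, hl]

omit [IsManifold I ∞ M] in
theorem symm_emb (p : M) :
    MeasurableEmbedding ((extChartAt I p).target.domRestrict (extChartAt I p).symm) :=
  (continuousOn_extChartAt_symm p).measurableEmbedding (target_meas p) (extChartAt I p).symm.injOn

/-- Integrals over the chart domain, with no measurability assumption. -/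
theorem vol_integral (hv : IsVol g μ) (p : M) (F : M → V) :
    ∫ x in (extChartAt I p).source, F x ∂μ =
      ∫ z in (extChartAt I p).target, √(gm g p z).det • F ((extChartAt I p).symm z) := by
  obtain ⟨ν, h1, h2⟩ := vol_map hv p
  rw [h1, (symm_emb p).integral_map]
  refine Eq.trans ((MeasurableEmbedding.subtype_coe (target_meas p)).integral_map
    (μ := ν) fun z => F ((extChartAt I p).symm z)).symm ?_
  rw [h2, integral_withDensity_eq_integral_toReal_smul₀
      ((dens_cont g p).aemeasurable (target_meas p)).ennreal_ofReal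
      (ae_of_all _ fun _ => ENNReal.ofReal_lt_top)]
  simp only [ENNReal.toReal_ofReal (Real.sqrt_nonneg _)]

theorem vol_lintegral (hv : IsVol g μ) (p : M) (F : M → ℝ≥0∞) :
    ∫⁻ x in (extChartAt I p).source, F x ∂μ = ∫⁻ z in (extChartAt I p).target,
      ENNReal.ofReal √(gm g p z).det * F ((extChartAt I p).symm z) := by
  obtain ⟨ν, h1, h2⟩ := vol_map hv p
  rw [h1, (symm_emb p).lintegral_map]
  refine Eq.trans ((MeasurableEmbedding.subtype_coe (target_meas p)).lintegral_map
    (μ := ν) fun z => F ((extChartAt I p).symm z)).symm ?_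
  rw [h2, lintegral_withDensity_eq_lintegral_mul_non_measurable₀ _
      ((dens_cont g p).aemeasurable (target_meas p)).ennreal_ofReal
      (ae_of_all _ fun _ => ENNReal.ofReal_lt_top)]
  rfl

/-- Integrals of functions supported in the chart domain. -/
theorem vol_integral' (hv : IsVol g μ) (p : M) {F : M → V} {f : Ec n → V}
    (h0 : ∀ x ∉ (extChartAt I p).source, F x = 0) (h1 : ∀ z ∉ (extChartAt I p).target, f z = 0)
    (h2 : ∀ z ∈ (extChartAt I p).target, F ((extChartAt I p).symm z) = f z) :
    ∫ x, F x ∂μ = ∫ z, (cg g A p).vol z • f z := by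
  rw [← setIntegral_eq_integral_of_forall_compl_eq_zero h0, vol_integral hv p,
    ← setIntegral_eq_integral_of_forall_compl_eq_zero (s := (extChartAt I p).target)
      (f := fun z => (cg g A p).vol z • f z) fun z hz => by rw [h1 z hz, smul_zero]]
  exact setIntegral_congr_fun (target_meas p) fun z hz => congrArg _ (h2 z hz)

/-- Lower integrals over a part of the chart. -/
theorem vol_lintegral_le (hv : IsVol g μ) (p : M) (F : M → ℝ≥0∞) (hm : MeasurableSet Ω)
    (hΩ : Ω ⊆ (extChartAt I p).target) {O : Set M} (hO' : MeasurableSet O)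
    (hO : MapsTo (extChartAt I p).symm Ω O) :
    ∫⁻ z in Ω, ENNReal.ofReal ((cg g A p).vol z) * F ((extChartAt I p).symm z) ≤
      ∫⁻ x in O, F x ∂μ := by
  rw [← lintegral_indicator hO']
  refine le_trans ?_ (setLIntegral_le_lintegral (extChartAt I p).source _)
  rw [vol_lintegral hv p]
  refine le_trans (le_of_eq (setLIntegral_congr_fun hm fun z hz => ?_)) (lintegral_mono_set hΩ)
  rw [indicator_of_mem (hO hz)]
  rfl

end Vale.Agent.P088.Gl
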