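import Vale.Agent.P088F.BExt
import Vale.Agent.P088F.BCo
import Vale.Agent.P088F.Dir
import Vale.Agent.P088F.TC1

/-! P088, part B: coefficients and sections in a boundary chart. -/

open MeasureTheory Set Metric Matrix Filter Topology Bundle
open scoped ContDiff Manifold

noncomputable section

namespace Vale.Agent.P088.B

variable {n N : ℕ} [NeZero n] {H : Type} [TopologicalSpace H] {I : ModelWithCorners ℝ (Ec n) H}
  {M : Type} [TopologicalSpace M] [ChartedSpace H M] [IsManifold I ∞ M]

/-- The coefficients in the chart at `p`. -/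
def cc (g : Met I M) (A : Conn I M N) (p : M) : Co n N where
  G z := gm g p z
  C z j := A.A ((extChartAt I p).symm z) (fr I p z (bv j))

open Classical in
/-- Extension by zero of a section given in the chart at `p`. -/
def lift (I : ModelWithCorners ℝ (Ec n) H) (p : M) (u : Ec n → Fb N) (x : M) : Fb N :=
  if x ∈ (extChartAt I p).source then u (extChartAt I p x) else 0

variable {p : M} {R : ℝ} {K : Set (Ec n)} {u : Ec n → Fb N}

theorem bd_iff (hI : range I = Hc n) {x : M} (hx : x ∈ (extChartAt I p).source) :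
    x ∈ I.boundary M ↔ extChartAt I p x 0 = 0 := by
  have h1 : extChartAt I p x ∈ Hc n :=
    hI ▸ extChartAt_target_subset_range p ((extChartAt I p).map_source hx)
  have h2 : interior (Hc n) = {y : Ec n | 0 < y 0} := interior_halfSpace 2 0 0
  rw [← I.compl_interior, mem_compl_iff, interior_iff hx, hI, h2, mem_ofPred_eq, not_lt]
  exact ⟨fun h => le_antisymm h h1, fun h => h.le⟩

theorem cc_ext (hI : range I = Hc n) (g : Met I M) (A : Conn I M N) (hp : p ∈ I.boundary M)
    (hR : 0 < R) (hT : closedBall (extChartAt I p p) R ∩ Hc n ⊆ (extChartAt I p).target) :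
    ∃ r > 0, r ≤ R ∧ ∃ D : Co n N, D.Good ∧
      ∀ y ∈ ball (extChartAt I p p) r ∩ Hc n, D.Eq (cc g A p) y := by
  have hs : ball (extChartAt I p p) R ∩ Hc n ⊆ (extChartAt I p).target :=
    (inter_subset_inter_left _ ball_subset_closedBall).trans hT
  exact ext_co (D := cc g A p) ((bd_iff hI (mem_extChartAt_source p)).1 hp) hR
    (fun j k => (gm_smooth g p j k).mono hs)
    (fun j => ((A.smooth.comp_contMDiffOn (sec_smooth p (bv j))).contDiffOn).mono hs)
    (fun _ hz => gm_pos g (hs hz)) fun _ _ _ => A.skew _ _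

theorem gam_ball (hI : range I = Hc n) {Γ O : Set M} (hO : IsOpen O) (hΓ : Γ = O ∩ I.boundary M)
    (hp : p ∈ Γ) : ∃ R > 0, closedBall (extChartAt I p p) R ∩ Hc n ⊆ (extChartAt I p).target ∧
      ∀ y ∈ closedBall (extChartAt I p p) R, y 0 = 0 → (extChartAt I p).symm y ∈ Γ := by
  subst hΓ
  have h1 : (extChartAt I p).target ∩ (extChartAt I p).symm ⁻¹' O ∈
      𝓝[range I] (extChartAt I p p) :=
    inter_mem (extChartAt_target_mem_nhdsWithin p)
      (mem_nhdsWithin_of_mem_nhds (extChartAt_preimage_mem_nhds (hO.mem_nhds hp.1)))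
  obtain ⟨R, hR, h2⟩ := (nhdsWithin_hasBasis nhds_basis_closedBall (range I)).mem_iff.1 h1
  rw [hI] at h2
  refine ⟨R, hR, fun y hy => (h2 hy).1, fun y hy h0 => ?_⟩
  obtain ⟨h3, h4⟩ := h2 ⟨hy, h0.ge⟩
  refine ⟨h4, (bd_iff hI ((extChartAt I p).map_target h3)).2 ?_⟩
  rw [(extChartAt I p).right_inv h3, h0]

omit [NeZero n] [IsManifold I ∞ M] in
theorem lift_symm (u : Ec n → Fb N) {y : Ec n} (hy : y ∈ (extChartAt I p).target) :
    lift I p u ((extChartAt I p).symm y) = u y := by
  rw [lift, if_pos ((extChartAt I p).map_target hy), (extChartAt I p).right_inv hy]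

theorem lift_off [T2Space M] (hI : range I = Hc n) (hK : IsCompact K)
    (hT : K ∩ Hc n ⊆ (extChartAt I p).target) (h0 : ∀ y ∉ K, u y = 0) :
    IsCompact ((extChartAt I p).symm '' (K ∩ Hc n)) ∧
      (extChartAt I p).symm '' (K ∩ Hc n) ⊆ (extChartAt I p).source ∧
      ∀ x ∉ (extChartAt I p).symm '' (K ∩ Hc n), lift I p u x = 0 := by
  have hc : IsClosed (Hc n) := hI ▸ I.isClosed_range
  refine ⟨(hK.inter_right hc).image_of_continuousOn ((continuousOn_extChartAt_symm p).mono hT),
    image_subset_iff.2 fun y hy => (extChartAt I p).map_target (hT hy), fun x hx => ?_⟩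
  rw [lift]
  split_ifs with h
  · refine h0 _ fun hk => hx ⟨_, ⟨hk, ?_⟩, (extChartAt I p).left_inv h⟩
    exact hI ▸ extChartAt_target_subset_range p ((extChartAt I p).map_source h)
  · rfl

theorem lift_smooth [T2Space M] (hI : range I = Hc n) (hK : IsCompact K)
    (hT : K ∩ Hc n ⊆ (extChartAt I p).target) (hu : ContDiff ℝ ∞ u) (h0 : ∀ y ∉ K, u y = 0) :
    ContMDiff I 𝓘(ℝ, Fb N) ∞ (lift I p u) := by
  obtain ⟨h1, h2, h3⟩ := lift_off hI hK hT h0
  refine contMDiff_of_tsupport fun x hx => ?_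
  have h4 := extChartAt_source_mem_nhds' (h2 (closure_minimal (s := Function.support (lift I p u))
    (fun y hy => by_contra fun k => hy (h3 y k)) h1.isClosed hx))
  have h5 : ContMDiffOn I 𝓘(ℝ, Fb N) ∞ (fun x => u (extChartAt I p x)) (extChartAt I p).source :=
    hu.contMDiff.comp_contMDiffOn (extChartAt_source I p ▸ contMDiffOn_extChartAt)
  exact ((h5.congr fun y hy => if_pos hy) _ (mem_of_mem_nhds h4)).contMDiffAt h4

theorem lift_test [T2Space M] (hI : range I = Hc n) {Γ : Set M} (hK : IsCompact K)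
    (hT : K ∩ Hc n ⊆ (extChartAt I p).target)
    (hΓ : ∀ y ∈ K, y 0 = 0 → (extChartAt I p).symm y ∈ Γ) (hu : ContDiff ℝ ∞ u)
    (h0 : ∀ y ∉ K, u y = 0) : IsTest I Γ (lift I p u) := by
  refine ⟨lift_smooth hI hK hT hu h0, ?_⟩
  have hc : IsClosed {y : Ec n | y 0 = 0} := isClosed_eq (by fun_prop) continuous_const
  have hs : K ∩ {y : Ec n | y 0 = 0} ⊆ (extChartAt I p).target := fun y hy =>
    hT ⟨hy.1, Eq.ge hy.2⟩
  refine (closure_minimal (fun x hx => ?_) ((hK.inter_right hc).image_of_continuousOn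
    ((continuousOn_extChartAt_symm p).mono hs)).isClosed).trans
    (image_subset_iff.2 fun y hy => hΓ y hy.1 hy.2)
  by_cases h : x ∈ (extChartAt I p).source
  · exact ⟨_, ⟨by_contra fun k => hx.2 ((if_pos h).trans (h0 _ k)), (bd_iff hI h).1 hx.1⟩,
      (extChartAt I p).left_inv h⟩
  · exact absurd (if_neg h) hx.2

theorem lift_bd (hI : range I = Hc n) {v : Ec n → Fb N} (h : ∀ y : Ec n, y 0 = 0 → u y = v y) :
    EqOn (lift I p u) (lift I p v) (I.boundary M) := by
  intro x hx
  rw [lift, lift]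
  split_ifs with k
  · exact h _ ((bd_iff hI k).1 hx)
  · rfl

end Vale.Agent.P088.B
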