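import Vale.Agent.P088F.BManA
import Vale.Agent.P088F.BIbp

/-! P088, part B: the energy in a boundary chart. -/

open MeasureTheory Set Metric Matrix Filter Topology Bundle
open scoped ContDiff Manifold

noncomputable section

namespace Vale.Agent.P088.B

variable {n N : ℕ} [NeZero n] {H : Type} [TopologicalSpace H] {I : ModelWithCorners ℝ (Ec n) H}
  {M : Type} [TopologicalSpace M] [ChartedSpace H M] [IsManifold I ∞ M]

variable [T2Space M] [MeasurableSpace M] [BorelSpace M] [CompactSpace M] {g : Met I M}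
  {μ : Measure M} {A : Conn I M N} {p : M} {R R' : ℝ} {D : Co n N} {K : Set (Ec n)}

omit [T2Space M] [MeasurableSpace M] [BorelSpace M] [CompactSpace M] in
/-- The energy density at an interior point of the chart. -/
theorem en_pt (hI : range I = Hc n) {a b : M → Fb N} (ha : ContMDiff I 𝓘(ℝ, Fb N) ∞ a)
    (hb : ContMDiff I 𝓘(ℝ, Fb N) ∞ b) {y : Ec n} (hy : y ∈ (extChartAt I p).target) (h0 : 0 < y 0)
    (hD : D.Eq (cc g A p) y) {a' b' : Ec n → Fb N}
    (ea : a' =ᶠ[𝓝 y] fun y => a ((extChartAt I p).symm y))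
    (eb : b' =ᶠ[𝓝 y] fun y => b ((extChartAt I p).symm y)) :
    √(gm g p y).det • en g (cov A a) (cov A b) ((extChartAt I p).symm y) = (D.en a' b' y).re := by
  have hr : range I ∈ 𝓝 y := by
    rw [hI]
    exact mem_of_superset (Hs_open.mem_nhds h0) fun z hz => le_of_lt (show (0 : ℝ) < z 0 from hz)
  have key : ∀ {a : M → Fb N}, ContMDiff I 𝓘(ℝ, Fb N) ∞ a → ∀ j,
      (cc g A p).cd j (fun y => a ((extChartAt I p).symm y)) y =
        cov A a ((extChartAt I p).symm y) (fr I p y (bv j)) := by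
    intro a ha j
    rw [Co.cd, pd, ((chart_fderiv ha hy).hasFDerivAt hr).fderiv]
    rfl
  rw [Co.en_congr hD ea eb, en_chart g (Fld.cov A ha) (Fld.cov A hb) hy]
  simp only [Co.en, key ha, key hb, ipm, Complex.re_sum, Complex.real_smul, Complex.re_ofReal_mul,
    re_inner, Co.sg, Matrix.smul_apply, smul_eq_mul, Finset.mul_sum, mul_assoc]
  rfl

omit [NeZero n] [T2Space M] [MeasurableSpace M] [BorelSpace M] [CompactSpace M] in
theorem BManB_zero (a : M → Fb N) {w : M → Fb N} {x : M} (h : x ∉ tsupport w) :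
    en g (cov A a) (cov A w) x = 0 := by
  have e : ∀ i, cov A w x (bv i) = 0 := fun i => Gl.cov_zero h _
  simp only [en, ipm, e, inner_zero_right, mul_zero, Finset.sum_const_zero]

theorem BManB_sub : Hs n ⊆ Hc n := fun z hz => le_of_lt (show (0 : ℝ) < z 0 from hz)

theorem form_loc (hI : range I = Hc n) (hv : IsVol g μ) (hD : D.Good)
    (hT : closedBall (extChartAt I p p) R ∩ Hc n ⊆ (extChartAt I p).target)
    (hE : ∀ y ∈ ball (extChartAt I p p) R ∩ Hc n, D.Eq (cc g A p) y) (hK : IsCompact K)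
    (hKR : K ⊆ ball (extChartAt I p p) R) {u ρ : Ec n → Fb N} (hu : ContDiff ℝ ∞ u)
    (h0 : ∀ y ∉ K, u y = 0) (hρ : ContDiff ℝ ∞ ρ) {a : M → Fb N}
    (ha : ContMDiff I 𝓘(ℝ, Fb N) ∞ a)
    (ea : ∀ y ∈ ball (extChartAt I p p) R ∩ Hc n, ρ y = a ((extChartAt I p).symm y)) :
    ∫ x, en g (cov A a) (cov A (lift I p u)) x ∂μ = (∫ y in Hs n, D.en ρ u y).re := by
  have hB : ball (extChartAt I p p) R ∩ Hc n ⊆ (extChartAt I p).target := fun y hy =>
    hT ⟨ball_subset_closedBall hy.1, hy.2⟩
  have hT' : K ∩ Hc n ⊆ (extChartAt I p).target := fun y hy => hB ⟨hKR hy.1, hy.2⟩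
  obtain ⟨hS, hSs, hS0⟩ := lift_off hI hK hT' h0
  have hl := lift_smooth hI hK hT' hu h0
  have hts : tsupport (lift I p u) ⊆ (extChartAt I p).symm '' (K ∩ Hc n) :=
    closure_minimal (fun x hx => by_contra fun h => hx (hS0 x h)) hS.isClosed
  have hoff := D.en_off hK.isClosed h0 ρ
  have hint : Integrable (D.en ρ u) := int_of_off (hD.en_smooth hρ hu).continuous hK hoff
  have hre : (∫ y in Hs n, D.en ρ u y).re = ∫ y in Hs n, (D.en ρ u y).re :=
    (integral_re hint.integrableOn).symm
  rw [hv.integral (p := p) (en_cont g (Fld.cov A ha) (Fld.cov A hl))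
    (fun x hx => BManB_zero a fun h => hx (hSs (hts h))), hre,
    ← integral_indicator (target_meas p), ← integral_indicator Hs_open.measurableSet]
  refine integral_congr_ae ?_
  filter_upwards [bibp_null] with z hz
  by_cases h1 : z ∈ K ∩ Hs n
  · have hb : z ∈ ball (extChartAt I p p) R ∩ Hc n := ⟨hKR h1.1, BManB_sub h1.2⟩
    have hn : ball (extChartAt I p p) R ∩ Hc n ∈ 𝓝 z :=
      mem_of_superset ((isOpen_ball.inter Hs_open).mem_nhds ⟨hKR h1.1, h1.2⟩)
        (inter_subset_inter_right _ BManB_sub)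
    rw [indicator_of_mem (hB hb), indicator_of_mem h1.2]
    refine en_pt hI ha hl (hB hb) h1.2 (hE z hb) ?_ ?_
    · filter_upwards [hn] with y hy using ea y hy
    · filter_upwards [hn] with y hy using (lift_symm u (hB hy)).symm
  · have e1 : (Hs n).indicator (fun y => (D.en ρ u y).re) z = 0 := by
      by_cases h2 : z ∈ Hs n
      · rw [indicator_of_mem h2, hoff z fun h => h1 ⟨h, h2⟩, Complex.zero_re]
      · exact indicator_of_notMem h2 _
    rw [e1]
    by_cases h2 : z ∈ (extChartAt I p).target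
    · rw [indicator_of_mem h2, BManB_zero a, smul_zero]
      intro h
      obtain ⟨w, hw, e⟩ := hts h
      have e' : w = z := (extChartAt I p).symm.injOn (hT' hw) h2 e
      subst e'
      exact h1 ⟨hw.1, lt_of_le_of_ne (show (0 : ℝ) ≤ w 0 from hw.2) hz.symm⟩
    · exact indicator_of_notMem h2 _

theorem form_ge (hI : range I = Hc n) (hv : IsVol g μ) (hR : R' < R)
    (hT : closedBall (extChartAt I p p) R ∩ Hc n ⊆ (extChartAt I p).target)
    (hE : ∀ y ∈ ball (extChartAt I p p) R' ∩ Hc n, D.Eq (cc g A p) y) {ρ : Ec n → Fb N}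
    {a : M → Fb N} (ha : ContMDiff I 𝓘(ℝ, Fb N) ∞ a)
    (ea : ∀ y ∈ ball (extChartAt I p p) R' ∩ Hc n, ρ y = a ((extChartAt I p).symm y)) :
    ∫ y in ball (extChartAt I p p) R' ∩ Hs n, (D.en ρ ρ y).re ≤
      ∫ x, en g (cov A a) (cov A a) x ∂μ := by
  have hBo : IsOpen (ball (extChartAt I p p) R' ∩ Hs n) := isOpen_ball.inter Hs_open
  have hB : ball (extChartAt I p p) R' ∩ Hs n ⊆ (extChartAt I p).target := fun y hy =>
    hT ⟨ball_subset_closedBall (ball_subset_ball hR.le hy.1), BManB_sub hy.2⟩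
  have hO := isOpen_extChartAt_preimage' (I := I) p hBo
  have h1 := Gl.vol_integral hv p (((extChartAt I p).source ∩
    extChartAt I p ⁻¹' (ball (extChartAt I p p) R' ∩ Hs n)).indicator (en g (cov A a) (cov A a)))
  have h2 : ∫ z in (extChartAt I p).target, √(gm g p z).det • ((extChartAt I p).source ∩
      extChartAt I p ⁻¹' (ball (extChartAt I p p) R' ∩ Hs n)).indicator
        (en g (cov A a) (cov A a)) ((extChartAt I p).symm z) =
      ∫ z in (extChartAt I p).target, (ball (extChartAt I p p) R' ∩ Hs n).indicator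
        (fun y => (D.en ρ ρ y).re) z := by
    refine setIntegral_congr_fun (target_meas p) fun z hz => ?_
    by_cases hb : z ∈ ball (extChartAt I p p) R' ∩ Hs n
    · have hm : (extChartAt I p).symm z ∈ (extChartAt I p).source ∩
          extChartAt I p ⁻¹' (ball (extChartAt I p p) R' ∩ Hs n) :=
        ⟨(extChartAt I p).map_target hz, by
          rw [mem_preimage, (extChartAt I p).right_inv hz]; exact hb⟩
      have he : ρ =ᶠ[𝓝 z] fun y => a ((extChartAt I p).symm y) := by
        filter_upwards [hBo.mem_nhds hb] with y hy using ea y ⟨hy.1, BManB_sub hy.2⟩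
      simp only [indicator_of_mem hm, indicator_of_mem hb]
      exact en_pt hI ha ha hz hb.2 (hE z ⟨hb.1, BManB_sub hb.2⟩) he he
    · have hm : (extChartAt I p).symm z ∉ (extChartAt I p).source ∩
          extChartAt I p ⁻¹' (ball (extChartAt I p p) R' ∩ Hs n) := fun h => hb (by
        have := h.2
        rwa [mem_preimage, (extChartAt I p).right_inv hz] at this)
      simp only [indicator_of_notMem hm, indicator_of_notMem hb, smul_zero]
  rw [h2, setIntegral_indicator hBo.measurableSet, inter_eq_right.2 hB,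
    setIntegral_indicator hO.measurableSet] at h1
  rw [← h1]
  exact setIntegral_le_integral (hv.int (en_cont g (Fld.cov A ha) (Fld.cov A ha)))
    (ae_of_all _ fun x => ipm_nonneg (gi_pos g x) _)

end Vale.Agent.P088.B
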