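import Vale.Agent.P088F.BExt0
import Vale.Agent.P234.Flow

/-! P088, part B: boundary normal coordinates. -/

open MeasureTheory Set Metric Matrix Filter Topology Asymptotics
open scoped ContDiff

noncomputable section

namespace Vale.Agent.P088.B

variable {n N : ℕ} [NeZero n]

open scoped RealInnerProductSpace

theorem nora_ld {E F : Type} [NormedAddCommGroup E] [NormedSpace ℝ E] [NormedAddCommGroup F]
    [NormedSpace ℝ F] {f : E → F} {x : E} (hf : DifferentiableAt ℝ f x) (v : E) :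
    HasDerivAt (fun t : ℝ => f (x + t • v)) (fderiv ℝ f x v) 0 := by
  have hl : HasDerivAt (fun t : ℝ => x + t • v) ((1 : ℝ) • v) 0 :=
    ((hasDerivAt_id (0 : ℝ)).smul_const v).const_add x
  have h : HasFDerivAt f (fderiv ℝ f x) (x + (0 : ℝ) • v) := by
    rw [zero_smul, add_zero]; exact hf.hasFDerivAt
  rw [one_smul] at hl
  exact h.comp_hasDerivAt (0 : ℝ) hl

omit [NeZero n] in
theorem nora_ev {z x : Ec n} {r : ℝ} (hx : x ∈ ball z r) (v : Ec n) :
    ∀ᶠ t in 𝓝 (0 : ℝ), x + t • v ∈ ball z r := by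
  have h : Continuous fun t : ℝ => x + t • v := by fun_prop
  exact h.continuousAt.eventually (isOpen_ball.mem_nhds (by simpa using hx))

theorem nora_const {f : Ec n → ℝ} {z : Ec n} {r : ℝ} (hz : z 0 = 0)
    (h : ∀ x ∈ ball z r, HasDerivAt (fun t : ℝ => f (x + t • bv 0)) 0 0) {x : Ec n}
    (hx : x ∈ ball z r) : f x = f (pr x) := by
  have d : ∀ t ∈ closedBall (0 : ℝ) |x 0|, HasDerivWithinAt (fun t : ℝ => f (pr x + t • bv 0)) 0
      (closedBall 0 |x 0|) t := fun t ht => by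
    have a := h _ (seg_mem hz hx (by simpa using ht))
    have b := HasDerivAt.comp_sub_const (f := fun s : ℝ => f (pr x + t • bv 0 + s • bv 0)) t t
      (by rwa [sub_self])
    simp only [add_assoc, ← add_smul, add_sub_cancel] at b
    exact b.hasDerivWithinAt
  have e := (convex_closedBall (0 : ℝ) |x 0|).norm_image_sub_le_of_norm_hasDerivWithin_le (C := 0) d
    (fun _ _ => norm_zero.le) (mem_closedBall_self (abs_nonneg _)) (show x 0 ∈ _ by simp)
  rw [zero_mul, norm_le_zero_iff, sub_eq_zero, pr_add_self, zero_smul, add_zero] at e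
  exact e

/-- The lemma of Gauss in Hamiltonian form. -/
theorem nora_gauss {H : Ec n × Ec n → ℝ} {V : Ec n × Ec n → Ec n × Ec n} (hH : Differentiable ℝ H)
    (h1 : ∀ p w, fderiv ℝ H p w = ⟪(V p).1, w.2⟫ - ⟪(V p).2, w.1⟫)
    (h2 : ∀ p, ⟪p.2, (V p).1⟫ = 2 * H p) {Φ : Ec n → Ec n × Ec n} (hΦ : ContDiff ℝ ∞ Φ)
    {z : Ec n} {r : ℝ} (hz : z 0 = 0) (hd : ∀ x ∈ ball z r, fderiv ℝ Φ x (bv 0) = V (Φ x))
    (h0 : ∀ x ∈ ball z r, x 0 = 0 → H (Φ x) = 1 / 2) :
    (∀ x ∈ ball z r, ⟪(Φ x).2, (fderiv ℝ Φ x (bv 0)).1⟫ = 1) ∧ ∀ w, ∀ x ∈ ball z r,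
      ⟪(Φ x).2, (fderiv ℝ Φ x w).1⟫ = ⟪(Φ (pr x)).2, (fderiv ℝ Φ (pr x) w).1⟫ := by
  have d1 : Differentiable ℝ Φ := hΦ.differentiable (by simp)
  have d2 : Differentiable ℝ (fderiv ℝ Φ) :=
    (hΦ.fderiv_right (m := ∞) le_rfl).differentiable (by simp)
  have dH : ∀ x v, HasDerivAt (fun t : ℝ => H (Φ (x + t • v)))
      (fderiv ℝ H (Φ x) (fderiv ℝ Φ x v)) 0 := fun x v => by
    have a := nora_ld ((hH (Φ x)).comp x (d1 x)) v
    rwa [fderiv_comp x (hH _) (d1 x)] at a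
  have c1 : ∀ x ∈ ball z r, H (Φ x) = 1 / 2 := fun x hx => by
    rw [nora_const (f := fun x => H (Φ x)) hz (fun y hy => ?_) hx]
    · exact h0 _ (pr_mem hz hx) (pr_zero x)
    · have a := dH y (bv 0)
      rwa [hd y hy, h1, real_inner_comm, sub_self] at a
  have c2 : ∀ x ∈ ball z r, ⟪(Φ x).2, (fderiv ℝ Φ x (bv 0)).1⟫ = 1 := fun x hx => by
    rw [hd x hx, h2, c1 x hx]; norm_num
  have dm : ∀ x v w, HasDerivAt
      (fun t : ℝ => ⟪(Φ (x + t • v)).2, (fderiv ℝ Φ (x + t • v) w).1⟫)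
      (⟪(Φ x).2, (fderiv ℝ (fderiv ℝ Φ) x v w).1⟫ +
        ⟪(fderiv ℝ Φ x v).2, (fderiv ℝ Φ x w).1⟫) 0 := fun x v w => by
    have a := (nora_ld (d2 x) v).clm_apply (hasDerivAt_const (0 : ℝ) w)
    simpa using HasDerivAt.inner ℝ (nora_ld (d1 x) v).snd a.fst
  refine ⟨c2, fun w x hx => nora_const (f := fun x => ⟪(Φ x).2, (fderiv ℝ Φ x w).1⟫) hz
    (fun y hy => ?_) hx⟩
  have e1 := (dm y w (bv 0)).unique ((hasDerivAt_const (0 : ℝ) (1 : ℝ)).congr_of_eventuallyEq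
    ((nora_ev hy w).mono fun t ht => c2 _ ht))
  have e2 := (dH y w).unique ((hasDerivAt_const (0 : ℝ) (1 / 2 : ℝ)).congr_of_eventuallyEq
    ((nora_ev hy w).mono fun t ht => c1 _ ht))
  have e3 : fderiv ℝ (fderiv ℝ Φ) y (bv 0) w = fderiv ℝ (fderiv ℝ Φ) y w (bv 0) :=
    (hΦ.contDiffAt.isSymmSndFDerivAt (by simpa using (WithTop.coe_le_coe.2 le_top :
      ((2 : ℕ∞) : WithTop ℕ∞) ≤ ∞))).eq _ _
  have a := dm y (bv 0) w
  rw [h1] at e2
  rw [hd y hy, real_inner_comm (V (Φ y)).1] at e1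
  rwa [e3, hd y hy, show _ + _ = (0 : ℝ) by linarith] at a

omit [NeZero n] in
theorem nora_inner (a b : Ec n) : ⟪a, b⟫ = ∑ i, a i * b i := by
  simp [PiLp.inner_apply, mul_comm]

omit [NeZero n] in
theorem nora_inv {D : Co n N} (hD : D.Good) (j k : Fin n) :
    ContDiff ℝ ∞ fun x => (D.G x)⁻¹ j k := by
  have hdet : ∀ f : Ec n → Matrix (Fin n) (Fin n) ℝ, (∀ i j, ContDiff ℝ ∞ fun x => f x i j) →
      ContDiff ℝ ∞ fun x => (f x).det := fun f h => by
    simp only [Matrix.det_apply']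
    exact ContDiff.sum fun σ _ => contDiff_const.mul (contDiff_prod fun i _ => h _ _)
  simp only [Matrix.inv_def, Ring.inverse_eq_inv', Matrix.smul_apply, smul_eq_mul,
    Matrix.adjugate_apply]
  refine ((hdet _ hD.sG).inv fun x => (hD.pos x).det_pos.ne').mul (hdet _ fun a b => ?_)
  simp only [Matrix.updateRow_apply]
  split_ifs
  · exact contDiff_const
  · exact hD.sG _ _

omit [NeZero n] in
/-- The Hamiltonian system of the metric. -/
theorem nora_ham {D : Co n N} (hD : D.Good) : ∃ (H : Ec n × Ec n → ℝ)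
    (V : Ec n × Ec n → Ec n × Ec n), Differentiable ℝ H ∧ ContDiff ℝ ∞ V ∧
      (∀ p w, fderiv ℝ H p w = ⟪(V p).1, w.2⟫ - ⟪(V p).2, w.1⟫) ∧
      (∀ p, ⟪p.2, (V p).1⟫ = 2 * H p) ∧ ∀ p i, (V p).1 i = ∑ k, (D.G p.1)⁻¹ i k * p.2 k := by
  set H : Ec n × Ec n → ℝ := fun p => 1 / 2 * ∑ j, ∑ k, (D.G p.1)⁻¹ j k * (p.2 j * p.2 k) with hH
  have pr2 : ∀ j, ContDiff ℝ ∞ fun p : Ec n × Ec n => p.2 j := fun j =>
    (EuclideanSpace.proj j : Ec n →L[ℝ] ℝ).contDiff.comp contDiff_snd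
  have sH : ContDiff ℝ ∞ H := contDiff_const.mul (ContDiff.sum fun j _ => ContDiff.sum fun k _ =>
    ((nora_inv hD j k).comp contDiff_fst).mul ((pr2 j).mul (pr2 k)))
  have dH : Differentiable ℝ H := sH.differentiable (by simp)
  have sD : ∀ w, ContDiff ℝ ∞ fun p => fderiv ℝ H p w := fun w =>
    (sH.fderiv_right (m := ∞) le_rfl).clm_apply contDiff_const
  have co : ∀ (a : Fin n → ℝ) (i : Fin n), (∑ k, a k • bv k : Ec n) i = a i := fun a i => by
    simp [bv, Pi.single_apply]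
  have e1 : ∀ p i, fderiv ℝ H p (0, bv i) = ∑ k, (D.G p.1)⁻¹ i k * p.2 k := fun p i => by
    have l : ∀ j, HasDerivAt (fun t : ℝ => p.2 j + t * bv i j) (bv i j) 0 := fun j => by
      simpa using ((hasDerivAt_id (0 : ℝ)).mul_const (bv i j)).const_add (p.2 j)
    have a := (HasDerivAt.fun_sum (u := Finset.univ) fun j _ => HasDerivAt.fun_sum
      (u := Finset.univ) fun k _ => ((l j).mul (l k)).const_mul ((D.G p.1)⁻¹ j k)).const_mul (1 / 2)
    have b := nora_ld (dH p) (0, bv i)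
    simp only [hH, Prod.smul_mk, smul_zero, Prod.fst_add, Prod.snd_add, add_zero, PiLp.add_apply,
      PiLp.smul_apply, smul_eq_mul] at b
    rw [b.unique a]
    have s : ∀ j k, (D.G p.1)⁻¹ j k = (D.G p.1)⁻¹ k j := fun j k =>
      (hD.pos p.1).inv.isHermitian.apply k j ▸ rfl
    simp only [zero_mul, add_zero, mul_add, Finset.sum_add_distrib, bv, PiLp.single_apply,
      ite_mul, mul_ite, one_mul, mul_one, mul_zero, Finset.sum_ite_eq', Finset.mem_univ, if_true]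
    rw [Finset.sum_comm]
    simp only [Finset.sum_ite_eq', Finset.mem_univ, if_true, fun j => s j i]
    ring
  refine ⟨H, fun p => (∑ i, fderiv ℝ H p (0, bv i) • bv i, -∑ i, fderiv ℝ H p (bv i, 0) • bv i),
    dH, (ContDiff.sum fun i _ => (sD _).smul contDiff_const).prodMk
      (ContDiff.sum fun i _ => (sD _).smul contDiff_const).neg, fun p w => ?_, fun p => ?_,
    fun p i => (co _ i).trans (e1 p i)⟩
  · have e : w = ∑ i, w.2 i • ((0 : Ec n), bv i) + ∑ i, w.1 i • (bv i, (0 : Ec n)) := by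
      ext i <;> simp [Prod.fst_sum, Prod.snd_sum, co]
    conv_lhs => rw [e]
    simp only [map_add, map_sum, map_smul, smul_eq_mul, inner_neg_left, nora_inner, co,
      sub_neg_eq_add, mul_comm]
  · simp only [nora_inner, co, e1]
    simp only [hH, Finset.mul_sum]
    exact Finset.sum_congr rfl fun j _ => Finset.sum_congr rfl fun k _ => by ring

theorem normal_map {D : Co n N} (hD : D.Good) {z : Ec n} (hz : z 0 = 0) :
    ∃ r > 0, ∃ Ψ : Ec n → Ec n, ContDiff ℝ ∞ Ψ ∧ (∀ x ∈ ball z r, x 0 = 0 → Ψ x = x) ∧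
      0 < fderiv ℝ Ψ z (bv 0) 0 ∧ ∀ x ∈ ball z r, ∀ j,
        ((jac Ψ x)ᵀ * D.G (Ψ x) * jac Ψ x) 0 j = if j = 0 then 1 else 0 := by
  obtain ⟨H, V, dH, sV, h1, h2, h3⟩ := nora_ham hD
  have q0 : ∀ x, 0 < (D.G x)⁻¹ 0 0 := fun x => (hD.pos x).inv.diag_pos
  set c : Ec n → ℝ := fun x => (√((D.G x)⁻¹ 0 0))⁻¹ with hc
  have c0 : ∀ x, 0 < c x := fun x => inv_pos.2 (Real.sqrt_pos.2 (q0 x))
  have sc : ContDiff ℝ ∞ c := ((nora_inv hD 0 0).sqrt fun x => (q0 x).ne').inv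
    fun x => (Real.sqrt_pos.2 (q0 x)).ne'
  set ι : Ec n → ℝ × Ec n × Ec n := fun x => (x 0, pr x, c (pr x) • bv 0) with hι
  have sι : ContDiff ℝ ∞ ι :=
    smooth_zero.prodMk (pr_smooth.prodMk ((sc.comp pr_smooth).smul contDiff_const))
  obtain ⟨φ, δ, hδ, f1, f2, f3⟩ := P234.exists_smooth_flow sV (ι z).2
  obtain ⟨R, hR, hm⟩ := Metric.eventually_nhds_iff_ball.1 (sι.continuous.continuousAt.eventually
    ((isOpen_ball.prod isOpen_ball).mem_nhds (show ι z ∈ ball 0 δ ×ˢ ball (ι z).2 δ from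
      ⟨by simpa [hι, hz] using hδ, mem_ball_self hδ⟩)))
  obtain ⟨Φ, sΦ, hΦ⟩ := glob_fun (half_lt_self hR) (f1.comp sι.contDiffOn hm)
  have hs : ball z (R / 2) ⊆ ball z R := ball_subset_ball (half_le_self hR.le)
  have d1 : Differentiable ℝ Φ := sΦ.differentiable (by simp)
  have hd : ∀ x ∈ ball z (R / 2), fderiv ℝ Φ x (bv 0) = V (Φ x) := fun x hx => by
    have a := f3 _ (hm x (hs hx)).2 _ (hm x (hs hx)).1
    have b := HasDerivAt.comp_const_add (f := fun s => φ (s, (ι x).2)) (x 0) 0 (by rwa [add_zero])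
    rw [hΦ x hx]
    refine (nora_ld (d1 x) (bv 0)).unique (b.congr_of_eventuallyEq ?_)
    filter_upwards [nora_ev hx (bv 0)] with t ht
    simp [hΦ _ ht, hι, pr_add, bv_zero]
  have hb : ∀ x ∈ ball z (R / 2), x 0 = 0 → Φ x = (x, c x • bv 0) := fun x hx h0 => by
    have a := f2 _ (hm x (hs hx)).2
    rw [hΦ x hx]
    simpa only [hι, h0, pr_of h0, Function.comp] using a
  have v1 : ∀ x i, (V (x, c x • bv 0)).1 i = (D.G x)⁻¹ i 0 * c x := fun x i => by
    simp [h3, bv]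
  obtain ⟨g1, g2⟩ := nora_gauss dH h1 h2 sΦ hz hd fun x hx h0 => by
    have a := h2 (x, c x • bv 0)
    have b : c x * ((D.G x)⁻¹ 0 0 * c x) = 1 := by
      have := Real.mul_self_sqrt (q0 x).le
      have := (Real.sqrt_pos.2 (q0 x)).ne'
      rw [hc]; field_simp; linarith
    simp only [nora_inner, v1] at a
    simp only [bv, PiLp.smul_apply, PiLp.single_apply, smul_eq_mul, mul_ite,
      mul_one, mul_zero, ite_mul, zero_mul, Finset.sum_ite_eq', Finset.mem_univ, if_true] at a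
    rw [hb x hx h0]
    unfold bv
    linarith
  have df : ∀ x v, fderiv ℝ (fun x => (Φ x).1) x v = (fderiv ℝ Φ x v).1 := fun x v => by
    rw [fderiv.fst (d1 x)]; rfl
  have hz' : z ∈ ball z (R / 2) := mem_ball_self (half_pos hR)
  refine ⟨R / 2, half_pos hR, fun x => (Φ x).1, sΦ.fst, fun x hx h0 => congrArg Prod.fst (hb x hx h0), ?_,
    fun x hx j => ?_⟩
  · rw [df, hd z hz', hb z hz' hz, v1]
    exact mul_pos (q0 z) (c0 z)
  have e1 : ∀ l, ((jac (fun x => (Φ x).1) x)ᵀ * D.G (Φ x).1) 0 l = (Φ x).2 l := fun l => by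
    have hu : IsUnit (D.G (Φ x).1).det := (hD.pos _).det_pos.ne'.isUnit
    have a := congrFun (mulVec_mulVec (fun k => (Φ x).2 k) (D.G (Φ x).1) (D.G (Φ x).1)⁻¹) l
    rw [mul_nonsing_inv _ hu, one_mulVec] at a
    rw [← a, mul_apply]
    refine Finset.sum_congr rfl fun k _ => ?_
    rw [transpose_apply, jac, of_apply, df, hd x hx, h3, mul_comm,
      show D.G (Φ x).1 k l = D.G (Φ x).1 l k from (hD.pos _).isHermitian.apply l k ▸ rfl]
    rfl
  have e2 : ((jac (fun x => (Φ x).1) x)ᵀ * D.G (Φ x).1 * jac (fun x => (Φ x).1) x) 0 j =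
      ⟪(Φ x).2, (fderiv ℝ Φ x (bv j)).1⟫ := by
    rw [mul_apply, nora_inner]
    exact Finset.sum_congr rfl fun l _ => by rw [e1, jac, of_apply, df]
  rw [e2]
  split_ifs with hj
  · rw [hj, g1 x hx]
  have hy := pr_mem hz hx
  have e3 : (fderiv ℝ Φ (pr x) (bv j)).1 = bv j := by
    have l : HasDerivAt (fun t : ℝ => pr x + t • bv j) ((1 : ℝ) • bv j) 0 :=
      ((hasDerivAt_id (0 : ℝ)).smul_const _).const_add _
    rw [one_smul] at l
    rw [← df]
    refine (nora_ld (d1 _).fst (bv j)).unique (l.congr_of_eventuallyEq ?_)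
    filter_upwards [nora_ev hy (bv j)] with t ht
    rw [hb _ ht (by simp [pr_zero, bv, Ne.symm hj])]
  rw [g2 _ x hx, e3, hb _ hy (pr_zero x), nora_inner]
  simp [bv, hj]

end Vale.Agent.P088.B
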