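import Vale.Agent.P088F.BHar

/-! P088, part B: the defect of an approximate solution. -/

open MeasureTheory Set Metric Matrix Filter Topology
open scoped ContDiff

noncomputable section

namespace Vale.Agent.P088.B

variable {n N : ℕ} [NeZero n] {W : Type} [NormedAddCommGroup W] [NormedSpace ℝ W]

theorem bqm_pt {s t A E η : ℝ} (hη : 0 < η) (hs : 0 ≤ s) (hE : 0 ≤ E) (ht : t ≤ A * E) :
    s * t ≤ η / 2 * (E * s ^ 2) + A ^ 2 / (2 * η) * E := by
  have h1 : s * A ≤ η / 2 * s ^ 2 + A ^ 2 / (2 * η) := by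
    have h2 : η / 2 * s ^ 2 + A ^ 2 / (2 * η) - s * A = (η * s - A) ^ 2 / (2 * η) := by
      field_simp
      ring
    have h3 : 0 ≤ (η * s - A) ^ 2 / (2 * η) := by positivity
    linarith
  have h2 := mul_le_mul_of_nonneg_left ht hs
  have h3 := mul_le_mul_of_nonneg_right h1 hE
  linarith

theorem qm {D : Co n N} (hD : D.Nf) {z : Ec n} (hz : z 0 = 0) {r r' : ℝ} (hr : r' < r) :
    ∃ C : ℝ, 0 ≤ C ∧ ∀ (u : Ec n → Fb N) (e a A : ℝ), ContDiff ℝ ∞ u →
      (∀ x ∉ closedBall z r', u x = 0) → 0 < a →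
      (∀ x : Ec n, 0 < x 0 → ‖D.op u x‖ ≤ A * Real.exp (-(a * x 0))) →
      D.Dfc (ball z r) u e → |e| ≤ C * A ^ 2 / a ^ 3 := by
  have hK : IsCompact (closedBall z r') := isCompact_closedBall z r'
  obtain ⟨c, c0, hc⟩ := (isCompact_closedBall z r).exists_forall_le'
    (hD.toGood.sg_smooth 0 0).continuous.continuousOn fun x _ => hD.sg00_pos x
  obtain ⟨C, C0, hC⟩ := box_up hK
  refine ⟨4 * C / c, by positivity, fun u e a A hu h0 ha hA ⟨ρ, hρ, hb, he, hl⟩ => ?_⟩
  have hH : MeasurableSet (Hs n) := Hs_open.measurableSet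
  have i1 : ∀ {F : Ec n → ℝ}, Continuous F → IntegrableOn F (ball z r ∩ Hs n) := fun hF =>
    (hF.continuousOn.integrableOn_compact (isCompact_closedBall z r)).mono_set
      (inter_subset_left.trans ball_subset_closedBall)
  have i2 : ∀ {F : Ec n → ℝ}, Continuous F → IntegrableOn F (closedBall z r' ∩ Hs n) := fun hF =>
    (hF.continuousOn.integrableOn_compact hK).mono_set inter_subset_left
  have a1 : c * ∫ x in ball z r ∩ Hs n, ‖pd 0 ρ x‖ ^ 2 ≤ e := by
    rw [← integral_const_mul]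
    refine le_trans (setIntegral_mono_on
      (i1 (continuous_const.mul ((pd_smooth hρ 0).continuous.norm.pow 2)))
      (i1 (Complex.continuous_re.comp (hD.toGood.en_smooth hρ hρ).continuous))
      (measurableSet_ball.inter hH) fun x hx => ?_) hl
    exact (mul_le_mul_of_nonneg_right (hc x (ball_subset_closedBall hx.1)) (sq_nonneg _)).trans
      (hD.en_ge ρ x)
  have e0 : 0 ≤ e := (integral_nonneg fun x => hD.toGood.en_nonneg ρ x).trans hl
  have a2 := hardy_exp hρ hz hr hb ha
  have a3 := hC a ha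
  have hE : Continuous fun x : Ec n => Real.exp (-(a * x 0)) := by fun_prop
  have j1 := i2 (F := fun x => Real.exp (-(a * x 0)) * ‖ρ x‖ ^ 2)
    (hE.mul (hρ.continuous.norm.pow 2))
  have j2 := i2 hE
  obtain ⟨η, hη⟩ : ∃ η, η = a ^ 2 * c / 4 := ⟨_, rfl⟩
  have η0 : 0 < η := by rw [hη]; positivity
  have a4 : e ≤ η / 2 * (∫ x in closedBall z r' ∩ Hs n, Real.exp (-(a * x 0)) * ‖ρ x‖ ^ 2) +
      A ^ 2 / (2 * η) * ∫ x in closedBall z r' ∩ Hs n, Real.exp (-(a * x 0)) := by
    rw [he, green hD.toGood hρ hu hK h0 fun x hx => hb x (closedBall_subset_ball hr hx),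
      setIntegral_eq_of_subset_of_forall_sdiff_eq_zero hH (s := closedBall z r' ∩ Hs n)
        inter_subset_right fun x hx => by
          rw [D.op_off isClosed_closedBall h0 x fun h => hx.2 ⟨h, hx.1⟩, inner_zero_right],
      ← integral_const_mul, ← integral_const_mul,
      ← integral_add (j1.const_mul _) (j2.const_mul _)]
    refine (Complex.re_le_norm _).trans ((norm_neg _).trans_le (norm_integral_le_of_norm_le
      ((j1.const_mul _).add (j2.const_mul _)) (ae_restrict_of_forall_mem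
        (measurableSet_closedBall.inter hH) fun x hx => ?_)))
    exact (norm_inner_le_norm _ _).trans
      (bqm_pt η0 (norm_nonneg _) (Real.exp_pos _).le (hA x hx.2))
  have a5 := mul_le_mul_of_nonneg_left a2 (half_pos η0).le
  have a6 := mul_le_mul_of_nonneg_left a3 (by positivity : 0 ≤ A ^ 2 / (2 * η))
  have a7 : η / 2 * (4 / a ^ 2) = c / 2 := by
    rw [hη]
    field_simp
  have a8 : 4 * C / c * A ^ 2 / a ^ 3 = 2 * (A ^ 2 / (2 * η) * (C / a)) := by
    rw [hη]
    field_simp
  rw [← mul_assoc, a7] at a5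
  rw [abs_of_nonneg e0, a8]
  linarith

end Vale.Agent.P088.B
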