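import Vale.Agent.P088F.BEx

/-! P088, part B: comparison of two operators. -/

open MeasureTheory Set Metric Matrix Filter Topology
open scoped ContDiff

noncomputable section

namespace Vale.Agent.P088.B

variable {n N : ℕ} [NeZero n] {W : Type} [NormedAddCommGroup W] [NormedSpace ℝ W]

variable {K s : Set (Ec n)} {μ : Ec n → ℝ} {ξ : Ec n} {D₁ D₂ : Co n N} {k : ℕ}
  {S : Fin n → Fin n → Ec n → ℝ} {T : Fin n → Ec n → Op N}

/-- Even part of the leading term. -/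
def ce (S : Fin n → Fin n → Ec n → ℝ) (ξ : Ec n) (μ : Ec n → ℝ) (x : Ec n) : ℝ :=
  S 0 0 x * μ x ^ 2 + ∑ i, ∑ j, S i j x * ξ i * ξ j

/-- Odd part of the leading term. -/
def co (D : Co n N) (T : Fin n → Ec n → Op N) (ξ : Ec n) (v : Fb N) (x : Ec n) : ℝ :=
  2 * ∑ i, ∑ j, D.sg x i j * ξ i * (inner ℂ (Complex.I • v) (T j x v)).re

/-- The coefficients agree to order `k`. -/
structure Ord (D₁ D₂ : Co n N) (s : Set (Ec n)) (k : ℕ) (S : Fin n → Fin n → Ec n → ℝ)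
    (T : Fin n → Ec n → Op N) : Prop where
  sS : ∀ i j, ContDiff ℝ ∞ (S i j)
  sT : ∀ j, ContDiff ℝ ∞ (T j)
  eS : ∀ x ∈ s, ∀ i j, D₁.sg x i j - D₂.sg x i j = x 0 ^ (k + 1) * S i j x
  eT : ∀ x ∈ s, ∀ j, D₁.C x j - D₂.C x j = x 0 ^ k • T j x

theorem stepa_dl (hKs : K ⊆ s) (h : Ord D₁ D₂ s k S T) {m : ℤ} {b : ℝ → Ec n → Fb N}
    (hb : Sy K m b) (j : Fin n) :
    Sy K (m - k) fun l x => D₁.dl ξ μ l j (b l) x - D₂.dl ξ μ l j (b l) x := by
  refine ((hb.op (h.sT j)).tpow k).congr fun l hl x => ?_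
  have e : D₁.dl ξ μ l j (b l) x - D₂.dl ξ μ l j (b l) x = (D₁.C x j - D₂.C x j) (b l x) := by
    simp only [Co.dl, Co.cd, _root_.sub_apply]
    abel
  rw [e]
  by_cases hx : x ∈ K
  · rw [h.eT x (hKs hx) j]
    rfl
  · rw [hb.off hl x hx, map_zero, map_zero, smul_zero]

theorem stepa_sg (hKs : K ⊆ s) (h : Ord D₁ D₂ s k S T) {b : ℝ → Ec n → Fb N}
    (hb : Sy K (0 + 1) b) (i j : Fin n) :
    Sy K (0 - k) fun l x => (D₁.sg x i j - D₂.sg x i j) • b l x := by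
  refine (((hb.smul (h.sS i j)).tpow (k + 1)).mono (by push_cast; omega)).congr fun l hl x => ?_
  by_cases hx : x ∈ K
  · rw [h.eS x (hKs hx) i j, mul_smul]
  · rw [hb.off hl x hx, smul_zero, smul_zero, smul_zero]

theorem pl_diff (h₁ : D₁.Good) (h₂ : D₂.Good) (hs : IsOpen s) (hK : IsClosed K) (hKs : K ⊆ s)
    (hμ : ContDiff ℝ ∞ μ) (h : Ord D₁ D₂ s k S T) {a : ℝ → Ec n → Fb N} (ha : Sy K 0 a) :
    Sy K (1 - k) fun l x => D₁.pl ξ μ l (a l) x - D₂.pl ξ μ l (a l) x := by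
  have hB : ∀ {D : Co n N}, D.Good → ∀ j,
      Sy K (0 + 1) fun l x => ∑ i, D.sg x j i • D.dl ξ μ l i (a l) x := fun hD j =>
    Sy.sum _ fun i _ => (ha.dl hK hD hμ i).smul (hD.sg_smooth j i)
  have hE : ∀ j, Sy K (0 - k) fun l x => ∑ i, D₁.sg x j i • D₁.dl ξ μ l i (a l) x -
      ∑ i, D₂.sg x j i • D₂.dl ξ μ l i (a l) x := fun j => by
    refine (Sy.sum Finset.univ fun i _ => (stepa_sg hKs h (ha.dl (ξ := ξ) hK h₁ hμ i) j i).add
      ((stepa_dl (ξ := ξ) (μ := μ) hKs h ha i).smul (h₂.sg_smooth j i))).congr fun l _ x => ?_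
    rw [← Finset.sum_sub_distrib]
    refine Finset.sum_congr rfl fun i _ => ?_
    rw [sub_smul, smul_sub, sub_add_sub_cancel]
  refine (Sy.sum Finset.univ fun j _ =>
    ((stepa_dl (ξ := ξ) (μ := μ) hKs h (hB h₁ j) j).mono (m' := 1 - k) (by omega)).add
      (((hE j).dl (ξ := ξ) hK h₂ hμ j).mono (by omega))).congr fun l hl x => ?_
  rw [Co.pl, Co.pl, ← Finset.sum_sub_distrib]
  refine Finset.sum_congr rfl fun j _ => ?_
  have h1 := dl_add (D := D₂) (ξ := ξ) (μ := μ) (l := l) ((hB h₂ j).smooth hl) ((hE j).smooth hl) j x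
  simp only [add_sub_cancel] at h1
  rw [h1]
  abel

end Vale.Agent.P088.B
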