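import Vale.Agent.P088F.BStepA

/-! P088, part B: comparison of two energies. -/

open MeasureTheory Set Metric Matrix Filter Topology
open scoped ContDiff

noncomputable section

namespace Vale.Agent.P088.B

variable {n N : ℕ} [NeZero n] {W : Type} [NormedAddCommGroup W] [NormedSpace ℝ W]

variable {K s : Set (Ec n)} {μ : Ec n → ℝ} {ξ : Ec n} {D₁ D₂ : Co n N} {k : ℕ}
  {S : Fin n → Fin n → Ec n → ℝ} {T : Fin n → Ec n → Op N}

omit [NeZero n] in
theorem bstepb_l (c : ℝ) (u w : Fb N) : (inner ℂ (c • u) w).re = c * (inner ℂ u w).re := by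
  rw [← Complex.coe_smul, inner_smul_left]
  simp

omit [NeZero n] in
theorem bstepb_r (c : ℝ) (u w : Fb N) : (inner ℂ u (c • w)).re = c * (inner ℂ u w).re := by
  rw [← Complex.coe_smul, inner_smul_right]
  simp

omit [NeZero n] in
theorem bstepb_alg {σ₁ σ₂ S : Fin n → Fin n → ℝ} {t : ℝ} (h : ∀ i j, σ₁ i j - σ₂ i j = t * S i j)
    (hs : ∀ i j, σ₂ i j = σ₂ j i) {A A' L d e : Fin n → Fb N} (b : Fin n → Fb N)
    (hA : ∀ i, A' i = A i - d i) (hd : ∀ i, d i = b i + e i) :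
    (∑ i, ∑ j, σ₁ i j * (inner ℂ (A i) (A j)).re) - (∑ i, ∑ j, σ₂ i j * (inner ℂ (A' i) (A' j)).re) -
      (t * ∑ i, ∑ j, S i j * (inner ℂ (L i) (L j)).re +
        2 * ∑ i, ∑ j, σ₂ i j * (inner ℂ (L i) (b j)).re) =
      ∑ i, ∑ j, (S i j * t • ((inner ℂ (L i) (A j - L j)).re + (inner ℂ (A i - L i) (A j)).re) +
        σ₂ i j * ((inner ℂ (L i) (e j)).re + (inner ℂ (A i - L i) (d j)).re +
          (inner ℂ (e i) (L j)).re + (inner ℂ (d i) (A j - L j)).re - (inner ℂ (d i) (d j)).re)) := by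
  have k : ∑ i, ∑ j, σ₂ i j * (inner ℂ (L i) (b j)).re =
      ∑ i, ∑ j, σ₂ i j * (inner ℂ (b i) (L j)).re :=
    Finset.sum_comm.trans (Finset.sum_congr rfl fun i _ => Finset.sum_congr rfl fun j _ => by
      rw [hs j i]
      exact congrArg _ (inner_re_symm (𝕜 := ℂ) _ _))
  rw [two_mul]
  nth_rewrite 2 [k]
  simp only [Finset.mul_sum, ← Finset.sum_add_distrib, ← Finset.sum_sub_distrib]
  refine Finset.sum_congr rfl fun i _ => Finset.sum_congr rfl fun j _ => ?_
  simp only [sub_eq_iff_eq_add.1 (h i j), hA, hd, inner_add_left, inner_add_right, inner_sub_left,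
    inner_sub_right, Complex.add_re, Complex.sub_re, smul_eq_mul]
  ring

theorem bstepb_ce (S : Fin n → Fin n → Ec n → ℝ) (ξ : Ec n) (μ : Ec n → ℝ) (x : Ec n) (v : Fb N) :
    ∑ i, ∑ j, S i j x * (inner ℂ (ph0 ξ μ i x • v) (ph0 ξ μ j x • v)).re =
      ce S ξ μ x * ‖v‖ ^ 2 := by
  have e : ∀ i j, S i j x * (inner ℂ (ph0 ξ μ i x • v) (ph0 ξ μ j x • v)).re =
      ((if j = 0 then if i = 0 then S i j x * μ x ^ 2 else 0 else 0) + S i j x * ξ i * ξ j) *
        ‖v‖ ^ 2 := fun i j => by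
    rw [inner_smul_left, inner_smul_right, inner_self_eq_norm_sq_to_K, ph0, ph0]
    split_ifs <;> simp [← Complex.ofReal_pow] <;> ring
  simp only [e, ← Finset.sum_mul, Finset.sum_add_distrib, Finset.sum_ite_eq', Finset.mem_univ,
    if_true, ce]

theorem bstepb_co (h₂ : D₂.Nf) {x : Ec n} {t : ℝ} (h0 : t • T 0 x = 0) (v : Fb N) :
    2 * ∑ i, ∑ j, D₂.sg x i j * (inner ℂ (ph0 ξ μ i x • v) (t • T j x v)).re =
      t * co D₂ T ξ v x := by
  rw [co, mul_left_comm]
  simp only [Finset.mul_sum]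
  refine Finset.sum_congr rfl fun i _ => Finset.sum_congr rfl fun j _ => congrArg _ ?_
  rw [ph0, sub_smul, mul_comm Complex.I, mul_smul, Complex.coe_smul, inner_sub_left,
    Complex.sub_re, bstepb_l, bstepb_r, mul_sub]
  refine (congrArg _ ?_).trans ((sub_zero _).trans (by ring))
  by_cases hi : i = 0
  · by_cases hj : j = 0
    · rw [hj, ← _root_.smul_apply, h0]
      simp
    · rw [hi, h₂.sg0, if_neg hj, zero_mul]
  · simp [hi]

theorem en_diff (h₁ : D₁.Nf) (h₂ : D₂.Nf) (hK : IsClosed K) (hKs : K ⊆ s) (hξ0 : ξ 0 = 0)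
    (hμ : ContDiff ℝ ∞ μ) (h : Ord D₁ D₂ s k S T) {β : Ec n → ℝ} (hβ : ContDiff ℝ ∞ β)
    (hβK : ∀ x ∉ K, β x = 0) (v : Fb N) {a : ℝ → Ec n → Fb N} (ha : Sy K (-1) a) :
    Sy K (-k) fun l x =>
      (∑ i, ∑ j, D₁.sg x i j * (inner ℂ (D₁.dl ξ μ l i (fun y => β y • v + a l y) x)
        (D₁.dl ξ μ l j (fun y => β y • v + a l y) x)).re) -
      (∑ i, ∑ j, D₂.sg x i j * (inner ℂ (D₂.dl ξ μ l i (fun y => β y • v + a l y) x)
        (D₂.dl ξ μ l j (fun y => β y • v + a l y) x)).re) -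
      β x ^ 2 * (l ^ 2 * x 0 ^ (k + 1) * (ce S ξ μ x * ‖v‖ ^ 2) + l * x 0 ^ k * co D₂ T ξ v x) := by
  have q : ∀ {m m' p : ℤ} {f g : ℝ → Ec n → Fb N}, Sy K m f → Sy K m' g → m + m' ≤ p →
      Sy K p fun l x => (inner ℂ (f l x) (g l x)).re := fun hf hg h => (hf.inner hg).re.mono h
  have hb0 : Sy K 0 fun _ x => β x • v :=
    Sy.of (hβ.smul contDiff_const) fun x hx => by rw [hβK x hx, zero_smul]
  have hb : Sy K 0 fun l x => β x • v + a l x := hb0.add (ha.mono (by norm_num))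
  have A := Sy.dl (ξ := ξ) hK h₁.toGood hμ hb
  have A' := Sy.dl (ξ := ξ) hK h₂.toGood hμ hb
  have L := fun i => (hb0.csmul (ph0_smooth ξ hμ i)).lam
  have E := Sy.dl_lead (ξ := ξ) hK h₁.toGood hμ hβ hβK v ha
  have d := fun j => (hb.op (h.sT j)).tpow k
  have e := fun j => (ha.op (h.sT j)).tpow k
  have R := Sy.sum Finset.univ fun i _ => Sy.sum Finset.univ fun j _ =>
    (((((q (p := 1) (L i) (E j) (by omega)).add (q (E i) (A j) (by omega))).tpow (k + 1)).mul
      (h.sS i j)).mono (m' := -k) (by omega)).add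
      ((((((q (L i) (e j) (by omega)).add (q (E i) (d j) (by omega))).add
        (q (e i) (L j) (by omega))).add (q (d i) (E j) (by omega))).sub
        (q (d i) (d j) (by omega))).mul (h₂.toGood.sg_smooth i j))
  refine R.congr fun l hl x => ?_
  by_cases hx : x ∈ K
  · refine Eq.trans (congrArg _ ?_) (bstepb_alg (h.eS x (hKs hx)) (h₂.toGood.sg_symm x)
      (fun j => x 0 ^ k • T j x (β x • v)) (fun i => ?_) fun i => by rw [map_add, smul_add])
    · have h0 : x 0 ^ k • T 0 x = 0 := by rw [← h.eT x (hKs hx), h₁.c0, h₂.c0, sub_zero]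
      have k1 := bstepb_ce S ξ μ x (β x • v)
      have k2 := bstepb_co (ξ := ξ) (μ := μ) h₂ h0 (β x • v)
      have k3 : co D₂ T ξ (β x • v) x = β x ^ 2 * co D₂ T ξ v x := by
        simp only [co, ← smul_comm (β x) Complex.I, ContinuousLinearMap.map_smul_of_tower, bstepb_l,
          bstepb_r, Finset.mul_sum]
        exact Finset.sum_congr rfl fun i _ => Finset.sum_congr rfl fun j _ => by ring
      simp only [bstepb_l l, bstepb_r l, mul_left_comm _ l, ← Finset.mul_sum]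
      rw [k1, k2, k3, norm_smul, mul_pow, Real.norm_eq_abs, sq_abs]
      ring
    · rw [← _root_.smul_apply, ← h.eT x (hKs hx), Co.dl, Co.dl, Co.cd, Co.cd, _root_.sub_apply]
      abel
  · refine Eq.trans ?_ (R.off hl x hx).symm
    simp [fun i => (A i).off hl x hx, fun i => (A' i).off hl x hx, hβK x hx]

end Vale.Agent.P088.B
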