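import Vale.Agent.P088F.BStepB
import Vale.Agent.P088F.BDfc
import Vale.Agent.P088F.BVan

/-! P088, part B: the leading terms vanish. -/

open MeasureTheory Set Metric Matrix Filter Topology
open scoped ContDiff

noncomputable section

namespace Vale.Agent.P088.B

variable {n N : ℕ} [NeZero n] {W : Type} [NormedAddCommGroup W] [NormedSpace ℝ W]

variable {ξ z : Ec n} {D₁ D₂ : Co n N} {k : ℕ} {r : ℝ}
  {S : Fin n → Fin n → Ec n → ℝ} {T : Fin n → Ec n → Op N}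

theorem bstepc_en {D : Co n N} (hD : D.Good) {μ : Ec n → ℝ} (hμ : ContDiff ℝ ∞ μ) {K : Set (Ec n)}
    (hK : IsCompact K) {b : Ec n → Fb N} (hb : ContDiff ℝ ∞ b) (h0 : ∀ x ∉ K, b x = 0) (l : ℝ) :
    (Integrable fun x => Real.exp (-(l * (2 * μ x) * x 0)) *
      ∑ i, ∑ j, D.sg x i j * (inner ℂ (D.dl ξ μ l i b x) (D.dl ξ μ l j b x)).re) ∧
    (∫ x in Hs n, D.en (fun y => ex ξ μ l y • b y) (fun y => ex ξ μ l y • b y) x).re =
      ∫ x in Hs n, Real.exp (-(l * (2 * μ x) * x 0)) *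
        ∑ i, ∑ j, D.sg x i j * (inner ℂ (D.dl ξ μ l i b x) (D.dl ξ μ l j b x)).re := by
  have hu : ContDiff ℝ ∞ fun y => ex ξ μ l y • b y := (ex_smooth ξ hμ l).smul hb
  have hi : Integrable (D.en (fun y => ex ξ μ l y • b y) (fun y => ex ξ μ l y • b y)) :=
    int_of_off (hD.en_smooth hu hu).continuous hK
      (D.en_off hK.isClosed (fun x hx => by rw [h0 x hx, smul_zero]) _)
  simp only [← en_ex hμ hb]
  exact ⟨hi.re, (integral_re hi.integrableOn).symm⟩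

theorem step_int (h₁ : D₁.Nf) (h₂ : D₂.Nf) (hz : z 0 = 0) (hE : DNE D₁ D₂ (ball z r))
    (h : Ord D₁ D₂ (ball z r) k S T) (hξ : ξ ≠ 0) (hξ0 : ξ 0 = 0) (v : Fb N) {β : Ec n → ℝ}
    (hβ : ContDiff ℝ ∞ β) {r' : ℝ} (hr : r' < r) (hβK : ∀ x ∉ closedBall z r', β x = 0) :
    ∃ C : ℝ, ∀ l : ℝ, 1 ≤ l →
      |∫ x in Hs n, Real.exp (-(l * (2 * D₁.mu ξ x) * x 0)) * (β x ^ 2 *
        (l ^ 2 * x 0 ^ (k + 1) * (ce S ξ (D₁.mu ξ) x * ‖v‖ ^ 2) + l * x 0 ^ k * co D₂ T ξ v x))| ≤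
        C * l ^ (-(k : ℤ) - 1) := by
  have hK : IsCompact (closedBall z r') := isCompact_closedBall z r'
  have hKs : closedBall z r' ⊆ ball z r := closedBall_subset_ball hr
  have hμ := h₁.toGood.mu_smooth hξ
  have hμ0 := h₁.toGood.mu_pos hξ
  obtain ⟨a, ha, -, hp⟩ := wkb hK.isClosed h₁ hξ hξ0 hβ hβK v k
  have hb : Sy (closedBall z r') 0 fun l y => β y • v + a l y :=
    (Sy.of (c := fun y => β y • v) (hβ.smul contDiff_const)
      fun x hx => by rw [hβK x hx, zero_smul]).add (ha.mono (by norm_num))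
  have hp2 : Sy (closedBall z r') (1 - k)
      fun l => D₂.pl ξ (D₁.mu ξ) l fun y => β y • v + a l y :=
    (hp.sub (pl_diff (ξ := ξ) h₁.toGood h₂.toGood isOpen_ball hK.isClosed hKs hμ h hb)).congr
      fun l _ x => (sub_sub_cancel _ _).symm
  obtain ⟨C₁, hC₁⟩ := dfc_bound h₁ hz hr hμ hμ0 hb hp
  obtain ⟨C₂, hC₂⟩ := dfc_bound h₂ hz hr hμ hμ0 hb hp2
  have hR := en_diff h₁ h₂ hK.isClosed hKs hξ0 hμ h hβ hβK v ha
  have hc2 : Continuous fun x => 2 * D₁.mu ξ x := continuous_const.mul hμ.continuous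
  obtain ⟨C₃, hC₃⟩ := hR.int hK hc2 fun x => mul_pos two_pos (hμ0 x)
  refine ⟨|C₁| + |C₂| + C₃, fun l hl => ?_⟩
  have hu : ContDiff ℝ ∞ fun y => ex ξ (D₁.mu ξ) l y • (β y • v + a l y) :=
    (ex_smooth ξ hμ l).smul (hb.smooth hl)
  have hu0 : ∀ x ∉ closedBall z r', ex ξ (D₁.mu ξ) l x • (β x • v + a l x) = 0 := fun x hx => by
    rw [hb.off hl x hx, smul_zero]
  obtain ⟨e₁, e₂, d₁, d₂, he⟩ := hE _ _ hu hu _ hK hKs hu0 hu0 fun _ _ => rfl
  obtain ⟨i₁, j₁⟩ := bstepc_en (ξ := ξ) h₁.toGood hμ hK (hb.smooth hl) (hb.off hl) l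
  obtain ⟨i₂, j₂⟩ := bstepc_en (ξ := ξ) h₂.toGood hμ hK (hb.smooth hl) (hb.off hl) l
  have i₃ := hR.intg hK hc2 hl
  have k₁ := hC₁ l hl e₁ d₁
  have k₂ := hC₂ l hl e₂ d₂
  have k₃ := hC₃ l hl
  rw [j₁, j₂] at he
  have hs := integral_sub (μ := volume.restrict (Hs n))
    (i₁.integrableOn.sub i₂.integrableOn) i₃.integrableOn
  simp only [Pi.sub_apply] at hs
  rw [integral_sub i₁.integrableOn i₂.integrableOn] at hs
  simp only [← mul_sub, sub_sub_cancel] at hs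
  have hp0 : 0 < l ^ (2 * (1 - (k : ℤ)) - 3) := zpow_pos (by linarith) _
  have hle : l ^ (2 * (1 - (k : ℤ)) - 3) ≤ l ^ (-(k : ℤ) - 1) :=
    zpow_le_zpow_right₀ hl (by omega)
  have m₁ : |e₁| ≤ |C₁| * l ^ (-(k : ℤ) - 1) :=
    k₁.trans (mul_le_mul (le_abs_self _) hle hp0.le (abs_nonneg _))
  have m₂ : |e₂| ≤ |C₂| * l ^ (-(k : ℤ) - 1) :=
    k₂.trans (mul_le_mul (le_abs_self _) hle hp0.le (abs_nonneg _))
  rw [hs, abs_le]
  rw [abs_le] at m₁ m₂ k₃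
  constructor <;> linarith [m₁.1, m₁.2, m₂.1, m₂.2, k₃.1, k₃.2]

theorem step_van (h₁ : D₁.Nf) (h₂ : D₂.Nf) (hz : z 0 = 0) (hE : DNE D₁ D₂ (ball z r))
    (h : Ord D₁ D₂ (ball z r) k S T) (hξ : ξ ≠ 0) (hξ0 : ξ 0 = 0) (v : Fb N) :
    ∀ x ∈ ball z r, x 0 = 0 → ce S ξ (D₁.mu ξ) x * ‖v‖ ^ 2 = 0 ∧ co D₂ T ξ v x = 0 := by
  have hμ := (h₁.toGood.mu_smooth hξ).continuous
  have hc2 : Continuous fun x => 2 * D₁.mu ξ x := continuous_const.mul hμ
  have hS : ∀ i j, Continuous (S i j) := fun i j => (h.sS i j).continuous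
  have hT : ∀ j, Continuous (T j) := fun j => (h.sT j).continuous
  have hsg : ∀ i j, Continuous fun x => D₂.sg x i j := fun i j =>
    (h₂.toGood.sg_smooth i j).continuous
  have hce : Continuous fun x => ce S ξ (D₁.mu ξ) x * ‖v‖ ^ 2 := by
    unfold ce
    fun_prop
  have hco : Continuous fun x => co D₂ T ξ v x := by
    unfold co
    refine continuous_const.mul (continuous_finsetSum _ fun i _ =>
      continuous_finsetSum _ fun j _ => ((hsg i j).mul continuous_const).mul ?_)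
    exact Complex.continuous_re.comp (continuous_const.inner ((hT j).clm_apply continuous_const))
  have key : ∀ β : Ec n → ℝ, ContDiff ℝ ∞ β → ∀ r' < r, (∀ x ∉ closedBall z r', β x = 0) →
      ∃ C : ℝ, ∀ l : ℝ, 1 ≤ l →
        |l ^ 2 * ∫ x in Hs n, Real.exp (-(l * (2 * D₁.mu ξ x) * x 0)) *
          (β x ^ 2 * x 0 ^ (k + 1) * (ce S ξ (D₁.mu ξ) x * ‖v‖ ^ 2))| ≤ C * l ^ (-(k : ℤ) - 1) ∧
        |l * ∫ x in Hs n, Real.exp (-(l * (2 * D₁.mu ξ x) * x 0)) *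
          (β x ^ 2 * x 0 ^ k * co D₂ T ξ v x)| ≤ C * l ^ (-(k : ℤ) - 1) := by
    intro β hβ r' hr hβK
    obtain ⟨C, hC⟩ := step_int h₁ h₂ hz hE h hξ hξ0 v hβ hr hβK
    obtain ⟨C', hC'⟩ := step_int h₁ h₂ hz hE h (neg_ne_zero.2 hξ) (by simp [hξ0]) v hβ hr hβK
    refine ⟨(C + C') / 2, fun l hl => ?_⟩
    have a₁ := hC l hl
    have a₂ := hC' l hl
    have hβc := hβ.continuous
    have hx0 : Continuous fun x : Ec n => x 0 := (coord_smooth 0).continuous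
    have hi : ∀ (j : ℕ) (c : Ec n → ℝ), Continuous c → ∀ t : ℝ, IntegrableOn (fun x =>
        t * (Real.exp (-(l * (2 * D₁.mu ξ x) * x 0)) * (β x ^ 2 * x 0 ^ j * c x))) (Hs n) :=
      fun j c hc t => (int_of_off (by fun_prop) (isCompact_closedBall z r')
        fun x hx => by simp [hβK x hx]).integrableOn
    have b₁ := integral_add (hi (k + 1) _ hce (l ^ 2)) (hi k _ hco l)
    have b₂ := integral_sub (hi (k + 1) _ hce (l ^ 2)) (hi k _ hco l)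
    rw [integral_const_mul, integral_const_mul] at b₁ b₂
    have e₁ : ∀ x, ce S (-ξ) (D₁.mu ξ) x = ce S ξ (D₁.mu ξ) x := fun x => by simp [ce]
    have e₂ : ∀ x, co D₂ T (-ξ) v x = -co D₂ T ξ v x := fun x => by simp [co]
    simp only [D₁.mu_neg, e₁, e₂] at a₂
    rw [integral_congr_ae (Eventually.of_forall fun x => ?_), b₁] at a₁
    rw [integral_congr_ae (Eventually.of_forall fun x => ?_), b₂] at a₂
    · rw [abs_le] at a₁ a₂
      rw [abs_le, abs_le]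
      refine ⟨⟨?_, ?_⟩, ?_, ?_⟩ <;> linarith [a₁.1, a₁.2, a₂.1, a₂.2]
    · ring
    · ring
  intro x hx hx0
  refine ⟨van (k + 1) hce hc2 (fun β hβ r' hr hβK => ?_) x hx hx0,
    van k hco hc2 (fun β hβ r' hr hβK => ?_) x hx hx0⟩
  · obtain ⟨C, hC⟩ := key β hβ r' hr hβK
    refine ⟨C, fun l hl => ?_⟩
    have hl0 : 0 < l := by linarith
    have a := (hC l hl).1
    rw [abs_mul, abs_of_pos (pow_pos hl0 2)] at a
    refine le_of_mul_le_mul_left (a.trans (le_of_eq ?_)) (pow_pos hl0 2)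
    rw [show -(k : ℤ) - 1 = 2 + (-((k + 1 : ℕ) : ℤ) - 2) by push_cast; ring, zpow_add₀ hl0.ne',
      zpow_ofNat]
    ring
  · obtain ⟨C, hC⟩ := key β hβ r' hr hβK
    refine ⟨C, fun l hl => ?_⟩
    have hl0 : 0 < l := by linarith
    have a := (hC l hl).2
    rw [abs_mul, abs_of_pos hl0] at a
    refine le_of_mul_le_mul_left (a.trans (le_of_eq ?_)) hl0
    rw [show -(k : ℤ) - 1 = 1 + (-(k : ℤ) - 2) by ring, zpow_add₀ hl0.ne', zpow_one]
    ring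

end Vale.Agent.P088.B
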