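import Vale.Agent.P088F.BCalc

/-! P088, part B: the calculus of amplitudes. -/

open MeasureTheory Set Metric Matrix Filter Topology
open scoped ContDiff

noncomputable section

namespace Vale.Agent.P088.B

variable {n N : ℕ} [NeZero n] {W : Type} [NormedAddCommGroup W] [NormedSpace ℝ W]

variable {K : Set (Ec n)} {m m' : ℤ} {f g : ℝ → Ec n → W}

theorem Sy.zero : Sy K m (fun _ _ => (0 : W)) :=
  (Sy.term m 0 (fun _ => (0 : W)) contDiff_const (fun _ _ => rfl) (by simp)).congr
    fun _ _ _ => (smul_zero _).symm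

theorem Sy.of {c : Ec n → W} (hc : ContDiff ℝ ∞ c) (hK : ∀ x ∉ K, c x = 0) :
    Sy K 0 fun _ x => c x :=
  (Sy.term 0 0 c hc hK (by simp)).congr fun _ _ _ => by simp

theorem Sy.mono (hf : Sy K m f) (h : m ≤ m') : Sy K m' f := by
  induction hf with
  | term p j c hc hK h' => exact .term p j c hc hK (h'.trans h)
  | add _ _ h1 h2 => exact h1.add h2
  | congr _ e h1 => exact h1.congr e

theorem Sy.smooth (hf : Sy K m f) {l : ℝ} (hl : 1 ≤ l) : ContDiff ℝ ∞ (f l) := by
  induction hf with
  | term p j c hc hK h' => exact (contDiff_const.mul ((coord_smooth 0).pow j)).smul hc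
  | add _ _ h1 h2 => exact h1.add h2
  | congr _ e h1 => rwa [funext (e l hl)]

theorem Sy.off (hf : Sy K m f) {l : ℝ} (hl : 1 ≤ l) : ∀ x ∉ K, f l x = 0 := by
  intro x hx
  induction hf with
  | term p j c hc hK h' => simp only [hK x hx, smul_zero]
  | add _ _ h1 h2 => simp only [h1, h2, add_zero]
  | congr _ e h1 => rw [e l hl, h1]

theorem bsy_map {W' : Type} [NormedAddCommGroup W'] [NormedSpace ℝ W'] (hf : Sy K m f)
    (Φ : Ec n → W → W') (ha : ∀ x a b, Φ x (a + b) = Φ x a + Φ x b)
    (hs : ∀ x (r : ℝ) a, Φ x (r • a) = r • Φ x a)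
    (hΦ : ∀ c : Ec n → W, ContDiff ℝ ∞ c → ContDiff ℝ ∞ fun x => Φ x (c x)) :
    Sy K m fun l x => Φ x (f l x) := by
  induction hf with
  | term p j c hc hK h' =>
    refine (Sy.term p j _ (hΦ c hc) (fun x hx => ?_) h').congr fun _ _ x => hs x _ _
    rw [hK x hx, ← zero_smul ℝ (0 : W), hs, zero_smul]
  | add _ _ h1 h2 => exact (h1.add h2).congr fun _ _ x => ha x _ _
  | congr _ e h1 => exact h1.congr fun l hl x => by rw [e l hl]

theorem Sy.clm {W' : Type} [NormedAddCommGroup W'] [NormedSpace ℝ W'] (hf : Sy K m f)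
    {T : Ec n → W →L[ℝ] W'} (hT : ContDiff ℝ ∞ T) : Sy K m fun l x => T x (f l x) :=
  bsy_map hf (fun x a => T x a) (fun x => map_add (T x)) (fun x => map_smul (T x))
    fun _ hc => hT.clm_apply hc

theorem Sy.smul (hf : Sy K m f) {c : Ec n → ℝ} (hc : ContDiff ℝ ∞ c) :
    Sy K m fun l x => c x • f l x :=
  bsy_map hf (fun x a => c x • a) (fun x => smul_add (c x)) (fun x r => smul_comm (c x) r)
    fun _ h => hc.smul h

theorem Sy.mul {f : ℝ → Ec n → ℝ} (hf : Sy K m f) {c : Ec n → ℝ} (hc : ContDiff ℝ ∞ c) :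
    Sy K m fun l x => c x * f l x := hf.smul hc

theorem Sy.csmul {f : ℝ → Ec n → Fb N} (hf : Sy K m f) {c : Ec n → ℂ} (hc : ContDiff ℝ ∞ c) :
    Sy K m fun l x => c x • f l x :=
  bsy_map hf (fun x a => c x • a) (fun x => smul_add (c x)) (fun x r => smul_comm (c x) r)
    fun _ h => hc.smul h

theorem Sy.op {f : ℝ → Ec n → Fb N} (hf : Sy K m f) {T : Ec n → Op N} (hT : ContDiff ℝ ∞ T) :
    Sy K m fun l x => T x (f l x) :=
  bsy_map hf (fun x a => T x a) (fun x => map_add (T x))
    (fun x r a => (T x).map_smul_of_tower r a) fun _ h => op_smooth' hT h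

theorem Sy.re {f : ℝ → Ec n → ℂ} (hf : Sy K m f) : Sy K m fun l x => (f l x).re :=
  hf.clm (T := fun _ => Complex.reCLM) contDiff_const

theorem Sy.neg (hf : Sy K m f) : Sy K m fun l x => -f l x :=
  (hf.smul (c := fun _ => -1) contDiff_const).congr fun _ _ _ => (neg_one_smul ℝ _).symm

theorem Sy.sub (hf : Sy K m f) (hg : Sy K m g) : Sy K m fun l x => f l x - g l x :=
  (hf.add hg.neg).congr fun _ _ _ => sub_eq_add_neg _ _

theorem Sy.sum {κ : Type} (s : Finset κ) {F : κ → ℝ → Ec n → W} (h : ∀ i ∈ s, Sy K m (F i)) :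
    Sy K m fun l x => ∑ i ∈ s, F i l x := by
  classical
  induction s using Finset.induction_on with
  | empty => exact Sy.zero.congr fun _ _ _ => Finset.sum_empty
  | insert a s ha ih =>
    exact ((h a (Finset.mem_insert_self a s)).add
      (ih fun i hi => h i (Finset.mem_insert_of_mem hi))).congr fun _ _ _ => Finset.sum_insert ha

theorem Sy.lam (hf : Sy K m f) : Sy K (m + 1) fun l x => l • f l x := by
  induction hf with
  | term p j c hc hK h' =>
    refine (Sy.term (p + 1) j c hc hK (by omega)).congr fun l hl x => ?_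
    rw [smul_smul, zpow_add_one₀ (one_pos.trans_le hl).ne']
    congr 1
    ring
  | add _ _ h1 h2 => exact (h1.add h2).congr fun _ _ _ => smul_add _ _ _
  | congr _ e h1 => exact h1.congr fun l hl x => by rw [e l hl]

theorem Sy.tpow (hf : Sy K m f) (k : ℕ) : Sy K (m - k) fun l x => x 0 ^ k • f l x := by
  induction hf with
  | term p j c hc hK h' =>
    refine (Sy.term p (j + k) c hc hK (by push_cast; omega)).congr fun l hl x => ?_
    rw [smul_smul, pow_add]
    congr 1
    ring
  | add _ _ h1 h2 => exact (h1.add h2).congr fun _ _ _ => smul_add _ _ _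
  | congr _ e h1 => exact h1.congr fun l hl x => by rw [e l hl]

theorem bsy_pd (hK : IsClosed K) (hf : Sy K m f) (j : Fin n) (h1 : m ≤ m')
    (h2 : j = 0 → m + 1 ≤ m') : Sy K m' fun l => B.pd j (f l) := by
  induction hf with
  | term p k c hc h0 h' =>
    have e : ∀ (l : ℝ) (x : Ec n), B.pd j (fun x : Ec n => (l ^ p * x 0 ^ k) • c x) x =
        (l ^ p * if j = 0 then k * x 0 ^ (k - 1) else 0) • c x +
          (l ^ p * x 0 ^ k) • B.pd j c x := fun l x => by
      have d := sm_df ((coord_smooth (0 : Fin n)).pow k) x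
      rw [pd_smul (d.const_mul _) (sm_df hc x), pd_mul (differentiableAt_const _) d, pd_const,
        zero_mul, zero_add, pd_pow]
    have t2 := Sy.term p k _ (pd_smooth hc j) (pd_off hK h0 j) (h'.trans h1)
    by_cases hj : j = 0
    · have h3 := h2 hj
      refine ((Sy.term p (k - 1) (fun x => (k : ℝ) • c x) (contDiff_const.smul hc)
        (fun x hx => by rw [h0 x hx, smul_zero]) (by omega)).add t2).congr fun l _ x => ?_
      rw [e, if_pos hj, smul_smul]
      congr 2
      ring
    · exact t2.congr fun l _ x => by rw [e, if_neg hj, mul_zero, zero_smul, zero_add]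
  | add a b i1 i2 =>
    exact (i1.add i2).congr fun l hl x => pd_add (sm_df (a.smooth hl) x) (sm_df (b.smooth hl) x)
  | congr _ e i1 => exact i1.congr fun l hl x => by rw [funext (e l hl)]

theorem Sy.pd (hK : IsClosed K) (hf : Sy K m f) (j : Fin n) :
    Sy K (m + 1) fun l => pd j (f l) :=
  bsy_pd hK hf j (by omega) fun _ => le_rfl

theorem Sy.pd_ne (hK : IsClosed K) (hf : Sy K m f) {j : Fin n} (hj : j ≠ 0) :
    Sy K m fun l => B.pd j (f l) :=
  bsy_pd hK hf j le_rfl fun h => absurd h hj

theorem Sy.inner {f g : ℝ → Ec n → Fb N} (hf : Sy K m f) (hg : Sy K m' g) :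
    Sy K (m + m') fun l x => inner ℂ (f l x) (g l x) := by
  induction hf with
  | term p j c hc hK h =>
    induction hg with
    | term q k d hd hK' h' =>
      refine (Sy.term (p + q) (j + k) (fun x => Inner.inner ℂ (c x) (d x)) (hc.inner ℂ hd)
        (fun x hx => by rw [hK x hx, inner_zero_left]) (by push_cast; omega)).congr
        fun l hl x => ?_
      refine (inner_smul_real_left _ _ _).trans ((congrArg _ (inner_smul_real_right _ _ _)).trans ?_)
      rw [smul_smul, zpow_add₀ (one_pos.trans_le hl).ne', pow_add]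
      exact congrArg (· • Inner.inner ℂ (c x) (d x)) (mul_mul_mul_comm _ _ _ _)
    | add _ _ h1 h2 => exact (h1.add h2).congr fun _ _ _ => inner_add_right _ _ _
    | congr _ e h1 => exact h1.congr fun l hl x => by rw [e l hl]
  | add _ _ h1 h2 => exact (h1.add h2).congr fun _ _ _ => inner_add_left _ _ _
  | congr _ e h1 => exact h1.congr fun l hl x => by rw [e l hl]

end Vale.Agent.P088.B
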