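import Vale.Agent.P088F.CTik

/-! P088, part C: the approximating kernels.

By uniform continuity on `K ×ˢ K'` there is a finite set `t ⊆ B` (`finite_approx_of_totallyBounded`) such that for `y ∈ B`
some `y' ∈ t` has `‖W l m (x, y) - W l m (x, y')‖ ≤ √ε * M` for all `x ∈ D`. Apply `tik_n2` to the family
`f (y', m) = sx W m y'` and put `U l m (x, y) = ∑ i, (∑ j, C i j * av A (f j) W m y) * f i l x`. -/

open MeasureTheory Set Filter Topology Metric
open scoped ContDiff ComplexConjugate InnerProductSpace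

noncomputable section

namespace Vale.Agent.P088.Cr

open Vale.Agent.P292E

variable {n : ℕ} {ι : Type} [Fintype ι] {P Q : Set (V n) → Fm ι n → Prop}

theorem Sh.sum (hP : Sh P) {D : Set (V n)} (hD : IsOpen D) {κ : Type} (s : Finset κ) (c : κ → ℂ)
    {f : κ → Fm ι n} (hf : ∀ i ∈ s, P D (f i)) : P D (∑ i ∈ s, c i • f i) := by
  classical
  induction s using Finset.induction_on with
  | empty => exact hP.zero
  | insert i s hi ih =>
    rw [Finset.sum_insert hi]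
    exact hP.add hD (hP.smul _ hD (hf i (Finset.mem_insert_self _ _)))
      (ih fun j hj => hf j (Finset.mem_insert_of_mem hj))

theorem Sh.sub (hP : Sh P) {D : Set (V n)} (hD : IsOpen D) {u v : Fm ι n} (hu : P D u)
    (hv : P D v) : P D (u - v) := by
  rw [sub_eq_add_neg, ← neg_one_smul ℂ v]
  exact hP.add hD hu (hP.smul _ hD hv)

theorem Sl.sub (hP : Sh P) (hQ : Sh Q) {D D' : Set (V n)} (hD : IsOpen D) (hD' : IsOpen D')
    {U W : Kn ι n} (hU : Sl P Q D D' U) (hW : Sl P Q D D' W) : Sl P Q D D' (U - W) :=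
  ⟨fun l m => (hU.cont l m).sub (hW.cont l m), fun m y hy => hP.sub hD (hU.px m y hy) (hW.px m y hy),
    fun l x hx => hQ.sub hD' (hU.py l x hx) (hW.py l x hx)⟩

theorem Sl.mono (hP : Sh P) (hQ : Sh Q) {D D' E E' : Set (V n)} (hE : IsOpen E) (hE' : IsOpen E')
    (h : E ⊆ D) (h' : E' ⊆ D') {W : Kn ι n} (hW : Sl P Q D D' W) : Sl P Q E E' W :=
  ⟨fun l m => (hW.cont l m).mono (prod_mono h h'), fun m y hy => hP.mono (hW.px m y (h' hy)) hE h,
    fun l x hx => hQ.mono (hW.py l x (h hx)) hE' h'⟩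

theorem capp_net {D B K K' : Set (V n)} {W : Kn ι n} (hK : IsCompact K) (hK' : IsCompact K')
    (s1 : D ⊆ K) (s2 : B ⊆ K') (hc : ∀ l m, ContinuousOn (W l m) (K ×ˢ K')) {η : ℝ} (hη : 0 < η) :
    ∃ t : Finset (V n), (∀ y ∈ t, y ∈ B) ∧ ∀ y ∈ B, ∃ y' ∈ t, ∀ l m, ∀ x ∈ D,
      ‖W l m (x, y') - W l m (x, y)‖ ≤ η := by
  have h1 : ContinuousOn (fun (p : V n × V n) (l m : ι) => W l m p) (K ×ˢ K') :=
    continuousOn_pi.2 fun l => continuousOn_pi.2 fun m => hc l m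
  obtain ⟨δ, hδ, h2⟩ := Metric.uniformContinuousOn_iff.1
    ((hK.prod hK').uniformContinuousOn_of_continuous h1) η hη
  obtain ⟨t, ht, hf, h3⟩ := finite_approx_of_totallyBounded (hK'.totallyBounded.subset s2) δ hδ
  refine ⟨hf.toFinset, fun y hy => ht (hf.mem_toFinset.1 hy), fun y hy => ?_⟩
  obtain ⟨y', hy', h4⟩ := mem_iUnion₂.1 (h3 hy)
  refine ⟨y', hf.mem_toFinset.2 hy', fun l m x hx => ?_⟩
  have h5 := h2 (x, y') ⟨s1 hx, s2 (ht hy')⟩ (x, y) ⟨s1 hx, s2 hy⟩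
    (by rw [Prod.dist_eq, dist_self, dist_comm]; exact max_lt hδ h4)
  rw [← dist_eq_norm]
  exact ((dist_le_pi_dist (fun m => W l m (x, y')) (fun m => W l m (x, y)) m).trans
    (dist_le_pi_dist (fun l m => W l m (x, y')) (fun l m => W l m (x, y)) l)).trans h5.le

theorem approx (hP : Sh P) (hQ : Sh Q) {A D B D' K K' : Set (V n)} {v M ε : ℝ} (h : Reg A D v)
    (h' : Reg B D' v) (hM : 0 < M) (hε : 0 < ε) (hε1 : ε ≤ 1) {W : Kn ι n} (h1 : Sl P Q D B W)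
    (h2 : Sl P Q A D' W) (b1 : ∀ l m, ∀ p ∈ D ×ˢ B, ‖W l m p‖ ≤ M)
    (b2 : ∀ l m, ∀ p ∈ A ×ˢ D', ‖W l m p‖ ≤ M) (hK : IsCompact K) (hK' : IsCompact K')
    (s1 : D ⊆ K) (s2 : B ⊆ K') (hc : ∀ l m, ContinuousOn (W l m) (K ×ˢ K')) :
    ∃ U : Kn ι n, Sl P Q D D' U ∧ (∃ M' : ℝ, ∀ l m, ∀ p ∈ D ×ˢ D', ‖U l m p‖ ≤ M') ∧
      (∀ m, ∀ y ∈ D', n2 A (sx U m y - sx W m y) + ε * n2 D (sx U m y) ≤
        Fintype.card ι * v * M ^ 2) ∧
      ∀ m, ∀ y ∈ B, n2 A (sx U m y - sx W m y) + ε * n2 D (sx U m y) ≤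
        2 * ε * (Fintype.card ι * v * M ^ 2) := by
  obtain ⟨t, ht, hn⟩ := capp_net hK hK' s1 s2 hc (mul_pos (Real.sqrt_pos.2 hε) hM)
  let f : t × ι → Fm ι n := fun i => sx W i.2 i.1
  have hfP : ∀ i, P D (f i) := fun i => h1.px _ _ (ht _ i.1.2)
  have hfb : ∀ i l, ∀ x ∈ D, ‖f i l x‖ ≤ M := fun i l x hx => b1 l _ (x, _) ⟨hx, ht _ i.1.2⟩
  have hbA : Bornology.IsBounded A := h.bd.subset h.sub
  have hvA : volume.real A ≤ v := (measureReal_mono h.sub h.bd.measure_lt_top.ne).trans h.vol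
  obtain ⟨C, hC⟩ := tik_n2 h f (fun i => hP.cont (hfP i)) (fun i => ⟨M, hfb i⟩) hε.le
  let c : t × ι → Fm ι n := fun i => ∑ j, C i j • av A (f j) W
  have hcQ : ∀ i, Q D' (c i) := fun i => hQ.sum h'.oD _ _ fun j _ =>
    hQ.avg M h'.oD h.oA hbA (fun l => (hP.cont (hfP j) l).mono h.sub)
      ⟨M, fun l x hx => hfb j l x (h.sub hx)⟩ h2.cont b2 h2.py
  have hce : ∀ i m y, c i m y = ∑ j, C i j * av A (f j) W m y := fun i m y => by
    simp only [c, Finset.sum_apply, Pi.smul_apply, smul_eq_mul]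
  have hav : ∀ j m, ∀ y ∈ D', ‖av A (f j) W m y‖ ≤ (∑ _l : ι, M * M) * volume.real A :=
    fun j m y hy => norm_setIntegral_le_of_norm_le_const hbA.measure_lt_top fun x hx =>
      norm_sum_le_of_le _ fun l _ => by
        rw [norm_mul, RCLike.norm_conj]
        exact mul_le_mul (hfb j l x (h.sub hx)) (b2 l m (x, y) ⟨hx, hy⟩) (norm_nonneg _) hM.le
  let U : Kn ι n := fun l m p => ∑ i, c i m p.2 * f i l p.1
  have ex : ∀ m y, sx U m y = ∑ i, c i m y • f i := fun m y => by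
    funext l x
    simp only [U, sx, Finset.sum_apply, Pi.smul_apply, smul_eq_mul]
  have ey : ∀ l x, sy U l x = ∑ i, f i l x • c i := fun l x => by
    funext m y
    simp only [U, sy, Finset.sum_apply, Pi.smul_apply, smul_eq_mul, mul_comm]
  have key := fun m y (hy : y ∈ D') => hC (sx W m y) (hP.cont (h2.px m y hy))
    ⟨M, fun l x hx => b2 l m (x, y) ⟨hx, hy⟩⟩ (sx U m y) (by
      rw [ex]
      exact Finset.sum_congr rfl fun i _ => by rw [hce]; rfl)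
  refine ⟨U, ⟨fun l m => continuousOn_finsetSum _ fun i _ =>
      ((hQ.cont (hcQ i) m).comp continuousOn_snd fun p hp => hp.2).mul
        ((hP.cont (hfP i) l).comp continuousOn_fst fun p hp => hp.1), fun m y _ => ?_,
      fun l x _ => ?_⟩,
    ⟨∑ i, (∑ j, ‖C i j‖ * ((∑ _l : ι, M * M) * volume.real A)) * M, fun l m p hp => ?_⟩,
    fun m y hy => (key m y hy).1.trans (n2_le h.oA hbA hvA fun l x hx => b2 l m (x, y) ⟨hx, hy⟩),
    fun m y hy => ?_⟩
  · rw [ex]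
    exact hP.sum h.oD _ _ fun i _ => hfP i
  · rw [ey]
    exact hQ.sum h'.oD _ _ fun i _ => hcQ i
  · refine norm_sum_le_of_le _ fun i _ => ?_
    have k : ‖c i m p.2‖ ≤ ∑ j, ‖C i j‖ * ((∑ _l : ι, M * M) * volume.real A) := by
      rw [hce]
      refine norm_sum_le_of_le _ fun j _ => ?_
      rw [norm_mul]
      exact mul_le_mul_of_nonneg_left (hav j m _ hp.2) (norm_nonneg _)
    rw [norm_mul]
    exact mul_le_mul k (hfb i l _ hp.1) (norm_nonneg _) ((norm_nonneg _).trans k)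
  · obtain ⟨y', hy', h3⟩ := hn y hy
    have k1 : n2 A (f (⟨y', hy'⟩, m) - sx W m y) ≤ Fintype.card ι * v * (√ε * M) ^ 2 :=
      n2_le h.oA hbA hvA fun l x hx => h3 l m x (h.sub hx)
    have k2 := mul_le_mul_of_nonneg_left (n2_le h.oD h.bd h.vol (hfb (⟨y', hy'⟩, m))) hε.le
    have k3 := (key m y (h'.sub hy)).2 (⟨y', hy'⟩, m)
    rw [mul_pow, Real.sq_sqrt hε.le] at k1
    linarith

end Vale.Agent.P088.Cr
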