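import Vale.Agent.P088F.CTwo

/-! P088, part C: the cross lemma.

Take `U j` from `approx` with `ε = 2⁻¹ ^ j`. With `K₀ = card ι * v * M ^ 2`: `U 0` satisfies `Four .. 1 (8 * K₀)` and
`U (j + 1) - U j` satisfies `Four .. (2⁻¹ ^ j) (16 * K₀)` (`n2_sub`). By `two` the differences are bounded by a geometric
sequence on `N ×ˢ N'` (ratio `2⁻¹ ^ (κ / 2)`); `W' = U 0 + ∑' j, (U (j + 1) - U j)`, `tendstoUniformlyOn_tsum_nat`, `Sh.lim`.
For `y ∈ B` apply `TR` to `sx (U j) m y - sx W m y`. -/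

open MeasureTheory Set Filter Topology Metric
open scoped ContDiff ComplexConjugate InnerProductSpace

noncomputable section

namespace Vale.Agent.P088.Cr

open Vale.Agent.P292E

variable {n : ℕ} {ι : Type} [Fintype ι]

theorem ccross_pow {κ s : ℝ} (h : κ ≤ s) (j : ℕ) :
    ((2⁻¹ : ℝ) ^ j) ^ s ≤ (((2⁻¹ : ℝ) ^ (κ / 2)) ^ j) ^ 2 := by
  have h0 : (0 : ℝ) ≤ 2⁻¹ := by norm_num
  have e : (((2⁻¹ : ℝ) ^ (κ / 2)) ^ j) ^ 2 = ((2⁻¹ : ℝ) ^ j) ^ κ := by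
    rw [← pow_mul, ← Real.rpow_natCast, ← Real.rpow_mul h0, ← Real.rpow_natCast,
      ← Real.rpow_mul h0]
    refine congrArg _ ?_
    push_cast
    ring
  rw [e]
  exact Real.rpow_le_rpow_of_exponent_ge (by positivity) (pow_le_one₀ h0 (by norm_num)) h

theorem ccross_bn {D : Set (V n)} {u v : Fm ι n} (hu : Bn D u) (hv : Bn D v) : Bn D (u - v) := by
  obtain ⟨a, ha⟩ := hu
  obtain ⟨b, hb⟩ := hv
  exact ⟨a + b, fun l x hx => (norm_sub_le _ _).trans (add_le_add (ha l x hx) (hb l x hx))⟩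

theorem ccross_bx {D D' E : Set (V n)} {W : Kn ι n}
    (h : ∃ M : ℝ, ∀ l m, ∀ p ∈ D ×ˢ D', ‖W l m p‖ ≤ M) (hE : E ⊆ D) (m : ι) {y : V n}
    (hy : y ∈ D') : Bn E (sx W m y) :=
  h.imp fun _ hM l x hx => hM l m (x, y) ⟨hE hx, hy⟩

theorem ccross_unif {α : Type} {S : Set α} {f : ℕ → α → ℂ} {g : α → ℂ} {c r : ℝ} (h0 : 0 ≤ r)
    (h1 : r < 1) (h : ∀ j, ∀ p ∈ S, dist (f j p) (g p) ≤ c * r ^ j / (1 - r)) :
    TendstoUniformlyOn f g atTop S := by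
  rw [Metric.tendstoUniformlyOn_iff]
  intro ε hε
  have t : Tendsto (fun j : ℕ => c * r ^ j / (1 - r)) atTop (𝓝 (c * 0 / (1 - r))) :=
    ((tendsto_pow_atTop_nhds_zero_of_lt_one h0 h1).const_mul c).div_const _
  filter_upwards [t.eventually (gt_mem_nhds (by simpa using hε))] with j hj p hp
  rw [dist_comm]
  exact (h j p hp).trans_lt hj

theorem cross (ι : Type) [Fintype ι] {v C κ : ℝ} (hv : 0 ≤ v) (hC : 0 ≤ C) (hκ : 0 < κ) :
    ∃ C' : ℝ, 0 < C' ∧ ∀ {n : ℕ} {P Q : Set (V n) → Fm ι n → Prop}, Sh P → Sh Q →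
      ∀ {A D N B D' N' K K' : Set (V n)} {θ θ' M : ℝ} {W : Kn ι n}, Reg A D v → Reg B D' v →
      IsOpen N → IsOpen N' → N ⊆ D → N' ⊆ D' → TR P A D N θ C → TR Q B D' N' θ' C → 0 ≤ θ' →
      θ + θ' + κ ≤ 1 → 0 < M → Sl P Q D B W → Sl P Q A D' W →
      (∀ l m, ∀ p ∈ D ×ˢ B, ‖W l m p‖ ≤ M) → (∀ l m, ∀ p ∈ A ×ˢ D', ‖W l m p‖ ≤ M) →
      IsCompact K → IsCompact K' → D ⊆ K → B ⊆ K' → (∀ l m, ContinuousOn (W l m) (K ×ˢ K')) →
      ∃ W' : Kn ι n, Sl P Q N N' W' ∧ (∀ l m, ∀ p ∈ N ×ˢ N', ‖W' l m p‖ ≤ C' * M) ∧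
        ∀ l m, ∀ p ∈ N ×ˢ (N' ∩ B), W' l m p = W l m p := by
  obtain ⟨r, hr⟩ : ∃ r : ℝ, r = (2⁻¹ : ℝ) ^ (κ / 2) := ⟨_, rfl⟩
  have r0 : 0 ≤ r := hr ▸ by positivity
  have r1 : r < 1 := hr ▸ Real.rpow_lt_one (by norm_num) (by norm_num) (by positivity)
  have hk : 0 ≤ (Fintype.card ι : ℝ) * v := by positivity
  obtain ⟨c, hc⟩ : ∃ c : ℝ, c = 8 * C * (Fintype.card ι * v) := ⟨_, rfl⟩
  have c0 : 0 ≤ c := hc ▸ by positivity
  have r2 : 0 < 1 - r := by linarith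
  refine ⟨c + c / (1 - r) + 1, by positivity, ?_⟩
  intro n P Q hP hQ A D N B D' N' K K' θ θ' M W h h' oN oN' sN sN' hT hT' hθ hs hM h1 h2 b1 b2
    hK hK' s1 s2 hcW
  have e0 : ∀ j : ℕ, (0 : ℝ) < 2⁻¹ ^ j := fun j => by positivity
  have e1 : ∀ j : ℕ, (2⁻¹ : ℝ) ^ j ≤ 1 := fun j => pow_le_one₀ (by norm_num) (by norm_num)
  choose U hU bU ha hb using fun j : ℕ =>
    approx hP hQ h h' hM (e0 j) (e1 j) h1 h2 b1 b2 hK hK' s1 s2 hcW
  obtain ⟨K₀, hK₀⟩ : ∃ K₀ : ℝ, K₀ = Fintype.card ι * v * M ^ 2 := ⟨_, rfl⟩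
  have k0 : 0 ≤ K₀ := hK₀ ▸ by positivity
  rw [← hK₀] at ha hb
  have bA : Bornology.IsBounded A := h.bd.subset h.sub
  have a1 : ∀ j m, ∀ y ∈ D', n2 A (sx (U j) m y - sx W m y) ≤ K₀ := fun j m y hy => by
    have := ha j m y hy
    have := mul_nonneg (e0 j).le (n2_nonneg D (sx (U j) m y))
    linarith
  have a2 : ∀ j m, ∀ y ∈ D', n2 D (sx (U j) m y) ≤ K₀ / 2⁻¹ ^ j := fun j m y hy => by
    have := ha j m y hy
    have := n2_nonneg A (sx (U j) m y - sx W m y)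
    rw [le_div_iff₀ (e0 j)]
    linarith
  have a3 : ∀ j m, ∀ y ∈ B, n2 A (sx (U j) m y - sx W m y) ≤ 2 * 2⁻¹ ^ j * K₀ :=
    fun j m y hy => by
      have := hb j m y hy
      have := mul_nonneg (e0 j).le (n2_nonneg D (sx (U j) m y))
      linarith
  have a4 : ∀ j m, ∀ y ∈ B, n2 D (sx (U j) m y) ≤ 2 * K₀ := fun j m y hy => by
    have := hb j m y hy
    have := n2_nonneg A (sx (U j) m y - sx W m y)
    refine le_of_mul_le_mul_left ?_ (e0 j)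
    linarith
  have cU : ∀ j m, ∀ y ∈ D', ∀ l, ContinuousOn (sx (U j) m y l) D :=
    fun j m y hy => hP.cont ((hU j).px m y hy)
  have cA : ∀ j m, ∀ y ∈ D', ∀ l, ContinuousOn ((sx (U j) m y - sx W m y) l) A :=
    fun j m y hy l => ((cU j m y hy l).mono h.sub).sub (hP.cont (h2.px m y hy) l)
  have nA : ∀ j m, ∀ y ∈ D', Bn A (sx (U j) m y - sx W m y) := fun j m y hy =>
    ccross_bn (ccross_bx (bU j) h.sub m hy) (ccross_bx ⟨M, b2⟩ Subset.rfl m hy)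
  have dA : ∀ j m, ∀ y ∈ D', n2 A (sx (U (j + 1) - U j) m y) ≤
      2 * n2 A (sx (U (j + 1)) m y - sx W m y) + 2 * n2 A (sx (U j) m y - sx W m y) := by
    intro j m y hy
    have e : sx (U (j + 1) - U j) m y
        = (sx (U (j + 1)) m y - sx W m y) - (sx (U j) m y - sx W m y) := by
      funext l x
      simp [sx]
    rw [e]
    exact n2_sub h.oA bA (cA _ m y hy) (nA _ m y hy) (cA _ m y hy) (nA _ m y hy)
  have dD : ∀ j m, ∀ y ∈ D', n2 D (sx (U (j + 1) - U j) m y) ≤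
      2 * n2 D (sx (U (j + 1)) m y) + 2 * n2 D (sx (U j) m y) := fun j m y hy =>
    n2_sub h.oD h.bd (cU _ m y hy) (ccross_bx (bU _) Subset.rfl m hy) (cU _ m y hy)
      (ccross_bx (bU _) Subset.rfl m hy)
  have F0 : Four A D B D' (U 0) 1 K₀ := by
    have q1 : ∀ m, ∀ y ∈ D', n2 D (sx (U 0) m y) ≤ K₀ := fun m y hy => by
      simpa using a2 0 m y hy
    have q2 : ∀ m, ∀ y ∈ D', n2 A (sx (U 0) m y) ≤ K₀ := fun m y hy =>
      (n2_mono h.oD h.bd h.sub (cU 0 m y hy) (ccross_bx (bU 0) Subset.rfl m hy)).trans (q1 m y hy)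
    exact ⟨q2, fun m y hy => by simpa using q1 m y hy,
      fun m y hy => by simpa using q2 m y (h'.sub hy), fun m y hy => q1 m y (h'.sub hy)⟩
  have F1 : ∀ j, Four A D B D' (U (j + 1) - U j) (2⁻¹ ^ j) (16 * K₀) := by
    intro j
    refine ⟨fun m y hy => ?_, fun m y hy => ?_, fun m y hy => ?_, fun m y hy => ?_⟩
    · linarith [dA j m y hy, a1 j m y hy, a1 (j + 1) m y hy]
    · have q1 := a2 (j + 1) m y hy
      have q2 : K₀ / 2⁻¹ ^ (j + 1) = 2 * (K₀ / 2⁻¹ ^ j) := by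
        rw [pow_succ]
        field_simp
      have q3 : 0 ≤ K₀ / 2⁻¹ ^ j := by positivity
      rw [mul_div_assoc]
      linarith [dD j m y hy, a2 j m y hy]
    · have q1 := a3 (j + 1) m y hy
      have q2 := mul_nonneg (e0 j).le k0
      rw [pow_succ] at q1
      linarith [dA j m y (h'.sub hy), a3 j m y hy]
    · linarith [dD j m y (h'.sub hy), a4 j m y hy, a4 (j + 1) m y hy]
  have q0 : (c * M) ^ 2 = 4 * C ^ 2 * (Fintype.card ι * v) * (16 * K₀) := by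
    rw [hc, hK₀]
    ring
  have G0 : ∀ l m, ∀ p ∈ N ×ˢ N', ‖U 0 l m p‖ ≤ c * M := by
    intro l m p hp
    have q := two hP hQ h h' sN' hC k0 hT hT' (hU 0) (bU 0) one_pos le_rfl F0 l m p hp
    rw [Real.one_rpow, mul_one] at q
    refine le_of_sq_le_sq (q.trans ?_) (by positivity)
    rw [q0]
    exact mul_le_mul_of_nonneg_left (by linarith) (by positivity)
  have G1 : ∀ j l m, ∀ p ∈ N ×ˢ N', dist (U j l m p) (U (j + 1) l m p) ≤ c * M * r ^ j := by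
    intro j l m p hp
    have bV : ∃ M' : ℝ, ∀ l m, ∀ p ∈ D ×ˢ D', ‖(U (j + 1) - U j) l m p‖ ≤ M' := by
      obtain ⟨a, ha⟩ := bU (j + 1)
      obtain ⟨b, hb⟩ := bU j
      exact ⟨a + b, fun l m p hp => (norm_sub_le _ _).trans (add_le_add (ha l m p hp) (hb l m p hp))⟩
    have q := two hP hQ h h' sN' hC (by positivity) hT hT'
      (Sl.sub hP hQ h.oD h'.oD (hU (j + 1)) (hU j)) bV (e0 j) (e1 j) (F1 j) l m p hp
    rw [dist_comm, dist_eq_norm]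
    refine le_of_sq_le_sq (q.trans ?_) (by positivity)
    rw [mul_pow (c * M), q0, hr]
    exact mul_le_mul_of_nonneg_left (ccross_pow (by linarith) j) (by positivity)
  obtain ⟨W', hW'⟩ : ∃ W' : Kn ι n, W' = fun l m p => limUnder atTop fun j => U j l m p := ⟨_, rfl⟩
  have T1 : ∀ l m, ∀ p ∈ N ×ˢ N', Tendsto (fun j => U j l m p) atTop (𝓝 (W' l m p)) := by
    intro l m p hp
    rw [hW']
    exact (cauchySeq_of_le_geometric r (c * M) r1 fun j => G1 j l m p hp).tendsto_limUnder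
  have T2 : ∀ l m j, ∀ p ∈ N ×ˢ N', dist (U j l m p) (W' l m p) ≤ c * M * r ^ j / (1 - r) :=
    fun l m j p hp =>
      dist_le_of_le_geometric_of_tendsto r (c * M) r1 (fun j => G1 j l m p hp) (T1 l m p hp) j
  have SU : ∀ j, Sl P Q N N' (U j) := fun j => Sl.mono hP hQ oN oN' sN sN' (hU j)
  refine ⟨W', ⟨fun l m => ?_, fun m y hy => ?_, fun l x hx => ?_⟩, fun l m p hp => ?_,
    fun l m p hp => ?_⟩
  · exact (ccross_unif r0 r1 (T2 l m)).continuousOn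
      (Frequently.of_forall fun j => (SU j).cont l m)
  · exact hP.lim (fun j => sx (U j) m y) oN (fun j => (SU j).px m y hy)
      fun l => ccross_unif r0 r1 fun j x hx => T2 l m j (x, y) ⟨hx, hy⟩
  · exact hQ.lim (fun j => sy (U j) l x) oN' (fun j => (SU j).py l x hx)
      fun m => ccross_unif r0 r1 fun j y hy => T2 l m j (x, y) ⟨hx, hy⟩
  · have q1 := T2 l m 0 p hp
    have q2 := G0 l m p hp
    have q3 := norm_le_norm_add_norm_sub (U 0 l m p) (W' l m p)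
    rw [pow_zero, mul_one, dist_eq_norm] at q1
    have q4 : (c + c / (1 - r) + 1) * M = c * M + c * M / (1 - r) + M := by ring
    linarith
  · obtain ⟨x, y⟩ := p
    obtain ⟨hx, hy, hyB⟩ : x ∈ N ∧ y ∈ N' ∧ y ∈ B := ⟨hp.1, hp.2.1, hp.2.2⟩
    refine tendsto_nhds_unique (T1 l m (x, y) ⟨hx, hy⟩) ?_
    have nW : Bn D (sx W m y) := ccross_bx ⟨M, b1⟩ Subset.rfl m hyB
    have w1 : n2 D (sx W m y) ≤ K₀ :=
      hK₀ ▸ n2_le h.oD h.bd h.vol fun l x hx => b1 l m (x, y) ⟨hx, hyB⟩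
    have key : ∀ j, ‖U j l m (x, y) - W l m (x, y)‖ ^ 2 ≤ 8 * C * K₀ * (r ^ j) ^ 2 := by
      intro j
      have nU : Bn D (sx (U j) m y) := ccross_bx (bU j) Subset.rfl m (h'.sub hyB)
      have q1 := hT _ (hP.sub h.oD ((hU j).px m y (h'.sub hyB)) (h1.px m y hyB))
        (ccross_bn nU nW) _ (e0 j) (e1 j) l x hx
      have q2 := n2_sub h.oD h.bd (cU j m y (h'.sub hyB)) nU (hP.cont (h1.px m y hyB)) nW
      have q3 : ((2⁻¹ : ℝ) ^ j) ^ (1 - θ) = ((2⁻¹ : ℝ) ^ j) ^ (-θ) * 2⁻¹ ^ j := by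
        rw [sub_eq_neg_add, Real.rpow_add (e0 j), Real.rpow_one]
      have q4 : ((2⁻¹ : ℝ) ^ j) ^ (1 - θ) ≤ (r ^ j) ^ 2 := hr ▸ ccross_pow (by linarith) j
      have q5 := mul_le_mul_of_nonneg_left (a3 j m y hyB) (Real.rpow_nonneg (e0 j).le (-θ))
      have q6 : n2 D (sx (U j) m y - sx W m y) ≤ 6 * K₀ := by linarith [a4 j m y hyB]
      have q7 := mul_le_mul_of_nonneg_left q6 (Real.rpow_nonneg (e0 j).le (1 - θ))
      have q8 := mul_le_mul_of_nonneg_left q4 k0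
      refine q1.trans ?_
      have q9 : 8 * C * K₀ * (r ^ j) ^ 2 = C * (8 * (K₀ * (r ^ j) ^ 2)) := by ring
      rw [q9]
      refine mul_le_mul_of_nonneg_left ?_ hC
      rw [q3] at q7 q8 ⊢
      linarith
    have t : Tendsto (fun j : ℕ => 8 * C * K₀ * (r ^ j) ^ 2) atTop (𝓝 (8 * C * K₀ * 0 ^ 2)) :=
      ((tendsto_pow_atTop_nhds_zero_of_lt_one r0 r1).pow 2).const_mul _
    have t2 : Tendsto (fun j => ‖U j l m (x, y) - W l m (x, y)‖ ^ 2) atTop (𝓝 0) :=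
      squeeze_zero (fun _ => sq_nonneg _) key (by simpa using t)
    rw [tendsto_iff_norm_sub_tendsto_zero]
    simpa using t2.sqrt

end Vale.Agent.P088.Cr
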