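import Vale.Agent.P088F.CGeo
import Vale.Agent.P292E.BdC

/-! P088, part C: cut-off functions with bounds that do not depend on the set.

`χ = φ.normed volume ⋆ indicator (thickening d S) 1` with `φ : ContDiffBump 0` of outer radius `d / 2`. By
`HasCompactSupport.hasFDerivAt_convolution_left` (induction on the order for vector valued kernels, `norm_iteratedFDeriv_fderiv`) or by
`Bd.fderiv` in reverse, `‖iteratedFDeriv ℝ i χ x‖ ≤ ∫ ‖iteratedFDeriv ℝ i φ‖`. `ContDiffBump.normed_convolution_eq_right` gives the values. -/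

open MeasureTheory Set Filter Topology Metric
open scoped ContDiff ENNReal

noncomputable section

namespace Vale.Agent.P088.Cr

open Vale.Agent.P292E

open scoped Convolution in
theorem ccut_bd {n : ℕ} {f : V n → ℝ} (hf : LocallyIntegrable f) (h1 : ∀ x, ‖f x‖ ≤ 1) (i : ℕ) :
    ∀ (E F : Type) [NormedAddCommGroup E] [NormedSpace ℝ E] [NormedAddCommGroup F]
      [NormedSpace ℝ F] (L : ℝ →L[ℝ] E →L[ℝ] F) (g : V n → E), ‖L‖ ≤ 1 → ContDiff ℝ ∞ g →
      HasCompactSupport g → ∀ x, ‖iteratedFDeriv ℝ i (f ⋆[L, volume] g) x‖ ≤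
        ∫ y, ‖iteratedFDeriv ℝ i g y‖ := by
  induction i with
  | zero =>
    intro E F _ _ _ _ L g hL hg hc x
    simp only [norm_iteratedFDeriv_zero]
    rw [convolution_def, ← integral_sub_left_eq_self (fun y => ‖g y‖) volume x]
    refine norm_integral_le_of_norm_le
      ((hg.continuous.integrable_of_hasCompactSupport hc).norm.comp_sub_left x)
      (Eventually.of_forall fun t => (L.le_opNorm₂ _ _).trans ?_)
    exact mul_le_of_le_one_left (norm_nonneg _) (mul_le_one₀ hL (norm_nonneg _) (h1 t))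
  | succ i ih =>
    intro E F _ _ _ _ L g hL hg hc x
    have e : fderiv ℝ (f ⋆[L, volume] g) = f ⋆[L.precompR (V n), volume] fderiv ℝ g :=
      funext fun y => (hc.hasFDerivAt_convolution_right L hf (hg.of_le (BdC_le 1)) y).fderiv
    simp only [← norm_iteratedFDeriv_fderiv]
    rw [e]
    exact ih (V n →L[ℝ] E) (V n →L[ℝ] F) (L.precompR (V n)) (fderiv ℝ g)
      ((L.norm_precompR_le (V n)).trans hL) (hg.fderiv_right le_rfl) (hc.fderiv ℝ) x

theorem cut_unif (n : ℕ) {d : ℝ} (hd : 0 < d) : ∃ B : ℝ, ∀ S : Set (V n), ∃ χ : V n → ℝ,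
    ContDiff ℝ ∞ χ ∧ (∀ x ∈ S, ∀ᶠ y in 𝓝 x, χ y = 1) ∧ tsupport χ ⊆ thickening (2 * d) S ∧
      Bd 2 χ univ B := by
  obtain ⟨φ, hφ⟩ : ∃ φ : ContDiffBump (0 : V n), φ.rOut = d / 2 :=
    ⟨⟨d / 4, d / 2, by linarith, by linarith⟩, rfl⟩
  refine ⟨∑ i ∈ Finset.range 3, ∫ y, ‖iteratedFDeriv ℝ i (φ.normed volume) y‖, fun S => ?_⟩
  have hf : LocallyIntegrable ((thickening d S).indicator fun _ => (1 : ℝ)) :=
    (locallyIntegrable_const 1).indicator isOpen_thickening.measurableSet
  refine ⟨convolution (φ.normed volume) ((thickening d S).indicator fun _ => (1 : ℝ))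
    (ContinuousLinearMap.lsmul ℝ ℝ) volume,
    φ.hasCompactSupport_normed.contDiff_convolution_left _ φ.contDiff_normed hf,
    fun x hx => ?_, ?_, fun i hi x _ => ?_⟩
  · have k : ∀ z ∈ ball x d, (thickening d S).indicator (fun _ => (1 : ℝ)) z = 1 := fun z hz =>
      indicator_of_mem (mem_thickening_iff.2 ⟨x, hx, hz⟩) _
    filter_upwards [ball_mem_nhds x (half_pos hd)] with y hy
    have ky := k y (ball_subset_ball (half_le_self hd.le) hy)
    refine (φ.normed_convolution_eq_right fun z hz => ?_).trans ky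
    rw [ky]
    rw [hφ, mem_ball] at hz
    exact k z (by rw [mem_ball] at hy ⊢; linarith [dist_triangle z y x])
  · refine (closure_mono (t := thickening (3 * d / 2) S) fun y hy => ?_).trans
      ((closure_thickening_subset_cthickening _ _).trans
        (cthickening_subset_thickening' (by linarith) (by linarith) _))
    obtain ⟨a, ha, b, hb, rfl⟩ := support_convolution_subset _ hy
    rw [φ.support_normed_eq, hφ, mem_ball_zero_iff] at ha
    obtain ⟨z, hz, h⟩ := mem_thickening_iff.1 (support_indicator_subset hb)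
    refine mem_thickening_iff.2 ⟨z, hz, ?_⟩
    have := dist_triangle (a + b) b z
    rw [dist_eq_norm (a + b) b, add_sub_cancel_right] at this
    beta_reduce
    linarith
  · rw [← convolution_flip]
    refine (ccut_bd hf (fun y => (norm_indicator_le_norm_self _ _).trans norm_one.le) i ℝ ℝ
      (ContinuousLinearMap.lsmul ℝ ℝ).flip _ ((ContinuousLinearMap.lsmul ℝ ℝ).opNorm_flip.le.trans
        ContinuousLinearMap.opNorm_lsmul_le)
      φ.contDiff_normed φ.hasCompactSupport_normed x).trans ?_
    exact Finset.single_le_sum (f := fun i => ∫ y, ‖iteratedFDeriv ℝ i (φ.normed volume) y‖)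
      (fun _ _ => integral_nonneg fun _ => norm_nonneg _) (Finset.mem_range.2 (by omega))

end Vale.Agent.P088.Cr
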