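import Vale.Agent.P088F.Defs

/-! P088, part C: two more contracts. -/

open scoped ContDiff Topology ENNReal
open Set Filter MeasureTheory Metric

noncomputable section

namespace Vale.Agent.P088F

open Vale.Agent.P292E

variable (n : ℕ) (ι : Type) [Fintype ι] [DecidableEq ι]

/-- local Carleman estimate, condition at the centre only -/
def SCl : Prop :=
  ∀ M c : ℝ, 0 < c → ∃ δ τ₀ C : ℝ, 0 < δ ∧ δ ≤ 1 ∧ 1 ≤ τ₀ ∧ 0 ≤ C ∧ ∀ (L : Op n ι) (α : V n → ℝ)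
    (x₀ : V n), L.Sm → L.Bdd 3 M c → ContDiff ℝ ∞ α → Bd 4 α (ball x₀ 1) M → Sup L.g α x₀ c →
    ∀ τ, τ₀ ≤ τ → ∀ v, TstF (ball x₀ δ) v →
      ∫ x, Real.exp (-2 * τ * α x) * ∑ l, (τ ^ 3 * ‖v l x‖ ^ 2 + τ * ∑ j, ‖pd j (v l) x‖ ^ 2) ≤
        C * ∫ x, Real.exp (-2 * τ * α x) * ∑ l, ‖L.ap v l x‖ ^ 2

/-- the cross lemma for bounded sets, the kernel being continuous up to the closure -/
def CROSS' : Prop :=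
  ∀ θ θ' C v : ℝ, 0 ≤ θ → 0 ≤ θ' → θ + θ' < 1 → 0 ≤ C → 0 ≤ v → ∃ C₀ : ℝ, 0 ≤ C₀ ∧
    ∀ (P Q : Op n ι) (D A X D' A' X' K K' : Set (V n)) (A₀ : ℝ) (W : Kr n ι), P.Sm → Q.Sm →
    IsOpen D → IsOpen A → IsOpen X → IsOpen D' → IsOpen A' → IsOpen X' → A ⊆ D → X ⊆ D →
    A' ⊆ D' → X' ⊆ D' → Bornology.IsBounded D → Bornology.IsBounded D' →
    volume D ≤ ENNReal.ofReal v → volume D' ≤ ENNReal.ofReal v →
    Three P D A X θ C → Three Q D' A' X' θ' C → Sol P Q (D ×ˢ A' ∪ A ×ˢ D') W →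
    KBd W (D ×ˢ A' ∪ A ×ˢ D') A₀ → 0 ≤ A₀ → IsCompact K → IsCompact K' → D ⊆ K → A' ⊆ K' →
    (∀ l m, ContinuousOn (fun p : V n × V n => W l m p.1 p.2) (K ×ˢ K')) →
    ∃ W', Sol P Q (X ×ˢ X') W' ∧ KBd W' (X ×ˢ X') (C₀ * A₀) ∧
      ∀ p ∈ X ×ˢ X', p.2 ∈ A' → ∀ l m, W' l m p.1 p.2 = W l m p.1 p.2

end Vale.Agent.P088F
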