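import Vale.Agent.P292E.EDefs

/-! P088, part C: abstract solution classes for the cross lemma. -/

open MeasureTheory Set Filter Topology Metric
open scoped ContDiff ComplexConjugate InnerProductSpace

noncomputable section

namespace Vale.Agent.P088.Cr

open Vale.Agent.P292E

variable {n : ℕ} {ι : Type} [Fintype ι]

/-- families of functions -/
abbrev Fm (ι : Type) (n : ℕ) : Type := ι → V n → ℂ

/-- kernels -/
abbrev Kn (ι : Type) (n : ℕ) : Type := ι → ι → V n × V n → ℂ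

/-- the squared norm on `D` -/
def n2 (D : Set (V n)) (u : Fm ι n) : ℝ := ∫ x in D, ∑ l, ‖u l x‖ ^ 2

/-- bounded on `D` -/
def Bn (D : Set (V n)) (u : Fm ι n) : Prop := ∃ M : ℝ, ∀ l, ∀ x ∈ D, ‖u l x‖ ≤ M

/-- the slice in the first variable -/
def sx (W : Kn ι n) (m : ι) (y : V n) : Fm ι n := fun l x => W l m (x, y)

/-- the slice in the second variable -/
def sy (W : Kn ι n) (l : ι) (x : V n) : Fm ι n := fun m y => W l m (x, y)

/-- averages in the first variable -/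
def av (Z : Set (V n)) (g : Fm ι n) (W : Kn ι n) : Fm ι n :=
  fun m y => ∫ x in Z, ∑ l, conj (g l x) * W l m (x, y)

/-- closure properties of a class of solutions on open sets -/
structure Sh (P : Set (V n) → Fm ι n → Prop) : Prop where
  cont : ∀ {D u}, P D u → ∀ l, ContinuousOn (u l) D
  mono : ∀ {D D' u}, P D u → IsOpen D' → D' ⊆ D → P D' u
  congr : ∀ {D u v}, IsOpen D → P D u → (∀ l, ∀ x ∈ D, v l x = u l x) → P D v
  zero : ∀ {D}, P D 0
  add : ∀ {D u v}, IsOpen D → P D u → P D v → P D (u + v)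
  smul : ∀ {D u} (c : ℂ), IsOpen D → P D u → P D (c • u)
  lim : ∀ {D v} (u : ℕ → Fm ι n), IsOpen D → (∀ j, P D (u j)) →
    (∀ l, TendstoUniformlyOn (fun j => u j l) (v l) atTop D) → P D v
  avg : ∀ {D Z g} {W : Kn ι n} (M : ℝ), IsOpen D → IsOpen Z → Bornology.IsBounded Z →
    (∀ l, ContinuousOn (g l) Z) → Bn Z g → (∀ l m, ContinuousOn (W l m) (Z ×ˢ D)) →
    (∀ l m, ∀ p ∈ Z ×ˢ D, ‖W l m p‖ ≤ M) → (∀ l, ∀ x ∈ Z, P D (sy W l x)) → P D (av Z g W)

/-- continuous kernels whose slices are solutions -/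
structure Sl (P Q : Set (V n) → Fm ι n → Prop) (D D' : Set (V n)) (W : Kn ι n) : Prop where
  cont : ∀ l m, ContinuousOn (W l m) (D ×ˢ D')
  px : ∀ m, ∀ y ∈ D', P D (sx W m y)
  py : ∀ l, ∀ x ∈ D, Q D' (sy W l x)

/-- the three-region inequality -/
def TR (P : Set (V n) → Fm ι n → Prop) (A D N : Set (V n)) (θ C : ℝ) : Prop :=
  ∀ u, P D u → Bn D u → ∀ ε : ℝ, 0 < ε → ε ≤ 1 → ∀ l, ∀ z ∈ N,
    ‖u l z‖ ^ 2 ≤ C * (ε ^ (-θ) * n2 A u + ε ^ (1 - θ) * n2 D u)

/-- an open bounded set of volume at most `v` with an open subset -/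
structure Reg (A D : Set (V n)) (v : ℝ) : Prop where
  oA : IsOpen A
  oD : IsOpen D
  sub : A ⊆ D
  bd : Bornology.IsBounded D
  vol : volume.real D ≤ v

/-- the four bounds -/
structure Four (A D B D' : Set (V n)) (W : Kn ι n) (ε K : ℝ) : Prop where
  a : ∀ m, ∀ y ∈ D', n2 A (sx W m y) ≤ K
  b : ∀ m, ∀ y ∈ D', n2 D (sx W m y) ≤ K / ε
  c : ∀ m, ∀ y ∈ B, n2 A (sx W m y) ≤ K * ε
  d : ∀ m, ∀ y ∈ B, n2 D (sx W m y) ≤ K

/-- the quadratic polynomial with gradient `-w` and Hessian `q` at `x₀` -/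
def qd {F : Type} [NormedAddCommGroup F] [NormedSpace ℝ F] (x₀ : F) (w : F →L[ℝ] ℝ)
    (q : F →L[ℝ] F →L[ℝ] ℝ) (x : F) : ℝ := -w (x - x₀) + q (x - x₀) (x - x₀) / 2

/-- the slab -/
def sD (x₀ : V n) (α : V n → ℝ) (δ h : ℝ) : Set (V n) := {x | ‖x - x₀‖ < δ ∧ α x < h}

/-- the part of the slab where the function is known -/
def sA (x₀ : V n) (α : V n → ℝ) (δ h : ℝ) : Set (V n) :=
  {x | ‖x - x₀‖ < δ ∧ α x < h ∧ (α x < -h ∨ δ / 2 < ‖x - x₀‖)}

end Vale.Agent.P088.Cr
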