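import Vale.Agent.P088F.CDefs

/-! P088, part C: Taylor expansion and the geometry of the slabs. -/

open MeasureTheory Set Filter Topology Metric
open scoped ContDiff ComplexConjugate InnerProductSpace

noncomputable section

namespace Vale.Agent.P088.Cr

open Vale.Agent.P292E

variable {F : Type} [NormedAddCommGroup F] [NormedSpace ℝ F]

/-- Taylor expansion of order two on the ball of radius `d` about `p`, with constant `C`. -/
structure T2 (Θ : F → ℝ) (p : F) (d C : ℝ) : Prop where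
  n1 : ‖fderiv ℝ Θ p‖ ≤ C
  n2 : ‖fderiv ℝ (fderiv ℝ Θ) p‖ ≤ C
  df : ∀ v, ‖v‖ < d → DifferentiableAt ℝ Θ (p + v)
  t1 : ∀ v, ‖v‖ < d → ‖fderiv ℝ Θ (p + v) - fderiv ℝ Θ p‖ ≤ C * ‖v‖
  t2 : ∀ v, ‖v‖ < d →
    |Θ (p + v) - Θ p - fderiv ℝ Θ p v - fderiv ℝ (fderiv ℝ Θ) p v v / 2| ≤ C * ‖v‖ ^ 3

theorem cgeo_bd {W : Type} [NormedAddCommGroup W] [NormedSpace ℝ W] {f : F → W} {Ω L : Set F}
    (hΩ : IsOpen Ω) (hf : ContDiffOn ℝ ∞ f Ω) (hL : IsCompact L) (h : L ⊆ Ω) :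
    ∃ C, (∀ x ∈ L, ‖fderiv ℝ f x‖ ≤ C) ∧ ∀ s ⊆ L, Convex ℝ s → ∀ x ∈ s, ∀ y ∈ s,
      ‖f y - f x‖ ≤ C * ‖y - x‖ := by
  obtain ⟨C, hC⟩ := hL.exists_bound_of_continuousOn
    ((hf.continuousOn_fderiv_of_isOpen hΩ (by simp)).mono h)
  exact ⟨C, hC, fun s hs hc x hx y hy => hc.norm_image_sub_le_of_norm_fderiv_le
    (fun z hz => (hf.contDiffAt (hΩ.mem_nhds (h (hs hz)))).differentiableAt (by simp))
    (fun z hz => hC z (hs hz)) hx hy⟩

/-- `IsCompact.exists_cthickening_subset_open`, bounds for three derivatives on the compact thickening, the mean value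
inequality `Convex.norm_image_sub_le_of_norm_hasFDerivWithin_le` on `closedBall 0 ‖v‖` three times, symmetry of the second
derivative (`ContDiffAt.isSymmSndFDerivAt`). -/
theorem t2_of_compact [FiniteDimensional ℝ F] {Θ : F → ℝ} {Ω K : Set F} (hΩ : IsOpen Ω)
    (hΘ : ContDiffOn ℝ ∞ Θ Ω) (hK : IsCompact K) (h : K ⊆ Ω) :
    ∃ d C : ℝ, 0 < d ∧ 0 < C ∧ ∀ p ∈ K, ball p d ⊆ Ω ∧ T2 Θ p d C := by
  have := FiniteDimensional.proper_real F
  obtain ⟨d, hd, hs⟩ := hK.exists_cthickening_subset_open hΩ h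
  have h1 : ContDiffOn ℝ ∞ (fderiv ℝ Θ) Ω := hΘ.fderiv_of_isOpen hΩ (by simp)
  have h2 : ContDiffOn ℝ ∞ (fderiv ℝ (fderiv ℝ Θ)) Ω := h1.fderiv_of_isOpen hΩ (by simp)
  have hK' : IsCompact (cthickening d K) := hK.cthickening
  obtain ⟨C1, b1, -⟩ := cgeo_bd hΩ hΘ hK' hs
  obtain ⟨C2, b2, l2⟩ := cgeo_bd hΩ h1 hK' hs
  obtain ⟨C3, -, l3⟩ := cgeo_bd hΩ h2 hK' hs
  obtain ⟨C, hC, c1, c2, c3⟩ : ∃ C, 0 < C ∧ C1 ≤ C ∧ C2 ≤ C ∧ C3 ≤ C :=
    ⟨max 1 (max C1 (max C2 C3)), by simp, by simp, by simp, by simp⟩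
  refine ⟨d, C, hd, hC, fun p hp => ?_⟩
  have hb : closedBall p d ⊆ cthickening d K := closedBall_subset_cthickening hp d
  have hp' : p ∈ closedBall p d := mem_closedBall_self hd.le
  have hv' : ∀ v, ‖v‖ < d → p + v ∈ closedBall p d := fun v hv => by simpa using hv.le
  have at0 : ∀ y ∈ closedBall p d, ContDiffAt ℝ ∞ Θ y := fun y hy =>
    hΘ.contDiffAt (hΩ.mem_nhds (hs (hb hy)))
  have d0 : ∀ y ∈ closedBall p d, DifferentiableAt ℝ Θ y := fun y hy =>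
    (at0 y hy).differentiableAt (by simp)
  have d1 : ∀ y ∈ closedBall p d, DifferentiableAt ℝ (fderiv ℝ Θ) y := fun y hy =>
    (h1.contDiffAt (hΩ.mem_nhds (hs (hb hy)))).differentiableAt (by simp)
  refine ⟨ball_subset_closedBall.trans (hb.trans hs), (b1 p (hb hp')).trans c1,
    (b2 p (hb hp')).trans c2, fun v hv => d0 _ (hv' v hv), fun v hv => ?_, fun v hv => ?_⟩
  · have := l2 _ hb (convex_closedBall p d) _ hp' _ (hv' v hv)
    rw [add_sub_cancel_left] at this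
    exact this.trans (mul_le_mul_of_nonneg_right c2 (norm_nonneg v))
  · have s1 : closedBall p ‖v‖ ⊆ closedBall p d := closedBall_subset_closedBall hv.le
    have p1 : p ∈ closedBall p ‖v‖ := mem_closedBall_self (norm_nonneg v)
    have e1 : ∀ y ∈ closedBall p ‖v‖,
        ‖fderiv ℝ (fderiv ℝ Θ) y - fderiv ℝ (fderiv ℝ Θ) p‖ ≤ C * ‖v‖ := fun y hy =>
      (l3 _ hb (convex_closedBall p d) _ hp' _ (s1 hy)).trans
        (mul_le_mul c3 (mem_closedBall_iff_norm.1 hy) (norm_nonneg _) hC.le)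
    have e2 : ∀ y ∈ closedBall p ‖v‖, ‖fderiv ℝ Θ y - fderiv ℝ (fderiv ℝ Θ) p (y - p) -
        fderiv ℝ Θ p‖ ≤ C * ‖v‖ * ‖v‖ := fun y hy => by
      rw [sub_right_comm]
      exact ((convex_closedBall p ‖v‖).norm_image_sub_le_of_norm_fderiv_le'
        (fun y hy => d1 y (s1 hy)) e1 p1 hy).trans
        (mul_le_mul_of_nonneg_left (mem_closedBall_iff_norm.1 hy) (by positivity))
    have sy := (at0 p hp').isSymmSndFDerivAt
      (by rw [minSmoothness_of_isRCLikeNormedField]; exact WithTop.coe_le_coe.2 le_top)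
    have e3 := (convex_closedBall p ‖v‖).norm_image_sub_le_of_norm_hasFDerivWithin_le'
      (f := fun y => Θ y - fderiv ℝ (fderiv ℝ Θ) p (y - p) (y - p) / 2)
      (f' := fun y => fderiv ℝ Θ y - fderiv ℝ (fderiv ℝ Θ) p (y - p)) (fun y hy => by
        have k1 := (hasFDerivAt_id (𝕜 := ℝ) y).sub_const p
        have k2 := (((fderiv ℝ (fderiv ℝ Θ) p).hasFDerivAt.comp y k1).clm_apply k1).mul_const
          (2⁻¹ : ℝ)
        refine (((d0 y (s1 hy)).hasFDerivAt.fun_sub k2).congr_fderiv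
          (ContinuousLinearMap.ext fun u => ?_)).hasFDerivWithinAt
        simp only [ContinuousLinearMap.sub_apply, ContinuousLinearMap.smul_apply,
          ContinuousLinearMap.add_apply, ContinuousLinearMap.comp_apply, Function.comp_apply,
          ContinuousLinearMap.flip_apply, ContinuousLinearMap.id_apply, id, smul_eq_mul, sy.eq u]
        ring) e2 p1 (y := p + v) (by simp)
    simp only [add_sub_cancel_left, sub_self, map_zero, zero_div, sub_zero, Real.norm_eq_abs] at e3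
    calc _ = |Θ (p + v) - fderiv ℝ (fderiv ℝ Θ) p v v / 2 - Θ p - fderiv ℝ Θ p v| := by
          congr 1; ring
      _ ≤ _ := e3.trans_eq (by ring)

/-- Write `v = (v - l v • w) + l v • w`. -/
theorem finsler {k C : ℝ} (hk : 0 < k) (hC : 0 < C) : ∃ C' : ℝ, 0 < C' ∧
    ∀ {F : Type} [NormedAddCommGroup F] [NormedSpace ℝ F] (B : F →L[ℝ] F →L[ℝ] ℝ) (l : F →L[ℝ] ℝ)
      (w : F), ‖B‖ ≤ C → ‖l‖ ≤ C → ‖w‖ ≤ C → l w = 1 → (∀ v, l v = 0 → k * ‖v‖ ^ 2 ≤ B v v) →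
      ∀ v, k / 4 * ‖v‖ ^ 2 ≤ B v v + C' * l v ^ 2 := by
  refine ⟨k * C ^ 2 / 2 + 2 * C ^ 4 / k + C ^ 3, by positivity, ?_⟩
  intro F _ _ B l w hB _ hw hl h v
  obtain ⟨u, hu⟩ : ∃ u, u = v - l v • w := ⟨_, rfl⟩
  have h1 := h u (by simp [hu, hl])
  obtain ⟨t, ht⟩ : ∃ t, t = l v := ⟨_, rfl⟩
  rw [← ht] at hu ⊢
  have e : v = u + t • w := by rw [hu, sub_add_cancel]
  have b : ∀ x y, |B x y| ≤ C * ‖x‖ * ‖y‖ := fun x y =>
    (B.le_opNorm₂ x y).trans (by gcongr)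
  have h2 : ‖v‖ ≤ ‖u‖ + |t| * C := by
    rw [e]
    refine (norm_add_le _ _).trans ?_
    rw [norm_smul, Real.norm_eq_abs]
    gcongr
  have h3 : B v v = B u u + t * (B u w + B w u) + t ^ 2 * B w w := by
    rw [e]; simp; ring
  have h4 : |B u w + B w u| ≤ 2 * C ^ 2 * ‖u‖ := by
    have k1 : C * ‖u‖ * ‖w‖ ≤ C * ‖u‖ * C := by gcongr
    linarith [abs_add_le (B u w) (B w u), b u w, b w u]
  have h5 : |B w w| ≤ C ^ 3 := (b w w).trans (by
    calc C * ‖w‖ * ‖w‖ ≤ C * C * C := by gcongr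
      _ = _ := by ring)
  have h6 : -(|t| * (2 * C ^ 2 * ‖u‖)) ≤ t * (B u w + B w u) := by
    refine neg_le_of_abs_le ?_
    rw [abs_mul]
    gcongr
  have h7 : |t| * (2 * C ^ 2 * ‖u‖) ≤ k / 2 * ‖u‖ ^ 2 + 2 * C ^ 4 / k * t ^ 2 := by
    rw [← sq_abs t, ← sub_nonneg, show k / 2 * ‖u‖ ^ 2 + 2 * C ^ 4 / k * |t| ^ 2 -
      |t| * (2 * C ^ 2 * ‖u‖) = (k * ‖u‖ - 2 * C ^ 2 * |t|) ^ 2 / (2 * k) by field_simp; ring]
    positivity
  have h8 : ‖v‖ ^ 2 ≤ 2 * ‖u‖ ^ 2 + 2 * C ^ 2 * t ^ 2 := by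
    rw [← sq_abs t]
    nlinarith [pow_le_pow_left₀ (norm_nonneg v) h2 2, sq_nonneg (‖u‖ - |t| * C)]
  nlinarith [mul_le_mul_of_nonneg_left (neg_le_of_abs_le h5) (sq_nonneg t),
    mul_le_mul_of_nonneg_left h8 hk.le]

/-- With `s = Θ p - Θ (p + v) ≥ 0`, `t = Θ' v`: `-t = s + Θ'' v v / 2 + O (‖v‖ ^ 3)`, `t ^ 2 ≤ C * ‖v‖ * |t|`. -/
theorem geo {k C d : ℝ} (hk : 0 < k) (hC : 0 < C) (hd : 0 < d) : ∃ δ : ℝ, 0 < δ ∧ δ < d ∧
    ∀ {F : Type} [NormedAddCommGroup F] [NormedSpace ℝ F] (Θ Q : F → ℝ) (p : F), T2 Θ p d C →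
      (∀ v, k * ‖v‖ ^ 2 ≤ fderiv ℝ (fderiv ℝ Θ) p v v + Q v + C * fderiv ℝ Θ p v ^ 2) →
      ∀ v, ‖v‖ ≤ δ → Θ (p + v) ≤ Θ p → k / 4 * ‖v‖ ^ 2 ≤ -fderiv ℝ Θ p v + Q v / 2 := by
  obtain ⟨δ, h0, h1, h2, h3, h4⟩ : ∃ δ : ℝ, 0 < δ ∧ δ < d ∧ δ ≤ 1 ∧ δ * C ^ 2 ≤ 1 ∧
      δ * (C + C ^ 3) ≤ k / 4 := by
    refine ⟨min (min (d / 2) 1) (min (1 / C ^ 2) (k / 4 / (C + C ^ 3))), by positivity,
      ((min_le_left _ _).trans (min_le_left _ _)).trans_lt (half_lt_self hd),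
      (min_le_left _ _).trans (min_le_right _ _), ?_, ?_⟩
    · exact (le_div_iff₀ (by positivity)).1 ((min_le_right _ _).trans (min_le_left _ _))
    · exact (le_div_iff₀ (by positivity)).1 ((min_le_right _ _).trans (min_le_right _ _))
  refine ⟨δ, h0, h1, ?_⟩
  intro F _ _ Θ Q p hT hQ v hv hs
  have a0 := norm_nonneg v
  have k1 := abs_le.1 (hT.t2 v (hv.trans_lt h1))
  have k2 : |fderiv ℝ Θ p v| ≤ C * ‖v‖ :=
    ((fderiv ℝ Θ p).le_opNorm v).trans (mul_le_mul_of_nonneg_right hT.n1 a0)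
  have k3 : |fderiv ℝ (fderiv ℝ Θ) p v v| ≤ C * ‖v‖ ^ 2 :=
    ((fderiv ℝ (fderiv ℝ Θ) p).le_opNorm₂ v v).trans (by
      rw [mul_assoc, ← sq]; exact mul_le_mul_of_nonneg_right hT.n2 (sq_nonneg _))
  have k4 := hQ v
  generalize fderiv ℝ (fderiv ℝ Θ) p v v = H at k1 k3 k4
  generalize fderiv ℝ Θ p v = t at k1 k2 k4 ⊢
  generalize ‖v‖ = a at *
  obtain ⟨s, hs0, e⟩ : ∃ s, 0 ≤ s ∧ Θ (p + v) = Θ p - s := ⟨_, sub_nonneg.2 hs, by ring⟩
  rw [e] at k1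
  have k5 : C * a ^ 3 ≤ C * a ^ 2 := by
    rw [pow_succ]
    exact mul_le_mul_of_nonneg_left (mul_le_of_le_one_right (sq_nonneg a) (hv.trans h2)) hC.le
  have k6 : |t| ≤ s + 2 * C * a ^ 2 := by
    have := abs_le.1 k3
    have : 0 ≤ C * a ^ 2 := by positivity
    rw [abs_le]
    constructor <;> linarith
  have k7 : t ^ 2 ≤ C * a * (s + 2 * C * a ^ 2) := by
    rw [← sq_abs, sq]
    exact mul_le_mul k2 k6 (abs_nonneg t) (by positivity)
  have k8 : a * C ^ 2 * s ≤ s :=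
    mul_le_of_le_one_left hs0 ((mul_le_mul_of_nonneg_right hv (sq_nonneg C)).trans h3)
  have k9 : a * (C + C ^ 3) * a ^ 2 ≤ k / 4 * a ^ 2 := mul_le_mul_of_nonneg_right
    ((mul_le_mul_of_nonneg_right hv (by positivity)).trans h4) (sq_nonneg a)
  nlinarith [mul_le_mul_of_nonneg_left k7 hC.le]

theorem qd_smooth (x₀ : F) (w : F →L[ℝ] ℝ) (q : F →L[ℝ] F →L[ℝ] ℝ) : ContDiff ℝ ∞ (qd x₀ w q) := by
  have h : ContDiff ℝ ∞ fun x : F => x - x₀ := contDiff_id.sub contDiff_const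
  exact (w.contDiff.comp h).neg.add (((q.contDiff.comp h).clm_apply h).div_const 2)

theorem qd_lip {x₀ : F} {w : F →L[ℝ] ℝ} {q : F →L[ℝ] F →L[ℝ] ℝ} {C : ℝ} (hw : ‖w‖ ≤ C)
    (hq : ‖q‖ ≤ C) {x y : F} (hx : ‖x - x₀‖ ≤ 1) (hy : ‖y - x₀‖ ≤ 1) :
    |qd x₀ w q x - qd x₀ w q y| ≤ 2 * C * ‖x - y‖ := by
  have hC : 0 ≤ C := (norm_nonneg _).trans hw
  have b : ∀ x y, |q x y| ≤ C * ‖x‖ * ‖y‖ := fun x y => (q.le_opNorm₂ x y).trans (by gcongr)
  have h1 : |w (x - y)| ≤ C * ‖x - y‖ := (w.le_opNorm _).trans (by gcongr)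
  have h2 := (b (x - y) (x - x₀)).trans (mul_le_of_le_one_right (by positivity) hx)
  have h3 : |q (y - x₀) (x - y)| ≤ C * ‖x - y‖ := (b _ _).trans
    (mul_le_mul_of_nonneg_right (mul_le_of_le_one_right hC hy) (norm_nonneg _))
  have e : qd x₀ w q x - qd x₀ w q y =
      -w (x - y) + (q (x - y) (x - x₀) + q (y - x₀) (x - y)) / 2 := by
    simp only [qd, map_sub, ContinuousLinearMap.sub_apply]
    ring
  rw [e, abs_le] at *
  constructor <;> linarith [h1.1, h1.2, h2.1, h2.2, h3.1, h3.2]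

/-- Decrease along a direction. -/
theorem qd_dir {x₀ : F} {w : F →L[ℝ] ℝ} {q : F →L[ℝ] F →L[ℝ] ℝ} {C δ t : ℝ} (hq : ‖q‖ ≤ C)
    {x e : F} (he : ‖e‖ ≤ 1) (hx : ‖x - x₀‖ ≤ δ) (ht : 0 ≤ t) (ht' : t ≤ δ) :
    qd x₀ w q (x + t • e) ≤ qd x₀ w q x - t * (w e - 2 * C * δ) := by
  have hC : 0 ≤ C := q.opNorm_nonneg.trans hq
  have hδ : 0 ≤ δ := ht.trans ht'
  have b : ∀ x y, q x y ≤ C * ‖x‖ * ‖y‖ := fun x y =>
    (le_abs_self _).trans ((q.le_opNorm₂ x y).trans (by gcongr))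
  have h1 : q (x - x₀) e ≤ C * δ * 1 := (b _ _).trans (by gcongr)
  have h2 : q e (x - x₀) ≤ C * 1 * δ := (b _ _).trans (by gcongr)
  have h3 : q e e ≤ C * 1 * 1 := (b _ _).trans (by gcongr)
  have h4 : t * q e e ≤ δ * C :=
    (mul_le_mul_of_nonneg_left h3 ht).trans (by rw [mul_one, mul_one]; gcongr)
  have e1 : qd x₀ w q (x + t • e) = qd x₀ w q x - t * (w e -
      (q (x - x₀) e + q e (x - x₀) + t * q e e) / 2) := by
    simp only [qd, add_sub_right_comm, map_add, map_smul, ContinuousLinearMap.add_apply,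
      ContinuousLinearMap.smul_apply, smul_eq_mul]
    ring
  rw [e1]
  exact sub_le_sub_left (mul_le_mul_of_nonneg_left (by nlinarith [mul_nonneg hC hδ]) ht) _

/-- Increase along a direction (`monotoneOn_of_deriv_nonneg`). -/
theorem T2.dir {Θ : F → ℝ} {p : F} {d C δ t : ℝ} (h : T2 Θ p d C) {x e : F} (he : ‖e‖ ≤ 1)
    (hx : ‖x - p‖ ≤ δ) (ht : 0 ≤ t) (ht' : t ≤ δ) (hd : 2 * δ < d)
    (hc : 2 * C * δ ≤ fderiv ℝ Θ p e) : Θ x ≤ Θ (x + t • e) := by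
  have hC : 0 ≤ C := (norm_nonneg _).trans h.n1
  have h1 : ∀ s ∈ Icc 0 t, ‖x + s • e - p‖ ≤ 2 * δ := fun s hs => by
    rw [add_sub_right_comm]
    refine (norm_add_le _ _).trans ?_
    rw [norm_smul, Real.norm_of_nonneg hs.1]
    nlinarith [hs.1, hs.2, norm_nonneg e]
  have h2 : ∀ s ∈ Icc 0 t, HasDerivAt (fun s : ℝ => Θ (x + s • e))
      (fderiv ℝ Θ (x + s • e) e) s := fun s hs => by
    have k1 := h.df _ ((h1 s hs).trans_lt hd)
    rw [add_sub_cancel] at k1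
    exact k1.hasFDerivAt.comp_hasDerivAt s
      (by simpa using ((hasDerivAt_id s).smul_const e).const_add x)
  have h3 := monotoneOn_of_deriv_nonneg (convex_Icc 0 t)
    (fun s hs => (h2 s hs).continuousAt.continuousWithinAt)
    (fun s hs => (h2 s (interior_subset hs)).differentiableAt.differentiableWithinAt)
    (fun s hs => by
      have k0 := interior_subset hs
      have k1 := h.t1 _ ((h1 s k0).trans_lt hd)
      rw [add_sub_cancel] at k1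
      have k2 := neg_le_of_abs_le (((fderiv ℝ Θ (x + s • e) - fderiv ℝ Θ p).le_opNorm e).trans
        ((mul_le_of_le_one_right (norm_nonneg _) he).trans
          (k1.trans (mul_le_mul_of_nonneg_left (h1 s k0) hC))))
      rw [ContinuousLinearMap.sub_apply] at k2
      rw [(h2 s k0).deriv]
      linarith)
  simpa using h3 (left_mem_Icc.2 ht) (right_mem_Icc.2 ht) ht

/-- Uniform bounds in compact families: `iteratedFDeriv` of `G ∘ (a, ·)` is the composition of `iteratedFDeriv ℝ i G` with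
`ContinuousLinearMap.inr` (`ContinuousLinearMap.iteratedFDeriv_comp_right`, `iteratedFDeriv_comp_add_left`). -/
theorem bd_par {A : Type} [NormedAddCommGroup A] [NormedSpace ℝ A] {G : A × F → ℝ}
    (hG : ContDiff ℝ ∞ G) {S : Set A} {K : Set F} (hS : IsCompact S) (hK : IsCompact K) (M : ℕ) :
    ∃ C : ℝ, 0 < C ∧ ∀ a ∈ S, ∀ x₀ : F, ∀ i ≤ M, ∀ x, x - x₀ ∈ K →
      ‖iteratedFDeriv ℝ i (fun y => G (a, y - x₀)) x‖ ≤ C := by
  choose c hc using fun i : ℕ => (hS.prod hK).exists_bound_of_continuousOn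
    (hG.continuous_iteratedFDeriv (m := i) (by exact_mod_cast le_top)).continuousOn
  refine ⟨1 + ∑ i ∈ Finset.range (M + 1), |c i|, by positivity, fun a ha x₀ i hi x hx => ?_⟩
  have e : (fun y => G (a, y - x₀)) =
      (fun z => G (z + (a, -x₀))) ∘ ContinuousLinearMap.inr ℝ A F := by
    funext y
    simp [sub_eq_add_neg]
  have hG' : ContDiff ℝ ∞ fun z => G (z + (a, -x₀)) := hG.comp (contDiff_id.add contDiff_const)
  rw [e, (ContinuousLinearMap.inr ℝ A F).iteratedFDeriv_comp_right hG' x (by exact_mod_cast le_top),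
    iteratedFDeriv_comp_add_right]
  refine (ContinuousMultilinearMap.norm_compContinuousLinearMap_le _ _).trans
    ((mul_le_of_le_one_right (norm_nonneg _) (Finset.prod_le_one (fun _ _ => norm_nonneg _)
      fun _ _ => ContinuousLinearMap.norm_inr_le_one ℝ A F)).trans
      ((hc i _ ⟨by simpa using ha, by simpa [← sub_eq_add_neg] using hx⟩).trans ?_))
  linarith [le_abs_self (c i), Finset.single_le_sum (f := fun i => |c i|)
    (fun _ _ => abs_nonneg _) (Finset.mem_range.2 (Nat.lt_succ_of_le hi))]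

end Vale.Agent.P088.Cr
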