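import Vale.Agent.P088F.CTik
import Vale.Agent.P088F.CGeo

/-! P088, part C: the three-region inequality on a slab.

`η = e * h ^ 2 / 10`, `f t = t + e * t ^ 2` (monotone on `[-2, ∞)`), `a = f (-h - 3 η)`, `s = f (2 η)`, `b = f (h - 2 η)`,
`θ = (s - a) / (b - a)`, `r = min (δ / 16) (η / (4 * C))` (so `α` moves by at most `η / 2` on balls of radius `r`, `qd_lip`).
`χ x = χ₁ (α x) * χ₂ (x - x₀)` with `χ₁ : ContDiffBump (-2 * η)` of radii `h`, `h + η` and `χ₂ : ContDiffBump 0` of radii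
`5 * δ / 8`, `6 * δ / 8`; `B` from `bd_par` (parameters `(w, q)` in a product of closed balls). A point of `tsupport χ` either has
`χ = 1` nearby, or `ball z r ⊆ A` and `a ≤ f (α z)`, or `ball z r ⊆ D` and `b ≤ f (α z)`. For `z ∈ N`: if `α z ≤ -h - η` then
`ball z r ⊆ A`; otherwise `χ = 1` and `f (α ·) ≤ s` on `ball z r`. Take `τ = max t₀ 0 + log ε⁻¹ / (2 * (b - a))`,
`m = exp (-2 τ a) * n2 A u + exp (-2 τ b) * n2 D u`, `Ct = Ci * (1 + Cc * exp (2 * max t₀ 0 * (s - a)))`. -/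

open MeasureTheory Set Filter Topology Metric
open scoped ContDiff ComplexConjugate InnerProductSpace

noncomputable section

namespace Vale.Agent.P088.Cr

open Vale.Agent.P292E

variable {n : ℕ} {ι : Type} [Fintype ι]

/-- the interior estimate at scale `r` inside `S` -/
def IEa (P : Set (V n) → Fm ι n → Prop) (S : Set (V n)) (r Ci : ℝ) : Prop :=
  ∀ D u z, IsOpen D → D ⊆ S → P D u → Bn D u → ball z r ⊆ D → ∀ l,
    ‖u l z‖ ^ 2 ≤ Ci * n2 (ball z r) u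

/-- the Carleman estimate with a cut-off function -/
def CAa (P : Set (V n) → Fm ι n → Prop) (φ : V n → ℝ) (S : Set (V n)) (r B t₀ Cc : ℝ) : Prop :=
  ∀ D u (χ : V n → ℝ) (τ m : ℝ), IsOpen D → D ⊆ S → P D u → Bn D u → ContDiff ℝ ∞ χ →
    tsupport χ ⊆ D → Bd 2 χ S B → t₀ ≤ τ → 0 ≤ m →
    (∀ z ∈ tsupport χ, (∀ᶠ y in 𝓝 z, χ y = 1) ∨
      (ball z r ⊆ D ∧ Real.exp (-2 * τ * φ z) * n2 (ball z r) u ≤ m)) →
    ∫ x in D, Real.exp (-2 * τ * φ x) * χ x ^ 2 * ∑ l, ‖u l x‖ ^ 2 ≤ Cc * m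

/-- the convexified weight -/
def cvx (e : ℝ) (α : V n → ℝ) (x : V n) : ℝ := α x + e * α x ^ 2

theorem ctr_chi (n : ℕ) (C : ℝ) {δ h η : ℝ} (hδ : 0 < δ) (hδ1 : δ ≤ 1) (hh : 0 < h) (hη : 0 < η) :
    ∃ B : ℝ, 0 < B ∧ ∀ (x₀ : V n) (w : V n →L[ℝ] ℝ) (q : V n →L[ℝ] V n →L[ℝ] ℝ), ‖w‖ ≤ C →
      ‖q‖ ≤ C → ∃ χ : V n → ℝ, ContDiff ℝ ∞ χ ∧ Bd 2 χ (ball x₀ δ) B ∧
        (∀ z ∈ tsupport χ, ‖z - x₀‖ ≤ 6 * δ / 8 ∧ -h - 3 * η ≤ qd x₀ w q z ∧ qd x₀ w q z ≤ h - η) ∧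
        ∀ z, ‖z - x₀‖ < 5 * δ / 8 → -h - 2 * η < qd x₀ w q z → qd x₀ w q z < h - 2 * η →
          χ z = 1 := by
  let χ₁ : ContDiffBump (-2 * η) := ⟨h, h + η, hh, by linarith⟩
  let χ₂ : ContDiffBump (0 : V n) := ⟨5 * δ / 8, 6 * δ / 8, by positivity, by linarith⟩
  have h1 : ContDiff ℝ ∞ fun v : ((V n →L[ℝ] ℝ) × (V n →L[ℝ] V n →L[ℝ] ℝ)) × V n =>
      -v.1.1 v.2 + v.1.2 v.2 v.2 / 2 :=
    (contDiff_fst.fst.clm_apply contDiff_snd).neg.add
      (((contDiff_fst.snd.clm_apply contDiff_snd).clm_apply contDiff_snd).div_const 2)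
  obtain ⟨B, hB, hb⟩ := bd_par ((χ₁.contDiff.comp h1).mul (χ₂.contDiff.comp contDiff_snd))
    ((isCompact_closedBall 0 C).prod (isCompact_closedBall 0 C)) (isCompact_closedBall 0 1) 2
  refine ⟨B, hB, fun x₀ w q hw hq => ⟨fun y => χ₁ (qd x₀ w q y) * χ₂ (y - x₀),
    (χ₁.contDiff.comp (qd_smooth x₀ w q)).mul (χ₂.contDiff.comp (contDiff_id.sub contDiff_const)),
    fun i hi x hx => hb (w, q)
      ⟨mem_closedBall_zero_iff.2 hw, (mem_closedBall_zero_iff (a := q)).2 hq⟩ x₀ i hi x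
      (mem_closedBall_zero_iff.2 ((mem_ball_iff_norm.1 hx).le.trans hδ1)), ?_,
    fun z h2 h3 h4 => ?_⟩⟩
  · have hc := (qd_smooth x₀ w q).continuous
    have hn : Continuous fun x : V n => ‖x - x₀‖ := by fun_prop
    refine fun z hz => closure_minimal (t := {z | ‖z - x₀‖ ≤ 6 * δ / 8 ∧
      -h - 3 * η ≤ qd x₀ w q z ∧ qd x₀ w q z ≤ h - η}) (fun y hy => ?_)
      ((isClosed_le hn continuous_const).inter
        ((isClosed_le continuous_const hc).inter (isClosed_le hc continuous_const))) hz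
    have h2 : qd x₀ w q y ∈ Function.support χ₁ := left_ne_zero_of_mul hy
    have h3 : y - x₀ ∈ Function.support χ₂ := right_ne_zero_of_mul hy
    rw [χ₁.support_eq, mem_ball, Real.dist_eq, abs_lt] at h2
    rw [χ₂.support_eq, mem_ball_zero_iff] at h3
    exact ⟨h3.le, by linarith [h2.1], by linarith [h2.2]⟩
  · change χ₁ (qd x₀ w q z) * χ₂ (z - x₀) = 1
    rw [χ₁.one_of_mem_closedBall (by
      rw [mem_closedBall, Real.dist_eq, abs_le]
      exact ⟨by linarith, by linarith⟩),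
      χ₂.one_of_mem_closedBall (mem_closedBall_zero_iff.2 h2.le), one_mul]

theorem ctr_mono {e s t : ℝ} (he : 0 < e) (he1 : e ≤ 1 / 4) (hs : -2 ≤ s) (hst : s ≤ t) :
    s + e * s ^ 2 ≤ t + e * t ^ 2 := by
  have h1 : 0 ≤ 1 + e * (s + t) := by nlinarith
  nlinarith [mul_nonneg (sub_nonneg.2 hst) h1]

theorem ctr_exp {a s b T ε x y : ℝ} (h1 : a ≤ s) (h2 : s < b) (hT : 0 ≤ T) (hε : 0 < ε)
    (hy : 0 ≤ y) {τ : ℝ} (hτ : τ = T + Real.log ε⁻¹ / (2 * (b - a))) :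
    Real.exp (2 * τ * s) * (Real.exp (-2 * τ * a) * x + Real.exp (-2 * τ * b) * y) ≤
      Real.exp (2 * T * (s - a)) *
        (ε ^ (-((s - a) / (b - a))) * x + ε ^ (1 - (s - a) / (b - a)) * y) := by
  have h3 : b - a ≠ 0 := by linarith
  rw [mul_add, mul_add, ← mul_assoc, ← mul_assoc, ← mul_assoc, ← mul_assoc,
    Real.rpow_def_of_pos hε, Real.rpow_def_of_pos hε]
  simp only [← Real.exp_add]
  rw [Real.log_inv] at hτ
  refine add_le_add (le_of_eq ?_) (mul_le_mul_of_nonneg_right (Real.exp_le_exp.2 ?_) hy)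
  · congr 2
    rw [hτ]
    field_simp
    ring
  · have e : 2 * τ * s + -2 * τ * b = 2 * T * (s - b) + Real.log ε * (1 - (s - a) / (b - a)) := by
      rw [hτ]
      field_simp
      ring
    rw [e]
    nlinarith

theorem ctr_core {e δ h η r B Ci Cc t₀ : ℝ} (he : 0 < e) (he1 : e ≤ 1 / 4) (hh1 : h ≤ 1)
    (hη : 0 < η) (hη1 : 40 * η ≤ h) (hr : r ≤ δ / 16) (hδ : 0 < δ) (hCi : 0 ≤ Ci) (hCc : 0 ≤ Cc)
    {a s b : ℝ} (ha : a = -h - 3 * η + e * (-h - 3 * η) ^ 2) (hs : s = 2 * η + e * (2 * η) ^ 2)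
    (hb : b = h - 2 * η + e * (h - 2 * η) ^ 2) (hsb : s < b)
    {P : Set (V n) → Fm ι n → Prop} (hP : Sh P) {x₀ : V n} {α χ : V n → ℝ} (hα : Continuous α)
    (mv : ∀ z y, ‖z - x₀‖ ≤ 6 * δ / 8 → y ∈ ball z r → |α y - α z| ≤ η / 2)
    (hχ : ContDiff ℝ ∞ χ) (hB : Bd 2 χ (ball x₀ δ) B)
    (hsup : ∀ z ∈ tsupport χ, ‖z - x₀‖ ≤ 6 * δ / 8 ∧ -h - 3 * η ≤ α z ∧ α z ≤ h - η)
    (hone : ∀ z, ‖z - x₀‖ < 5 * δ / 8 → -h - 2 * η < α z → α z < h - 2 * η → χ z = 1)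
    (hI : IEa P (ball x₀ δ) r Ci) (hA : CAa P (cvx e α) (ball x₀ δ) r B t₀ Cc) :
    TR P (sA x₀ α δ h) (sD x₀ α δ h) (sD x₀ α (δ / 4) η) ((s - a) / (b - a))
      (Ci * (1 + Cc * Real.exp (2 * max t₀ 0 * (s - a)))) := by
  intro u hu hb' ε hε hε1 l z hz
  have has : a ≤ s := ha ▸ hs ▸ ctr_mono he he1 (by linarith) (by linarith)
  have hn : Continuous fun x : V n => ‖x - x₀‖ := by fun_prop
  have oD : IsOpen (sD x₀ α δ h) :=
    (isOpen_lt hn continuous_const).inter (isOpen_lt hα continuous_const)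
  have sD' : sD x₀ α δ h ⊆ ball x₀ δ := fun x hx => mem_ball_iff_norm.2 hx.1
  have bD := isBounded_ball.subset sD'
  have oA : IsOpen (sA x₀ α δ h) := (isOpen_lt hn continuous_const).inter
    ((isOpen_lt hα continuous_const).inter
      ((isOpen_lt hα continuous_const).union (isOpen_lt continuous_const hn)))
  have sAD : sA x₀ α δ h ⊆ sD x₀ α δ h := fun x hx => ⟨hx.1, hx.2.1⟩
  have hc := hP.cont hu
  have nb : ∀ z y : V n, y ∈ ball z r → |‖y - x₀‖ - ‖z - x₀‖| < δ / 16 := fun z y hy => by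
    refine lt_of_le_of_lt (abs_norm_sub_norm_le _ _) ?_
    rw [sub_sub_sub_cancel_right]
    exact (mem_ball_iff_norm.1 hy).trans_le hr
  have inD : ∀ z, ‖z - x₀‖ ≤ 6 * δ / 8 → α z ≤ h - η → ball z r ⊆ sD x₀ α δ h :=
    fun z h1 h2 y hy => ⟨by linarith [(abs_lt.1 (nb z y hy)).2],
      by linarith [(abs_le.1 (mv z y h1 hy)).2]⟩
  have inA : ∀ z, ‖z - x₀‖ ≤ 6 * δ / 8 → α z ≤ h - η → α z ≤ -h - η ∨ 5 * δ / 8 ≤ ‖z - x₀‖ →
      n2 (ball z r) u ≤ n2 (sA x₀ α δ h) u := fun z h1 h2 h3 =>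
    n2_mono oA (bD.subset sAD) (fun y hy => ⟨(inD z h1 h2 hy).1, (inD z h1 h2 hy).2,
      h3.imp (fun h4 => by linarith [(abs_le.1 (mv z y h1 hy)).2])
        fun h4 => by linarith [(abs_lt.1 (nb z y hy)).1]⟩) (fun l => (hc l).mono sAD)
      (hb'.imp fun M hM l x hx => hM l x (sAD hx))
  have xA := n2_nonneg (sA x₀ α δ h) u
  have xD := n2_nonneg (sD x₀ α δ h) u
  have hz1 : ‖z - x₀‖ ≤ 6 * δ / 8 := by linarith [hz.1]
  have hz2 : α z ≤ h - η := by linarith [hz.2]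
  have hS : 0 ≤ ε ^ (-((s - a) / (b - a))) * n2 (sA x₀ α δ h) u +
      ε ^ (1 - (s - a) / (b - a)) * n2 (sD x₀ α δ h) u := by positivity
  refine (hI _ u z oD sD' hu hb' (inD z hz1 hz2) l).trans ?_
  rw [mul_assoc]
  refine mul_le_mul_of_nonneg_left ?_ hCi
  rw [add_mul, one_mul]
  rcases le_or_gt (α z) (-h - η) with h1 | h1
  · refine le_add_of_le_of_nonneg ((inA z hz1 hz2 (Or.inl h1)).trans
      (le_add_of_le_of_nonneg (le_mul_of_one_le_left xA ?_) (by positivity))) (by positivity)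
    exact Real.one_le_rpow_of_pos_of_le_one_of_nonpos hε hε1
      (neg_nonpos.2 (div_nonneg (by linarith) (by linarith)))
  refine le_add_of_nonneg_of_le hS ?_
  obtain ⟨τ, hτ⟩ : ∃ τ, τ = max t₀ 0 + Real.log ε⁻¹ / (2 * (b - a)) := ⟨_, rfl⟩
  have h2 : max t₀ 0 ≤ τ := hτ ▸ le_add_of_nonneg_right
    (div_nonneg (Real.log_nonneg ((one_le_inv₀ hε).2 hε1)) (by linarith))
  have τ0 : 0 ≤ τ := (le_max_right _ _).trans h2
  have ex : ∀ {x y : ℝ}, x ≤ y → Real.exp (-2 * τ * y) ≤ Real.exp (-2 * τ * x) := fun h =>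
    Real.exp_le_exp.2 (by nlinarith)
  have h3 := hA _ u χ τ (Real.exp (-2 * τ * a) * n2 (sA x₀ α δ h) u +
    Real.exp (-2 * τ * b) * n2 (sD x₀ α δ h) u) oD sD' hu hb' hχ
    (fun y hy => ⟨by linarith [(hsup y hy).1], by linarith [(hsup y hy).2.2]⟩) hB
    ((le_max_left _ _).trans h2) (by positivity) fun y hy => by
      obtain ⟨y1, y2, y3⟩ := hsup y hy
      by_cases c1 : h - 2 * η ≤ α y
      · exact Or.inr ⟨inD y y1 y3, le_add_of_nonneg_of_le (by positivity) (mul_le_mul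
          (ex (hb ▸ ctr_mono he he1 (by linarith) c1)) (n2_mono oD bD (inD y y1 y3) hc hb')
          (n2_nonneg _ _) (Real.exp_pos _).le)⟩
      by_cases c2 : α y ≤ -h - 2 * η ∨ 5 * δ / 8 ≤ ‖y - x₀‖
      · exact Or.inr ⟨inD y y1 y3, le_add_of_le_of_nonneg (mul_le_mul
          (ex (ha ▸ ctr_mono he he1 (by linarith) y2))
          (inA y y1 y3 (c2.imp_left fun h4 => by linarith))
          (n2_nonneg _ _) (Real.exp_pos _).le) (by positivity)⟩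
      rw [not_or, not_le, not_le] at c2
      refine Or.inl ?_
      filter_upwards [(isOpen_lt hn continuous_const).mem_nhds c2.2,
        (isOpen_lt continuous_const hα).mem_nhds c2.1,
        (isOpen_lt hα continuous_const).mem_nhds (not_le.1 c1)] with x x1 x2 x3
      exact hone x x1 x2 x3
  have hφ : Continuous (cvx e α) := hα.add (continuous_const.mul (hα.pow 2))
  have i1 := n2_int oD bD hc hb'
  have i2 := i1.continuousOn_mul_of_subset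
    (g := fun x => Real.exp (-2 * τ * cvx e α x) * χ x ^ 2)
    (Continuous.continuousOn (by have := hχ.continuous; fun_prop)) (isCompact_closedBall x₀ δ)
    oD.measurableSet (sD'.trans ball_subset_closedBall)
  have h4 : Real.exp (-2 * τ * s) * n2 (ball z r) u ≤
      ∫ x in sD x₀ α δ h, Real.exp (-2 * τ * cvx e α x) * χ x ^ 2 * ∑ l, ‖u l x‖ ^ 2 := by
    refine le_trans ?_ (setIntegral_mono_set i2 (Eventually.of_forall fun x => by positivity)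
      (inD z hz1 hz2).eventuallyLE)
    rw [n2, ← integral_const_mul]
    refine setIntegral_mono_on ((i1.mono_set (inD z hz1 hz2)).const_mul _)
      (i2.mono_set (inD z hz1 hz2)) measurableSet_ball fun y hy => ?_
    have y1 := abs_le.1 (mv z y hz1 hy)
    have y2 := abs_lt.1 (nb z y hy)
    rw [hone y (by linarith [hz.1]) (by linarith) (by linarith [hz.2]), one_pow, mul_one]
    exact mul_le_mul_of_nonneg_right (ex (hs ▸ ctr_mono he he1 (by linarith) (by linarith [hz.2])))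
      (by positivity)
  have h5 := mul_le_mul_of_nonneg_left (h4.trans h3) (Real.exp_pos (2 * τ * s)).le
  rw [← mul_assoc, ← Real.exp_add, show 2 * τ * s + -2 * τ * s = 0 by ring, Real.exp_zero, one_mul,
    mul_left_comm] at h5
  rw [mul_assoc]
  exact h5.trans (mul_le_mul_of_nonneg_left (ctr_exp has hsb (le_max_right _ _) hε xD hτ) hCc)

theorem slabTR (ι : Type) [Fintype ι] (n : ℕ) {C e δ h : ℝ} (hC : 1 ≤ C) (he : 0 < e)
    (he1 : e ≤ 1 / 4) (hδ : 0 < δ) (hδ1 : δ ≤ 1) (hh : 0 < h) (hh1 : h ≤ 1) :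
    ∃ η θ r B : ℝ, 0 < η ∧ η ≤ h ∧ 0 ≤ θ ∧ θ < 1 / 2 ∧ 0 < r ∧ r ≤ 1 ∧ 0 < B ∧
      ∀ Ci Cc t₀ : ℝ, 0 ≤ Ci → 0 ≤ Cc → ∃ Ct : ℝ, 0 ≤ Ct ∧
      ∀ {P : Set (V n) → Fm ι n → Prop}, Sh P → ∀ (x₀ : V n) (w : V n →L[ℝ] ℝ)
        (q : V n →L[ℝ] V n →L[ℝ] ℝ), ‖w‖ ≤ C → ‖q‖ ≤ C → IEa P (ball x₀ δ) r Ci →
        CAa P (cvx e (qd x₀ w q)) (ball x₀ δ) r B t₀ Cc →
        TR P (sA x₀ (qd x₀ w q) δ h) (sD x₀ (qd x₀ w q) δ h) (sD x₀ (qd x₀ w q) (δ / 4) η) θ Ct := by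
  obtain ⟨η, hη⟩ : ∃ η, η = e * h ^ 2 / 10 := ⟨_, rfl⟩
  have η0 : 0 < η := by rw [hη]; positivity
  have η1 : 40 * η ≤ h := by
    have : e * h ^ 2 ≤ 1 / 4 * h := mul_le_mul he1 (by nlinarith) (by positivity) (by norm_num)
    linarith
  obtain ⟨a, ha⟩ : ∃ a, a = -h - 3 * η + e * (-h - 3 * η) ^ 2 := ⟨_, rfl⟩
  obtain ⟨s, hs⟩ : ∃ s, s = 2 * η + e * (2 * η) ^ 2 := ⟨_, rfl⟩
  obtain ⟨b, hb⟩ : ∃ b, b = h - 2 * η + e * (h - 2 * η) ^ 2 := ⟨_, rfl⟩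
  have has : a ≤ s := ha ▸ hs ▸ ctr_mono he he1 (by linarith) (by linarith)
  have h2 : 2 * s < a + b := by
    have h3 := mul_pos he (mul_pos hh η0)
    have h4 := mul_pos he (mul_pos η0 η0)
    rw [ha, hs, hb]
    nlinarith
  have hsb : s < b := by linarith
  obtain ⟨B, hB, hχ⟩ := ctr_chi n C hδ hδ1 hh η0
  have C0 : 0 < C := by linarith
  refine ⟨η, (s - a) / (b - a), min (δ / 16) (η / (4 * C)), B, η0, by linarith,
    div_nonneg (by linarith) (by linarith), (div_lt_iff₀ (by linarith)).2 (by linarith),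
    lt_min (by positivity) (by positivity), (min_le_left _ _).trans (by linarith), hB,
    fun Ci Cc t₀ hCi hCc => ⟨Ci * (1 + Cc * Real.exp (2 * max t₀ 0 * (s - a))), by positivity,
      fun hP x₀ w q hw hq hI hA => ?_⟩⟩
  obtain ⟨χ, c1, c2, c3, c4⟩ := hχ x₀ w q hw hq
  refine ctr_core he he1 hh1 η0 η1 (min_le_left _ _) hδ hCi hCc ha hs hb hsb hP
    (qd_smooth x₀ w q).continuous (fun z y hz hy => ?_) c1 c2 c3 c4 hI hA
  obtain ⟨y1, y2⟩ := lt_min_iff.1 (mem_ball_iff_norm.1 hy)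
  have y3 : ‖y - x₀‖ ≤ ‖y - z‖ + ‖z - x₀‖ := norm_sub_le_norm_sub_add_norm_sub _ _ _
  refine (qd_lip hw hq (by linarith) (by linarith)).trans ?_
  rw [lt_div_iff₀ (by positivity)] at y2
  linarith

end Vale.Agent.P088.Cr
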