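import Vale.Agent.P088F.CD2
import Vale.Agent.P088F.CTR

/-! P088, part C: the Hessians of the two weights.

`lv_q`: index all admissible data by a subtype `S`; call `c : S → ℝ` bounded, `l : S → V n → ℝ` linear if `l s = L s` with `‖L s‖` bounded,
`E : S → V n → ℝ` quadratic if `E s ξ = B s ξ ξ` with `‖B s‖` bounded; these classes are closed under sums and products (`smulRight`), so the right side is
quadratic. `gv g x` is a linear automorphism `T` with `c * ‖ξ‖ ≤ ‖T ξ‖`; `q = B.bilinearComp T⁻¹ T⁻¹`. -/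

open MeasureTheory Set Filter Topology Metric
open scoped ContDiff ENNReal

noncomputable section

namespace Vale.Agent.P088.Cr

open Vale.Agent.P292E Vale.Agent.P088F

variable {n : ℕ}

/-- bounds at a point -/
structure Gb (g : Mf n) (x : V n) (M c : ℝ) : Prop where
  symm : ∀ j k, g j k x = g k j x
  b0 : ∀ j k, |g j k x| ≤ M
  b1 : ∀ i j k, |pr i (g j k) x| ≤ M
  ell : ∀ ξ, c * ‖ξ‖ ^ 2 ≤ ip g x ξ ξ

theorem gb_of {ι : Type} {L : Op n ι} {M c : ℝ} (h : L.Sm) (hb : L.Bdd 1 M c) (x : V n) :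
    Gb L.g x M c := by
  refine ⟨fun j k => h.symm j k x, fun j k => ?_, fun i j k => ?_, hb.ell x⟩
  · simpa using hb.g j k 0 zero_le_one x (mem_univ x)
  · have h1 := hb.g j k 1 le_rfl x (mem_univ x)
    rw [norm_iteratedFDeriv_one] at h1
    refine ((fderiv ℝ (L.g j k) x).le_opNorm (ee i)).trans ?_
    simpa [ee] using h1

theorem ip_eq (g : Mf n) (x ϖ ξ : V n) : ip g x ϖ ξ = inner ℝ ϖ (gv g x ξ) := by
  simp only [ip, gv, PiLp.inner_apply, RCLike.inner_apply, conj_trivial, Finset.sum_mul]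
  exact Finset.sum_congr rfl fun j _ => Finset.sum_congr rfl fun k _ => by ring

theorem cleva_inv {g : Mf n} {x : V n} {M c : ℝ} (h : Gb g x M c) (hc : 0 < c) :
    ∃ R : V n →L[ℝ] V n, (∀ ξ, R (gv g x ξ) = ξ) ∧ (∀ ξ, gv g x (R ξ) = ξ) ∧
      ∀ ξ, ‖R ξ‖ ≤ c⁻¹ * ‖ξ‖ := by
  have h1 : ∀ ξ, ‖ξ‖ ≤ c⁻¹ * ‖gv g x ξ‖ := fun ξ => by
    rw [le_inv_mul_iff₀ hc]
    rcases (norm_nonneg ξ).eq_or_lt with h0 | h0
    · rw [← h0, mul_zero]
      exact norm_nonneg _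
    · have h2 := (h.ell ξ).trans ((ip_eq g x ξ ξ).trans_le (real_inner_le_norm _ _))
      exact le_of_mul_le_mul_left (by nlinarith) h0
  let T : V n →ₗ[ℝ] V n := Matrix.toEuclideanLin (Matrix.of fun j k => g j k x)
  have h2 : Function.Injective T := (injective_iff_map_eq_zero T).2 fun ξ hξ => by
    have h3 := h1 ξ
    rw [show gv g x ξ = 0 from hξ, norm_zero, mul_zero] at h3
    exact norm_le_zero_iff.1 h3
  let E := (LinearEquiv.ofInjectiveEndo T h2).toContinuousLinearEquiv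
  refine ⟨E.symm, E.symm_apply_apply, E.apply_symm_apply, fun ξ => (h1 _).trans_eq ?_⟩
  exact congrArg (c⁻¹ * ‖·‖) (E.apply_symm_apply ξ)

theorem Gb.surj {g : Mf n} {x : V n} {M c : ℝ} (h : Gb g x M c) (hc : 0 < c) :
    Function.Surjective (gv g x) := by
  obtain ⟨R, -, h1, -⟩ := cleva_inv h hc
  exact fun ξ => ⟨R ξ, h1 ξ⟩

theorem Gb.gv_le {g : Mf n} {x : V n} {M c : ℝ} (h : Gb g x M c) (ξ : V n) :
    ‖gv g x ξ‖ ≤ n * M * ‖ξ‖ := by
  have hM : 0 ≤ (n : ℝ) * M := by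
    rcases Nat.eq_zero_or_pos n with rfl | hn
    · simp
    · exact mul_nonneg n.cast_nonneg ((abs_nonneg _).trans (h.b0 ⟨0, hn⟩ ⟨0, hn⟩))
  refine le_of_sq_le_sq ?_ (mul_nonneg hM (norm_nonneg _))
  rw [mul_pow, EuclideanSpace.real_norm_sq_eq, EuclideanSpace.real_norm_sq_eq]
  refine (Finset.sum_le_sum fun j _ => (Finset.sum_mul_sq_le_sq_mul_sq Finset.univ _ ξ.ofLp).trans
    (mul_le_mul_of_nonneg_right (Finset.sum_le_sum (g := fun _ => M ^ 2) fun k _ =>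
      sq_le_sq' (abs_le.1 (h.b0 j k)).1 (abs_le.1 (h.b0 j k)).2)
      (Finset.sum_nonneg fun _ _ => sq_nonneg _))).trans_eq ?_
  simp only [Finset.sum_const, Finset.card_fin, nsmul_eq_mul]
  ring

theorem Gb.perp_nonneg {g : Mf n} {x : V n} {M c : ℝ} (h : Gb g x M c) (hc : 0 < c) (ϖ ξ : V n) :
    0 ≤ perp g x ϖ ξ := by
  have h1 : ip g x ξ ϖ = ip g x ϖ ξ := by
    rw [ip, Finset.sum_comm]
    exact Finset.sum_congr rfl fun j _ => Finset.sum_congr rfl fun k _ => by rw [h.symm]; ring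
  have h2 : ∀ t : ℝ, ip g x (ξ - t • ϖ) (ξ - t • ϖ) =
      ip g x ξ ξ - t * ip g x ξ ϖ - t * ip g x ϖ ξ + t ^ 2 * ip g x ϖ ϖ := fun t => by
    simp only [ip, PiLp.sub_apply, PiLp.smul_apply, smul_eq_mul, Finset.mul_sum,
      ← Finset.sum_sub_distrib, ← Finset.sum_add_distrib]
    exact Finset.sum_congr rfl fun j _ => Finset.sum_congr rfl fun k _ => by ring
  refine ((mul_nonneg hc.le (sq_nonneg _)).trans
    (h.ell (ξ - (ip g x ϖ ξ / ip g x ϖ ϖ) • ϖ))).trans_eq ?_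
  rw [h2, h1, perp]
  by_cases h3 : ip g x ϖ ϖ = 0
  · simp [h3]
  · field_simp
    ring

/-- the prescribed Hessian -/
def lvE (g : Mf n) (x ϖ w : V n) (k : ℝ) (ξ : V n) : ℝ :=
  -(k / 2) * perp g x ϖ ξ + k / 4 * (ip g x ξ ξ - perp g x ϖ ξ) + hsT g x ϖ ξ + gau g x w ϖ ξ

section
variable {S W : Type} [NormedAddCommGroup W] [NormedSpace ℝ W]

/-- bilinear forms -/
abbrev clevaT (n : ℕ) : Type := V n →L[ℝ] V n →L[ℝ] ℝ

/-- bounded families -/
def clevaB {W : Type} [Norm W] (f : S → W) : Prop := ∃ C : ℝ, 0 ≤ C ∧ ∀ s, ‖f s‖ ≤ C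

/-- families given by bounded linear maps -/
def clevaL (l : S → V n → ℝ) : Prop :=
  ∃ L : S → V n →L[ℝ] ℝ, clevaB L ∧ ∀ s ξ, l s ξ = L s ξ

/-- families given by bounded bilinear maps -/
def clevaQ (E : S → V n → ℝ) : Prop :=
  ∃ B : S → V n →L[ℝ] V n →L[ℝ] ℝ, clevaB B ∧ ∀ s ξ, E s ξ = B s ξ ξ

omit [NormedSpace ℝ W] in
theorem clevaB.of {f : S → W} {C : ℝ} (h : ∀ s, ‖f s‖ ≤ C) : clevaB f :=
  ⟨|C|, abs_nonneg C, fun s => (h s).trans (le_abs_self C)⟩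

omit [NormedSpace ℝ W] in
theorem clevaB.add {f f' : S → W} (h : clevaB f) (h' : clevaB f') : clevaB fun s => f s + f' s :=
  let ⟨_, _, h1⟩ := h
  let ⟨_, _, h2⟩ := h'
  .of fun s => norm_add_le_of_le (h1 s) (h2 s)

theorem clevaB.smul {c : S → ℝ} {f : S → W} (h : clevaB c) (h' : clevaB f) :
    clevaB fun s => c s • f s :=
  let ⟨_, h0, h1⟩ := h
  let ⟨_, _, h2⟩ := h'
  .of fun s => (norm_smul_le _ _).trans (mul_le_mul (h1 s) (h2 s) (norm_nonneg _) h0)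

variable {l l' E E' : S → V n → ℝ} {c : S → ℝ}

theorem clevaL.app (h : clevaL l) {u : S → V n} (hu : clevaB u) : clevaB fun s => l s (u s) := by
  obtain ⟨L, ⟨C, h0, h1⟩, e⟩ := h
  obtain ⟨C', -, h2⟩ := hu
  exact .of fun s => e s _ ▸ ((L s).le_opNorm _).trans (mul_le_mul (h1 s) (h2 s) (norm_nonneg _) h0)

theorem clevaL.co (j : Fin n) : clevaL fun (_ : S) (ξ : V n) => ξ j :=
  ⟨fun _ => EuclideanSpace.proj j, .of fun _ => le_rfl, fun _ _ => rfl⟩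

theorem clevaL.cm (h : clevaL l) (hc : clevaB c) : clevaL fun s ξ => c s * l s ξ :=
  let ⟨L, h1, e⟩ := h
  ⟨fun s => c s • L s, hc.smul h1, fun s ξ => by simp [e]⟩

theorem clevaL.mc (h : clevaL l) (hc : clevaB c) : clevaL fun s ξ => l s ξ * c s := by
  simpa only [mul_comm] using h.cm hc

theorem clevaL.sum {κ : Type} (t : Finset κ) {l : κ → S → V n → ℝ} (h : ∀ i, clevaL (l i)) :
    clevaL fun s ξ => ∑ i ∈ t, l i s ξ := by
  classical
  induction t using Finset.induction_on with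
  | empty => exact ⟨fun _ => 0, .of fun _ => le_rfl, fun _ _ => rfl⟩
  | insert a t ha ih =>
    obtain ⟨L, h1, e⟩ := h a
    obtain ⟨L', h2, e'⟩ := ih
    exact ⟨fun s => L s + L' s, h1.add h2, fun s ξ => by
      simp only [Finset.sum_insert ha, ContinuousLinearMap.add_apply, ← e', ← e]⟩

theorem clevaL.mul (h : clevaL l) (h' : clevaL l') : clevaQ fun s ξ => l s ξ * l' s ξ := by
  obtain ⟨L, ⟨C, h0, h1⟩, e⟩ := h
  obtain ⟨L', ⟨C', -, h2⟩, e'⟩ := h'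
  exact ⟨fun s => (L s).smulRight (L' s), .of (W := clevaT n) fun s =>
    ((L s).norm_smulRight_apply _).trans_le (mul_le_mul (h1 s) (h2 s) (norm_nonneg _) h0), fun s ξ => by simp [e, e']⟩

theorem clevaQ.cm (h : clevaQ E) (hc : clevaB c) : clevaQ fun s ξ => c s * E s ξ :=
  let ⟨B, h1, e⟩ := h
  ⟨fun s => c s • B s, hc.smul (W := clevaT n) h1, fun s ξ => by simp [e]⟩

theorem clevaQ.add (h : clevaQ E) (h' : clevaQ E') : clevaQ fun s ξ => E s ξ + E' s ξ :=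
  let ⟨B, h1, e⟩ := h
  let ⟨B', h2, e'⟩ := h'
  ⟨fun s => B s + B' s, clevaB.add (W := clevaT n) h1 h2, fun s ξ => by simp [e, e']⟩

theorem clevaQ.sub (h : clevaQ E) (h' : clevaQ E') : clevaQ fun s ξ => E s ξ - E' s ξ := by
  simpa only [neg_one_mul, ← sub_eq_add_neg] using
    h.add (h'.cm (c := fun _ => -1) (.of fun _ => le_rfl))

theorem clevaQ.sum {κ : Type} (t : Finset κ) {E : κ → S → V n → ℝ} (h : ∀ i, clevaQ (E i)) :
    clevaQ fun s ξ => ∑ i ∈ t, E i s ξ := by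
  classical
  induction t using Finset.induction_on with
  | empty => exact ⟨fun _ => 0, .of (W := clevaT n) fun _ => le_rfl, fun _ _ => rfl⟩
  | insert a t ha ih => simpa only [Finset.sum_insert ha] using (h a).add ih

theorem cleva_lv {g : S → Mf n} {x ϖ w : S → V n} {k : S → ℝ}
    (h0 : ∀ j l, clevaB fun s => g s j l (x s))
    (h1 : ∀ i j l, clevaB fun s => pr i (g s j l) (x s)) (hϖ : clevaB ϖ) (hw : clevaB w)
    (hk : clevaB k) (hi : clevaB fun s => (ip (g s) (x s) (ϖ s) (ϖ s))⁻¹) :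
    clevaQ fun s ξ => lvE (g s) (x s) (ϖ s) (w s) (k s) ξ := by
  have hc : ∀ a : ℝ, clevaB fun _ : S => a := fun a => .of fun _ => le_rfl
  have h2 : ∀ {u : S → V n}, clevaB u → clevaL fun s ξ => ip (g s) (x s) (u s) ξ := fun hu =>
    .sum _ fun j => .sum _ fun l => (clevaL.co l).cm ((h0 j l).smul ((clevaL.co j).app hu))
  have h3 : clevaQ fun s ξ => ip (g s) (x s) ξ ξ :=
    .sum _ fun j => .sum _ fun l => ((clevaL.co j).cm (h0 j l)).mul (.co l)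
  have h4 : ∀ i, clevaL fun s ξ => gv (g s) (x s) ξ i := fun i =>
    clevaL.sum Finset.univ fun l => (clevaL.co l).cm (h0 i l)
  have h5 : clevaQ fun s ξ => perp (g s) (x s) (ϖ s) ξ := by
    simpa only [perp, sq, div_eq_inv_mul] using h3.sub (((h2 hϖ).mul (h2 hϖ)).cm hi)
  have h6 : clevaQ fun s ξ => hsT (g s) (x s) (ϖ s) ξ :=
    (clevaQ.sum _ fun i => .sum _ fun j => .sum _ fun l =>
      (((h4 i).mc (h1 i j l)).mc ((clevaL.co l).app hϖ)).mul (.co j)).sub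
    ((clevaQ.sum _ fun l => .sum _ fun i => .sum _ fun j =>
      ((clevaL.co i).cm (((h4 l).app hϖ).smul (h1 l i j))).mul (.co j)).cm (hc _))
  have h7 : clevaQ fun s ξ => gau (g s) (x s) (w s) (ϖ s) ξ :=
    (((h2 hw).cm (hc 2)).mul (h2 hϖ)).sub (h3.cm ((h2 hw).app hϖ))
  have h8 : clevaB fun s => -(k s / 2) := by
    simpa only [smul_eq_mul, neg_mul, ← div_eq_inv_mul] using (hc (-2⁻¹)).smul hk
  have h9 : clevaB fun s => k s / 4 := by
    simpa only [smul_eq_mul, ← div_eq_inv_mul] using (hc 4⁻¹).smul hk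
  exact (((h5.cm h8).add ((h3.sub h5).cm h9)).add h6).add h7

end

theorem lv_q (n : ℕ) {M c : ℝ} (hc : 0 < c) : ∃ C : ℝ, ∀ (g : Mf n) (x ϖ w : V n) (k : ℝ),
    Gb g x M c → c ≤ ‖ϖ‖ → ‖ϖ‖ ≤ M → ‖w‖ ≤ M → |k| ≤ M →
    ∃ q : V n →L[ℝ] V n →L[ℝ] ℝ, ‖q‖ ≤ C ∧ ∀ ξ, q (gv g x ξ) (gv g x ξ) = lvE g x ϖ w k ξ := by
  obtain ⟨B, ⟨C, hC, h1⟩, e⟩ := cleva_lv (S := {s : Mf n × V n × V n × V n × ℝ //
      Gb s.1 s.2.1 M c ∧ c ≤ ‖s.2.2.1‖ ∧ ‖s.2.2.1‖ ≤ M ∧ ‖s.2.2.2.1‖ ≤ M ∧ |s.2.2.2.2| ≤ M})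
    (g := fun s => s.1.1) (x := fun s => s.1.2.1) (ϖ := fun s => s.1.2.2.1)
    (w := fun s => s.1.2.2.2.1) (k := fun s => s.1.2.2.2.2) (fun j l => .of fun s => s.2.1.b0 j l)
    (fun i j l => .of fun s => s.2.1.b1 i j l) (.of fun s => s.2.2.2.1) (.of fun s => s.2.2.2.2.1)
    (.of fun s => s.2.2.2.2.2) (.of (C := (c * c ^ 2)⁻¹) fun s => by
      have h := (mul_le_mul_of_nonneg_left (pow_le_pow_left₀ hc.le s.2.2.1 2) hc.le).trans
        (s.2.1.ell _)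
      rw [norm_inv, Real.norm_of_nonneg (le_trans (by positivity) h)]
      exact inv_anti₀ (by positivity) h)
  refine ⟨C * c⁻¹ * c⁻¹, fun g x ϖ w k h2 h3 h4 h5 h6 => ?_⟩
  obtain ⟨R, h7, -, h8⟩ := cleva_inv h2 hc
  refine ⟨(B ⟨(g, x, ϖ, w, k), h2, h3, h4, h5, h6⟩).bilinearComp R R,
    ContinuousLinearMap.opNorm_le_bound₂ _ (by positivity) fun ξ η => ?_, fun ξ => ?_⟩
  · refine (ContinuousLinearMap.le_opNorm₂ _ (R ξ) (R η)).trans ((mul_le_mul (mul_le_mul (h1 _)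
      (h8 ξ) (norm_nonneg _) hC) (h8 η) (norm_nonneg _) (by positivity)).trans_eq ?_)
    ring
  · rw [ContinuousLinearMap.bilinearComp_apply, h7]
    exact (e ⟨(g, x, ϖ, w, k), h2, h3, h4, h5, h6⟩ ξ).symm

end Vale.Agent.P088.Cr
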