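import Vale.Agent.P088F.CCross
import Vale.Agent.P088F.CGeo

/-! P088, part C: the slab lemma for abstract solution classes.

`δ₁ = min (δ of geo) (min 1 (1 / (4 * C ^ 2)))`, `h₁ = min (k * δ ^ 2 / 64) (δ / (64 * C))`, `r = min (η / (4 * C)) (δ / 16)`,
`v` = volume of the unit ball. With `A = sA x₀ α δ h`, `D = sD ..`, `B`, `D'` likewise, `K = {‖x - x₀‖ ≤ δ, α x ≤ h}`,
`K' = {‖y - y₀‖ ≤ δ, β y ≤ h, β y ≤ -h ∨ δ / 2 ≤ ‖y - y₀‖}`: by `geo` the sets `K ×ˢ K'` and `A ×ˢ D'` lie in `O`. Apply `cross` with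
`N = sD x₀ α (δ / 4) η`, `N'` likewise; both contain the balls of radius `r` (`qd_lip`). For `(x, y)` in the small ball with
`Θ p < Θ (x, y)` the segment `y + t • e`, `0 ≤ t ≤ 8 * C * h`, lies in `U = {z ∈ N' | (x, z) ∈ O}` (`T2.dir` for `(0, e)`, `qd_dir`) and ends in
`B`; use `UC` on `connectedComponentIn U y` for `sy W' l x - sy W l x`. -/

open MeasureTheory Set Filter Topology Metric
open scoped ContDiff ComplexConjugate InnerProductSpace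

noncomputable section

namespace Vale.Agent.P088.Cr

open Vale.Agent.P292E

variable {n : ℕ} {ι : Type} [Fintype ι]

/-- unique continuation inside `S` -/
def UC (P : Set (V n) → Fm ι n → Prop) (S : Set (V n)) : Prop :=
  ∀ D u, IsOpen D → D ⊆ S → IsPreconnected D → P D u → ∀ z ∈ D, (∀ᶠ y in 𝓝 z, ∀ l, u l y = 0) →
    ∀ l, ∀ y ∈ D, u l y = 0

/-- continuous kernels on an open set whose slices are solutions -/
structure So (P Q : Set (V n) → Fm ι n → Prop) (O : Set (V n × V n)) (W : Kn ι n) : Prop where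
  cont : ∀ l m, ContinuousOn (W l m) O
  px : ∀ m y, P {x | (x, y) ∈ O} (sx W m y)
  py : ∀ l x, Q {y | (x, y) ∈ O} (sy W l x)

/-- the derivative in the first variable -/
def d1 (Θ : V n × V n → ℝ) (p : V n × V n) : V n →L[ℝ] ℝ :=
  (fderiv ℝ Θ p).comp (ContinuousLinearMap.inl ℝ (V n) (V n))

/-- the derivative in the second variable -/
def d2 (Θ : V n × V n → ℝ) (p : V n × V n) : V n →L[ℝ] ℝ :=
  (fderiv ℝ Θ p).comp (ContinuousLinearMap.inr ℝ (V n) (V n))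

theorem cslab0_sl {P Q : Set (V n) → Fm ι n → Prop} (hP : Sh P) (hQ : Sh Q)
    {O : Set (V n × V n)} {W : Kn ι n} (hW : So P Q O W) {D D' : Set (V n)} (hD : IsOpen D)
    (hD' : IsOpen D') (h : D ×ˢ D' ⊆ O) : Sl P Q D D' W :=
  ⟨fun l m => (hW.cont l m).mono h, fun m y hy => hP.mono (hW.px m y) hD fun _ hx => h ⟨hx, hy⟩,
    fun l x hx => hQ.mono (hW.py l x) hD' fun _ hy => h ⟨hx, hy⟩⟩

theorem cslab0_oD (x₀ : V n) {α : V n → ℝ} (hα : Continuous α) (δ h : ℝ) :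
    IsOpen (sD x₀ α δ h) :=
  (isOpen_lt (continuous_id.sub continuous_const).norm continuous_const).inter 
    (isOpen_lt hα continuous_const)

theorem cslab0_oA (x₀ : V n) {α : V n → ℝ} (hα : Continuous α) (δ h : ℝ) :
    IsOpen (sA x₀ α δ h) := by
  have c : Continuous fun x : V n => ‖x - x₀‖ := by fun_prop
  exact (isOpen_lt c continuous_const).inter ((isOpen_lt hα continuous_const).inter
    ((isOpen_lt hα continuous_const).union (isOpen_lt continuous_const c)))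

theorem cslab0_reg (x₀ : V n) {α : V n → ℝ} (hα : Continuous α) {δ : ℝ} (hδ : δ ≤ 1) (h : ℝ) :
    Reg (sA x₀ α δ h) (sD x₀ α δ h) (volume.real (ball (0 : V n) 1)) := by
  have hs : sD x₀ α δ h ⊆ ball x₀ 1 := fun x hx => mem_ball_iff_norm.2 (hx.1.trans_le hδ)
  refine ⟨cslab0_oA x₀ hα δ h,
    cslab0_oD x₀ hα δ h, fun x hx => ⟨hx.1, hx.2.1⟩, isBounded_ball.subset hs, ?_⟩
  rw [← Measure.addHaar_real_ball_center volume x₀]
  exact measureReal_mono hs measure_ball_lt_top.ne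

theorem cslab0_zero (x₀ : V n) (w : V n →L[ℝ] ℝ) (q : V n →L[ℝ] V n →L[ℝ] ℝ) :
    qd x₀ w q x₀ = 0 := by simp [qd]

theorem cslab0_ball {x₀ : V n} {w : V n →L[ℝ] ℝ} {q : V n →L[ℝ] V n →L[ℝ] ℝ} {C δ η r : ℝ}
    (hC : 1 ≤ C) (hw : ‖w‖ ≤ C) (hq : ‖q‖ ≤ C) (hδ : δ ≤ 1) (h1 : r ≤ η / (4 * C))
    (h2 : r ≤ δ / 16) : ball x₀ r ⊆ sD x₀ (qd x₀ w q) (δ / 4) η := by
  intro x hx
  have h3 := mem_ball_iff_norm.1 hx
  have h0 := norm_nonneg (x - x₀)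
  have h4 := qd_lip (x₀ := x₀) hw hq (x := x) (y := x₀) (by linarith) (by simp)
  rw [cslab0_zero, sub_zero] at h4
  rw [le_div_iff₀ (by linarith)] at h1
  refine ⟨by linarith, ?_⟩
  nlinarith [le_abs_self (qd x₀ w q x)]

theorem cslab0_in {Θ : V n × V n → ℝ} {p : V n × V n} {α β : V n → ℝ} {k δ h : ℝ} (hk : 0 < k)
    (hδ : 0 < δ) (h0 : 0 < h) (h1 : h ≤ k * δ ^ 2 / 64) (hα : α p.1 = 0) (hβ : β p.2 = 0)
    (hg : ∀ z, ‖z - p‖ ≤ δ → Θ z ≤ Θ p → k / 4 * ‖z - p‖ ^ 2 ≤ α z.1 + β z.2) {z : V n × V n}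
    (hz : ‖z - p‖ ≤ δ) (a : α z.1 ≤ h) (b : β z.2 ≤ h)
    (c : (α z.1 ≤ -h ∨ β z.2 ≤ -h) ∨ δ / 2 ≤ ‖z - p‖) : Θ p < Θ z := by
  by_contra hn
  have h2 := hg z hz (not_lt.1 hn)
  rcases c with c | c
  · have h3 : k / 4 * ‖z - p‖ ^ 2 ≤ k / 4 * 0 := by rcases c with c | c <;> linarith
    have h4 := le_of_mul_le_mul_left h3 (by positivity)
    obtain rfl : z = p := sub_eq_zero.1 (norm_eq_zero.1 (pow_eq_zero_iff two_ne_zero |>.1
      (le_antisymm h4 (sq_nonneg _))))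
    rcases c with c | c <;> linarith
  · have h3 := mul_le_mul_of_nonneg_left (pow_le_pow_left₀ (by positivity) c 2)
      (by positivity : 0 ≤ k / 4)
    have h4 : 0 < k * δ ^ 2 := by positivity
    linarith

theorem cslab0_e {C δ a : ℝ} (hC : 1 ≤ C) (h : δ ≤ 1 / (4 * C ^ 2)) (ha : 1 / C ≤ a) :
    2 * C * (δ / 8) ≤ a ∧ 1 / (2 * C) ≤ a - 2 * C * (δ / 8) := by
  have hC0 : 0 < C := by linarith
  have g3 : C * δ ≤ 1 / (4 * C) := by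
    rw [le_div_iff₀ (by positivity)] at h ⊢
    linarith
  have g4 : 1 / C = 4 * (1 / (4 * C)) := by field_simp
  have g5 : 1 / (2 * C) = 2 * (1 / (4 * C)) := by field_simp; norm_num
  have g6 : 0 < 1 / (4 * C) := by positivity
  constructor <;> linarith

theorem cslab0_uc {Q : Set (V n) → Fm ι n → Prop} (hQ : Sh Q) {Θ : V n × V n → ℝ} {p : V n × V n}
    {β : V n → ℝ} {C d δ h η r : ℝ} {e x y : V n} {u u' : Fm ι n} (hUC : UC Q (ball p.2 δ))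
    (hT : T2 Θ p d C) (cβ : Continuous β) (hC0 : 0 < C) (hδ : 0 < δ) (h0 : 0 < h) (hηh : η ≤ h)
    (u5 : h ≤ δ / (64 * C)) (hd : δ < d) (r2 : r ≤ δ / 16) (he : ‖e‖ ≤ 1)
    (hc : 2 * C * (δ / 8) ≤ fderiv ℝ Θ p (0, e))
    (dirβ : ∀ y ∈ ball p.2 r, ∀ t ∈ Icc 0 (δ / 8), β (y + t • e) ≤ β y - t * (1 / (2 * C)))
    (s2 : ball p.2 r ⊆ sD p.2 β (δ / 4) η) (hz : (x, y) ∈ ball p r) (hΘ : Θ p < Θ (x, y))
    (hu' : Q (sD p.2 β (δ / 4) η) u') (hu : Q {y' | (x, y') ∈ ball p d ∩ {z | Θ p < Θ z}} u)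
    (heq : ∀ m, ∀ y' ∈ sD p.2 β (δ / 4) η ∩ sA p.2 β δ h, u' m y' = u m y') (m : ι) :
    u' m y = u m y := by
  have hx : x ∈ ball p.1 r :=
    mem_ball_iff_norm.2 ((norm_fst_le ((x, y) - p)).trans_lt (mem_ball_iff_norm.1 hz))
  have hy : y ∈ ball p.2 r :=
    mem_ball_iff_norm.2 ((norm_snd_le ((x, y) - p)).trans_lt (mem_ball_iff_norm.1 hz))
  have oN' := cslab0_oD p.2 cβ (δ / 4) η
  have oB := cslab0_oA p.2 cβ δ h
  have oO : IsOpen (ball p d ∩ {z | Θ p < Θ z}) := by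
    refine ContinuousOn.isOpen_inter_preimage (f := Θ) (fun z hz => ?_) isOpen_ball isOpen_Ioi
    have g1 := hT.df (z - p) (mem_ball_iff_norm.1 hz)
    rw [add_sub_cancel] at g1
    exact g1.continuousAt.continuousWithinAt
  set U : Set (V n) := sD p.2 β (δ / 4) η ∩ {y' | (x, y') ∈ ball p d ∩ {z | Θ p < Θ z}} with hU
  have oU : IsOpen U := oN'.inter (oO.preimage (by fun_prop))
  have hT8 : 8 * C * h ≤ δ / 8 := by
    rw [le_div_iff₀ (by positivity)] at u5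
    linarith
  have hn : ∀ t ∈ Icc 0 (δ / 8), ‖y + t • e - p.2‖ < δ / 4 := fun t ht => by
    have g1 : ‖t • e‖ ≤ δ / 8 := by
      rw [norm_smul, Real.norm_of_nonneg ht.1]
      exact (mul_le_of_le_one_right ht.1 he).trans ht.2
    have g2 := norm_add_le (y - p.2) (t • e)
    rw [add_sub_right_comm]
    linarith [mem_ball_iff_norm.1 hy]
  have hβy : β y < η := (s2 hy).2
  have seg : (fun t : ℝ => y + t • e) '' Icc 0 (δ / 8) ⊆ U := by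
    rintro _ ⟨t, ht, rfl⟩
    have g1 := dirβ y hy t ht
    have g2 : 0 ≤ t * (1 / (2 * C)) := mul_nonneg ht.1 (by positivity)
    have g3 := hT.dir (δ := δ / 8) (x := (x, y)) (e := (0, e)) (max_le (by simp) he)
      ((mem_ball_iff_norm.1 hz).le.trans (by linarith)) ht.1 ht.2 (by linarith) hc
    rw [Prod.smul_mk, smul_zero, Prod.mk_add_mk, add_zero] at g3
    refine ⟨⟨hn t ht, by linarith⟩, mem_ball_iff_norm.2 (max_lt ?_ ?_), hΘ.trans_le g3⟩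
    · exact (mem_ball_iff_norm.1 hx).trans_le (by linarith)
    · exact (hn t ht).trans_le (by linarith)
  have hy0 : y ∈ (fun t : ℝ => y + t • e) '' Icc 0 (δ / 8) := ⟨0, ⟨le_rfl, by positivity⟩, by simp⟩
  have hT0 : 8 * C * h ∈ Icc 0 (δ / 8) := ⟨by positivity, hT8⟩
  have sub := (isPreconnected_Icc.image _ (by fun_prop)).subset_connectedComponentIn hy0 seg
  have oD := oU.connectedComponentIn (x := y)
  have sU := connectedComponentIn_subset U y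
  have hB : y + (8 * C * h) • e ∈ sA p.2 β δ h := by
    have g1 := dirβ y hy _ hT0
    have g2 : 8 * C * h * (1 / (2 * C)) = 4 * h := by field_simp; norm_num
    exact ⟨by linarith [hn _ hT0], by linarith, Or.inl (by linarith)⟩
  refine sub_eq_zero.1 (hUC _ (u' - u) oD
    (fun y' hy' => mem_ball_iff_norm.2 (by linarith [(sU hy').1.1]))
    isPreconnected_connectedComponentIn
    (hQ.sub oD (hQ.mono hu' oD fun _ hy' => (sU hy').1)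
      (hQ.mono hu oD fun _ hy' => (sU hy').2)) _ (sub ⟨_, hT0, rfl⟩) ?_ m y (sub hy0))
  filter_upwards [(oN'.inter oB).mem_nhds ⟨(seg ⟨_, hT0, rfl⟩).1, hB⟩] with y' hy' m'
  exact sub_eq_zero.2 (heq m' y' hy')

theorem slab0 (ι : Type) [Fintype ι] (n : ℕ) {k C d : ℝ} (hk : 0 < k) (hC : 1 ≤ C) (hd : 0 < d) :
    ∃ δ₁ : ℝ, 0 < δ₁ ∧ ∀ δ : ℝ, 0 < δ → δ ≤ δ₁ → ∃ h₁ : ℝ, 0 < h₁ ∧ ∀ h η θ Ct : ℝ, 0 < η → η ≤ h →
      h ≤ h₁ → 0 ≤ θ → θ < 1 / 2 → 0 ≤ Ct → ∃ r C' : ℝ, 0 < r ∧ r ≤ d ∧ 0 < C' ∧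
      ∀ {P Q : Set (V n) → Fm ι n → Prop}, Sh P → Sh Q → ∀ (Θ : V n × V n → ℝ) (p : V n × V n)
        (q₁ q₂ : V n →L[ℝ] V n →L[ℝ] ℝ) (e : V n) (M : ℝ) (W : Kn ι n), UC Q (ball p.2 δ) →
        T2 Θ p d C → ‖q₁‖ ≤ C → ‖q₂‖ ≤ C → ‖e‖ ≤ 1 → 1 / C ≤ d2 Θ p e →
        (∀ v : V n × V n, k * ‖v‖ ^ 2 ≤ fderiv ℝ (fderiv ℝ Θ) p v v +
          (q₁ v.1 v.1 + q₂ v.2 v.2) + C * fderiv ℝ Θ p v ^ 2) →
        TR P (sA p.1 (qd p.1 (d1 Θ p) q₁) δ h) (sD p.1 (qd p.1 (d1 Θ p) q₁) δ h)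
          (sD p.1 (qd p.1 (d1 Θ p) q₁) (δ / 4) η) θ Ct →
        TR Q (sA p.2 (qd p.2 (d2 Θ p) q₂) δ h) (sD p.2 (qd p.2 (d2 Θ p) q₂) δ h)
          (sD p.2 (qd p.2 (d2 Θ p) q₂) (δ / 4) η) θ Ct →
        0 < M → So P Q (ball p d ∩ {z | Θ p < Θ z}) W →
        (∀ l m, ∀ z ∈ ball p d ∩ {z | Θ p < Θ z}, ‖W l m z‖ ≤ M) →
        ∃ W' : Kn ι n, Sl P Q (ball p.1 r) (ball p.2 r) W' ∧
          (∀ l m, ∀ z ∈ ball p r, ‖W' l m z‖ ≤ C' * M) ∧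
          ∀ l m, ∀ z ∈ ball p r, Θ p < Θ z → W' l m z = W l m z := by
  have hC0 : 0 < C := by linarith
  obtain ⟨δg, hg0, hgd, hgeo⟩ := geo hk hC0 hd
  refine ⟨min δg (min 1 (1 / (4 * C ^ 2))), by positivity, fun δ hδ hδ1 =>
    ⟨min (k * δ ^ 2 / 64) (δ / (64 * C)), by positivity, fun h η θ Ct hη hηh hh hθ hθ2 hCt => ?_⟩⟩
  obtain ⟨u1, u2, u3⟩ : δ ≤ δg ∧ δ ≤ 1 ∧ δ ≤ 1 / (4 * C ^ 2) := by
    simpa only [le_min_iff] using hδ1
  obtain ⟨u4, u5⟩ := le_min_iff.1 hh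
  have h0 : 0 < h := hη.trans_le hηh
  obtain ⟨C', hC', hcr⟩ := cross ι (v := volume.real (ball (0 : V n) 1)) (κ := 1 - 2 * θ)
    measureReal_nonneg hCt (by linarith)
  obtain ⟨r, hr, r1, r2⟩ : ∃ r : ℝ, 0 < r ∧ r ≤ η / (4 * C) ∧ r ≤ δ / 16 :=
    ⟨min (η / (4 * C)) (δ / 16), by positivity, min_le_left _ _, min_le_right _ _⟩
  refine ⟨r, C', hr, by linarith, hC', ?_⟩
  intro P Q hP hQ Θ p q₁ q₂ e M W hUC hT hq₁ hq₂ he hde hpos t1 t2 hM hW hb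
  have n1 : ‖d1 Θ p‖ ≤ C := (ContinuousLinearMap.opNorm_comp_le _ _).trans
    ((mul_le_of_le_one_right (norm_nonneg _) (ContinuousLinearMap.norm_inl_le_one _ _ _)).trans
      hT.n1)
  have n2 : ‖d2 Θ p‖ ≤ C := (ContinuousLinearMap.opNorm_comp_le _ _).trans
    ((mul_le_of_le_one_right (norm_nonneg _) (ContinuousLinearMap.norm_inr_le_one _ _ _)).trans
      hT.n1)
  have s1 := cslab0_ball (x₀ := p.1) hC n1 hq₁ u2 r1 r2
  have s2 := cslab0_ball (x₀ := p.2) hC n2 hq₂ u2 r1 r2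
  have cα := (qd_smooth p.1 (d1 Θ p) q₁).continuous
  have cβ := (qd_smooth p.2 (d2 Θ p) q₂).continuous
  have hg : ∀ z, ‖z - p‖ ≤ δ → Θ z ≤ Θ p → k / 4 * ‖z - p‖ ^ 2 ≤
      qd p.1 (d1 Θ p) q₁ z.1 + qd p.2 (d2 Θ p) q₂ z.2 := fun z hz hz' => by
    have g1 := hgeo Θ (fun v => q₁ v.1 v.1 + q₂ v.2 v.2) p hT hpos (z - p) (hz.trans u1)
      (by rwa [add_sub_cancel])
    have g2 : fderiv ℝ Θ p (z - p) = d1 Θ p (z.1 - p.1) + d2 Θ p (z.2 - p.2) := by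
      simp only [d1, d2, ContinuousLinearMap.comp_apply, ← map_add]
      exact congrArg _ (by ext <;> simp)
    simp only [g2, Prod.fst_sub, Prod.snd_sub] at g1
    simp only [qd]
    linarith
  have dirβ : ∀ y ∈ ball p.2 r, ∀ t ∈ Icc 0 (δ / 8), qd p.2 (d2 Θ p) q₂ (y + t • e) ≤
      qd p.2 (d2 Θ p) q₂ y - t * (1 / (2 * C)) := fun y hy t ht => by
    have g1 := qd_dir (w := d2 Θ p) (δ := δ / 8) hq₂ he
      ((mem_ball_iff_norm.1 hy).le.trans (by linarith)) ht.1 ht.2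
    have g2 := (cslab0_e hC u3 hde).2
    linarith [mul_le_mul_of_nonneg_left g2 ht.1]
  have z1 := cslab0_zero p.1 (d1 Θ p) q₁
  have z2 := cslab0_zero p.2 (d2 Θ p) q₂
  generalize qd p.1 (d1 Θ p) q₁ = α at *
  generalize qd p.2 (d2 Θ p) q₂ = β at *
  have hO : ∀ z : V n × V n, ‖z.1 - p.1‖ ≤ δ → ‖z.2 - p.2‖ ≤ δ → α z.1 ≤ h → β z.2 ≤ h →
      (α z.1 ≤ -h ∨ δ / 2 ≤ ‖z.1 - p.1‖) ∨ (β z.2 ≤ -h ∨ δ / 2 ≤ ‖z.2 - p.2‖) →
      z ∈ ball p d ∩ {z | Θ p < Θ z} := fun z a1 a2 a3 a4 a5 => by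
    have hz : ‖z - p‖ ≤ δ := max_le a1 a2
    refine ⟨mem_ball_iff_norm.2 (by linarith), cslab0_in hk hδ h0 u4 z1 z2 hg hz a3 a4 ?_⟩
    rcases a5 with (c | c) | c | c
    · exact Or.inl (Or.inl c)
    · exact Or.inr (c.trans (norm_fst_le (z - p)))
    · exact Or.inl (Or.inr c)
    · exact Or.inr (c.trans (norm_snd_le (z - p)))
  have R1 := cslab0_reg p.1 cα u2 h
  have R2 := cslab0_reg p.2 cβ u2 h
  have i1 : sD p.1 α δ h ×ˢ sA p.2 β δ h ⊆ ball p d ∩ {z | Θ p < Θ z} := fun z hz =>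
    hO z hz.1.1.le hz.2.1.le hz.1.2.le hz.2.2.1.le (Or.inr (hz.2.2.2.imp le_of_lt le_of_lt))
  have i2 : sA p.1 α δ h ×ˢ sD p.2 β δ h ⊆ ball p d ∩ {z | Θ p < Θ z} := fun z hz =>
    hO z hz.1.1.le hz.2.1.le hz.1.2.1.le hz.2.2.le (Or.inl (hz.1.2.2.imp le_of_lt le_of_lt))
  have oN := cslab0_oD p.1 cα (δ / 4) η
  have oN' := cslab0_oD p.2 cβ (δ / 4) η
  obtain ⟨W', w1, w2, w3⟩ := hcr hP hQ (K := closedBall p.1 δ ∩ {x | α x ≤ h})
    (K' := closedBall p.2 δ ∩ ({y | β y ≤ h} ∩ ({y | β y ≤ -h} ∪ {y | δ / 2 ≤ ‖y - p.2‖})))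
    R1 R2 oN oN' (fun x hx => ⟨by linarith [hx.1], hx.2.trans_le hηh⟩)
    (fun x hx => ⟨by linarith [hx.1], hx.2.trans_le hηh⟩) t1 t2 hθ (by linarith) hM
    (cslab0_sl hP hQ hW R1.oD R2.oA i1) (cslab0_sl hP hQ hW R1.oA R2.oD i2)
    (fun l m z hz => hb l m z (i1 hz)) (fun l m z hz => hb l m z (i2 hz))
    ((isCompact_closedBall _ _).inter_right (isClosed_le cα continuous_const))
    ((isCompact_closedBall _ _).inter_right ((isClosed_le cβ continuous_const).inter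
      ((isClosed_le cβ continuous_const).union (isClosed_le continuous_const (by fun_prop)))))
    (fun x hx => ⟨mem_closedBall_iff_norm.2 hx.1.le, hx.2.le⟩)
    (fun y hy => ⟨mem_closedBall_iff_norm.2 hy.1.le, hy.2.1.le, hy.2.2.imp le_of_lt le_of_lt⟩)
    fun l m => (hW.cont l m).mono fun z hz => hO z (mem_closedBall_iff_norm.1 hz.1.1)
      (mem_closedBall_iff_norm.1 hz.2.1) hz.1.2 hz.2.2.1 (Or.inr hz.2.2.2)
  have hp : ∀ z ∈ ball p r, z.1 ∈ ball p.1 r ∧ z.2 ∈ ball p.2 r := fun z hz =>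
    ⟨mem_ball_iff_norm.2 ((norm_fst_le (z - p)).trans_lt (mem_ball_iff_norm.1 hz)),
      mem_ball_iff_norm.2 ((norm_snd_le (z - p)).trans_lt (mem_ball_iff_norm.1 hz))⟩
  refine ⟨W', w1.mono hP hQ isOpen_ball isOpen_ball s1 s2,
    fun l m z hz => w2 l m z ⟨s1 (hp z hz).1, s2 (hp z hz).2⟩, fun l m z hz hΘ => ?_⟩
  obtain ⟨x, y⟩ := z
  exact cslab0_uc hQ hUC hT cβ hC0 hδ h0 hηh u5 (by linarith) r2 he (cslab0_e hC u3 hde).1 dirβ s2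
    hz hΘ (w1.py l x (s1 (hp _ hz).1)) (hW.py l x) (fun m' y' hy' => w3 l m' (x, y') ⟨s1 (hp _ hz).1, hy'⟩) m

end Vale.Agent.P088.Cr
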