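import Vale.Agent.P088F.CLevA
import Vale.Agent.P088F.CSlab0

/-! P088, part C: consequences of the Levi condition.

`lv_sup`: for `f = cvx e (qd x l q)`: `gr f x = -ϖ`, `fderiv ℝ (fderiv ℝ f) x a a = q a a + 2 * e * l a ^ 2`, `hsT` is linear in `ϖ`. If `ip g x ϖ ξ = 0` the left side of `Sup`
equals `(-(k / 4) + 2 * e * ip g x ϖ ϖ) * ip g x ξ ξ`; `e = min (1 / 4) (c / (16 * (n * M ^ 3) + 1))`, `c' = min c (c ^ 2 / 8)`.
`lv_fin`: for `Θ' v = 0` write `v = (gv ξ, gv η)`; then `Θ'' v v + q₁ + q₂ ≥ k / 8 * (ip ξ ξ + ip η η)` (`perp_nonneg`); `gv_le`; `finsler` with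
`B = Θ'' + q₁.bilinearComp fst fst + q₂.bilinearComp snd snd`, `w = (0, (‖ϖ‖ ^ 2)⁻¹ • ϖ)`, `ϖ = gry Θ p`. -/

open MeasureTheory Set Filter Topology Metric
open scoped ContDiff ENNReal

noncomputable section

namespace Vale.Agent.P088.Cr

open Vale.Agent.P292E Vale.Agent.P088F

variable {n : ℕ}

theorem clevb_gr (f : V n → ℝ) (x a : V n) : fderiv ℝ f x a = inner ℝ (gr f x) a := by
  have e : a = ∑ j, a j • ee j := by
    ext i
    simp [ee, Finset.sum_apply, Pi.single_apply]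
  conv_lhs => rw [e]
  simp only [map_sum, map_smul, smul_eq_mul, PiLp.inner_apply, gr, pr, RCLike.inner_apply,
    conj_trivial]

theorem d1_eq {Θ : V n × V n → ℝ} {p : V n × V n} (h : DifferentiableAt ℝ Θ p) (a : V n) :
    d1 Θ p a = inner ℝ (grx Θ p) a := by
  have h1 : HasFDerivAt (fun x => Θ (x, p.2)) (d1 Θ p) p.1 :=
    h.hasFDerivAt.comp p.1 (hasFDerivAt_prodMk_left p.1 p.2)
  rw [grx, ← clevb_gr, h1.fderiv]

theorem d2_eq {Θ : V n × V n → ℝ} {p : V n × V n} (h : DifferentiableAt ℝ Θ p) (a : V n) :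
    d2 Θ p a = inner ℝ (gry Θ p) a := by
  have h1 : HasFDerivAt (fun y => Θ (p.1, y)) (d2 Θ p) p.2 :=
    h.hasFDerivAt.comp p.2 (hasFDerivAt_prodMk_right p.1 p.2)
  rw [gry, ← clevb_gr, h1.fderiv]

theorem clevb_ipl (g : Mf n) (x a b : V n) : ip g x (-a) b = -ip g x a b := by
  simp [ip, Finset.sum_neg_distrib]

theorem clevb_ipr (g : Mf n) (x a b : V n) : ip g x a (-b) = -ip g x a b := by
  simp [ip, Finset.sum_neg_distrib]

theorem clevb_hsT (g : Mf n) (x a b : V n) : hsT g x (-a) b = -hsT g x a b := by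
  simp only [hsT, gv, PiLp.neg_apply, mul_neg, neg_mul, Finset.sum_neg_distrib]
  ring

theorem clevb_qd (x : V n) (l : V n →L[ℝ] ℝ) (q : V n →L[ℝ] V n →L[ℝ] ℝ) (y : V n) :
    HasFDerivAt (qd x l q) (-l + (2⁻¹ : ℝ) • (q (y - x) + q.flip (y - x))) y := by
  have h0 : HasFDerivAt (fun z : V n => z - x) (ContinuousLinearMap.id ℝ (V n)) y :=
    (hasFDerivAt_id y).sub_const x
  have h1 := (l.hasFDerivAt.comp y h0).neg
  have h2 := ((q.hasFDerivAt.comp y h0).clm_apply h0).const_mul (2⁻¹ : ℝ)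
  have h3 := h1.add h2
  refine (h3.congr_fderiv ?_).congr_of_eventuallyEq (Eventually.of_forall fun z => ?_)
  · ext a
    simp
  · simp [qd]
    ring

theorem clevb_cvx (e : ℝ) (x : V n) (l : V n →L[ℝ] ℝ) (q : V n →L[ℝ] V n →L[ℝ] ℝ) (y : V n) :
    HasFDerivAt (cvx e (qd x l q))
      ((1 + 2 * e * qd x l q y) • (-l + (2⁻¹ : ℝ) • (q (y - x) + q.flip (y - x)))) y := by
  have h := clevb_qd x l q y
  have h3 := h.add ((h.pow 2).const_mul e)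
  refine (h3.congr_fderiv ?_).congr_of_eventuallyEq (Eventually.of_forall fun z => rfl)
  ext a
  simp
  ring

theorem clevb_d1 (e : ℝ) (x : V n) (l : V n →L[ℝ] ℝ) (q : V n →L[ℝ] V n →L[ℝ] ℝ) :
    fderiv ℝ (cvx e (qd x l q)) x = -l := by
  rw [(clevb_cvx e x l q x).fderiv]
  simp [qd]

theorem clevb_d2 (e : ℝ) (x : V n) (l : V n →L[ℝ] ℝ) (q : V n →L[ℝ] V n →L[ℝ] ℝ) (a : V n) :
    fderiv ℝ (fderiv ℝ (cvx e (qd x l q))) x a a = q a a + 2 * e * l a ^ 2 := by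
  have e1 : fderiv ℝ (cvx e (qd x l q)) = fun y =>
      (1 + 2 * e * qd x l q y) • (-l + (2⁻¹ : ℝ) • (q (y - x) + q.flip (y - x))) :=
    funext fun y => (clevb_cvx e x l q y).fderiv
  have h0 : HasFDerivAt (fun z : V n => z - x) (ContinuousLinearMap.id ℝ (V n)) x :=
    (hasFDerivAt_id x).sub_const x
  have h1 := ((clevb_qd x l q x).const_mul (2 * e)).const_add 1
  have h2 := (((q.hasFDerivAt.comp x h0).add (q.flip.hasFDerivAt.comp x h0)).const_smul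
    (2⁻¹ : ℝ)).const_add (-l)
  have h3 := h1.smul h2
  have h4 := (h3.congr_of_eventuallyEq (f₁ := fderiv ℝ (cvx e (qd x l q)))
    (Eventually.of_forall fun y => congrFun e1 y)).fderiv
  rw [h4]
  simp [qd]
  ring

theorem lv_sup (n : ℕ) {M c : ℝ} (hc : 0 < c) : ∃ e c' : ℝ, 0 < e ∧ e ≤ 1 / 4 ∧ 0 < c' ∧ c' ≤ c ∧
    ∀ (g : Mf n) (x ϖ w : V n) (k : ℝ) (l : V n →L[ℝ] ℝ) (q : V n →L[ℝ] V n →L[ℝ] ℝ),
      Gb g x M c → c ≤ ‖ϖ‖ → ‖ϖ‖ ≤ M → c ≤ k → (∀ a, l a = inner ℝ ϖ a) →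
      (∀ ξ, q (gv g x ξ) (gv g x ξ) = lvE g x ϖ w k ξ) → Sup g (cvx e (qd x l q)) x c' := by
  refine ⟨min (1 / 4) (c / (16 * (n * |M| ^ 3) + 1)), min c (c ^ 2 / 8),
    lt_min (by norm_num) (by positivity), min_le_left _ _, lt_min hc (by positivity),
    min_le_left _ _, fun g x ϖ w k l q hg h1 h2 hk hl hq => ?_⟩
  obtain ⟨e, he⟩ : ∃ e, e = min (1 / 4) (c / (16 * (n * |M| ^ 3) + 1)) := ⟨_, rfl⟩
  rw [← he]
  have e0 : 0 < e := he ▸ lt_min (by norm_num) (by positivity)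
  have e1 : e * (16 * (n * |M| ^ 3) + 1) ≤ c := by
    rw [← le_div_iff₀ (by positivity), he]
    exact min_le_right _ _
  have M0 : 0 < M := hc.trans_le (h1.trans h2)
  rw [abs_of_pos M0] at e1
  have hgr : gr (cvx e (qd x l q)) x = -ϖ := by
    ext j
    simp [gr, pr, clevb_d1, hl, ee, EuclideanSpace.inner_single_right]
  have hl' : ∀ ξ, l (gv g x ξ) = ip g x ϖ ξ := fun ξ => by rw [hl, ip_eq]
  have N0 : 0 < ip g x ϖ ϖ := lt_of_lt_of_le (mul_pos hc (pow_pos (hc.trans_le h1) 2)) (hg.ell ϖ)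
  have N1 : ip g x ϖ ϖ ≤ n * M ^ 3 := by
    rw [ip_eq]
    refine (real_inner_le_norm _ _).trans ?_
    calc ‖ϖ‖ * ‖gv g x ϖ‖ ≤ M * (n * M * M) :=
          mul_le_mul h2 ((hg.gv_le ϖ).trans (by gcongr)) (norm_nonneg _) M0.le
      _ = n * M ^ 3 := by ring
  refine ⟨?_, fun ξ hξ => ?_⟩
  · rw [hgr, norm_neg]
    exact (min_le_left _ _).trans h1
  rw [hgr, clevb_ipl, neg_eq_zero] at hξ
  have key : hs g (cvx e (qd x l q)) x ξ + hs g (cvx e (qd x l q)) x (gr (cvx e (qd x l q)) x) *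
      ip g x ξ ξ / ip g x (gr (cvx e (qd x l q)) x) (gr (cvx e (qd x l q)) x) =
      (-(k / 4) + 2 * e * ip g x ϖ ϖ) * ip g x ξ ξ := by
    simp only [hs, hgr, clevb_d2, hq, hl', lvE, perp, gau, clevb_ipl, clevb_ipr, clevb_hsT, hξ]
    field_simp
    ring
  rw [key]
  have I0 := hg.ell ξ
  have s0 : 0 ≤ ‖ξ‖ ^ 2 := sq_nonneg _
  have h3 : -(k / 4) + 2 * e * ip g x ϖ ϖ ≤ -(c / 8) := by nlinarith
  calc _ ≤ -(c / 8) * ip g x ξ ξ := mul_le_mul_of_nonneg_right h3 (le_trans (by positivity) I0)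
    _ ≤ -(c ^ 2 / 8) * ‖ξ‖ ^ 2 := by nlinarith
    _ ≤ _ := mul_le_mul_of_nonneg_right (neg_le_neg (min_le_right _ _)) s0

theorem lv_fin (n : ℕ) {M c C : ℝ} (hc : 0 < c) : ∃ k' C' : ℝ, 0 < k' ∧ 0 < C' ∧
    ∀ (g g' : Mf n) (Θ : V n × V n → ℝ) (p : V n × V n) (w w' : V n) (k : ℝ)
      (q q' : V n →L[ℝ] V n →L[ℝ] ℝ), Gb g p.1 M c → Gb g' p.2 M c → DifferentiableAt ℝ Θ p →
      ‖fderiv ℝ Θ p‖ ≤ M → ‖fderiv ℝ (fderiv ℝ Θ) p‖ ≤ M → c ≤ ‖gry Θ p‖ → c ≤ k → ‖q‖ ≤ C →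
      ‖q'‖ ≤ C → (∀ ξ, q (gv g p.1 ξ) (gv g p.1 ξ) = lvE g p.1 (grx Θ p) w k ξ) →
      (∀ ξ, q' (gv g' p.2 ξ) (gv g' p.2 ξ) = lvE g' p.2 (gry Θ p) w' k ξ) →
      Levi g g' Θ p w w' k → ∀ v : V n × V n, k' * ‖v‖ ^ 2 ≤ fderiv ℝ (fderiv ℝ Θ) p v v +
        (q v.1 v.1 + q' v.2 v.2) + C' * fderiv ℝ Θ p v ^ 2 := by
  obtain ⟨C', hC', hf⟩ := finsler (k := c ^ 2 / (8 * ((n * M) ^ 2 + 1))) (C := |M| + 2 * |C| + c⁻¹)
    (by positivity) (by positivity)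
  refine ⟨c ^ 2 / (8 * ((n * M) ^ 2 + 1)) / 4, C', by positivity, hC',
    fun g g' Θ p w w' k q q' hg hg' hd h1 h2 h3 hk hq hq' e1 e2 hL v => ?_⟩
  have c1 : 0 < c⁻¹ := inv_pos.2 hc
  have M1 := le_abs_self M
  have C1 := le_abs_self C
  have M0 : 0 ≤ M := (norm_nonneg _).trans h1
  have C0 : 0 ≤ C := q.opNorm_nonneg.trans hq
  have sp : ∀ u : V n × V n, fderiv ℝ Θ p u =
      inner ℝ (grx Θ p) u.1 + inner ℝ (gry Θ p) u.2 := fun u => by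
    rw [← d1_eq hd, ← d2_eq hd]
    simp only [d1, d2, ContinuousLinearMap.comp_apply, ← map_add]
    simp
  have y0 : 0 < ‖gry Θ p‖ := hc.trans_le h3
  have key := hf (fderiv ℝ (fderiv ℝ Θ) p +
      (q.bilinearComp (ContinuousLinearMap.fst ℝ (V n) (V n)) (ContinuousLinearMap.fst ℝ (V n) (V n)) +
      q'.bilinearComp (ContinuousLinearMap.snd ℝ (V n) (V n)) (ContinuousLinearMap.snd ℝ (V n) (V n))))
    (fderiv ℝ Θ p) (0, (‖gry Θ p‖ ^ 2)⁻¹ • gry Θ p) ?_ (by linarith [abs_nonneg C]) ?_ ?_ ?_ v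
  · simpa using key
  · refine ContinuousLinearMap.opNorm_le_bound₂ _ (by positivity) fun a b => ?_
    have b1 := ((fderiv ℝ (fderiv ℝ Θ) p).le_opNorm₂ a b).trans
      (mul_le_mul_of_nonneg_right (mul_le_mul_of_nonneg_right h2 (norm_nonneg _)) (norm_nonneg _))
    have b2 : ‖q a.1 b.1‖ ≤ C * ‖a‖ * ‖b‖ := (q.le_opNorm₂ _ _).trans (by
      gcongr
      exacts [norm_fst_le a, norm_fst_le b])
    have b3 : ‖q' a.2 b.2‖ ≤ C * ‖a‖ * ‖b‖ := (q'.le_opNorm₂ _ _).trans (by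
      gcongr
      exacts [norm_snd_le a, norm_snd_le b])
    have b4 : ‖fderiv ℝ (fderiv ℝ Θ) p a b + (q a.1 b.1 + q' a.2 b.2)‖ ≤
        (M + 2 * C) * ‖a‖ * ‖b‖ :=
      (norm_add_le_of_le b1 (norm_add_le_of_le b2 b3)).trans_eq (by ring)
    refine le_trans (le_of_eq ?_) (b4.trans ?_)
    · simp
    · exact mul_le_mul_of_nonneg_right
        (mul_le_mul_of_nonneg_right (by linarith) (norm_nonneg _)) (norm_nonneg _)
  · rw [Prod.norm_def, norm_zero, norm_smul, max_eq_right (by positivity), norm_inv, norm_pow,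
      norm_norm]
    have : (‖gry Θ p‖ ^ 2)⁻¹ * ‖gry Θ p‖ ≤ c⁻¹ := by
      rw [show (‖gry Θ p‖ ^ 2)⁻¹ * ‖gry Θ p‖ = ‖gry Θ p‖⁻¹ by field_simp]
      exact inv_anti₀ hc h3
    linarith [abs_nonneg C, abs_nonneg M]
  · rw [sp]
    simp only [inner_zero_right, zero_add, inner_smul_right, real_inner_self_eq_norm_sq]
    field_simp
  · rintro ⟨a, b⟩ hu
    obtain ⟨ξ, rfl⟩ := hg.surj hc a
    obtain ⟨η, rfl⟩ := hg'.surj hc b
    rw [sp] at hu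
    have h4 := hL ξ η (by rw [tau, ip_eq, ip_eq]; exact hu)
    have p1 := hg.perp_nonneg hc (grx Θ p) ξ
    have p2 := hg'.perp_nonneg hc (gry Θ p) η
    have i1 := hg.ell ξ
    have i2 := hg'.ell η
    have n1 : ‖(gv g p.1 ξ, gv g' p.2 η)‖ ^ 2 ≤ ((n * M) ^ 2 + 1) * (‖ξ‖ ^ 2 + ‖η‖ ^ 2) := by
      have g1 := pow_le_pow_left₀ (norm_nonneg _) (hg.gv_le ξ) 2
      have g2 := pow_le_pow_left₀ (norm_nonneg _) (hg'.gv_le η) 2
      have s1 := sq_nonneg ‖ξ‖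
      have s2 := sq_nonneg ‖η‖
      have s3 := sq_nonneg (n * M : ℝ)
      rw [mul_pow] at g1 g2
      rw [Prod.norm_def]
      rcases max_cases ‖gv g p.1 ξ‖ ‖gv g' p.2 η‖ with h | h <;> rw [h.1] <;> nlinarith
    have k0 : 0 < k := hc.trans_le hk
    have h5 : k / 8 * (ip g p.1 ξ ξ + ip g' p.2 η η) ≤
        fderiv ℝ (fderiv ℝ Θ) p (gv g p.1 ξ, gv g' p.2 η) (gv g p.1 ξ, gv g' p.2 η) +
          (q (gv g p.1 ξ) (gv g p.1 ξ) + q' (gv g' p.2 η) (gv g' p.2 η)) := by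
      rw [e1, e2]
      simp only [lvE]
      simp only [Lev] at h4
      nlinarith [mul_nonneg k0.le p1, mul_nonneg k0.le p2]
    have h6 : c ^ 2 / 8 * (‖ξ‖ ^ 2 + ‖η‖ ^ 2) ≤ k / 8 * (ip g p.1 ξ ξ + ip g' p.2 η η) := by
      have s1 := sq_nonneg ‖ξ‖
      have s2 := sq_nonneg ‖η‖
      calc c ^ 2 / 8 * (‖ξ‖ ^ 2 + ‖η‖ ^ 2) = c / 8 * (c * ‖ξ‖ ^ 2 + c * ‖η‖ ^ 2) := by ring
        _ ≤ _ := mul_le_mul (by linarith) (add_le_add i1 i2) (by positivity) (by positivity)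
    have h7 : c ^ 2 / (8 * ((n * M) ^ 2 + 1)) * ‖(gv g p.1 ξ, gv g' p.2 η)‖ ^ 2 ≤
        c ^ 2 / 8 * (‖ξ‖ ^ 2 + ‖η‖ ^ 2) := by
      refine (mul_le_mul_of_nonneg_left n1 (by positivity)).trans_eq ?_
      field_simp
    simpa using h7.trans (h6.trans h5)

end Vale.Agent.P088.Cr
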