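import Vale.Agent.P088F.Est3
import Vale.Agent.P088F.CDefs

/-! P088, part C: classical solutions of systems and the Green identity. -/

open MeasureTheory Set Filter Topology Metric
open scoped ContDiff

noncomputable section

namespace Vale.Agent.P088.Cr

open Vale.Agent.P292E Vale.Agent.P088F

variable {n : ℕ} {ι : Type} [Fintype ι]

/-- smooth coefficients on an open set -/
structure Cf (S : Set (V n)) (a : Fin n → Fin n → V n → ℂ) (b : Fin n → ι → ι → V n → ℂ)
    (c : ι → ι → V n → ℂ) : Prop where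
  op : IsOpen S
  a : ∀ p q, ContDiffOn ℝ ∞ (a p q) S
  b : ∀ p I J, ContDiffOn ℝ ∞ (b p I J) S
  c : ∀ I J, ContDiffOn ℝ ∞ (c I J) S

/-- ellipticity -/
def El (S : Set (V n)) (a : Fin n → Fin n → V n → ℂ) : Prop :=
  ∀ x ∈ S, ∀ ξ : V n, ξ ≠ 0 → 0 < symb (fun p q => a p q x) ξ

/-- classical solutions, where the coefficients are defined -/
def PS (S : Set (V n)) (a : Fin n → Fin n → V n → ℂ) (b : Fin n → ι → ι → V n → ℂ)
    (c : ι → ι → V n → ℂ) (D : Set (V n)) (u : Fm ι n) : Prop :=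
  (∀ l, ContinuousOn (u l) D) ∧ (∀ l, ContDiffOn ℝ ∞ (u l) (D ∩ S)) ∧
    ∀ l, ∀ x ∈ D ∩ S, Sy a b c u l x = 0

/-- families of test functions -/
def Ts (O : Set (V n)) (t : Fm ι n) : Prop := ∀ l, Tst O (t l)

variable [DecidableEq ι]

/-- first order coefficients of the transpose -/
def tb (a : Fin n → Fin n → V n → ℂ) (b : Fin n → ι → ι → V n → ℂ) (p : Fin n) (I J : ι)
    (x : V n) : ℂ :=
  (if I = J then ∑ q, (pd q (a p q) x + pd q (a q p) x) else 0) - b p J I x

/-- zero order coefficients of the transpose -/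
def tc (a : Fin n → Fin n → V n → ℂ) (b : Fin n → ι → ι → V n → ℂ) (c : ι → ι → V n → ℂ)
    (I J : ι) (x : V n) : ℂ :=
  (if I = J then ∑ p, ∑ q, pd q (pd p (a p q)) x else 0) - ∑ p, pd p (b p J I) x + c J I x

/-- the transpose -/
def Sy' (a : Fin n → Fin n → V n → ℂ) (b : Fin n → ι → ι → V n → ℂ) (c : ι → ι → V n → ℂ) :
    Fm ι n → Fm ι n := Sy (fun p q => a q p) (tb a b) (tc a b c)

/-- the weak equation -/
def Wk (O : Set (V n)) (a : Fin n → Fin n → V n → ℂ) (b : Fin n → ι → ι → V n → ℂ)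
    (c : ι → ι → V n → ℂ) (u : Fm ι n) : Prop :=
  ∀ t, Ts O t → ∫ x, ∑ l, u l x * Sy' a b c t l x = 0

variable {S O : Set (V n)} {a : Fin n → Fin n → V n → ℂ} {b : Fin n → ι → ι → V n → ℂ}
  {c : ι → ι → V n → ℂ} {u t : Fm ι n}

omit [DecidableEq ι] in
theorem Cf.mono (h : Cf S a b c) (hO : IsOpen O) (hs : O ⊆ S) : Cf O a b c :=
  ⟨hO, fun p q => (h.a p q).mono hs, fun p I J => (h.b p I J).mono hs,
    fun I J => (h.c I J).mono hs⟩

theorem csha_ite {f : V n → ℂ} (P : Prop) [Decidable P] (hf : ContDiffOn ℝ ∞ f S) :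
    ContDiffOn ℝ ∞ (fun x => if P then f x else 0) S := by
  split_ifs
  · exact hf
  · exact contDiffOn_const

theorem csha_add {f g : V n → ℂ} (hf : Tst S f) (hg : Tst S g) : Tst S fun x => f x + g x :=
  ⟨hf.1.add hg.1, hf.2.1.add hg.2.1, (tsupport_add f g).trans (union_subset hf.2.2 hg.2.2)⟩

theorem csha_sum {κ : Type} (s : Finset κ) {f : κ → V n → ℂ} (hf : ∀ i, Tst S (f i)) :
    Tst S fun x => ∑ i ∈ s, f i x := by
  classical
  induction s using Finset.induction_on with
  | empty =>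
    simp only [Finset.sum_empty]
    exact ⟨contDiff_const, HasCompactSupport.zero, by
      rw [show (fun _ : V n => (0 : ℂ)) = 0 from rfl, tsupport_zero]; exact empty_subset _⟩
  | insert i s hi ih =>
    simp only [Finset.sum_insert hi]
    exact csha_add (hf i) ih

theorem csha_mul {f φ : V n → ℂ} (hS : IsOpen S) (hf : ContDiffOn ℝ ∞ f S) (hφ : Tst S φ) :
    Tst S fun x => f x * φ x := by
  simpa only [mul_comm] using cut_contDiff hS hφ hf

theorem csha_qs {A : Fin n → Fin n → V n → ℂ} {B : Fin n → V n → ℂ} {C f : V n → ℂ} (hS : IsOpen S)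
    (hA : ∀ p q, ContDiffOn ℝ ∞ (A p q) S) (hB : ∀ p, ContDiffOn ℝ ∞ (B p) S)
    (hC : ContDiffOn ℝ ∞ C S) (hf : ContDiffOn ℝ ∞ f S) : ContDiffOn ℝ ∞ (Qop A B C f) S :=
  ((ContDiffOn.sum fun p _ => ContDiffOn.sum fun q _ =>
    (hA p q).mul (contDiffOn_pd hS (contDiffOn_pd hS hf q) p)).add
      (ContDiffOn.sum fun p _ => (hB p).mul (contDiffOn_pd hS hf p))).add (hC.mul hf)

theorem csha_qt {A : Fin n → Fin n → V n → ℂ} {B : Fin n → V n → ℂ} {C f : V n → ℂ} (hS : IsOpen S)
    (hA : ∀ p q, ContDiffOn ℝ ∞ (A p q) S) (hB : ∀ p, ContDiffOn ℝ ∞ (B p) S)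
    (hC : ContDiffOn ℝ ∞ C S) (hf : Tst S f) : Tst S (Qop A B C f) :=
  csha_add (csha_add (csha_sum _ fun p => csha_sum _ fun q =>
    csha_mul hS (hA p q) ((hf.pd q).1.pd p).1) (csha_sum _ fun p => csha_mul hS (hB p) (hf.pd p).1))
      (csha_mul hS hC hf)

/-- `contDiffOn_pd`, split the `if`. -/
theorem Cf.tr (h : Cf S a b c) : Cf S (fun p q => a q p) (tb a b) (tc a b c) := by
  refine ⟨h.op, fun p q => h.a q p, fun p I J => ?_, fun I J => ?_⟩
  · exact (csha_ite _ (ContDiffOn.sum fun q _ => (contDiffOn_pd h.op (h.a p q) q).add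
      (contDiffOn_pd h.op (h.a q p) q))).sub (h.b p J I)
  · exact ((csha_ite _ (ContDiffOn.sum fun p _ => ContDiffOn.sum fun q _ =>
      contDiffOn_pd h.op (contDiffOn_pd h.op (h.a p q) p) q)).sub
        (ContDiffOn.sum fun p _ => contDiffOn_pd h.op (h.b p J I) p)).add (h.c J I)

omit [DecidableEq ι] in
/-- `contDiffOn_pd`, sums and products. -/
theorem Cf.sy (h : Cf S a b c) (hu : ∀ l, ContDiffOn ℝ ∞ (u l) S) (l : ι) :
    ContDiffOn ℝ ∞ (Sy a b c u l) S := by
  exact ((ContDiffOn.sum fun p _ => ContDiffOn.sum fun q _ =>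
    (h.a p q).mul (contDiffOn_pd h.op (contDiffOn_pd h.op (hu l) q) p)).add
      (ContDiffOn.sum fun p _ => ContDiffOn.sum fun J _ =>
        (h.b p l J).mul (contDiffOn_pd h.op (hu J) p))).add
          (ContDiffOn.sum fun J _ => (h.c l J).mul (hu J))

omit [DecidableEq ι] in
/-- Every term is `cut_contDiff` of a derivative of a test function (`Tst.pd`); finite sums of
test functions are test functions. -/
theorem Cf.ts (h : Cf S a b c) (ht : Ts S t) : Ts S (Sy a b c t) := by
  exact fun l => csha_add (csha_add (csha_sum _ fun p => csha_sum _ fun q =>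
    csha_mul h.op (h.a p q) (((ht l).pd q).1.pd p).1) (csha_sum _ fun p => csha_sum _ fun J =>
      csha_mul h.op (h.b p l J) ((ht J).pd p).1)) (csha_sum _ fun J => csha_mul h.op (h.c l J) (ht J))

/-- the diagonal principal part -/
def cshaA (a : Fin n → Fin n → V n → ℂ) (I J : ι) (p q : Fin n) (x : V n) : ℂ :=
  if I = J then a p q x else 0

theorem csha_left (I : ι) (x : V n) : Sy a b c u I x =
    ∑ J, Qop (cshaA a I J) (fun p => b p I J) (c I J) (u J) x := by
  have e : ∀ J, ∑ p, ∑ q, cshaA a I J p q x * pd p (pd q (u J)) x =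
      if I = J then ∑ p, ∑ q, a p q x * pd p (pd q (u J)) x else 0 := fun J => by
    unfold cshaA
    split_ifs <;> simp
  simp only [Sy, Qop, Finset.sum_add_distrib, e, Finset.sum_ite_eq, Finset.mem_univ, if_true]
  rw [Finset.sum_comm (s := Finset.univ (α := ι))]

theorem csha_right (J : ι) (x : V n) : Sy' a b c t J x =
    ∑ I, Qop (fun p q => cshaA a I J q p)
      (fun p x => ∑ q, (pd q (cshaA a I J p q) x + pd q (cshaA a I J q p) x) + -b p I J x)
      (fun x => ∑ p, ∑ q, pd q (pd p (cshaA a I J p q)) x + -∑ p, pd p (b p I J) x + c I J x)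
      (t I) x := by
  rw [Sy', csha_left]
  refine Finset.sum_congr rfl fun I _ => ?_
  by_cases hI : I = J
  · subst hI
    have e : cshaA a I I = a := by
      funext p q x
      simp [cshaA]
    have e' : cshaA (fun p q => a q p) I I = fun p q => a q p := by
      funext p q x
      simp [cshaA]
    simp only [Qop, e, e', tb, tc, if_true, sub_eq_add_neg]
  · have e : cshaA a I J = fun _ _ _ => 0 := by
      funext p q x
      simp [cshaA, hI]
    have e' : cshaA (fun p q => a q p) J I = fun _ _ _ => 0 := by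
      funext p q x
      simp [cshaA, Ne.symm hI]
    have z : ∀ p : Fin n, pd p (fun _ : V n => (0 : ℂ)) = fun _ => 0 := fun p => by
      funext x
      simp [pd]
    simp only [Qop, e, e', tb, tc, if_neg (Ne.symm hI), sub_eq_add_neg, z, add_zero,
      Finset.sum_const_zero]

/-- Integrate by parts term by term with `ibp`, `pd_cut` (copy the proof of `weak_cl` in Est1). -/
theorem sy_green (h : Cf S a b c) (hu : ∀ l, ContDiffOn ℝ ∞ (u l) S) (ht : Ts S t) :
    ∫ x, ∑ l, Sy a b c u l x * t l x = ∫ x, ∑ l, u l x * Sy' a b c t l x := by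
  have hA : ∀ (I J : ι) p q, ContDiffOn ℝ ∞ (cshaA a I J p q) S := fun I J p q => csha_ite _ (h.a p q)
  have i1 := fun I J => sys_int (csha_mul h.op
    (csha_qs h.op (hA I J) (fun p => h.b p I J) (h.c I J) (hu J)) (ht I))
  have i2 := fun I J => sys_int (csha_mul h.op (hu J) (csha_qt h.op (fun p q => hA I J q p)
    (fun p => (ContDiffOn.sum (s := Finset.univ) fun q _ => (contDiffOn_pd h.op (hA I J p q) q).add
      (contDiffOn_pd h.op (hA I J q p) q)).add (h.b p I J).neg)
    (((ContDiffOn.sum (s := Finset.univ) fun p _ => ContDiffOn.sum (s := Finset.univ) fun q _ =>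
      contDiffOn_pd h.op (contDiffOn_pd h.op (hA I J p q) p) q).add
        (ContDiffOn.sum (s := Finset.univ) fun p _ => contDiffOn_pd h.op (h.b p I J) p).neg).add
          (h.c I J)) (ht I)))
  simp only [csha_left, csha_right, Finset.sum_mul, Finset.mul_sum]
  rw [integral_finsetSum _ fun I _ => integrable_finsetSum _ fun J _ => i1 I J,
    integral_finsetSum _ fun J _ => integrable_finsetSum _ fun I _ => i2 I J]
  simp only [integral_finsetSum _ fun J _ => i1 _ J, integral_finsetSum _ fun I _ => i2 I _]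
  rw [Finset.sum_comm]
  refine Finset.sum_congr rfl fun J _ => Finset.sum_congr rfl fun I _ => ?_
  rw [weak_cl h.op (hA I J) (fun p => h.b p I J) (h.c I J) (hu J) (fun _ _ => rfl) (t I) (ht I)]
  simp

theorem wk_of (h : Cf S a b c) (hu : ∀ l, ContDiffOn ℝ ∞ (u l) S)
    (e : ∀ l, ∀ x ∈ S, Sy a b c u l x = 0) : Wk S a b c u := fun t ht => by
  rw [← sy_green h hu ht]
  refine (integral_congr_ae (.of_forall fun x => Finset.sum_eq_zero fun l _ => ?_)).trans
    (integral_zero _ _)
  by_cases hx : x ∈ S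
  · rw [e l x hx, zero_mul]
  · rw [tst_zero (ht l) hx, mul_zero]

end Vale.Agent.P088.Cr
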