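import Vale.Agent.P088F.CDefs

/-! P088, part C: finite rank Tikhonov approximation, and the calculus of `n2`. -/

open MeasureTheory Set Filter Topology Metric
open scoped ContDiff ComplexConjugate InnerProductSpace

noncomputable section

namespace Vale.Agent.P088.Cr

open Vale.Agent.P292E

variable {n : ℕ} {ι : Type} [Fintype ι]

theorem ctik_proj {G κ : Type} [NormedAddCommGroup G] [InnerProductSpace ℂ G] [Fintype κ]
    (F : κ → G) : ∃ C : κ → κ → ℂ, ∀ U : G, ∀ y ∈ Submodule.span ℂ (range F),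
      ‖∑ i, (∑ j, C i j * ⟪F j, U⟫_ℂ) • F i - U‖ ≤ ‖y - U‖ := by
  set K := Submodule.span ℂ (range F) with hK
  have : FiniteDimensional ℂ K := FiniteDimensional.span_of_finite ℂ (finite_range F)
  let b := stdOrthonormalBasis ℂ K
  have h1 : ∀ k, ∃ β : κ → ℂ, ∑ i, β i • F i = (b k : G) := fun k =>
    (Submodule.mem_span_range_iff_exists_fun ℂ).1 (b k).2
  choose β hβ using h1
  refine ⟨fun i j => ∑ k, β k i * conj (β k j), fun U y hy => ?_⟩
  have h2 : K.starProjection U = ∑ k, ⟪(b k : G), U⟫_ℂ • (b k : G) := by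
    rw [b.starProjection_eq_sum_rankOne]
    simp
  have h3 : ∑ i, (∑ j, (∑ k, β k i * conj (β k j)) * ⟪F j, U⟫_ℂ) • F i = K.starProjection U := by
    rw [h2]
    simp only [← hβ, sum_inner, inner_smul_left, Finset.smul_sum, smul_smul]
    rw [Finset.sum_comm]
    refine Finset.sum_congr rfl fun i _ => ?_
    rw [← Finset.sum_smul]
    congr 1
    simp only [Finset.sum_mul]
    rw [Finset.sum_comm]
    exact Finset.sum_congr rfl fun k _ => Finset.sum_congr rfl fun j _ => by ring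
  rw [h3, norm_sub_rev, norm_sub_rev y, Submodule.starProjection_minimal]
  exact ciInf_le (f := fun x : K => ‖U - x‖) ⟨0, forall_mem_range.2 fun _ => norm_nonneg _⟩ ⟨y, hy⟩

/-- In `WithLp 2 (H × H')` project `(u, 0)` on the span of the `(f i, g i)`; expand in an orthonormal basis
`b k = ∑ i, β k i • (f i, g i)` of the span (`stdOrthonormalBasis`), `C i j = ∑ k, β k i * conj (β k j)`. -/
theorem tik {H H' κ : Type} [NormedAddCommGroup H] [InnerProductSpace ℂ H] [NormedAddCommGroup H']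
    [InnerProductSpace ℂ H'] [Fintype κ] (f : κ → H) (g : κ → H') : ∃ C : κ → κ → ℂ, ∀ u : H,
      ‖∑ i, (∑ j, C i j * ⟪f j, u⟫_ℂ) • f i - u‖ ^ 2 + ‖∑ i, (∑ j, C i j * ⟪f j, u⟫_ℂ) • g i‖ ^ 2 ≤
        ‖u‖ ^ 2 ∧ ∀ k,
      ‖∑ i, (∑ j, C i j * ⟪f j, u⟫_ℂ) • f i - u‖ ^ 2 + ‖∑ i, (∑ j, C i j * ⟪f j, u⟫_ℂ) • g i‖ ^ 2 ≤
        ‖f k - u‖ ^ 2 + ‖g k‖ ^ 2 := by
  obtain ⟨C, hC⟩ := ctik_proj (G := WithLp 2 (H × H')) fun i => WithLp.toLp 2 (f i, g i)
  refine ⟨C, fun u => ?_⟩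
  have h1 : ∀ j, ⟪(WithLp.toLp 2 (f j, g j) : WithLp 2 (H × H')), WithLp.toLp 2 (u, 0)⟫_ℂ =
      ⟪f j, u⟫_ℂ := fun j => by simp
  have h2 : ∀ c : κ → ℂ, ‖∑ i, c i • (WithLp.toLp 2 (f i, g i) : WithLp 2 (H × H')) -
      WithLp.toLp 2 (u, 0)‖ ^ 2 = ‖∑ i, c i • f i - u‖ ^ 2 + ‖∑ i, c i • g i‖ ^ 2 := fun c => by
    have h3 : ∑ i, c i • (WithLp.toLp 2 (f i, g i) : WithLp 2 (H × H')) - WithLp.toLp 2 (u, 0) =
        WithLp.toLp 2 (∑ i, c i • f i - u, ∑ i, c i • g i) := by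
      apply WithLp.ofLp_injective
      ext
      · simp [Prod.fst_sum]
      · simp [Prod.snd_sum]
    rw [h3, WithLp.prod_norm_sq_eq_of_L2]
    rfl
  have h4 := fun y hy => pow_le_pow_left₀ (norm_nonneg _) (hC (WithLp.toLp 2 (u, 0)) y hy) 2
  simp only [h1, h2] at h4
  refine ⟨(h4 0 (Submodule.zero_mem _)).trans_eq ?_, fun k =>
    (h4 _ (Submodule.subset_span ⟨k, rfl⟩)).trans_eq ?_⟩
  · rw [zero_sub, norm_neg, WithLp.prod_norm_sq_eq_of_L2]
    simp
  · rw [WithLp.prod_norm_sq_eq_of_L2]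
    simp

theorem ctik_int {F : Type} [NormedAddCommGroup F] {D : Set (V n)} (hD : IsOpen D)
    (hb : Bornology.IsBounded D) {g : V n → F} (hg : ContinuousOn g D) (M : ℝ)
    (h : ∀ x ∈ D, ‖g x‖ ≤ M) : IntegrableOn g D :=
  IntegrableOn.of_bound hb.measure_lt_top (hg.aestronglyMeasurable hD.measurableSet) M
    ((ae_restrict_iff' hD.measurableSet).2 (Eventually.of_forall h))

theorem ctik_sum_le {u : ι → ℂ} {M : ℝ} (h : ∀ l, ‖u l‖ ≤ M) :
    ∑ l, ‖u l‖ ^ 2 ≤ Fintype.card ι * M ^ 2 := by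
  refine (Finset.sum_le_card_nsmul _ _ (M ^ 2) fun l _ =>
    pow_le_pow_left₀ (norm_nonneg _) (h l) 2).trans_eq ?_
  rw [Finset.card_univ, nsmul_eq_mul]

/-- a family as a vector valued function -/
def ctikL (u : Fm ι n) (x : V n) : EuclideanSpace ℂ ι := WithLp.toLp 2 fun l => u l x

/-- square integrable families -/
def ctikS (ι : Type) [Fintype ι] (D : Set (V n)) : Submodule ℂ (Fm ι n) where
  carrier := {u | MemLp (ctikL u) 2 (volume.restrict D)}
  add_mem' := fun ha hb => MemLp.add ha hb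
  zero_mem' := MemLp.zero
  smul_mem' := fun c _ ha => MemLp.const_smul ha c

/-- the class of a square integrable family -/
def ctikM (D : Set (V n)) : ctikS ι D →ₗ[ℂ] Lp (EuclideanSpace ℂ ι) 2 (volume.restrict D) where
  toFun u := MemLp.toLp (ctikL u.1) u.2
  map_add' u v := MemLp.toLp_add u.2 v.2
  map_smul' c u := MemLp.toLp_const_smul c u.2

theorem ctik_mem {D : Set (V n)} (hD : IsOpen D) (hb : Bornology.IsBounded D) {u : Fm ι n}
    (hu : ∀ l, ContinuousOn (u l) D) (h : Bn D u) : u ∈ ctikS ι D := by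
  obtain ⟨M, hM⟩ := h
  have : IsFiniteMeasure (volume.restrict D) := isFiniteMeasure_restrict.2 hb.measure_lt_top.ne
  have hc : ContinuousOn (ctikL u) D :=
    (PiLp.continuous_toLp 2 _).comp_continuousOn (continuousOn_pi.2 hu)
  refine MemLp.of_bound (hc.aestronglyMeasurable hD.measurableSet)
    (Real.sqrt (Fintype.card ι * M ^ 2))
    ((ae_restrict_iff' hD.measurableSet).2 (Eventually.of_forall fun x hx => ?_))
  rw [EuclideanSpace.norm_eq]
  exact Real.sqrt_le_sqrt (ctik_sum_le fun l => hM l x hx)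

theorem ctik_inner {D : Set (V n)} (u v : ctikS ι D) :
    ⟪ctikM D u, ctikM D v⟫_ℂ = ∫ x in D, ∑ l, conj (u.1 l x) * v.1 l x := by
  rw [L2.inner_def]
  refine integral_congr_ae ?_
  filter_upwards [MemLp.coeFn_toLp u.2, MemLp.coeFn_toLp v.2] with x h1 h2
  have h3 : (ctikM D u : V n → EuclideanSpace ℂ ι) x = ctikL u.1 x := h1
  have h4 : (ctikM D v : V n → EuclideanSpace ℂ ι) x = ctikL v.1 x := h2
  rw [h3, h4, PiLp.inner_apply]
  exact Finset.sum_congr rfl fun l _ => RCLike.inner_apply' _ _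

theorem ctik_self (D : Set (V n)) (u : Fm ι n) :
    ∫ x in D, ∑ l, conj (u l x) * u l x = (n2 D u : ℂ) := by
  rw [n2, ← integral_complex_ofReal]
  refine integral_congr_ae (Eventually.of_forall fun x => ?_)
  simp only [Complex.conj_mul', Complex.ofReal_sum, Complex.ofReal_pow]

theorem ctik_norm {D : Set (V n)} (u : ctikS ι D) : ‖ctikM D u‖ ^ 2 = n2 D u.1 := by
  have h := ctik_inner u u
  rw [ctik_self] at h
  rw [← inner_self_eq_norm_sq (𝕜 := ℂ), h]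
  rfl

theorem n2_nonneg (D : Set (V n)) (u : Fm ι n) : 0 ≤ n2 D u := integral_nonneg fun _ =>
  Finset.sum_nonneg fun _ _ => sq_nonneg _

theorem n2_int {D : Set (V n)} (hD : IsOpen D) (hb : Bornology.IsBounded D) {u : Fm ι n}
    (hu : ∀ l, ContinuousOn (u l) D) (h : Bn D u) :
    IntegrableOn (fun x => ∑ l, ‖u l x‖ ^ 2) D := by
  obtain ⟨M, hM⟩ := h
  refine ctik_int hD hb (continuousOn_finsetSum _ fun l _ => (hu l).norm.pow 2)
    (Fintype.card ι * M ^ 2) fun x hx => ?_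
  rw [Real.norm_of_nonneg (Finset.sum_nonneg fun _ _ => sq_nonneg _)]
  exact ctik_sum_le fun l => hM l x hx

theorem n2_le {D : Set (V n)} (hD : IsOpen D) (hb : Bornology.IsBounded D) {v M : ℝ}
    (hv : volume.real D ≤ v) {u : Fm ι n} (h : ∀ l, ∀ x ∈ D, ‖u l x‖ ≤ M) :
    n2 D u ≤ Fintype.card ι * v * M ^ 2 := by
  have h1 : ‖n2 D u‖ ≤ Fintype.card ι * M ^ 2 * volume.real D :=
    norm_setIntegral_le_of_norm_le_const hb.measure_lt_top fun x hx => by
      rw [Real.norm_of_nonneg (Finset.sum_nonneg fun _ _ => sq_nonneg _)]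
      exact ctik_sum_le fun l => h l x hx
  have h2 : Fintype.card ι * M ^ 2 * volume.real D ≤ Fintype.card ι * M ^ 2 * v :=
    mul_le_mul_of_nonneg_left hv (by positivity)
  have _ := hD
  linarith [le_abs_self (n2 D u), Real.norm_eq_abs (n2 D u)]

theorem n2_mono {A D : Set (V n)} (hD : IsOpen D) (hb : Bornology.IsBounded D) (hA : A ⊆ D)
    {u : Fm ι n} (hu : ∀ l, ContinuousOn (u l) D) (h : Bn D u) : n2 A u ≤ n2 D u :=
  setIntegral_mono_set (n2_int hD hb hu h)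
    (Eventually.of_forall fun _ => Finset.sum_nonneg fun _ _ => sq_nonneg _) hA.eventuallyLE

theorem n2_sub {D : Set (V n)} (hD : IsOpen D) (hb : Bornology.IsBounded D) {u v : Fm ι n}
    (hu : ∀ l, ContinuousOn (u l) D) (h : Bn D u) (hv : ∀ l, ContinuousOn (v l) D) (h' : Bn D v) :
    n2 D (u - v) ≤ 2 * n2 D u + 2 * n2 D v := by
  have h1 := ctik_norm (⟨u, ctik_mem hD hb hu h⟩ - ⟨v, ctik_mem hD hb hv h'⟩ : ctikS ι D)
  have h2 := ctik_norm (⟨u, ctik_mem hD hb hu h⟩ : ctikS ι D)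
  have h3 := ctik_norm (⟨v, ctik_mem hD hb hv h'⟩ : ctikS ι D)
  rw [map_sub] at h1
  have h4 := parallelogram_law_with_norm ℂ (ctikM D ⟨u, ctik_mem hD hb hu h⟩)
    (ctikM D ⟨v, ctik_mem hD hb hv h'⟩)
  rw [h1, h2, h3] at h4
  change _ + n2 D (u - v) = 2 * (n2 D u + n2 D v) at h4
  nlinarith [sq_nonneg ‖ctikM D ⟨u, ctik_mem hD hb hu h⟩ + ctikM D ⟨v, ctik_mem hD hb hv h'⟩‖]

/-- Cauchy-Schwarz -/
theorem n2_cs {D : Set (V n)} (hD : IsOpen D) (hb : Bornology.IsBounded D) {u v : Fm ι n}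
    (hu : ∀ l, ContinuousOn (u l) D) (h : Bn D u) (hv : ∀ l, ContinuousOn (v l) D) (h' : Bn D v) :
    ‖∫ x in D, ∑ l, conj (u l x) * v l x‖ ^ 2 ≤ n2 D u * n2 D v := by
  have h1 := ctik_inner (⟨u, ctik_mem hD hb hu h⟩ : ctikS ι D) ⟨v, ctik_mem hD hb hv h'⟩
  have h2 := ctik_norm (⟨u, ctik_mem hD hb hu h⟩ : ctikS ι D)
  have h3 := ctik_norm (⟨v, ctik_mem hD hb hv h'⟩ : ctikS ι D)
  rw [← h1, ← h2, ← h3, ← mul_pow]
  exact pow_le_pow_left₀ (norm_nonneg _) (norm_inner_le_norm _ _) 2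

theorem n2_self (D : Set (V n)) (u : Fm ι n) :
    ∫ x in D, ∑ l, conj (u l x) * u l x = (n2 D u : ℂ) := ctik_self D u

/-- `tik` in `Lp (EuclideanSpace ℂ ι) 2` of the two restricted measures, `g i = √ε • f i`. -/
theorem tik_n2 {A D : Set (V n)} {v : ℝ} (h : Reg A D v) {κ : Type} [Fintype κ] (f : κ → Fm ι n)
    (hf : ∀ i l, ContinuousOn (f i l) D) (hb : ∀ i, Bn D (f i)) {ε : ℝ} (hε : 0 ≤ ε) :
    ∃ C : κ → κ → ℂ, ∀ u : Fm ι n, (∀ l, ContinuousOn (u l) A) → Bn A u →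
      ∀ w : Fm ι n, w = ∑ i, (∑ j, C i j * ∫ x in A, ∑ l, conj (f j l x) * u l x) • f i →
        n2 A (w - u) + ε * n2 D w ≤ n2 A u ∧
          ∀ k, n2 A (w - u) + ε * n2 D w ≤ n2 A (f k - u) + ε * n2 D (f k) := by
  have hA : Bornology.IsBounded A := h.bd.subset h.sub
  let a : κ → ctikS ι A := fun i => ⟨f i, ctik_mem h.oA hA (fun l => (hf i l).mono h.sub)
    ((hb i).imp fun _ hM l x hx => hM l x (h.sub hx))⟩
  let d : κ → ctikS ι D := fun i => ⟨f i, ctik_mem h.oD h.bd (hf i) (hb i)⟩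
  obtain ⟨C, hC⟩ := tik (fun i => ctikM A (a i)) fun i => (Real.sqrt ε : ℂ) • ctikM D (d i)
  refine ⟨C, fun u hu hu' w hw => ?_⟩
  let u' : ctikS ι A := ⟨u, ctik_mem h.oA hA hu hu'⟩
  have hs : ∀ y : ctikS ι D, ‖(Real.sqrt ε : ℂ) • ctikM D y‖ ^ 2 = ε * n2 D y.1 := fun y => by
    rw [norm_smul, mul_pow, ctik_norm, Complex.norm_real, Real.norm_eq_abs, sq_abs,
      Real.sq_sqrt hε]
  have h1 : ∀ c : κ → ℂ, ‖∑ i, c i • ctikM A (a i) - ctikM A u'‖ ^ 2 =
      n2 A (∑ i, c i • f i - u) := fun c => by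
    simp only [← map_smul, ← map_sum, ← map_sub, ctik_norm]
    congr 1
    simp [a, u']
  have h2 : ∀ c : κ → ℂ, ‖∑ i, c i • (Real.sqrt ε : ℂ) • ctikM D (d i)‖ ^ 2 =
      ε * n2 D (∑ i, c i • f i) := fun c => by
    simp only [smul_comm (c _) (Real.sqrt ε : ℂ), ← Finset.smul_sum]
    simp only [← map_smul (ctikM D) (c _), ← map_sum, hs]
    congr 2
    simp [d]
  have h3 := hC (ctikM A u')
  simp only [h1, h2, hs, ← map_sub, ctik_norm, ctik_inner] at h3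
  rw [hw]
  exact h3

end Vale.Agent.P088.Cr
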