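import Vale.Agent.P088F.CApp

/-! P088, part C: the three-region inequality in two variables.

`two_y`: fix `y₀ ∈ N'`, `m₀`, put `g = sx W m₀ y₀` and apply `TR` to `av Z g W` (`Sh.avg`); its value at `(m₀, y₀)` is
`n2 Z g` (`n2_self`), and `n2_cs`, `n2_le` (with `M = √(n2 Z g * a)`) bound its norms; divide by `n2 Z g`.
`two`: `two_y` for `Z = A` and `Z = D`, then `TR` in the first variable. -/

open MeasureTheory Set Filter Topology Metric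
open scoped ContDiff ComplexConjugate InnerProductSpace

noncomputable section

namespace Vale.Agent.P088.Cr

open Vale.Agent.P292E

variable {n : ℕ} {ι : Type} [Fintype ι] {P Q : Set (V n) → Fm ι n → Prop}

theorem two_y (hP : Sh P) (hQ : Sh Q) {Z B D' N' : Set (V n)} {v θ C a b ε : ℝ} (hZ : IsOpen Z)
    (hb : Bornology.IsBounded Z) (h' : Reg B D' v) (hN : N' ⊆ D') (hC : 0 ≤ C)
    (hT : TR Q B D' N' θ C) {W : Kn ι n} (hW : Sl P Q Z D' W)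
    (bW : ∃ M : ℝ, ∀ l m, ∀ p ∈ Z ×ˢ D', ‖W l m p‖ ≤ M) (ha : 0 ≤ a) (hb' : 0 ≤ b)
    (h1 : ∀ m, ∀ y ∈ B, n2 Z (sx W m y) ≤ a) (h2 : ∀ m, ∀ y ∈ D', n2 Z (sx W m y) ≤ b)
    (hε : 0 < ε) (hε1 : ε ≤ 1) : ∀ m, ∀ y ∈ N',
      n2 Z (sx W m y) ≤ C * (Fintype.card ι * v) * (ε ^ (-θ) * a + ε ^ (1 - θ) * b) := by
  intro m₀ y₀ hy₀
  obtain ⟨M, hM⟩ := bW
  have c : ∀ m, ∀ y ∈ D', ∀ l, ContinuousOn (sx W m y l) Z := fun m y hy => hP.cont (hW.px m y hy)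
  have d : ∀ m, ∀ y ∈ D', Bn Z (sx W m y) := fun m y hy =>
    ⟨M, fun l x hx => hM l m (x, y) ⟨hx, hy⟩⟩
  have hy := hN hy₀
  have hv : 0 ≤ v := measureReal_nonneg.trans h'.vol
  obtain ⟨G, hG⟩ : ∃ G, G = n2 Z (sx W m₀ y₀) := ⟨_, rfl⟩
  have G0 : 0 ≤ G := hG ▸ n2_nonneg _ _
  have hu := hQ.avg M h'.oD hZ hb (c m₀ y₀ hy) (d m₀ y₀ hy) hW.cont hM hW.py
  have k : ∀ {t : ℝ} m, ∀ y ∈ D', n2 Z (sx W m y) ≤ t →
      ‖av Z (sx W m₀ y₀) W m y‖ ≤ √(G * t) := fun m y hy' ht => by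
    refine Real.le_sqrt_of_sq_le ((n2_cs hZ hb (c m₀ y₀ hy) (d m₀ y₀ hy) (c m y hy')
      (d m y hy')).trans ?_)
    rw [← hG]
    exact mul_le_mul_of_nonneg_left ht G0
  have k1 := n2_le h'.oA (h'.bd.subset h'.sub)
    ((measureReal_mono h'.sub h'.bd.measure_lt_top.ne).trans h'.vol)
    fun m y hy' => k m y (h'.sub hy') (h1 m y hy')
  have k2 := n2_le h'.oD h'.bd h'.vol fun m y hy' => k m y hy' (h2 m y hy')
  rw [Real.sq_sqrt (by positivity)] at k1 k2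
  have k3 := hT _ hu ⟨_, fun m y hy' => k m y hy' (h2 m y hy')⟩ ε hε hε1 m₀ y₀ hy₀
  have e : av Z (sx W m₀ y₀) W m₀ y₀ = (G : ℂ) := by
    rw [hG]
    exact n2_self Z (sx W m₀ y₀)
  rw [e, Complex.norm_real, Real.norm_of_nonneg G0] at k3
  rw [← hG]
  rcases G0.eq_or_lt with h0 | h0
  · rw [← h0]
    positivity
  · refine le_of_mul_le_mul_left (le_trans (by rw [← sq]) (k3.trans ?_)) h0
    refine (mul_le_mul_of_nonneg_left (add_le_add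
      (mul_le_mul_of_nonneg_left k1 (by positivity))
      (mul_le_mul_of_nonneg_left k2 (by positivity))) hC).trans_eq ?_
    ring

theorem two (hP : Sh P) (hQ : Sh Q) {A D N B D' N' : Set (V n)} {v θ θ' C K ε : ℝ} (h : Reg A D v)
    (h' : Reg B D' v) (hN : N' ⊆ D') (hC : 0 ≤ C) (hK : 0 ≤ K) (hT : TR P A D N θ C)
    (hT' : TR Q B D' N' θ' C) {W : Kn ι n} (hW : Sl P Q D D' W)
    (bW : ∃ M : ℝ, ∀ l m, ∀ p ∈ D ×ˢ D', ‖W l m p‖ ≤ M) (hε : 0 < ε) (hε1 : ε ≤ 1)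
    (h4 : Four A D B D' W ε K) : ∀ l m, ∀ p ∈ N ×ˢ N',
      ‖W l m p‖ ^ 2 ≤ 4 * C ^ 2 * (Fintype.card ι * v) * K * ε ^ (1 - θ - θ') := by
  rintro l m ⟨x, y⟩ ⟨hx, hy⟩
  obtain ⟨M, hM⟩ := bW
  have k1 := two_y hP hQ h.oA (h.bd.subset h.sub) h' hN hC hT'
    (hW.mono hP hQ h.oA h'.oD h.sub subset_rfl)
    ⟨M, fun l m p hp => hM l m p ⟨h.sub hp.1, hp.2⟩⟩ (by positivity) hK h4.c h4.a hε hε1 m y hy
  have k2 := two_y hP hQ h.oD h.bd h' hN hC hT' hW ⟨M, hM⟩ hK (by positivity) h4.d h4.b hε hε1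
    m y hy
  have k3 := hT _ (hW.px m y (hN hy)) ⟨M, fun l x hx => hM l m (x, y) ⟨hx, hN hy⟩⟩ ε hε hε1 l x hx
  refine k3.trans ((mul_le_mul_of_nonneg_left (add_le_add
    (mul_le_mul_of_nonneg_left k1 (by positivity))
    (mul_le_mul_of_nonneg_left k2 (by positivity))) hC).trans_eq ?_)
  have e : ∀ s : ℝ, ε ^ (1 - s) = ε * ε ^ (-s) := fun s => by
    rw [sub_eq_add_neg, Real.rpow_add hε, Real.rpow_one]
  rw [sub_sub, e, e, e, neg_add, Real.rpow_add hε]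
  field_simp
  ring

end Vale.Agent.P088.Cr
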