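import Vale.Agent.P088F.DDefs

/-! P088F, part D: the algebra of the second stage. -/

open scoped ContDiff Topology RealInnerProductSpace
open Set Filter Metric

noncomputable section

namespace Vale.Agent.P088F.Dd

open Vale.Agent.P292E

variable {n : ℕ} {ι : Type} [Fintype ι] [DecidableEq ι]

theorem dalg_id {s t r aa ac cc za zc a0 c0 : ℝ} (hs : 0 < s) (ht : 0 < t) (hr : 0 < r)
    {f X Y p q VV : ℝ} (hf : f = r / (2 * s * t)) (hX : X = -(2 * s / r) * za - a0)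
    (hY : Y = 2 * t / r * zc - c0) (hp : p = f * c0 - zc / s) (hq : q = c0 / t)
    (hV : VV = aa + cc - 2 * ac + p * p + q * q * r + 2 * p * (a0 - c0) + 2 * q * (za - zc) +
      2 * p * q * (t - s)) :
    2 * (t * t * cc - 2 * s * t * ac + s * s * aa) / r - 4 * (t * zc - s * za) ^ 2 / r ^ 2 +
      a0 ^ 2 + c0 ^ 2 + (2 * a0 * X - (-(2 * s / r) * (t - s) - 1) * aa) +
      (2 * c0 * Y - (2 * t / r * (t - s) - 1) * cc) =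
      VV / f + aa + cc - f * Y ^ 2 - (X + Y) ^ 2 ∧
    -(2 * s / r) * (za - zc + p * (t - s) + q * r) - (a0 - c0 + p + q * (t - s)) =
      X + (1 + f) * Y := by
  subst hV hp hq hX hY hf
  constructor
  · field_simp
    ring
  · field_simp
    ring

theorem dalg_cs {f m X Y VV : ℝ} (hf : 0 < f) (hm : m = (f + 2) / f)
    (h : (X + (1 + f) * Y) * (X + (1 + f) * Y) ≤ m * VV) :
    -(X ^ 2 / m) - Y ^ 2 / m - (X + Y) ^ 2 / 2 ≤ VV / f - f * Y ^ 2 - (X + Y) ^ 2 := by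
  have h2 : 0 < f + 2 := by linarith
  have e1 : m * VV = (f + 2) * (VV / f) := by
    rw [hm]
    ring
  have e2 : (f + 2) * (X ^ 2 / m) = f * X ^ 2 := by
    rw [hm]
    field_simp
  have e3 : (f + 2) * (Y ^ 2 / m) = f * Y ^ 2 := by
    rw [hm]
    field_simp
  refine le_of_mul_le_mul_left ?_ h2
  nlinarith [mul_nonneg hf.le (sq_nonneg (X + Y))]

theorem dalg_g {m X β κ aa : ℝ} (hm : 1 ≤ m) (ha : 0 ≤ aa) (h1 : X * X ≤ m * aa)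
    (h2 : β * β ≤ 4 * aa) (h3 : κ * κ ≤ 4 * m) : -3 * aa ≤ (2 * m)⁻¹ * (κ * aa - 2 * X * β) := by
  rw [le_inv_mul_iff₀ (by linarith)]
  have h4 : -(2 * m) ≤ κ := by nlinarith [sq_nonneg (κ + 2)]
  nlinarith [sq_nonneg (2 * X - β), mul_le_mul_of_nonneg_right h4 ha,
    mul_le_mul_of_nonneg_right hm ha]

section

variable {E : Type} [NormedAddCommGroup E] [InnerProductSpace ℝ E]

theorem dalg_W {N e : E} {m s : ℝ} (he : ⟪e, e⟫ = 1) (hN : ⟪N, N⟫ = m) (hm : 1 ≤ m) (hs : 0 < s) :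
    ‖s • (s * s)⁻¹ • (e + (2 * m)⁻¹ • N)‖ ≤ 2 / s := by
  rw [real_inner_self_eq_norm_sq] at he hN
  have h1 : ‖e‖ ≤ 1 := by nlinarith [norm_nonneg e]
  have h2 : ‖N‖ ≤ 2 * m := by nlinarith [norm_nonneg N]
  have h3 : ‖(2 * m)⁻¹ • N‖ ≤ 1 := by
    rw [norm_smul, Real.norm_of_nonneg (by positivity), inv_mul_le_iff₀ (by positivity), mul_one]
    exact h2
  have e1 : s * (s * s)⁻¹ = s⁻¹ := by field_simp
  rw [smul_smul, e1, norm_smul, Real.norm_of_nonneg (by positivity), div_eq_inv_mul]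
  exact mul_le_mul_of_nonneg_left ((norm_add_le _ _).trans (by linarith)) (by positivity)

theorem dalg_H {z e A C Nx : E} {s t r X Y m : ℝ} (hs : 0 < s) (ht : 0 < t) (hr : 0 < r)
    (hz : ⟪z, z⟫ = r) (he : ⟪e, e⟫ = 1) (hze : ⟪e, z⟫ = t - s)
    (hNx : Nx = -(2 * s / r) • z - e) (hN : ⟪Nx, Nx⟫ = m) (hm : m = 1 + 4 * s * t / r)
    (hX : X = -(2 * s / r) * ⟪z, A⟫ - ⟪e, A⟫) (hY : Y = 2 * t / r * ⟪z, C⟫ - ⟪e, C⟫) :
    ⟪A, A⟫ + ⟪C, C⟫ - X ^ 2 / m - Y ^ 2 / m - (X + Y) ^ 2 / 2 ≤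
      2 * (t * t * ⟪C, C⟫ - 2 * s * t * ⟪A, C⟫ + s * s * ⟪A, A⟫) / r -
        4 * (t * ⟪z, C⟫ - s * ⟪z, A⟫) ^ 2 / r ^ 2 + ⟪e, A⟫ ^ 2 + ⟪e, C⟫ ^ 2 +
      (2 * ⟪e, A⟫ * X - (-(2 * s / r) * (t - s) - 1) * ⟪A, A⟫) +
      (2 * ⟪e, C⟫ * Y - (2 * t / r * (t - s) - 1) * ⟪C, C⟫) := by
  obtain ⟨f, hf⟩ : ∃ f, f = r / (2 * s * t) := ⟨_, rfl⟩
  obtain ⟨p, hp⟩ : ∃ p, p = f * ⟪e, C⟫ - ⟪z, C⟫ / s := ⟨_, rfl⟩
  obtain ⟨q, hq⟩ : ∃ q, q = ⟪e, C⟫ / t := ⟨_, rfl⟩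
  have c1 : ⟪z, e⟫ = t - s := (real_inner_comm _ _).trans hze
  obtain ⟨h1, h2⟩ := dalg_id (aa := ⟪A, A⟫) (ac := ⟪A, C⟫) (cc := ⟪C, C⟫)
    (VV := ⟪A - C + p • e + q • z, A - C + p • e + q • z⟫) hs ht hr hf hX hY hp hq (by
      simp only [inner_add_left, inner_add_right, inner_sub_left, inner_sub_right,
        real_inner_smul_left, real_inner_smul_right, hz, he, hze, c1, real_inner_comm A C,
        real_inner_comm e A, real_inner_comm e C, real_inner_comm z A, real_inner_comm z C]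
      ring)
  have h3 := real_inner_mul_inner_self_le Nx (A - C + p • e + q • z)
  have h4 : ⟪Nx, A - C + p • e + q • z⟫ = X + (1 + f) * Y := by
    rw [← h2, hNx]
    simp only [inner_add_right, inner_sub_left, inner_sub_right, real_inner_smul_left,
      real_inner_smul_right, hz, he, hze, c1]
    ring
  rw [h4, hN] at h3
  have h5 := dalg_cs (by rw [hf]; positivity) (by rw [hm, hf]; field_simp; ring) h3
  linarith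

theorem dalg_vec {z e u : E} {s t : ℝ} (hs : 0 < s) (ht : 0 < t) (hz : z ≠ 0) (he : ⟪e, e⟫ = 1)
    (hze : ⟪e, z⟫ = t - s) (hue : ⟪e, u⟫ = s) {E1 E2 : E → E → ℝ}
    (h1 : ∀ a c, E1 a c = 2 * ⟪z, c - a⟫ / ‖z‖ ^ 2 - ⟪e, a⟫ / s - ⟪e, c⟫ / t -
      1 / 16 * (2 * ⟪u, a⟫ / ‖u‖ ^ 2))
    (h2 : ∀ a c, E2 a c = 2 * ‖c - a‖ ^ 2 / ‖z‖ ^ 2 - 4 * ⟪z, c - a⟫ ^ 2 / (‖z‖ ^ 2) ^ 2 +
      ⟪e, a⟫ ^ 2 / s ^ 2 + ⟪e, c⟫ ^ 2 / t ^ 2 -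
      1 / 16 * (2 * ‖a‖ ^ 2 / ‖u‖ ^ 2 - 4 * ⟪u, a⟫ ^ 2 / (‖u‖ ^ 2) ^ 2)) :
    ∃ w w' : E, ‖w‖ ≤ 2 / s ∧ ‖w'‖ ≤ 2 / t ∧ ∀ a c : E, E1 a c = 0 →
      1 / 5 * (‖a‖ ^ 2 / s ^ 2 + ‖c‖ ^ 2 / t ^ 2) ≤ E2 a c +
        (2 * ⟪w, a⟫ * E1 a 0 - E1 w 0 * ‖a‖ ^ 2) + (2 * ⟪w', c⟫ * E1 0 c - E1 0 w' * ‖c‖ ^ 2) := by
  simp only [← real_inner_self_eq_norm_sq] at h1 h2 ⊢
  obtain ⟨r, hr⟩ : ∃ r, ⟪z, z⟫ = r := ⟨_, rfl⟩
  obtain ⟨U, hU⟩ : ∃ U, ⟪u, u⟫ = U := ⟨_, rfl⟩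
  have hr0 : 0 < r := hr ▸ real_inner_self_pos.2 hz
  have hsU : s * s ≤ U := by simpa only [hue, he, hU, one_mul] using real_inner_mul_inner_self_le e u
  have hU0 : 0 < U := (mul_pos hs hs).trans_le hsU
  rw [hr, hU] at h1 h2
  have c1 : ⟪z, e⟫ = t - s := (real_inner_comm _ _).trans hze
  have c2 : ⟪u, e⟫ = s := (real_inner_comm _ _).trans hue
  obtain ⟨Nx, hNx⟩ : ∃ N, N = -(2 * s / r) • z - e := ⟨_, rfl⟩
  obtain ⟨Ny, hNy⟩ : ∃ N, N = (2 * t / r) • z - e := ⟨_, rfl⟩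
  obtain ⟨b, hb⟩ : ∃ b, b = (2 * s / U) • u := ⟨_, rfl⟩
  obtain ⟨m, hm⟩ : ∃ m, m = 1 + 4 * s * t / r := ⟨_, rfl⟩
  have hm1 : 1 ≤ m := hm ▸ le_add_of_nonneg_right (by positivity)
  have ix : ∀ A, ⟪Nx, A⟫ = -(2 * s / r) * ⟪z, A⟫ - ⟪e, A⟫ := fun A => by
    rw [hNx, inner_sub_left, real_inner_smul_left]
  have iy : ∀ A, ⟪Ny, A⟫ = 2 * t / r * ⟪z, A⟫ - ⟪e, A⟫ := fun A => by
    rw [hNy, inner_sub_left, real_inner_smul_left]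
  have ib : ∀ A, ⟪b, A⟫ = 2 * s / U * ⟪u, A⟫ := fun A => by rw [hb, real_inner_smul_left]
  have nx : ⟪Nx, Nx⟫ = m := by
    rw [ix, hNx, hm]
    simp only [inner_sub_right, real_inner_smul_right, hr, he, hze, c1]
    field_simp
    ring
  have ny : ⟪Ny, Ny⟫ = m := by
    rw [iy, hNy, hm]
    simp only [inner_sub_right, real_inner_smul_right, hr, he, hze, c1]
    field_simp
    ring
  have nb : ⟪b, b⟫ ≤ 4 := by
    rw [ib, hb, real_inner_smul_right, hU, div_mul_cancel₀ _ hU0.ne', div_mul_eq_mul_div,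
      div_le_iff₀ hU0]
    linarith
  have L : ∀ A C, E1 (s • A) (t • C) = ⟪Nx, A⟫ - 1 / 16 * ⟪b, A⟫ + ⟪Ny, C⟫ := fun A C => by
    rw [h1, ix, iy, ib]
    simp only [inner_sub_right, real_inner_smul_right]
    field_simp
    ring
  have L1 : ∀ A, E1 (s • A) 0 = ⟪Nx, A⟫ - 1 / 16 * ⟪b, A⟫ := fun A => by
    simpa only [smul_zero, inner_zero_right, add_zero] using L A 0
  have L2 : ∀ C, E1 0 (t • C) = ⟪Ny, C⟫ := fun C => by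
    simpa only [smul_zero, inner_zero_right, mul_zero, sub_zero, zero_add] using L 0 C
  refine ⟨_, _, dalg_W he nx hm1 hs, dalg_W he ny hm1 ht, fun a c => ?_⟩
  obtain ⟨A, rfl⟩ : ∃ A, a = s • A := ⟨s⁻¹ • a, (smul_inv_smul₀ hs.ne' a).symm⟩
  obtain ⟨C, rfl⟩ : ∃ C, c = t • C := ⟨t⁻¹ • c, (smul_inv_smul₀ ht.ne' c).symm⟩
  rw [L, L1, L1, L2, L2, h2]
  intro h0
  have a0 : 0 ≤ ⟪A, A⟫ := real_inner_self_nonneg
  have a1 : 0 ≤ ⟪C, C⟫ := real_inner_self_nonneg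
  have a2 := dalg_H hs ht hr0 hr he hze hNx nx hm (ix A) (iy C)
  have a3 : ⟪b, A⟫ * ⟪b, A⟫ ≤ 4 * ⟪A, A⟫ :=
    (real_inner_mul_inner_self_le b A).trans (mul_le_mul_of_nonneg_right nb a0)
  have a4 := dalg_g hm1 a0 (nx ▸ real_inner_mul_inner_self_le Nx A) a3
    ((real_inner_mul_inner_self_le b Nx).trans
      (by rw [nx]; exact mul_le_mul_of_nonneg_right nb (by linarith)))
  have a5 : ⟪e, A⟫ * ⟪e, A⟫ ≤ ⟪A, A⟫ := by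
    simpa only [he, one_mul] using real_inner_mul_inner_self_le e A
  have a6 : (⟪Nx, A⟫ + ⟪Ny, C⟫) ^ 2 = (1 / 16) ^ 2 * (⟪b, A⟫ * ⟪b, A⟫) := by
    rw [show ⟪Nx, A⟫ + ⟪Ny, C⟫ = 1 / 16 * ⟪b, A⟫ by linarith]
    ring
  have a7 : ⟪u, A⟫ = U / (2 * s) * ⟪b, A⟫ := by
    rw [ib]
    field_simp
  have a8 : ⟪Nx, e⟫ = -(2 * s / r) * (t - s) - 1 := by rw [ix, c1, he]
  have a9 : ⟪Ny, e⟫ = 2 * t / r * (t - s) - 1 := by rw [iy, c1, he]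
  have a10 : ⟪b, e⟫ = 2 * s / U * s := by rw [ib, c2]
  have hm0 : m ≠ 0 := by linarith
  simp only [inner_add_left, inner_add_right, inner_sub_left, inner_sub_right,
    real_inner_smul_left, real_inner_smul_right, nx, ny, a7, a8, a9, a10, real_inner_comm A C]
  generalize ⟪A, A⟫ = aa at *
  generalize ⟪C, C⟫ = cc at *
  generalize ⟪A, C⟫ = ac at *
  generalize ⟪Nx, A⟫ = X at *
  generalize ⟪Ny, C⟫ = Y at *
  generalize ⟪b, A⟫ = β at *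
  generalize ⟪b, Nx⟫ = κ at *
  generalize ⟪e, A⟫ = x0 at *
  generalize ⟪e, C⟫ = y0 at *
  generalize ⟪z, A⟫ = za at *
  generalize ⟪z, C⟫ = zc at *
  refine le_of_eq_of_le (b := 1 / 5 * (aa + cc)) (by field_simp) (le_of_le_of_eq (b :=
    (2 * (t * t * cc - 2 * s * t * ac + s * s * aa) / r - 4 * (t * zc - s * za) ^ 2 / r ^ 2 +
      x0 ^ 2 + y0 ^ 2 + (2 * x0 * X - (-(2 * s / r) * (t - s) - 1) * aa) +
      (2 * y0 * Y - (2 * t / r * (t - s) - 1) * cc)) + (X ^ 2 / m - aa / 2) + (Y ^ 2 / m - cc / 2) +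
      1 / 16 * ((β - x0) ^ 2 - x0 * x0) + 1 / 16 * ((2 * m)⁻¹ * (κ * aa - 2 * X * β))) ?_ ?_)
  · linarith [sq_nonneg (β - x0)]
  · field_simp
    ring

end

theorem dalg_e [NeZero n] (v : V n) : ⟪ee 0, v⟫ = v 0 := by
  simp [ee, EuclideanSpace.inner_single_left]

omit [Fintype ι] [DecidableEq ι] in
theorem th2_alg [NeZero n] {p : V n × V n} (hp : p ∈ U2 n) :
    ∃ w w' : V n, ‖w‖ ≤ 2 / (p.1 0 + 1) ∧ ‖w'‖ ≤ 2 / (p.2 0 + 1) ∧ ∀ a c : V n, e1 p a c = 0 →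
      1 / 5 * (‖a‖ ^ 2 / (p.1 0 + 1) ^ 2 + ‖c‖ ^ 2 / (p.2 0 + 1) ^ 2) ≤ e2 p a c +
        (2 * ⟪w, a⟫ * e1 p a 0 - e1 p w 0 * ‖a‖ ^ 2) +
        (2 * ⟪w', c⟫ * e1 p 0 c - e1 p 0 w' * ‖c‖ ^ 2) := by
  have he : (ee 0 : V n) 0 = 1 := by simp [ee]
  refine dalg_vec (z := p.2 - p.1) (e := ee 0) (u := p.1 + ee 0) (by linarith [hp.1])
    (by linarith [hp.2.1]) (sub_ne_zero.2 hp.2.2.symm) (by rw [dalg_e, he]) ?_ ?_
    (fun a c => by simp only [e1, dalg_e]) fun a c => by simp only [e2, dalg_e]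
  · rw [dalg_e, PiLp.sub_apply]
    ring
  · rw [dalg_e, PiLp.add_apply, he]

end Vale.Agent.P088F.Dd
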