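import Vale.Agent.P088F.DDefs

/-! P088F, part D: calculus lemmas. -/

open scoped ContDiff Topology RealInnerProductSpace
open Set Filter Metric

noncomputable section

namespace Vale.Agent.P088F.Dd

open Vale.Agent.P292E

variable {n : ℕ} {ι : Type} [Fintype ι] [DecidableEq ι]

theorem dcalc_line {E : Type} [NormedAddCommGroup E] [NormedSpace ℝ E] (p v : E) (t : ℝ) :
    HasDerivAt (fun t : ℝ => p + t • v) v t :=
  (((hasDerivAt_id t).smul_const v).const_add p).congr_deriv (one_smul _ _)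

theorem dcalc_gr (f : V n → ℝ) (x a : V n) : ⟪gr f x, a⟫ = fderiv ℝ f x a := by
  conv_rhs => rw [← (EuclideanSpace.basisFun (Fin n) ℝ).sum_repr a]
  simp [gr, pr, PiLp.inner_apply, ee]

theorem line12 {E : Type} [NormedAddCommGroup E] [NormedSpace ℝ E] {Θ : E → ℝ} {p v : E}
    (h : ContDiffAt ℝ 2 Θ p) {φ₁ : ℝ → ℝ} {φ₂ : ℝ}
    (h1 : ∀ᶠ t in 𝓝 (0 : ℝ), HasDerivAt (fun t : ℝ => Θ (p + t • v)) (φ₁ t) t)
    (h2 : HasDerivAt φ₁ φ₂ 0) :
    fderiv ℝ Θ p v = φ₁ 0 ∧ fderiv ℝ (fderiv ℝ Θ) p v v = φ₂ := by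
  have hp : p + (0 : ℝ) • v = p := by rw [zero_smul, add_zero]
  have ht : Tendsto (fun t : ℝ => p + t • v) (𝓝 0) (𝓝 p) :=
    (dcalc_line p v 0).continuousAt.tendsto.trans_eq (by rw [hp])
  have e : (fun t : ℝ => fderiv ℝ Θ (p + t • v) v) =ᶠ[𝓝 0] φ₁ := by
    filter_upwards [h1, ht.eventually (h.eventually (by simp))] with t k1 k2
    exact ((k2.differentiableAt two_ne_zero).hasFDerivAt.comp_hasDerivAt t
      (dcalc_line p v t)).unique k1
  refine ⟨by simpa only [hp] using e.eq_of_nhds, ?_⟩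
  have d := ((h.fderiv_right (m := 1) (by norm_num)).differentiableAt
    one_ne_zero).hasFDerivAt.comp_hasDerivAt_of_eq 0 (dcalc_line p v 0) hp.symm
  refine HasDerivAt.unique ?_ (h2.congr_of_eventuallyEq e)
  exact (d.clm_apply (hasDerivAt_const _ v)).congr_deriv (by simp)

theorem grx_inner {Θ : V n × V n → ℝ} {p : V n × V n} (h : DifferentiableAt ℝ Θ p) (a : V n) :
    ⟪grx Θ p, a⟫ = fderiv ℝ Θ p (a, 0) := by
  rw [grx, dcalc_gr]
  exact congrArg (fun L : V n →L[ℝ] ℝ => L a)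
    (h.hasFDerivAt.comp p.1 (hasFDerivAt_prodMk_left (𝕜 := ℝ) p.1 p.2)).fderiv

theorem gry_inner {Θ : V n × V n → ℝ} {p : V n × V n} (h : DifferentiableAt ℝ Θ p) (a : V n) :
    ⟪gry Θ p, a⟫ = fderiv ℝ Θ p (0, a) := by
  rw [gry, dcalc_gr]
  exact congrArg (fun L : V n →L[ℝ] ℝ => L a)
    (h.hasFDerivAt.comp p.2 (hasFDerivAt_prodMk_right (𝕜 := ℝ) p.1 p.2)).fderiv

theorem cpt3 {E : Type} [NormedAddCommGroup E] [NormedSpace ℝ E] [ProperSpace E] {Θ : E → ℝ}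
    {U K : Set E} (hU : IsOpen U) (hK : IsCompact K) (hKU : K ⊆ U) (h : ContDiffOn ℝ ∞ Θ U) :
    ∃ r M : ℝ, 0 < r ∧ 0 ≤ M ∧ ∀ z ∈ K, ball z (2 * r) ⊆ U ∧
      ∀ q ∈ ball z (2 * r), ∀ i ≤ 3, ‖iteratedFDeriv ℝ i Θ q‖ ≤ M := by
  obtain ⟨δ, hδ, hs⟩ := hK.exists_cthickening_subset_open hU hKU
  have k : ∀ i : ℕ, ∃ C, ∀ x ∈ cthickening δ K, ‖iteratedFDeriv ℝ i Θ x‖ ≤ C := fun i =>
    hK.cthickening.exists_bound_of_continuousOn fun x hx =>
      ((h.contDiffAt (hU.mem_nhds (hs hx))).continuousAt_iteratedFDeriv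
        (by exact_mod_cast le_top)).continuousWithinAt
  choose C hC using k
  refine ⟨δ / 2, ∑ i ∈ Finset.range 4, |C i|, half_pos hδ,
    Finset.sum_nonneg fun _ _ => abs_nonneg _, fun z hz => ?_⟩
  have b : ball z (2 * (δ / 2)) ⊆ cthickening δ K := by
    rw [mul_div_cancel₀ δ two_ne_zero]
    exact ball_subset_closedBall.trans (closedBall_subset_cthickening hz δ)
  exact ⟨b.trans hs, fun q hq i hi => ((hC i q (b hq)).trans (le_abs_self _)).trans
    (Finset.single_le_sum (f := fun i => |C i|) (fun _ _ => abs_nonneg _)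
      (Finset.mem_range.2 (Nat.lt_succ_of_le hi)))⟩

theorem lip1 {E : Type} [NormedAddCommGroup E] [NormedSpace ℝ E] {Θ : E → ℝ} {z : E} {ρ M : ℝ}
    (h : ContDiffOn ℝ ∞ Θ (ball z ρ))
    (hb : ∀ q ∈ ball z ρ, ∀ i ≤ 3, ‖iteratedFDeriv ℝ i Θ q‖ ≤ M) {q q' : E} (hq : q ∈ ball z ρ)
    (hq' : q' ∈ ball z ρ) : |Θ q - Θ q'| ≤ M * ‖q - q'‖ := by
  exact (convex_ball z ρ).norm_image_sub_le_of_norm_fderiv_le (𝕜 := ℝ)
    (fun x hx => (h.contDiffAt (isOpen_ball.mem_nhds hx)).differentiableAt (by simp))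
    (fun x hx => (norm_iteratedFDeriv_one Θ).symm.trans_le (hb x hx 1 (by norm_num))) hq' hq

theorem grow {E : Type} [NormedAddCommGroup E] [NormedSpace ℝ E] {Θ : E → ℝ} {z : E} {ρ M c : ℝ}
    (h : ContDiffOn ℝ ∞ Θ (ball z ρ))
    (hb : ∀ q ∈ ball z ρ, ∀ i ≤ 3, ‖iteratedFDeriv ℝ i Θ q‖ ≤ M) {q v : E} {τ : ℝ} (hv : ‖v‖ ≤ 1)
    (hc : c ≤ fderiv ℝ Θ q v) (h0 : 0 ≤ τ) (hτ : M * τ ≤ c / 2) (hq : q ∈ ball z ρ)
    (hq' : q + τ • v ∈ ball z ρ) : Θ q + c / 2 * τ ≤ Θ (q + τ • v) := by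
  have m : ∀ t ∈ Icc 0 τ, q + t • v ∈ ball z ρ := fun t ht =>
    ((convex_ball z ρ).affine_preimage (AffineMap.lineMap q (q + v))).ordConnected.out
      (x := 0) (y := τ) (by simpa using hq) (by simpa [AffineMap.lineMap_apply, add_comm] using hq')
      ht |> fun k => by simpa [AffineMap.lineMap_apply, add_comm] using k
  have d : ∀ t ∈ Icc 0 τ, HasDerivAt (fun t : ℝ => Θ (q + t • v)) (fderiv ℝ Θ (q + t • v) v) t :=
    fun t ht => ((h.contDiffAt (isOpen_ball.mem_nhds (m t ht))).differentiableAt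
      (by simp)).hasFDerivAt.comp_hasDerivAt t (dcalc_line q v t)
  have hM : 0 ≤ M := (norm_nonneg _).trans (hb q hq 0 (by norm_num))
  have k := (convex_Icc 0 τ).mul_sub_le_image_sub_of_le_deriv (C := c / 2)
    (fun t ht => (d t ht).continuousAt.continuousWithinAt)
    (fun t ht => (d t (interior_subset ht)).differentiableAt.differentiableWithinAt)
    (fun t ht => by
      have ht' := interior_subset ht
      have l := (convex_ball z ρ).norm_image_sub_le_of_norm_fderiv_le (𝕜 := ℝ) (f := fderiv ℝ Θ)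
        (fun x hx => ((h.contDiffAt (isOpen_ball.mem_nhds hx)).fderiv_right (m := ∞)
          le_rfl).differentiableAt (by simp))
        (fun x hx => ((norm_iteratedFDeriv_one _).symm.trans norm_iteratedFDeriv_fderiv).trans_le
          (hb x hx 2 (by norm_num))) hq (m t ht')
      rw [add_sub_cancel_left, norm_smul, Real.norm_of_nonneg ht'.1] at l
      have l2 := ((fderiv ℝ Θ (q + t • v) - fderiv ℝ Θ q).le_opNorm v).trans
        ((mul_le_of_le_one_right (norm_nonneg _) hv).trans (l.trans (mul_le_mul_of_nonneg_left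
          ((mul_le_of_le_one_right ht'.1 hv).trans ht'.2) hM)))
      rw [sub_apply, Real.norm_eq_abs, abs_le] at l2
      rw [(d t ht').deriv]
      linarith [l2.1]) 0 (left_mem_Icc.2 h0) τ (right_mem_Icc.2 h0) h0
  simp only [zero_smul, add_zero, sub_zero] at k
  linarith

omit [Fintype ι] [DecidableEq ι] in
theorem DG.mono {Θ : V n × V n → ℝ} {Z O : Set (V n × V n)} {s r M c M' c' : ℝ}
    (h : DG Θ Z O s r M c) (hM : M ≤ M') (hc : c' ≤ c) : DG Θ Z O s r M' c' := by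
  exact ⟨h.oZ, h.oO, h.cont, h.sub, h.sm, fun z hz q hq i hi => (h.bd z hz q hq i hi).trans hM,
    fun z hz q hq => (h.gx z hz q hq).imp fun _ k => ⟨k.1, hc.trans k.2⟩,
    fun z hz q hq => (h.gy z hz q hq).imp fun _ k => ⟨k.1, hc.trans k.2⟩,
    fun z hz q hq hO => (h.dir z hz q hq hO).imp fun _ k =>
      ⟨k.1, k.2.1, hc.trans k.2.2.1, k.2.2.2⟩⟩

end Vale.Agent.P088F.Dd
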