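import Vale.Agent.P088F.Mono

/-! P088F, part D: definitions. -/

open scoped ContDiff Topology RealInnerProductSpace
open Set Filter Metric

noncomputable section

namespace Vale.Agent.P088F.Dd

open Vale.Agent.P292E

variable {n : ℕ} {ι : Type} [Fintype ι] [DecidableEq ι]

/-- the kernels agree on `Ω` -/
def KEq (W W' : Kr n ι) (Ω : Set (V n × V n)) : Prop :=
  ∀ p ∈ Ω, ∀ l m, W l m p.1 p.2 = W' l m p.1 p.2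

/-- the transposed kernel -/
def sw (W : Kr n ι) : Kr n ι := fun m l y x => W l m x y

/-- the flat Levi condition -/
def FL (Θ : V n × V n → ℝ) (p : V n × V n) (w w' : V n) (k : ℝ) : Prop :=
  ∀ a c : V n, fderiv ℝ Θ p (a, c) = 0 →
    k * (‖a‖ ^ 2 + ‖c‖ ^ 2) ≤ fderiv ℝ (fderiv ℝ Θ) p (a, c) (a, c) +
      (2 * ⟪w, a⟫ * fderiv ℝ Θ p (a, 0) - fderiv ℝ Θ p (w, 0) * ‖a‖ ^ 2) +
      (2 * ⟪w', c⟫ * fderiv ℝ Θ p (0, c) - fderiv ℝ Θ p (0, w') * ‖c‖ ^ 2)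

/-- the unknown region -/
def Unk (Θ : V n × V n → ℝ) (Z O : Set (V n × V n)) (s : ℝ) : Set (V n × V n) :=
  {z | z ∈ Z ∧ s < Θ z ∧ z ∉ O}

/-- the enlarged region -/
def Up (Θ : V n × V n → ℝ) (Z O : Set (V n × V n)) (s : ℝ) : Set (V n × V n) :=
  O ∪ {z | z ∈ Z ∧ s < Θ z}

/-- geometric data of a foliation -/
structure DG (Θ : V n × V n → ℝ) (Z O : Set (V n × V n)) (s r M c : ℝ) : Prop where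
  oZ : IsOpen Z
  oO : IsOpen O
  cont : ContinuousOn Θ Z
  sub : ∀ z ∈ Unk Θ Z O s, ball z (2 * r) ⊆ Z
  sm : ∀ z ∈ Unk Θ Z O s, ContDiffOn ℝ ∞ Θ (ball z (2 * r))
  bd : ∀ z ∈ Unk Θ Z O s, ∀ q ∈ ball z (2 * r), ∀ i ≤ 3, ‖iteratedFDeriv ℝ i Θ q‖ ≤ M
  gx : ∀ z ∈ Unk Θ Z O s, ∀ q ∈ ball z (2 * r), ∃ a : V n, ‖a‖ ≤ 1 ∧ c ≤ fderiv ℝ Θ q (a, 0)
  gy : ∀ z ∈ Unk Θ Z O s, ∀ q ∈ ball z (2 * r), ∃ a : V n, ‖a‖ ≤ 1 ∧ c ≤ fderiv ℝ Θ q (0, a)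
  dir : ∀ z ∈ Unk Θ Z O s, ∀ q ∈ ball z r, q ∈ O → ∃ v : V n × V n, ‖v‖ ≤ 1 ∧
    (v.1 = 0 ∨ v.2 = 0) ∧ c ≤ fderiv ℝ Θ q v ∧ ∀ τ ∈ Icc (0 : ℝ) r, q + τ • v ∈ O

/-- the Levi condition near the unknown region -/
def LevN (g g' : Mf n) (Θ : V n × V n → ℝ) (Z O : Set (V n × V n)) (s r M c : ℝ) : Prop :=
  ∀ z ∈ Unk Θ Z O s, ∀ q ∈ ball z r, ∃ (w w' : V n) (k : ℝ), ‖w‖ ≤ M ∧ ‖w'‖ ≤ M ∧ c ≤ k ∧ k ≤ M ∧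
    Levi g g' Θ q w w' k

/-- the flat Levi condition near the unknown region -/
def FLN (Θ : V n × V n → ℝ) (Z O : Set (V n × V n)) (s r M c : ℝ) : Prop :=
  ∀ z ∈ Unk Θ Z O s, ∀ q ∈ ball z r, ∃ w w' : V n, ‖w‖ ≤ M ∧ ‖w'‖ ≤ M ∧ FL Θ q w w' c

/-- `W'` extends `W` from `O` to `O'` with amplification `C` -/
def Xt (P Q : Op n ι) (O O' : Set (V n × V n)) (W W' : Kr n ι) (C : ℝ) : Prop :=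
  Sol P Q O' W' ∧ KEq W' W (O ∩ O') ∧ ∀ A, 0 ≤ A → KBd W O A → KBd W' O' (C * A)

/-- norm of a linear map and of a right inverse -/
def Ell (A : V n →L[ℝ] V n) (a b : ℝ) : Prop :=
  ‖A‖ ≤ a ∧ 0 < b ∧ ∀ u, ∃ v, A v = u ∧ ‖v‖ ≤ b * ‖u‖

/-- products of ellipsoids -/
def EE (A A' : V n →L[ℝ] V n) (x₀ y₀ : V n) (t t' : ℝ) : Set (V n × V n) :=
  {p | ‖A (p.1 - x₀)‖ < t ∧ ‖A' (p.2 - y₀)‖ < t'}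

/-- the phase of the first stage -/
def th1 (μ : ℝ) (A A' : V n →L[ℝ] V n) (x₀ y₀ : V n) (p : V n × V n) : ℝ :=
  Real.exp (-μ * ‖A (p.1 - x₀)‖ ^ 2) + Real.exp (-μ * ‖A' (p.2 - y₀)‖ ^ 2)

variable (n ι)

/-- one step across a foliation -/
def STEP : Prop :=
  ∃ K : ℕ, ∀ M c r : ℝ, 0 < c → 0 < r → ∃ δ C : ℝ, 0 < δ ∧ 1 ≤ C ∧ ∀ (P Q : Op n ι)
    (Θ : V n × V n → ℝ) (Z O : Set (V n × V n)) (s t t' : ℝ) (W : Kr n ι), P.Sm → Q.Sm →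
    P.Bdd K M c → Q.Bdd K M c → DG Θ Z O s r M c → LevN P.g Q.g Θ Z O s r M c → s ≤ t' → t' ≤ t →
    t - t' ≤ δ → Sol P Q (Up Θ Z O t) W → ∃ W', Xt P Q (Up Θ Z O t) (Up Θ Z O t') W W' C

/-- extension across a foliation -/
def PUSH : Prop :=
  ∃ K : ℕ, ∀ M c r : ℝ, 0 < c → 0 < r → ∃ C : ℝ, 0 ≤ C ∧ ∀ (P Q : Op n ι)
    (Θ : V n × V n → ℝ) (Z O : Set (V n × V n)) (s : ℝ) (W : Kr n ι), P.Sm → Q.Sm →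
    P.Bdd K M c → Q.Bdd K M c → DG Θ Z O s r M c → LevN P.g Q.g Θ Z O s r M c →
    Sol P Q O W → ∃ W', Xt P Q O (Up Θ Z O s) W W' C

/-- extension across a flat foliation -/
def FPUSH : Prop :=
  ∃ K : ℕ, ∀ M c r : ℝ, 0 < c → 0 < r → ∃ ε C : ℝ, 0 < ε ∧ 0 ≤ C ∧ ∀ (P Q : Op n ι)
    (Θ : V n × V n → ℝ) (Z O : Set (V n × V n)) (s : ℝ) (W : Kr n ι), P.Sm → Q.Sm →
    P.Near K ε → Q.Near K ε → DG Θ Z O s r M c → FLN Θ Z O s r M c →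
    Sol P Q O W → ∃ W', Xt P Q O (Up Θ Z O s) W W' C

/-- the cross lemma for ellipsoids -/
def EC : Prop :=
  ∀ D T : ℝ, 1 ≤ T → ∃ η : ℝ, 0 < η ∧ η ≤ 1 ∧ ∀ M : ℝ, ∃ (K : ℕ) (ε C : ℝ), 0 < ε ∧ 0 ≤ C ∧
    ∀ (P Q : Op n ι) (A A' : V n →L[ℝ] V n) (a b a' b' : ℝ) (x₀ y₀ : V n) (S S' : Set (V n))
      (W : Kr n ι), P.Sm → Q.Sm → P.Near K ε → Q.Near K ε → Ell A a b → Ell A' a' b' → a ≤ M →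
      b ≤ M → a' ≤ M → b' ≤ M → a * b ≤ D → a' * b' ≤ D → IsOpen S → IsOpen S' →
      (∀ x, ‖A (x - x₀)‖ < 1 → x ∈ S) → (∀ y, ‖A' (y - y₀)‖ < 1 → y ∈ S') →
      Sol P Q {p ∈ EE A A' x₀ y₀ (T + 1) (T + 1) | p.1 ∈ S ∨ p.2 ∈ S'} W →
      ∃ W', Xt P Q {p ∈ EE A A' x₀ y₀ (T + 1) (T + 1) | p.1 ∈ S ∨ p.2 ∈ S'}
        (EE A A' x₀ y₀ (1 + η) T) W W' C

variable {ι} [NeZero n]

/-- one point in the lower half space -/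
def O0 (R ρ : ℝ) : Set (V n × V n) :=
  {p | ‖p.1‖ < R ∧ ‖p.2‖ < R ∧ ρ < ‖p.1 - p.2‖ ∧ (p.1 0 < 0 ∨ p.2 0 < 0)}

/-- the first point is low -/
def Sg1 (R ρ C : ℝ) : Set (V n × V n) :=
  {p | ‖p.1‖ < R ∧ ‖p.2‖ < R ∧ ρ < ‖p.1 - p.2‖ ∧
    (p.1 0 < 0 ∨ p.2 0 < 0 ∨ C * (p.1 0 + 1) < ‖p.1 - p.2‖)}

/-- one point is low -/
def Sg (R ρ C : ℝ) : Set (V n × V n) :=
  {p | ‖p.1‖ < R ∧ ‖p.2‖ < R ∧ ρ < ‖p.1 - p.2‖ ∧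
    (p.1 0 < 0 ∨ p.2 0 < 0 ∨ C * (p.1 0 + 1) < ‖p.1 - p.2‖ ∨ C * (p.2 0 + 1) < ‖p.1 - p.2‖)}

/-- the domain of the initial kernel -/
def OO (R : ℝ) : Set (V n × V n) := {p ∈ offd (ball 0 R) | p.1 0 < 0 ∨ p.2 0 < 0}

variable (ι)

/-- first stage, first point low -/
def S1A : Prop :=
  ∃ C : ℝ, 1 ≤ C ∧ ∀ R : ℝ, ∃ (K : ℕ) (R' ε C' : ℝ), R ≤ R' ∧ 0 < ε ∧ 0 ≤ C' ∧
    ∀ (P Q : Op n ι) (ρ : ℝ) (W : Kr n ι), P.Sm → Q.Sm → P.Near K ε → Q.Near K ε → ρ ≤ 1 →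
      Sol P Q (O0 n R' ρ) W → ∃ W', Xt P Q (O0 n R' ρ) (Sg1 n R ρ C) W W' C'

/-- first stage -/
def S1 : Prop :=
  ∃ C : ℝ, 1 ≤ C ∧ ∀ R : ℝ, ∃ (K : ℕ) (R' ε C' : ℝ), R ≤ R' ∧ 0 < ε ∧ 0 ≤ C' ∧
    ∀ (P Q : Op n ι) (ρ : ℝ) (W : Kr n ι), P.Sm → Q.Sm → P.Near K ε → Q.Near K ε → ρ ≤ 1 →
      Sol P Q (O0 n R' ρ) W → ∃ W', Xt P Q (O0 n R' ρ) (Sg n R ρ C) W W' C'

/-- second stage -/
def S2 : Prop :=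
  ∀ r : ℝ, 0 < r → ∃ (K : ℕ) (R ρ ε C : ℝ), 30 ≤ R ∧ 0 < ρ ∧ ρ ≤ r ∧ 0 < ε ∧ 0 ≤ C ∧
    ∀ (P Q : Op n ι) (W : Kr n ι), P.Sm → Q.Sm → P.Near K ε → Q.Near K ε →
      Sol P Q (O0 n R ρ) W → ∃ W', Xt P Q (O0 n R ρ) (Om0 n r) W W' C

variable {n ι}

/-- the phase of the second stage -/
def th2 (p : V n × V n) : ℝ :=
  Real.log (‖p.2 - p.1‖ ^ 2) - Real.log (p.1 0 + 1) - Real.log (p.2 0 + 1) -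
    1 / 16 * Real.log (‖p.1 + ee 0‖ ^ 2)

/-- its first derivative -/
def e1 (p : V n × V n) (a c : V n) : ℝ :=
  2 * ⟪p.2 - p.1, c - a⟫ / ‖p.2 - p.1‖ ^ 2 - a 0 / (p.1 0 + 1) - c 0 / (p.2 0 + 1) -
    1 / 16 * (2 * ⟪p.1 + ee 0, a⟫ / ‖p.1 + ee 0‖ ^ 2)

/-- its second derivative -/
def e2 (p : V n × V n) (a c : V n) : ℝ :=
  2 * ‖c - a‖ ^ 2 / ‖p.2 - p.1‖ ^ 2 - 4 * ⟪p.2 - p.1, c - a⟫ ^ 2 / (‖p.2 - p.1‖ ^ 2) ^ 2 +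
    a 0 ^ 2 / (p.1 0 + 1) ^ 2 + c 0 ^ 2 / (p.2 0 + 1) ^ 2 -
    1 / 16 * (2 * ‖a‖ ^ 2 / ‖p.1 + ee 0‖ ^ 2 - 4 * ⟪p.1 + ee 0, a⟫ ^ 2 / (‖p.1 + ee 0‖ ^ 2) ^ 2)

/-- the domain of the second phase -/
def U2 (n : ℕ) [NeZero n] : Set (V n × V n) := {p | -1 < p.1 0 ∧ -1 < p.2 0 ∧ p.1 ≠ p.2}

/-- the ambient domain of the third stage -/
def Z3 (P : Par) (n : ℕ) [NeZero n] : Set (V n × V n) :=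
  {p | ‖p.1‖ < 2 ∧ ‖p.2‖ < 20 ∧ psi P.κ p.1 < P.a ∧ p.1 ≠ p.2}

/-- the known domain of the third stage -/
def O3 (P : Par) (n : ℕ) [NeZero n] : Set (V n × V n) :=
  {p ∈ Z3 P n | P.B / 100 < ‖p.1 - p.2‖ ∨ p.1 0 < 0 ∨ p.2 0 < 0}

/-- a neighbourhood of the unknown region of the third stage -/
def U3 (P : Par) (n : ℕ) [NeZero n] : Set (V n × V n) :=
  {p | ‖p.1‖ < 1 ∧ psi P.κ p.1 < P.a ∧ P.b p.1 / 20 < ‖p.1 - p.2‖ ∧ ‖p.1 - p.2‖ < P.B}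

/-- properties of the frozen quadratic form -/
structure QQ (g : Mf n) : Prop where
  sm : ContDiff ℝ ∞ (qq g)
  lo : ∀ p : V n × V n, ‖p.1 - p.2‖ ^ 2 / 2 ≤ qq g p
  up : ∀ p : V n × V n, qq g p ≤ 2 * ‖p.1 - p.2‖ ^ 2
  rx : ∀ p : V n × V n, ‖p.1 - p.2‖ ≤ 1 → 3 / 2 * qq g p ≤ fderiv ℝ (qq g) p (p.1 - p.2, 0)
  ry : ∀ p : V n × V n, ‖p.1 - p.2‖ ≤ 1 → 3 / 2 * qq g p ≤ fderiv ℝ (qq g) p (0, p.2 - p.1)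

end Vale.Agent.P088F.Dd
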