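import Vale.Agent.P088F.DTh1

/-! P088F, part D: the cross lemma for ellipsoids. -/

open scoped ContDiff Topology RealInnerProductSpace
open Set Filter Metric

noncomputable section

namespace Vale.Agent.P088F.Dd

open Vale.Agent.P292E

variable {n : ℕ} {ι : Type} [Fintype ι] [DecidableEq ι]

theorem dec_eta {μ T : ℝ} (hμ : 0 < μ) (hT : 1 ≤ T) : ∃ η : ℝ, 0 < η ∧ η ≤ 1 ∧
    Real.exp (-μ * 1 ^ 2) + Real.exp (-μ * (T + 1 / 2) ^ 2) <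
      Real.exp (-μ * (1 + η) ^ 2) + Real.exp (-μ * T ^ 2) := by
  have h1 : Real.exp (-μ * (T + 1 / 2) ^ 2) < Real.exp (-μ * T ^ 2) :=
    Real.exp_lt_exp.2 (by nlinarith)
  have hc : Continuous fun η : ℝ => Real.exp (-μ * (1 + η) ^ 2) + Real.exp (-μ * T ^ 2) := by
    fun_prop
  have h2 : ∀ᶠ η in 𝓝 (0 : ℝ), Real.exp (-μ * 1 ^ 2) + Real.exp (-μ * (T + 1 / 2) ^ 2) <
      Real.exp (-μ * (1 + η) ^ 2) + Real.exp (-μ * T ^ 2) :=
    (hc.tendsto 0).eventually (lt_mem_nhds (by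
      rw [add_zero]
      linarith))
  obtain ⟨η, h3, h4⟩ := ((h2.filter_mono nhdsWithin_le_nhds).and
    (Ioc_mem_nhdsGT (one_pos : (0 : ℝ) < 1))).exists
  exact ⟨η, h4.1, h4.2, h3⟩

theorem dec_le {μ s t : ℝ} (hμ : 0 < μ) (hs : 0 ≤ s) (h : s ≤ t) :
    Real.exp (-μ * t ^ 2) ≤ Real.exp (-μ * s ^ 2) := by
  have h1 := mul_le_mul_of_nonneg_left (pow_le_pow_left₀ hs h 2) hμ.le
  exact Real.exp_le_exp.2 (by linarith)

theorem dec_move {A : V n →L[ℝ] V n} {M : ℝ} (hA : ‖A‖ ≤ M) (hM : 1 ≤ M) (x₀ : V n) {x y : V n}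
    (h : ‖x - y‖ < 2 * (1 / (8 * M))) : |‖A (x - x₀)‖ - ‖A (y - x₀)‖| ≤ 1 / 4 := by
  refine (abs_norm_sub_norm_le _ _).trans ?_
  rw [← map_sub, sub_sub_sub_cancel_right]
  refine (A.le_opNorm _).trans ((mul_le_mul hA h.le (norm_nonneg _) (by linarith)).trans
    (le_of_eq ?_))
  have : M ≠ 0 := by linarith
  field_simp
  norm_num

theorem ec (h : FPUSH n ι) : EC n ι := by
  obtain ⟨K, hK⟩ := h
  intro D T hT
  have hμ : 0 < 2 * D ^ 2 + 1 := by positivity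
  obtain ⟨η, hη0, hη1, hη⟩ := dec_eta hμ hT
  refine ⟨η, hη0, hη1, fun M => ?_⟩
  obtain ⟨M₁, hM, hM1⟩ : ∃ M₁ : ℝ, M ≤ M₁ ∧ 1 ≤ M₁ := ⟨max M 1, le_max_left _ _, le_max_right _ _⟩
  have hM0 : 0 < M₁ := by linarith
  obtain ⟨B, hB⟩ := th1_bd (n := n) (2 * D ^ 2 + 1) (T + 1) M₁
  obtain ⟨ε, C, hε, hC, hp⟩ := hK (max B ((2 * D ^ 2 + 1) * M₁ * (T + 1)))
    (Real.exp (-(2 * D ^ 2 + 1) * (T + 1) ^ 2) / M₁ ^ 2) (1 / (8 * M₁)) (by positivity)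
    (by positivity)
  refine ⟨K, ε, C, hε, hC, fun P Q A A' a b a' b' x₀ y₀ S S' W hP hQ nP nQ hA hA' ha hb ha' hb'
    hD hD' hS hS' h1 h1' hW => ?_⟩
  have nA : ‖A‖ ≤ M₁ := hA.1.trans (ha.trans hM)
  have nA' : ‖A'‖ ≤ M₁ := hA'.1.trans (ha'.trans hM)
  set Θ := th1 (2 * D ^ 2 + 1) A A' x₀ y₀ with hΘ
  set Z := EE A A' x₀ y₀ (T + 1) (T + 1) with hZ
  set O := {p ∈ Z | p.1 ∈ S ∨ p.2 ∈ S'} with hO
  set s := Real.exp (-(2 * D ^ 2 + 1) * 1 ^ 2) + Real.exp (-(2 * D ^ 2 + 1) * (T + 1 / 2) ^ 2)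
    with hs
  have oZ : IsOpen Z := by
    have c1 : Continuous fun p : V n × V n => ‖A (p.1 - x₀)‖ := by fun_prop
    have c2 : Continuous fun p : V n × V n => ‖A' (p.2 - y₀)‖ := by fun_prop
    exact (isOpen_lt c1 (continuous_const (y := T + 1))).inter
      (isOpen_lt c2 (continuous_const (y := T + 1)))
  have key : ∀ z ∈ Unk Θ Z O s, ∀ q ∈ ball z (2 * (1 / (8 * M₁))),
      q ∈ Z ∧ 3 / 4 ≤ ‖A (q.1 - x₀)‖ ∧ 3 / 4 ≤ ‖A' (q.2 - y₀)‖ := by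
    intro z hz q hq
    have g1 : 1 ≤ ‖A (z.1 - x₀)‖ := not_lt.1 fun g => hz.2.2 ⟨hz.1, Or.inl (h1 _ g)⟩
    have g2 : 1 ≤ ‖A' (z.2 - y₀)‖ := not_lt.1 fun g => hz.2.2 ⟨hz.1, Or.inr (h1' _ g)⟩
    have g0 : s < Real.exp (-(2 * D ^ 2 + 1) * ‖A (z.1 - x₀)‖ ^ 2) +
        Real.exp (-(2 * D ^ 2 + 1) * ‖A' (z.2 - y₀)‖ ^ 2) := hz.2.1
    have g3 : ‖A (z.1 - x₀)‖ < T + 1 / 2 := not_le.1 fun g => by
      have e1 := dec_le hμ (by linarith) g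
      have e2 := dec_le hμ zero_le_one g2
      linarith
    have g4 : ‖A' (z.2 - y₀)‖ < T + 1 / 2 := not_le.1 fun g => by
      have e1 := dec_le hμ (by linarith) g
      have e2 := dec_le hμ zero_le_one g1
      linarith
    have g5 : ‖q - z‖ < 2 * (1 / (8 * M₁)) := mem_ball_iff_norm.1 hq
    have g6 := abs_le.1 (dec_move nA hM1 x₀ (x := q.1) (y := z.1)
      ((norm_fst_le (q - z)).trans_lt g5))
    have g7 := abs_le.1 (dec_move nA' hM1 y₀ (x := q.2) (y := z.2)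
      ((norm_snd_le (q - z)).trans_lt g5))
    exact ⟨⟨by linarith [g6.2], by linarith [g7.2]⟩, by linarith [g6.1], by linarith [g7.1]⟩
  have fl := fun z (hz : z ∈ Unk Θ Z O s) q (hq : q ∈ ball z (2 * (1 / (8 * M₁)))) =>
    th1_fl hA hA' (ha.trans hM) (hb.trans hM) (ha'.trans hM) (hb'.trans hM) hD hD'
      (key z hz q hq).1 (key z hz q hq).2.1 (key z hz q hq).2.2
  have hc : Real.exp (-(2 * D ^ 2 + 1) * (T + 1) ^ 2) / M₁ ^ 2 ≤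
      Real.exp (-(2 * D ^ 2 + 1) * (T + 1) ^ 2) / M₁ :=
    div_le_div_of_nonneg_left (Real.exp_pos _).le hM0 (le_self_pow₀ hM1 two_ne_zero)
  have hr : (0 : ℝ) < 1 / (8 * M₁) := by positivity
  have hsub : ∀ z : V n × V n, ball z (1 / (8 * M₁)) ⊆ ball z (2 * (1 / (8 * M₁))) := fun z =>
    ball_subset_ball (by linarith)
  have seg : ∀ z ∈ Unk Θ Z O s, ∀ q ∈ ball z (1 / (8 * M₁)), ∀ v : V n × V n, ‖v‖ ≤ 1 →
      ∀ τ ∈ Icc (0 : ℝ) (1 / (8 * M₁)), q + τ • v ∈ Z := by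
    intro z hz q hq v hv τ hτ
    refine (key z hz _ (mem_ball_iff_norm.2 ?_)).1
    have g1 : ‖q - z‖ < 1 / (8 * M₁) := mem_ball_iff_norm.1 hq
    have g2 : ‖τ • v‖ ≤ 1 / (8 * M₁) := by
      rw [norm_smul, Real.norm_of_nonneg hτ.1]
      exact (mul_le_of_le_one_right hτ.1 hv).trans hτ.2
    have g3 := norm_add_le (q - z) (τ • v)
    rw [add_sub_right_comm]
    linarith
  have hDG : DG Θ Z O s (1 / (8 * M₁)) (max B ((2 * D ^ 2 + 1) * M₁ * (T + 1)))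
      (Real.exp (-(2 * D ^ 2 + 1) * (T + 1) ^ 2) / M₁ ^ 2) := by
    refine ⟨oZ, oZ.inter ((hS.preimage continuous_fst).union (hS'.preimage continuous_snd)),
      (th1_sm _ A A' x₀ y₀).continuous.continuousOn, fun z hz q hq => (key z hz q hq).1,
      fun z _ => (th1_sm _ A A' x₀ y₀).contDiffOn,
      fun z hz q hq i hi => (hB A A' x₀ y₀ nA nA' q (key z hz q hq).1 i hi).trans (le_max_left _ _),
      fun z hz q hq => (fl z hz q hq).1.imp fun v hv => ⟨hv.1, hc.trans hv.2⟩,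
      fun z hz q hq => (fl z hz q hq).2.1.imp fun v hv => ⟨hv.1, hc.trans hv.2⟩,
      fun z hz q hq hqO => ?_⟩
    rcases hqO.2 with g | g
    · obtain ⟨v, hv, hv'⟩ := (fl z hz q (hsub z hq)).2.1
      have hn : ‖((0 : V n), v)‖ ≤ 1 := by
        rw [Prod.norm_def, norm_zero]
        exact max_le zero_le_one hv
      refine ⟨(0, v), hn, Or.inl rfl, hc.trans hv', fun τ hτ =>
        ⟨seg z hz q hq _ hn τ hτ, Or.inl ?_⟩⟩
      simpa using g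
    · obtain ⟨v, hv, hv'⟩ := (fl z hz q (hsub z hq)).1
      have hn : ‖(v, (0 : V n))‖ ≤ 1 := by
        rw [Prod.norm_def, norm_zero]
        exact max_le hv zero_le_one
      refine ⟨(v, 0), hn, Or.inr rfl, hc.trans hv', fun τ hτ =>
        ⟨seg z hz q hq _ hn τ hτ, Or.inr ?_⟩⟩
      simpa using g
  have hFL : FLN Θ Z O s (1 / (8 * M₁)) (max B ((2 * D ^ 2 + 1) * M₁ * (T + 1)))
      (Real.exp (-(2 * D ^ 2 + 1) * (T + 1) ^ 2) / M₁ ^ 2) := by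
    intro z hz q hq
    obtain ⟨w, w', g1, g2, g3⟩ := (fl z hz q (hsub z hq)).2.2
    exact ⟨w, w', g1.trans (le_max_right _ _), g2.trans (le_max_right _ _), g3⟩
  obtain ⟨W', g1, g2, g3⟩ := hp P Q Θ Z O s W hP hQ nP nQ hDG hFL hW
  have hE : EE A A' x₀ y₀ (1 + η) T ⊆ Up Θ Z O s := by
    intro p hp
    have e1 : ‖A (p.1 - x₀)‖ < 1 + η := hp.1
    have e2 : ‖A' (p.2 - y₀)‖ < T := hp.2
    refine Or.inr ⟨⟨by linarith, by linarith⟩, hη.trans_le ?_⟩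
    exact add_le_add (dec_le hμ (norm_nonneg _) e1.le) (dec_le hμ (norm_nonneg _) e2.le)
  exact ⟨W', g1.mono hE, fun p hp => g2 p ⟨hp.1, hE hp.2⟩,
    fun A₀ h0 hb => (g3 A₀ h0 hb).mono hE le_rfl⟩

end Vale.Agent.P088F.Dd
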