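import Vale.Agent.P088F.DDefs

/-! P088F, part D: the ellipsoid of the first stage. -/

open scoped ContDiff Topology RealInnerProductSpace
open Set Filter Metric

noncomputable section

namespace Vale.Agent.P088F.Dd

open Vale.Agent.P292E

variable {n : ℕ} {ι : Type} [Fintype ι] [DecidableEq ι]

/-- scaling by `β` along `ν` and by `α` across it -/
def dellT (ν : V n) (α β : ℝ) : V n →L[ℝ] V n :=
  α • ContinuousLinearMap.id ℝ (V n) + (β - α) • (innerSL ℝ ν).smulRight ν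

theorem dell_app (ν : V n) (α β : ℝ) (v : V n) :
    dellT ν α β v = α • (v - ⟪ν, v⟫ • ν) + (β * ⟪ν, v⟫) • ν := by
  have : dellT ν α β v = α • v + (β - α) • ⟪ν, v⟫ • ν := rfl
  rw [this]
  module

theorem dell_orth {ν : V n} (hν : ‖ν‖ = 1) (v : V n) : ⟪ν, v - ⟪ν, v⟫ • ν⟫ = 0 := by
  rw [inner_sub_right, real_inner_smul_right, real_inner_self_eq_norm_sq, hν]
  ring

theorem dell_sq {ν : V n} (hν : ‖ν‖ = 1) (α β : ℝ) (v : V n) :
    ‖dellT ν α β v‖ ^ 2 = α ^ 2 * ‖v - ⟪ν, v⟫ • ν‖ ^ 2 + β ^ 2 * ⟪ν, v⟫ ^ 2 := by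
  rw [dell_app, norm_add_sq_real, real_inner_smul_left, real_inner_smul_right,
    real_inner_comm ν (v - ⟪ν, v⟫ • ν), dell_orth hν, norm_smul, norm_smul, hν, Real.norm_eq_abs,
    Real.norm_eq_abs, mul_pow, mul_pow, sq_abs, sq_abs]
  ring

theorem dell_comp {ν : V n} (hν : ‖ν‖ = 1) {α β α' β' : ℝ} (h : α * α' = 1) (h' : β * β' = 1)
    (v : V n) : dellT ν α β (dellT ν α' β' v) = v := by
  have h1 : ⟪ν, dellT ν α' β' v⟫ = β' * ⟪ν, v⟫ := by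
    rw [dell_app, inner_add_right, real_inner_smul_right, real_inner_smul_right, dell_orth hν,
      real_inner_self_eq_norm_sq, hν]
    ring
  rw [dell_app ν α β, h1, dell_app, add_sub_cancel_right, smul_smul, ← mul_assoc, h, h', one_smul,
    one_mul, sub_add_cancel]

theorem dell_le {ν : V n} (hν : ‖ν‖ = 1) {α β c : ℝ} (h0 : 0 ≤ α) (h0' : 0 ≤ β) (h : α ≤ c)
    (h' : β ≤ c) (v : V n) : ‖dellT ν α β v‖ ≤ c * ‖v‖ := by
  have e1 := dell_sq hν α β v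
  have e2 := dell_sq hν 1 1 v
  have e3 : dellT ν 1 1 v = v := by rw [dell_app, one_smul, one_mul, sub_add_cancel]
  rw [e3] at e2
  have hc : 0 ≤ c := h0.trans h
  refine abs_le_of_sq_le_sq' ?_ (by positivity) |>.2
  have a1 : α ^ 2 ≤ c ^ 2 := by gcongr
  have a2 : β ^ 2 ≤ c ^ 2 := by gcongr
  have a3 := mul_le_mul_of_nonneg_right a1 (sq_nonneg ‖v - ⟪ν, v⟫ • ν‖)
  have a4 := mul_le_mul_of_nonneg_right a2 (sq_nonneg ⟪ν, v⟫)
  rw [e1, mul_pow, e2]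
  linarith

theorem dell_dir [NeZero n] (hn : 3 ≤ n) (d : V n) :
    ∃ h : V n, ‖h‖ = 1 ∧ h 0 = 0 ∧ 0 ≤ ⟪h, d⟫ := by
  let j : Fin n := ⟨1, by omega⟩
  have hj : (0 : Fin n) ≠ j := fun h => by simpa [j] using congrArg Fin.val h
  have n1 : ‖(ee j : V n)‖ = 1 := by simp [ee]
  have n2 : (ee j : V n) 0 = 0 := by simp [ee, hj]
  rcases le_total 0 ⟪(ee j : V n), d⟫ with h | h
  · exact ⟨ee j, n1, n2, h⟩
  · refine ⟨-ee j, by rw [norm_neg, n1], by simp [n2], ?_⟩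
    rw [inner_neg_left]
    linarith

theorem dell_low {h c d w : V n} {L t : ℝ} (hL : 0 < L) (hh : ‖h‖ = 1) (hd : 0 ≤ ⟪h, d⟫)
    (hc : ⟪h, c⟫ = 3 * L) (h1 : 9 / 10 * L ≤ ‖d‖) (h2 : ‖d‖ ≤ 11 / 10 * L)
    (hl : ‖d - c‖ ≤ 43 / 10 * L) (hw : ‖w‖ ≤ L / 10) (ht : t ≤ 11 / 10) :
    L / 5 ≤ ‖c + t • (d - c) + w‖ := by
  rcases le_total t (9 / 10) with h9 | h9
  · have a1 := real_inner_le_norm h (c + t • (d - c) + w)
    have a2 := (abs_le.1 (abs_real_inner_le_norm h w)).1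
    have a3 := real_inner_le_norm h d
    rw [inner_add_right, inner_add_right, real_inner_smul_right, inner_sub_right, hc] at a1
    rw [hh, one_mul] at a1 a2 a3
    have a4 : 0 ≤ (9 / 10 - t) * (3 * L - ⟪h, d⟫) := mul_nonneg (by linarith) (by linarith)
    nlinarith
  · have e : d = (c + t • (d - c) + w) - ((t - 1) • (d - c) + w) := by module
    have a1 : ‖d‖ ≤ ‖c + t • (d - c) + w‖ + ‖(t - 1) • (d - c) + w‖ := by
      conv_lhs => rw [e]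
      exact norm_sub_le _ _
    have a2 := norm_add_le ((t - 1) • (d - c)) w
    have a3 : |t - 1| ≤ 1 / 10 := abs_le.2 ⟨by linarith, by linarith⟩
    have a4 : |t - 1| * ‖d - c‖ ≤ 1 / 10 * (43 / 10 * L) := by gcongr
    rw [norm_smul, Real.norm_eq_abs] at a2
    linarith

omit [Fintype ι] [DecidableEq ι] in
theorem ell_geo [NeZero n] (hn : 3 ≤ n) (x y : V n) (L : ℝ) (hL : 0 < L) (hx : x 0 = 0)
    (h1 : 9 / 10 * L ≤ ‖y - x‖) (h2 : ‖y - x‖ ≤ 11 / 10 * L) :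
    ∃ (A : V n →L[ℝ] V n) (b : ℝ) (y₁ : V n), Ell A (420 / L) b ∧ b ≤ 50 / 420 * L ∧
      ‖A (y - y₁)‖ < 41 ∧ (∀ y', ‖A (y' - y₁)‖ < 1 → y' 0 < 0) ∧
      ∀ y', ‖A (y' - y₁)‖ < 42 → L / 5 ≤ ‖y' - x‖ ∧ ‖y' - x‖ ≤ 10 * L := by
  obtain ⟨h, hh, h0, hd⟩ := dell_dir hn (y - x)
  have he : ⟪h, (ee 0 : V n)⟫ = 0 := by
    rw [ee, EuclideanSpace.inner_single_right, h0]
    simp
  have ne : ‖(ee 0 : V n)‖ = 1 := by simp [ee]
  obtain ⟨c, hc⟩ : ∃ c : V n, c = (3 * L) • h - L • ee 0 := ⟨_, rfl⟩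
  have c0 : c 0 = -L := by simp [hc, h0, ee]
  have ch : ⟪h, c⟫ = 3 * L := by
    rw [hc, inner_sub_right, real_inner_smul_right, real_inner_smul_right, he,
      real_inner_self_eq_norm_sq, hh]
    ring
  have c2 : ‖c‖ ^ 2 = 10 * L ^ 2 := by
    rw [hc, norm_sub_sq_real, real_inner_smul_left, real_inner_smul_right, he, norm_smul,
      norm_smul, hh, ne, Real.norm_eq_abs, Real.norm_eq_abs, mul_one, mul_one, sq_abs, sq_abs]
    ring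
  have cu : ‖c‖ ≤ 32 / 10 * L :=
    (abs_le_of_sq_le_sq' (by rw [c2]; nlinarith [sq_nonneg L]) (by positivity)).2
  have cl : 3 * L ≤ ‖c‖ :=
    (abs_le_of_sq_le_sq' (by rw [c2]; nlinarith [sq_nonneg L]) (norm_nonneg _)).2
  obtain ⟨g, hg⟩ : ∃ g : V n, g = y - x - c := ⟨_, rfl⟩
  have lu : ‖g‖ ≤ 43 / 10 * L := by
    have := norm_sub_le (y - x) c
    rw [hg]
    linarith
  have ll : 19 / 10 * L ≤ ‖g‖ := by
    have := norm_sub_norm_le c (y - x)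
    rw [hg, norm_sub_rev]
    linarith
  have l0 : 0 < ‖g‖ := by linarith
  obtain ⟨ν, hν⟩ : ∃ ν : V n, ν = ‖g‖⁻¹ • g := ⟨_, rfl⟩
  have nν : ‖ν‖ = 1 := by
    rw [hν, norm_smul, norm_inv, norm_norm, inv_mul_cancel₀ l0.ne']
  have gν : ⟪ν, g⟫ = ‖g‖ := by
    rw [hν, real_inner_smul_left, real_inner_self_eq_norm_sq]
    field_simp
  have gν' : ‖g‖ • ν = g := by rw [hν, smul_smul, mul_inv_cancel₀ l0.ne', one_smul]
  have i1 : 420 / L * (L / 420) = 1 := by field_simp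
  have i2 : 40 / ‖g‖ * (‖g‖ / 40) = 1 := by field_simp
  have b1 : ∀ u, ‖dellT ν (L / 420) (‖g‖ / 40) u‖ ≤ ‖g‖ / 40 * ‖u‖ :=
    dell_le nν (by positivity) (by positivity) (by linarith) le_rfl
  refine ⟨dellT ν (420 / L) (40 / ‖g‖), ‖g‖ / 40, x + c, ⟨?_, by positivity, fun u =>
    ⟨_, dell_comp nν i1 i2 u, b1 u⟩⟩, by linarith, ?_, fun y' hy => ?_, fun y' hy => ?_⟩
  · refine ContinuousLinearMap.opNorm_le_bound _ (by positivity)
      (dell_le nν (by positivity) (by positivity) le_rfl ?_)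
    rw [div_le_div_iff₀ l0 hL]
    linarith
  · refine abs_lt_of_sq_lt_sq' ?_ (by norm_num) |>.2
    rw [← sub_sub, ← hg, dell_sq nν, gν, gν', sub_self, norm_zero, div_pow (40 : ℝ),
      div_mul_cancel₀ _ (by positivity)]
    norm_num
  · have a1 := b1 (dellT ν (420 / L) (40 / ‖g‖) (y' - (x + c)))
    rw [dell_comp nν (by rw [mul_comm, i1]) (by rw [mul_comm, i2])] at a1
    have a2 : ‖g‖ / 40 * ‖dellT ν (420 / L) (40 / ‖g‖) (y' - (x + c))‖ ≤ ‖g‖ / 40 * 1 := by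
      gcongr
    have a3 := (abs_le.1 (PiLp.norm_apply_le (y' - (x + c)) 0)).2
    simp only [PiLp.sub_apply, PiLp.add_apply, hx, c0] at a3
    linarith
  · obtain ⟨w, hw⟩ : ∃ w : V n, w = y' - (x + c) := ⟨_, rfl⟩
    rw [← hw] at hy
    have a0 : ‖dellT ν (420 / L) (40 / ‖g‖) w‖ ^ 2 ≤ 42 ^ 2 := by gcongr
    rw [dell_sq nν, ← mul_pow, ← mul_pow] at a0
    have a1 : 420 / L * ‖w - ⟪ν, w⟫ • ν‖ ≤ 42 :=
      (abs_le_of_sq_le_sq' (by linarith [sq_nonneg (40 / ‖g‖ * ⟪ν, w⟫)]) (by norm_num)).2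
    have a2 : |40 / ‖g‖ * ⟪ν, w⟫| ≤ 42 := abs_le.2
      (abs_le_of_sq_le_sq' (by linarith [sq_nonneg (420 / L * ‖w - ⟪ν, w⟫ • ν‖)]) (by norm_num))
    have a3 : ‖w - ⟪ν, w⟫ • ν‖ ≤ L / 10 := by
      rw [div_mul_eq_mul_div, div_le_iff₀ hL] at a1
      linarith
    have a4 : |⟪ν, w⟫ / ‖g‖| ≤ 21 / 20 := by
      rw [show 40 / ‖g‖ * ⟪ν, w⟫ = 40 * (⟪ν, w⟫ / ‖g‖) by ring, abs_mul,
        abs_of_pos (by norm_num : (0 : ℝ) < 40)] at a2
      linarith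
    have e : y' - x = c + (⟪ν, w⟫ / ‖g‖) • g + (w - ⟪ν, w⟫ • ν) := by
      have : (⟪ν, w⟫ / ‖g‖) • g = ⟪ν, w⟫ • ν := by
        conv_rhs => rw [hν, smul_smul, ← hν, ← div_eq_mul_inv]
      rw [this, add_assoc, add_sub_cancel, hw]
      abel
    rw [e]
    refine ⟨?_, ?_⟩
    · have := dell_low (w := w - ⟪ν, w⟫ • ν) (t := ⟪ν, w⟫ / ‖g‖) hL hh hd ch h1 h2
        (hg ▸ lu) a3 (by linarith [(abs_le.1 a4).2])
      rwa [← hg] at this
    · have a5 := norm_add₃_le (a := c) (b := (⟪ν, w⟫ / ‖g‖) • g) (c := w - ⟪ν, w⟫ • ν)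
      have a6 : |⟪ν, w⟫ / ‖g‖| * ‖g‖ ≤ 21 / 20 * (43 / 10 * L) := by gcongr
      rw [norm_smul, Real.norm_eq_abs] at a5
      linarith

end Vale.Agent.P088F.Dd
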