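import Vale.Agent.P088F.Mono
import Vale.Agent.P292E.BdC

/-! P088F, part F: cut-off calculus and the height function. -/

open scoped ContDiff Topology ENNReal
open Set Filter MeasureTheory Metric

noncomputable section

namespace Vale.Agent.P088F

open Vale.Agent.P292E

variable {n : ℕ} {ι : Type} [Fintype ι]

theorem fb_pd_ev {f g : V n → ℂ} {x : V n} (h : f =ᶠ[𝓝 x] g) (j : Fin n) :
    pd j f =ᶠ[𝓝 x] pd j g := (h.fderiv (𝕜 := ℝ)).mono fun y hy => by simp only [pd, hy]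

theorem ap_congr (L : Op n ι) {u v : Fam n ι} {x : V n} (h : ∀ l, u l =ᶠ[𝓝 x] v l) (l : ι) :
    L.ap u l x = L.ap v l x := by
  simp only [Op.ap, fun m j => (fb_pd_ev (h m) j).eq_of_nhds, fun m => (h m).eq_of_nhds,
    fun j k => (fb_pd_ev (fb_pd_ev (h l) k) j).eq_of_nhds]

theorem fb_pd_zero (j : Fin n) : pd j (fun _ : V n => (0 : ℂ)) = fun _ => 0 := by
  funext x
  simp [pd]

theorem ap_zero (L : Op n ι) {u : Fam n ι} {x : V n} (h : ∀ l, u l =ᶠ[𝓝 x] fun _ => 0) (l : ι) :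
    L.ap u l x = 0 := by
  rw [ap_congr L (v := fun _ _ => 0) h]
  simp [Op.ap, fb_pd_zero]

theorem fb_pd_mul {f g : V n → ℂ} {x : V n} (hf : DifferentiableAt ℝ f x)
    (hg : DifferentiableAt ℝ g x) (j : Fin n) :
    pd j (fun y => f y * g y) x = pd j f x * g x + f x * pd j g x := by
  simp only [pd, fderiv_fun_mul hf hg, add_apply, smul_apply, smul_eq_mul]
  ring

theorem fb_pd_at {f : V n → ℂ} {x : V n} (hf : ContDiffAt ℝ 2 f x) (j : Fin n) :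
    DifferentiableAt ℝ (pd j f) x :=
  ((hf.fderiv_right (m := 1) le_rfl).clm_apply contDiffAt_const).differentiableAt one_ne_zero

theorem fb_pd2_mul {f g : V n → ℂ} {x : V n} (hf : ContDiffAt ℝ 2 f x) (hg : ContDiffAt ℝ 2 g x)
    (j k : Fin n) : pd j (pd k fun y => f y * g y) x =
      pd j (pd k f) x * g x + pd k f x * pd j g x + (pd j f x * pd k g x + f x * pd j (pd k g) x) := by
  have e : pd k (fun y => f y * g y) =ᶠ[𝓝 x] fun y => pd k f y * g y + f y * pd k g y := by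
    filter_upwards [hf.eventually (by simp), hg.eventually (by simp)] with y h1 h2
    exact fb_pd_mul (h1.differentiableAt two_ne_zero) (h2.differentiableAt two_ne_zero) k
  have d1 := hf.differentiableAt two_ne_zero
  have d2 := hg.differentiableAt two_ne_zero
  rw [(fb_pd_ev e j).eq_of_nhds, ← fb_pd_mul (fb_pd_at hf k) d2, ← fb_pd_mul d1 (fb_pd_at hg k)]
  exact congrArg (fun T : V n →L[ℝ] ℂ => T (ee j))
    (fderiv_fun_add ((fb_pd_at hf k).mul d2) (d1.mul (fb_pd_at hg k)))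

/-- the commutator with a cut-off function -/
theorem ap_cut {L : Op n ι} {u : Fam n ι} {ζ : V n → ℂ} {x : V n} {M Z A : ℝ}
    (hu : ∀ l, ContDiffAt ℝ 2 (u l) x) (hζ : ContDiffAt ℝ 2 ζ x) (hM : 0 ≤ M) (hZ : 0 ≤ Z)
    (hg : ∀ j k, |L.g j k x| ≤ M) (ha : ∀ j l m, ‖L.a j l m x‖ ≤ M)
    (z1 : ∀ j, ‖pd j ζ x‖ ≤ Z) (z2 : ∀ j k, ‖pd j (pd k ζ) x‖ ≤ Z)
    (u0 : ∀ l, ‖u l x‖ ≤ A) (u1 : ∀ l j, ‖pd j (u l) x‖ ≤ A) (l : ι) :
    ‖L.ap (fun m y => ζ y * u m y) l x - ζ x * L.ap u l x‖ ≤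
      (3 * n ^ 2 + Fintype.card ι * n) * M * Z * A := by
  have e : L.ap (fun m y => ζ y * u m y) l x - ζ x * L.ap u l x =
      ∑ j, ∑ k, L.gc j k x * (pd j (pd k ζ) x * u l x + pd k ζ x * pd j (u l) x +
        pd j ζ x * pd k (u l) x) + ∑ m, ∑ j, L.a j l m x * (pd j ζ x * u m x) := by
    simp only [Op.ap, fb_pd2_mul hζ (hu l), fun m j => fb_pd_mul (hζ.differentiableAt two_ne_zero)
      ((hu m).differentiableAt two_ne_zero) j, mul_add, Finset.mul_sum, Finset.sum_add_distrib,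
      mul_left_comm (ζ x)]
    ring
  have b : ∀ {p q : ℂ}, ‖p‖ ≤ Z → ‖q‖ ≤ A → ‖p * q‖ ≤ Z * A := fun h1 h2 =>
    (norm_mul_le _ _).trans (mul_le_mul h1 h2 (norm_nonneg _) hZ)
  have b' : ∀ {p q : ℂ} {r : ℝ}, ‖p‖ ≤ M → ‖q‖ ≤ r → ‖p * q‖ ≤ M * r := fun h1 h2 =>
    (norm_mul_le _ _).trans (mul_le_mul h1 h2 (norm_nonneg _) hM)
  rw [e]
  refine (norm_add_le _ _).trans ((add_le_add ((norm_sum_le _ _).trans (Finset.sum_le_sum
    fun j _ => (norm_sum_le _ _).trans (Finset.sum_le_sum fun k _ => b' (r := Z * A + Z * A + Z * A)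
      (by simpa [Op.gc] using hg j k) ((norm_add₃_le).trans (add_le_add (add_le_add
        (b (z2 j k) (u0 l)) (b (z1 k) (u1 l j))) (b (z1 j) (u1 l k)))))))
    ((norm_sum_le _ _).trans (Finset.sum_le_sum fun m _ => (norm_sum_le _ _).trans
      (Finset.sum_le_sum fun j _ => b' (ha j l m) (b (z1 j) (u0 m)))))).trans (le_of_eq ?_))
  simp only [Finset.sum_const, Finset.card_univ, Fintype.card_fin, nsmul_eq_mul]
  ring

theorem fb_pd1 {f : V n → ℂ} {x : V n} {Z : ℝ} (h : ‖iteratedFDeriv ℝ 1 f x‖ ≤ Z) (j : Fin n) :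
    ‖pd j f x‖ ≤ Z := by
  rw [← norm_iteratedFDeriv_fderiv, norm_iteratedFDeriv_zero] at h
  refine ((fderiv ℝ f x).le_opNorm _).trans ?_
  simpa [ee] using h

theorem fb_pd2 {f : V n → ℂ} {x : V n} {Z : ℝ} (hf : ContDiffAt ℝ 2 f x)
    (h : ‖iteratedFDeriv ℝ 2 f x‖ ≤ Z) (j k : Fin n) : ‖pd j (pd k f) x‖ ≤ Z := by
  rw [← norm_iteratedFDeriv_fderiv, ← norm_iteratedFDeriv_fderiv, norm_iteratedFDeriv_zero] at h
  have d := (hf.fderiv_right (m := 1) le_rfl).differentiableAt one_ne_zero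
  have e : pd j (pd k f) x = fderiv ℝ (fderiv ℝ f) x (ee j) (ee k) := by
    show fderiv ℝ (fun y => fderiv ℝ f y (ee k)) x (ee j) = _
    rw [fderiv_clm_apply d (differentiableAt_const _)]
    simp
  rw [e]
  refine ((fderiv ℝ (fderiv ℝ f) x).le_opNorm₂ _ _).trans ?_
  simpa [ee] using h

/-- extension by zero -/
theorem tst_ind {E : Type} [NormedAddCommGroup E] [NormedSpace ℝ E] {D K : Set E} {f : E → ℂ}
    (hD : IsOpen D) (hK : IsCompact K) (hKD : K ⊆ D) (hf : ContDiffOn ℝ ∞ f D)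
    (h0 : ∀ x ∈ D, x ∉ K → f x = 0) : ContDiff ℝ ∞ (D.indicator f) ∧
      HasCompactSupport (D.indicator f) ∧ tsupport (D.indicator f) ⊆ K := by
  have z : ∀ x ∉ K, D.indicator f x = 0 := fun x hx => indicator_apply_eq_zero.2 fun h => h0 x h hx
  refine ⟨contDiff_iff_contDiffAt.2 fun x => ?_, HasCompactSupport.intro hK z,
    closure_minimal (fun x hx => by_contra fun h => hx (z x h)) hK.isClosed⟩
  by_cases hx : x ∈ K
  · exact (hf.contDiffAt (hD.mem_nhds (hKD hx))).congr_of_eventuallyEq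
      (Filter.mem_of_superset (hD.mem_nhds (hKD hx)) fun y hy => indicator_of_mem hy f)
  · exact contDiffAt_const.congr_of_eventuallyEq
      (Filter.mem_of_superset (hK.isClosed.isOpen_compl.mem_nhds hx) z)

section near
variable {g : Mf n} {x : V n} {ε : ℝ}

theorem fb_co (x : V n) (j : Fin n) : |x j| ≤ ‖x‖ := PiLp.norm_apply_le x j

theorem fb_gv (h : ∀ j k, |g j k x - if j = k then 1 else 0| ≤ ε) (ξ : V n) :
    ‖gv g x ξ - ξ‖ ≤ n ^ 2 * ε * ‖ξ‖ := by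
  have h1 : ∀ j, |(gv g x ξ - ξ) j| ≤ n * (ε * ‖ξ‖) := fun j => by
    have e : (gv g x ξ - ξ) j = ∑ k, (g j k x - if j = k then 1 else 0) * ξ k := by
      simp [gv, sub_mul]
    rw [e]
    refine (Finset.abs_sum_le_sum_abs _ _).trans ((Finset.sum_le_sum fun k _ =>
      (abs_mul _ _).trans_le (mul_le_mul (h j k) (fb_co ξ k) (abs_nonneg _)
        ((abs_nonneg _).trans (h j k)))).trans (le_of_eq (by simp)))
  have h2 : gv g x ξ - ξ = ∑ j, (gv g x ξ - ξ) j • ee j := by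
    simpa [ee] using ((EuclideanSpace.basisFun (Fin n) ℝ).sum_repr (gv g x ξ - ξ)).symm
  rw [h2]
  refine (norm_sum_le _ _).trans ((Finset.sum_le_sum fun j _ => (norm_smul_le _ _).trans
    (show _ ≤ n * (ε * ‖ξ‖) by simpa [ee] using h1 j)).trans (le_of_eq ?_))
  simp only [Finset.sum_const, Finset.card_univ, Fintype.card_fin, nsmul_eq_mul]
  ring

theorem fb_ip (g : Mf n) (x ξ η : V n) : ip g x ξ η = inner ℝ (gv g x η) ξ := by
  simp only [ip, gv, PiLp.inner_apply, RCLike.inner_apply, conj_trivial, Finset.mul_sum]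
  exact Finset.sum_congr rfl fun j _ => Finset.sum_congr rfl fun k _ => by ring

theorem fb_ip_le (h : ∀ j k, |g j k x - if j = k then 1 else 0| ≤ ε) (ξ : V n) :
    |ip g x ξ ξ - ‖ξ‖ ^ 2| ≤ n ^ 2 * ε * ‖ξ‖ ^ 2 := by
  rw [fb_ip, ← real_inner_self_eq_norm_sq, ← inner_sub_left, real_inner_self_eq_norm_sq]
  refine (abs_real_inner_le_norm _ _).trans ((mul_le_mul_of_nonneg_right (fb_gv h ξ)
    (norm_nonneg _)).trans (le_of_eq (by ring)))

theorem fb_hsT (hε : 0 ≤ ε) (h : ∀ ξ, ‖gv g x ξ‖ ≤ 2 * ‖ξ‖) (h' : ∀ i j k, |pr i (g j k) x| ≤ ε)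
    (ϖ ξ : V n) : |hsT g x ϖ ξ| ≤ 3 * n ^ 3 * ε * ‖ϖ‖ * ‖ξ‖ ^ 2 := by
  have b : ∀ (p q r : V n) (i j k a b c : Fin n), |gv g x p i * pr j (g k a) x * q b * r c| ≤
      2 * ‖p‖ * ε * ‖q‖ * ‖r‖ := fun p q r i j k a b c => by
    simp only [abs_mul]
    gcongr
    exacts [(fb_co _ _).trans (h p), h' _ _ _, fb_co _ _, fb_co _ _]
  have s : ∀ {F : Fin n → Fin n → Fin n → ℝ} {T : ℝ}, (∀ i j k, |F i j k| ≤ T) →
      |∑ i, ∑ j, ∑ k, F i j k| ≤ n ^ 3 * T := fun hF => by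
    refine (Finset.abs_sum_le_sum_abs _ _).trans ((Finset.sum_le_sum fun i _ =>
      (Finset.abs_sum_le_sum_abs _ _).trans (Finset.sum_le_sum fun j _ =>
        (Finset.abs_sum_le_sum_abs _ _).trans (Finset.sum_le_sum fun k _ => hF i j k))).trans
          (le_of_eq ?_))
    simp only [Finset.sum_const, Finset.card_univ, Fintype.card_fin, nsmul_eq_mul]
    ring
  have h1 := abs_le.1 (s fun i k l => b ξ ϖ ξ i i k l l k)
  have h2 := abs_le.1 (s fun l j k => b ϖ ξ ξ l l j k j k)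
  rw [hsT, abs_le]
  constructor <;> nlinarith [h1.1, h1.2, h2.1, h2.2]

omit [Fintype ι] in
theorem Op.Near.g0 {L : Op n ι} {K : ℕ} (h : L.Near K ε) (x : V n) (j k : Fin n) :
    |L.g j k x - if j = k then 1 else 0| ≤ ε := (h.g j k).norm_le (mem_univ x)

omit [Fintype ι] in
theorem Op.Near.g1 {L : Op n ι} {K : ℕ} (h : L.Near (K + 1) ε) (x : V n) (i j k : Fin n) :
    |pr i (L.g j k) x| ≤ ε := by
  have h1 := (h.g j k).fderiv.norm_le (mem_univ x)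
  rw [fderiv_sub_const] at h1
  refine ((fderiv ℝ (L.g j k) x).le_opNorm _).trans ?_
  simpa [ee] using h1

end near

variable [NeZero n]

/-- the coordinate functional -/
def fbP (n : ℕ) [NeZero n] : V n →L[ℝ] ℝ := EuclideanSpace.proj 0

/-- the inner product -/
def fbI (n : ℕ) : V n →L[ℝ] V n →L[ℝ] ℝ := innerSL ℝ

omit [NeZero n] in
theorem fbI_app (x v : V n) : fbI n x v = inner ℝ x v := rfl

/-- the second derivative of the height function -/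
def fbL (n : ℕ) [NeZero n] (κ : ℝ) : V n →L[ℝ] V n →L[ℝ] ℝ :=
  κ • ((2 : ℝ) • fbI n - (8 : ℝ) • (fbP n).smulRight (fbP n))

theorem fbL_app (κ : ℝ) (x v : V n) : fbL n κ x v = κ * (2 * inner ℝ x v - 8 * (x 0 * v 0)) := by
  simp [fbL, fbP, fbI_app]

theorem psi_smooth (κ : ℝ) : ContDiff ℝ ∞ (psi κ : V n → ℝ) :=
  (fbP n).contDiff.add (contDiff_const.mul ((contDiff_norm_sq ℝ).sub
    (contDiff_const.mul ((fbP n).contDiff.pow 2))))

theorem psi_fd (κ : ℝ) : fderiv ℝ (psi κ) = fun x : V n => fbP n + fbL n κ x := by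
  funext x
  have h1 : HasFDerivAt (fun y : V n => y 0) (fbP n) x := (fbP n).hasFDerivAt
  have h2 := h1.add (((hasStrictFDerivAt_norm_sq x).hasFDerivAt.sub
    ((h1.pow 2).const_mul 4)).const_mul κ)
  refine (HasFDerivAt.fderiv (f := psi κ) h2).trans (ContinuousLinearMap.ext fun v => ?_)
  simp [fbL, fbP, fbI_app]
  exact Or.inl (by ring)

theorem psi_fd2 (κ : ℝ) (x : V n) : fderiv ℝ (fderiv ℝ (psi κ)) x = fbL n κ := by
  rw [psi_fd]
  exact ((fbL n κ).hasFDerivAt.const_add _).fderiv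

theorem psi_gr (κ : ℝ) (x : V n) :
    gr (psi κ) x = ee 0 + κ • ((2 : ℝ) • x - (8 * x 0) • ee 0) := by
  ext j
  simp only [gr, pr, psi_fd, add_apply, fbL_app]
  by_cases h : j = 0
  · subst h
    simp [ee, fbP, EuclideanSpace.inner_single_right]
  · simp [ee, fbP, EuclideanSpace.inner_single_right, h, Ne.symm h]

theorem psi_gr_le {κ : ℝ} (h0 : 0 ≤ κ) (x : V n) : ‖gr (psi κ) x - ee 0‖ ≤ 10 * κ * ‖x‖ := by
  rw [psi_gr, add_sub_cancel_left, norm_smul, Real.norm_of_nonneg h0]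
  have h1 := norm_sub_le ((2 : ℝ) • x) ((8 * x 0) • ee (0 : Fin n))
  have h2 := fb_co x 0
  simp only [norm_smul, ee, EuclideanSpace.norm_single, norm_one, mul_one, Real.norm_eq_abs,
    abs_mul, Nat.abs_ofNat] at h1 ⊢
  nlinarith

/-- the height function is a strict supersolution -/
theorem psi_sup {κ ε : ℝ} (h0 : 0 < κ) (h1 : κ ≤ 1 / 100) (hε : 0 ≤ ε)
    (h2 : (n : ℝ) ^ 2 * ε ≤ 1 / 100) (h3 : 33 * (n : ℝ) ^ 3 * ε ≤ κ) {g : Mf n} {x : V n}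
    (hx : ‖x‖ ≤ 1) (g0 : ∀ j k, |g j k x - if j = k then 1 else 0| ≤ ε)
    (g1 : ∀ i j k, |pr i (g j k) x| ≤ ε) : Sup g (psi κ) x (κ / 2) := by
  have e1 : ‖ee (0 : Fin n)‖ = 1 := by simp [ee]
  have a1 : ‖gr (psi κ) x - ee 0‖ ≤ 1 / 10 := (psi_gr_le h0.le x).trans (by nlinarith)
  simp only [Sup, hs, psi_fd2, fbL_app, real_inner_self_eq_norm_sq]
  generalize gr (psi κ) x = ϖ at a1
  have a2 := abs_le.1 ((abs_norm_sub_norm_le ϖ (ee 0)).trans a1)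
  rw [e1] at a2
  have v1 : ∀ ξ, ‖gv g x ξ - ξ‖ ≤ 1 / 100 * ‖ξ‖ := fun ξ =>
    (fb_gv g0 ξ).trans (mul_le_mul_of_nonneg_right h2 (norm_nonneg _))
  have v2 : ∀ ξ, ‖gv g x ξ‖ ≤ 101 / 100 * ‖ξ‖ := fun ξ => by
    linarith [norm_sub_norm_le (gv g x ξ) ξ, v1 ξ]
  have v3 : ∀ ξ, |ip g x ξ ξ - ‖ξ‖ ^ 2| ≤ 1 / 100 * ‖ξ‖ ^ 2 := fun ξ =>
    (fb_ip_le g0 ξ).trans (mul_le_mul_of_nonneg_right h2 (sq_nonneg _))
  have v4 : ∀ ξ, hsT g x ϖ ξ ≤ κ / 10 * ‖ξ‖ ^ 2 := fun ξ => by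
    refine ((le_abs_self _).trans (fb_hsT hε (fun ξ => (v2 ξ).trans
      (by linarith [norm_nonneg ξ])) g1 ϖ ξ)).trans (mul_le_mul_of_nonneg_right ?_ (sq_nonneg _))
    have : 0 ≤ 3 * (n : ℝ) ^ 3 * ε := by positivity
    nlinarith [a2.2]
  refine ⟨by linarith [a2.1], fun ξ _ => ?_⟩
  have w1 : ‖gv g x ϖ - ee 0‖ ≤ 111 / 1000 := by
    linarith [norm_sub_le_norm_sub_add_norm_sub (gv g x ϖ) ϖ (ee 0), v1 ϖ, a2.2]
  have w2 : ‖gv g x ϖ‖ ≤ 1111 / 1000 := by linarith [norm_sub_norm_le (gv g x ϖ) (ee 0)]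
  have w3 : 889 / 1000 ≤ gv g x ϖ 0 := by
    have := (abs_le.1 ((fb_co (gv g x ϖ - ee 0) 0).trans w1)).1
    simp only [ee, PiLp.sub_apply, EuclideanSpace.single_apply, if_true] at this
    linarith
  have w4 : ‖ϖ‖ ^ 2 ≤ 121 / 100 := by nlinarith [a2.2, norm_nonneg ϖ]
  have w5 : 81 / 100 ≤ ‖ϖ‖ ^ 2 := by nlinarith [a2.1]
  have w6 : κ * (2 * ‖gv g x ϖ‖ ^ 2 - 8 * (gv g x ϖ 0 * gv g x ϖ 0)) + hsT g x ϖ ϖ ≤
      -(37 / 10 * κ) := by
    have : 2 * ‖gv g x ϖ‖ ^ 2 - 8 * (gv g x ϖ 0 * gv g x ϖ 0) ≤ -(385 / 100) := by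
      nlinarith [norm_nonneg (gv g x ϖ)]
    nlinarith [v4 ϖ]
  have w7 := abs_le.1 (v3 ϖ)
  have w8 := abs_le.1 (v3 ξ)
  have w9 : 0 < ip g x ϖ ϖ := by linarith [w7.1]
  have X0 := sq_nonneg ‖ξ‖
  have y1 : ‖gv g x ξ‖ ^ 2 ≤ 103 / 100 * ‖ξ‖ ^ 2 := by
    nlinarith [pow_le_pow_left₀ (norm_nonneg _) (v2 ξ) 2]
  have y2 : κ * (2 * ‖gv g x ξ‖ ^ 2 - 8 * (gv g x ξ 0 * gv g x ξ 0)) ≤
      κ * (206 / 100 * ‖ξ‖ ^ 2) :=
    mul_le_mul_of_nonneg_left (by nlinarith [mul_self_nonneg (gv g x ξ 0)]) h0.le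
  have y3 : (κ * (2 * ‖gv g x ϖ‖ ^ 2 - 8 * (gv g x ϖ 0 * gv g x ϖ 0)) + hsT g x ϖ ϖ) *
      ip g x ξ ξ / ip g x ϖ ϖ ≤ -(29 / 10 * κ * ‖ξ‖ ^ 2) := by
    rw [div_le_iff₀ w9]
    have k1 := mul_le_mul_of_nonneg_right w6 (show 0 ≤ ip g x ξ ξ by linarith [w8.1])
    have k2 := mul_le_mul_of_nonneg_left w8.1 h0.le
    have k3 := mul_le_mul_of_nonneg_left (show ip g x ϖ ϖ ≤ 1223 / 1000 by linarith [w7.2])
      (mul_nonneg h0.le X0)
    nlinarith [mul_nonneg h0.le X0]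
  nlinarith [v4 ξ, mul_nonneg h0.le X0]

end Vale.Agent.P088F
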