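import Vale.Agent.P088F.DCalc
import Vale.Agent.P088F.FBas

/-! P088F, part D: iteration and perturbation. -/

open scoped ContDiff Topology RealInnerProductSpace
open Set Filter Metric

noncomputable section

namespace Vale.Agent.P088F.Dd

open Vale.Agent.P292E

variable {n : ℕ} {ι : Type} [Fintype ι] [DecidableEq ι]

theorem push (h : STEP n ι) : PUSH n ι := by
  obtain ⟨K, h⟩ := h
  refine ⟨K, fun M c r hc hr => ?_⟩
  obtain ⟨δ, C, hδ, hC, h⟩ := h M c r hc hr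
  obtain ⟨N, hN⟩ := exists_nat_gt (2 * M / δ)
  rw [div_lt_iff₀ hδ] at hN
  have C0 : ∀ j : ℕ, 0 ≤ C ^ j := fun j => pow_nonneg (zero_le_one.trans hC) j
  refine ⟨C ^ N, C0 N, fun P Q Θ Z O s W hP hQ bP bQ hG hL hW => ?_⟩
  have b : ∀ z ∈ Z, s < Θ z → z ∉ O → |Θ z| ≤ M := fun z h1 h2 h3 => by
    simpa using hG.bd z ⟨h1, h2, h3⟩ z (mem_ball_self (by positivity)) 0 (by norm_num)
  have k : ∀ j : ℕ, ∃ W', Xt P Q O (Up Θ Z O (max s (M - j * δ))) W W' (C ^ j) := fun j => by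
    induction j with
    | zero =>
      have e : Up Θ Z O (max s (M - (0 : ℕ) * δ)) ⊆ O := fun z hz => by_contra fun h3 => by
        obtain ⟨h1, h2⟩ := hz.resolve_left h3
        rw [Nat.cast_zero, zero_mul, sub_zero, max_lt_iff] at h2
        exact h2.2.not_ge ((le_abs_self _).trans (b z h1 h2.1 h3))
      exact ⟨W, hW.mono e, fun _ _ _ _ => rfl, fun A _ hA => hA.mono e (by simp)⟩
    | succ j ih =>
      obtain ⟨W1, s1, e1, b1⟩ := ih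
      obtain ⟨W2, s2, e2, b2⟩ := h P Q Θ Z O s (max s (M - j * δ)) (max s (M - (j + 1 : ℕ) * δ))
        W1 hP hQ bP bQ hG hL (le_max_left _ _) (max_le_max le_rfl (by push_cast; linarith))
        (sub_le_iff_le_add.2 (max_le (by linarith [le_max_left s (M - (j + 1 : ℕ) * δ)]) (by
          have := le_max_right s (M - (j + 1 : ℕ) * δ)
          push_cast at this ⊢
          linarith))) s1
      refine ⟨W2, s2, fun p hp l m => (e2 p ⟨.inl hp.1, hp.2⟩ l m).trans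
        (e1 p ⟨hp.1, .inl hp.1⟩ l m), fun A h0 hA => ?_⟩
      rw [pow_succ', mul_assoc]
      exact b2 _ (mul_nonneg (C0 j) h0) (b1 A h0 hA)
  obtain ⟨W1, s1, e1, b1⟩ := k N
  have e : Up Θ Z O s ⊆ Up Θ Z O (max s (M - N * δ)) := fun z hz => by
    by_cases h3 : z ∈ O
    · exact .inl h3
    obtain ⟨h1, h2⟩ := hz.resolve_left h3
    exact .inr ⟨h1, max_lt h2 (by linarith [(abs_le.1 (b z h1 h2 h3)).1])⟩
  exact ⟨W1, s1.mono e, fun p hp => e1 p ⟨hp.1, e hp.2⟩, fun A h0 hA => (b1 A h0 hA).mono e le_rfl⟩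

theorem dpush_one {g : Mf n} {x ϖ w : V n} {ε M : ℝ}
    (h : ∀ j k, |g j k x - if j = k then 1 else 0| ≤ ε) (h' : ∀ i j k, |pr i (g j k) x| ≤ ε)
    (hε : 0 ≤ ε) (he : (n : ℝ) ^ 2 * ε ≤ 1 / 4) (hϖ : ‖ϖ‖ ≤ M) (hw : ‖w‖ ≤ M) (ξ : V n) :
    0 ≤ ip g x ξ ξ ∧ perp g x ϖ ξ ≤ 2 * ‖gv g x ξ‖ ^ 2 ∧
      2 * ⟪w, gv g x ξ⟫ * ⟪ϖ, gv g x ξ⟫ - ⟪ϖ, w⟫ * ‖gv g x ξ‖ ^ 2 -
        (4 * n ^ 2 * M ^ 2 + 12 * n ^ 3 * M) * ε * ‖gv g x ξ‖ ^ 2 ≤
        hsT g x ϖ ξ + gau g x w ϖ ξ := by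
  have M0 : 0 ≤ M := (norm_nonneg _).trans hw
  have e0 : 0 ≤ (n : ℝ) ^ 2 * ε := by positivity
  have h1 : ∀ u, ‖gv g x u - u‖ ≤ 1 / 4 * ‖u‖ := fun u =>
    (fb_gv h u).trans (mul_le_mul_of_nonneg_right he (norm_nonneg _))
  have h2 : ∀ u, ‖gv g x u‖ ≤ 2 * ‖u‖ := fun u => by
    linarith [h1 u, norm_sub_norm_le (gv g x u) u, norm_nonneg u]
  have h3 : ∀ u, ‖u‖ ≤ 2 * ‖gv g x u‖ := fun u => by
    linarith [h1 u, norm_sub_norm_le u (gv g x u), norm_sub_rev u (gv g x u), norm_nonneg u]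
  have h4 : ∀ u, |ip g x u u - ‖gv g x u‖ ^ 2| ≤ 2 * (n ^ 2 * ε) * ‖gv g x u‖ ^ 2 := fun u => by
    rw [fb_ip, ← real_inner_self_eq_norm_sq, ← inner_sub_right, real_inner_self_eq_norm_sq]
    refine (abs_real_inner_le_norm _ _).trans ((mul_le_mul_of_nonneg_left
      ((norm_sub_rev _ _).trans_le ((fb_gv h u).trans (mul_le_mul_of_nonneg_left (h3 u) e0)))
      (norm_nonneg _)).trans_eq (by ring))
  have h5 : ∀ u, 0 ≤ ip g x u u ∧ ip g x u u ≤ 2 * ‖gv g x u‖ ^ 2 := fun u => by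
    have := abs_le.1 (h4 u)
    have := mul_le_mul_of_nonneg_right he (sq_nonneg ‖gv g x u‖)
    constructor <;> linarith [sq_nonneg ‖gv g x u‖]
  refine ⟨(h5 ξ).1, (sub_le_self _ (div_nonneg (sq_nonneg _) (h5 ϖ).1)).trans (h5 ξ).2, ?_⟩
  have h6 : ip g x w ϖ - ⟪ϖ, w⟫ ≤ n ^ 2 * ε * M * M := by
    rw [fb_ip, ← inner_sub_left]
    exact (real_inner_le_norm _ _).trans (mul_le_mul ((fb_gv h ϖ).trans
      (mul_le_mul_of_nonneg_left hϖ e0)) hw (norm_nonneg _) (by positivity))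
  have h7 : |⟪ϖ, w⟫| ≤ M * M :=
    (abs_real_inner_le_norm _ _).trans (mul_le_mul hϖ hw (norm_nonneg _) M0)
  have h8 := (mul_le_mul_of_nonneg_right h6 (h5 ξ).1).trans
    (mul_le_mul_of_nonneg_left (h5 ξ).2 (by positivity))
  have h9 := (le_abs_self _).trans ((abs_mul _ _).trans_le
    (mul_le_mul h7 (h4 ξ) (abs_nonneg _) (by positivity)))
  have h10 : 3 * n ^ 3 * ε * ‖ϖ‖ * ‖ξ‖ ^ 2 ≤ 3 * n ^ 3 * ε * M * (2 * ‖gv g x ξ‖) ^ 2 := by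
    gcongr
    exact h3 ξ
  have h11 := (abs_le.1 (fb_hsT hε h2 h' ϖ ξ)).1
  rw [gau, fb_ip g x w ξ, fb_ip g x ϖ ξ, real_inner_comm w (gv g x ξ),
    real_inner_comm ϖ (gv g x ξ)]
  linarith

omit [DecidableEq ι] in
theorem levi_of_fl (M c : ℝ) (hc : 0 < c) : ∃ ε : ℝ, 0 < ε ∧ ∀ (P Q : Op n ι)
    (Θ : V n × V n → ℝ) (p : V n × V n) (w w' : V n), P.Sm → Q.Sm → P.Near 1 ε → Q.Near 1 ε →
    DifferentiableAt ℝ Θ p → ‖fderiv ℝ Θ p‖ ≤ M → ‖w‖ ≤ M → ‖w'‖ ≤ M → FL Θ p w w' c →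
    Levi P.g Q.g Θ p w w' (c / 4) := by
  obtain ⟨ε, h0, h1⟩ := exists_pos_mul_lt (lt_min hc one_pos)
    (4 * (n : ℝ) ^ 2 + 2 * (4 * n ^ 2 * M ^ 2 + 12 * n ^ 3 * |M|))
  rw [lt_min_iff] at h1
  refine ⟨ε, h0, fun P Q Θ p w w' _ _ nP nQ hd hf hw hw' hF ξ η ht => ?_⟩
  have M0 : 0 ≤ M := (norm_nonneg _).trans hf
  rw [abs_of_nonneg M0] at h1
  have p1 : 0 ≤ (n : ℝ) ^ 2 * ε := by positivity
  have p2 : 0 ≤ (4 * n ^ 2 * M ^ 2 + 12 * n ^ 3 * M) * ε := by positivity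
  have he : (n : ℝ) ^ 2 * ε ≤ 1 / 4 := by linarith [h1.2]
  have g : ∀ (u : V n) (v : V n × V n), ⟪u, u⟫ = fderiv ℝ Θ p v → ‖v‖ = ‖u‖ → ‖u‖ ≤ M :=
    fun u v e1 e2 => by
    have := (le_abs_self _).trans ((fderiv ℝ Θ p).le_of_opNorm_le hf v)
    rw [← e1, e2, real_inner_self_eq_norm_mul_norm] at this
    nlinarith [norm_nonneg u]
  obtain ⟨a1, a2, a3⟩ := dpush_one (nP.g0 p.1) (nP.g1 p.1) h0.le he
    (g _ _ (grx_inner hd _) (by simp)) hw ξ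
  obtain ⟨b1, b2, b3⟩ := dpush_one (nQ.g0 p.2) (nQ.g1 p.2) h0.le he
    (g _ _ (gry_inner hd _) (by simp)) hw' η
  rw [grx_inner hd, grx_inner hd] at a3
  rw [gry_inner hd, gry_inner hd] at b3
  have := hF (gv P.g p.1 ξ) (gv Q.g p.2 η) (by
    rw [tau, fb_ip, fb_ip, real_inner_comm, grx_inner hd, real_inner_comm, gry_inner hd,
      ← map_add, Prod.mk_add_mk, add_zero, zero_add] at ht
    exact ht)
  have q : ∀ u : V n, (4 * n ^ 2 * M ^ 2 + 12 * n ^ 3 * M) * ε * ‖u‖ ^ 2 ≤ c / 2 * ‖u‖ ^ 2 :=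
    fun u => mul_le_mul_of_nonneg_right (by linarith [h1.1]) (sq_nonneg _)
  have q1 := mul_le_mul_of_nonneg_left (add_le_add a2 b2) hc.le
  have q2 := mul_nonneg hc.le (add_nonneg a1 b1)
  rw [Lev]
  linarith [q (gv P.g p.1 ξ), q (gv Q.g p.2 η)]

theorem fpush (ht : TB n ι) (h : PUSH n ι) : FPUSH n ι := by
  obtain ⟨K, h⟩ := h
  obtain ⟨-, -, -, -, ⟨ε₀, h0, hb⟩, -⟩ := ht
  refine ⟨max K 1, fun M c r hc hr => ?_⟩
  obtain ⟨C, hC, h⟩ := h (max M (max 2 c)) (min (c / 4) (1 / 2)) r (by positivity) hr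
  obtain ⟨ε, h1, hl⟩ := levi_of_fl (n := n) (ι := ι) M c hc
  refine ⟨min ε₀ ε, C, lt_min h0 h1, hC, fun P Q Θ Z O s W hP hQ nP nQ hG hF hW => ?_⟩
  have b : ∀ L : Op n ι, L.Sm → L.Near (max K 1) (min ε₀ ε) →
      L.Bdd K (max M (max 2 c)) (min (c / 4) (1 / 2)) := fun L h2 h3 =>
    (hb _ L _ h2 (min_le_left _ _) h3).mono (le_max_left _ _)
      (le_max_of_le_right (le_max_left _ _)) (min_le_right _ _)
  refine h P Q Θ Z O s W hP hQ (b P hP nP) (b Q hQ nQ) (hG.mono (le_max_left _ _)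
    (min_le_of_left_le (by linarith))) (fun z hz q hq => ?_) hW
  obtain ⟨w, w', hw, hw', hf⟩ := hF z hz q hq
  have hq' : q ∈ ball z (2 * r) := ball_subset_ball (by linarith) hq
  refine ⟨w, w', c / 4, le_max_of_le_left hw, le_max_of_le_left hw', min_le_left _ _,
    le_max_of_le_right (le_max_of_le_right (by linarith)), hl P Q Θ q w w' hP hQ
    (nP.mono (le_max_right _ _) (min_le_right _ _)) (nQ.mono (le_max_right _ _) (min_le_right _ _))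
    (((hG.sm z hz).contDiffAt (isOpen_ball.mem_nhds hq')).differentiableAt (by simp)) ?_ hw hw' hf⟩
  rw [← norm_iteratedFDeriv_one]
  exact hG.bd z hz q hq' 1 (by norm_num)

end Vale.Agent.P088F.Dd
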