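import Vale.Agent.P088F.DCalc

/-! P088F, part D: the frozen quadratic form. -/

open scoped ContDiff Topology RealInnerProductSpace
open Set Filter Metric

noncomputable section

namespace Vale.Agent.P088F.Dd

open Vale.Agent.P292E

variable {n : ℕ} {ι : Type} [Fintype ι] [DecidableEq ι]

theorem dqq_quad {e : Fin n → Fin n → ℝ} {ε : ℝ} (h : ∀ j k, |e j k| ≤ ε) (ξ : V n) :
    |∑ j, ∑ k, e j k * ξ j * ξ k| ≤ n * ε * ‖ξ‖ ^ 2 := by
  have h1 : ∀ j k, |e j k * ξ j * ξ k| ≤ ε / 2 * ξ j ^ 2 + ε / 2 * ξ k ^ 2 := fun j k => by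
    have h0 : 0 ≤ ε := (abs_nonneg _).trans (h j k)
    rw [mul_assoc, abs_mul, abs_mul]
    have h2 : |ξ j| * |ξ k| ≤ (ξ j ^ 2 + ξ k ^ 2) / 2 := by
      nlinarith [sq_nonneg (|ξ j| - |ξ k|), sq_abs (ξ j), sq_abs (ξ k)]
    exact (mul_le_mul (h j k) h2 (by positivity) h0).trans_eq (by ring)
  refine (Finset.abs_sum_le_sum_abs _ _).trans ((Finset.sum_le_sum fun j _ =>
    (Finset.abs_sum_le_sum_abs _ _).trans (Finset.sum_le_sum fun k _ => h1 j k)).trans_eq ?_)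
  simp only [Finset.sum_add_distrib, Finset.sum_const, Finset.card_univ, Fintype.card_fin,
    nsmul_eq_mul, ← Finset.mul_sum, EuclideanSpace.real_norm_sq_eq]
  ring

theorem dqq_ip {g : Mf n} {x : V n} {ε : ℝ} (h : ∀ j k, |g j k x - if j = k then 1 else 0| ≤ ε)
    (ξ : V n) : |ip g x ξ ξ - ‖ξ‖ ^ 2| ≤ n * ε * ‖ξ‖ ^ 2 := by
  refine le_of_eq_of_le ?_ (dqq_quad h ξ)
  rw [EuclideanSpace.real_norm_sq_eq]
  simp only [ip, sub_mul, Finset.sum_sub_distrib, ite_mul, one_mul, zero_mul, Finset.sum_ite_eq,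
    Finset.mem_univ, if_true, sq]

theorem dqq_det {s : V n × V n → Matrix (Fin n) (Fin n) ℝ}
    (h : ∀ i j, ContDiff ℝ ∞ fun z => s z i j) : ContDiff ℝ ∞ fun z => (s z).det := by
  simp only [Matrix.det_apply']
  exact ContDiff.sum fun σ _ => contDiff_const.mul (contDiff_prod fun i _ => h _ _)

omit [DecidableEq ι] [Fintype ι] in
theorem dqq_pos {L : Op n ι} (hL : L.Sm) (x : V n) :
    (Matrix.of fun j k => L.g j k x).det ≠ 0 := by
  refine (Matrix.PosDef.of_dotProduct_mulVec_pos (Matrix.IsHermitian.ext fun i j =>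
    hL.symm _ _ _) fun w hw => ?_).det_pos.ne'
  refine (hL.pos x (WithLp.toLp 2 w) fun h => hw (congrArg WithLp.ofLp h)).trans_eq ?_
  simp only [ip, dotProduct, Matrix.mulVec, star_trivial, Finset.mul_sum]
  exact Finset.sum_congr rfl fun i _ => Finset.sum_congr rfl fun j _ => by ring

omit [DecidableEq ι] [Fintype ι] in
theorem dqq_sm {L : Op n ι} (hL : L.Sm) : ContDiff ℝ ∞ (qq L.g) := by
  have hm : ∀ j k, ContDiff ℝ ∞ fun p : V n × V n => L.g j k ((1 / 2 : ℝ) • (p.1 + p.2)) :=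
    fun j k => (hL.g j k).comp ((contDiff_fst.add contDiff_snd).const_smul _)
  have hz : ∀ j, ContDiff ℝ ∞ fun p : V n × V n => (p.2 - p.1) j := fun j =>
    (EuclideanSpace.proj (𝕜 := ℝ) j).contDiff.comp (contDiff_snd.sub contDiff_fst)
  refine ContDiff.sum fun j _ => ContDiff.sum fun k _ => (ContDiff.mul ?_ (hz j)).mul (hz k)
  simp only [Matrix.inv_def, Ring.inverse_eq_inv', Matrix.smul_apply, smul_eq_mul,
    Matrix.adjugate_apply]
  refine ((dqq_det hm).inv fun z => dqq_pos hL _).mul (dqq_det fun k l => ?_)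
  simp only [Matrix.updateRow_apply]
  split_ifs
  exacts [contDiff_const, hm k l]

omit [DecidableEq ι] [Fintype ι] in
/-- the dual vector -/
theorem dqq_v {L : Op n ι} (hL : L.Sm) (p : V n × V n) : ∃ v : V n,
    qq L.g p = ⟪p.2 - p.1, v⟫ ∧ qq L.g p = ip L.g ((1 / 2 : ℝ) • (p.1 + p.2)) v v ∧
    ∀ w : V n, 2 * ⟪p.2 - p.1, w⟫ - ip L.g ((1 / 2 : ℝ) • (p.1 + p.2)) w w ≤ qq L.g p := by
  obtain ⟨m, hm⟩ : ∃ m, m = (1 / 2 : ℝ) • (p.1 + p.2) := ⟨_, rfl⟩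
  obtain ⟨z, hz⟩ : ∃ z, z = p.2 - p.1 := ⟨_, rfl⟩
  obtain ⟨G, hG⟩ : ∃ G, G = Matrix.of fun j k => L.g j k m := ⟨_, rfl⟩
  obtain ⟨v, hv⟩ : ∃ v : V n, v = WithLp.toLp 2 (G⁻¹.mulVec z.ofLp) := ⟨_, rfl⟩
  have h1 : G.mulVec v.ofLp = z.ofLp := by
    rw [hv, Matrix.mulVec_mulVec, Matrix.mul_nonsing_inv _ (hG ▸ (dqq_pos hL m).isUnit),
      Matrix.one_mulVec]
  have h2 : ∀ j, ∑ k, L.g j k m * v k = z j := fun j => by
    simpa only [hG, Matrix.mulVec, dotProduct, Matrix.of_apply] using congrFun h1 j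
  have h3 : ∀ w : V n, ip L.g m w v = ⟪z, w⟫ := fun w => by
    simp only [ip, PiLp.inner_apply, RCLike.inner_apply, conj_trivial, ← h2, Finset.mul_sum]
    exact Finset.sum_congr rfl fun i _ => Finset.sum_congr rfl fun j _ => by ring
  have h4 : qq L.g p = ⟪z, v⟫ := by
    simp only [qq, ← hm, ← hz, ← hG, hv, PiLp.inner_apply, RCLike.inner_apply, conj_trivial,
      Matrix.mulVec, dotProduct, Finset.sum_mul]
    exact Finset.sum_congr rfl fun i _ => Finset.sum_congr rfl fun j _ => by ring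
  rw [← hm, ← hz]
  refine ⟨v, h4, h4.trans (h3 v).symm, fun w => ?_⟩
  have h5 : ip L.g m (v - w) (v - w) =
      ip L.g m v v - ip L.g m w v - ip L.g m v w + ip L.g m w w := by
    simp only [ip, PiLp.sub_apply, ← Finset.sum_sub_distrib, ← Finset.sum_add_distrib]
    exact Finset.sum_congr rfl fun i _ => Finset.sum_congr rfl fun j _ => by ring
  have h6 : ip L.g m v w = ip L.g m w v := by
    rw [ip, ip, Finset.sum_comm]
    exact Finset.sum_congr rfl fun i _ => Finset.sum_congr rfl fun j _ => by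
      rw [hL.symm j i]
      ring
  have h7 : 0 ≤ ip L.g m (v - w) (v - w) := by
    by_cases h : v - w = 0
    · simp [h, ip]
    · exact (hL.pos _ _ h).le
  rw [h5, h6, h3, h3] at h7
  linarith

omit [DecidableEq ι] [Fintype ι] in
theorem dqq_der {L : Op n ι} (hL : L.Sm) {p : V n × V n} {v : V n}
    (h1 : qq L.g p = ⟪p.2 - p.1, v⟫) (h2 : qq L.g p = ip L.g ((1 / 2 : ℝ) • (p.1 + p.2)) v v)
    (a c : V n) : fderiv ℝ (qq L.g) p (a, c) = 2 * ⟪c - a, v⟫ - ∑ j, ∑ k,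
      fderiv ℝ (L.g j k) ((1 / 2 : ℝ) • (p.1 + p.2)) ((1 / 2 : ℝ) • (a + c)) * v j * v k := by
  have d0 : HasDerivAt (fun t : ℝ => p + t • (a, c)) (a, c) 0 := by
    simpa using ((hasDerivAt_id (0 : ℝ)).smul_const (a, c)).const_add p
  have d1 : HasDerivAt (fun t : ℝ => qq L.g (p + t • (a, c))) (fderiv ℝ (qq L.g) p (a, c)) 0 :=
    ((dqq_sm hL).differentiable (by simp) p).hasFDerivAt.comp_hasDerivAt_of_eq 0 d0 (by simp)
  have d2 : HasDerivAt (fun t : ℝ => (1 / 2 : ℝ) • ((p + t • (a, c)).1 + (p + t • (a, c)).2))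
      ((1 / 2 : ℝ) • (a + c)) 0 :=
    (((ContinuousLinearMap.fst ℝ (V n) (V n)).hasFDerivAt.comp_hasDerivAt 0 d0).add
      ((ContinuousLinearMap.snd ℝ (V n) (V n)).hasFDerivAt.comp_hasDerivAt 0 d0)).const_smul
        (1 / 2 : ℝ)
  have d3 : HasDerivAt (fun t : ℝ => ⟪(p + t • (a, c)).2 - (p + t • (a, c)).1, v⟫) ⟪c - a, v⟫ 0 := by
    simpa using (((ContinuousLinearMap.snd ℝ (V n) (V n)).hasFDerivAt.comp_hasDerivAt 0 d0).sub
      ((ContinuousLinearMap.fst ℝ (V n) (V n)).hasFDerivAt.comp_hasDerivAt 0 d0)).inner ℝ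
        (hasDerivAt_const (0 : ℝ) v)
  have d4 : HasDerivAt (fun t : ℝ =>
      ip L.g ((1 / 2 : ℝ) • ((p + t • (a, c)).1 + (p + t • (a, c)).2)) v v) (∑ j, ∑ k,
      fderiv ℝ (L.g j k) ((1 / 2 : ℝ) • (p.1 + p.2)) ((1 / 2 : ℝ) • (a + c)) * v j * v k) 0 :=
    HasDerivAt.fun_sum fun j _ => HasDerivAt.fun_sum fun k _ =>
      ((((hL.g j k).differentiable (by simp) _).hasFDerivAt.comp_hasDerivAt_of_eq 0 d2
        (by simp)).mul_const _).mul_const _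
  have hm : IsLocalMin (fun t : ℝ => qq L.g (p + t • (a, c)) -
      (2 * ⟪(p + t • (a, c)).2 - (p + t • (a, c)).1, v⟫ -
        ip L.g ((1 / 2 : ℝ) • ((p + t • (a, c)).1 + (p + t • (a, c)).2)) v v)) 0 :=
    Eventually.of_forall fun t => by
      have h3 := (dqq_v hL (p + t • (a, c))).choose_spec.2.2 v
      simp only [zero_smul, add_zero]
      linarith
  exact sub_eq_zero.1 (hm.hasDerivAt_eq_zero (d1.sub ((d3.const_mul 2).sub d4)))

omit [DecidableEq ι] in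
theorem qq_ok : ∃ ε : ℝ, 0 < ε ∧ ∀ L : Op n ι, L.Sm → L.Near 1 ε → QQ L.g := by
  obtain ⟨ε, hε⟩ : ∃ ε : ℝ, ε = 1 / (4 * (n + 1)) := ⟨_, rfl⟩
  have e0 : 0 < ε := by rw [hε]; positivity
  have e1 : n * ε ≤ 1 / 4 := by
    rw [hε, mul_one_div, div_le_iff₀ (by positivity)]
    linarith
  refine ⟨ε, e0, fun L hL hN => ?_⟩
  have b0 : ∀ x ξ : V n, 3 / 4 * ‖ξ‖ ^ 2 ≤ ip L.g x ξ ξ ∧ ip L.g x ξ ξ ≤ 5 / 4 * ‖ξ‖ ^ 2 :=
    fun x ξ => by
      have h := abs_le.1 ((dqq_ip (g := L.g) (x := x) (fun j k => by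
        simpa using hN.g j k 0 zero_le_one x trivial) ξ).trans
          (mul_le_mul_of_nonneg_right e1 (sq_nonneg _)))
      constructor <;> linarith [h.1, h.2]
  have b1 : ∀ j k (x w : V n), |fderiv ℝ (L.g j k) x w| ≤ ε * ‖w‖ := fun j k x w => by
    have h := hN.g j k 1 le_rfl x trivial
    rw [norm_iteratedFDeriv_one, fderiv_sub_const] at h
    exact ((fderiv ℝ (L.g j k) x).le_opNorm w).trans (mul_le_mul_of_nonneg_right h (norm_nonneg _))
  have b2 : ∀ (p : V n × V n) (a c : V n), ‖p.1 - p.2‖ ≤ 1 → c - a = p.2 - p.1 →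
      ‖a + c‖ = ‖p.1 - p.2‖ → 3 / 2 * qq L.g p ≤ fderiv ℝ (qq L.g) p (a, c) := by
    intro p a c h1 h2 h3
    obtain ⟨v, v1, v2, -⟩ := dqq_v hL p
    have h4 : ε * ‖(1 / 2 : ℝ) • (a + c)‖ ≤ ε * (1 / 2) := by
      rw [norm_smul, h3, Real.norm_of_nonneg (by norm_num)]
      exact mul_le_mul_of_nonneg_left (by linarith) e0.le
    have h5 := (abs_le.1 (dqq_quad (fun j k => (b1 j k ((1 / 2 : ℝ) • (p.1 + p.2)) _).trans h4)
      v)).2
    have h6 := (b0 ((1 / 2 : ℝ) • (p.1 + p.2)) v).1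
    have h7 := mul_le_mul_of_nonneg_right e1 (sq_nonneg ‖v‖)
    rw [dqq_der hL v1 v2, h2, ← v1]
    nlinarith [sq_nonneg ‖v‖]
  refine ⟨dqq_sm hL, fun p => ?_, fun p => ?_, fun p h => b2 p _ _ h (by simp) (by simp),
    fun p h => b2 p _ _ h (by simp) (by rw [zero_add, norm_sub_rev])⟩
  · have h1 := (dqq_v hL p).choose_spec.2.2 ((1 / 2 : ℝ) • (p.2 - p.1))
    have h2 := (b0 ((1 / 2 : ℝ) • (p.1 + p.2)) ((1 / 2 : ℝ) • (p.2 - p.1))).2
    rw [norm_smul, Real.norm_of_nonneg (by norm_num)] at h2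
    rw [real_inner_smul_right, real_inner_self_eq_norm_sq] at h1
    rw [norm_sub_rev]
    nlinarith [sq_nonneg ‖p.2 - p.1‖]
  · obtain ⟨v, v1, v2, -⟩ := dqq_v hL p
    have h1 := (b0 ((1 / 2 : ℝ) • (p.1 + p.2)) v).1
    have h2 := real_inner_le_norm (p.2 - p.1) v
    rw [norm_sub_rev]
    nlinarith [sq_nonneg (‖v‖ - 4 / 3 * ‖p.2 - p.1‖), sq_nonneg ‖p.2 - p.1‖]

end Vale.Agent.P088F.Dd
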