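import Vale.Agent.P088F.DUniq

/-! P088F, part D: the first stage. -/

open scoped ContDiff Topology RealInnerProductSpace
open Set Filter Metric

noncomputable section

namespace Vale.Agent.P088F.Dd

open Vale.Agent.P292E

variable {n : ℕ} {ι : Type} [Fintype ι] [DecidableEq ι]

theorem ds1_sq [NeZero n] (v : V n) (t : ℝ) :
    ‖v - t • ee 0‖ ^ 2 = ‖v‖ ^ 2 - 2 * t * v 0 + t ^ 2 := by
  rw [norm_sub_sq_real, norm_smul, real_inner_smul_right]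
  simp [ee, EuclideanSpace.inner_single_right, mul_assoc]

theorem ds1_le [NeZero n] {v : V n} {t : ℝ} (h : t ∈ Icc 0 (v 0)) : ‖v - t • ee 0‖ ≤ ‖v‖ :=
  le_of_sq_le_sq (by rw [ds1_sq]; nlinarith [h.1, h.2]) (norm_nonneg _)

theorem ds1_ge [NeZero n] {v : V n} {t : ℝ} (h : 0 ≤ t) (h' : v 0 ≤ 0) : ‖v‖ ≤ ‖v - t • ee 0‖ :=
  le_of_sq_le_sq (by rw [ds1_sq]; nlinarith) (norm_nonneg _)

theorem ds1_open [NeZero n] (R ρ C : ℝ) : IsOpen (Sg1 n R ρ C) := by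
  have h1 : Continuous fun p : V n × V n => p.1 0 := by fun_prop
  have h2 : Continuous fun p : V n × V n => p.2 0 := by fun_prop
  have h3 : Continuous fun p : V n × V n => ‖p.1 - p.2‖ := by fun_prop
  exact (isOpen_lt continuous_fst.norm continuous_const).inter
    ((isOpen_lt continuous_snd.norm continuous_const).inter
      ((isOpen_lt continuous_const h3).inter ((isOpen_lt h1 continuous_const).union
        ((isOpen_lt h2 continuous_const).union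
          (isOpen_lt (continuous_const.mul (h1.add continuous_const)) h3)))))

theorem ds1_sw [NeZero n] {R ρ : ℝ} {p : V n × V n} (h : p ∈ O0 n R ρ) : p.swap ∈ O0 n R ρ :=
  ⟨h.2.1, h.1, h.2.2.1.trans_eq (norm_sub_rev _ _), h.2.2.2.symm⟩

theorem ds1_eq [NeZero n] (R ρ C : ℝ) :
    Sg n R ρ C = Sg1 n R ρ C ∪ Prod.swap ⁻¹' Sg1 n R ρ C := by
  ext p
  simp only [Sg, Sg1, mem_union, mem_preimage, mem_ofPred_eq, Prod.fst_swap, Prod.snd_swap,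
    norm_sub_rev p.2]
  tauto

theorem ds1_down [NeZero n] {R ρ C t : ℝ} (hC : 0 ≤ C) {x y : V n}
    (h : (x, y) ∈ Prod.swap ⁻¹' Sg1 n R ρ C ∩ Sg1 n R ρ C) (hx : 0 ≤ x 0) (hy : x 0 ≤ y 0)
    (ht : t ∈ Icc 0 (x 0)) : (x - t • ee 0, y) ∈ Prod.swap ⁻¹' Sg1 n R ρ C ∩ Sg1 n R ρ C := by
  obtain ⟨⟨-, -, -, a⟩, b1, b2, b3, b4⟩ := h
  have h1 := (ds1_le ht).trans_lt b1
  have h2 : ‖x - y‖ ≤ ‖x - t • ee 0 - y‖ := by
    rw [sub_right_comm]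
    exact ds1_ge ht.1 (sub_nonpos.2 hy)
  have h3 : C * (y 0 + 1) < ‖y - x‖ := (a.resolve_left (hx.trans hy).not_gt).resolve_left hx.not_gt
  have h4 : C * (x 0 + 1) < ‖x - y‖ := (b4.resolve_left hx.not_gt).resolve_left (hx.trans hy).not_gt
  have h5 : (x - t • ee 0 : V n) 0 = x 0 - t := by simp [ee]
  refine ⟨⟨b2, h1, b3.trans_le (h2.trans_eq (norm_sub_rev _ _)), Or.inr (Or.inr ?_)⟩, h1, b2,
    b3.trans_le h2, Or.inr (Or.inr ?_)⟩
  · exact h3.trans_le (((norm_sub_rev _ _).trans_le h2).trans_eq (norm_sub_rev _ _))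
  · refine lt_of_le_of_lt ?_ (h4.trans_le h2)
    change C * ((x - t • ee 0 : V n) 0 + 1) ≤ _
    rw [h5]
    nlinarith [ht.1]

theorem s1 [NeZero n] (hu : UCP n ι) (h : S1A n ι) : S1 n ι := by
  obtain ⟨C, hC, h⟩ := h
  refine ⟨C, hC, fun R => ?_⟩
  obtain ⟨K, R', ε, C', hR, hε, hC', h⟩ := h R
  refine ⟨K, R', ε, C', hR, hε, hC', fun P Q ρ W hP hQ nP nQ hρ hW => ?_⟩
  obtain ⟨W₁, a1, a2, a3⟩ := h P Q ρ W hP hQ nP nQ hρ hW
  obtain ⟨W₂, b1, b2, b3⟩ := h Q P ρ (sw W) hQ hP nQ nP hρ ((Sol_sw hW).mono fun _ hp => ds1_sw hp)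
  have o1 := ds1_open (n := n) R ρ C
  have o2 := o1.preimage continuous_swap
  have c1 := (Sol_sw b1).mono (inter_subset_left (t := Sg1 n R ρ C))
  have c2 := a1.mono (inter_subset_right (s := Prod.swap ⁻¹' Sg1 n R ρ C))
  have e2 : ∀ p ∈ O0 n R' ρ, p.swap ∈ Sg1 n R ρ C → ∀ l m, sw W₂ l m p.1 p.2 = W l m p.1 p.2 :=
    fun p hp hp' l m => b2 p.swap ⟨ds1_sw hp, hp'⟩ m l
  have e : ∀ p ∈ Prod.swap ⁻¹' Sg1 n R ρ C ∩ Sg1 n R ρ C, p.1 0 < 0 ∨ p.2 0 < 0 → ∀ l m,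
      sw W₂ l m p.1 p.2 = W₁ l m p.1 p.2 := fun p hp h0 l m =>
    have h1 : p ∈ O0 n R' ρ := ⟨hp.2.1.trans_le hR, hp.2.2.1.trans_le hR, hp.2.2.2.1, h0⟩
    (e2 p h1 hp.1 l m).trans (a2 p ⟨h1, hp.2⟩ l m).symm
  obtain ⟨W', d1, d2, d3⟩ := glue2 o1 o2 a1 (Sol_sw b1) fun q hq l m => by
    by_cases h0 : q.1 0 < 0 ∨ q.2 0 < 0
    · exact e q hq h0 l m
    push Not at h0
    rcases le_total (q.1 0) (q.2 0) with h1 | h1
    · exact uniq_dx hu hP hQ (o2.inter o1) c1 c2 (fun p hp => e p hp.1 (Or.inl hp.2)) hq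
        (fun t ht => ds1_down (zero_le_one.trans hC) hq h0.1 h1 ht) l m
    · exact uniq_dy hu hP hQ (o2.inter o1) c1 c2 (fun p hp => e p hp.1 (Or.inr hp.2)) hq
        (fun t ht => (ds1_down (x := q.2) (y := q.1) (zero_le_one.trans hC) ⟨hq.2, hq.1⟩ h0.2 h1
          ht).symm) l m
  rw [ds1_eq]
  refine ⟨W', d1, fun p hp l m => ?_, fun A hA hb p hp l m => ?_⟩
  · rcases hp.2 with h1 | h1
    · exact (d2 p h1 l m).trans (a2 p ⟨hp.1, h1⟩ l m)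
    · exact (d3 p h1 l m).trans (e2 p hp.1 h1 l m)
  · rcases hp with h1 | h1
    · exact d2 p h1 l m ▸ a3 A hA hb p h1 l m
    · exact d3 p h1 l m ▸ b3 A hA (fun q hq l m => hb q.swap (ds1_sw hq) m l) p.swap h1 m l

end Vale.Agent.P088F.Dd
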