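import Vale.Agent.P088F.DDefs

/-! P088F, part D: uniqueness and gluing. -/

open scoped ContDiff Topology RealInnerProductSpace
open Set Filter Metric

noncomputable section

namespace Vale.Agent.P088F.Dd

open Vale.Agent.P292E

variable {n : ℕ} {ι : Type} [Fintype ι] [DecidableEq ι]

omit [DecidableEq ι] in
theorem duniq_congr (L : Op n ι) {u u' : Fam n ι} {x : V n} (h : ∀ l, u l =ᶠ[𝓝 x] u' l) (l : ι) :
    L.ap u l x = L.ap u' l x := by
  have h1 : ∀ m k, pd k (u m) =ᶠ[𝓝 x] pd k (u' m) := fun m k =>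
    (h m).fderiv.mono fun y hy => congrArg (fun T : V n →L[ℝ] ℂ => T (ee k)) hy
  have h2 : ∀ m j k, pd j (pd k (u m)) x = pd j (pd k (u' m)) x := fun m j k =>
    congrArg (fun T : V n →L[ℝ] ℂ => T (ee j)) (h1 m k).fderiv_eq
  have h3 : ∀ m k, pd k (u m) x = pd k (u' m) x := fun m k => (h1 m k).eq_of_nhds
  have h4 : ∀ m, u m x = u' m x := fun m => (h m).eq_of_nhds
  simp only [Op.ap, h2, h3, h4]

theorem duniq_pd_sub {f g : V n → ℂ} {x : V n} (hf : ContDiffAt ℝ ∞ f x) (hg : ContDiffAt ℝ ∞ g x)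
    (k : Fin n) : pd k (fun y => f y - g y) x = pd k f x - pd k g x := by
  simp only [pd]
  rw [fderiv_fun_sub (hf.differentiableAt (by simp)) (hg.differentiableAt (by simp))]
  rfl

theorem duniq_pd_cd {f : V n → ℂ} {x : V n} (hf : ContDiffAt ℝ ∞ f x) (k : Fin n) :
    ContDiffAt ℝ ∞ (pd k f) x :=
  (hf.fderiv_right (m := ∞) le_rfl).clm_apply contDiffAt_const

omit [DecidableEq ι] in
theorem duniq_sub {L : Op n ι} {u u' : Fam n ι} {s : Set (V n)} (hs : IsOpen s)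
    (h : SolOn L s u) (h' : SolOn L s u') : SolOn L s (fun l y => u l y - u' l y) := by
  refine ⟨fun l => (h.1 l).sub (h'.1 l), fun l x hx => ?_⟩
  have c : ∀ m, ∀ y ∈ s, ContDiffAt ℝ ∞ (u m) y := fun m y hy =>
    (h.1 m).contDiffAt (hs.mem_nhds hy)
  have c' : ∀ m, ∀ y ∈ s, ContDiffAt ℝ ∞ (u' m) y := fun m y hy =>
    (h'.1 m).contDiffAt (hs.mem_nhds hy)
  have h1 : ∀ m k, pd k (fun y => u m y - u' m y) =ᶠ[𝓝 x]
      fun y => pd k (u m) y - pd k (u' m) y := fun m k => by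
    filter_upwards [hs.mem_nhds hx] with y hy
    exact duniq_pd_sub (c m y hy) (c' m y hy) k
  have h2 : ∀ m j k, pd j (pd k (fun y => u m y - u' m y)) x =
      pd j (pd k (u m)) x - pd j (pd k (u' m)) x := fun m j k => by
    rw [← duniq_pd_sub (duniq_pd_cd (c m x hx) k) (duniq_pd_cd (c' m x hx) k) j]
    exact congrArg (fun T : V n →L[ℝ] ℂ => T (ee j)) (h1 m k).fderiv_eq
  have h3 : ∀ m k, pd k (fun y => u m y - u' m y) x = pd k (u m) x - pd k (u' m) x :=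
    fun m k => (h1 m k).eq_of_nhds
  have e := h.2 l x hx
  have e' := h'.2 l x hx
  simp only [Op.ap] at e e' ⊢
  simp only [h2, h3, mul_sub, Finset.sum_sub_distrib, Finset.sum_add_distrib] at e e' ⊢
  linear_combination e - e'

omit [DecidableEq ι] in
theorem duniq_slice {P Q : Op n ι} {Ω : Set (V n × V n)} {W : Kr n ι} (hW : Sol P Q Ω W)
    (m : ι) (y : V n) : SolOn P {x | (x, y) ∈ Ω} (fun l x => W l m x y) := by
  refine ⟨fun l => ?_, fun l x hx => hW.ex (x, y) hx l m⟩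
  have h1 : ContDiff ℝ ∞ (fun x : V n => (x, y)) := contDiff_id.prodMk contDiff_const
  exact (hW.sm l m).comp h1.contDiffOn (fun x hx => hx)

theorem duniq_segx (hu : UCP n ι) {P Q : Op n ι} (hP : P.Sm) {Ω : Set (V n × V n)}
    (hΩ : IsOpen Ω) {W W' : Kr n ι} (hW : Sol P Q Ω W) (hW' : Sol P Q Ω W') {x y v : V n}
    {τ : ℝ} (h0 : 0 ≤ τ) (hs : ∀ t ∈ Icc (0 : ℝ) τ, (x + t • v, y) ∈ Ω)
    (he : ∀ᶠ p in 𝓝 (x + τ • v, y), ∀ l m, W l m p.1 p.2 = W' l m p.1 p.2) (l m : ι) :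
    W l m x y = W' l m x y := by
  have hc : Continuous (fun x : V n => (x, y)) := continuous_id.prodMk continuous_const
  have ho : IsOpen {x | (x, y) ∈ Ω} := hΩ.preimage hc
  have hl : Continuous (fun t : ℝ => x + t • v) := by fun_prop
  have hI : IsPreconnected ((fun t : ℝ => x + t • v) '' Icc 0 τ) :=
    isPreconnected_Icc.image _ hl.continuousOn
  have hx : x ∈ (fun t : ℝ => x + t • v) '' Icc 0 τ := ⟨0, ⟨le_rfl, h0⟩, by simp⟩
  have hsub : (fun t : ℝ => x + t • v) '' Icc 0 τ ⊆ connectedComponentIn {x | (x, y) ∈ Ω} x :=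
    hI.subset_connectedComponentIn hx (by rintro _ ⟨t, ht, rfl⟩; exact hs t ht)
  have hsol := (duniq_sub ho (duniq_slice hW m y) (duniq_slice hW' m y)).mono
    (connectedComponentIn_subset {x | (x, y) ∈ Ω} x)
  have hev : ∀ᶠ z in 𝓝 (x + τ • v), ∀ l, W l m z y - W' l m z y = 0 := by
    filter_upwards [(hc.tendsto (x + τ • v)).eventually he] with z hz l
    exact sub_eq_zero.2 (hz l m)
  exact sub_eq_zero.1 (hu P _ _ hP ho.connectedComponentIn isPreconnected_connectedComponentIn hsol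
    (x + τ • v) (hsub ⟨τ, ⟨h0, le_rfl⟩, rfl⟩) hev l x (hsub hx))

omit [DecidableEq ι] in
theorem duniq_loc {P Q : Op n ι} {O : Set (V n × V n)} {W W' : Kr n ι} (hO : IsOpen O)
    (hW : Sol P Q O W) (h : KEq W' W O) {p : V n × V n} (hp : p ∈ O) (l m : ι) :
    ContDiffAt ℝ ∞ (fun p : V n × V n => W' l m p.1 p.2) p ∧ apx P W' l m p.1 p.2 = 0 ∧
      apy Q W' l m p.1 p.2 = 0 := by
  have hc : Continuous (fun x : V n => (x, p.2)) := continuous_id.prodMk continuous_const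
  have hc' : Continuous (fun y : V n => (p.1, y)) := continuous_const.prodMk continuous_id
  refine ⟨((hW.sm l m).contDiffAt (hO.mem_nhds hp)).congr_of_eventuallyEq ?_, ?_, ?_⟩
  · filter_upwards [hO.mem_nhds hp] with q hq
    exact h q hq l m
  · rw [← hW.ex p hp l m]
    refine duniq_congr P (fun l' => ?_) l
    filter_upwards [(hO.preimage hc).mem_nhds hp] with x hx
    exact h (x, p.2) hx l' m
  · rw [← hW.ey p hp l m]
    refine duniq_congr Q (fun m' => ?_) m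
    filter_upwards [(hO.preimage hc').mem_nhds hp] with y hy
    exact h (p.1, y) hy l m'

omit [DecidableEq ι] in
theorem Sol_sw {P Q : Op n ι} {Ω : Set (V n × V n)} {W : Kr n ι} (h : Sol P Q Ω W) :
    Sol Q P (Prod.swap ⁻¹' Ω) (sw W) := by
  refine ⟨fun m l => ?_, fun p hp m l => h.ey p.swap hp l m, fun p hp m l => h.ex p.swap hp l m⟩
  have h1 : ContDiff ℝ ∞ (fun p : V n × V n => p.swap) := contDiff_snd.prodMk contDiff_fst
  exact (h.sm l m).comp h1.contDiffOn (fun x hx => hx)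

theorem uniq_seg (hu : UCP n ι) {P Q : Op n ι} (hP : P.Sm) (hQ : Q.Sm) {Ω : Set (V n × V n)}
    (hΩ : IsOpen Ω) {W W' : Kr n ι} (hW : Sol P Q Ω W) (hW' : Sol P Q Ω W') {q v : V n × V n}
    (hv : v.1 = 0 ∨ v.2 = 0) {τ : ℝ} (h0 : 0 ≤ τ) (hs : ∀ t ∈ Icc (0 : ℝ) τ, q + t • v ∈ Ω)
    (he : ∀ᶠ p in 𝓝 (q + τ • v), ∀ l m, W l m p.1 p.2 = W' l m p.1 p.2) (l m : ι) :
    W l m q.1 q.2 = W' l m q.1 q.2 := by
  obtain ⟨x, y⟩ := q
  obtain ⟨a, b⟩ := v
  rcases hv with hv | hv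
  · obtain rfl : a = 0 := hv
    have e : ∀ t : ℝ, ((x, y) : V n × V n) + t • ((0 : V n), b) = (x, y + t • b) := fun t => by simp
    simp only [e] at hs he
    refine duniq_segx hu hQ (hΩ.preimage continuous_swap) (Sol_sw hW) (Sol_sw hW') (x := y) (y := x)
      (v := b) h0 hs ?_ m l
    filter_upwards [(continuous_swap.tendsto (y + τ • b, x)).eventually he] with p hp m l
    exact hp l m
  · obtain rfl : b = 0 := hv
    have e : ∀ t : ℝ, ((x, y) : V n × V n) + t • (a, (0 : V n)) = (x + t • a, y) := fun t => by simp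
    simp only [e] at hs he
    exact duniq_segx hu hP hΩ hW hW' h0 hs he l m

theorem uniq_dx [NeZero n] (hu : UCP n ι) {P Q : Op n ι} (hP : P.Sm) (hQ : Q.Sm)
    {Ω : Set (V n × V n)} (hΩ : IsOpen Ω) {W W' : Kr n ι} (hW : Sol P Q Ω W) (hW' : Sol P Q Ω W')
    (he : KEq W W' {p ∈ Ω | p.1 0 < 0}) {q : V n × V n} (hq : q ∈ Ω)
    (hs : ∀ t ∈ Icc (0 : ℝ) (q.1 0), (q.1 - t • ee 0, q.2) ∈ Ω) (l m : ι) :
    W l m q.1 q.2 = W' l m q.1 q.2 := by
  obtain ⟨x, y⟩ := q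
  rcases lt_or_ge (x 0) 0 with hx | hx
  · exact he (x, y) ⟨hq, hx⟩ l m
  have hc : Continuous (fun t : ℝ => ((x - t • ee 0, y) : V n × V n)) := by fun_prop
  obtain ⟨d, hd, hb⟩ := Metric.isOpen_iff.1 (hΩ.preimage hc) (x 0) (hs (x 0) ⟨hx, le_rfl⟩)
  have hall : ∀ t ∈ Icc (0 : ℝ) (x 0 + d / 2), ((x - t • ee 0, y) : V n × V n) ∈ Ω := by
    intro t ht
    rcases le_or_gt t (x 0) with h | h
    · exact hs t ⟨ht.1, h⟩
    · refine hb ?_
      rw [mem_ball, Real.dist_eq, abs_lt]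
      constructor <;> linarith [ht.2]
  have e : ∀ t : ℝ, x + t • (-ee 0 : V n) = x - t • ee 0 := fun t => by
    rw [smul_neg, sub_eq_add_neg]
  refine duniq_segx hu hP hΩ hW hW' (v := -ee 0) (τ := x 0 + d / 2) (by linarith)
    (fun t ht => by rw [e]; exact hall t ht) ?_ l m
  have ho : IsOpen {p ∈ Ω | p.1 0 < 0} :=
    hΩ.inter (isOpen_lt (f := fun p : V n × V n => p.1 0) (by fun_prop) continuous_const)
  have hm : ((x + (x 0 + d / 2) • (-ee 0 : V n), y) : V n × V n) ∈ {p ∈ Ω | p.1 0 < 0} := by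
    refine ⟨by rw [e]; exact hall _ ⟨by linarith, le_rfl⟩, ?_⟩
    simp [ee]
    linarith
  filter_upwards [ho.mem_nhds hm] with p hp
  exact he p hp

theorem uniq_dy [NeZero n] (hu : UCP n ι) {P Q : Op n ι} (hP : P.Sm) (hQ : Q.Sm)
    {Ω : Set (V n × V n)} (hΩ : IsOpen Ω) {W W' : Kr n ι} (hW : Sol P Q Ω W) (hW' : Sol P Q Ω W')
    (he : KEq W W' {p ∈ Ω | p.2 0 < 0}) {q : V n × V n} (hq : q ∈ Ω)
    (hs : ∀ t ∈ Icc (0 : ℝ) (q.2 0), (q.1, q.2 - t • ee 0) ∈ Ω) (l m : ι) :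
    W l m q.1 q.2 = W' l m q.1 q.2 := by
  exact uniq_dx hu hQ hP (hΩ.preimage continuous_swap) (Sol_sw hW) (Sol_sw hW') (q := q.swap)
    (fun p hp m l => he p.swap hp l m) hq hs m l

omit [DecidableEq ι] in
theorem glue {P Q : Op n ι} {J : Type} {O : Set (V n × V n)} {W : Kr n ι}
    {D : J → Set (V n × V n)} {X : J → Kr n ι} (hO : IsOpen O) (hD : ∀ i, IsOpen (D i))
    (hW : Sol P Q O W) (hX : ∀ i, Sol P Q (D i) (X i)) (h1 : ∀ i, KEq (X i) W (D i ∩ O))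
    (h2 : ∀ i j, KEq (X i) (X j) (D i ∩ D j)) :
    ∃ W', Sol P Q (O ∪ ⋃ i, D i) W' ∧ KEq W' W O ∧ ∀ i, KEq W' (X i) (D i) := by
  classical
  let W' : Kr n ι := fun l m x y =>
    if (x, y) ∈ O then W l m x y else if h : ∃ i, (x, y) ∈ D i then X h.choose l m x y else 0
  have e1 : KEq W' W O := fun p hp l m => if_pos hp
  have e2 : ∀ i, KEq W' (X i) (D i) := by
    intro i p hp l m
    by_cases h : p ∈ O
    · exact (e1 p h l m).trans (h1 i p ⟨hp, h⟩ l m).symm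
    · have h' : ∃ i, (p.1, p.2) ∈ D i := ⟨i, hp⟩
      refine (if_neg h).trans ((dif_pos h').trans ?_)
      exact h2 _ i p ⟨h'.choose_spec, hp⟩ l m
  have key : ∀ p ∈ O ∪ ⋃ i, D i, ∀ l m,
      ContDiffAt ℝ ∞ (fun p : V n × V n => W' l m p.1 p.2) p ∧ apx P W' l m p.1 p.2 = 0 ∧
        apy Q W' l m p.1 p.2 = 0 := by
    rintro p (hp | hp) l m
    · exact duniq_loc hO hW e1 hp l m
    · obtain ⟨i, hi⟩ := mem_iUnion.1 hp
      exact duniq_loc (hD i) (hX i) (e2 i) hi l m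
  exact ⟨W', ⟨fun l m p hp => (key p hp l m).1.contDiffWithinAt, fun p hp l m => (key p hp l m).2.1,
    fun p hp l m => (key p hp l m).2.2⟩, e1, e2⟩

omit [DecidableEq ι] in
theorem glue2 {P Q : Op n ι} {O O' : Set (V n × V n)} {W X : Kr n ι} (hO : IsOpen O)
    (hO' : IsOpen O') (hW : Sol P Q O W) (hX : Sol P Q O' X) (h : KEq X W (O' ∩ O)) :
    ∃ W', Sol P Q (O ∪ O') W' ∧ KEq W' W O ∧ KEq W' X O' := by
  obtain ⟨W', h1, h2, h3⟩ := glue (J := Unit) (D := fun _ => O') (X := fun _ => X) hO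
    (fun _ => hO') hW (fun _ => hX) (fun _ => h) (fun _ _ _ _ _ _ => rfl)
  exact ⟨W', h1.mono (union_subset_union_right _ (subset_iUnion (fun _ : Unit => O') ())), h2,
    h3 ()⟩

end Vale.Agent.P088F.Dd
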