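import Vale.Agent.P088F.DEll
import Vale.Agent.P088F.DUniq

/-! P088F, part D: the first stage, first point low. -/

open scoped ContDiff Topology RealInnerProductSpace
open Set Filter Metric

noncomputable section

namespace Vale.Agent.P088F.Dd

open Vale.Agent.P292E

variable {n : ℕ} {ι : Type} [Fintype ι] [DecidableEq ι]

theorem ds1a_ee [NeZero n] : (ee 0 : V n) 0 = 1 := by simp [ee]

theorem ds1a_norm [NeZero n] : ‖(ee 0 : V n)‖ = 1 := by simp [ee]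

theorem ds1a_inner [NeZero n] (v : V n) : ⟪v, ee 0⟫ = v 0 := by
  simp [ee, EuclideanSpace.inner_single_right]

theorem ds1a_down [NeZero n] (v : V n) {t : ℝ} (h0 : 0 ≤ t) (h1 : t ≤ v 0) :
    ‖v - t • ee 0‖ ≤ ‖v‖ := by
  refine (sq_le_sq₀ (norm_nonneg _) (norm_nonneg _)).1 ?_
  rw [norm_sub_sq_real, real_inner_smul_right, ds1a_inner, norm_smul, ds1a_norm,
    Real.norm_of_nonneg h0]
  nlinarith

theorem ds1a_open (A A' : V n →L[ℝ] V n) (x₀ y₀ : V n) (t t' : ℝ) :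
    IsOpen (EE A A' x₀ y₀ t t') := by
  refine IsOpen.and ?_ ?_ <;> exact isOpen_lt (by fun_prop) (by fun_prop)

theorem ds1a_openO [NeZero n] (R ρ : ℝ) : IsOpen (O0 n R ρ) := by
  refine IsOpen.and ?_ (IsOpen.and ?_ (IsOpen.and ?_ (IsOpen.union (s₁ := {p : V n × V n | p.1 0 < 0})
    (s₂ := {p : V n × V n | p.2 0 < 0}) ?_ ?_))) <;> exact isOpen_lt (by fun_prop) (by fun_prop)

theorem ds1a_loc [NeZero n] (hn : 3 ≤ n) {η R ρ : ℝ} (h0 : 0 < η) (hρ : ρ ≤ 1) {z : V n × V n}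
    (hx : ‖z.1‖ < R) (hy : ‖z.2‖ < R) (hz : 0 ≤ z.1 0)
    (hC : (300 / η + 20) * (z.1 0 + 1) < ‖z.1 - z.2‖) :
    ∃ (A A' : V n →L[ℝ] V n) (a b a' b' : ℝ) (x₁ y₁ : V n), Ell A a b ∧ Ell A' a' b' ∧
      a ≤ max 21 (2 * |R|) ∧ b ≤ max 21 (2 * |R|) ∧ a' ≤ max 21 (2 * |R|) ∧
      b' ≤ max 21 (2 * |R|) ∧ a * b ≤ 50 ∧ a' * b' ≤ 50 ∧
      (∀ x, ‖A (x - x₁)‖ < 1 → x 0 < 0) ∧ (∀ y, ‖A' (y - y₁)‖ < 1 → y 0 < 0) ∧
      (∀ p ∈ EE A A' x₁ y₁ (41 + 1) (41 + 1), p.1 0 < 0 ∨ p.2 0 < 0 → p ∈ O0 n (22 * |R| + 1) ρ) ∧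
      z ∈ EE A A' x₁ y₁ (1 + η) 41 ∧ ∀ q ∈ EE A A' x₁ y₁ (1 + η) 41, ∀ t ∈ Icc (0 : ℝ) (q.1 0),
        (q.1 - t • ee 0, q.2) ∈ EE A A' x₁ y₁ (1 + η) 41 := by
  obtain ⟨x, y⟩ := z
  simp only at hx hy hz hC
  set L := ‖x - y‖ with hL
  have hq : 0 < 300 / η := by positivity
  have h1 : 0 ≤ 300 / η * x 0 := by positivity
  have L20 : 20 < L := by nlinarith
  have L0 : 0 < L := by linarith
  have h2 : 20 * x 0 < L := by nlinarith
  have h3 : 300 / η * x 0 < L := by nlinarith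
  have hR : R ≤ |R| := le_abs_self R
  have L2 : L ≤ 2 * |R| := (norm_sub_le x y).trans (by linarith)
  have hn1 : ‖x 0 • (ee 0 : V n)‖ = x 0 := by
    rw [norm_smul, ds1a_norm, Real.norm_of_nonneg hz, mul_one]
  set xs : V n := x - x 0 • ee 0 with hxs
  have e1 : y - xs = (y - x) + x 0 • ee 0 := by
    rw [hxs]
    abel
  have h4 := norm_add_le (y - x) (x 0 • (ee 0 : V n))
  have h5 := norm_sub_le (y - x + x 0 • (ee 0 : V n)) (x 0 • ee 0)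
  rw [add_sub_cancel_right] at h5
  rw [norm_sub_rev y x, hn1, ← e1] at h4 h5
  obtain ⟨A', b', y₁, k1, k2, k3, k4, k5⟩ := ell_geo hn xs y L L0 (by simp [hxs, ds1a_ee])
    (by linarith) (by linarith)
  have hxs' : ‖xs‖ ≤ ‖x‖ := ds1a_down x hz le_rfl
  set x₁ : V n := xs - (L / 300) • ee 0 with hx₁
  have e2 : x₁ 0 = -(L / 300) := by simp [hx₁, hxs, ds1a_ee]
  have hA : ∀ v : V n, ‖((300 / L) • ContinuousLinearMap.id ℝ (V n)) v‖ = 300 / L * ‖v‖ :=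
    fun v => by
      rw [FunLike.coe_smul, Pi.smul_apply, norm_smul,
        Real.norm_of_nonneg (by positivity)]
      rfl
  have hA' : ∀ (v : V n) (c : ℝ),
      ‖((300 / L) • ContinuousLinearMap.id ℝ (V n)) v‖ < c ↔ ‖v‖ < c * (L / 300) := fun v c => by
    rw [hA, div_mul_eq_mul_div, div_lt_iff₀ L0]
    constructor <;> intro h <;> linarith
  refine ⟨(300 / L) • ContinuousLinearMap.id ℝ (V n), A', 300 / L, L / 300, 420 / L, b', x₁, y₁,
    ⟨ContinuousLinearMap.opNorm_le_bound _ (by positivity) fun v => (hA v).le, by positivity,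
      fun u => ⟨(L / 300) • u, ?_, ?_⟩⟩, k1, ?_, ?_, ?_, ?_, ?_, ?_, fun x' hx' => ?_, k4,
    fun p hp hp' => ?_, ⟨?_, k3⟩, fun q hq t ht => ⟨?_, hq.2⟩⟩
  · simp [smul_smul, L0.ne']
  · rw [norm_smul, Real.norm_of_nonneg (by positivity)]
  · refine le_max_of_le_left ?_
    rw [div_le_iff₀ L0]
    linarith
  · exact le_max_of_le_right (by linarith)
  · refine le_max_of_le_left ?_
    rw [div_le_iff₀ L0]
    linarith
  · exact le_max_of_le_right (by linarith)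
  · have : 300 / L * (L / 300) = 1 := by field_simp
    linarith
  · have h6 := mul_le_mul_of_nonneg_left k2 (by positivity : 0 ≤ 420 / L)
    have : 420 / L * (50 / 420 * L) = 50 := by field_simp
    linarith
  · rw [hA'] at hx'
    have h6 := (le_abs_self _).trans (PiLp.norm_apply_le (x' - x₁) 0)
    rw [PiLp.sub_apply, e2] at h6
    linarith
  · have h6 := (hA' _ _).1 hp.1
    obtain ⟨h7, h8⟩ := k5 p.2 (by linarith [hp.2])
    have e3 : p.1 - xs = p.1 - x₁ - (L / 300) • ee 0 := by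
      rw [hx₁]
      abel
    have h9 := norm_sub_le (p.1 - x₁) ((L / 300) • (ee 0 : V n))
    rw [← e3, norm_smul, ds1a_norm, Real.norm_of_nonneg (by positivity)] at h9
    have h10 := norm_sub_norm_le p.1 xs
    have h11 := norm_sub_norm_le p.2 xs
    have h12 := norm_sub_le_norm_sub_add_norm_sub p.2 p.1 xs
    rw [norm_sub_rev p.2 p.1] at h12
    exact ⟨by linarith, by linarith, by linarith, hp'⟩
  · have e3 : x - x₁ = (x 0 + L / 300) • ee 0 := by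
      rw [hx₁, hxs, add_smul]
      abel
    rw [hA', e3, norm_smul, ds1a_norm, Real.norm_of_nonneg (by positivity)]
    rw [div_mul_eq_mul_div, div_lt_iff₀ h0] at h3
    linarith
  · have h6 := (hA' _ _).1 hq.1
    have e3 : q.1 - t • ee 0 - x₁ = q.1 - x₁ - t • ee 0 := by abel
    rw [hA', e3]
    refine (ds1a_down _ ht.1 ?_).trans_lt h6
    rw [PiLp.sub_apply, e2]
    linarith [ht.2]

theorem s1a [NeZero n] (hn : 3 ≤ n) (hu : UCP n ι) (h : EC n ι) : S1A n ι := by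
  obtain ⟨η, h0, h1, h⟩ := h 50 41 (by norm_num)
  have hq : 0 < 300 / η := by positivity
  refine ⟨300 / η + 20, by linarith, fun R => ?_⟩
  obtain ⟨K, ε, C, hε, hC, h⟩ := h (max 21 (2 * |R|))
  refine ⟨K, 22 * |R| + 1, ε, max C 1, by linarith [le_abs_self R, abs_nonneg R], hε,
    le_max_of_le_right zero_le_one, fun P Q ρ W hP hQ nP nQ hρ hW => ?_⟩
  have hS : IsOpen {x : V n | x 0 < 0} := isOpen_lt (by fun_prop) continuous_const
  have key : ∀ z : {z : V n × V n // z ∈ Sg1 n R ρ (300 / η + 20) ∧ 0 ≤ z.1 0 ∧ 0 ≤ z.2 0},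
      ∃ (D : Set (V n × V n)) (X : Kr n ι), IsOpen D ∧ z.1 ∈ D ∧ Sol P Q D X ∧
        KEq X W {p ∈ D | p.1 0 < 0 ∨ p.2 0 < 0} ∧
        (∀ A, 0 ≤ A → KBd W (O0 n (22 * |R| + 1) ρ) A → KBd X D (C * A)) ∧
        ∀ q ∈ D, ∀ t ∈ Icc (0 : ℝ) (q.1 0), (q.1 - t • ee 0, q.2) ∈ D := by
    rintro ⟨z, ⟨hx, hy, -, hz⟩, z1, z2⟩
    obtain ⟨A, A', a, b, a', b', x₁, y₁, k1, k2, k3, k4, k5, k6, k7, k8, k9, k10, k11, k12, k13⟩ :=
      ds1a_loc hn h0 hρ hx hy z1 ((hz.resolve_left z1.not_gt).resolve_left z2.not_gt)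
    have hs : {p ∈ EE A A' x₁ y₁ (41 + 1) (41 + 1) |
        p.1 ∈ {x : V n | x 0 < 0} ∨ p.2 ∈ {x : V n | x 0 < 0}} ⊆ O0 n (22 * |R| + 1) ρ :=
      fun p hp => k11 p hp.1 hp.2
    obtain ⟨X, s1, s2, s3⟩ := h P Q A A' a b a' b' x₁ y₁ _ _ W hP hQ nP nQ k1 k2 k3 k4 k5 k6 k7 k8
      hS hS k9 k10 (hW.mono hs)
    refine ⟨_, X, ds1a_open _ _ _ _ _ _, k12, s1, fun p hp => s2 p ⟨⟨⟨?_, ?_⟩, hp.2⟩, hp.1⟩,
      fun B hB hb => s3 B hB (hb.mono hs le_rfl), k13⟩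
    · linarith [hp.1.1]
    · linarith [hp.1.2]
  choose D X d1 d2 d3 d4 d5 d6 using key
  obtain ⟨W', w1, w2, w3⟩ := glue (ds1a_openO _ _) d1 hW d3
    (fun i p hp => d4 i p ⟨hp.1, hp.2.2.2.2⟩) fun i j q hq =>
      uniq_dx hu hP hQ ((d1 i).inter (d1 j)) ((d3 i).mono inter_subset_left)
        ((d3 j).mono inter_subset_right) (fun p hp l m =>
          (d4 i p ⟨hp.1.1, Or.inl hp.2⟩ l m).trans (d4 j p ⟨hp.1.2, Or.inl hp.2⟩ l m).symm) hq
        fun t ht => ⟨d6 i q hq.1 t ht, d6 j q hq.2 t ht⟩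
  have hsub : Sg1 n R ρ (300 / η + 20) ⊆ O0 n (22 * |R| + 1) ρ ∪ ⋃ i, D i := fun p hp => by
    by_cases hc : p.1 0 < 0 ∨ p.2 0 < 0
    · have := le_abs_self R
      have := abs_nonneg R
      exact Or.inl ⟨by linarith [hp.1], by linarith [hp.2.1], hp.2.2.1, hc⟩
    · rw [not_or, not_lt, not_lt] at hc
      exact Or.inr (mem_iUnion.2 ⟨⟨p, hp, hc⟩, d2 _⟩)
  refine ⟨W', w1.mono hsub, fun p hp => w2 p hp.1, fun A hA hb p hp l m => ?_⟩
  rcases hsub hp with h2 | h2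
  · rw [w2 p h2]
    exact (hb p h2 l m).trans (le_mul_of_one_le_left hA (le_max_right _ _))
  · obtain ⟨i, hi⟩ := mem_iUnion.1 h2
    rw [w3 i p hi]
    exact (d5 i A hA hb p hi l m).trans (mul_le_mul_of_nonneg_right (le_max_left _ _) hA)

end Vale.Agent.P088F.Dd
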