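import Vale.Agent.P088F.DCalc

/-! P088F, part D: the derivatives of the second phase. -/

open scoped ContDiff Topology RealInnerProductSpace
open Set Filter Metric

noncomputable section

namespace Vale.Agent.P088F.Dd

open Vale.Agent.P292E

variable {n : ℕ} {ι : Type} [Fintype ι] [DecidableEq ι]

theorem dth2_q {al : ℝ} (be ga : ℝ) (h : 0 < al) :
    (∀ᶠ t in 𝓝 (0 : ℝ), HasDerivAt (fun t : ℝ => Real.log (al + be * t + ga * t ^ 2))
      ((be + 2 * ga * t) / (al + be * t + ga * t ^ 2)) t) ∧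
    HasDerivAt (fun t : ℝ => (be + 2 * ga * t) / (al + be * t + ga * t ^ 2))
      (2 * ga / al - be ^ 2 / al ^ 2) 0 := by
  have h1 : ∀ t : ℝ, HasDerivAt (fun t : ℝ => al + be * t + ga * t ^ 2) (be + 2 * ga * t) t := by
    intro t
    have := (((hasDerivAt_id t).const_mul be).const_add al).add ((hasDerivAt_pow 2 t).const_mul ga)
    exact this.congr_deriv (by simp; ring)
  have h2 : ∀ᶠ t in 𝓝 (0 : ℝ), al + be * t + ga * t ^ 2 ≠ 0 :=
    (h1 0).continuousAt.eventually_ne (by simpa using h.ne')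
  refine ⟨h2.mono fun t ht => (h1 t).log ht, ?_⟩
  have h3 : HasDerivAt (fun t : ℝ => be + 2 * ga * t) (2 * ga) 0 := by
    simpa using ((hasDerivAt_id (0 : ℝ)).const_mul (2 * ga)).const_add be
  refine (h3.div (h1 0) h2.self_of_nhds).congr_deriv ?_
  have := h.ne'
  simp only [mul_zero, add_zero, ne_eq, OfNat.ofNat_ne_zero, not_false_eq_true, zero_pow]
  field_simp

theorem dth2_nsq (z v : V n) (t : ℝ) :
    ‖z + t • v‖ ^ 2 = ‖z‖ ^ 2 + 2 * ⟪z, v⟫ * t + ‖v‖ ^ 2 * t ^ 2 := by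
  rw [norm_add_sq_real, inner_smul_right, norm_smul, mul_pow, Real.norm_eq_abs, sq_abs]
  ring

theorem dth2_u [NeZero n] (x : V n) : x 0 + 1 ≤ ‖x + ee 0‖ := by
  have h : (x + ee 0 : V n) 0 = x 0 + 1 := by simp [ee]
  exact h ▸ (le_abs_self _).trans (PiLp.norm_apply_le (x + ee 0 : V n) 0)

theorem dth2_pos [NeZero n] {p : V n × V n} (hp : p ∈ U2 n) :
    0 < ‖p.2 - p.1‖ ∧ 0 < p.1 0 + 1 ∧ 0 < p.2 0 + 1 ∧ 0 < ‖p.1 + ee 0‖ :=
  ⟨norm_pos_iff.2 (sub_ne_zero.2 hp.2.2.symm), by linarith [hp.1], by linarith [hp.2.1],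
    by linarith [hp.1, dth2_u p.1]⟩

omit [Fintype ι] [DecidableEq ι] in
theorem U2_open [NeZero n] : IsOpen (U2 n) := by
  have h1 : Continuous fun p : V n × V n => p.1 0 := by fun_prop
  have h2 : Continuous fun p : V n × V n => p.2 0 := by fun_prop
  exact (isOpen_lt continuous_const h1).inter ((isOpen_lt continuous_const h2).inter
    (isOpen_ne_fun continuous_fst continuous_snd))

omit [Fintype ι] [DecidableEq ι] in
theorem th2_sm [NeZero n] : ContDiffOn ℝ ∞ (th2 (n := n)) (U2 n) := by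
  have h0 : ContDiff ℝ ∞ fun x : V n => x 0 := (EuclideanSpace.proj (0 : Fin n) : V n →L[ℝ] ℝ).contDiff
  refine ((ContDiffOn.log ?_ fun p hp => (pow_pos (dth2_pos hp).1 2).ne').sub
    (ContDiffOn.log ?_ fun p hp => (dth2_pos hp).2.1.ne')).sub
    (ContDiffOn.log ?_ fun p hp => (dth2_pos hp).2.2.1.ne') |>.sub (contDiffOn_const.mul
    (ContDiffOn.log ?_ fun p hp => (pow_pos (dth2_pos hp).2.2.2 2).ne'))
  · exact ((contDiff_norm_sq ℝ).comp (contDiff_snd.sub contDiff_fst)).contDiffOn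
  · exact ((h0.comp contDiff_fst).add contDiff_const).contDiffOn
  · exact ((h0.comp contDiff_snd).add contDiff_const).contDiffOn
  · exact ((contDiff_norm_sq ℝ).comp (contDiff_fst.add contDiff_const)).contDiffOn

omit [Fintype ι] [DecidableEq ι] in
theorem th2_d [NeZero n] {p : V n × V n} (hp : p ∈ U2 n) (a c : V n) :
    fderiv ℝ th2 p (a, c) = e1 p a c ∧ fderiv ℝ (fderiv ℝ th2) p (a, c) (a, c) = e2 p a c := by
  obtain ⟨h1, h2, h3, h4⟩ := dth2_pos hp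
  obtain ⟨a1, b1⟩ := dth2_q (2 * ⟪p.2 - p.1, c - a⟫) (‖c - a‖ ^ 2) (pow_pos h1 2)
  obtain ⟨a2, b2⟩ := dth2_q (a 0) 0 h2
  obtain ⟨a3, b3⟩ := dth2_q (c 0) 0 h3
  obtain ⟨a4, b4⟩ := dth2_q (2 * ⟪p.1 + ee 0, a⟫) (‖a‖ ^ 2) (pow_pos h4 2)
  have e : (fun t : ℝ => th2 (p + t • (a, c))) = fun t : ℝ =>
      Real.log (‖p.2 - p.1‖ ^ 2 + 2 * ⟪p.2 - p.1, c - a⟫ * t + ‖c - a‖ ^ 2 * t ^ 2) -
        Real.log (p.1 0 + 1 + a 0 * t + 0 * t ^ 2) - Real.log (p.2 0 + 1 + c 0 * t + 0 * t ^ 2) -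
        1 / 16 * Real.log (‖p.1 + ee 0‖ ^ 2 + 2 * ⟪p.1 + ee 0, a⟫ * t + ‖a‖ ^ 2 * t ^ 2) := by
    funext t
    have e1 : (p + t • (a, c)).2 - (p + t • (a, c)).1 = p.2 - p.1 + t • (c - a) := by
      simp only [Prod.snd_add, Prod.fst_add, Prod.smul_mk, smul_sub]
      abel
    have e2 : (p + t • (a, c)).1 + ee 0 = p.1 + ee 0 + t • a := by
      simp only [Prod.fst_add, Prod.smul_mk]
      abel
    have e3 : (p + t • (a, c)).1 0 + 1 = p.1 0 + 1 + a 0 * t + 0 * t ^ 2 := by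
      simp
      ring
    have e4 : (p + t • (a, c)).2 0 + 1 = p.2 0 + 1 + c 0 * t + 0 * t ^ 2 := by
      simp
      ring
    rw [th2, e1, e2, e3, e4, dth2_nsq, dth2_nsq]
  have h := line12 (v := (a, c))
    ((th2_sm.contDiffAt (U2_open.mem_nhds hp)).of_le (WithTop.coe_le_coe.2 (le_top (a := (2 : ℕ∞)))))
    (by
      rw [e]
      filter_upwards [a1, a2, a3, a4] with t d1 d2 d3 d4
      exact ((d1.sub d2).sub d3).sub (d4.const_mul (1 / 16)))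
    (((b1.sub b2).sub b3).sub (b4.const_mul (1 / 16)))
  refine ⟨h.1.trans ?_, h.2.trans ?_⟩
  · simp [e1]
  · rw [e2]
    ring

omit [Fintype ι] [DecidableEq ι] in
theorem th2_gx [NeZero n] {p : V n × V n} (hp : p ∈ U2 n) :
    ∃ a : V n, ‖a‖ ≤ 1 ∧ 1 / (2 * (p.1 0 + 1)) ≤ e1 p a 0 := by
  obtain ⟨h1, h2, h3, h4⟩ := dth2_pos hp
  obtain ⟨z, hz⟩ : ∃ z, z = p.2 - p.1 := ⟨_, rfl⟩
  obtain ⟨s, hs⟩ : ∃ s, s = p.1 0 + 1 := ⟨_, rfl⟩
  obtain ⟨u, hu⟩ : ∃ u, u = p.1 + ee 0 := ⟨_, rfl⟩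
  have hz0 : p.2 0 + 1 = s + z 0 := by
    rw [hs, hz, PiLp.sub_apply]
    ring
  have hus : s ≤ ‖u‖ := by rw [hs, hu]; exact dth2_u p.1
  rw [← hz] at h1
  rw [← hs] at h2
  rw [← hu] at h4
  rw [hz0] at h3
  obtain ⟨N, hN⟩ : ∃ N : V n, N = -ee 0 + (-(2 * s / ‖z‖ ^ 2)) • z := ⟨_, rfl⟩
  have he : ∀ v : V n, ⟪ee (0 : Fin n), v⟫ = v 0 := fun v => by
    simp [ee, EuclideanSpace.inner_single_left]
  have hN1 : 1 ≤ ‖N‖ := by
    refine (one_le_sq_iff₀ (norm_nonneg _)).1 ?_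
    have e : ‖N‖ ^ 2 = 1 + 4 * s * (s + z 0) / ‖z‖ ^ 2 := by
      rw [hN, dth2_nsq, inner_neg_left, he, norm_neg, show ‖ee (0 : Fin n)‖ = 1 by simp [ee]]
      field_simp
      ring
    rw [e]
    exact le_add_of_nonneg_right (by positivity)
  have hN0 : 0 < ‖N‖ := one_pos.trans_le hN1
  obtain ⟨a, ha⟩ : ∃ a : V n, a = ‖N‖⁻¹ • N := ⟨_, rfl⟩
  have ha1 : ‖a‖ = 1 := ha ▸ norm_smul_inv_norm (norm_pos_iff.1 hN0)
  have h5 : ⟪N, a⟫ = ‖N‖ := by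
    rw [ha, inner_smul_right, real_inner_self_eq_norm_sq]
    field_simp
  have h6 : ⟪u, a⟫ ≤ ‖u‖ := (real_inner_le_norm u a).trans_eq (by rw [ha1, mul_one])
  have h7 : e1 p a 0 = ⟪N, a⟫ / s - 1 / 8 * (⟪u, a⟫ / ‖u‖ ^ 2) := by
    rw [e1, ← hz, ← hs, ← hu, hN, inner_add_left, inner_neg_left, he, real_inner_smul_left,
      zero_sub, inner_neg_right]
    simp only [PiLp.zero_apply, zero_div]
    field_simp
    ring
  have h8 : ⟪u, a⟫ / ‖u‖ ^ 2 ≤ 1 / s := by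
    rw [div_le_div_iff₀ (by positivity) h2]
    nlinarith
  have h9 : 1 / s ≤ ‖N‖ / s := div_le_div_of_nonneg_right hN1 h2.le
  refine ⟨a, ha1.le, ?_⟩
  rw [h7, h5, ← hs, show 1 / (2 * s) = 1 / 2 * (1 / s) by field_simp]
  linarith [one_div_pos.2 h2]

omit [Fintype ι] [DecidableEq ι] in
theorem th2_gy [NeZero n] {p : V n × V n} (hp : p ∈ U2 n) :
    1 / ‖p.2 - p.1‖ ≤ e1 p 0 (‖p.2 - p.1‖⁻¹ • (p.2 - p.1)) := by
  obtain ⟨h1, h2, h3, -⟩ := dth2_pos hp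
  have h5 : e1 p 0 (‖p.2 - p.1‖⁻¹ • (p.2 - p.1)) =
      1 / ‖p.2 - p.1‖ * (2 - (p.2 0 - p.1 0) / (p.2 0 + 1)) := by
    rw [e1, sub_zero, inner_smul_right, real_inner_self_eq_norm_sq, inner_zero_right]
    simp only [PiLp.zero_apply, zero_div, PiLp.smul_apply, PiLp.sub_apply, smul_eq_mul]
    field_simp
    ring
  have h6 : (p.2 0 - p.1 0) / (p.2 0 + 1) ≤ 1 := (div_le_one h3).2 (by linarith)
  rw [h5]
  exact le_mul_of_one_le_right (by positivity) (by linarith)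

end Vale.Agent.P088F.Dd
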