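import Vale.Agent.P088F.DAlg
import Vale.Agent.P088F.DTh2

/-! P088F, part D: the second stage. -/

open scoped ContDiff Topology RealInnerProductSpace
open Set Filter Metric

noncomputable section

namespace Vale.Agent.P088F.Dd

open Vale.Agent.P292E

variable {n : ℕ} {ι : Type} [Fintype ι] [DecidableEq ι]

theorem ds2_co [NeZero n] (x : V n) : |x 0| ≤ ‖x‖ := by simpa using PiLp.norm_apply_le x 0

/-- the ambient domain of the second stage -/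
def ds2Z (n : ℕ) [NeZero n] (R ρ : ℝ) : Set (V n × V n) :=
  {p | ‖p.1‖ < R ∧ ‖p.2‖ < R ∧ -1 / 2 < p.1 0 ∧ -1 / 2 < p.2 0 ∧ ρ < ‖p.1 - p.2‖}

theorem ds2_c1 [NeZero n] : Continuous fun p : V n × V n => p.1 0 := by fun_prop

theorem ds2_c2 [NeZero n] : Continuous fun p : V n × V n => p.2 0 := by fun_prop

theorem ds2_c3 : Continuous fun p : V n × V n => ‖p.1 - p.2‖ := by fun_prop

theorem ds2_open [NeZero n] (R ρ : ℝ) : IsOpen (ds2Z n R ρ) :=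
  (isOpen_lt continuous_fst.norm continuous_const).and <|
    (isOpen_lt continuous_snd.norm continuous_const).and <|
    (isOpen_lt continuous_const ds2_c1).and <| (isOpen_lt continuous_const ds2_c2).and <|
    isOpen_lt continuous_const ds2_c3

theorem ds2_sg_open [NeZero n] (R ρ C : ℝ) : IsOpen (Sg n R ρ C) := by
  have h1 : IsOpen {p : V n × V n | C * (p.1 0 + 1) < ‖p.1 - p.2‖} :=
    isOpen_lt (by fun_prop) ds2_c3
  have h2 : IsOpen {p : V n × V n | C * (p.2 0 + 1) < ‖p.1 - p.2‖} :=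
    isOpen_lt (by fun_prop) ds2_c3
  exact (isOpen_lt continuous_fst.norm continuous_const).and <|
    (isOpen_lt continuous_snd.norm continuous_const).and <|
    (isOpen_lt continuous_const ds2_c3).and <|
    (isOpen_lt ds2_c1 continuous_const).union <| (isOpen_lt ds2_c2 continuous_const).union <|
    h1.union h2

theorem ds2_U [NeZero n] {R ρ : ℝ} (hρ : 0 < ρ) : ds2Z n R ρ ⊆ U2 n := by
  rintro p ⟨-, -, h1, h2, h3⟩
  refine ⟨by linarith, by linarith, fun h => ?_⟩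
  rw [h, sub_self, norm_zero] at h3
  linarith

theorem ds2_e0 [NeZero n] (x : V n) : x 0 + 1 ≤ ‖x + ee 0‖ ∧ ‖x + ee 0‖ ≤ ‖x‖ + 1 ∧
    ‖x‖ ≤ ‖x + ee 0‖ + 1 := by
  have h0 : ‖(ee 0 : V n)‖ = 1 := by simp [ee]
  refine ⟨?_, (norm_add_le _ _).trans_eq (by rw [h0]), ?_⟩
  · have := (le_abs_self _).trans (ds2_co (x + ee 0))
    simpa [ee] using this
  · have := norm_sub_le (x + ee 0) (ee 0)
    rwa [add_sub_cancel_right, h0] at this

theorem ds2_unk [NeZero n] {R ρ C s : ℝ} (hρ : 0 < ρ) (hC : 1 ≤ C)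
    (hs : Real.log ((2 * ρ) ^ 2) ≤ s) {z : V n × V n} (hz : z ∈ Unk th2 (ds2Z n R ρ) (Sg n R ρ C) s) :
    ‖z.1‖ ≤ Real.exp (8 * (Real.log (C ^ 2) - s)) + 1 ∧ ‖z.2‖ ≤ ‖z.1‖ + C * (‖z.1‖ + 1) ∧
      0 ≤ z.1 0 ∧ 0 ≤ z.2 0 ∧ 2 * ρ ≤ ‖z.1 - z.2‖ := by
  obtain ⟨⟨a1, a2, -, -, a5⟩, ht, hn⟩ := hz
  have hn' : ¬(z.1 0 < 0 ∨ z.2 0 < 0 ∨ C * (z.1 0 + 1) < ‖z.1 - z.2‖ ∨
      C * (z.2 0 + 1) < ‖z.1 - z.2‖) := fun h => hn ⟨a1, a2, a5, h⟩
  push Not at hn'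
  obtain ⟨b1, b2, b3, b4⟩ := hn'
  have hd : 0 < ‖z.1 - z.2‖ := hρ.trans a5
  obtain ⟨e1, -, e3⟩ := ds2_e0 z.1
  have l1 : 0 ≤ Real.log (z.1 0 + 1) := Real.log_nonneg (by linarith)
  have l2 : 0 ≤ Real.log (z.2 0 + 1) := Real.log_nonneg (by linarith)
  have l3 : 0 ≤ Real.log (‖z.1 + ee 0‖ ^ 2) := Real.log_nonneg (by nlinarith)
  simp only [th2, norm_sub_rev z.2 z.1] at ht
  have l4 : Real.log (‖z.1 - z.2‖ ^ 2) ≤
      Real.log (C ^ 2) + Real.log (z.1 0 + 1) + Real.log (z.2 0 + 1) := by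
    rw [← Real.log_mul (by positivity) (by positivity),
      ← Real.log_mul (by positivity) (by positivity)]
    refine Real.log_le_log (by positivity) ?_
    have := mul_le_mul b3 b4 hd.le (by positivity)
    nlinarith
  refine ⟨?_, ?_, b1, b2, ?_⟩
  · have l5 : Real.log ‖z.1 + ee 0‖ ≤ 8 * (Real.log (C ^ 2) - s) := by
      rw [Real.log_pow] at ht
      push_cast at ht
      rw [Real.log_pow] at l4
      rw [Real.log_pow ‖z.1 + ee 0‖] at ht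
      push_cast at ht l4
      linarith
    have := (Real.log_le_iff_le_exp (by linarith)).1 l5
    linarith
  · have h1 : ‖z.2‖ ≤ ‖z.1‖ + ‖z.1 - z.2‖ := by
      have := norm_sub_le z.1 (z.1 - z.2)
      rwa [sub_sub_cancel] at this
    have h2 : z.1 0 ≤ ‖z.1‖ := (le_abs_self _).trans (ds2_co _)
    nlinarith
  · have l5 : Real.log ((2 * ρ) ^ 2) ≤ Real.log (‖z.1 - z.2‖ ^ 2) := by linarith
    have := (Real.log_le_log_iff (by positivity) (by positivity)).1 l5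
    exact (pow_le_pow_iff_left₀ (by positivity) hd.le two_ne_zero).1 this

theorem ds2_dir [NeZero n] {R ρ C τ : ℝ} (hρ : 0 < ρ) (hC : 1 ≤ C) {q : V n × V n}
    (hq : q ∈ Sg n R ρ C) (hτ : 0 ≤ τ)
    (hz : q + τ • ((0 : V n), ‖q.2 - q.1‖⁻¹ • (q.2 - q.1)) ∈ ds2Z n R ρ) :
    q + τ • ((0 : V n), ‖q.2 - q.1‖⁻¹ • (q.2 - q.1)) ∈ Sg n R ρ C := by
  obtain ⟨-, -, a3, a4⟩ := hq
  obtain ⟨z1, z2, -, -, z5⟩ := hz
  refine ⟨z1, z2, z5, ?_⟩
  have hd : 0 < ‖q.2 - q.1‖ := by rw [norm_sub_rev]; exact hρ.trans a3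
  have hk : 0 ≤ τ * ‖q.2 - q.1‖⁻¹ := by positivity
  have e : q.1 - (q.2 + τ • ‖q.2 - q.1‖⁻¹ • (q.2 - q.1)) =
      (1 + τ * ‖q.2 - q.1‖⁻¹) • (q.1 - q.2) := by
    rw [smul_smul]; module
  have hn : ‖q.1 - q.2‖ ≤ ‖q.1 - (q.2 + τ • ‖q.2 - q.1‖⁻¹ • (q.2 - q.1))‖ := by
    rw [e, norm_smul, Real.norm_of_nonneg (by positivity)]
    nlinarith [norm_nonneg (q.1 - q.2)]
  have e0 : (q.2 + τ • ‖q.2 - q.1‖⁻¹ • (q.2 - q.1)) 0 =
      q.2 0 + τ * ‖q.2 - q.1‖⁻¹ * (q.2 0 - q.1 0) := by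
    simp [mul_assoc]
  simp only [Prod.fst_add, Prod.snd_add, Prod.smul_mk, smul_zero, add_zero, e0]
  by_cases hc : q.2 0 ≤ q.1 0
  · have hy : q.2 0 + τ * ‖q.2 - q.1‖⁻¹ * (q.2 0 - q.1 0) ≤ q.2 0 := by nlinarith
    rcases a4 with h | h | h | h
    · exact Or.inl h
    · exact Or.inr (Or.inl (by linarith))
    · exact Or.inr (Or.inr (Or.inl (by linarith)))
    · exact Or.inr (Or.inr (Or.inr (by nlinarith)))
  · push Not at hc
    rcases a4 with h | h | h | h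
    · exact Or.inl h
    · exact Or.inl (by linarith)
    · exact Or.inr (Or.inr (Or.inl (by linarith)))
    · exact Or.inr (Or.inr (Or.inl (by nlinarith)))

theorem ds2_geo [NeZero n] {ρ C s : ℝ} (hρ : 0 < ρ) (hC : 1 ≤ C)
    (hs : Real.log ((2 * ρ) ^ 2) ≤ s) : ∃ R r M c : ℝ, 31 ≤ R ∧ 0 < r ∧ 0 < c ∧
      DG th2 (ds2Z n R ρ) (Sg n R ρ C) s r M c ∧ FLN th2 (ds2Z n R ρ) (Sg n R ρ C) s r M c := by
  set R₂ := Real.exp (8 * (Real.log (C ^ 2) - s)) + 1 with hR₂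
  have p₂ : 0 < R₂ := by positivity
  set R := R₂ + C * (R₂ + 1) + 31 with hR
  have p₃ : 0 < C * (R₂ + 1) := by positivity
  have hR31 : 31 ≤ R := by linarith
  let Kc : Set (V n × V n) := (closedBall 0 R₂ ×ˢ closedBall 0 (R₂ + C * (R₂ + 1))) ∩
    {p | 0 ≤ p.1 0 ∧ 0 ≤ p.2 0 ∧ 2 * ρ ≤ ‖p.1 - p.2‖}
  have hK : IsCompact Kc :=
    ((isCompact_closedBall _ _).prod (isCompact_closedBall _ _)).inter_right <|
      (isClosed_le continuous_const ds2_c1).inter <|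
        (isClosed_le continuous_const ds2_c2).inter <| isClosed_le continuous_const ds2_c3
  have hKZ : Kc ⊆ ds2Z n R ρ := by
    rintro p ⟨⟨a, b⟩, c, d, e⟩
    rw [mem_closedBall_zero_iff] at a b
    exact ⟨by linarith, by linarith, by linarith, by linarith, by linarith⟩
  have hU : ∀ z ∈ Unk th2 (ds2Z n R ρ) (Sg n R ρ C) s, z ∈ Kc := fun z hz => by
    obtain ⟨a, b, c⟩ := ds2_unk hρ hC hs hz
    refine ⟨⟨mem_closedBall_zero_iff.2 a, mem_closedBall_zero_iff.2 ?_⟩, c⟩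
    nlinarith
  have hsm : ContDiffOn ℝ ∞ (th2 (n := n)) (ds2Z n R ρ) := th2_sm.mono (ds2_U hρ)
  obtain ⟨r, M, hr, hM, hb⟩ := cpt3 (ds2_open R ρ) hK hKZ hsm
  have hc : 0 < 1 / (5 * (R + 1) ^ 2) := by positivity
  have gy : ∀ q ∈ ds2Z n R ρ, ‖‖q.2 - q.1‖⁻¹ • (q.2 - q.1)‖ ≤ 1 ∧
      1 / (5 * (R + 1) ^ 2) ≤ fderiv ℝ th2 q (0, ‖q.2 - q.1‖⁻¹ • (q.2 - q.1)) := fun q hq => by
    have hd : 0 < ‖q.2 - q.1‖ := by rw [norm_sub_rev]; exact hρ.trans hq.2.2.2.2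
    refine ⟨by rw [norm_smul, norm_inv, norm_norm, inv_mul_cancel₀ hd.ne'], ?_⟩
    rw [(th2_d (ds2_U hρ hq) _ _).1]
    refine le_trans (one_div_le_one_div_of_le hd ?_) (th2_gy (ds2_U hρ hq))
    nlinarith [norm_sub_le q.2 q.1, hq.1, hq.2.1]
  have sub : ∀ z ∈ Unk th2 (ds2Z n R ρ) (Sg n R ρ C) s, ball z (2 * r) ⊆ ds2Z n R ρ :=
    fun z hz => (hb z (hU z hz)).1
  have b12 : ∀ z : V n × V n, ball z r ⊆ ball z (2 * r) := fun z => ball_subset_ball (by linarith)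
  refine ⟨R, r, max M 4, _, hR31, hr, hc, ⟨ds2_open R ρ, ds2_sg_open R ρ C, hsm.continuousOn, sub,
    fun z hz => hsm.mono (sub z hz),
    fun z hz q hq i hi => ((hb z (hU z hz)).2 q hq i hi).trans (le_max_left _ _),
    fun z hz q hq => ?_, fun z hz q hq => ⟨_, gy q (sub z hz hq)⟩, fun z hz q hq hO => ?_⟩,
    fun z hz q hq => ?_⟩
  · have hq' := sub z hz hq
    obtain ⟨a, ha, h⟩ := th2_gx (ds2_U hρ hq')
    refine ⟨a, ha, ?_⟩
    rw [(th2_d (ds2_U hρ hq') _ _).1]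
    refine le_trans (one_div_le_one_div_of_le (by linarith [hq'.2.2.1]) ?_) h
    nlinarith [(le_abs_self _).trans (ds2_co q.1), hq'.1]
  · obtain ⟨g1, g2⟩ := gy q (sub z hz (b12 z hq))
    have hv : ‖((0 : V n), ‖q.2 - q.1‖⁻¹ • (q.2 - q.1))‖ ≤ 1 := by
      rw [Prod.norm_mk, norm_zero]; exact max_le zero_le_one g1
    refine ⟨_, hv, Or.inl rfl, g2, fun τ hτ => ds2_dir hρ hC hO hτ.1 (sub z hz ?_)⟩
    rw [mem_ball, dist_eq_norm] at hq ⊢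
    have e : q + τ • ((0 : V n), ‖q.2 - q.1‖⁻¹ • (q.2 - q.1)) - z =
        (q - z) + τ • ((0 : V n), ‖q.2 - q.1‖⁻¹ • (q.2 - q.1)) := by abel
    rw [e]
    refine (norm_add_le _ _).trans_lt ?_
    rw [norm_smul, Real.norm_of_nonneg hτ.1]
    nlinarith [hτ.1, hτ.2]
  · have hq' := sub z hz (b12 z hq)
    have hu := ds2_U hρ hq'
    obtain ⟨w, w', h1, h2, h3⟩ := th2_alg hu
    obtain ⟨q1, q2, q3, q4, -⟩ := hq'
    have x1 := (le_abs_self _).trans (ds2_co q.1)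
    have x2 := (le_abs_self _).trans (ds2_co q.2)
    refine ⟨w, w', h1.trans (le_trans ?_ (le_max_right _ _)),
      h2.trans (le_trans ?_ (le_max_right _ _)), fun a c h0 => ?_⟩
    · rw [div_le_iff₀ (by linarith)]; linarith
    · rw [div_le_iff₀ (by linarith)]; linarith
    · rw [(th2_d hu _ _).1] at h0
      rw [(th2_d hu _ _).2, (th2_d hu _ _).1, (th2_d hu _ _).1, (th2_d hu _ _).1, (th2_d hu _ _).1]
      refine le_trans ?_ (h3 a c h0)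
      have k1 : ‖a‖ ^ 2 / (R + 1) ^ 2 ≤ ‖a‖ ^ 2 / (q.1 0 + 1) ^ 2 :=
        div_le_div_of_nonneg_left (by positivity) (pow_pos (by linarith) 2)
          (pow_le_pow_left₀ (by linarith) (by linarith) 2)
      have k2 : ‖c‖ ^ 2 / (R + 1) ^ 2 ≤ ‖c‖ ^ 2 / (q.2 0 + 1) ^ 2 :=
        div_le_div_of_nonneg_left (by positivity) (pow_pos (by linarith) 2)
          (pow_le_pow_left₀ (by linarith) (by linarith) 2)
      have e : 1 / (5 * (R + 1) ^ 2) * (‖a‖ ^ 2 + ‖c‖ ^ 2) =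
          1 / 5 * (‖a‖ ^ 2 / (R + 1) ^ 2 + ‖c‖ ^ 2 / (R + 1) ^ 2) := by field_simp
      rw [e]
      linarith

theorem ds2_up [NeZero n] {R ρ C r r₁ : ℝ} (hR : 31 ≤ R) (h₀ : 0 < r₁) (h₁ : r₁ ≤ r) (hρ : ρ ≤ r) :
    Om0 n r ⊆ Up th2 (ds2Z n R ρ) (Sg n R ρ C) (Real.log (r₁ ^ 2 / 567)) := by
  rintro p ⟨a, b, c⟩
  by_cases h : p.1 0 < 0 ∨ p.2 0 < 0
  · exact Or.inl ⟨by linarith, by linarith, by linarith, h.imp id Or.inl⟩
  push Not at h
  refine Or.inr ⟨⟨by linarith, by linarith, by linarith [h.1], by linarith [h.2], by linarith⟩, ?_⟩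
  have x1 := (le_abs_self _).trans (ds2_co p.1)
  have x2 := (le_abs_self _).trans (ds2_co p.2)
  obtain ⟨e1, e2, -⟩ := ds2_e0 p.1
  have l1 : Real.log (p.1 0 + 1) ≤ Real.log 3 := Real.log_le_log (by linarith [h.1]) (by linarith)
  have l2 : Real.log (p.2 0 + 1) ≤ Real.log 21 := Real.log_le_log (by linarith [h.2]) (by linarith)
  have l3 : Real.log (‖p.1 + ee 0‖ ^ 2) ≤ Real.log 9 :=
    Real.log_le_log (pow_pos (by linarith [h.1]) 2) (by nlinarith [norm_nonneg (p.1 + ee 0)])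
  have l4 : Real.log (r₁ ^ 2) < Real.log (‖p.1 - p.2‖ ^ 2) :=
    Real.log_lt_log (by positivity) (by nlinarith)
  have l5 : 0 ≤ Real.log 9 := Real.log_nonneg (by norm_num)
  have l6 : Real.log (r₁ ^ 2 / 567) = Real.log (r₁ ^ 2) - (Real.log 3 + Real.log 21 + Real.log 9) := by
    rw [Real.log_div (by positivity) (by norm_num), ← Real.log_mul (by norm_num) (by norm_num),
      ← Real.log_mul (by norm_num) (by norm_num)]
    norm_num
  simp only [th2, norm_sub_rev p.2 p.1]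
  linarith

theorem s2 [NeZero n] (h : FPUSH n ι) (h1 : S1 n ι) : S2 n ι := by
  intro r hr
  obtain ⟨K₂, h⟩ := h
  obtain ⟨C, hC, h1⟩ := h1
  have p1 : 0 < min r 1 := lt_min hr one_pos
  have q1 := min_le_left r 1
  have q2 := min_le_right r 1
  have hρ : 0 < min r 1 / 48 := by positivity
  have hs : Real.log ((2 * (min r 1 / 48)) ^ 2) ≤ Real.log (min r 1 ^ 2 / 567) :=
    Real.log_le_log (by positivity) (by nlinarith [sq_nonneg (min r 1)])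
  obtain ⟨R, r₀, M, c, hR, hr₀, hc, hG, hF⟩ := ds2_geo (n := n) hρ hC hs
  obtain ⟨K₁, R', ε₁, C₁, hR', hε₁, hC₁, h1⟩ := h1 R
  obtain ⟨ε₂, C₂, hε₂, hC₂, h⟩ := h M c r₀ hc hr₀
  refine ⟨max K₁ K₂, R', min r 1 / 48, min ε₁ ε₂, C₂ * C₁, by linarith, hρ, by linarith,
    lt_min hε₁ hε₂, by positivity, fun P Q W hP hQ nP nQ hW => ?_⟩
  obtain ⟨W₁, s₁, k₁, b₁⟩ := h1 P Q _ W hP hQ (nP.mono (le_max_left _ _) (min_le_left _ _))
    (nQ.mono (le_max_left _ _) (min_le_left _ _)) (by linarith) hW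
  obtain ⟨W₂, s₂, k₂, b₂⟩ := h P Q _ _ _ _ W₁ hP hQ (nP.mono (le_max_right _ _) (min_le_right _ _))
    (nQ.mono (le_max_right _ _) (min_le_right _ _)) hG hF s₁
  have hu := ds2_up (n := n) (C := C) (ρ := min r 1 / 48) hR p1 q1 (by linarith)
  refine ⟨W₂, s₂.mono hu, fun p hp l m => ?_, fun A hA hb => ?_⟩
  · have hp' : p ∈ Sg n R (min r 1 / 48) C :=
      ⟨by linarith [hp.2.1], by linarith [hp.2.2.1], hp.1.2.2.1, hp.1.2.2.2.imp id Or.inl⟩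
    rw [k₂ p ⟨hp', Or.inl hp'⟩, k₁ p ⟨hp.1, hp'⟩]
  · exact (b₂ _ (by positivity) (b₁ A hA hb)).mono hu (by rw [mul_assoc])

end Vale.Agent.P088F.Dd
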