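import Vale.Agent.P088F.DCalc

/-! P088F, part D: the geometry of the third stage. -/

open scoped ContDiff Topology RealInnerProductSpace
open Set Filter Metric

noncomputable section

namespace Vale.Agent.P088F.Dd

open Vale.Agent.P292E

variable {n : ℕ} {ι : Type} [Fintype ι] [DecidableEq ι]

section aux

variable [NeZero n] {g : Mf n} {P : Par} {κ : ℝ}

theorem dth3_co (v : V n) : |v 0| ≤ ‖v‖ := by
  simpa using PiLp.norm_apply_le v 0

theorem dth3_sm (κ : ℝ) : ContDiff ℝ ∞ (psi (n := n) κ) := by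
  have h : ContDiff ℝ ∞ fun x : V n => x 0 := (EuclideanSpace.proj (𝕜 := ℝ) (0 : Fin n)).contDiff
  exact h.add (contDiff_const.mul ((contDiff_norm_sq ℝ).sub (contDiff_const.mul (h.pow 2))))

theorem dth3_lip (hκ : 0 < κ) (hκ' : κ ≤ 1 / 100) {x y : V n} (hx : ‖x‖ ≤ 3) (hy : ‖y‖ ≤ 3) :
    psi κ y - psi κ x ≤ 2 * ‖x - y‖ := by
  have h1 := abs_le.1 (dth3_co (x - y))
  have h2 := abs_le.1 ((dth3_co x).trans hx)
  have h3 := abs_le.1 ((dth3_co y).trans hy)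
  have h4 := norm_sub_norm_le y x
  rw [norm_sub_rev] at h4
  rw [PiLp.sub_apply] at h1
  have h5 : ‖y‖ ^ 2 - ‖x‖ ^ 2 ≤ 6 * ‖x - y‖ := by
    nlinarith [norm_nonneg x, norm_nonneg y, norm_nonneg (x - y)]
  have h6 : x 0 ^ 2 - y 0 ^ 2 ≤ 6 * ‖x - y‖ := by nlinarith [h1.1, h1.2, h2.1, h2.2, h3.1, h3.2]
  unfold psi
  nlinarith [norm_nonneg (x - y)]

theorem dth3_dpsi (hκ : 0 < κ) (hκ' : κ ≤ 1 / 100) {x : V n} (hx : ‖x‖ < 3) (v : V n) :
    fderiv ℝ (psi κ) x v ≤ 2 * ‖v‖ := by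
  have h : ‖fderiv ℝ (psi κ) x‖ ≤ 2 := by
    refine norm_fderiv_le_of_lip' ℝ zero_le_two ?_
    filter_upwards [isOpen_ball.mem_nhds (mem_ball_zero_iff.2 hx)] with y hy
    have h1 := dth3_lip hκ hκ' hx.le (mem_ball_zero_iff.1 hy).le
    have h2 := dth3_lip hκ hκ' (mem_ball_zero_iff.1 hy).le hx.le
    rw [norm_sub_rev] at h1
    exact abs_le.2 ⟨by linarith, h1⟩
  exact (le_abs_self _).trans (((fderiv ℝ (psi κ) x).le_opNorm v).trans (by gcongr))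

theorem dth3_b (hB : 0 < P.B) (x : V n) : 0 < P.b x := mul_pos hB (Real.exp_pos _)

theorem dth3_log (hB : 0 < P.B) (x : V n) :
    Real.log (P.b x) = Real.log P.B + P.N * (psi P.κ x - P.a) := by
  rw [Par.b, Real.log_mul hB.ne' (Real.exp_pos _).ne', Real.log_exp]

theorem dth3_lsm (hB : 0 < P.B) : ContDiff ℝ ∞ fun x : V n => Real.log (P.b x) := by
  simp only [dth3_log hB]
  exact contDiff_const.add (contDiff_const.mul ((dth3_sm _).sub contDiff_const))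

omit [NeZero n] in
theorem dth3_qq (hg : QQ g) {q : V n × V n} (hq : q.1 ≠ q.2) : 0 < qq g q :=
  lt_of_lt_of_le (half_pos (pow_pos (norm_pos_iff.2 (sub_ne_zero.2 hq)) 2)) (hg.lo q)

theorem dth3_at (hg : QQ g) (hB : 0 < P.B) {q : V n × V n} (hq : q.1 ≠ q.2) :
    ContDiffAt ℝ ∞ (P.Th g) q :=
  ((hg.sm.contDiffAt.log (dth3_qq hg hq).ne').sub
    ((dth3_lsm hB).comp contDiff_fst).contDiffAt).sub ((dth3_lsm hB).comp contDiff_snd).contDiffAt

theorem dth3_der (hg : QQ g) (hB : 0 < P.B) {q : V n × V n} (hq : q.1 ≠ q.2) (v : V n × V n) :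
    fderiv ℝ (P.Th g) q v = (qq g q)⁻¹ * fderiv ℝ (qq g) q v -
      P.N * fderiv ℝ (psi P.κ) q.1 v.1 - P.N * fderiv ℝ (psi P.κ) q.2 v.2 := by
  have h1 := (hg.sm.differentiable (by simp) q).hasFDerivAt.log (dth3_qq hg hq).ne'
  have h2 : ∀ x : V n, HasFDerivAt (fun y : V n => Real.log (P.b y))
      (P.N • fderiv ℝ (psi P.κ) x) x := fun x => by
    simp only [dth3_log hB]
    exact ((((dth3_sm P.κ).differentiable (by simp) x).hasFDerivAt.sub_const _).const_mul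
      _).const_add _
  have h3 := ((h1.sub ((h2 q.1).comp q hasFDerivAt_fst)).sub
    ((h2 q.2).comp q hasFDerivAt_snd)).fderiv
  exact congrArg (fun f => f v) h3

theorem dth3_par (hP : P.Ok 1 (1 / 10)) : P.B ≤ 1 / 100 ∧ P.N * P.B ≤ 1 / 100 := by
  have h0 := hP.B0
  have h1 := hP.N0
  have h2 : P.N ≤ P.N ^ 3 := le_self_pow₀ h1 (by norm_num)
  have h3 := Real.sqrt_nonneg P.B
  have h4 : √P.B * P.N ≤ 1 / 10 := le_trans (by gcongr) hP.B1
  have h5 : (√P.B * P.N) ^ 2 ≤ (1 / 10) ^ 2 := by gcongr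
  rw [mul_pow, Real.sq_sqrt h0.le] at h5
  have h6 : P.N * P.B ≤ 1 / 100 := by nlinarith [mul_pos h0 (by linarith : 0 < P.N)]
  exact ⟨by nlinarith, h6⟩

theorem dth3_U (hP : P.Ok 1 (1 / 10)) {q : V n × V n} (hq : q ∈ U3 P n) :
    q ∈ Z3 P n ∧ ‖q.2‖ < 2 ∧ 0 < ‖q.1 - q.2‖ ∧ ‖q.1 - q.2‖ ≤ 1 := by
  obtain ⟨h1, h2, h3, h4⟩ := hq
  have h5 := (dth3_par hP).1
  have h6 := dth3_b hP.B0 q.1
  have h7 := norm_sub_norm_le q.2 q.1
  rw [norm_sub_rev] at h7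
  have h8 : 0 < ‖q.1 - q.2‖ := by linarith
  exact ⟨⟨by linarith, by linarith, h2, sub_ne_zero.1 (norm_pos_iff.1 h8)⟩, by linarith, h8,
    by linarith⟩

theorem dth3_rad (hg : QQ g) (hκ : 0 < P.κ) (hκ' : P.κ ≤ 1 / 100) (hP : P.Ok 1 (1 / 10))
    {q : V n × V n} (hq : q ∈ U3 P n) :
    1 ≤ fderiv ℝ (P.Th g) q (‖q.1 - q.2‖⁻¹ • (q.1 - q.2), 0) ∧
      1 ≤ fderiv ℝ (P.Th g) q (0, ‖q.1 - q.2‖⁻¹ • (q.2 - q.1)) := by
  obtain ⟨h1, h2, h3, h4⟩ := dth3_U hP hq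
  have h5 := dth3_qq hg h1.2.2.2
  have h6 := (dth3_par hP).2
  have h7 : (0 : ℝ) ≤ P.N := zero_le_one.trans hP.N0
  have h8 : P.N * ‖q.1 - q.2‖ ≤ 1 / 100 := le_trans (by gcongr; exact hq.2.2.2.le) h6
  have h9 : 1 ≤ ‖q.1 - q.2‖⁻¹ := (one_le_inv₀ h3).2 h4
  have a1 := mul_le_mul_of_nonneg_left
    (dth3_dpsi hκ hκ' (hq.1.trans (by norm_num)) (q.1 - q.2)) h7
  have a2 := mul_le_mul_of_nonneg_left
    (dth3_dpsi hκ hκ' (h2.trans (by norm_num)) (q.2 - q.1)) h7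
  rw [norm_sub_rev] at a2
  have b1 := (le_inv_mul_iff₀ h5).2 ((mul_comm _ _).trans_le (hg.rx q h4))
  have b2 := (le_inv_mul_iff₀ h5).2 ((mul_comm _ _).trans_le (hg.ry q h4))
  have c1 := dth3_der hg hP.B0 h1.2.2.2 (q.1 - q.2, 0)
  have c2 := dth3_der hg hP.B0 h1.2.2.2 (0, q.2 - q.1)
  simp only [map_zero, mul_zero, sub_zero] at c1 c2
  constructor
  · rw [← smul_zero ‖q.1 - q.2‖⁻¹, ← Prod.smul_mk, map_smul, smul_eq_mul]
    exact one_le_mul_of_one_le_of_one_le h9 (by linarith)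
  · rw [← smul_zero ‖q.1 - q.2‖⁻¹, ← Prod.smul_mk, map_smul, smul_eq_mul]
    exact one_le_mul_of_one_le_of_one_le h9 (by linarith)

theorem dth3_near (hκ : 0 < P.κ) (hκ' : P.κ ≤ 1 / 100) (hP : P.Ok 1 (1 / 10)) {x y : V n}
    (hx : ‖x‖ < 2) (h : ‖x - y‖ ≤ P.B / 100) :
    |Real.log (P.b y) - Real.log (P.b x)| ≤ 1 := by
  obtain ⟨h1, h2⟩ := dth3_par hP
  have h3 := norm_sub_norm_le y x
  rw [norm_sub_rev] at h3
  have h4 : (0 : ℝ) ≤ P.N := zero_le_one.trans hP.N0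
  have h5 := mul_le_mul_of_nonneg_left (dth3_lip hκ hκ' (x := x) (y := y) (by linarith)
    (by linarith)) h4
  have h6 := mul_le_mul_of_nonneg_left (dth3_lip hκ hκ' (x := y) (y := x) (by linarith)
    (by linarith)) h4
  rw [norm_sub_rev] at h6
  have h7 := mul_le_mul_of_nonneg_left h h4
  rw [dth3_log hP.B0, dth3_log hP.B0, abs_le]
  constructor <;> linarith

theorem dth3_new (hg : QQ g) (hκ : 0 < P.κ) (hκ' : P.κ ≤ 1 / 100) (hP : P.Ok 1 (1 / 10)) :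
    P.new n ⊆ Up (P.Th g) (Z3 P n) (O3 P n) (-4) := by
  rintro p ⟨h1, h2, h3, h4⟩
  have h5 := dth3_b hP.B0 p.1
  have hZ : p ∈ Z3 P n := ⟨h1, h2, h3, sub_ne_zero.1 (norm_pos_iff.1 (by linarith))⟩
  rcases lt_or_ge (P.B / 100) ‖p.1 - p.2‖ with h | h
  · exact Or.inl ⟨hZ, Or.inl h⟩
  refine Or.inr ⟨hZ, ?_⟩
  have h6 := abs_le.1 (dth3_near hκ hκ' hP h1 h)
  have h7 : P.b p.1 ^ 2 / 2 ^ 3 < qq g p := by nlinarith [hg.lo p]
  have h8 := Real.log_lt_log (by positivity) h7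
  rw [Real.log_div (by positivity) (by positivity), Real.log_pow, Real.log_pow] at h8
  have h9 := Real.log_le_sub_one_of_pos two_pos
  unfold Par.Th
  push_cast at h8
  linarith

theorem dth3_unk (hg : QQ g) (hκ : 0 < P.κ) (hκ' : P.κ ≤ 1 / 100) (hP : P.Ok 1 (1 / 10))
    {z : V n × V n} (hz : z ∈ Unk (P.Th g) (Z3 P n) (O3 P n) (-4)) :
    ‖z.1‖ ≤ 1 / 2 ∧ P.b z.1 / 19 ≤ ‖z.1 - z.2‖ ∧ ‖z.1 - z.2‖ ≤ P.B / 100 := by
  obtain ⟨hZ, h1, h2⟩ := hz
  have h3 : ‖z.1 - z.2‖ ≤ P.B / 100 := not_lt.1 fun h => h2 ⟨hZ, Or.inl h⟩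
  have h4 : 0 ≤ z.1 0 := not_lt.1 fun h => h2 ⟨hZ, Or.inr (Or.inl h)⟩
  refine ⟨?_, ?_, h3⟩
  · have h5 := (abs_le.1 (dth3_co z.1)).2.trans_lt hZ.1
    have h6 := hZ.2.2.1.trans_le hP.a1
    unfold psi at h6
    have h7 : P.κ * z.1 0 ≤ 2 / 100 := by nlinarith
    have h8 : P.κ * ‖z.1‖ ^ 2 < P.κ * (1 / 2) ^ 2 := by nlinarith
    exact (pow_le_pow_iff_left₀ (norm_nonneg _) (by norm_num) two_ne_zero).1
      (lt_of_mul_lt_mul_left h8 hκ.le).le
  · have h5 := dth3_b hP.B0 z.1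
    have h6 := abs_le.1 (dth3_near hκ hκ' hP hZ.1 h3)
    have h7 := dth3_qq hg hZ.2.2.2
    have h8 : Real.log (P.b z.1 ^ 2) < Real.log (Real.exp 1 ^ 5 * qq g z) := by
      rw [Real.log_mul (by positivity) h7.ne', Real.log_pow, Real.log_pow, Real.log_exp]
      unfold Par.Th at h1
      push_cast
      linarith
    have h9 := (Real.log_lt_log_iff (by positivity) (by positivity)).1 h8
    have e1 : Real.exp 1 ^ 5 ≤ (272 / 100) ^ 5 := by
      gcongr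
      linarith [Real.exp_one_lt_d9]
    have e2 : Real.exp 1 ^ 5 * qq g z ≤ (272 / 100) ^ 5 * (2 * ‖z.1 - z.2‖ ^ 2) := by
      gcongr
      exact hg.up z
    refine (pow_le_pow_iff_left₀ (by positivity) (norm_nonneg _) two_ne_zero).1 ?_
    nlinarith [sq_nonneg ‖z.1 - z.2‖]

end aux

omit [Fintype ι] [DecidableEq ι] in
theorem th3_geo [NeZero n] {g : Mf n} (hg : QQ g) {P : Par} (hκ : 0 < P.κ) (hκ' : P.κ ≤ 1 / 100)
    (hP : P.Ok 1 (1 / 10)) :
    P.new n ⊆ Up (P.Th g) (Z3 P n) (O3 P n) (-4) ∧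
    ∃ r M c : ℝ, 0 < r ∧ 0 < c ∧ DG (P.Th g) (Z3 P n) (O3 P n) (-4) r M c ∧
      ∀ z ∈ Unk (P.Th g) (Z3 P n) (O3 P n) (-4), ∀ q ∈ ball z r,
        q ∈ U3 P n ∧ ‖P.w q.1‖ ≤ M ∧ ‖P.w q.2‖ ≤ M := by
  refine ⟨dth3_new hg hκ hκ' hP, ?_⟩
  have cψ := (dth3_sm (n := n) P.κ).continuous
  have cb : Continuous (P.b (n := n)) := by
    unfold Par.b
    fun_prop
  have c0 : Continuous fun x : V n => x 0 := by fun_prop
  have n1 : Continuous fun p : V n × V n => ‖p.1‖ := continuous_fst.norm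
  have n2 : Continuous fun p : V n × V n => ‖p.1 - p.2‖ := (continuous_fst.sub continuous_snd).norm
  have oZ : IsOpen (Z3 P n) :=
    (isOpen_lt n1 continuous_const).and ((isOpen_lt continuous_snd.norm continuous_const).and
      ((isOpen_lt (cψ.comp continuous_fst) continuous_const).and
        (isOpen_ne_fun continuous_fst continuous_snd)))
  have oO : IsOpen (O3 P n) :=
    oZ.inter ((isOpen_lt continuous_const n2).union ((isOpen_lt (c0.comp continuous_fst)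
      continuous_const).union (isOpen_lt (c0.comp continuous_snd) continuous_const)))
  have oU : IsOpen (U3 P n) :=
    (isOpen_lt n1 continuous_const).and ((isOpen_lt (cψ.comp continuous_fst)
      continuous_const).and ((isOpen_lt ((cb.comp continuous_fst).div_const 20) n2).and
        (isOpen_lt n2 continuous_const)))
  have hB := (dth3_par hP).1
  have hK : IsCompact {z : V n × V n |
      ‖z.1‖ ≤ 1 / 2 ∧ P.b z.1 / 19 ≤ ‖z.1 - z.2‖ ∧ ‖z.1 - z.2‖ ≤ P.B / 100} := by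
    refine (isCompact_closedBall 0 1).of_isClosed_subset
      ((isClosed_le n1 continuous_const).inter ((isClosed_le
        ((cb.comp continuous_fst).div_const 19) n2).inter (isClosed_le n2 continuous_const)))
      fun z hz => ?_
    have h1 := norm_sub_norm_le z.2 z.1
    rw [norm_sub_rev] at h1
    exact mem_closedBall_zero_iff.2 (max_le (by linarith [hz.1]) (by linarith [hz.1, hz.2.2]))
  have sU : ContDiffOn ℝ ∞ (P.Th g) (U3 P n) := fun q hq =>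
    (dth3_at hg hP.B0 (dth3_U hP hq).1.2.2.2).contDiffWithinAt
  obtain ⟨r, M, hr, hM, h⟩ := cpt3 oU hK (fun z hz => by
    have h1 := dth3_b hP.B0 z.1
    have h2 := hP.B0
    refine ⟨by linarith [hz.1], ?_, by linarith [hz.2.1], by linarith [hz.2.2]⟩
    have h3 : P.B * Real.exp (P.N * (psi P.κ z.1 - P.a)) < P.B * 1 := by
      change P.b z.1 < _
      linarith [hz.2.1, hz.2.2]
    have h4 := Real.exp_lt_one_iff.1 (lt_of_mul_lt_mul_left h3 h2.le)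
    exact sub_neg.1 (neg_of_mul_neg_right h4 (zero_le_one.trans hP.N0))) sU
  have cw : Continuous (P.w (n := n)) :=
    (PiLp.continuous_toLp 2 _).comp (continuous_pi fun j =>
      ((dth3_lsm hP.B0).continuous_fderiv (by simp)).clm_apply continuous_const)
  obtain ⟨D, hD⟩ := (isCompact_closedBall (0 : V n) 2).exists_bound_of_continuousOn
    cw.continuousOn
  have hU := fun z hz => (h z (dth3_unk hg hκ hκ' hP hz)).1
  have un : ∀ q ∈ U3 P n, ‖‖q.1 - q.2‖⁻¹ • (q.1 - q.2)‖ ≤ 1 ∧ ‖‖q.1 - q.2‖⁻¹ • (q.2 - q.1)‖ ≤ 1 :=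
    fun q hq => by
      rw [norm_smul, norm_smul, norm_sub_rev q.2, norm_inv, norm_norm,
        inv_mul_cancel₀ (dth3_U hP hq).2.2.1.ne']
      exact ⟨le_rfl, le_rfl⟩
  have sb : ∀ z : V n × V n, ball z r ⊆ ball z (2 * r) := fun z => ball_subset_ball (by linarith)
  refine ⟨r, max M D, 1, hr, one_pos, ⟨oZ, oO,
    fun q hq => (dth3_at hg hP.B0 hq.2.2.2).continuousAt.continuousWithinAt,
    fun z hz q hq => (dth3_U hP (hU z hz hq)).1, fun z hz => sU.mono (hU z hz),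
    fun z hz q hq i hi => ((h z (dth3_unk hg hκ hκ' hP hz)).2 q hq i hi).trans (le_max_left _ _),
    fun z hz q hq => ⟨_, (un q (hU z hz hq)).1, (dth3_rad hg hκ hκ' hP (hU z hz hq)).1⟩,
    fun z hz q hq => ⟨_, (un q (hU z hz hq)).2, (dth3_rad hg hκ hκ' hP (hU z hz hq)).2⟩,
    fun z hz q hq hO => ?_⟩, fun z hz q hq => ?_⟩
  · have qU := hU z hz (sb z hq)
    have mv : ∀ v : V n × V n, ‖v‖ ≤ 1 → ∀ τ ∈ Icc (0 : ℝ) r, q + τ • v ∈ Z3 P n :=
      fun v hv τ hτ => by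
        refine (dth3_U hP (hU z hz ?_)).1
        have h1 : dist (q + τ • v) q ≤ r := by
          rw [dist_self_add_left, norm_smul, Real.norm_of_nonneg hτ.1]
          exact (mul_le_of_le_one_right hτ.1 hv).trans hτ.2
        have h2 := dist_triangle (q + τ • v) q z
        rw [mem_ball] at hq ⊢
        linarith
    by_cases h2 : q.2 0 < 0
    · have hv : ‖((‖q.1 - q.2‖⁻¹ • (q.1 - q.2), 0) : V n × V n)‖ ≤ 1 :=
        max_le (un q qU).1 (by simp)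
      exact ⟨_, hv, Or.inr rfl, (dth3_rad hg hκ hκ' hP qU).1, fun τ hτ =>
        ⟨mv _ hv τ hτ, Or.inr (Or.inr (by simpa using h2))⟩⟩
    · have hv : ‖((0, ‖q.1 - q.2‖⁻¹ • (q.2 - q.1)) : V n × V n)‖ ≤ 1 :=
        max_le (by simp) (un q qU).2
      refine ⟨_, hv, Or.inl rfl, (dth3_rad hg hκ hκ' hP qU).2, fun τ hτ => ⟨mv _ hv τ hτ, ?_⟩⟩
      rcases hO.2 with h3 | h3 | h3
      · refine Or.inl (h3.trans_le ?_)
        have e : (q + τ • ((0, ‖q.1 - q.2‖⁻¹ • (q.2 - q.1)) : V n × V n)).1 -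
            (q + τ • ((0, ‖q.1 - q.2‖⁻¹ • (q.2 - q.1)) : V n × V n)).2 =
            (1 + τ * ‖q.1 - q.2‖⁻¹) • (q.1 - q.2) := by
          simp only [Prod.fst_add, Prod.snd_add, Prod.smul_mk]
          module
        have h4 : 0 ≤ τ * ‖q.1 - q.2‖⁻¹ := mul_nonneg hτ.1 (by positivity)
        rw [e, norm_smul, Real.norm_of_nonneg (by linarith)]
        exact le_mul_of_one_le_left (norm_nonneg _) (by linarith)
      · exact Or.inr (Or.inl (by simpa using h3))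
      · exact (h2 h3).elim
  · have qU := hU z hz (sb z hq)
    exact ⟨qU, (hD _ (mem_closedBall_zero_iff.2 (qU.1.le.trans one_le_two))).trans
      (le_max_right _ _), (hD _ (mem_closedBall_zero_iff.2 (dth3_U hP qU).2.1.le)).trans
      (le_max_right _ _)⟩

end Vale.Agent.P088F.Dd
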