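import Vale.Agent.P088F.DW0
import Vale.Agent.P088F.DQq
import Vale.Agent.P088F.DTh3

/-! P088F, part D: the third stage. -/

open scoped ContDiff Topology RealInnerProductSpace
open Set Filter Metric

noncomputable section

namespace Vale.Agent.P088F.Dd

open Vale.Agent.P292E

variable {n : ℕ} {ι : Type} [Fintype ι] [DecidableEq ι]

theorem ds3_old [NeZero n] (P : Par) : IsOpen (P.old n) := by
  have h : Continuous fun p : V n × V n => psi P.κ p.1 := by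
    unfold psi
    fun_prop
  exact (isOpen_lt continuous_fst.norm continuous_const).inter
    ((isOpen_lt continuous_snd.norm continuous_const).inter
      ((isOpen_lt h continuous_const).inter
        (isOpen_lt continuous_const (continuous_fst.sub continuous_snd).norm)))

theorem ds3_OO [NeZero n] (R : ℝ) : IsOpen (OO n R) := by
  have h1 : Continuous fun p : V n × V n => p.1 0 := by fun_prop
  have h2 : Continuous fun p : V n × V n => p.2 0 := by fun_prop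
  exact ((isOpen_ball.preimage continuous_fst).inter ((isOpen_ball.preimage continuous_snd).inter
    (isOpen_ne_fun continuous_fst continuous_snd))).inter
      ((isOpen_lt h1 continuous_const).union (isOpen_lt h2 continuous_const))

theorem ds3_num {B N c b ρ : ℝ} (hB : 0 < B) (hN : 1 ≤ N) (h1 : √B * N ^ 3 ≤ c)
    (h2 : √B * N ^ 3 ≤ 1 / 10) (hb : 0 < b) (hbB : b ≤ B) (h3 : b / 20 < ρ) (h4 : ρ < B) :
    ρ * N ^ 2 ≤ c ∧ b ^ 3 ≤ c * ρ := by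
  obtain ⟨β, hβ, rfl⟩ : ∃ β : ℝ, 0 < β ∧ B = β ^ 2 :=
    ⟨√B, Real.sqrt_pos.2 hB, (Real.sq_sqrt hB.le).symm⟩
  rw [Real.sqrt_sq hβ.le] at h1 h2
  have h5 : β ≤ β * N ^ 3 := le_mul_of_one_le_right hβ.le (one_le_pow₀ hN)
  have h6 : N ^ 2 ≤ N ^ 3 := pow_le_pow_right₀ hN (by norm_num)
  have h7 : β ^ 2 ≤ β / 10 := by nlinarith
  have h8 : 0 ≤ N ^ 2 := sq_nonneg N
  have hρ : 0 < ρ := by linarith
  refine ⟨?_, ?_⟩
  · have h9 : ρ * N ^ 2 ≤ β * N ^ 3 := mul_le_mul (by linarith) h6 h8 hβ.le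
    linarith
  · have h9 : b ^ 2 ≤ (β / 10) ^ 2 := pow_le_pow_left₀ hb.le (hbB.trans h7) 2
    have h10 : b ^ 2 * b ≤ c / 20 * (20 * ρ) :=
      mul_le_mul (by nlinarith) (by linarith) hb.le (by linarith)
    linarith

theorem stepE_of [NeZero n] (ht : TB n ι) (hq : PQ n ι) (h : PUSH n ι) : StepE n ι := by
  obtain ⟨κ₀, C, hκ₀, hq⟩ := hq
  obtain ⟨Kp, h⟩ := h
  obtain ⟨t1, -, t3, -, ⟨ε₀, hε₀, t5⟩, -⟩ := ht
  obtain ⟨CT, hCT, t3⟩ := t3 Kp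
  obtain ⟨ε₂, hε₂, hqq⟩ := qq_ok (n := n) (ι := ι)
  refine ⟨min κ₀ (1 / 100), lt_min hκ₀ (by norm_num), fun κ hκ hκ' => ?_⟩
  obtain ⟨ε₁, c₁, N₁, η', hε₁, hc₁, hη', hq⟩ :=
    hq κ hκ (hκ'.trans (min_le_left _ _)) (1 / 64) (by norm_num)
  have hCT0 : 0 < CT := one_pos.trans_le hCT
  refine ⟨Kp + 3, min (min ε₁ ε₂) (ε₀ / CT), min c₁ (1 / 10), max N₁ 1,
    lt_min (lt_min hε₁ hε₂) (by positivity), lt_min hc₁ (by norm_num),
    fun P d c₀ Λ W₀ eκ hP hd hH hW₀ => ?_⟩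
  subst eκ
  have a1 : min (min ε₁ ε₂) (ε₀ / CT) ≤ ε₁ := (min_le_left _ _).trans (min_le_left _ _)
  have a2 : min (min ε₁ ε₂) (ε₀ / CT) ≤ ε₂ := (min_le_left _ _).trans (min_le_right _ _)
  have a3 : min (min ε₁ ε₂) (ε₀ / CT) ≤ ε₀ / CT := min_le_right _ _
  have hN : 1 ≤ P.N := (le_max_right _ _).trans hP.N0
  have hN0 : 0 < P.N := one_pos.trans_le hN
  have b1 : d.L1.Bdd Kp 2 (1 / 2) :=
    t5 Kp d.L1 _ hd.sm1 (a3.trans (div_le_self hε₀.le hCT)) (hd.nr1.mono (by omega) le_rfl)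
  have b2 : d.L2.t.Bdd Kp 2 (1 / 2) :=
    t5 Kp d.L2.t (CT * (ε₀ / CT)) (t1 _ hd.sm2) (mul_div_cancel₀ _ hCT0.ne').le
      (t3 d.L2 _ hd.sm2 (hd.nr2.mono (by omega) a3))
  obtain ⟨g1, r, M, c, hr, hc, g2, g3⟩ := th3_geo (n := n)
    (hqq d.L2 hd.sm2 (hd.nr2.mono (by omega) a2)) hκ (hκ'.trans (min_le_right _ _))
    (hP.mono (le_max_right _ _) (min_le_right _ _))
  obtain ⟨X, hX⟩ := w0 hd
  obtain ⟨Wa, s1, s2, s3⟩ := glue2 (ds3_old P) (ds3_OO 30) hW₀.sol hX.sol fun p hp l m =>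
    hp.1.2.elim (fun e => (hX.e2 p hp.1 e l m).trans (hW₀.e2 p hp.2 e l m).symm)
      fun e => (hX.e1 p hp.1 e l m).trans (hW₀.e1 p hp.2 e l m).symm
  have z1 : ∀ p ∈ Z3 P n, p.1 0 < 0 ∨ p.2 0 < 0 → p ∈ OO n 30 := fun p hp e =>
    ⟨⟨mem_ball_zero_iff.2 (hp.1.trans (by norm_num)),
      mem_ball_zero_iff.2 (hp.2.1.trans (by norm_num)), hp.2.2.2⟩, e⟩
  have z2 : O3 P n ⊆ P.old n ∪ OO n 30 := fun p hp => hp.2.elim
    (fun e => Or.inl ⟨hp.1.1, hp.1.2.1, hp.1.2.2.1.trans (lt_add_of_pos_right _ (by positivity)), e⟩)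
    fun e => Or.inr (z1 p hp.1 e)
  have z3 : P.new n ⊆ Z3 P n := fun p hp => ⟨hp.1, hp.2.1, hp.2.2.1, fun e => by
    have h1 := hp.2.2.2
    rw [e, sub_self, norm_zero] at h1
    linarith [Par.b_pos hP.B0 p.2]⟩
  have hk : 0 < P.κ * P.N / 4 := by positivity
  obtain ⟨C', -, h⟩ := h (max M (max 2 (P.κ * P.N / 4))) (min c (min (1 / 2) (P.κ * P.N / 4))) r
    (lt_min hc (lt_min (by norm_num) hk)) hr
  have m1 : 2 ≤ max M (max 2 (P.κ * P.N / 4)) := (le_max_left _ _).trans (le_max_right _ _)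
  have m2 : min c (min (1 / 2) (P.κ * P.N / 4)) ≤ 1 / 2 :=
    (min_le_right _ _).trans (min_le_left _ _)
  have hL : LevN d.L1.g d.L2.t.g (P.Th d.L2.g) (Z3 P n) (O3 P n) (-4) r
      (max M (max 2 (P.κ * P.N / 4))) (min c (min (1 / 2) (P.κ * P.N / 4))) := fun z hz q hq' => by
    obtain ⟨⟨u1, u2, u3, u4⟩, u5, u6⟩ := g3 z hz q hq'
    have v1 := Par.b_pos hP.B0 q.1
    have v2 : P.b q.1 ≤ P.B := mul_le_of_le_one_right hP.B0.le
      (Real.exp_le_one_iff.2 (mul_nonpos_of_nonneg_of_nonpos hN0.le (by linarith)))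
    obtain ⟨v3, v4⟩ := ds3_num hP.B0 hN (hP.B1.trans (min_le_left _ _))
      (hP.B1.trans (min_le_right _ _)) v1 v2 u3 u4
    have v5 : q.1 ≠ q.2 := fun e => by
      rw [← e, sub_self, norm_zero] at u3
      linarith
    refine ⟨P.w q.1, P.w q.2, P.κ * P.N / 4, u5.trans (le_max_left _ _),
      u6.trans (le_max_left _ _), (min_le_right _ _).trans (min_le_right _ _),
      (le_max_right _ _).trans (le_max_right _ _), fun ξ η hτ => ?_⟩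
    have v6 := hq P d q rfl ((le_max_left _ _).trans hP.N0) hP.B0 hd.sm1 hd.sm2
      (hd.nr1.mono (by omega) a1) (hd.nr2.mono (by omega) a1) (by linarith) v5 v3
      ((hH q.1 (by linarith) u2).mono v4) ξ η
    have v7 : tau d.L1.g d.L2.g (P.Th d.L2.g) q ξ η = 0 := hτ
    have v8 : 0 ≤ η' / (P.N * ‖q.1 - q.2‖ ^ 2) * ‖gv d.L2.g q.2 η - gv d.L1.g q.1 ξ‖ ^ 2 := by
      positivity
    have v9 := mul_le_mul_of_nonneg_left (add_le_add (b1.ell q.1 ξ) (b2.ell q.2 η)) hk.le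
    rw [v7] at v6
    change P.κ * P.N / 4 * _ ≤ P.κ * P.N / 4 * (_ + ip d.L2.g q.2 η η) at v9
    change P.κ * P.N / 4 * (_ + perp d.L2.g _ _ _) - _ * (_ + ip d.L2.g q.2 η η) ≤
      Lev d.L1.g d.L2.g _ _ _ _ _ _
    linarith
  obtain ⟨W, w1, w2, -⟩ := h d.L1 d.L2.t (P.Th d.L2.g) (Z3 P n) (O3 P n) (-4) Wa hd.sm1
    (t1 _ hd.sm2) (b1.mono le_rfl m1 m2) (b2.mono le_rfl m1 m2)
    (g2.mono (le_max_left _ _) (min_le_left _ _)) hL (s1.mono z2)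
  have w3 : ∀ p ∈ O3 P n, ∀ l m, W l m p.1 p.2 = Wa l m p.1 p.2 := fun p hp =>
    w2 p ⟨hp, Or.inl hp⟩
  refine ⟨W, ⟨w1.mono g1, fun p hp e l m => ?_, fun p hp e l m => ?_⟩, fun p hp e l m => ?_⟩
  · have h1 := z1 p (z3 hp) (Or.inr e)
    rw [w3 p ⟨z3 hp, Or.inr (Or.inr e)⟩, s3 p h1, hX.e1 p h1 e]
  · have h1 := z1 p (z3 hp) (Or.inl e)
    rw [w3 p ⟨z3 hp, Or.inr (Or.inl e)⟩, s3 p h1, hX.e2 p h1 e]
  · rw [w3 p ⟨z3 hp, Or.inl e.2.2.2⟩, s2 p e]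

end Vale.Agent.P088F.Dd
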