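import Vale.Agent.P088F.DCalc
import Vale.Agent.P088F.DUniq

/-! P088F, part D: one step across a foliation. -/

open scoped ContDiff Topology RealInnerProductSpace
open Set Filter Metric

noncomputable section

namespace Vale.Agent.P088F.Dd

open Vale.Agent.P292E

variable {n : ℕ} {ι : Type} [Fintype ι] [DecidableEq ι]

omit [DecidableEq ι] in
theorem step_bd {P Q : Op n ι} {Ω S Kc : Set (V n × V n)} {W : Kr n ι} (hW : Sol P Q Ω W)
    (hK : IsCompact Kc) (hS : S ⊆ Kc) (hΩ : Kc ⊆ Ω) :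
    ∃ A₀ : ℝ, 0 ≤ A₀ ∧ KBd W S A₀ ∧ ∀ A, 0 ≤ A → KBd W Ω A → A₀ ≤ A := by
  have hb : ∀ l m, ∃ B : ℝ, ∀ p ∈ Kc, ‖W l m p.1 p.2‖ ≤ B := fun l m =>
    hK.exists_bound_of_continuousOn ((hW.sm l m).continuousOn.mono hΩ)
  choose B hB using hb
  have hne : {A : ℝ | 0 ≤ A ∧ KBd W S A}.Nonempty := by
    refine ⟨∑ l, ∑ m, |B l m|, by positivity, fun p hp l m => ?_⟩
    calc ‖W l m p.1 p.2‖ ≤ |B l m| := (hB l m p (hS hp)).trans (le_abs_self _)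
      _ ≤ ∑ m, |B l m| := Finset.single_le_sum (f := fun m => |B l m|)
          (fun _ _ => abs_nonneg _) (Finset.mem_univ m)
      _ ≤ ∑ l, ∑ m, |B l m| := Finset.single_le_sum (f := fun l => ∑ m, |B l m|)
          (fun _ _ => by positivity) (Finset.mem_univ l)
  refine ⟨sInf {A : ℝ | 0 ≤ A ∧ KBd W S A}, le_csInf hne fun A hA => hA.1,
    fun p hp l m => le_csInf hne fun A hA => hA.2 p hp l m, fun A hA hW' => ?_⟩
  exact csInf_le ⟨0, fun A hA => hA.1⟩ ⟨hA, hW'.mono (hS.trans hΩ) le_rfl⟩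

omit [Fintype ι] [DecidableEq ι] in
theorem step_open {Θ : V n × V n → ℝ} {Z O : Set (V n × V n)} (hZ : IsOpen Z) (hO : IsOpen O)
    (hc : ContinuousOn Θ Z) (t : ℝ) : IsOpen (Up Θ Z O t) :=
  hO.union (hc.isOpen_inter_preimage hZ isOpen_Ioi)

theorem step_norm {a g : V n} {c : ℝ} (ha : ‖a‖ ≤ 1) (h : c ≤ ⟪g, a⟫) : c ≤ ‖g‖ :=
  h.trans ((real_inner_le_norm g a).trans (mul_le_of_le_one_right (norm_nonneg g) ha))

theorem step_seg {E : Type} [NormedAddCommGroup E] [NormedSpace ℝ E] {q v z : E} {a b t : ℝ}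
    (hv : ‖v‖ ≤ 1) (hq : dist q z ≤ a) (ht : t ∈ Icc (0 : ℝ) b) : dist (q + t • v) z ≤ a + b := by
  have h1 : dist (q + t • v) q ≤ b := by
    rw [dist_eq_norm, add_sub_cancel_left, norm_smul, Real.norm_of_nonneg ht.1]
    exact (mul_le_of_le_one_right ht.1 hv).trans ht.2
  linarith [dist_triangle (q + t • v) q z]

theorem step (hs : SLAB n ι) (hu : UCP n ι) : STEP n ι := by
  obtain ⟨K, hK⟩ := hs
  refine ⟨K, fun M c r hc hr => ?_⟩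
  obtain ⟨η, C₀, hη, hηr, hS⟩ := hK M c r hc hr
  obtain ⟨M₁, hM, hcM⟩ : ∃ M₁, M ≤ M₁ ∧ c ≤ M₁ := ⟨max M c, le_max_left _ _, le_max_right _ _⟩
  have hM₁ : 0 < M₁ := hc.trans_le hcM
  obtain ⟨τ₀, hτ₀, hτη, hτc⟩ : ∃ τ₀ : ℝ, 0 < τ₀ ∧ τ₀ ≤ η / 2 ∧ M₁ * τ₀ ≤ c / 2 := by
    refine ⟨min (η / 2) (c / (2 * M₁)), by positivity, min_le_left _ _, ?_⟩
    calc M₁ * min (η / 2) (c / (2 * M₁)) ≤ M₁ * (c / (2 * M₁)) := by gcongr; exact min_le_right _ _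
      _ = c / 2 := by field_simp
  obtain ⟨τ₁, hτ₁, hτe⟩ : ∃ τ₁ : ℝ, 0 < τ₁ ∧ 8 * M₁ * τ₁ = c * τ₀ :=
    ⟨c * τ₀ / (8 * M₁), by positivity, by field_simp⟩
  have h10 : τ₁ ≤ τ₀ / 8 := by nlinarith
  refine ⟨c / 4 * τ₁, max C₀ 1, by positivity, le_max_right _ _, ?_⟩
  intro P Q Θ Z O s t t' W hP hQ bP bQ hG hL hst htt hδ hW
  have hUo : IsOpen (Up Θ Z O t) := step_open hG.oZ hG.oO hG.cont t
  set N : Set (V n × V n) := {z | z ∈ Z ∧ t' < Θ z ∧ z ∉ Up Θ Z O t} with hN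
  have hNU : ∀ z ∈ N, z ∈ Unk Θ Z O s := fun z hz =>
    ⟨hz.1, hst.trans_lt hz.2.1, fun h => hz.2.2 (Or.inl h)⟩
  have hNt : ∀ z ∈ N, Θ z ≤ t := fun z hz => not_lt.1 fun h => hz.2.2 (Or.inr ⟨hz.1, h⟩)
  have hb1 : ∀ z ∈ N, ∀ q ∈ ball z (2 * r), ∀ i ≤ 3, ‖iteratedFDeriv ℝ i Θ q‖ ≤ M₁ :=
    fun z hz q hq i hi => (hG.bd z (hNU z hz) q hq i hi).trans hM
  have hin : ∀ {z q : V n × V n} {a : ℝ}, dist q z ≤ a → a ≤ η → q ∈ ball z (2 * r) :=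
    fun h1 h2 => mem_ball.2 (by linarith)
  have hgr : ∀ z ∈ N, ∀ q v : V n × V n, dist q z ≤ τ₁ → ‖v‖ ≤ 1 → c ≤ fderiv ℝ Θ q v →
      ∀ τ ∈ Icc (0 : ℝ) τ₀, Θ q + c / 2 * τ ≤ Θ (q + τ • v) := fun z hz q v hq hv hcv τ hτ =>
    grow (hG.sm z (hNU z hz)) (hb1 z hz) hv hcv hτ.1
      ((mul_le_mul_of_nonneg_left hτ.2 hM₁.le).trans hτc) (hin hq (by linarith))
      (hin (step_seg hv hq hτ) (by linarith))
  have hlip : ∀ z ∈ N, ∀ q : V n × V n, dist q z ≤ τ₁ → |Θ q - Θ z| ≤ M₁ * τ₁ := by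
    intro z hz q hq
    refine (lip1 (hG.sm z (hNU z hz)) (hb1 z hz) (hin hq (by linarith))
      (mem_ball_self (by positivity))).trans ?_
    rw [← dist_eq_norm]
    gcongr
  have hfin : ∀ z ∈ N, ∀ q v : V n × V n, dist q z ≤ τ₁ → ‖v‖ ≤ 1 → c ≤ fderiv ℝ Θ q v →
      t + M₁ * τ₁ < Θ (q + τ₀ • v) := by
    intro z hz q v hq hv hcv
    have h1 := hgr z hz q v hq hv hcv τ₀ ⟨hτ₀.le, le_rfl⟩
    have h2 := (abs_le.1 (hlip z hz q hq)).1
    have h3 := hz.2.1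
    have h4 : c * τ₁ ≤ M₁ * τ₁ := by gcongr
    have h5 : 0 < M₁ * τ₁ := by positivity
    linarith
  have hloc : ∀ z ∈ N, ∃ (p : V n × V n) (X : Kr n ι), dist p z ≤ τ₁ ∧ Θ p ≤ t + M₁ * τ₁ ∧
      Sol P Q (ball p η) X ∧ KEq X W {q ∈ ball p η | Θ p < Θ q} ∧
      ∀ A, 0 ≤ A → KBd W (Up Θ Z O t) A → KBd X (ball p η) (max C₀ 1 * A) := by
    intro z hz
    have hzU := hNU z hz
    obtain ⟨a, ha, hca⟩ := hG.gx z hzU z (mem_ball_self (by positivity))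
    have hv : ‖((a, 0) : V n × V n)‖ ≤ 1 := by simpa using ha
    set p := z + τ₁ • ((a, 0) : V n × V n) with hp
    have hz0 : dist z z ≤ 0 := by simp
    have hpz : dist p z ≤ τ₁ := (step_seg hv hz0 ⟨hτ₁.le, le_rfl⟩).trans_eq (zero_add _)
    have htp : t < Θ p := by
      have h1 := hgr z hz z _ (hz0.trans hτ₁.le) hv hca τ₁ ⟨hτ₁.le, by linarith⟩
      have h2 := hz.2.1
      have h3 : 0 < c * τ₁ := by positivity
      linarith
    have hcb : closedBall p r ⊆ ball z (2 * r) := closedBall_subset_ball' (by linarith)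
    have hbb : ball p r ⊆ ball z (2 * r) := ball_subset_closedBall.trans hcb
    have hp2 : p ∈ ball z (2 * r) := hbb (mem_ball_self hr)
    have hd : DifferentiableAt ℝ Θ p :=
      ((hG.sm z hzU).contDiffAt (isOpen_ball.mem_nhds hp2)).differentiableAt (by simp)
    have hKc : IsCompact {q ∈ closedBall p r | Θ p ≤ Θ q} :=
      (isCompact_closedBall p r).of_isClosed_subset
        (((hG.sm z hzU).continuousOn.mono hcb).preimage_isClosed_of_isClosed isClosed_closedBall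
          isClosed_Ici) fun q hq => hq.1
    have hKU : {q ∈ closedBall p r | Θ p ≤ Θ q} ⊆ Up Θ Z O t := fun q hq =>
      Or.inr ⟨hG.sub z hzU (hcb hq.1), htp.trans_le hq.2⟩
    have hSK : {q ∈ ball p r | Θ p < Θ q} ⊆ {q ∈ closedBall p r | Θ p ≤ Θ q} := fun q hq =>
      ⟨ball_subset_closedBall hq.1, hq.2.le⟩
    obtain ⟨A₀, hA0, hA1, hA2⟩ := step_bd hW hKc hSK hKU
    obtain ⟨w, w', k, hw, hw', hk, hk', hlev⟩ := hL z hzU p (mem_ball.2 (by linarith))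
    obtain ⟨a1, ha1, hc1⟩ := hG.gx z hzU p hp2
    obtain ⟨a2, ha2, hc2⟩ := hG.gy z hzU p hp2
    obtain ⟨X, hX1, hX2, hX3⟩ := hS P Q Θ p w w' k A₀ W hP hQ bP bQ ((hG.sm z hzU).mono hbb)
      (fun i hi q hq => hG.bd z hzU q (hbb hq) i hi)
      (step_norm ha1 (by rwa [grx_inner hd])) (step_norm ha2 (by rwa [gry_inner hd])) hw hw' hk hk'
      hlev (hW.mono (hSK.trans hKU)) hA1 hA0
    refine ⟨p, X, hpz, ?_, hX1, fun q hq => hX3 q hq.1 hq.2, fun A hA hb => hX2.mono Subset.rfl ?_⟩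
    · linarith [(abs_le.1 (hlip z hz p hpz)).2, hNt z hz]
    · calc C₀ * A₀ ≤ max C₀ 1 * A₀ := by gcongr; exact le_max_left _ _
        _ ≤ max C₀ 1 * A := by
          have := hA2 A hA hb
          have : (0 : ℝ) ≤ max C₀ 1 := zero_le_one.trans (le_max_right _ _)
          gcongr
  choose! p X hp1 hp2 hX1 hX2 hX3 using hloc
  have hseg : ∀ z ∈ N, ∀ q v : V n × V n, dist q z ≤ τ₁ → ‖v‖ ≤ 1 →
      ∀ τ ∈ Icc (0 : ℝ) τ₀, q + τ • v ∈ ball (p z) η := by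
    intro z hz q v hq hv τ hτ
    have h1 := step_seg hv hq hτ
    have h2 := hp1 z hz
    have h3 := dist_triangle_right (q + τ • v) (p z) z
    exact mem_ball.2 (by linarith)
  have hev : ∀ z ∈ N, ∀ q v : V n × V n, dist q z ≤ τ₁ → ‖v‖ ≤ 1 → c ≤ fderiv ℝ Θ q v →
      ∀ᶠ y in 𝓝 (q + τ₀ • v), ∀ l m, X z l m y.1 y.2 = W l m y.1 y.2 := by
    intro z hz q v hq hv hcv
    have hτ : τ₀ ∈ Icc (0 : ℝ) τ₀ := ⟨hτ₀.le, le_rfl⟩
    have h1 : ContinuousAt Θ (q + τ₀ • v) := (hG.sm z (hNU z hz)).continuousOn.continuousAt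
      (isOpen_ball.mem_nhds (hin (step_seg hv hq hτ) (by linarith)))
    filter_upwards [isOpen_ball.mem_nhds (hseg z hz q v hq hv τ₀ hτ),
      h1.eventually (lt_mem_nhds ((hp2 z hz).trans_lt (hfin z hz q v hq hv hcv)))] with y h2 h3
    exact hX2 z hz y ⟨h2, h3⟩
  have hcore : ∀ z ∈ N, ball z τ₁ ⊆ ball (p z) η := fun z hz q hq => by
    simpa using hseg z hz q 0 (mem_ball.1 hq).le (by simp) 0 ⟨le_rfl, hτ₀.le⟩
  have hgx : ∀ z ∈ N, ∀ q ∈ ball z τ₁, ∃ v : V n × V n, ‖v‖ ≤ 1 ∧ (v.1 = 0 ∨ v.2 = 0) ∧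
      c ≤ fderiv ℝ Θ q v := by
    intro z hz q hq
    obtain ⟨a, ha, hca⟩ := hG.gx z (hNU z hz) q (hin (mem_ball.1 hq).le (by linarith))
    exact ⟨(a, 0), by simpa using ha, Or.inr rfl, hca⟩
  obtain ⟨W', h1, h2, h3⟩ := glue (J := N) (D := fun z => ball z.1 τ₁) (X := fun z => X z.1) hUo
    (fun _ => isOpen_ball) hW (fun z => (hX1 z.1 z.2).mono (hcore z.1 z.2)) (by
      rintro ⟨z, hz⟩ q ⟨hq, hqU⟩ l m
      have hq' := (mem_ball.1 hq).le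
      obtain ⟨v, hv, hv0, hcv, hvU⟩ : ∃ v : V n × V n, ‖v‖ ≤ 1 ∧ (v.1 = 0 ∨ v.2 = 0) ∧
          c ≤ fderiv ℝ Θ q v ∧ ∀ τ ∈ Icc (0 : ℝ) τ₀, q + τ • v ∈ Up Θ Z O t := by
        rcases hqU with hO | hO
        · obtain ⟨v, hv, hv0, hcv, hvO⟩ := hG.dir z (hNU z hz) q (mem_ball.2 (by linarith)) hO
          exact ⟨v, hv, hv0, hcv, fun τ hτ => Or.inl (hvO τ ⟨hτ.1, by linarith [hτ.2]⟩)⟩
        · obtain ⟨v, hv, hv0, hcv⟩ := hgx z hz q hq
          refine ⟨v, hv, hv0, hcv, fun τ hτ => Or.inr ⟨hG.sub z (hNU z hz)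
            (hin (step_seg hv hq' hτ) (by linarith)), ?_⟩⟩
          have h1 := hgr z hz q v hq' hv hcv τ hτ
          have h2 : 0 ≤ c / 2 * τ := mul_nonneg (by positivity) hτ.1
          linarith [hO.2]
      exact uniq_seg hu hP hQ (isOpen_ball.inter hUo) ((hX1 z hz).mono inter_subset_left)
        (hW.mono inter_subset_right) hv0 hτ₀.le
        (fun τ hτ => ⟨hseg z hz q v hq' hv τ hτ, hvU τ hτ⟩) (hev z hz q v hq' hv hcv) l m) (by
      rintro ⟨z, hz⟩ ⟨z', hz'⟩ q ⟨hq, hq2⟩ l m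
      have hq' := (mem_ball.1 hq).le
      have hq2' := (mem_ball.1 hq2).le
      obtain ⟨v, hv, hv0, hcv⟩ := hgx z hz q hq
      refine uniq_seg hu hP hQ (isOpen_ball.inter isOpen_ball) ((hX1 z hz).mono inter_subset_left)
        ((hX1 z' hz').mono inter_subset_right) hv0 hτ₀.le
        (fun τ hτ => ⟨hseg z hz q v hq' hv τ hτ, hseg z' hz' q v hq2' hv τ hτ⟩) ?_ l m
      filter_upwards [hev z hz q v hq' hv hcv, hev z' hz' q v hq2' hv hcv] with y e1 e2 l m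
      rw [e1, e2])
  have hcov : ∀ q ∈ Up Θ Z O t', q ∈ Up Θ Z O t ∨ q ∈ N := by
    intro q hq
    by_cases h : q ∈ Up Θ Z O t
    · exact Or.inl h
    · rcases hq with hq | hq
      · exact Or.inl (Or.inl hq)
      · exact Or.inr ⟨hq.1, hq.2, h⟩
  refine ⟨W', h1.mono fun q hq => ?_, fun q hq => h2 q hq.1, fun A hA hb q hq l m => ?_⟩
  · rcases hcov q hq with h | h
    · exact Or.inl h
    · exact Or.inr (mem_iUnion.2 ⟨⟨q, h⟩, mem_ball_self hτ₁⟩)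
  · rcases hcov q hq with h | h
    · rw [h2 q h]
      exact (hb q h l m).trans (le_mul_of_one_le_left hA (le_max_right _ _))
    · rw [h3 ⟨q, h⟩ q (mem_ball_self hτ₁)]
      exact hX3 q h A hA hb q (hcore q h (mem_ball_self hτ₁)) l m

end Vale.Agent.P088F.Dd
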