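import Vale.Agent.P088F.DCalc

/-! P088F, part D: the phase of the first stage. -/

open scoped ContDiff Topology RealInnerProductSpace
open Set Filter Metric

noncomputable section

namespace Vale.Agent.P088F.Dd

open Vale.Agent.P292E

variable {n : ℕ} {ι : Type} [Fintype ι] [DecidableEq ι]

omit [Fintype ι] [DecidableEq ι] in
theorem th1_sm (μ : ℝ) (A A' : V n →L[ℝ] V n) (x₀ y₀ : V n) :
    ContDiff ℝ ∞ (th1 μ A A' x₀ y₀) := by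
  unfold th1
  refine ContDiff.add (Real.contDiff_exp.comp (contDiff_const.mul ?_))
    (Real.contDiff_exp.comp (contDiff_const.mul ?_))
  · exact (A.contDiff.comp (contDiff_fst.sub contDiff_const)).norm_sq ℝ
  · exact (A'.contDiff.comp (contDiff_snd.sub contDiff_const)).norm_sq ℝ

omit [Fintype ι] [DecidableEq ι] in
theorem th1_bd (μ T M : ℝ) : ∃ C : ℝ, ∀ (A A' : V n →L[ℝ] V n) (x₀ y₀ : V n), ‖A‖ ≤ M → ‖A'‖ ≤ M →
    ∀ p ∈ EE A A' x₀ y₀ T T, ∀ i ≤ 3, ‖iteratedFDeriv ℝ i (th1 μ A A' x₀ y₀) p‖ ≤ C := by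
  set Φ : V n × V n → ℝ := th1 μ (ContinuousLinearMap.id ℝ _) (ContinuousLinearMap.id ℝ _) 0 0
    with hΦ
  have sm : ContDiff ℝ ∞ Φ := th1_sm _ _ _ _ _
  have hc : Continuous fun q => ∑ i ∈ Finset.range 4, ‖iteratedFDeriv ℝ i Φ q‖ :=
    continuous_finsetSum _ fun i _ => (sm.continuous_iteratedFDeriv (by exact_mod_cast le_top)).norm
  obtain ⟨C, hC⟩ := (isCompact_closedBall (0 : V n × V n) T).exists_bound_of_continuousOn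
    hc.continuousOn
  refine ⟨C * max 1 M ^ 3, fun A A' x₀ y₀ hA hA' p hp i hi => ?_⟩
  have e : th1 μ A A' x₀ y₀ = fun z => (Φ ∘ A.prodMap A') (z - (x₀, y₀)) := by
    funext z
    simp [hΦ, th1]
  have hB : ‖A.prodMap A'‖ ≤ max 1 M := by
    refine ContinuousLinearMap.opNorm_le_bound _ (le_trans zero_le_one (le_max_left _ _))
      fun z => ?_
    have h0 : (0 : ℝ) ≤ max 1 M := le_trans zero_le_one (le_max_left _ _)
    refine norm_prod_le_iff.2 ⟨?_, ?_⟩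
    · exact (A.le_opNorm z.1).trans (mul_le_mul (hA.trans (le_max_right _ _)) (norm_fst_le z)
        (norm_nonneg _) h0)
    · exact (A'.le_opNorm z.2).trans (mul_le_mul (hA'.trans (le_max_right _ _)) (norm_snd_le z)
        (norm_nonneg _) h0)
  have hq : A.prodMap A' (p - (x₀, y₀)) ∈ closedBall (0 : V n × V n) T :=
    mem_closedBall_zero_iff.2 (norm_prod_le_iff.2 ⟨hp.1.le, hp.2.le⟩)
  have h1 : ‖iteratedFDeriv ℝ i Φ (A.prodMap A' (p - (x₀, y₀)))‖ ≤ C :=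
    le_trans (Finset.single_le_sum (f := fun i => ‖iteratedFDeriv ℝ i Φ
      (A.prodMap A' (p - (x₀, y₀)))‖) (fun _ _ => norm_nonneg _)
      (Finset.mem_range.2 (by omega))) ((le_abs_self _).trans (hC _ hq))
  rw [e, iteratedFDeriv_comp_sub, ContinuousLinearMap.iteratedFDeriv_comp_right _ sm _
    (by exact_mod_cast le_top)]
  refine (ContinuousMultilinearMap.norm_compContinuousLinearMap_le _ _).trans ?_
  rw [Finset.prod_const, Finset.card_univ, Fintype.card_fin]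
  exact mul_le_mul h1 ((pow_le_pow_left₀ (norm_nonneg _) hB i).trans
    (pow_le_pow_right₀ (le_max_left _ _) hi)) (by positivity) ((norm_nonneg _).trans h1)

theorem dth1_one (μ : ℝ) (u α : V n) (t : ℝ) :
    HasDerivAt (fun t : ℝ => Real.exp (-μ * ‖u + t • α‖ ^ 2))
      (Real.exp (-μ * ‖u + t • α‖ ^ 2) * (-μ * (2 * ⟪u, α⟫ + 2 * t * ‖α‖ ^ 2))) t := by
  have h1 : HasDerivAt (fun t : ℝ => u + t • α) α t := by
    simpa using ((hasDerivAt_id t).smul_const α).const_add u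
  refine ((h1.norm_sq.const_mul (-μ)).exp).congr_deriv ?_
  rw [inner_add_left, real_inner_smul_left, real_inner_self_eq_norm_sq]
  ring

theorem dth1_two (μ : ℝ) (u α : V n) :
    HasDerivAt (fun t : ℝ =>
      Real.exp (-μ * ‖u + t • α‖ ^ 2) * (-μ * (2 * ⟪u, α⟫ + 2 * t * ‖α‖ ^ 2)))
      (Real.exp (-μ * ‖u‖ ^ 2) * (μ ^ 2 * (2 * ⟪u, α⟫) ^ 2 - 2 * μ * ‖α‖ ^ 2)) 0 := by
  have h1 : HasDerivAt (fun t : ℝ => -μ * (2 * ⟪u, α⟫ + 2 * t * ‖α‖ ^ 2))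
      (-μ * (2 * 1 * ‖α‖ ^ 2)) 0 :=
    (((((hasDerivAt_id (0 : ℝ)).const_mul 2).mul_const _).const_add _).const_mul _)
  refine ((dth1_one μ u α 0).mul h1).congr_deriv ?_
  simp only [zero_smul, add_zero, mul_zero, zero_mul]
  ring

theorem dth1_d (μ : ℝ) (A A' : V n →L[ℝ] V n) (x₀ y₀ : V n) (p : V n × V n) (a c : V n) :
    fderiv ℝ (th1 μ A A' x₀ y₀) p (a, c) =
      Real.exp (-μ * ‖A (p.1 - x₀)‖ ^ 2) * (-μ * (2 * ⟪A (p.1 - x₀), A a⟫)) +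
      Real.exp (-μ * ‖A' (p.2 - y₀)‖ ^ 2) * (-μ * (2 * ⟪A' (p.2 - y₀), A' c⟫)) ∧
    fderiv ℝ (fderiv ℝ (th1 μ A A' x₀ y₀)) p (a, c) (a, c) =
      Real.exp (-μ * ‖A (p.1 - x₀)‖ ^ 2) *
        (μ ^ 2 * (2 * ⟪A (p.1 - x₀), A a⟫) ^ 2 - 2 * μ * ‖A a‖ ^ 2) +
      Real.exp (-μ * ‖A' (p.2 - y₀)‖ ^ 2) *
        (μ ^ 2 * (2 * ⟪A' (p.2 - y₀), A' c⟫) ^ 2 - 2 * μ * ‖A' c‖ ^ 2) := by
  have e : (fun t : ℝ => th1 μ A A' x₀ y₀ (p + t • (a, c))) = fun t : ℝ =>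
      Real.exp (-μ * ‖A (p.1 - x₀) + t • A a‖ ^ 2) +
        Real.exp (-μ * ‖A' (p.2 - y₀) + t • A' c‖ ^ 2) := by
    funext t
    simp only [th1, Prod.fst_add, Prod.snd_add, Prod.smul_mk, add_sub_right_comm, map_add,
      map_smul]
  have h := line12 (Θ := th1 μ A A' x₀ y₀) (p := p) (v := (a, c))
    ((th1_sm μ A A' x₀ y₀).contDiffAt.of_le (WithTop.coe_le_coe.2 (le_top (a := (2 : ℕ∞)))))
    (Eventually.of_forall fun t => by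
      rw [e]
      exact (dth1_one μ (A (p.1 - x₀)) (A a) t).add (dth1_one μ (A' (p.2 - y₀)) (A' c) t))
    ((dth1_two μ (A (p.1 - x₀)) (A a)).add (dth1_two μ (A' (p.2 - y₀)) (A' c)))
  refine ⟨h.1.trans ?_, h.2⟩
  simp only [Pi.add_apply, zero_smul, add_zero, mul_zero, zero_mul]

theorem dth1_key {D T M a b μ : ℝ} {A : V n →L[ℝ] V n} (hA : Ell A a b) (ha : a ≤ M) (hb : b ≤ M)
    (hD : a * b ≤ D) (hμ : μ = 2 * D ^ 2 + 1) {u : V n} (hu : ‖u‖ < T) (h1 : 3 / 4 ≤ ‖u‖) :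
    (∃ v : V n, ‖v‖ ≤ 1 ∧
      Real.exp (-μ * T ^ 2) / M ≤ Real.exp (-μ * ‖u‖ ^ 2) * (-μ * (2 * ⟪u, A v⟫))) ∧
    ∃ w : V n, ‖w‖ ≤ μ * M * T ∧ ∀ x, Real.exp (-μ * T ^ 2) / M ^ 2 * ‖x‖ ^ 2 ≤
      Real.exp (-μ * ‖u‖ ^ 2) * (μ ^ 2 * (2 * ⟪u, A x⟫) ^ 2 - 2 * μ * ‖A x‖ ^ 2) +
      (2 * ⟪w, x⟫ * (Real.exp (-μ * ‖u‖ ^ 2) * (-μ * (2 * ⟪u, A x⟫))) -
        Real.exp (-μ * ‖u‖ ^ 2) * (-μ * (2 * ⟪u, A w⟫)) * ‖x‖ ^ 2) := by
  obtain ⟨hA1, hb0, hA2⟩ := hA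
  obtain ⟨v, hv, hv'⟩ := hA2 u
  have a0 : 0 ≤ a := (norm_nonneg _).trans hA1
  have μ1 : 1 ≤ μ := by rw [hμ]; nlinarith [sq_nonneg D]
  have u0 : 0 < ‖u‖ := by linarith
  have hk : Real.exp (-μ * T ^ 2) ≤ Real.exp (-μ * ‖u‖ ^ 2) := Real.exp_le_exp.2 (by
    have := pow_le_pow_left₀ u0.le hu.le 2
    nlinarith)
  have k0 := Real.exp_pos (-μ * T ^ 2)
  set k := Real.exp (-μ * ‖u‖ ^ 2) with hk'
  have kp : 0 < k := k0.trans_le hk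
  have bu : 0 < b * ‖u‖ := mul_pos hb0 u0
  constructor
  · refine ⟨-(b * ‖u‖)⁻¹ • v, ?_, ?_⟩
    · rw [norm_smul, norm_neg, norm_inv, Real.norm_of_nonneg bu.le, inv_mul_le_iff₀ bu, mul_one]
      exact hv'
    · rw [map_smul, hv, real_inner_smul_right, real_inner_self_eq_norm_sq]
      have e : k * (-μ * (2 * (-(b * ‖u‖)⁻¹ * ‖u‖ ^ 2))) = k * (μ * (2 * ‖u‖)) / b := by
        field_simp
      rw [e]
      refine div_le_div₀ (by positivity) (hk.trans (le_mul_of_one_le_right kp.le ?_)) hb0 hb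
      nlinarith
  · set G := ContinuousLinearMap.adjoint A u with hG
    have g1 : ∀ x, ⟪G, x⟫ = ⟪u, A x⟫ := fun x => ContinuousLinearMap.adjoint_inner_left A x u
    have g2 : ‖u‖ ≤ b * ‖G‖ := by
      have h2 : ‖u‖ * ‖u‖ ≤ b * ‖G‖ * ‖u‖ := by
        calc ‖u‖ * ‖u‖ = ⟪G, v⟫ := by rw [g1, hv, real_inner_self_eq_norm_mul_norm]
          _ ≤ ‖G‖ * ‖v‖ := real_inner_le_norm _ _
          _ ≤ ‖G‖ * (b * ‖u‖) := mul_le_mul_of_nonneg_left hv' (norm_nonneg _)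
          _ = b * ‖G‖ * ‖u‖ := by ring
      exact le_of_mul_le_mul_right h2 u0
    refine ⟨μ • G, ?_, fun x => ?_⟩
    · rw [norm_smul, Real.norm_of_nonneg (by linarith), mul_assoc]
      refine mul_le_mul_of_nonneg_left ?_ (by linarith)
      refine (ContinuousLinearMap.le_opNorm _ _).trans ?_
      rw [LinearIsometryEquiv.norm_map]
      exact mul_le_mul (hA1.trans ha) hu.le (norm_nonneg _) (a0.trans ha)
    · rw [real_inner_smul_left, g1, ← g1 (μ • G), real_inner_smul_right,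
        real_inner_self_eq_norm_sq]
      have e : k * (μ ^ 2 * (2 * ⟪u, A x⟫) ^ 2 - 2 * μ * ‖A x‖ ^ 2) +
          (2 * (μ * ⟪u, A x⟫) * (k * (-μ * (2 * ⟪u, A x⟫))) -
            k * (-μ * (2 * (μ * ‖G‖ ^ 2))) * ‖x‖ ^ 2) =
          k * (2 * μ * (μ * ‖G‖ ^ 2 * ‖x‖ ^ 2 - ‖A x‖ ^ 2)) := by ring
      rw [e]
      have h3 : ‖A x‖ ^ 2 ≤ a ^ 2 * ‖x‖ ^ 2 := by
        rw [← mul_pow]
        exact pow_le_pow_left₀ (norm_nonneg _) ((A.le_opNorm x).trans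
          (mul_le_mul_of_nonneg_right hA1 (norm_nonneg _))) 2
      have h4 : (a * b) ^ 2 ≤ D ^ 2 := pow_le_pow_left₀ (mul_nonneg a0 hb0.le) hD 2
      have h5 : (3 / 4) ^ 2 ≤ (b * ‖G‖) ^ 2 := pow_le_pow_left₀ (by norm_num) (h1.trans g2) 2
      have h6 : 1 / 2 ≤ b ^ 2 * (μ * ‖G‖ ^ 2 - a ^ 2) := by
        have h7 := mul_le_mul_of_nonneg_left h5 (zero_le_one.trans μ1)
        nlinarith [sq_nonneg D]
      have h8 : 1 / b ^ 2 ≤ 2 * (μ * ‖G‖ ^ 2 - a ^ 2) := by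
        rw [div_le_iff₀ (by positivity)]
        linarith
      have h9 : Real.exp (-μ * T ^ 2) / M ^ 2 ≤ k * (1 / b ^ 2) := by
        rw [mul_one_div]
        exact div_le_div₀ kp.le hk (by positivity) (pow_le_pow_left₀ hb0.le hb 2)
      have h10 : 1 / b ^ 2 * ‖x‖ ^ 2 ≤ 2 * (μ * ‖G‖ ^ 2 * ‖x‖ ^ 2 - ‖A x‖ ^ 2) := by
        have := mul_le_mul_of_nonneg_right h8 (sq_nonneg ‖x‖)
        linarith
      have h11 : 0 ≤ 1 / b ^ 2 * ‖x‖ ^ 2 := by positivity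
      calc _ ≤ k * (1 / b ^ 2) * ‖x‖ ^ 2 := mul_le_mul_of_nonneg_right h9 (sq_nonneg _)
        _ = k * (1 / b ^ 2 * ‖x‖ ^ 2) := by ring
        _ ≤ _ := mul_le_mul_of_nonneg_left (by nlinarith) kp.le

omit [Fintype ι] [DecidableEq ι] in
theorem th1_fl {D T M a b a' b' : ℝ} {A A' : V n →L[ℝ] V n} {x₀ y₀ : V n} (hA : Ell A a b)
    (hA' : Ell A' a' b') (ha : a ≤ M) (hb : b ≤ M) (ha' : a' ≤ M) (hb' : b' ≤ M) (hD : a * b ≤ D)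
    (hD' : a' * b' ≤ D) {p : V n × V n} (hp : p ∈ EE A A' x₀ y₀ T T)
    (h1 : 3 / 4 ≤ ‖A (p.1 - x₀)‖) (h2 : 3 / 4 ≤ ‖A' (p.2 - y₀)‖) :
    (∃ v : V n, ‖v‖ ≤ 1 ∧ Real.exp (-(2 * D ^ 2 + 1) * T ^ 2) / M ≤
      fderiv ℝ (th1 (2 * D ^ 2 + 1) A A' x₀ y₀) p (v, 0)) ∧
    (∃ v : V n, ‖v‖ ≤ 1 ∧ Real.exp (-(2 * D ^ 2 + 1) * T ^ 2) / M ≤
      fderiv ℝ (th1 (2 * D ^ 2 + 1) A A' x₀ y₀) p (0, v)) ∧
    ∃ w w' : V n, ‖w‖ ≤ (2 * D ^ 2 + 1) * M * T ∧ ‖w'‖ ≤ (2 * D ^ 2 + 1) * M * T ∧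
      FL (th1 (2 * D ^ 2 + 1) A A' x₀ y₀) p w w' (Real.exp (-(2 * D ^ 2 + 1) * T ^ 2) / M ^ 2) := by
  obtain ⟨⟨v, v1, v2⟩, w, w1, w2⟩ := dth1_key hA ha hb hD rfl hp.1 h1
  obtain ⟨⟨v', v1', v2'⟩, w', w1', w2'⟩ := dth1_key hA' ha' hb' hD' rfl hp.2 h2
  refine ⟨⟨v, v1, ?_⟩, ⟨v', v1', ?_⟩, w, w', w1, w1', fun x y _ => ?_⟩
  · rw [(dth1_d _ _ _ _ _ _ _ _).1]
    simpa only [map_zero, inner_zero_right, mul_zero, add_zero] using v2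
  · rw [(dth1_d _ _ _ _ _ _ _ _).1]
    simpa only [map_zero, inner_zero_right, mul_zero, zero_add] using v2'
  · rw [(dth1_d _ _ _ _ _ _ _ _).2]
    simp only [(dth1_d _ _ _ _ _ _ _ _).1, map_zero, inner_zero_right, mul_zero, add_zero,
      zero_add]
    linarith [w2 x, w2' y]

end Vale.Agent.P088F.Dd
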