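import Vale.Agent.P088F.DUniq

/-! P088F, part D: the initial kernel. -/

open scoped ContDiff Topology RealInnerProductSpace
open Set Filter Metric

noncomputable section

namespace Vale.Agent.P088F.Dd

open Vale.Agent.P292E

variable {n : ℕ} {ι : Type} [Fintype ι] [DecidableEq ι]

theorem dw0_pd {f f' : V n → ℂ} {x : V n} (h : f =ᶠ[𝓝 x] f') (j : Fin n) :
    pd j f =ᶠ[𝓝 x] pd j f' := by
  filter_upwards [h.fderiv (𝕜 := ℝ)] with y hy
  simp only [pd, hy]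

omit [Fintype ι] in
theorem dw0_t {L L' : Op n ι} {s : Set (V n)} (h : L.EqOn L' s) (hs : IsOpen s) :
    L.t.EqOn L'.t s := by
  intro x hx
  have hg : ∀ j k, L.gc j k =ᶠ[𝓝 x] L'.gc j k := fun j k => by
    filter_upwards [hs.mem_nhds hx] with y hy
    simp only [Op.gc, (h y hy).1]
  have ha : ∀ j l m, L.a j l m =ᶠ[𝓝 x] L'.a j l m := fun j l m => by
    filter_upwards [hs.mem_nhds hx] with y hy using (h y hy).2.1 j l m
  refine ⟨(h x hx).1, fun j l m => ?_, fun l m => ?_⟩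
  · simp only [Op.t, fun j k => (dw0_pd (hg j k) k).eq_of_nhds, (h x hx).2.1]
  · simp only [Op.t, fun j k => (dw0_pd (dw0_pd (hg j k) k) j).eq_of_nhds,
      fun j l m => (dw0_pd (ha j l m) j).eq_of_nhds, (h x hx).2.2]

omit [DecidableEq ι] in
theorem dw0_ap {L L' : Op n ι} {s : Set (V n)} (h : L.EqOn L' s) {x : V n} (hx : x ∈ s)
    (u : Fam n ι) (l : ι) : L.ap u l x = L'.ap u l x := by
  simp only [Op.ap, Op.gc, (h x hx).1, (h x hx).2.1, (h x hx).2.2]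

theorem dw0_open (R : ℝ) : IsOpen (offd (ball (0 : V n) R)) :=
  (isOpen_ball.preimage continuous_fst).inter ((isOpen_ball.preimage continuous_snd).inter
    (isOpen_ne_fun continuous_fst continuous_snd))

theorem w0 [NeZero n] {d : Dat n ι} {K c₀ : ℕ} {ε R Λ : ℝ} (h : d.Ok K ε R c₀ Λ) :
    ∃ W, d.Ext (OO n R) W := by
  have hU : IsOpen (Ux n) := isOpen_lt (by fun_prop) continuous_const
  have hO : IsOpen {p ∈ offd (ball (0 : V n) R) | p.2 ∈ Ux n} :=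
    (dw0_open R).inter (hU.preimage continuous_snd)
  have hO' : IsOpen {p ∈ offd (ball (0 : V n) R) | p.1 ∈ Ux n} :=
    (dw0_open R).inter (hU.preimage continuous_fst)
  have s1 : Sol d.L1 d.L2.t {p ∈ offd (ball (0 : V n) R) | p.2 ∈ Ux n} d.K1 :=
    ⟨fun l m => (h.k1.sol.sm l m).mono (sep_subset _ _), fun p hp => h.k1.sol.ex p hp.1,
      fun p hp l m => (dw0_ap (dw0_t h.eqU hU) hp.2 _ m).symm.trans (h.k1.sol.ey p hp.1 l m)⟩
  have s2 : Sol d.L1 d.L2.t {p ∈ offd (ball (0 : V n) R) | p.1 ∈ Ux n} d.K2 :=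
    ⟨fun l m => (h.k2.sol.sm l m).mono (sep_subset _ _),
      fun p hp l m => (dw0_ap h.eqU hp.2 _ l).trans (h.k2.sol.ex p hp.1 l m),
      fun p hp => h.k2.sol.ey p hp.1⟩
  obtain ⟨W, h1, h2, h3⟩ := glue2 hO hO' s1 s2 fun p hp l m =>
    (h.eqK p hp.1.1 hp.1.2 hp.2.2 l m).symm
  refine ⟨W, h1.mono fun p hp => ?_, fun p hp h' => h2 p ⟨hp.1, h'⟩, fun p hp h' => h3 p ⟨hp.1, h'⟩⟩
  rcases hp.2 with h' | h'
  · exact Or.inr ⟨hp.1, h'⟩
  · exact Or.inl ⟨hp.1, h'⟩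

theorem d1_of [NeZero n] (ht : TB n ι) (h : S2 n ι) : D1 n ι := by
  intro c₀ r hr
  obtain ⟨K, R, ρ, ε, C, hR, hρ, hρr, hε, hC, H⟩ := h r hr
  obtain ⟨C', hC', H'⟩ := ht.2.2.1 K
  have hC0 : 0 < C' := by linarith
  refine ⟨K + 2, R, ε / C', C / ρ ^ c₀, hR, by positivity, fun d Λ hd => ?_⟩
  obtain ⟨W, hW⟩ := w0 hd
  have hsub : O0 n R ρ ⊆ OO n R := fun p hp =>
    ⟨⟨mem_ball_zero_iff.2 hp.1, mem_ball_zero_iff.2 hp.2.1, fun e => by
      have := hp.2.2.1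
      rw [e, sub_self, norm_zero] at this
      linarith⟩, hp.2.2.2⟩
  obtain ⟨W', h1, h2, h3⟩ := H d.L1 d.L2.t W hd.sm1 (ht.1 _ hd.sm2)
    (hd.nr1.mono (by omega) (div_le_self hε.le hC'))
    ((H' _ _ hd.sm2 hd.nr2).mono le_rfl (mul_div_cancel₀ ε hC0.ne').le) (hW.sol.mono hsub)
  have hm : ∀ p ∈ Om0 n r, p.1 0 < 0 ∨ p.2 0 < 0 → p ∈ O0 n R ρ := fun p hp h' =>
    ⟨by linarith [hp.1], by linarith [hp.2.1], by linarith [hp.2.2], h'⟩
  have hb : KBd W (O0 n R ρ) (Λ / ρ ^ c₀) := by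
    intro p hp l m
    have e : Λ / ‖p.1 - p.2‖ ^ c₀ ≤ Λ / ρ ^ c₀ :=
      div_le_div_of_nonneg_left hd.nn (by positivity) (pow_le_pow_left₀ hρ.le hp.2.2.1.le _)
    rcases hp.2.2.2 with h' | h'
    · rw [hW.e2 p (hsub hp) h']
      exact (hd.b2 p (hsub hp).1 l m).trans e
    · rw [hW.e1 p (hsub hp) h']
      exact (hd.b1 p (hsub hp).1 l m).trans e
  refine ⟨W', ⟨h1, fun p hp h' l m => ?_, fun p hp h' l m => ?_⟩,
    (h3 _ (div_nonneg hd.nn (by positivity)) hb).mono Subset.rfl (le_of_eq (by ring))⟩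
  · have hp' := hm p hp (Or.inr h')
    exact (h2 p ⟨hp', hp⟩ l m).trans (hW.e1 p (hsub hp') h' l m)
  · have hp' := hm p hp (Or.inl h')
    exact (h2 p ⟨hp', hp⟩ l m).trans (hW.e2 p (hsub hp') h' l m)

end Vale.Agent.P088F.Dd
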