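import Vale.Agent.P292E.EDefs

/-! P088F: Euclidean definitions and contracts. -/

open scoped ContDiff Topology ENNReal
open Set Filter MeasureTheory Metric

noncomputable section

namespace Vale.Agent.P088F

open Vale.Agent.P292E

/-- families of functions -/
abbrev Fam (n : ℕ) (ι : Type) : Type := ι → V n → ℂ

/-- matrix kernels -/
abbrev Kr (n : ℕ) (ι : Type) : Type := ι → ι → V n → V n → ℂ

/-- real matrix fields -/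
abbrev Mf (n : ℕ) : Type := Fin n → Fin n → V n → ℝ

/-- second order systems with scalar principal part -/
structure Op (n : ℕ) (ι : Type) where
  g : Mf n
  a : Fin n → ι → ι → V n → ℂ
  c : ι → ι → V n → ℂ

variable {n : ℕ} {ι : Type} [Fintype ι] [DecidableEq ι]

/-- the principal coefficients as complex functions -/
def Op.gc (L : Op n ι) (j k : Fin n) (x : V n) : ℂ := L.g j k x

/-- action of the operator -/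
def Op.ap (L : Op n ι) (u : Fam n ι) : Fam n ι := fun l x =>
  ∑ j, ∑ k, L.gc j k x * pd j (pd k (u l)) x +
    ∑ m, (∑ j, L.a j l m x * pd j (u m) x + L.c l m x * u m x)

/-- the transpose for the bilinear pairing and Lebesgue measure -/
def Op.t (L : Op n ι) : Op n ι where
  g := L.g
  a := fun j l m x => (if l = m then 2 * ∑ k, pd k (L.gc j k) x else 0) - L.a j m l x
  c := fun l m x => (if l = m then ∑ j, ∑ k, pd j (pd k (L.gc j k)) x else 0) -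
    ∑ j, pd j (L.a j m l) x + L.c m l x

/-- the bilinear form of a matrix field -/
def ip (g : Mf n) (x ξ η : V n) : ℝ := ∑ j, ∑ k, g j k x * ξ j * η k

/-- smooth, symmetric, elliptic coefficients on the whole space -/
structure Op.Sm (L : Op n ι) : Prop where
  g : ∀ j k, ContDiff ℝ ∞ (L.g j k)
  a : ∀ j l m, ContDiff ℝ ∞ (L.a j l m)
  c : ∀ l m, ContDiff ℝ ∞ (L.c l m)
  symm : ∀ j k x, L.g j k x = L.g k j x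
  pos : ∀ x ξ, ξ ≠ 0 → 0 < ip L.g x ξ ξ

/-- uniform bounds -/
structure Op.Bdd (L : Op n ι) (K : ℕ) (M e : ℝ) : Prop where
  g : ∀ j k, Bd K (L.g j k) univ M
  a : ∀ j l m, Bd K (L.a j l m) univ M
  c : ∀ l m, Bd K (L.c l m) univ M
  ell : ∀ x ξ, e * ‖ξ‖ ^ 2 ≤ ip L.g x ξ ξ

/-- close to the flat operator -/
structure Op.Near (L : Op n ι) (K : ℕ) (ε : ℝ) : Prop where
  g : ∀ j k, Bd K (fun x => L.g j k x - if j = k then 1 else 0) univ ε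
  a : ∀ j l m, Bd K (L.a j l m) univ ε
  c : ∀ l m, Bd K (L.c l m) univ ε

/-- the coefficients agree on `s` -/
def Op.EqOn (L L' : Op n ι) (s : Set (V n)) : Prop :=
  ∀ x ∈ s, (∀ j k, L.g j k x = L'.g j k x) ∧ (∀ j l m, L.a j l m x = L'.a j l m x) ∧
    ∀ l m, L.c l m x = L'.c l m x

/-- test families -/
def TstF (s : Set (V n)) (φ : Fam n ι) : Prop := ∀ l, Tst s (φ l)

/-- smooth solutions on `s` -/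
def SolOn (L : Op n ι) (s : Set (V n)) (u : Fam n ι) : Prop :=
  (∀ l, ContDiffOn ℝ ∞ (u l) s) ∧ ∀ l, ∀ x ∈ s, L.ap u l x = 0

/-- square of the norm -/
def N2 (s : Set (V n)) (u : Fam n ι) : ℝ≥0∞ := ∑ l, ∫⁻ x in s, ‖u l x‖ₑ ^ 2

/-- action in the first variable -/
def apx (P : Op n ι) (W : Kr n ι) : Kr n ι := fun l m x y => P.ap (fun l' x' => W l' m x' y) l x

/-- action in the second variable -/
def apy (Q : Op n ι) (W : Kr n ι) : Kr n ι := fun l m x y => Q.ap (fun m' y' => W l m' x y') m y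

/-- smooth kernels solving both equations -/
structure Sol (P Q : Op n ι) (Ω : Set (V n × V n)) (W : Kr n ι) : Prop where
  sm : ∀ l m, ContDiffOn ℝ ∞ (fun p : V n × V n => W l m p.1 p.2) Ω
  ex : ∀ p ∈ Ω, ∀ l m, apx P W l m p.1 p.2 = 0
  ey : ∀ p ∈ Ω, ∀ l m, apy Q W l m p.1 p.2 = 0

/-- sup bound of a kernel -/
def KBd (W : Kr n ι) (Ω : Set (V n × V n)) (A : ℝ) : Prop := ∀ p ∈ Ω, ∀ l m, ‖W l m p.1 p.2‖ ≤ A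

/-- local Green operator -/
structure LG (L : Op n ι) (B : Set (V n)) (G : Fam n ι → Fam n ι) (Λ : ℝ) : Prop where
  add : ∀ F F', TstF B F → TstF B F' → ∀ l, ∀ x ∈ B, G (F + F') l x = G F l x + G F' l x
  smul : ∀ (z : ℂ) F, TstF B F → ∀ l, ∀ x ∈ B, G (z • F) l x = z * G F l x
  sm : ∀ F, TstF B F → ∀ l, ContDiffOn ℝ ∞ (G F l) B
  eq : ∀ F, TstF B F → ∀ l, ∀ x ∈ B, L.ap (G F) l x = F l x
  inv : ∀ φ, TstF B φ → ∀ l, ∀ x ∈ B, G (L.ap φ) l x = φ l x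
  bd : ∀ F, TstF B F → N2 B (G F) ≤ ENNReal.ofReal (Λ ^ 2) * N2 univ F

/-- scale invariant bound at `x₀` -/
def Hardy (G : Fam n ι → Fam n ι) (x₀ : V n) (ρ Λ : ℝ) : Prop :=
  ∀ r, 0 < r → r ≤ ρ → ∀ F, TstF (ball x₀ r) F →
    N2 (ball x₀ r) (G F) ≤ ENNReal.ofReal ((Λ * r ^ 2) ^ 2) * N2 univ F

/-- off diagonal part of `B × B` -/
def offd (B : Set (V n)) : Set (V n × V n) := {p | p.1 ∈ B ∧ p.2 ∈ B ∧ p.1 ≠ p.2}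

/-- Green kernels -/
structure Ker (L : Op n ι) (B : Set (V n)) (K : Kr n ι) : Prop where
  sol : Sol L L.t (offd B) K
  rep : ∀ x ∈ B, ∀ φ, TstF B φ → (∀ᶠ y in 𝓝 x, ∀ m, L.ap φ m y = 0) → ∀ l,
    φ l x = ∫ y, ∑ m, K l m x y * L.ap φ m y

/-- the kernel represents the operator -/
def Rp (G : Fam n ι → Fam n ι) (B : Set (V n)) (K : Kr n ι) : Prop :=
  ∀ F, TstF B F → ∀ x ∈ B, (∀ᶠ y in 𝓝 x, ∀ m, F m y = 0) → ∀ l,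
    G F l x = ∫ y, ∑ m, K l m x y * F m y

/-! ### Hessians -/

/-- real coordinate derivative -/
def pr (i : Fin n) (f : V n → ℝ) (x : V n) : ℝ := fderiv ℝ f x (ee i)

/-- the differential as a vector -/
def gr (f : V n → ℝ) (x : V n) : V n := WithLp.toLp 2 fun j => pr j f x

/-- raising an index -/
def gv (g : Mf n) (x ξ : V n) : V n := WithLp.toLp 2 fun j => ∑ k, g j k x * ξ k

/-- connection term of the Hessian -/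
def hsT (g : Mf n) (x ϖ ξ : V n) : ℝ :=
  ∑ i, ∑ k, ∑ l, gv g x ξ i * pr i (g k l) x * ϖ l * ξ k -
    1 / 2 * ∑ l, ∑ j, ∑ k, gv g x ϖ l * pr l (g j k) x * ξ j * ξ k

/-- covariant Hessian on covectors -/
def hs (g : Mf n) (f : V n → ℝ) (x ξ : V n) : ℝ :=
  fderiv ℝ (fderiv ℝ f) x (gv g x ξ) (gv g x ξ) + hsT g x (gr f x) ξ

/-- conformal gauge term -/
def gau (g : Mf n) (x p ϖ ξ : V n) : ℝ :=
  2 * ip g x p ξ * ip g x ϖ ξ - ip g x p ϖ * ip g x ξ ξ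

/-- square of the part orthogonal to `ϖ` -/
def perp (g : Mf n) (x ϖ ξ : V n) : ℝ := ip g x ξ ξ - ip g x ϖ ξ ^ 2 / ip g x ϖ ϖ

/-- strict conformal supersolution at `x` -/
def Sup (g : Mf n) (α : V n → ℝ) (x : V n) (c : ℝ) : Prop :=
  c ≤ ‖gr α x‖ ∧ ∀ ξ, ip g x (gr α x) ξ = 0 →
    hs g α x ξ + hs g α x (gr α x) * ip g x ξ ξ / ip g x (gr α x) (gr α x) ≤ -c * ‖ξ‖ ^ 2

/-- differential in the first variable -/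
def grx (Θ : V n × V n → ℝ) (p : V n × V n) : V n := gr (fun x => Θ (x, p.2)) p.1

/-- differential in the second variable -/
def gry (Θ : V n × V n → ℝ) (p : V n × V n) : V n := gr (fun y => Θ (p.1, y)) p.2

/-- derivative along the vector dual to `(ξ, η)` -/
def tau (g g' : Mf n) (Θ : V n × V n → ℝ) (p : V n × V n) (ξ η : V n) : ℝ :=
  ip g p.1 (grx Θ p) ξ + ip g' p.2 (gry Θ p) η

/-- gauged Hessian on the product -/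
def Lev (g g' : Mf n) (Θ : V n × V n → ℝ) (p : V n × V n) (w w' ξ η : V n) : ℝ :=
  fderiv ℝ (fderiv ℝ Θ) p (gv g p.1 ξ, gv g' p.2 η) (gv g p.1 ξ, gv g' p.2 η) +
    hsT g p.1 (grx Θ p) ξ + hsT g' p.2 (gry Θ p) η +
    gau g p.1 w (grx Θ p) ξ + gau g' p.2 w' (gry Θ p) η

/-- the Levi condition -/
def Levi (g g' : Mf n) (Θ : V n × V n → ℝ) (p : V n × V n) (w w' : V n) (k : ℝ) : Prop :=
  ∀ ξ η, tau g g' Θ p ξ η = 0 →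
    k * (perp g p.1 (grx Θ p) ξ + perp g' p.2 (gry Θ p) η) -
      k / 8 * (ip g p.1 ξ ξ + ip g' p.2 η η) ≤ Lev g g' Θ p w w' ξ η

/-! ### Part A -/

variable (n ι)

/-- Carleman estimate -/
def SC : Prop :=
  ∀ M c : ℝ, 0 < c → ∃ τ₀ C : ℝ, ∀ (L : Op n ι) (α : V n → ℝ) (s : Set (V n)), L.Sm →
    L.Bdd 2 M c → IsOpen s → ContDiffOn ℝ ∞ α s → Bd 4 α s M → (∀ x ∈ s, Sup L.g α x c) →
    ∀ τ, τ₀ ≤ τ → ∀ v, TstF s v →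
      ∫ x, Real.exp (-2 * τ * α x) * ∑ l, (τ ^ 3 * ‖v l x‖ ^ 2 + τ * ∑ j, ‖pd j (v l) x‖ ^ 2) ≤
        C * ∫ x, Real.exp (-2 * τ * α x) * ∑ l, ‖L.ap v l x‖ ^ 2

/-- unique continuation -/
def UCP : Prop :=
  ∀ (L : Op n ι) (s : Set (V n)) (u : Fam n ι), L.Sm → IsOpen s → IsPreconnected s →
    SolOn L s u → ∀ x₀ ∈ s, (∀ᶠ x in 𝓝 x₀, ∀ l, u l x = 0) → ∀ l, ∀ x ∈ s, u l x = 0

/-! ### Part R -/

/-- interior estimate -/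
def IE : Prop :=
  ∀ j : ℕ, ∃ K : ℕ, ∀ M c : ℝ, 0 < c → ∃ C : ℝ, ∀ L : Op n ι, L.Sm → L.Bdd K M c →
    ∀ (x₀ : V n) (r : ℝ), 0 < r → r ≤ 1 → ∀ u, SolOn L (ball x₀ r) u → ∀ A : ℝ, 0 ≤ A →
      N2 (ball x₀ r) u ≤ ENNReal.ofReal (A ^ 2 * r ^ n) → ∀ l, ∀ i ≤ j,
        ‖iteratedFDeriv ℝ i (u l) x₀‖ ≤ C * A / r ^ i

/-- joint interior estimate -/
def IE2 : Prop :=
  ∀ j : ℕ, ∃ K : ℕ, ∀ M c : ℝ, 0 < c → ∃ C : ℝ, ∀ P Q : Op n ι, P.Sm → Q.Sm → P.Bdd K M c →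
    Q.Bdd K M c → ∀ (p : V n × V n) (r : ℝ), 0 < r → r ≤ 1 → ∀ W, Sol P Q (ball p r) W →
      ∀ A : ℝ, KBd W (ball p r) A → ∀ l m, ∀ i ≤ j,
        ‖iteratedFDeriv ℝ i (fun q : V n × V n => W l m q.1 q.2) p‖ ≤ C * A / r ^ i

/-- interior regularity -/
def RG : Prop :=
  ∀ (L : Op n ι) (s : Set (V n)) (u f : Fam n ι), L.Sm → IsOpen s →
    (∀ l, LocallyIntegrableOn (u l) s) → (∀ l, ContDiffOn ℝ ∞ (f l) s) →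
    (∀ φ, TstF s φ → ∫ x, ∑ l, u l x * L.t.ap φ l x = ∫ x, ∑ l, f l x * φ l x) →
    ∃ w : Fam n ι, (∀ l, ContDiffOn ℝ ∞ (w l) s) ∧ (∀ l, ∀ x ∈ s, L.ap w l x = f l x) ∧
      ∀ l, ∀ᵐ x, x ∈ s → u l x = w l x

/-- joint interior regularity -/
def RG2 : Prop :=
  ∀ (P Q : Op n ι) (Ω : Set (V n × V n)) (W : Kr n ι), P.Sm → Q.Sm → IsOpen Ω →
    (∀ l m, LocallyIntegrableOn (fun p : V n × V n => W l m p.1 p.2) Ω) →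
    (∀ φ : Kr n ι, (∀ l m, ContDiff ℝ ∞ (fun p : V n × V n => φ l m p.1 p.2) ∧
      HasCompactSupport (fun p : V n × V n => φ l m p.1 p.2) ∧
      tsupport (fun p : V n × V n => φ l m p.1 p.2) ⊆ Ω) →
      ∫ p : V n × V n, ∑ l, ∑ m, W l m p.1 p.2 * apx P.t φ l m p.1 p.2 = 0 ∧
      ∫ p : V n × V n, ∑ l, ∑ m, W l m p.1 p.2 * apy Q.t φ l m p.1 p.2 = 0) →
    ∃ W', Sol P Q Ω W' ∧ ∀ l m, ∀ᵐ p : V n × V n, p ∈ Ω → W l m p.1 p.2 = W' l m p.1 p.2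

/-- bounds for the transpose -/
def TB : Prop :=
  (∀ L : Op n ι, L.Sm → L.t.Sm) ∧ (∀ L : Op n ι, L.Sm → L.t.t = L) ∧
  (∀ K : ℕ, ∃ C : ℝ, 1 ≤ C ∧ ∀ (L : Op n ι) (ε : ℝ), L.Sm → L.Near (K + 2) ε → L.t.Near K (C * ε)) ∧
  (∀ K : ℕ, ∃ C : ℝ, 1 ≤ C ∧ ∀ (L : Op n ι) (M c : ℝ), L.Sm → L.Bdd (K + 2) M c →
    L.t.Bdd K (C * M) c) ∧
  (∃ ε₀ : ℝ, 0 < ε₀ ∧ ∀ (K : ℕ) (L : Op n ι) (ε : ℝ), L.Sm → ε ≤ ε₀ → L.Near K ε →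
    L.Bdd K 2 (1 / 2)) ∧
  ∀ (L : Op n ι) (s : Set (V n)) (u φ : Fam n ι), L.Sm → IsOpen s →
    (∀ l, ContDiffOn ℝ ∞ (u l) s) → TstF s φ →
    ∫ x, ∑ l, u l x * L.t.ap φ l x = ∫ x, ∑ l, L.ap u l x * φ l x

/-- existence of the kernel -/
def KE : Prop :=
  ∀ (L : Op n ι) (B : Set (V n)) (G : Fam n ι → Fam n ι) (Λ : ℝ), L.Sm → IsOpen B → LG L B G Λ →
    ∃ K, Ker L B K ∧ Rp G B K

/-- bound for the kernel -/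
def KD : Prop :=
  ∃ c₀ K : ℕ, ∀ M c R Λ : ℝ, 0 < c → ∃ C : ℝ, 0 ≤ C ∧ ∀ (L : Op n ι) (G : Fam n ι → Fam n ι)
    (Kk : Kr n ι), L.Sm → L.Bdd K M c → LG L (ball 0 (R + 1)) G Λ → Ker L (ball 0 (R + 1)) Kk →
    Rp G (ball 0 (R + 1)) Kk → ∀ p ∈ offd (ball (0 : V n) R), ∀ l m,
      ‖Kk l m p.1 p.2‖ ≤ C / ‖p.1 - p.2‖ ^ c₀

/-- unique continuation for functionals -/
def FU : Prop :=
  ∀ (L : Op n ι) (s O : Set (V n)) (T : Fam n ι → ℂ), L.Sm → IsOpen s → IsPreconnected s →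
    IsOpen O → O.Nonempty → O ⊆ s →
    (∀ F F', TstF s F → TstF s F' → T (F + F') = T F + T F') →
    (∀ (z : ℂ) F, TstF s F → T (z • F) = z * T F) →
    (∀ x ∈ s, ∃ r C : ℝ, 0 < r ∧ ∀ F, TstF s F → TstF (ball x r) F →
      ‖T F‖ₑ ^ 2 ≤ ENNReal.ofReal C * N2 univ F) →
    (∀ φ, TstF s φ → T (L.ap φ) = 0) → (∀ F, TstF O F → T F = 0) → ∀ F, TstF s F → T F = 0

/-- Runge property for first order jets -/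
def RJ : Prop :=
  ∀ (L : Op n ι) (x₀ : V n) (ρ Λ : ℝ) (G : Fam n ι → Fam n ι) (O : Set (V n)), L.Sm → 0 < ρ →
    LG L (ball x₀ ρ) G Λ → Hardy G x₀ ρ Λ → IsOpen O → O.Nonempty → O ⊆ ball x₀ ρ → x₀ ∉ O →
    ∀ (v : ι → ℂ) (w : Fin n → ι → ℂ), ∃ F, TstF O F ∧ ∀ l, G F l x₀ = v l ∧
      ∀ j, pd j (G F l) x₀ = w j l

/-! ### Part C -/

variable {n ι}

/-- three region inequality with exponent `θ` -/
def Three (P : Op n ι) (D A X : Set (V n)) (θ C : ℝ) : Prop :=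
  ∀ v, SolOn P D v → ∀ a d : ℝ, 0 < a → a ≤ d → N2 A v ≤ ENNReal.ofReal (a ^ 2) →
    N2 D v ≤ ENNReal.ofReal (d ^ 2) → ∀ l, ∀ x ∈ X, ‖v l x‖ ≤ C * a ^ (1 - θ) * d ^ θ

variable (n ι)

/-- three region inequality from a weight -/
def TR : Prop :=
  ∃ K : ℕ, ∀ M c : ℝ, 0 < c → ∀ d : ℝ, 0 < d → d ≤ 1 → ∃ C : ℝ, 0 ≤ C ∧ ∀ (P : Op n ι) (α : V n → ℝ)
    (D A X S : Set (V n)) (t₀ t₁ t₂ : ℝ), P.Sm → P.Bdd K M c → IsOpen D → IsOpen A → A ⊆ D →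
    IsCompact S → cthickening (3 * d) S ⊆ D → ContDiffOn ℝ ∞ α (thickening (3 * d) S) →
    Bd 4 α (thickening (3 * d) S) M → (∀ x ∈ thickening (3 * d) S, Sup P.g α x c) →
    t₀ + d ≤ t₁ → t₁ + d ≤ t₂ → -M ≤ t₀ → t₂ ≤ M → diam S ≤ M →
    (∀ x ∈ thickening (3 * d) S, t₀ ≤ α x) →
    (∀ x ∈ thickening (3 * d) S, x ∉ S → ball x d ⊆ A ∨ t₂ ≤ α x) →
    (∀ x ∈ X, ball x d ⊆ S ∧ ∀ y ∈ ball x d, α y ≤ t₁) →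
    Three P D A X ((t₁ - t₀) / (t₂ - t₀)) C

/-- the cross lemma -/
def CROSS : Prop :=
  ∀ θ θ' : ℝ, 0 ≤ θ → 0 ≤ θ' → θ + θ' < 1 → ∃ C₀ : ℝ, ∀ (P Q : Op n ι) (D A X D' A' X' : Set (V n))
    (C C' v A₀ : ℝ) (W : Kr n ι), P.Sm → Q.Sm → IsOpen D → IsOpen A → IsOpen X → IsOpen D' →
    IsOpen A' → IsOpen X' → A ⊆ D → X ⊆ D → A' ⊆ D' → X' ⊆ D' → 0 ≤ C → 0 ≤ C' → 0 ≤ v →
    volume D ≤ ENNReal.ofReal v → volume D' ≤ ENNReal.ofReal v →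
    Three P D A X θ C → Three Q D' A' X' θ' C' → Sol P Q (D ×ˢ A' ∪ A ×ˢ D') W →
    KBd W (D ×ˢ A' ∪ A ×ˢ D') A₀ → 0 ≤ A₀ →
    ∃ W', Sol P Q (X ×ˢ X') W' ∧ KBd W' (X ×ˢ X') (C₀ * C * C' * v * A₀) ∧
      ∀ p ∈ X ×ˢ X', p.2 ∈ A' → ∀ l m, W' l m p.1 p.2 = W l m p.1 p.2

/-- the slab lemma -/
def SLAB : Prop :=
  ∃ K : ℕ, ∀ M c r : ℝ, 0 < c → 0 < r → ∃ η C : ℝ, 0 < η ∧ η ≤ r ∧ ∀ (P Q : Op n ι)
    (Θ : V n × V n → ℝ) (p : V n × V n) (w w' : V n) (k A : ℝ) (W : Kr n ι), P.Sm → Q.Sm →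
    P.Bdd K M c → Q.Bdd K M c → ContDiffOn ℝ ∞ Θ (ball p r) →
    (∀ i ≤ 3, ∀ q ∈ ball p r, ‖iteratedFDeriv ℝ i Θ q‖ ≤ M) → c ≤ ‖grx Θ p‖ → c ≤ ‖gry Θ p‖ →
    ‖w‖ ≤ M → ‖w'‖ ≤ M → c ≤ k → k ≤ M → Levi P.g Q.g Θ p w w' k →
    Sol P Q {q ∈ ball p r | Θ p < Θ q} W → KBd W {q ∈ ball p r | Θ p < Θ q} A → 0 ≤ A →
    ∃ W', Sol P Q (ball p η) W' ∧ KBd W' (ball p η) (C * A) ∧
      ∀ q ∈ ball p η, Θ p < Θ q → ∀ l m, W' l m q.1 q.2 = W l m q.1 q.2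

/-! ### the local setting -/

variable {n ι} [NeZero n]

/-- the exterior half space -/
def Ux (n : ℕ) [NeZero n] : Set (V n) := {x | x 0 < 0}

/-- two operators and their kernels -/
structure Dat (n : ℕ) (ι : Type) where
  L1 : Op n ι
  L2 : Op n ι
  K1 : Kr n ι
  K2 : Kr n ι
  G2 : Fam n ι → Fam n ι

/-- standing hypotheses -/
structure Dat.Ok (d : Dat n ι) (K : ℕ) (ε R : ℝ) (c₀ : ℕ) (Λ : ℝ) : Prop where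
  sm1 : d.L1.Sm
  sm2 : d.L2.Sm
  nr1 : d.L1.Near K ε
  nr2 : d.L2.Near K ε
  eqU : d.L1.EqOn d.L2 (Ux n)
  k1 : Ker d.L1 (ball 0 R) d.K1
  k2 : Ker d.L2 (ball 0 R) d.K2
  lg : LG d.L2 (ball 0 R) d.G2 Λ
  nn : 0 ≤ Λ
  b1 : ∀ p ∈ offd (ball (0 : V n) R), ∀ l m, ‖d.K1 l m p.1 p.2‖ ≤ Λ / ‖p.1 - p.2‖ ^ c₀
  b2 : ∀ p ∈ offd (ball (0 : V n) R), ∀ l m, ‖d.K2 l m p.1 p.2‖ ≤ Λ / ‖p.1 - p.2‖ ^ c₀
  eqK : ∀ p ∈ offd (ball (0 : V n) R), p.1 ∈ Ux n → p.2 ∈ Ux n → ∀ l m,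
    d.K1 l m p.1 p.2 = d.K2 l m p.1 p.2

/-- extensions of the kernels -/
structure Dat.Ext (d : Dat n ι) (Ω : Set (V n × V n)) (W : Kr n ι) : Prop where
  sol : Sol d.L1 d.L2.t Ω W
  e1 : ∀ p ∈ Ω, p.2 ∈ Ux n → ∀ l m, W l m p.1 p.2 = d.K1 l m p.1 p.2
  e2 : ∀ p ∈ Ω, p.1 ∈ Ux n → ∀ l m, W l m p.1 p.2 = d.K2 l m p.1 p.2

/-- normalisation and matched sections -/
structure Dat.Nm (d : Dat n ι) (K : ℕ) (ε R : ℝ) (l₀ : ι) (s s' : Fin n → Fam n ι) : Prop where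
  g1 : ∀ x, d.L1.g 0 0 x = 1
  g2 : ∀ x, d.L2.g 0 0 x = 1
  c1 : ∀ l m x, d.L1.c l m x = 0
  c2 : ∀ l m x, d.L2.c l m x = 0
  s1 : ∀ j, SolOn d.L1 (ball 0 R) (s j)
  s2 : ∀ j, SolOn d.L2 (ball 0 R) (s' j)
  eqU : ∀ j l, ∀ x ∈ ball (0 : V n) R, x ∈ Ux n → s j l x = s' j l x
  re : ∀ j, ∀ x ∈ ball (0 : V n) R, (s j l₀ x).re = (s' j l₀ x).re
  nr1 : ∀ j l, Bd K (fun x => s j l x - if l = l₀ then ((x j : ℝ) : ℂ) else 0) (ball 0 R) ε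
  nr2 : ∀ j l, Bd K (fun x => s' j l x - if l = l₀ then ((x j : ℝ) : ℂ) else 0) (ball 0 R) ε

/-- the difference of the coefficients is at most `δ` at `x`, with three derivatives -/
def Dat.Df (d : Dat n ι) (x : V n) (δ : ℝ) : Prop :=
  ∀ i ≤ 3, (∀ j k, ‖iteratedFDeriv ℝ i (fun y => d.L1.g j k y - d.L2.g j k y) x‖ ≤ δ) ∧
    (∀ j l m, ‖iteratedFDeriv ℝ i (fun y => d.L1.a j l m y - d.L2.a j l m y) x‖ ≤ δ) ∧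
    ∀ l m, ‖iteratedFDeriv ℝ i (fun y => d.L1.c l m y - d.L2.c l m y) x‖ ≤ δ

/-- the height function -/
def psi (κ : ℝ) (x : V n) : ℝ := x 0 + κ * (‖x‖ ^ 2 - 4 * x 0 ^ 2)

/-- parameters of one step -/
structure Par where
  κ : ℝ
  a : ℝ
  N : ℝ
  B : ℝ

/-- admissible parameters -/
structure Par.Ok (P : Par) (N₀ c : ℝ) : Prop where
  a0 : 0 < P.a
  a1 : P.a ≤ P.κ / 4
  N0 : N₀ ≤ P.N
  B0 : 0 < P.B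
  B1 : √P.B * P.N ^ 3 ≤ c

/-- the scale function -/
def Par.b (P : Par) (x : V n) : ℝ := P.B * Real.exp (P.N * (psi P.κ x - P.a))

/-- the quadratic form frozen at the midpoint -/
def qq (g : Mf n) (p : V n × V n) : ℝ :=
  ∑ j, ∑ k, (Matrix.of fun j k => g j k ((1 / 2 : ℝ) • (p.1 + p.2)))⁻¹ j k *
    (p.2 - p.1) j * (p.2 - p.1) k

/-- the phase -/
def Par.Th (P : Par) (g : Mf n) (p : V n × V n) : ℝ :=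
  Real.log (qq g p) - Real.log (P.b p.1) - Real.log (P.b p.2)

/-- the gauge covector -/
def Par.w (P : Par) (x : V n) : V n := gr (fun y => Real.log (P.b y)) x

/-- smallness of the difference below the level `a` -/
def Par.H (P : Par) (d : Dat n ι) (p : ℕ) : Prop :=
  ∀ x : V n, ‖x‖ < 2 → psi P.κ x < P.a → d.Df x (P.b x ^ p)

/-- domain after the first stages -/
def Om0 (n : ℕ) (r : ℝ) : Set (V n × V n) := {p | ‖p.1‖ < 2 ∧ ‖p.2‖ < 20 ∧ r < ‖p.1 - p.2‖}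

/-- the old domain -/
def Par.old (P : Par) (n : ℕ) [NeZero n] : Set (V n × V n) :=
  {p | ‖p.1‖ < 2 ∧ ‖p.2‖ < 20 ∧ psi P.κ p.1 < P.a + 2 / P.N ∧ P.B / 100 < ‖p.1 - p.2‖}

/-- the top zone -/
def Par.top (P : Par) (n : ℕ) [NeZero n] : Set (V n × V n) :=
  {p ∈ P.old n | ‖p.2‖ ≤ 12 ∧ P.a - 2 / P.N < psi P.κ p.1}

/-- the new domain -/
def Par.new (P : Par) (n : ℕ) [NeZero n] : Set (V n × V n) :=
  {p | ‖p.1‖ < 2 ∧ ‖p.2‖ < 20 ∧ psi P.κ p.1 < P.a ∧ P.b p.1 / 2 < ‖p.1 - p.2‖}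

/-- the bound on the new domain -/
def Par.WB (P : Par) (W : Kr n ι) (D : ℝ) (e : ℕ) : Prop :=
  ∀ x y : V n, ‖x‖ < 2 → psi P.κ x < P.a - 1 / P.N → ‖y‖ ≤ 12 → 4 * P.b x ≤ ‖x - y‖ →
    ∀ l m, ‖W l m x y‖ ≤ D / (P.B * P.b x) ^ e

/-- the weight -/
def wt (M : ℝ) (J : ℕ) (s : ℝ) : ℝ := Real.exp (2 * M * s) * (s / (1 + s)) ^ (2 * J)

variable (n ι)

/-- Part D: stages one and two -/
def D1 : Prop :=
  ∀ (c₀ : ℕ) (r : ℝ), 0 < r → ∃ (K : ℕ) (R ε C : ℝ), 30 ≤ R ∧ 0 < ε ∧ ∀ (d : Dat n ι) (Λ : ℝ),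
    d.Ok K ε R c₀ Λ → ∃ W, d.Ext (Om0 n r) W ∧ KBd W (Om0 n r) (C * Λ)

/-- Part Q: pointwise positivity -/
def PQ : Prop :=
  ∃ κ₀ C : ℝ, 0 < κ₀ ∧ ∀ κ, 0 < κ → κ ≤ κ₀ → ∀ η, 0 < η → ∃ ε c N₀ η' : ℝ, 0 < ε ∧ 0 < c ∧
    0 < η' ∧ ∀ (P : Par) (d : Dat n ι) (p : V n × V n), P.κ = κ → N₀ ≤ P.N → 0 < P.B →
      d.L1.Sm → d.L2.Sm → d.L1.Near 3 ε → d.L2.Near 3 ε → ‖p.1‖ < 2 → p.1 ≠ p.2 →
      ‖p.1 - p.2‖ * P.N ^ 2 ≤ c → d.Df p.1 (c * ‖p.1 - p.2‖) → ∀ ξ η₁ : V n,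
      κ * P.N / 4 * (perp d.L1.g p.1 (grx (P.Th d.L2.g) p) ξ +
          perp d.L2.g p.2 (gry (P.Th d.L2.g) p) η₁) -
        η * κ * P.N * (‖ξ‖ ^ 2 + ‖η₁‖ ^ 2) - C * tau d.L1.g d.L2.g (P.Th d.L2.g) p ξ η₁ ^ 2 +
        η' / (P.N * ‖p.1 - p.2‖ ^ 2) * ‖gv d.L2.g p.2 η₁ - gv d.L1.g p.1 ξ‖ ^ 2 ≤
        Lev d.L1.g d.L2.g (P.Th d.L2.g) p (P.w p.1) (P.w p.2) ξ η₁

/-- Part D: existence on the new domain -/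
def StepE : Prop :=
  ∃ κ₀ : ℝ, 0 < κ₀ ∧ ∀ κ, 0 < κ → κ ≤ κ₀ → ∃ (K : ℕ) (ε c N₀ : ℝ), 0 < ε ∧ 0 < c ∧
    ∀ (P : Par) (d : Dat n ι) (c₀ : ℕ) (Λ : ℝ) (W₀ : Kr n ι), P.κ = κ → P.Ok N₀ c →
      d.Ok K ε 30 c₀ Λ → P.H d 3 → d.Ext (P.old n) W₀ →
      ∃ W, d.Ext (P.new n) W ∧
        ∀ p ∈ P.new n, p ∈ P.old n → ∀ l m, W l m p.1 p.2 = W₀ l m p.1 p.2

/-- Part E: Carleman estimate on the product -/
def C7B : Prop :=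
  ∃ (M κ₀ : ℝ) (J : ℕ), 0 < M ∧ 3 ≤ J ∧ 0 < κ₀ ∧ ∀ κ, 0 < κ → κ ≤ κ₀ →
    ∃ (K : ℕ) (ε c N₀ C : ℝ), 0 < ε ∧ 0 < c ∧ ∀ (P : Par) (d : Dat n ι) (v : Kr n ι), P.κ = κ →
      P.Ok N₀ c → d.L1.Sm → d.L2.Sm → d.L1.Near K ε → d.L2.Near K ε → P.H d 3 →
      (∀ l m, ContDiff ℝ ∞ (fun p : V n × V n => v l m p.1 p.2) ∧
        HasCompactSupport (fun p : V n × V n => v l m p.1 p.2) ∧
        tsupport (fun p : V n × V n => v l m p.1 p.2) ⊆ {p | ‖p.1‖ < 2 ∧ psi κ p.1 < P.a ∧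
          p.1 ≠ p.2 ∧ 0 < P.Th d.L2.g p ∧ ‖p.1 - p.2‖ < 3 * √P.B}) →
      ∫ p : V n × V n, wt M J (P.Th d.L2.g p) * ∑ l, ∑ m,
          (‖v l m p.1 p.2‖ ^ 2 + ∑ j, ‖pd j (fun x => v l m x p.2) p.1‖ ^ 2) ≤
        C * ∫ p : V n × V n, wt M J (P.Th d.L2.g p) * ∑ l, ∑ m,
          (‖apx d.L1 v l m p.1 p.2‖ ^ 2 + ‖apy d.L2.t v l m p.1 p.2‖ ^ 2)

/-- Part F: radial Carleman estimate -/
def C7A : Prop :=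
  ∃ M₀ : ℕ, ∀ M : ℕ, M₀ ≤ M → ∃ (K : ℕ) (ε C : ℝ), 0 < ε ∧ ∀ (Q : Op n ι) (x : V n) (v : Fam n ι),
    Q.Sm → Q.Near K ε → TstF (ball x 30 \ {x}) v →
      ∫ y, ‖y - x‖ ^ (2 * M) * ∑ l, ‖v l y‖ ^ 2 ≤
        C * ∫ y, ‖y - x‖ ^ (2 * M) * ∑ l, ‖Q.ap v l y‖ ^ 2

/-- Part F: the bound on the new domain -/
def StepW : Prop :=
  ∀ c₀ : ℕ, ∃ (p e : ℕ) (κ₀ : ℝ), 0 < κ₀ ∧ ∀ κ, 0 < κ → κ ≤ κ₀ →
    ∃ (K f : ℕ) (ε c N₀ C : ℝ), 0 < ε ∧ 0 < c ∧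
    ∀ (P : Par) (d : Dat n ι) (Λ A : ℝ) (W₀ : Kr n ι), P.κ = κ → P.Ok N₀ c →
      d.Ok K ε 30 c₀ Λ → P.H d p → d.Ext (P.old n) W₀ → KBd W₀ (P.top n) A → 0 ≤ A →
      ∃ W, d.Ext (P.new n) W ∧ P.WB W (C * P.N ^ f * (A + Λ)) e

/-- Part H: the bound for the difference of the coefficients -/
def StepS : Prop :=
  ∀ e : ℕ, ∃ e' : ℕ, ∀ q : ℕ, ∃ κ₀ : ℝ, 0 < κ₀ ∧ ∀ κ, 0 < κ → κ ≤ κ₀ →
    ∃ c N₀ : ℝ, 0 < c ∧ ∀ (c₀ : ℕ) (Λ : ℝ), ∃ (K f : ℕ) (ε C : ℝ), 0 < ε ∧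
    ∀ (P : Par) (d : Dat n ι) (D : ℝ) (W : Kr n ι) (l₀ : ι) (s s' : Fin n → Fam n ι),
      P.κ = κ → P.Ok N₀ c → d.Ok K ε 30 c₀ Λ → d.Nm K ε 30 l₀ s s' → d.Ext (P.new n) W →
      0 ≤ D → P.WB W D e → ∀ x : V n, ‖x‖ < 2 → psi κ x < P.a - 3 / P.N →
        d.Df x (C * P.N ^ f * (D + 1) / P.B ^ e' * (P.b x / P.B) ^ q)

/-- Part L: the local theorem in normal form, for kernels -/
def LTK : Prop :=
  ∀ c₀ : ℕ, ∃ R : ℝ, 0 < R ∧ ∀ Λ : ℝ, ∃ (K : ℕ) (ε c : ℝ), 0 < ε ∧ 0 < c ∧ c ≤ R ∧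
    ∀ (d : Dat n ι) (l₀ : ι) (s s' : Fin n → Fam n ι), d.Ok K ε R c₀ Λ → d.Nm K ε R l₀ s s' →
      d.L1.EqOn d.L2 (ball 0 c)

/-- Part L: the local theorem in normal form (the fields `K1`, `K2` of `d` are not used) -/
def LT0 : Prop :=
  ∃ R : ℝ, 0 < R ∧ ∀ Λ : ℝ, ∃ (K : ℕ) (ε c : ℝ), 0 < ε ∧ 0 < c ∧ c ≤ R ∧
    ∀ (d : Dat n ι) (G1 : Fam n ι → Fam n ι) (l₀ : ι) (s s' : Fin n → Fam n ι), d.L1.Sm → d.L2.Sm →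
      d.L1.Near K ε → d.L2.Near K ε → d.L1.EqOn d.L2 (Ux n) → LG d.L1 (ball 0 R) G1 Λ →
      LG d.L2 (ball 0 R) d.G2 Λ →
      (∀ F, TstF (ball 0 R ∩ Ux n) F → ∀ l, ∀ x ∈ ball (0 : V n) R ∩ Ux n,
        G1 F l x = d.G2 F l x) →
      d.Nm K ε R l₀ s s' → d.L1.EqOn d.L2 (ball 0 c)

/-- Part L: the local theorem -/
def LT : Prop :=
  ∀ (L L' : Op n ι) (x₀ z : V n) (ρ Λ : ℝ) (G G' : Fam n ι → Fam n ι) (l₀ : ι)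
    (s s' : Fin n → Fam n ι), L.Sm → L'.Sm → (∀ l m x, L.c l m x = 0) →
    (∀ l m x, L'.c l m x = 0) → z ≠ x₀ → ball z ‖z - x₀‖ ⊆ ball x₀ ρ →
    LG L (ball x₀ ρ) G Λ → LG L' (ball x₀ ρ) G' Λ → Hardy G x₀ ρ Λ → Hardy G' x₀ ρ Λ →
    L.EqOn L' (ball z ‖z - x₀‖) →
    (∀ F, TstF (ball z ‖z - x₀‖) F → ∀ l, ∀ x ∈ ball z ‖z - x₀‖, G F l x = G' F l x) →
    (∀ j, SolOn L (ball x₀ ρ) (s j)) → (∀ j, SolOn L' (ball x₀ ρ) (s' j)) →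
    (∀ j l, ∀ x ∈ ball z ‖z - x₀‖, s j l x = s' j l x) →
    (∀ j, ∀ x ∈ ball x₀ ρ, (s j l₀ x).re = (s' j l₀ x).re) →
    (∀ j k l, pd k (s' j l) x₀ = if l = l₀ ∧ j = k then 1 else 0) →
    ∃ r : ℝ, 0 < r ∧ ∃ μ : V n → ℝ, ∀ x ∈ ball x₀ r,
      (∀ j k, L.g j k x = μ x * L'.g j k x) ∧ ∀ j l m, L.a j l m x = μ x * L'.a j l m x

end Vale.Agent.P088F
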