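import Vale.Agent.P088F.ACore

/-! P088F, part E: abstract data of the Carleman estimate on the product. -/

open MeasureTheory Set Filter Topology
open scoped ContDiff

noncomputable section

namespace Vale.Agent.P088F

open Vale.Agent.P088 Vale.Agent.P088.Car

variable {E : Type} [NormedAddCommGroup E] [NormedSpace ℝ E] {ι : Type} [Fintype ι]

/-- block diagonal matrix fields -/
def blk (A B : ι → ι → E → ℝ) : ι ⊕ ι → ι ⊕ ι → E → ℝ
  | .inl i, .inl j => A i j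
  | .inr i, .inr j => B i j
  | _, _ => fun _ => 0

/-- pairing of a vector field with a covector -/
def dp {κ : Type} [Fintype κ] (X : κ → E → ℝ) (x : E) (ζ : κ → ℝ) : ℝ := ∑ k, X k x * ζ k

/-- the conjugated operator -/
def cj (e : ι → E) (a : ι → ι → E → ℝ) (Φ u : E → ℝ) (x : E) : ℝ :=
  dv e a u x + 2 * al e (fx e a Φ) u x + (dv e a Φ x + Car.qq e a Φ x) * u x

/-- abstract data -/
structure Dt (E ι : Type) where
  e1 : ι → E
  e2 : ι → E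
  a1 : ι → ι → E → ℝ
  a2 : ι → ι → E → ℝ
  m : E → ℝ
  l1 : E → ℝ
  l2 : E → ℝ
  Ψ : E → ℝ
  σ : E → ℝ
  g : E → ℝ

namespace Dt

variable (D : Dt E ι)

/-- all directions -/
def es : ι ⊕ ι → E := Sum.elim D.e1 D.e2

/-- the indefinite metric -/
def G : ι ⊕ ι → ι ⊕ ι → E → ℝ :=
  blk (fun i j y => D.l1 y * D.a1 i j y) fun i j y => -(D.l2 y * D.a2 i j y)

/-- the metric times the density -/
def Gm (i j : ι ⊕ ι) (y : E) : ℝ := D.m y * D.G i j y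

/-- the full weight -/
def Φ (y : E) : ℝ := D.Ψ y + D.σ y / 2

/-- the main multiplier -/
def X : ι ⊕ ι → E → ℝ := fx D.es D.G D.Ψ

/-- the auxiliary field -/
def Y : ι → E → ℝ := fx D.e1 D.a1 D.Ψ

/-- the potential -/
def V : E → ℝ := Car.qq D.e1 D.a1 D.Ψ

/-- the remainder of the first potential -/
def c1 (x : E) : ℝ := dv D.e1 D.a1 D.Φ x + Car.qq D.e1 D.a1 D.Φ x - D.V x

/-- the zero order term -/
def c (x : E) : ℝ := D.m x * (D.l1 x * (dv D.e1 D.a1 D.Φ x + Car.qq D.e1 D.a1 D.Φ x) -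
  D.l2 x * (dv D.e2 D.a2 D.Φ x + Car.qq D.e2 D.a2 D.Φ x))

/-- the first order error -/
def Ef (k : ι) (x : E) : ℝ :=
  fx D.e1 D.a1 (fun y => D.m y * D.l1 y) k x - D.m x * D.l1 x * fx D.e1 D.a1 D.σ k x

/-- second auxiliary multiplier -/
def hY (k : ι) (y : E) : ℝ := D.g y / D.V y * D.Y k y

/-- the field of the potential term -/
def gY (k : ι) (y : E) : ℝ := D.g y * D.Y k y

/-- the weight of the estimate -/
def Om (x : E) : ℝ := Real.exp (-2 * D.Φ x) * (D.m x * D.l2 x ^ 2)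

/-- smoothness and signs -/
structure S0 (x : E) : Prop where
  a1 : ∀ i j, SA (D.a1 i j) x
  a2 : ∀ i j, SA (D.a2 i j) x
  y1 : ∀ i j y, D.a1 i j y = D.a1 j i y
  y2 : ∀ i j y, D.a2 i j y = D.a2 j i y
  m : SA D.m x
  l1 : SA D.l1 x
  l2 : SA D.l2 x
  Ψ : SA D.Ψ x
  σ : SA D.σ x
  g : SA D.g x
  q1 : ∀ ξ, sq2 ξ ≤ 2 * qf D.a1 x ξ ξ
  q2 : ∀ ξ, sq2 ξ ≤ 2 * qf D.a2 x ξ ξ
  m0 : 0 < D.m x
  l10 : 0 < D.l1 x
  l20 : 0 < D.l2 x
  l12 : D.l1 x ≤ 2 * D.l2 x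
  g0 : D.m x * D.l2 x ^ 2 ≤ D.g x
  V0 : 1 ≤ D.V x

/-- positivity of the main commutator -/
def H1 (x : E) : Prop := ∀ ξ η : ι → ℝ,
  D.g x * (qf D.a1 x ξ ξ - dp D.Y x ξ ^ 2 / D.V x - qf D.a1 x ξ ξ / 100 + qf D.a2 x η η / 400) ≤
    -LL D.es D.Gm D.X x (Sum.elim ξ η) + dg D.es D.X x * qf D.Gm x (Sum.elim ξ η) (Sum.elim ξ η) +
      D.m x * dp D.X x (Sum.elim ξ η) ^ 2

/-- first order errors -/
def H2 (x : E) : Prop :=
  (∀ ξ, dp D.Ef x ξ ^ 2 ≤ D.m x * D.g x * qf D.a1 x ξ ξ / 100) ∧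
  (∀ k, fx D.e2 D.a2 (fun y => D.m y * D.l2 y) k x = D.m x * D.l2 x * fx D.e2 D.a2 D.σ k x) ∧
  (∀ ξ, dp (fx D.e1 D.a1 D.σ) x ξ ^ 2 ≤ D.V x * qf D.a1 x ξ ξ / 10000) ∧
  D.g x ≤ D.m x * D.l2 x ^ 2 * D.V x / 100 ∧
  Car.qq D.e1 D.a1 D.Φ x ≤ 4 * D.V x ∧ Car.qq D.e2 D.a2 D.Φ x ≤ 8 * D.V x

/-- zero order error -/
def H3 (x : E) : Prop := D.c x ^ 2 ≤ D.m x * D.g x * D.V x / 100

/-- potential error -/
def H5 (x : E) : Prop := |D.c1 x| ≤ D.V x / 100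

/-- derivatives of the first auxiliary multiplier -/
def H6 (x : E) : Prop :=
  (∀ ξ, dp (fx D.e1 D.a1 D.g) x ξ ^ 2 ≤ D.g x ^ 2 * D.V x * qf D.a1 x ξ ξ / 10000) ∧
    |dg D.e1 D.gY x| ≤ D.g x * D.V x / 100

/-- deformation tensor of the second auxiliary multiplier -/
def H7 (x : E) : Prop :=
  ∀ ξ, |LL D.e1 D.a1 D.hY x ξ - dg D.e1 D.hY x * qf D.a1 x ξ ξ| ≤ D.g x * qf D.a1 x ξ ξ / 100

/-- all conditions -/
structure Cf (x : E) : Prop where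
  s0 : D.S0 x
  h1 : D.H1 x
  h2 : D.H2 x
  h3 : D.H3 x
  h5 : D.H5 x
  h6 : D.H6 x
  h7 : D.H7 x

/-- the field of the main identity -/
def W0 (u : E → ℝ) (i : ι ⊕ ι) (y : E) : ℝ :=
  2 * (al D.es D.X u y * fx D.es D.Gm u i y) - D.X i y * qf D.Gm y (gr D.es u y) (gr D.es u y)

/-- the field of the auxiliary identities -/
def W1 (u : E → ℝ) (i : ι) (y : E) : ℝ :=
  1 / 2 * (D.g y * u y * fx D.e1 D.a1 u i y) +
    ((2 * (al D.e1 D.hY u y * fx D.e1 D.a1 u i y) -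
      D.hY i y * qf D.a1 y (gr D.e1 u y) (gr D.e1 u y)) + D.gY i y * (u y * u y))

end Dt

section blocks
variable {e1 e2 : ι → E} {A B : ι → ι → E → ℝ} {x : E}

theorem fx_blk_l (f : E → ℝ) (i : ι) :
    fx (Sum.elim e1 e2) (blk A B) f (.inl i) = fx e1 A f i := by
  funext y; simp [fx, blk, Fintype.sum_sum_type]

theorem fx_blk_r (f : E → ℝ) (i : ι) :
    fx (Sum.elim e1 e2) (blk A B) f (.inr i) = fx e2 B f i := by
  funext y; simp [fx, blk, Fintype.sum_sum_type]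

theorem dv_blk (f : E → ℝ) : dv (Sum.elim e1 e2) (blk A B) f x = dv e1 A f x + dv e2 B f x := by
  simp [dv, Fintype.sum_sum_type, fx_blk_l, fx_blk_r]

omit [NormedAddCommGroup E] [NormedSpace ℝ E] in
theorem qf_blk (ξ η ξ' η' : ι → ℝ) :
    qf (blk A B) x (Sum.elim ξ η) (Sum.elim ξ' η') = qf A x ξ ξ' + qf B x η η' := by
  simp [qf, blk, Fintype.sum_sum_type]

omit [Fintype ι] in
theorem gr_elim (f : E → ℝ) : gr (Sum.elim e1 e2) f x = Sum.elim (gr e1 f x) (gr e2 f x) := by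
  funext i; cases i <;> rfl

theorem al_elim (X : ι ⊕ ι → E → ℝ) (f : E → ℝ) : al (Sum.elim e1 e2) X f x =
    al e1 (fun i => X (.inl i)) f x + al e2 (fun i => X (.inr i)) f x := by
  simp [al, Fintype.sum_sum_type]

theorem al_eq_dp {κ : Type} [Fintype κ] (e : κ → E) (X : κ → E → ℝ) (f : E → ℝ) :
    al e X f x = dp X x (gr e f x) := rfl

omit [Fintype ι] in
theorem blk_sa (hA : ∀ i j, SA (A i j) x) (hB : ∀ i j, SA (B i j) x) :
    ∀ i j, SA (blk A B i j) x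
  | .inl i, .inl j => hA i j
  | .inr i, .inr j => hB i j
  | .inl _, .inr _ => contDiffAt_const
  | .inr _, .inl _ => contDiffAt_const

omit [NormedAddCommGroup E] [NormedSpace ℝ E] [Fintype ι] in
theorem blk_symm (hA : ∀ i j, A i j x = A j i x) (hB : ∀ i j, B i j x = B j i x) :
    ∀ i j, blk A B i j x = blk A B j i x
  | .inl i, .inl j => hA i j
  | .inr i, .inr j => hB i j
  | .inl _, .inr _ => rfl
  | .inr _, .inl _ => rfl

end blocks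

end Vale.Agent.P088F
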