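import Vale.Agent.P088F.EK

/-! P088F, part E: basic consequences of the hypotheses at a point. -/

open MeasureTheory Set Filter Topology
open scoped ContDiff

noncomputable section

namespace Vale.Agent.P088F

open Vale.Agent.P292E Vale.Agent.P088

section abs
variable {E : Type} [NormedAddCommGroup E] [NormedSpace ℝ E] {κ : Type} [Fintype κ]
  {e : κ → E} {a : κ → κ → E → ℝ} {x : E} {X : κ → E → ℝ} {f : E → ℝ} {A B : ℝ}

omit [NormedAddCommGroup E] [NormedSpace ℝ E] in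
theorem eb_dp (h : ∀ k, |X k x| ≤ B) (ξ : κ → ℝ) :
    dp X x ξ ^ 2 ≤ Fintype.card κ * B ^ 2 * Car.sq2 ξ := by
  have h1 := Finset.sum_mul_sq_le_sq_mul_sq Finset.univ (fun k => X k x) ξ
  refine h1.trans (mul_le_mul_of_nonneg_right ?_ (Car.sq2_nonneg ξ))
  calc ∑ k, X k x ^ 2 ≤ ∑ _k : κ, B ^ 2 :=
        Finset.sum_le_sum fun k _ => by rw [← sq_abs]; exact pow_le_pow_left₀ (abs_nonneg _) (h k) 2
    _ = _ := by simp

theorem eb_fx (ha : ∀ i j, |a i j x| ≤ A) (hf : ∀ j, |Car.dd (e j) f x| ≤ B) (i : κ) :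
    |Car.fx e a f i x| ≤ Fintype.card κ * A * B := by
  refine (Finset.abs_sum_le_sum_abs _ _).trans ?_
  calc _ ≤ ∑ _j : κ, A * B := Finset.sum_le_sum fun j _ => by
        rw [smul_eq_mul, abs_mul]
        exact mul_le_mul (ha i j) (hf j) (abs_nonneg _) ((abs_nonneg _).trans (ha i j))
    _ = _ := by simp [mul_assoc]

theorem eb_al (ha : ∀ i, |X i x| ≤ A) (hf : ∀ j, |Car.dd (e j) f x| ≤ B) :
    |Car.al e X f x| ≤ Fintype.card κ * A * B := by
  refine (Finset.abs_sum_le_sum_abs _ _).trans ?_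
  calc _ ≤ ∑ _j : κ, A * B := Finset.sum_le_sum fun j _ => by
        rw [abs_mul]
        exact mul_le_mul (ha j) (hf j) (abs_nonneg _) ((abs_nonneg _).trans (ha j))
    _ = _ := by simp [mul_assoc]

theorem eb_ddfx (ha : ∀ i j, Car.SA (a i j) x) (hf : Car.SA f x) (v : E) (i : κ) :
    Car.dd v (Car.fx e a f i) x =
      ∑ j, (Car.dd v (a i j) x * Car.dd (e j) f x + a i j x * Car.dd v (Car.dd (e j) f) x) := by
  refine (Car.dd_sum Finset.univ (fun j => (ha i j).smul (hf.dd (e j))) v).trans ?_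
  exact Finset.sum_congr rfl fun j _ => Car.dd_mul (ha i j) (hf.dd _) v

/-- the potential of `Ψ + σ / 2` -/
theorem eb_pot {Ψ σ : E → ℝ} (ha : ∀ i j, Car.SA (a i j) x) (hs : ∀ i j, a i j x = a j i x)
    (h1 : Car.SA Ψ x) (h2 : Car.SA σ x) :
    Car.dv e a (fun y => Ψ y + σ y / 2) x = Car.dv e a Ψ x + Car.dv e a σ x / 2 ∧
    Car.qq e a (fun y => Ψ y + σ y / 2) x =
      Car.qq e a Ψ x + Car.al e (Car.fx e a Ψ) σ x + Car.qq e a σ x / 4 ∧
    ∀ i, Car.fx e a (fun y => Ψ y + σ y / 2) i x = Car.fx e a Ψ i x + Car.fx e a σ i x / 2 := by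
  have h3 : ∀ᶠ y in 𝓝 x, ∀ v, Car.dd v (fun y => Ψ y + σ y / 2) y =
      Car.dd v Ψ y + Car.dd v σ y / 2 := by
    filter_upwards [h1.ev 1, h2.ev 1] with y a1 a2 v
    have := ((a1.differentiableAt one_ne_zero).hasFDerivAt.add
      ((a2.differentiableAt one_ne_zero).hasFDerivAt.mul_const (1 / 2))).fderiv
    simp only [Car.dd, div_eq_mul_one_div (σ _) 2]
    rw [show (fun y => Ψ y + σ y * (1 / 2)) = Ψ + fun y => σ y * (1 / 2) from rfl, this]
    simp; ring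
  have h4 : ∀ᶠ y in 𝓝 x, ∀ i, Car.fx e a (fun y => Ψ y + σ y / 2) i y =
      Car.fx e a Ψ i y + 1 / 2 * Car.fx e a σ i y := by
    filter_upwards [h3] with y hy i
    simp only [Car.fx, hy, smul_eq_mul, Finset.mul_sum, ← Finset.sum_add_distrib]
    exact Finset.sum_congr rfl fun j _ => by ring
  have h5 : Car.al e (Car.fx e a σ) Ψ x = Car.al e (Car.fx e a Ψ) σ x := by
    have k1 := Car.qf_eq (e := e) (a := a) (x := x) (Car.gr e Ψ x) σ
    have k2 := Car.qf_eq (e := e) (a := a) (x := x) (Car.gr e σ x) Ψ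
    rw [Car.qf_symm hs, k2] at k1
    simp only [Car.al, Car.gr] at k1 ⊢
    simp only [mul_comm (Car.fx _ _ _ _ _)]
    exact k1.symm
  refine ⟨?_, ?_, fun i => by rw [h4.self_of_nhds]; ring⟩
  · simp only [Car.dv, Finset.sum_div, ← Finset.sum_add_distrib]
    refine Finset.sum_congr rfl fun i _ => ?_
    rw [Car.dd_congr (h4.mono fun y hy => hy i), Car.dd_add (Car.sa_fx ha h1 i)
      (contDiffAt_const.mul (Car.sa_fx ha h2 i)), Car.dd_cmul _ (Car.sa_fx ha h2 i)]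
    ring
  · have : Car.qq e a (fun y => Ψ y + σ y / 2) x = Car.qq e a Ψ x +
        Car.al e (Car.fx e a Ψ) σ x / 2 + Car.al e (Car.fx e a σ) Ψ x / 2 + Car.qq e a σ x / 4 := by
      simp only [Car.qq, Car.al, h4.self_of_nhds, h3.self_of_nhds, Finset.sum_div,
        ← Finset.sum_add_distrib]
      exact Finset.sum_congr rfl fun j _ => by ring
    rw [this, h5]; ring

end abs

variable {n : ℕ} [NeZero n] {P : Par} {g g' : Mf n} {M : ℝ} {J : ℕ} {p : V n × V n}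
  {r C δ t : ℝ}

omit [NeZero n] in
theorem eb_dd12 {f : V n → ℝ} (j : Fin n) :
    Car.dd (e2 j) (fun q : V n × V n => f q.1) = (fun _ => 0) ∧
    Car.dd (e1 j) (fun q : V n × V n => f q.2) = fun _ => 0 := by
  constructor <;> funext q
  · by_cases h : DifferentiableAt ℝ f q.1
    · have := (h.hasFDerivAt.comp q hasFDerivAt_fst).fderiv
      simp only [Car.dd]
      rw [show (fun q : V n × V n => f q.1) = f ∘ Prod.fst from rfl, this]
      simp [e2]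
    · have : ¬DifferentiableAt ℝ (fun q : V n × V n => f q.1) q := fun a =>
        h (DifferentiableAt.comp (f := fun x => (x, q.2)) q.1 a (by fun_prop))
      simp [Car.dd, fderiv_zero_of_not_differentiableAt this]
  · by_cases h : DifferentiableAt ℝ f q.2
    · have := (h.hasFDerivAt.comp q hasFDerivAt_snd).fderiv
      simp only [Car.dd]
      rw [show (fun q : V n × V n => f q.2) = f ∘ Prod.snd from rfl, this]
      simp [e1]
    · have : ¬DifferentiableAt ℝ (fun q : V n × V n => f q.2) q := fun a =>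
        h (DifferentiableAt.comp (f := fun x => (q.1, x)) q.2 a (by fun_prop))
      simp [Car.dd, fderiv_zero_of_not_differentiableAt this]

omit [NeZero n] in
theorem eb_dd {f : V n × V n → ℝ} (hf : DifferentiableAt ℝ f p) (j : Fin n) :
    Car.dd (e1 j) f p = grx f p j ∧ Car.dd (e2 j) f p = gry f p j := by
  have h1 := (hf.hasFDerivAt.comp p.1 (hasFDerivAt_prodMk_left (𝕜 := ℝ) p.1 p.2)).fderiv
  have h2 := (hf.hasFDerivAt.comp p.2 (hasFDerivAt_prodMk_right (𝕜 := ℝ) p.1 p.2)).fderiv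
  constructor
  · show _ = fderiv ℝ (f ∘ fun x => (x, p.2)) p.1 (ee j)
    rw [h1]; rfl
  · show _ = fderiv ℝ (f ∘ fun x => (p.1, x)) p.2 (ee j)
    rw [h2]; rfl

omit [NeZero n] in
theorem eb_exp (f : V n × V n → ℝ) (a c : V n) : Car.dd (a, c) f p =
    ∑ j, a j * Car.dd (e1 j) f p + ∑ j, c j * Car.dd (e2 j) f p := by
  have h : ∀ v : V n, v = ∑ i, v i • ee i := fun v => by
    simpa [ee] using ((EuclideanSpace.basisFun (Fin n) ℝ).sum_repr v).symm
  have h1 : ((a, c) : V n × V n) = ∑ j, a j • e1 j + ∑ j, c j • e2 j := by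
    ext1
    · simpa [Prod.fst_sum, e1, e2] using h a
    · simpa [Prod.snd_sum, e1, e2] using h c
  simp only [Car.dd]
  rw [h1]
  simp only [map_add, map_sum, map_smul, smul_eq_mul]

theorem Cx.a (h : Cx P g g' M J p r C δ t) :
    (∀ i j, Car.SA (a1 g i j) p) ∧ (∀ i j, Car.SA (a2 g' i j) p) ∧
    (∀ i j k, |Car.dd (e1 i) (a1 g j k) p| ≤ δ) ∧ (∀ i j k, |Car.dd (e2 i) (a2 g' j k) p| ≤ δ) ∧
    (δ ≤ 1 → (∀ j k, |a1 g j k p| ≤ 2) ∧ ∀ j k, |a2 g' j k p| ≤ 2) := by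
  have s1 : ∀ i j, Car.SA (a1 g i j) p := fun i j => ((h.sg i j).comp contDiff_fst).contDiffAt
  have s2 : ∀ i j, Car.SA (a2 g' i j) p := fun i j => ((h.sg' i j).comp contDiff_snd).contDiffAt
  have b : ∀ {u : ℝ} {c : Prop} [Decidable c], δ ≤ 1 → |u - if c then 1 else 0| ≤ δ → |u| ≤ 2 := by
    intro u c _ h1 h2
    rw [abs_le] at h2 ⊢
    split_ifs at h2 <;> constructor <;> linarith [h2.1, h2.2]
  exact ⟨s1, s2, fun i j k => (eb_dd (s1 j k).df i).1 ▸ h.g1 i j k p.1,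
    fun i j k => (eb_dd (s2 j k).df i).2 ▸ h.g1' i j k p.2,
    fun hδ => ⟨fun j k => b hδ (h.g0 j k p.1), fun j k => b hδ (h.g0' j k p.2)⟩⟩

theorem Cx.q1 (h : Cx P g g' M J p r C δ t) (ht : t * (2 * n) ≤ 1) (ξ : Fin n → ℝ) :
    Car.sq2 ξ ≤ 2 * Car.qf (a1 g) p ξ ξ ∧ Car.qf (a1 g) p ξ ξ ≤ 2 * Car.sq2 ξ ∧
    Car.sq2 ξ ≤ 2 * Car.qf (a2 g') p ξ ξ ∧ Car.qf (a2 g') p ξ ξ ≤ 2 * Car.sq2 ξ := by
  have k : ∀ a : Fin n → Fin n → V n × V n → ℝ, (∀ j k, |a j k p - if j = k then 1 else 0| ≤ δ) →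
      |Car.qf a p ξ ξ - Car.sq2 ξ| ≤ Car.sq2 ξ / 2 := fun a ha => by
    have e : Car.qf a p ξ ξ - Car.sq2 ξ =
        ∑ j, ∑ k, (a j k p - if j = k then 1 else 0) * ξ j * ξ k := by
      simp [Car.qf, Car.sq2, sub_mul, Finset.sum_sub_distrib, sq]
    have h0 := Car.sq2_nonneg ξ
    have h1 := h.δ0
    have h2 := h.δt
    rw [e]
    calc _ ≤ ∑ j, ∑ k, δ * ((ξ j ^ 2 + ξ k ^ 2) / 2) := by
          refine (Finset.abs_sum_le_sum_abs _ _).trans (Finset.sum_le_sum fun j _ =>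
            (Finset.abs_sum_le_sum_abs _ _).trans (Finset.sum_le_sum fun k _ => ?_))
          rw [mul_assoc, abs_mul]
          refine mul_le_mul (ha j k) (abs_le.2 ⟨?_, ?_⟩) (abs_nonneg _) h1.le <;>
            nlinarith [sq_nonneg (ξ j + ξ k), sq_nonneg (ξ j - ξ k)]
      _ = δ * n * Car.sq2 ξ := by
          simp only [← Finset.mul_sum, ← Finset.sum_div, Finset.sum_add_distrib, Finset.sum_const,
            Finset.card_univ, Fintype.card_fin, nsmul_eq_mul, Car.sq2]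
          ring
      _ ≤ _ := by
          have : δ * n ≤ 1 / 2 := by nlinarith [(Nat.cast_nonneg n : (0 : ℝ) ≤ n)]
          nlinarith
  have k1 := abs_le.1 (k (a1 g) fun j k => h.g0 j k p.1)
  have k2 := abs_le.1 (k (a2 g') fun j k => h.g0' j k p.2)
  have h0 := Car.sq2_nonneg ξ
  refine ⟨?_, ?_, ?_, ?_⟩ <;> linarith [k1.1, k1.2, k2.1, k2.2]

theorem Cx.k (h : Cx P g g' M J p r C δ t) : 0 < kk M J (P.Th g' p) ∧
    1 ≤ t * kk M J (P.Th g' p) ∧ r ≤ δ ∧ P.N * r ≤ δ ∧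
    Car.SA (fun q => kk M J (P.Th g' q)) p ∧ Car.SA (P.dt g g' M J).Ψ p ∧
    Car.SA (P.n1 g g') p ∧ Car.SA (P.n2 g') p ∧
    ∀ v, Car.dd v (fun q => kk M J (P.Th g' q)) p = k1 J (P.Th g' p) * Car.dd v (P.Th g') p := by
  obtain ⟨a1, a2, -, a4, a5, -⟩ := ek_sa M J h.s0
  have t0 : 0 < t := h.δ0.trans_le h.δt
  have M0 : 0 < M := by by_contra c; nlinarith [h.tM]
  have h1 := h.geo.rN
  have h2 := h.N1
  have h3 := h.r0
  have h4 : P.N * r ≤ δ := by
    nlinarith [mul_nonneg (mul_nonneg h3.le (zero_le_one.trans h2)) (sub_nonneg.2 h2)]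
  refine ⟨by linarith, by nlinarith [h.tM], by nlinarith, h4, a2.comp p h.geo.sm,
    a1.comp p h.geo.sm, Car.sa_qq h.a.1 h.geo.sm, Car.sa_qq h.a.2.1 h.geo.sm, fun v => ?_⟩
  have := (a4.comp_hasFDerivAt p h.geo.sm.df.hasFDerivAt).fderiv
  simp only [Car.dd]
  rw [show (fun q => kk M J (P.Th g' q)) = kk M J ∘ P.Th g' from rfl, this]
  simp

theorem Cx.ddΨ (h : Cx P g g' M J p r C δ t) : ∀ᶠ q in 𝓝 p, ∀ v,
    Car.dd v (P.dt g g' M J).Ψ q = -kk M J (P.Th g' q) * Car.dd v (P.Th g') q := by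
  filter_upwards [h.geo.sm.ev 1, h.geo.sm.continuousAt.eventually (lt_mem_nhds h.s0)]
    with q h1 h2 v
  have := ((ek_sa M J h2).2.2.1.comp_hasFDerivAt q
    (h1.differentiableAt one_ne_zero).hasFDerivAt).fderiv
  simp only [Car.dd]
  rw [show (P.dt g g' M J).Ψ = ph M J ∘ P.Th g' from rfl, this]
  simp

theorem Cx.fxΨ (h : Cx P g g' M J p r C δ t) {κ : Type} [Fintype κ] (e : κ → V n × V n)
    (a : κ → κ → V n × V n → ℝ) : ∀ᶠ q in 𝓝 p, ∀ i,
    Car.fx e a (P.dt g g' M J).Ψ i q = -kk M J (P.Th g' q) * Car.fx e a (P.Th g') i q := by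
  filter_upwards [h.ddΨ] with q hq i
  simp only [Car.fx, hq, smul_eq_mul, Finset.mul_sum]
  exact Finset.sum_congr rfl fun j _ => by ring

theorem Cx.Vq (h : Cx P g g' M J p r C δ t) : ∀ᶠ q in 𝓝 p,
    (P.dt g g' M J).V q = kk M J (P.Th g' q) ^ 2 * P.n1 g g' q ∧
    Car.qq e2 (a2 g') (P.dt g g' M J).Ψ q = kk M J (P.Th g' q) ^ 2 * P.n2 g' q := by
  filter_upwards [h.ddΨ, h.fxΨ e1 (a1 g), h.fxΨ e2 (a2 g')] with q h0 h1 h2
  constructor
  · show Car.qq e1 (a1 g) (P.dt g g' M J).Ψ q = _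
    simp only [Car.qq, Car.al, Par.n1, h0, h1, Finset.mul_sum]
    exact Finset.sum_congr rfl fun j _ => by ring
  · simp only [Car.qq, Car.al, Par.n2, h0, h2, Finset.mul_sum]
    exact Finset.sum_congr rfl fun j _ => by ring

theorem Cx.dvΨ (h : Cx P g g' M J p r C δ t) {κ : Type} [Fintype κ] (e : κ → V n × V n)
    {a : κ → κ → V n × V n → ℝ} (ha : ∀ i j, Car.SA (a i j) p) :
    Car.dv e a (P.dt g g' M J).Ψ p = -kk M J (P.Th g' p) * Car.dv e a (P.Th g') p -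
      k1 J (P.Th g' p) * Car.qq e a (P.Th g') p := by
  obtain ⟨-, -, -, -, a1, -, -, -, a2⟩ := h.k
  simp only [Car.dv, Car.qq, Car.al, Finset.mul_sum, ← Finset.sum_sub_distrib]
  refine Finset.sum_congr rfl fun i _ => ?_
  have e0 : (fun q => -kk M J (P.Th g' q) * Car.fx e a (P.Th g') i q) =
      fun q => -1 * (kk M J (P.Th g' q) * Car.fx e a (P.Th g') i q) := by funext q; ring
  rw [Car.dd_congr ((h.fxΨ e a).mono fun q hq => hq i), e0,
    Car.dd_cmul _ (a1.mul (Car.sa_fx ha h.geo.sm i)), Car.dd_mul a1 (Car.sa_fx ha h.geo.sm i), a2]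
  ring

theorem Cx.null (h : Cx P g g' M J p r C δ t) :
    (P.dt g g' M J).l1 p * P.n1 g g' p = (P.dt g g' M J).l2 p * P.n2 g' p := by
  have h1 : P.n1 g g' p ≠ 0 := fun e => by have := h.geo.n1l; rw [e] at this; linarith
  have hb : ∀ x : V n, 0 < P.b x := fun x => mul_pos h.B0 (Real.exp_pos _)
  have e : ∀ x : V n, Real.exp (2 * Real.log (P.b x)) = P.b x ^ 2 := fun x => by
    rw [two_mul, Real.exp_add, Real.exp_log (hb x), sq]
  simp only [Par.dt, Par.mu, Par.b1, Par.b2, e]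
  have := (hb p.1).ne'
  field_simp
  ring

theorem Cx.ddg (h : Cx P g g' M J p r C δ t) (j : Fin n) :
    Car.SA (P.dt g g' M J).g p ∧ 0 < (P.dt g g' M J).g p ∧
    Car.dd (e1 j) (P.dt g g' M J).g p = (P.dt g g' M J).g p *
      (k1 J (P.Th g' p) / kk M J (P.Th g' p) * Car.dd (e1 j) (P.Th g') p -
        (n : ℝ) * Car.dd (e1 j) (P.b1 : V n × V n → ℝ) p) := by
  obtain ⟨k0, -, -, -, a1, -, -, -, a2⟩ := h.k
  have s1 := h.geo.s1
  have s2 := h.geo.s2
  have s3 : Car.SA (fun q : V n × V n => -(n : ℝ) * (P.b1 q + P.b2 q)) p :=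
    contDiffAt_const.mul (s1.add s2)
  have s4 : Car.SA (fun q : V n × V n => 2 * P.b2 q) p := contDiffAt_const.mul s2
  have z : Car.dd (e1 j) (P.b2 : V n × V n → ℝ) p = 0 :=
    congrFun (eb_dd12 (f := fun x => Real.log (P.b x)) j).2 p
  have κN := h.κN
  refine ⟨(contDiffAt_const.mul a1).mul (s3.exp.mul (s4.exp.pow 2)), by
    simp only [Par.dt]; positivity, ?_⟩
  simp only [Par.dt, sq]
  rw [Car.dd_mul (contDiffAt_const.mul a1) (s3.exp.mul (s4.exp.mul s4.exp)), Car.dd_cmul _ a1, a2,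
    Car.dd_mul s3.exp (s4.exp.mul s4.exp), Car.dd_mul s4.exp s4.exp, Car.dd_exp s3, Car.dd_exp s4,
    Car.dd_cmul _ (s1.add s2), Car.dd_cmul _ s2, Car.dd_add s1 s2, z]
  field_simp
  ring

theorem Cx.l12 (h : Cx P g g' M J p r C δ t) (ht : t * (10 * C) ≤ 1) :
    1 / 2 ≤ 1 + P.mu g g' p ∧ 0 < (P.dt g g' M J).l1 p ∧ 0 < (P.dt g g' M J).l2 p ∧
    (P.dt g g' M J).l1 p ^ 2 ≤ 2 * (P.dt g g' M J).l2 p ^ 2 ∧
    (P.dt g g' M J).l2 p ^ 2 ≤ 2 * (P.dt g g' M J).l1 p ^ 2 ∧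
    (P.dt g g' M J).l1 p ≤ 2 * (P.dt g g' M J).l2 p ∧
    Real.exp (2 * P.b1 p) ≤ 2 * (P.dt g g' M J).l2 p ∧
    (P.dt g g' M J).l2 p ≤ 2 * Real.exp (2 * P.b1 p) ∧
    P.n1 g g' p ≤ 2 * P.n2 g' p ∧ P.n2 g' p ≤ 2 * P.n1 g g' p := by
  obtain ⟨-, -, a1, a2, -⟩ := h.k
  have C1 := h.C1
  have δ0 := h.δ0
  have δt := h.δt
  have r0 := h.r0
  have hN : C * (P.N * r) ≤ 1 / 10 := by nlinarith
  have hδ : δ ≤ 1 / 10 := by nlinarith
  have hμ := abs_le.1 (h.geo.μ0.trans (by nlinarith : δ * r ≤ 1 / 100))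
  have hb := abs_le.1 (h.geo.bb.trans hN)
  have hr := abs_le.1 (h.geo.rat.trans hN)
  have n1 : 0 < P.n1 g g' p := by by_contra c; nlinarith [h.geo.n1l, sq_nonneg r]
  have n2 : 0 < P.n2 g' p := by by_contra c; nlinarith [h.geo.n2l, sq_nonneg r]
  have r1 : P.n1 g g' p ≤ 11 / 10 * P.n2 g' p := (div_le_iff₀ n2).1 (by linarith [hr.2])
  have r2 : 9 / 10 * P.n2 g' p ≤ P.n1 g g' p := (le_div_iff₀ n2).1 (by linarith [hr.1])
  have nl := h.null
  have l2 : 0 < (P.dt g g' M J).l2 p := Real.exp_pos _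
  have l1 : 0 < (P.dt g g' M J).l1 p := mul_pos (by linarith [hμ.1]) (Real.exp_pos _)
  have u1 : (P.dt g g' M J).l1 p ≤ 10 / 9 * (P.dt g g' M J).l2 p := by
    by_contra c; nlinarith
  have u2 : (P.dt g g' M J).l2 p ≤ 11 / 10 * (P.dt g g' M J).l1 p := by
    by_contra c; nlinarith
  have e1 : (P.dt g g' M J).l1 p = (1 + P.mu g g' p) * Real.exp (2 * P.b1 p) := rfl
  have x0 := Real.exp_pos (2 * P.b1 p (n := n))
  refine ⟨by linarith [hμ.1], l1, l2, by nlinarith, by nlinarith, by linarith, ?_, ?_, by linarith,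
    by linarith⟩ <;> nlinarith [hμ.1, hμ.2]

end Vale.Agent.P088F
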