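import Vale.Agent.P088F.Defs
import Vale.Agent.P088F.ACore

/-! P088F, part E: the geometric quantities of the phase on the product and their contract. -/

open scoped ContDiff Topology
open Set Filter

noncomputable section

namespace Vale.Agent.P088F

open Vale.Agent.P292E Vale.Agent.P088

variable {n : ℕ} {ι : Type} [Fintype ι] [DecidableEq ι]

/-- coordinate directions of the first factor -/
def e1 (j : Fin n) : V n × V n := (ee j, 0)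

/-- coordinate directions of the second factor -/
def e2 (j : Fin n) : V n × V n := (0, ee j)

/-- a matrix field in the first variable -/
def a1 (g : Mf n) (j k : Fin n) (p : V n × V n) : ℝ := g j k p.1

/-- a matrix field in the second variable -/
def a2 (g : Mf n) (j k : Fin n) (p : V n × V n) : ℝ := g j k p.2

variable [NeZero n]

/-- logarithm of the scale at the first point -/
def Par.b1 (P : Par) (p : V n × V n) : ℝ := Real.log (P.b p.1)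

/-- logarithm of the scale at the second point -/
def Par.b2 (P : Par) (p : V n × V n) : ℝ := Real.log (P.b p.2)

/-- squared length of the first gradient of the phase -/
def Par.n1 (P : Par) (g g' : Mf n) : V n × V n → ℝ := Car.qq e1 (a1 g) (P.Th g')

/-- squared length of the second gradient of the phase -/
def Par.n2 (P : Par) (g' : Mf n) : V n × V n → ℝ := Car.qq e2 (a2 g') (P.Th g')

/-- the correction which makes the phase characteristic -/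
def Par.mu (P : Par) (g g' : Mf n) (p : V n × V n) : ℝ :=
  P.b p.2 ^ 2 * P.n2 g' p / (P.b p.1 ^ 2 * P.n1 g g' p) - 1

/-- pointwise bounds at `p`, with `r` the distance of the two points -/
structure Geo (P : Par) (g g' : Mf n) (p : V n × V n) (r C δ : ℝ) : Prop where
  sm : Car.SA (P.Th g') p
  s1 : Car.SA P.b1 p
  s2 : Car.SA P.b2 p
  sμ : Car.SA (P.mu g g') p
  rN : r * P.N ^ 2 ≤ δ
  n1l : 1 ≤ r ^ 2 * P.n1 g g' p
  n1u : r ^ 2 * P.n1 g g' p ≤ 9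
  n2l : 1 ≤ r ^ 2 * P.n2 g' p
  n2u : r ^ 2 * P.n2 g' p ≤ 9
  d1 : ∀ j, |Car.dd (e1 j) (P.Th g') p| ≤ C / r
  d2 : ∀ j, |Car.dd (e2 j) (P.Th g') p| ≤ C / r
  d11 : ∀ i j, |Car.dd (e1 i) (Car.dd (e1 j) (P.Th g')) p| ≤ C / r ^ 2
  dn : ∀ j, |Car.dd (e1 j) (P.n1 g g') p| ≤ C / r ^ 3
  tr : ∀ j, |Car.fx e1 (a1 g) (P.Th g') j p + Car.fx e2 (a2 g') (P.Th g') j p| ≤ C * P.N
  rat : |P.n1 g g' p / P.n2 g' p - 1| ≤ C * (P.N * r)
  bb : |P.b1 p - P.b2 p| ≤ C * (P.N * r)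
  gd : ∀ j k, |g j k p.1 - g' j k p.2| ≤ δ * r
  μ0 : |P.mu g g' p| ≤ δ * r
  μ1 : ∀ j, |Car.dd (e1 j) (P.mu g g') p| ≤ δ
  μ2 : ∀ j, |Car.dd (e2 j) (P.mu g g') p| ≤ δ
  μ3 : ∀ j, |Car.dd (e1 j) (P.mu g g') p + Car.dd (e2 j) (P.mu g g') p| ≤ δ * r
  h1 : |Car.dv e1 (a1 g) (P.Th g') p + (2 - n) * Car.al e1 (Car.fx e1 (a1 g) (P.Th g')) P.b1 p -
    (n - 2) / 2 * P.n1 g g' p| ≤ δ / r
  h2 : |Car.dv e2 (a2 g') (P.Th g') p + (2 - n) * Car.al e2 (Car.fx e2 (a2 g') (P.Th g')) P.b2 p -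
    (n - 2) / 2 * P.n2 g' p| ≤ δ / r
  p1 : ∀ j, |Car.dd (e1 j) P.b1 p| ≤ C * P.N
  p2 : ∀ j, |Car.dd (e2 j) P.b2 p| ≤ C * P.N
  p11 : ∀ i j, |Car.dd (e1 i) (Car.dd (e1 j) P.b1) p| ≤ C * P.N
  p22 : ∀ i j, |Car.dd (e2 i) (Car.dd (e2 j) P.b2) p| ≤ C * P.N

variable (n ι)

/-- Part E: the pointwise bounds hold under the hypotheses of `PQ` -/
def PG : Prop :=
  ∃ C : ℝ, 1 ≤ C ∧ ∀ δ : ℝ, 0 < δ → ∃ ε c : ℝ, 0 < ε ∧ 0 < c ∧
    ∀ (P : Par) (d : Dat n ι) (p : V n × V n), 0 < P.κ → P.κ ≤ 1 / 100 → 1 ≤ P.N → 0 < P.B →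
      d.L1.Sm → d.L2.Sm → d.L1.Near 3 ε → d.L2.Near 3 ε → ‖p.1‖ < 2 → p.1 ≠ p.2 →
      ‖p.1 - p.2‖ * P.N ^ 2 ≤ c → (0 < P.Th d.L2.g p → P.b p.1 ≤ 2 * ‖p.1 - p.2‖) ∧
        (d.Df p.1 (c * ‖p.1 - p.2‖) → Geo P d.L1.g d.L2.g p ‖p.1 - p.2‖ C δ)

end Vale.Agent.P088F
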