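import Vale.Agent.P088F.EA
import Vale.Agent.P088F.EDf

/-! P088F, part E: the concrete data. -/

open scoped ContDiff Topology
open Set Filter

noncomputable section

namespace Vale.Agent.P088F

open Vale.Agent.P292E Vale.Agent.P088

variable {n : ℕ}

/-- the profile of the weight -/
def ph (M : ℝ) (J : ℕ) (s : ℝ) : ℝ := -M * s + J * (Real.log (1 + s) - Real.log s)

/-- minus its derivative -/
def kk (M : ℝ) (J : ℕ) (s : ℝ) : ℝ := M + J / (s * (1 + s))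

/-- the derivative of `kk` -/
def k1 (J : ℕ) (s : ℝ) : ℝ := -(J * (1 + 2 * s)) / (s * (1 + s)) ^ 2

variable [NeZero n]

/-- the data of the estimate -/
def Par.dt (P : Par) (g g' : Mf n) (M : ℝ) (J : ℕ) : Dt (V n × V n) (Fin n) where
  e1 := e1
  e2 := e2
  a1 := a1 g
  a2 := a2 g'
  m := fun p => Real.exp (-n * (P.b1 p + P.b2 p))
  l1 := fun p => (1 + P.mu g g' p) * Real.exp (2 * P.b1 p)
  l2 := fun p => Real.exp (2 * P.b2 p)
  Ψ := fun p => ph M J (P.Th g' p)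
  σ := fun p => (2 - n) * (P.b1 p + P.b2 p)
  g := fun p => P.κ * P.N / 4 * kk M J (P.Th g' p) *
    (Real.exp (-n * (P.b1 p + P.b2 p)) * Real.exp (2 * P.b2 p) ^ 2)

/-- the situation at a point -/
structure Cx (P : Par) (g g' : Mf n) (M : ℝ) (J : ℕ) (p : V n × V n) (r C δ t : ℝ) : Prop where
  geo : Geo P g g' p r C δ
  sg : ∀ j k, ContDiff ℝ ∞ (g j k)
  sg' : ∀ j k, ContDiff ℝ ∞ (g' j k)
  y : ∀ j k x, g j k x = g k j x
  y' : ∀ j k x, g' j k x = g' k j x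
  g0 : ∀ j k x, |g j k x - if j = k then 1 else 0| ≤ δ
  g0' : ∀ j k x, |g' j k x - if j = k then 1 else 0| ≤ δ
  g1 : ∀ i j k x, |pr i (g j k) x| ≤ δ
  g1' : ∀ i j k x, |pr i (g' j k) x| ≤ δ
  C1 : 1 ≤ C
  r0 : 0 < r
  N1 : 1 ≤ P.N
  κ1 : P.κ ≤ 1
  κN : 1 ≤ P.κ * P.N
  B0 : 0 < P.B
  s0 : 0 < P.Th g' p
  δ0 : 0 < δ
  δt : δ ≤ t
  tM : 1 ≤ t * M
  tk : |k1 J (P.Th g' p)| ≤ t * kk M J (P.Th g' p) ^ 2

/-- a property that holds for small `t` -/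
def Sml (n : ℕ) [NeZero n] (H : Dt (V n × V n) (Fin n) → V n × V n → Prop) : Prop :=
  ∀ C : ℝ, ∃ t₀ : ℝ, 0 < t₀ ∧ ∀ (P : Par) (g g' : Mf n) (M : ℝ) (J : ℕ) (p : V n × V n)
    (r δ t : ℝ), t ≤ t₀ → Cx P g g' M J p r C δ t → H (P.dt g g' M J) p

/-- the conclusion of `PQ` at a point -/
def PQat (P : Par) (g g' : Mf n) (p : V n × V n) (r C η η' : ℝ) : Prop :=
  ∀ ξ η₁ : V n,
    P.κ * P.N / 4 * (perp g p.1 (grx (P.Th g') p) ξ + perp g' p.2 (gry (P.Th g') p) η₁) -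
      η * P.κ * P.N * (‖ξ‖ ^ 2 + ‖η₁‖ ^ 2) - C * tau g g' (P.Th g') p ξ η₁ ^ 2 +
      η' / (P.N * r ^ 2) * ‖gv g' p.2 η₁ - gv g p.1 ξ‖ ^ 2 ≤
      Lev g g' (P.Th g') p (P.w p.1) (P.w p.2) ξ η₁

/-- the field of the phase -/
def Par.X0 (P : Par) (g g' : Mf n) (M : ℝ) (J : ℕ) : Fin n ⊕ Fin n → V n × V n → ℝ :=
  Car.fx (P.dt g g' M J).es (P.dt g g' M J).G (P.Th g')

/-- the divergence of the field of the phase for the density -/
def Par.Dv (P : Par) (g g' : Mf n) (M : ℝ) (J : ℕ) (p : V n × V n) : ℝ :=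
  Car.dv (P.dt g g' M J).es (P.dt g g' M J).G (P.Th g') p +
    Car.al (P.dt g g' M J).es (P.X0 g g' M J) (fun q => -n * (P.b1 q + P.b2 q)) p

/-- the extra term of the Hessian -/
def Par.Ex (P : Par) (g g' : Mf n) (p : V n × V n) (ξ η : V n) : ℝ :=
  (Car.dd (gv g p.1 ξ, gv g' p.2 η) (P.mu g g') p * ip g p.1 (grx (P.Th g') p) ξ -
    1 / 2 * Car.dd (gv g p.1 (grx (P.Th g') p),
      -(P.n1 g g' p / P.n2 g' p) • gv g' p.2 (gry (P.Th g') p)) (P.mu g g') p * ip g p.1 ξ ξ) /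
    (1 + P.mu g g' p)

end Vale.Agent.P088F
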