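import Vale.Agent.P088F.EInv

/-! P088F, part E: the algebra of the first order expansions of the phase. -/

open scoped ContDiff Topology
open Set Filter

noncomputable section

namespace Vale.Agent.P088F.Eg

open Vale.Agent.P088 Vale.Agent.P088.Car

variable {E : Type} [NormedAddCommGroup E] [NormedSpace ℝ E] {n : ℕ} {S κ : Type}

/-- the symbols of one of the two variables -/
structure Sy (e : S → κ → E) (p : S → E) (r δ N : S → ℝ) (σ : ℝ)
    (z u pp R : Fin n → S → E → ℝ) (a : Fin n → Fin n → S → E → ℝ) (q : S → E → ℝ) : Prop where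
  r0 : ∀ s, 0 < r s
  N1 : ∀ s, 1 ≤ N s
  rN : ∀ s, r s * N s ^ 2 ≤ δ s
  δ1 : ∀ s, δ s ≤ 1
  σ1 : σ * σ = 1
  hz : ∀ j, OB e p 1 r (z j)
  hu : ∀ j, OB e p 1 r (u j)
  hp : ∀ j, OB e p 1 N (pp j)
  hR : ∀ j, OB e p 1 (fun s => δ s * r s ^ 2) (R j)
  ha : ∀ j k, OB e p 1 (fun _ => 1) (a j k)
  sy : ∀ j k s y, a j k s y = a k j s y
  hT : ∀ j, OB e p 1 (fun s => δ s * r s ^ 2) fun s y => ∑ k, a j k s y * u k s y - z j s y
  hq : ∀ s y, q s y = ∑ j, z j s y * u j s y
  qi : OB e p 1 (fun s => (r s ^ 2)⁻¹) fun s y => (q s y)⁻¹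
  q0 : ∀ s, ∀ᶠ y in 𝓝 (p s), q s y ≠ 0

/-- the gradient of the phase -/
def om (σ : ℝ) (u pp R : Fin n → S → E → ℝ) (q : S → E → ℝ) (j : Fin n) (s : S) (y : E) : ℝ :=
  (2 * σ * u j s y + R j s y) * (q s y)⁻¹ - pp j s y

/-- raising the index -/
def up (a : Fin n → Fin n → S → E → ℝ) (v : Fin n → S → E → ℝ) (j : Fin n) (s : S) (y : E) : ℝ :=
  ∑ k, a j k s y * v k s y

/-- the pairing -/
def dt (v v' : Fin n → S → E → ℝ) (s : S) (y : E) : ℝ := ∑ j, v j s y * v' j s y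

variable {e : S → κ → E} {p : S → E} {r δ N : S → ℝ} {σ : ℝ} {z u pp R : Fin n → S → E → ℝ}
  {a : Fin n → Fin n → S → E → ℝ} {q : S → E → ℝ}

namespace Sy

variable (h : Sy e p r δ N σ z u pp R a q)
include h

theorem rN1 (s : S) : r s * N s ≤ δ s := by
  have h1 := h.r0 s
  have h2 := h.N1 s
  have h3 := h.rN s
  nlinarith [mul_nonneg (mul_nonneg h1.le (zero_le_one.trans h2)) (sub_nonneg.2 h2)]

theorem r1 (s : S) : r s ≤ δ s := by
  have h1 := h.r0 s
  have h2 := h.N1 s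
  have h3 := h.rN1 s
  nlinarith

theorem δ0 (s : S) : 0 < δ s := (h.r0 s).trans_le (h.r1 s)

theorem N0 (s : S) : 0 < N s := zero_lt_one.trans_le (h.N1 s)

theorem oq : OB e p 1 (fun s => r s ^ 2) q :=
  ((ob_sum Finset.univ (fun s => mul_self_nonneg (r s)) fun j => (h.hz j).mul (h.hu j)).le
    fun s => (sq (r s)).ge).of_eq fun s y => (h.hq s y).symm

theorem oap (j : Fin n) : OB e p 1 N (up a pp j) :=
  ob_sum Finset.univ (fun s => (h.N0 s).le) fun k => (h.ha j k).omul (h.hp k)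

theorem oB (j : Fin n) : OB e p 1 δ fun s y => R j s y * (q s y)⁻¹ :=
  ((h.hR j).mul h.qi).le fun s => by
    have := h.r0 s
    field_simp
    rfl

theorem oom (j : Fin n) : OB e p 1 (fun s => (r s)⁻¹) (om σ u pp R q j) := by
  have h1 : OB e p 1 (fun s => (r s)⁻¹) fun s y => u j s y * (q s y)⁻¹ :=
    ((h.hu j).mul h.qi).le fun s => by
      have := h.r0 s
      field_simp
      rfl
  have h2 : ∀ s, N s ≤ (r s)⁻¹ := fun s => by
    rw [le_inv_comm₀ (h.N0 s) (h.r0 s), ← one_div, le_div_iff₀ (h.N0 s)]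
    exact (h.rN1 s).trans (h.δ1 s)
  exact (((h1.cmul (2 * σ)).add ((h.oB j).le fun s => (h.δ1 s).trans ((h.N1 s).trans (h2 s)))).sub
    ((h.hp j).le h2)).of_eq fun s y => by simp only [om]; ring

/-- expansion of the raised gradient -/
theorem oA (j : Fin n) : OB e p 1 δ fun s y =>
    up a (om σ u pp R q) j s y + up a pp j s y - 2 * σ * (z j s y * (q s y)⁻¹) := by
  have h1 : OB e p 1 δ fun s y => (∑ k, a j k s y * u k s y - z j s y) * (q s y)⁻¹ :=
    ((h.hT j).mul h.qi).le fun s => by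
      have := h.r0 s
      field_simp
      rfl
  refine ((h1.cmul (2 * σ)).add (ob_sum Finset.univ (fun s => (h.δ0 s).le) fun k =>
    (h.ha j k).omul (h.oB k))).of_eq fun s y => ?_
  simp only [up, om, sub_mul, mul_sub, Finset.sum_mul, Finset.mul_sum, Finset.sum_sub_distrib,
    add_mul, mul_add, Finset.sum_add_distrib]
  have : ∑ k, 2 * σ * (a j k s y * u k s y * (q s y)⁻¹) =
      ∑ k, a j k s y * (2 * σ * u k s y * (q s y)⁻¹) := Finset.sum_congr rfl fun _ _ => by ring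
  rw [this]
  ring

/-- expansion of the squared length -/
theorem on : OB e p 1 (fun s => δ s * r s) fun s y =>
    q s y * dt (up a (om σ u pp R q)) (om σ u pp R q) s y / 4 - 1 + σ * dt z pp s y := by
  have r0 := h.r0
  have δ0 := h.δ0
  have k1 : ∀ s, r s ^ 2 * (N s * N s) ≤ δ s * r s := fun s => by
    nlinarith [mul_le_mul_of_nonneg_left (h.rN s) (r0 s).le]
  have k2 : ∀ s, r s ^ 2 * (N s * δ s) ≤ δ s * r s := fun s => by
    nlinarith [mul_le_mul_of_nonneg_left ((h.rN1 s).trans (h.δ1 s)) (mul_pos (δ0 s) (r0 s)).le]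
  have k3 : ∀ s, r s ^ 2 * (δ s * δ s) ≤ δ s * r s := fun s => by
    have : r s * δ s ≤ 1 := mul_le_one₀ ((h.r1 s).trans (h.δ1 s)) (δ0 s).le (h.δ1 s)
    nlinarith [mul_le_mul_of_nonneg_left this (mul_pos (δ0 s) (r0 s)).le]
  have hs := ob_sum Finset.univ (fun s => (mul_pos (δ0 s) (r0 s)).le) fun j =>
    ((((((((h.oA j).mul (h.hu j)).cmul (2 * σ)).add
      ((h.oq.mul ((h.oA j).mul (h.oB j))).le k3)).sub
      ((h.oq.mul ((h.hp j).mul (h.oA j))).le k2)).sub
      ((h.oq.mul ((h.oap j).mul (h.oB j))).le k2)).add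
      ((h.oq.mul ((h.oap j).mul (h.hp j))).le k1)).add
      (((h.oB j).mul (h.hz j)).cmul (2 * σ))).sub
      ((((h.hp j).mul (h.hT j)).le fun s => (by linarith [k2 s] :
        N s * (δ s * r s ^ 2) ≤ δ s * r s)).cmul (2 * σ))
  refine (hs.cmul (1 / 4)).congr fun s => ?_
  filter_upwards [h.q0 s] with y hy
  have hi : q s y * (q s y)⁻¹ = 1 := mul_inv_cancel₀ hy
  have e1 : ∑ j, up a pp j s y * u j s y = ∑ j, pp j s y * ∑ k, a j k s y * u k s y := by
    simp only [up, Finset.sum_mul, Finset.mul_sum]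
    rw [Finset.sum_comm]
    exact Finset.sum_congr rfl fun j _ => Finset.sum_congr rfl fun k _ => by rw [h.sy]; ring
  have e2 : ∑ j, z j s y * u j s y * (q s y)⁻¹ = 1 := by rw [← Finset.sum_mul, ← h.hq, hi]
  rw [Finset.sum_congr rfl (g := fun j => q s y * (up a (om σ u pp R q) j s y *
    om σ u pp R q j s y) - 4 * (z j s y * u j s y * (q s y)⁻¹) + 2 * σ * (up a pp j s y * u j s y) -
    2 * σ * (pp j s y * ∑ k, a j k s y * u k s y) + 4 * σ * (z j s y * pp j s y)) fun j _ => by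
      generalize up a (om σ u pp R q) j s y = F
      rw [om]
      linear_combination (-(2 * σ * u j s y * F + 2 * σ * z j s y * R j s y * (q s y)⁻¹ -
        2 * σ * z j s y * pp j s y)) * hi - 4 * z j s y * u j s y * (q s y)⁻¹ * h.σ1]
  simp only [Finset.sum_add_distrib, Finset.sum_sub_distrib, ← Finset.mul_sum, e1, e2, dt]
  ring

/-- the operator applied to the phase -/
theorem oh (v : Fin n → E)
    (hv : ∀ j (w : S → ℝ) (f : S → E → ℝ), (∀ s, 0 ≤ w s) → OB e p 1 w f →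
      OB e p 0 (fun s => w s / r s) fun s => dd (v j) (f s))
    (hap : ∀ j, OB e p 0 N fun s => dd (v j) (up a pp j s))
    (hz : ∀ j s, dd (v j) (z j s) (p s) = σ)
    (hq : ∀ j s, dd (v j) (q s) (p s) = 2 * σ * u j s (p s) + R j s (p s)) :
    ∃ M, 0 ≤ M ∧ ∀ s, |∑ j, dd (v j) (up a (om σ u pp R q) j s) (p s) +
      (2 - n) * dt (up a (om σ u pp R q)) pp s (p s) -
      (n - 2) / 2 * dt (up a (om σ u pp R q)) (om σ u pp R q) s (p s)| ≤ M * (δ s / r s) := by
  have r0 := h.r0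
  have δ0 := h.δ0
  have w0 : ∀ s, 0 ≤ δ s / r s := fun s => (div_pos (δ0 s) (r0 s)).le
  have k1 : ∀ s, N s * N s ≤ δ s / r s := fun s => by
    rw [le_div_iff₀ (r0 s)]
    linarith [h.rN s]
  have k2 : ∀ s, N s ≤ δ s / r s := fun s => by
    rw [le_div_iff₀ (r0 s)]
    linarith [h.rN1 s]
  have k3 : ∀ s, δ s * N s ≤ δ s / r s := fun s =>
    (mul_le_of_le_one_left (h.N0 s).le (h.δ1 s)).trans (k2 s)
  have t1 : ∀ j, OB e p 0 (fun s => δ s / r s) fun s y =>
      z j s y * (q s y)⁻¹ * (R j s y * (q s y)⁻¹) := fun j =>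
    (((h.hz j).mul h.qi).mul (h.oB j)).zero.le fun s => by
      have := r0 s
      field_simp
      rfl
  have t2 : OB e p 0 (fun s => δ s / r s) fun s y => (q s y)⁻¹ * (q s y *
      dt (up a (om σ u pp R q)) (om σ u pp R q) s y / 4 - 1 + σ * dt z pp s y) :=
    (h.qi.mul h.on).zero.le fun s => by
      have := r0 s
      field_simp
      rfl
  obtain ⟨M, hM, hb⟩ := ((ob_sum Finset.univ w0 fun j => ((((hv j _ _ (fun s => (δ0 s).le)
    (h.oA j)).sub ((hap j).le k2)).sub ((t1 j).cmul (2 * σ))).add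
      (((((h.oA j).mul (h.hp j)).zero.le k3).sub
        (((h.oap j).mul (h.hp j)).zero.le k1)).cmul (2 - n)))).sub (t2.cmul (2 * (n - 2)))).bd
  refine ⟨M, hM, fun s => (le_of_eq (congrArg abs ?_)).trans (hb s)⟩
  have hy := (h.q0 s).self_of_nhds
  have hi : q s (p s) * (q s (p s))⁻¹ = 1 := mul_inv_cancel₀ hy
  have sq := h.oq.sa s
  have e0 : ∀ j, dd (v j) (fun y => (q s y)⁻¹) (p s) =
      -((q s (p s))⁻¹ * (q s (p s))⁻¹ * dd (v j) (q s) (p s)) := fun j => by
    have h3 := ((hasDerivAt_inv hy).comp_hasFDerivAt (p s) sq.df.hasFDerivAt).fderiv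
    simp only [dd]
    rw [show (fun y => (q s y)⁻¹) = (fun y => y⁻¹) ∘ q s from rfl, h3]
    simp [pow_two]
  have e1 : ∀ j, dd (v j) (fun y => up a (om σ u pp R q) j s y + up a pp j s y -
      2 * σ * (z j s y * (q s y)⁻¹)) (p s) = dd (v j) (up a (om σ u pp R q) j s) (p s) +
        dd (v j) (up a pp j s) (p s) - 2 * (q s (p s))⁻¹ +
        4 * (q s (p s))⁻¹ * (z j s (p s) * u j s (p s) * (q s (p s))⁻¹) +
        2 * σ * (z j s (p s) * (q s (p s))⁻¹ * (R j s (p s) * (q s (p s))⁻¹)) := fun j => by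
    have s1 : SA (up a (om σ u pp R q) j s) (p s) :=
      ContDiffAt.sum fun k _ => ((h.ha j k).sa s).mul ((h.oom k).sa s)
    have s2 := (h.oap j).sa s
    have s3 := (h.hz j).sa s
    have s4 := h.qi.sa s
    rw [dd_sub (s1.add s2) (contDiffAt_const.mul (s3.mul s4)), dd_add s1 s2,
      dd_cmul _ (s3.mul s4), dd_mul s3 s4, e0, hz, hq]
    linear_combination (4 * z j s (p s) * u j s (p s) * (q s (p s))⁻¹ ^ 2 - 2 * (q s (p s))⁻¹) * h.σ1
  have e2 : ∑ j, z j s (p s) * u j s (p s) * (q s (p s))⁻¹ = 1 := by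
    rw [← Finset.sum_mul, ← h.hq, hi]
  have e3 : ∑ j, (up a (om σ u pp R q) j s (p s) + up a pp j s (p s) -
      2 * σ * (z j s (p s) * (q s (p s))⁻¹)) * pp j s (p s) =
      dt (up a (om σ u pp R q)) pp s (p s) + ∑ j, up a pp j s (p s) * pp j s (p s) -
        2 * σ * (q s (p s))⁻¹ * dt z pp s (p s) := by
    simp only [dt, Finset.mul_sum, ← Finset.sum_add_distrib, ← Finset.sum_sub_distrib]
    exact Finset.sum_congr rfl fun j _ => by ring
  simp only [e1, Finset.sum_add_distrib, Finset.sum_sub_distrib, ← Finset.mul_sum, e2, e3,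
    Finset.sum_const, Finset.card_univ, Fintype.card_fin, nsmul_eq_mul]
  linear_combination (n - 2) / 2 * dt (up a (om σ u pp R q)) (om σ u pp R q) s (p s) * hi

end Sy

end Vale.Agent.P088F.Eg
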