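import Vale.Agent.P088F.EDf
import Vale.Agent.P088F.ECore

/-! P088F, part E: configurations and the basic symbols. -/

open scoped ContDiff Topology
open Set Filter

noncomputable section

namespace Vale.Agent.P088F.Eg

open Vale.Agent.P292E Vale.Agent.P088 Vale.Agent.P088.Car

/-- configurations -/
structure Cf (n : ℕ) [NeZero n] where
  P : Par
  g : Mf n
  g' : Mf n
  p : V n × V n
  δ : ℝ
  gs : GS g
  gs' : GS g'
  κ0 : 0 < P.κ
  κ1 : P.κ ≤ 1 / 100
  N1 : 1 ≤ P.N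
  B0 : 0 < P.B
  δ1 : δ * (2 * n) ≤ 1
  nr : ∀ j k, Bd 3 (fun x => g j k x - dl j k) univ δ
  nr' : ∀ j k, Bd 3 (fun x => g' j k x - dl j k) univ δ
  x2 : ‖p.1‖ < 2
  ne : p.1 ≠ p.2
  rN : ‖p.1 - p.2‖ * P.N ^ 2 ≤ δ
  df : ∀ i ≤ 1, ∀ j k, ‖iteratedFDeriv ℝ i (fun y => g j k y - g' j k y) p.1‖ ≤ δ * ‖p.1 - p.2‖

variable {n : ℕ} [NeZero n] {S : Type}

/-- the distance of the two points -/
def Cf.r (c : Cf n) : ℝ := ‖c.p.1 - c.p.2‖

/-- translations and scaled directions of the second variable -/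
def Cf.dr (c : Cf n) : Fin n ⊕ Fin n → V n × V n :=
  Sum.elim (fun j => (ee j, ee j)) fun j => (0, c.r • ee j)

/-- symbols on the product -/
abbrev O (cf : S → Cf n) (k : ℕ) (w : S → ℝ) (f : S → V n × V n → ℝ) : Prop :=
  OB (fun s => (cf s).dr) (fun s => (cf s).p) k w f

/-- symbols on the base -/
abbrev Ob (x : S → V n) (k : ℕ) (w : S → ℝ) (f : S → V n → ℝ) : Prop :=
  OB (fun _ j => ee j) x k w f

/-- the points of the segment -/
def Lt (n : ℕ) (t : ℝ) : V n × V n →L[ℝ] V n :=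
  (1 - t) • ContinuousLinearMap.fst ℝ (V n) (V n) + t • ContinuousLinearMap.snd ℝ (V n) (V n)

omit [NeZero n] in
theorem Lt_apply (t : ℝ) (y : V n × V n) : Lt n t y = (1 - t) • y.1 + t • y.2 := rfl

omit [NeZero n] in
theorem Lt0 (y : V n × V n) : Lt n 0 y = y.1 := by simp [Lt_apply]

omit [NeZero n] in
theorem Lt1 (y : V n × V n) : Lt n 1 y = y.2 := by simp [Lt_apply]

omit [NeZero n] in
theorem Lth (y : V n × V n) : Lt n (1 / 2) y = (1 / 2 : ℝ) • (y.1 + y.2) := by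
  rw [Lt_apply, smul_add]
  norm_num

omit [NeZero n] in
theorem ee_norm (j : Fin n) : ‖(ee j : V n)‖ = 1 := by simp [ee]

omit [NeZero n] in
theorem ee_apply (j k : Fin n) : (ee j : V n) k = dl j k := by
  simp [ee, dl, eq_comm]

namespace Cf

variable (c : Cf n)

theorem r0 : 0 < c.r := norm_pos_iff.2 (sub_ne_zero.2 c.ne)

theorem rN1 : c.r * c.P.N ≤ c.δ := by
  have h1 := c.r0
  have h2 := c.N1
  have h3 : c.r * c.P.N ^ 2 ≤ c.δ := c.rN
  nlinarith [mul_nonneg (mul_nonneg h1.le (zero_le_one.trans h2)) (sub_nonneg.2 h2)]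

theorem r1 : c.r ≤ c.δ := by nlinarith [c.r0, c.N1, c.rN1]

theorem δ0 : 0 < c.δ := c.r0.trans_le c.r1

theorem δ2 : c.δ ≤ 1 / 2 := by
  have h1 : (1 : ℝ) ≤ n := by exact_mod_cast Nat.pos_of_ne_zero (NeZero.ne n)
  nlinarith [c.δ0, c.δ1]

theorem δ3 : c.δ ≤ 1 := c.δ2.trans (by norm_num)

theorem r2 : c.r ≤ 1 := c.r1.trans c.δ3

theorem N0 : 0 < c.P.N := zero_lt_one.trans_le c.N1

theorem y3 : ‖c.p.2‖ ≤ 3 := by
  have h1 := norm_sub_norm_le c.p.2 c.p.1
  rw [norm_sub_rev] at h1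
  linarith [c.x2, c.r2, show ‖c.p.1 - c.p.2‖ = c.r from rfl]

end Cf

variable {cf : S → Cf n} {k : ℕ} {w : S → ℝ} {f : S → V n × V n → ℝ}

theorem O.d2 (h : O cf (k + 1) w f) (j : Fin n) :
    O cf k (fun s => w s / (cf s).r) fun s => dd (e2 j) (f s) := by
  refine (((ob_w fun s => (inv_pos.2 (cf s).r0).le).mul (h.dd (.inr j))).le
    fun s => (div_eq_inv_mul _ _).ge).of_eq fun s y => ?_
  have h1 : (cf s).dr (.inr j) = (cf s).r • e2 j := by simp [Cf.dr, e2]
  simp only [dd, h1, map_smul, smul_eq_mul]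
  rw [inv_mul_cancel_left₀ (cf s).r0.ne']

theorem dd_dr (c : Cf n) (j : Fin n) (u : V n × V n → ℝ) (y : V n × V n) :
    dd (c.dr (.inl j)) u y = dd (e1 j) u y + dd (e2 j) u y := by
  have h1 : c.dr (.inl j) = e1 j + e2 j := by simp [Cf.dr, e1, e2]
  simp only [dd, h1, map_add]

theorem O.d1 (h : O cf (k + 1) w f) (hw : ∀ s, 0 ≤ w s) (j : Fin n) :
    O cf k (fun s => w s / (cf s).r) fun s => dd (e1 j) (f s) :=
  (((h.dd (.inl j)).le fun s => le_div_self (hw s) (cf s).r0 (cf s).r2).sub (h.d2 j)).of_eq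
    fun s y => by rw [dd_dr]; ring

theorem Lt_inl (c : Cf n) (t : ℝ) (j : Fin n) : Lt n t (c.dr (.inl j)) = ee j := by
  simp [Cf.dr, Lt_apply, ← add_smul]

theorem Lt_inr (c : Cf n) (t : ℝ) (j : Fin n) : Lt n t (c.dr (.inr j)) = (t * c.r) • ee j := by
  simp [Cf.dr, Lt_apply, smul_smul]

theorem Ob.pull {t : ℝ} (ht : |t| ≤ 1) {u : S → V n → ℝ} (h : Ob (fun s => Lt n t (cf s).p) k w u)
    (hw : ∀ s, 0 ≤ w s) : O cf k w fun s y => u s (Lt n t y) := by
  refine OB.pull (Lt n t) h hw (c := fun s => Sum.elim (fun i j => dl i j)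
    fun i j => t * (cf s).r * dl i j) (fun s i j => ?_) fun s i => ?_
  · cases i with
    | inl i => exact dl_abs i j
    | inr i =>
      simp only [Sum.elim_inr, abs_mul, abs_of_pos (cf s).r0]
      exact mul_le_one₀ (mul_le_one₀ ht (cf s).r0.le (cf s).r2) (abs_nonneg _) (dl_abs i j)
  · cases i with
    | inl i => simp [Lt_inl, dl]
    | inr i => simp [Lt_inr, dl]

omit [NeZero n] in
theorem bd_ee {u : V n → ℝ} {M : ℝ} (h : ContDiff ℝ ∞ u) (hM : Bd (k + 1) u univ M) (j : Fin n) :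
    Bd k (dd (ee j) u) univ M := fun i hi x hx => by
  simpa [ee_norm] using bd_dd h.contDiffAt (hM (i + 1) (by omega) x hx) (ee j)

omit [NeZero n] in
theorem ob_bd {x : S → V n} {u : S → V n → ℝ} (h : ∀ s, ContDiff ℝ ∞ (u s))
    (hM : ∀ s, Bd k (u s) univ (w s)) : Ob x k w u :=
  ob_of_bd (fun _ j => (ee_norm j).le) (fun s => (h s).contDiffAt) fun s i hi => hM s i hi _ trivial

omit [NeZero n] in
theorem sm_dd {u : V n → ℝ} (h : ContDiff ℝ ∞ u) (v : V n) : ContDiff ℝ ∞ (dd v u) :=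
  contDiff_iff_contDiffAt.2 fun _ => SA.dd h.contDiffAt v

theorem ob_diff0 {t t' : ℝ} (h1 : |t - t'| ≤ 1) {u : S → V n → ℝ}
    (h : ∀ s, ContDiff ℝ ∞ (u s)) (hM : ∀ s, Bd 1 (u s) univ (w s)) :
    O cf 0 (fun s => w s * (cf s).r) fun s y => u s (Lt n t y) - u s (Lt n t' y) := by
  have hw : ∀ s, 0 ≤ w s := fun s => (norm_nonneg _).trans (hM s 0 (Nat.zero_le _) 0 trivial)
  refine ⟨1, zero_le_one, fun s => ⟨(((h s).comp (Lt n t).contDiff).sub
    ((h s).comp (Lt n t').contDiff)).contDiffAt, ?_⟩⟩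
  have h2 := convex_univ.norm_image_sub_le_of_norm_fderiv_le (𝕜 := ℝ) (f := u s) (C := w s)
    (fun x _ => (h s).differentiable (by simp) x)
    (fun x _ => by simpa using hM s 1 le_rfl x trivial)
    (x := Lt n t' (cf s).p) (y := Lt n t (cf s).p) trivial trivial
  have h3 : Lt n t (cf s).p - Lt n t' (cf s).p = -(t - t') • ((cf s).p.1 - (cf s).p.2) := by
    simp only [Lt_apply]
    module
  rw [h3, norm_smul, norm_neg] at h2
  rw [one_mul]
  exact h2.trans (mul_le_mul_of_nonneg_left (mul_le_of_le_one_left (cf s).r0.le h1) (hw s))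

/-- differences along the segment -/
theorem ob_diff {t t' : ℝ} (ht : |t| ≤ 1) (ht' : |t'| ≤ 1) (h1 : |t - t'| ≤ 1) {u : S → V n → ℝ}
    (h : ∀ s, ContDiff ℝ ∞ (u s)) (hM : ∀ s, Bd 2 (u s) univ (w s)) :
    O cf 1 (fun s => w s * (cf s).r) fun s y => u s (Lt n t y) - u s (Lt n t' y) := by
  have hw : ∀ s, 0 ≤ w s := fun s => (norm_nonneg _).trans (hM s 0 (Nat.zero_le _) 0 trivial)
  have key : ∀ s v y, dd v (fun y => u s (Lt n t y) - u s (Lt n t' y)) y =
      dd (Lt n t v) (u s) (Lt n t y) - dd (Lt n t' v) (u s) (Lt n t' y) := fun s v y => by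
    rw [dd_sub (u := fun y => u s (Lt n t y)) (w := fun y => u s (Lt n t' y))
      ((h s).comp (Lt n t).contDiff).contDiffAt ((h s).comp (Lt n t').contDiff).contDiffAt,
      dd_lin _ ((h s).differentiable (by simp) _), dd_lin _ ((h s).differentiable (by simp) _)]
  refine ⟨ob_diff0 h1 h fun s i hi => hM s i (by omega), fun i => ?_⟩
  cases i with
  | inl i =>
    exact (ob_diff0 h1 (fun s => sm_dd (h s) (ee i)) fun s => bd_ee (h s) (hM s) i).of_eq
      fun s y => by rw [key, Lt_inl, Lt_inl]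
  | inr i =>
    have h2 : ∀ t : ℝ, |t| ≤ 1 → O cf 0 (fun s => w s * (cf s).r)
        fun s y => t * (dd (ee i) (u s) (Lt n t y) * (cf s).r) := fun t ht =>
      ((Ob.pull ht (ob_bd (fun s => sm_dd (h s) (ee i))
        fun s j hj => bd_ee (h s) (hM s) i j (by omega)) hw).mul
          (ob_w fun s => (cf s).r0.le)).cmul t
    refine ((h2 t ht).sub (h2 t' ht')).of_eq fun s y => ?_
    rw [key, Lt_inr, Lt_inr]
    simp only [dd, map_smul, smul_eq_mul]
    ring

/-- the coordinates of the difference -/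
def zz (j : Fin n) (y : V n × V n) : ℝ := (y.2 - y.1) j

omit [NeZero n] in
theorem zz_fd (j : Fin n) (y : V n × V n) : HasFDerivAt (zz j)
    ((EuclideanSpace.proj j : V n →L[ℝ] ℝ).comp
      (ContinuousLinearMap.snd ℝ (V n) (V n) - ContinuousLinearMap.fst ℝ (V n) (V n))) y :=
  ((EuclideanSpace.proj j : V n →L[ℝ] ℝ).comp
      (ContinuousLinearMap.snd ℝ (V n) (V n) - ContinuousLinearMap.fst ℝ (V n) (V n))).hasFDerivAt

omit [NeZero n] in
theorem zz_sm (j : Fin n) : ContDiff ℝ ∞ (zz j : V n × V n → ℝ) :=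
  ((EuclideanSpace.proj j : V n →L[ℝ] ℝ).comp
      (ContinuousLinearMap.snd ℝ (V n) (V n) - ContinuousLinearMap.fst ℝ (V n) (V n))).contDiff

omit [NeZero n] in
theorem dd_zz (j : Fin n) (v y : V n × V n) : dd v (zz j) y = zz j v := by
  rw [dd, (zz_fd j y).fderiv]
  rfl

theorem oz (j : Fin n) : O cf k (fun s => (cf s).r) fun _ => zz j := by
  have h0 : O cf 0 (fun s => (cf s).r) fun _ => zz j :=
    ⟨1, zero_le_one, fun s => ⟨(zz_sm j).contDiffAt, by
      rw [one_mul]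
      exact (PiLp.norm_apply_le ((cf s).p.2 - (cf s).p.1) j).trans_eq (norm_sub_rev _ _)⟩⟩
  cases k with
  | zero => exact h0
  | succ k =>
    refine ⟨h0, fun i => (ob_const (c := fun s => zz j ((cf s).dr i)) zero_le_one
      fun s => ?_).of_eq fun s y => (dd_zz j _ y).symm⟩
    cases i with
    | inl i => simpa [zz, Cf.dr] using (cf s).r0.le
    | inr i =>
      simp only [zz, Cf.dr, Sum.elim_inr, sub_zero, PiLp.smul_apply, ee_apply, smul_eq_mul, one_mul,
        abs_mul, abs_of_pos (cf s).r0]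
      exact mul_le_of_le_one_right (cf s).r0.le (dl_abs i j)

theorem zz_sq (c : Cf n) : ∑ j, zz j c.p * zz j c.p = c.r ^ 2 := by
  rw [Cf.r, norm_sub_rev, EuclideanSpace.real_norm_sq_eq]
  exact Finset.sum_congr rfl fun j _ => (sq _).symm

omit [NeZero n] in
theorem dd_co (j : Fin n) (v y : V n) : dd v (fun y : V n => y j) y = v j := by
  rw [dd, show (fun y : V n => y j) = (EuclideanSpace.proj j : V n →L[ℝ] ℝ) from rfl,
    ContinuousLinearMap.fderiv]
  rfl

omit [NeZero n] in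
theorem co_sm (j : Fin n) : ContDiff ℝ ∞ fun y : V n => y j :=
  (EuclideanSpace.proj j : V n →L[ℝ] ℝ).contDiff

omit [NeZero n] in
theorem ob_co {x : S → V n} (hx : ∀ s, ‖x s‖ ≤ 3) (j : Fin n) :
    Ob x k (fun _ => 1) fun _ y => y j := by
  have h0 : Ob x 0 (fun _ => 1) fun _ y => y j :=
    ⟨3, by norm_num, fun s => ⟨(co_sm j).contDiffAt, by
      rw [mul_one]
      exact (PiLp.norm_apply_le (x s) j).trans (hx s)⟩⟩
  cases k with
  | zero => exact h0
  | succ k => exact ⟨h0, fun i => (ob_c (dl i j)).of_eq fun s y => by rw [dd_co, ee_apply]⟩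

/-- the gradient of the logarithm of the scale -/
def pq (P : Par) (j : Fin n) (x : V n) : ℝ := P.N * (dl 0 j + P.κ * (2 * x j - 8 * dl 0 j * x 0))

theorem ob_pq {x : S → V n} (hx : ∀ s, ‖x s‖ ≤ 3) (j : Fin n) :
    Ob x k (fun s => (cf s).P.N) fun s => pq (cf s).P j :=
  (ob_w fun s => (cf s).N0.le).mulo ((ob_c _).add ((ob_const (c := fun s => (cf s).P.κ) zero_le_one
    fun s => by rw [abs_of_pos (cf s).κ0]; linarith [(cf s).κ1]).omul
      (((ob_co hx j).cmul 2).sub ((ob_co hx 0).cmul (8 * dl 0 j)))))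

theorem logb {P : Par} (hB : 0 < P.B) (x : V n) : Real.log (P.b x) =
    Real.log P.B + P.N * (x 0 + P.κ * (∑ j, x j * x j - 4 * (x 0 * x 0)) - P.a) := by
  rw [Par.b, Real.log_mul hB.ne' (Real.exp_pos _).ne', Real.log_exp, psi,
    EuclideanSpace.real_norm_sq_eq]
  simp only [sq]

theorem logb_sm {P : Par} (hB : 0 < P.B) : ContDiff ℝ ∞ fun x : V n => Real.log (P.b x) := by
  simp only [logb hB]
  exact contDiff_const.add (contDiff_const.mul (((co_sm 0).add (contDiff_const.mul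
    ((ContDiff.sum fun j _ => (co_sm j).mul (co_sm j)).sub
      (contDiff_const.mul ((co_sm 0).mul (co_sm 0)))))).sub contDiff_const))

theorem dd_logb {P : Par} (hB : 0 < P.B) (j : Fin n) (x : V n) :
    dd (ee j) (fun x : V n => Real.log (P.b x)) x = pq P j x := by
  have c : ∀ j, SA (fun y : V n => y j) x := fun j => (co_sm j).contDiffAt
  have s1 : SA (fun y : V n => ∑ j, y j * y j) x := ContDiffAt.sum fun j _ => (c j).mul (c j)
  have s2 : SA (fun y : V n => 4 * (y 0 * y 0)) x := contDiffAt_const.mul ((c 0).mul (c 0))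
  have s3 : SA (fun y : V n => P.κ * (∑ j, y j * y j - 4 * (y 0 * y 0))) x :=
    contDiffAt_const.mul (s1.sub s2)
  simp only [logb hB]
  rw [dd_add contDiffAt_const (contDiffAt_const.mul (((c 0).add s3).sub contDiffAt_const)),
    dd_const, dd_cmul _ (((c 0).add s3).sub contDiffAt_const), dd_sub ((c 0).add s3) contDiffAt_const,
    dd_const, dd_add (c 0) s3, dd_cmul _ (s1.sub s2), dd_sub s1 s2, dd_cmul _ ((c 0).mul (c 0)),
    dd_sum _ fun j => (c j).mul (c j)]
  simp only [fun i => dd_mul (c i) (c i) (ee j), dd_co, ee_apply, Finset.sum_add_distrib, dl_sum,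
    pq]
  have h1 : ∑ i, x i * dl j i = x j := by simp [dl]
  have h2 : dl j 0 = dl 0 j := by simp [dl, eq_comm]
  rw [h1, h2]
  ring

theorem logb_sub {P : Par} (hB : 0 < P.B) (y : V n × V n) :
    2 * (P.b2 y - P.b1 y) = ∑ j, zz j y * pq P j y.1 + ∑ j, zz j y * pq P j y.2 := by
  have h1 : ∀ x : V n, ∑ j, zz j y * pq P j x =
      P.N * (zz 0 y + P.κ * (2 * ∑ j, zz j y * x j - 8 * (zz 0 y * x 0))) := fun x => by
    have h2 : ∀ j, zz j y * pq P j x = P.N * (1 - 8 * P.κ * x 0) * (dl 0 j * zz j y) +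
        P.N * P.κ * 2 * (zz j y * x j) := fun j => by
      rw [pq]
      ring
    simp only [h2, Finset.sum_add_distrib, ← Finset.mul_sum, dl_sum]
    ring
  have h3 : ∑ j, zz j y * y.1 j + ∑ j, zz j y * y.2 j = ∑ j, y.2 j * y.2 j - ∑ j, y.1 j * y.1 j := by
    rw [← Finset.sum_add_distrib, ← Finset.sum_sub_distrib]
    exact Finset.sum_congr rfl fun j _ => by simp only [zz, PiLp.sub_apply]; ring
  rw [h1, h1, Par.b1, Par.b2, logb hB, logb hB]
  have h4 : zz 0 y = y.2 0 - y.1 0 := rfl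
  rw [h4]
  linear_combination (-2 * P.N * P.κ) * h3

theorem dd_b1 {P : Par} (hB : 0 < P.B) (v y : V n × V n) :
    dd v P.b1 y = dd v.1 (fun x : V n => Real.log (P.b x)) y.1 :=
  dd_lin (ContinuousLinearMap.fst ℝ (V n) (V n)) ((logb_sm hB).differentiable (by simp) _) v

theorem dd_b2 {P : Par} (hB : 0 < P.B) (v y : V n × V n) :
    dd v P.b2 y = dd v.2 (fun x : V n => Real.log (P.b x)) y.2 :=
  dd_lin (ContinuousLinearMap.snd ℝ (V n) (V n)) ((logb_sm hB).differentiable (by simp) _) v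

theorem b1_sm {P : Par} (hB : 0 < P.B) : ContDiff ℝ ∞ (P.b1 : V n × V n → ℝ) :=
  (logb_sm hB).comp contDiff_fst

theorem b2_sm {P : Par} (hB : 0 < P.B) : ContDiff ℝ ∞ (P.b2 : V n × V n → ℝ) :=
  (logb_sm hB).comp contDiff_snd

end Vale.Agent.P088F.Eg
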