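import Vale.Agent.P088F.EA

/-! P088F, part E: the main multiplier identity. -/

open MeasureTheory Set Filter Topology
open scoped ContDiff

noncomputable section

namespace Vale.Agent.P088F

open Vale.Agent.P088

open Vale.Agent.P088.Car

variable {E : Type} [NormedAddCommGroup E] [NormedSpace ℝ E] {ι : Type} [Fintype ι]
  {D : Dt E ι} {x : E} {u : E → ℝ}

section aux
variable {e : ι → E} {a : ι → ι → E → ℝ} {f φ : E → ℝ}

theorem ecore0_fx (v : E → ℝ) (i : ι) :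
    fx e (fun i j y => f y * a i j y) v i = fun y => f y * fx e a v i y := by
  funext y
  simp only [fx, smul_eq_mul, Finset.mul_sum, mul_assoc]

theorem ecore0_fxn (v : E → ℝ) (i : ι) :
    fx e (fun i j y => -a i j y) v i = fun y => -fx e a v i y := by
  funext y
  simp only [fx, smul_eq_mul, neg_mul, Finset.sum_neg_distrib]

theorem ecore0_dvn : dv e (fun i j y => -a i j y) u x = -dv e a u x := by
  simp only [dv, ecore0_fxn, dd, fderiv_fun_neg, neg_apply, Finset.sum_neg_distrib]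

theorem ecore0_dv (ha : ∀ i j, SA (a i j) x) (hs : ∀ i j, a i j x = a j i x) (hf : SA f x)
    (hu : SA u x) :
    dv e (fun i j y => f y * a i j y) u x = f x * dv e a u x + al e (fx e a f) u x := by
  have h := green_pt (e := e) ha hu hf
  rw [qf_symm hs, qf_eq] at h
  simp only [dv, ecore0_fx] at h ⊢
  rw [h]
  congr 1
  exact Finset.sum_congr rfl fun i _ => mul_comm _ _

theorem ecore0_al : al e (fx e (fun i j y => f y * a i j y) φ) u x =
    f x * al e (fx e a φ) u x := by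
  simp only [al, ecore0_fx, Finset.mul_sum, mul_assoc]

theorem ecore0_aln : al e (fx e (fun i j y => -a i j y) φ) u x = -al e (fx e a φ) u x := by
  simp only [al, ecore0_fxn, neg_mul, Finset.sum_neg_distrib]

theorem ecore0_phi (h1 : SA D.Ψ x) (h2 : SA D.σ x) :
    al e (fx e a D.Φ) u x = al e (fx e a D.Ψ) u x + al e (fx e a D.σ) u x / 2 := by
  have h : ∀ v, dd v D.Φ x = dd v D.Ψ x + 1 / 2 * dd v D.σ x := fun v => by
    have e1 : D.Φ = fun y => D.Ψ y + 1 / 2 * D.σ y := by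
      funext y
      simp only [Dt.Φ]
      ring
    rw [e1, dd_add h1 (contDiffAt_const.mul h2), dd_cmul _ h2]
  simp only [al, fx, h, smul_eq_mul, Finset.sum_mul, Finset.sum_div, ← Finset.sum_add_distrib]
  exact Finset.sum_congr rfl fun i _ => Finset.sum_congr rfl fun j _ => by ring

end aux

theorem ecore0_Gm : D.Gm = blk (fun i j y => D.m y * D.l1 y * D.a1 i j y)
    fun i j y => -(D.m y * D.l2 y * D.a2 i j y) := by
  funext i j y
  cases i <;> cases j <;> simp [Dt.Gm, Dt.G, blk, mul_assoc]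

theorem ecore0_X : al D.es D.X u x = D.l1 x * al D.e1 (fx D.e1 D.a1 D.Ψ) u x -
    D.l2 x * al D.e2 (fx D.e2 D.a2 D.Ψ) u x := by
  unfold Dt.X Dt.es Dt.G
  rw [al_elim]
  simp only [fx_blk_l, fx_blk_r]
  rw [sub_eq_add_neg, ← ecore0_al, ← ecore0_al, ← ecore0_aln]

theorem ecore0_sq {m X e B : ℝ} (hm : 0 < m) (h : e ^ 2 ≤ m * B) : 2 * X * e ≤ m * X ^ 2 + B := by
  refine le_of_mul_le_mul_left ?_ hm
  nlinarith [sq_nonneg (m * X - e)]

/-- Hint: `F = m l1 P1 - m l2 P2` with `P_i = cj ..` equals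
`dv es Gm u + 2 m (X u) - Ef u + c u` (`Gm = blk (m l1 a1) (-(m l2 a2))`, `dv_blk`, product rule,
second part of `H2`); multiply by `2 (X u)`, use `rellich_pt` for `es, Gm, X`, then `H1`, `H2.1`, `H3`
and `2 (X u) F ≤ F^2 / m + m (X u)^2`, `F^2 / m ≤ 2 m l1^2 P1^2 + 2 m l2^2 P2^2`. -/
theorem core0 (h : D.Cf x) (hu : SA u x) :
    ∑ i, dd (D.es i) (D.W0 u i) x + D.g x * (98 / 100 * qf D.a1 x (gr D.e1 u x) (gr D.e1 u x) -
      al D.e1 D.Y u x ^ 2 / D.V x + qf D.a2 x (gr D.e2 u x) (gr D.e2 u x) / 400 -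
      D.V x * u x ^ 2 / 100) ≤
      D.m x * D.l2 x ^ 2 * (8 * cj D.e1 D.a1 D.Φ u x ^ 2 + 2 * cj D.e2 D.a2 D.Φ u x ^ 2) := by
  have s := h.s0
  have hG : ∀ i j, SA (D.G i j) x :=
    blk_sa (fun i j => s.l1.mul (s.a1 i j)) fun i j => (s.l2.mul (s.a2 i j)).neg
  have hGs : ∀ i j, D.G i j x = D.G j i x :=
    blk_symm (fun i j => by rw [s.y1]) fun i j => by rw [s.y2]
  have hGm : ∀ i j, SA (D.Gm i j) x := fun i j => s.m.mul (hG i j)
  have hGms : ∀ i j, D.Gm i j x = D.Gm j i x := fun i j => by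
    simp only [Dt.Gm, hGs i j]
  have hX : ∀ k, SA (D.X k) x := fun k => sa_fx hG s.Ψ k
  have e1 : ∑ i, dd (D.es i) (D.W0 u i) x = _ := rellich_pt (e := D.es) hGm hGms hX hu
  have e0 : gr D.es u x = Sum.elim (gr D.e1 u x) (gr D.e2 u x) := gr_elim u
  have g1 := h.h1 (gr D.e1 u x) (gr D.e2 u x)
  rw [← e0, ← al_eq_dp, ← al_eq_dp] at g1
  have e2 : dv D.es D.Gm u x = D.m x * D.l1 x * dv D.e1 D.a1 u x +
      al D.e1 (fx D.e1 D.a1 fun y => D.m y * D.l1 y) u x -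
      (D.m x * D.l2 x * dv D.e2 D.a2 u x + al D.e2 (fx D.e2 D.a2 fun y => D.m y * D.l2 y) u x) := by
    rw [ecore0_Gm, Dt.es, dv_blk, ecore0_dvn,
      ecore0_dv s.a1 (fun i j => s.y1 i j x) (s.m.mul s.l1) hu,
      ecore0_dv s.a2 (fun i j => s.y2 i j x) (s.m.mul s.l2) hu, sub_eq_add_neg]
  have e3 : al D.e2 (fx D.e2 D.a2 fun y => D.m y * D.l2 y) u x =
      D.m x * D.l2 x * al D.e2 (fx D.e2 D.a2 D.σ) u x := by
    simp only [al, h.h2.2.1, Finset.mul_sum, mul_assoc]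
  have e4 : dp D.Ef x (gr D.e1 u x) = al D.e1 (fx D.e1 D.a1 fun y => D.m y * D.l1 y) u x -
      D.m x * D.l1 x * al D.e1 (fx D.e1 D.a1 D.σ) u x := by
    simp only [dp, Dt.Ef, al, Car.gr, Finset.mul_sum, ← Finset.sum_sub_distrib]
    exact Finset.sum_congr rfl fun i _ => by ring
  have e5 : dv D.es D.Gm u x =
      D.m x * (D.l1 x * cj D.e1 D.a1 D.Φ u x - D.l2 x * cj D.e2 D.a2 D.Φ u x) -
        2 * D.m x * al D.es D.X u x - D.c x * u x + dp D.Ef x (gr D.e1 u x) := by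
    rw [e2, e3, e4, ecore0_X, cj, cj, Dt.c, ecore0_phi s.Ψ s.σ, ecore0_phi s.Ψ s.σ]
    ring
  have k1 := ecore0_sq (X := al D.es D.X u x)
    (B := D.g x * qf D.a1 x (gr D.e1 u x) (gr D.e1 u x) / 100) s.m0
    ((h.h2.1 (gr D.e1 u x)).trans_eq (by ring))
  have k2 := ecore0_sq (X := al D.es D.X u x) (e := -(D.c x * u x))
    (B := D.g x * D.V x * u x ^ 2 / 100) s.m0 (by
      have h3 := mul_le_mul_of_nonneg_right h.h3 (sq_nonneg (u x))
      linarith)
  have hm := s.m0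
  have h1 := s.l10
  have h2 := s.l20
  have h12 := s.l12
  rw [e1, e5]
  generalize cj D.e1 D.a1 D.Φ u x = P1 at *
  generalize cj D.e2 D.a2 D.Φ u x = P2 at *
  generalize al D.es D.X u x = X at *
  have k3 : 0 ≤ D.m x * (D.l1 x * P1 - D.l2 x * P2 - X) ^ 2 := by positivity
  have k4 : 0 ≤ D.m x * (D.l1 x * P1 + D.l2 x * P2) ^ 2 := by positivity
  have k5 : D.m x * P1 ^ 2 * D.l1 x ^ 2 ≤ D.m x * P1 ^ 2 * (2 * D.l2 x) ^ 2 := by gcongr
  linarith

end Vale.Agent.P088F
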