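import Vale.Agent.P088F.EA

/-! P088F, part E: the auxiliary multipliers. -/

open MeasureTheory Set Filter Topology
open scoped ContDiff

noncomputable section

namespace Vale.Agent.P088F

open Vale.Agent.P088

open Vale.Agent.P088.Car

variable {E : Type} [NormedAddCommGroup E] [NormedSpace ℝ E] {ι : Type} [Fintype ι]
  {D : Dt E ι} {x : E} {u : E → ℝ}

theorem ecore1_am {z A B : ℝ} (hA : 0 ≤ A) (hB : 0 ≤ B) (h : z ^ 2 ≤ 4 * A * B) : z ≤ A + B :=
  (abs_le_of_sq_le_sq' (by nlinarith [sq_nonneg (A - B)]) (add_nonneg hA hB)).2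

theorem ecore1_num {g V W q u t P s c γ R T : ℝ} (g0 : 0 < g) (V0 : 0 < V) (W0 : 0 < W)
    (q0 : 0 ≤ q) (hg : g ≤ W * V / 100) (hs : s ^ 2 ≤ V * q / 10000) (hc : |c| ≤ V / 100)
    (hγ : γ ^ 2 ≤ g ^ 2 * V * q / 10000) (hR : |R| ≤ g * q / 100) (hT : |T| ≤ g * V / 100) :
    g * (u / 2 + 2 * t) * P - g * V * u * t - 3 * (g * V * t ^ 2) - 3 / 10 * (g * V * u ^ 2) -
      2 / 100 * (g * q) - g * u * s / 2 - 2 * g * t * s - g * u ^ 2 * c / 2 - 2 * g * t * c * u +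
      u * γ / 2 + R + T * u ^ 2 ≤ W * (2 * P ^ 2) := by
  have c2 : c ^ 2 ≤ (V / 100) ^ 2 := sq_le_sq' (abs_le.1 hc).1 (abs_le.1 hc).2
  have k1 : g * (u / 2 + 2 * t) * P ≤ W * (2 * P ^ 2) + g * V * (u ^ 2 / 1600 + t ^ 2 / 100) := by
    refine ecore1_am (by positivity) (by positivity) ?_
    have a1 : (u / 2 + 2 * t) ^ 2 ≤ u ^ 2 / 2 + 8 * t ^ 2 := by nlinarith [sq_nonneg (u / 2 - 2 * t)]
    have a2 := mul_le_mul hg a1 (sq_nonneg _) (by positivity)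
    have a3 := mul_le_mul_of_nonneg_left a2 (mul_nonneg g0.le (sq_nonneg P))
    nlinarith
  have k2 : -(g * u * s / 2) ≤ g * q / 400 + g * V * u ^ 2 / 400 := by
    refine ecore1_am (by positivity) (by positivity) ?_
    nlinarith [mul_le_mul_of_nonneg_left hs (sq_nonneg (g * u))]
  have k3 : -(2 * g * t * s) ≤ g * q / 400 + g * V * t ^ 2 / 25 := by
    refine ecore1_am (by positivity) (by positivity) ?_
    nlinarith [mul_le_mul_of_nonneg_left hs (sq_nonneg (g * t))]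
  have k4 := mul_le_mul_of_nonneg_left (abs_le.1 hc).1 (mul_nonneg g0.le (sq_nonneg u))
  have k5 : -(2 * g * t * c * u) ≤ g * V * t ^ 2 / 100 + g * V * u ^ 2 / 100 := by
    refine ecore1_am (by positivity) (by positivity) ?_
    nlinarith [mul_le_mul_of_nonneg_left c2 (sq_nonneg (g * t * u))]
  have k6 : u * γ / 2 ≤ g * q / 400 + g * V * u ^ 2 / 400 := by
    refine ecore1_am (by positivity) (by positivity) ?_
    nlinarith [mul_le_mul_of_nonneg_left hγ (sq_nonneg u)]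
  have k7 := (abs_le.1 hR).2
  have k8 := mul_le_mul_of_nonneg_right (abs_le.1 hT).2 (sq_nonneg u)
  have k9 := mul_nonneg (mul_pos g0 V0).le (sq_nonneg (t + u / 4))
  have b1 := mul_nonneg (mul_pos g0 V0).le (sq_nonneg t)
  have b2 := mul_nonneg (mul_pos g0 V0).le (sq_nonneg u)
  have b3 := mul_nonneg g0.le q0
  linarith

/-- Hint: `P = cj e1 a1 Φ u = dv u + 2 (Y u) + (σ1 u) + (V + c1) u` with `σ1 = fx e1 a1 σ`.
Multiply by `g u / 2 + 2 (g / V) (Y u)`; use `green_pt` (w = g u, `qf_gr_mul`), `rellich_pt` for `hY`,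
`div_pt` for `gY` and `u * u`; with `A = g qf`, `B = g (Y u)^2 / V`, `U = g V u^2` every error is at most
a small multiple of `A + B + U` by `H2, H5, H6, H7`. -/
theorem core1 (h : D.Cf x) (hu : SA u x) :
    ∑ i, dd (D.e1 i) (D.W1 u i) x + D.g x * (-(52 / 100) * qf D.a1 x (gr D.e1 u x) (gr D.e1 u x) +
      al D.e1 D.Y u x ^ 2 / D.V x + D.V x * u x ^ 2 / 5) ≤
      D.m x * D.l2 x ^ 2 * (2 * cj D.e1 D.a1 D.Φ u x ^ 2) := by
  have s := h.s0
  have V0 : 0 < D.V x := zero_lt_one.trans_le s.V0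
  have W0 : 0 < D.m x * D.l2 x ^ 2 := mul_pos s.m0 (pow_pos s.l20 2)
  have hY : ∀ k, SA (D.Y k) x := sa_fx s.a1 s.Ψ
  have hh : ∀ k, SA (D.hY k) x := fun k => (s.g.div (sa_qq s.a1 s.Ψ) V0.ne').mul (hY k)
  have hg : ∀ k, SA (D.gY k) x := fun k => s.g.mul (hY k)
  have hF := sa_fx (e := D.e1) s.a1 hu
  have h1 := green_pt (e := D.e1) s.a1 hu (s.g.mul hu)
  have h2 := rellich_pt (e := D.e1) s.a1 (fun i j => s.y1 i j x) hh hu
  have h3 := div_pt (e := D.e1) hg (hu.mul hu)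
  have h4 : ∑ i, dd (D.e1 i) (D.W1 u i) x =
      1 / 2 * ∑ i, dd (D.e1 i) (fun y => D.g y * u y * fx D.e1 D.a1 u i y) x +
        (∑ i, dd (D.e1 i) (fun y => 2 * (al D.e1 D.hY u y * fx D.e1 D.a1 u i y) -
          D.hY i y * qf D.a1 y (gr D.e1 u y) (gr D.e1 u y)) x +
        ∑ i, dd (D.e1 i) (fun y => D.gY i y * (u y * u y)) x) := by
    rw [Finset.mul_sum, ← Finset.sum_add_distrib, ← Finset.sum_add_distrib]
    refine Finset.sum_congr rfl fun i _ => ?_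
    have a1 := (s.g.mul hu).mul (hF i)
    have a2 := (contDiffAt_const (c := (2 : ℝ)).mul ((sa_al (e := D.e1) hh hu).mul (hF i))).sub
      ((hh i).mul (sa_qf (e := D.e1) s.a1 hu hu))
    have a3 := (hg i).mul (hu.mul hu)
    rw [← dd_cmul _ a1, ← dd_add a2 a3, ← dd_add (contDiffAt_const.mul a1) (a2.add a3)]
    rfl
  have e1 : al D.e1 D.hY u x = D.g x * (al D.e1 D.Y u x / D.V x) := by
    simp only [al, Dt.hY, Finset.sum_div, Finset.mul_sum]
    exact Finset.sum_congr rfl fun k _ => by ring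
  have e2 : al D.e1 D.gY u x = D.g x * al D.e1 D.Y u x := by
    simp only [al, Dt.gY, Finset.mul_sum, mul_assoc]
  have e3 : qf D.a1 x (gr D.e1 D.g x) (gr D.e1 u x) = dp (fx D.e1 D.a1 D.g) x (gr D.e1 u x) := by
    rw [qf_symm fun i j => s.y1 i j x, qf_eq]
    exact Finset.sum_congr rfl fun i _ => mul_comm _ _
  have e4 : ∀ j, dd (D.e1 j) D.Φ x = dd (D.e1 j) D.Ψ x + 1 / 2 * dd (D.e1 j) D.σ x := fun j => by
    rw [← dd_cmul _ s.σ, ← dd_add s.Ψ (contDiffAt_const.mul s.σ)]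
    congr 1
    funext y
    rw [Dt.Φ]
    ring
  have e5 : al D.e1 (fx D.e1 D.a1 D.Φ) u x =
      al D.e1 D.Y u x + 1 / 2 * dp (fx D.e1 D.a1 D.σ) x (gr D.e1 u x) := by
    simp only [al, dp, Dt.Y, fx, e4, gr, smul_eq_mul, Finset.mul_sum, Finset.sum_mul,
      ← Finset.sum_add_distrib]
    exact Finset.sum_congr rfl fun _ _ => Finset.sum_congr rfl fun _ _ => by ring
  have e6 : dv D.e1 D.a1 u x = cj D.e1 D.a1 D.Φ u x - 2 * al D.e1 D.Y u x -
      dp (fx D.e1 D.a1 D.σ) x (gr D.e1 u x) - (D.V x + D.c1 x) * u x := by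
    rw [cj, e5, Dt.c1]
    ring
  have k := ecore1_num (u := u x) (t := al D.e1 D.Y u x / D.V x) (P := cj D.e1 D.a1 D.Φ u x)
    (W0.trans_le s.g0) V0 W0 (by linarith [s.q1 (gr D.e1 u x), sq2_nonneg (gr D.e1 u x)])
    h.h2.2.2.2.1 (h.h2.2.2.1 (gr D.e1 u x)) h.h5 (h.h6.1 (gr D.e1 u x)) (h.h7 (gr D.e1 u x)) h.h6.2
  rw [h4, h1, h2, h3, qf_gr_mul s.g hu, al_mul hu hu, e1, e2, e3, e6]
  refine le_of_eq_of_le ?_ k
  field_simp
  ring

end Vale.Agent.P088F
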