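import Vale.Agent.P088F.EGeoA

/-! P088F, part E: the pointwise bounds for the phase. -/

open scoped ContDiff Topology
open Set Filter

noncomputable section

namespace Vale.Agent.P088F.Eg

open Vale.Agent.P292E Vale.Agent.P088 Vale.Agent.P088.Car

variable {n : ℕ} [NeZero n] {S : Type} {cf : S → Cf n}

theorem geo_mono {P : Par} {g g' : Mf n} {p : V n × V n} {r C δ δ' : ℝ} (h : Geo P g g' p r C δ)
    (hr : 0 < r) (hδ : δ ≤ δ') : Geo P g g' p r C δ' :=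
  have h1 : δ * r ≤ δ' * r := mul_le_mul_of_nonneg_right hδ hr.le
  have h2 : δ / r ≤ δ' / r := div_le_div_of_nonneg_right hδ hr.le
  { h with
    rN := h.rN.trans hδ
    gd := fun j k => (h.gd j k).trans h1
    μ0 := h.μ0.trans h1
    μ1 := fun j => (h.μ1 j).trans hδ
    μ2 := fun j => (h.μ2 j).trans hδ
    μ3 := fun j => (h.μ3 j).trans h1
    h1 := h.h1.trans h2
    h2 := h.h2.trans h2 }

omit [NeZero n] in
theorem len_bd {r q m : ℝ} (hr : 0 < r) (h1 : |q - r ^ 2| ≤ r ^ 2 / 4) (h2 : |q * m / 4 - 1| ≤ 1 / 4) :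
    1 ≤ r ^ 2 * m ∧ r ^ 2 * m ≤ 9 := by
  obtain ⟨h3, h4⟩ := abs_le.1 h1
  obtain ⟨h5, h6⟩ := abs_le.1 h2
  have h7 : 0 < r ^ 2 := pow_pos hr 2
  have h8 : 0 < m := by
    by_contra h
    nlinarith [not_lt.1 h]
  constructor <;> nlinarith

theorem geo_fam (hq' : ∀ s, |qq (cf s).g' (cf s).p - (cf s).r ^ 2| ≤ (cf s).r ^ 2 / 4)
    (h1 : ∀ s, |(cf s).R1 (cf s).p - 1| ≤ 1 / 4) (h2 : ∀ s, |(cf s).R2 (cf s).p - 1| ≤ 1 / 4) :
    ∃ M, 1 ≤ M ∧ ∀ s, Geo (cf s).P (cf s).g (cf s).g' (cf s).p (cf s).r M (M * (cf s).δ) := by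
  have r0 := fun s => (cf s).r0
  have δ0 := fun s => (cf s).δ0
  have N0 := fun s => (cf s).N0
  have hq : ∀ s, (cf s).r ^ 2 / 2 ≤ qq (cf s).g' (cf s).p := fun s => by
    linarith [(abs_le.1 (hq' s)).1, sq_nonneg (cf s).r]
  have hμ := omu hq fun s => by linarith [(abs_le.1 (h1 s)).1]
  have hrat := orat hq fun s => by linarith [(abs_le.1 (h2 s)).1]
  have w1 : ∀ s, 0 ≤ (cf s).δ * (cf s).r := fun s => (mul_pos (δ0 s) (r0 s)).le
  have w2 : ∀ s, 0 ≤ ((cf s).r)⁻¹ := fun s => (inv_pos.2 (r0 s)).le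
  have w3 : ∀ s, (cf s).δ * (cf s).r / (cf s).r ≤ (cf s).δ := fun s =>
    (mul_div_cancel_right₀ _ (r0 s).ne').le
  obtain ⟨M1, -, k1⟩ := oh1 hq
  obtain ⟨M2, -, k2⟩ := oh2 hq
  refine Eventually.exists (f := (atTop : Filter ℝ)) ?_
  filter_upwards [eventually_ge_atTop 1, eventually_ge_atTop M1, eventually_ge_atTop M2,
    eventually_all.2 fun j => (oth1 hq j).ev w2, eventually_all.2 fun j => (oth2 hq j).ev w2,
    eventually_all.2 fun i => eventually_all.2 fun j => (O.d1 (oth1 hq j) w2 i).ev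
      fun s => div_nonneg (w2 s) (r0 s).le,
    eventually_all.2 fun j => (O.d1 (on1 hq) (fun _ => mul_self_nonneg _) j).ev
      fun s => div_nonneg (mul_self_nonneg _) (r0 s).le,
    eventually_all.2 fun j => (otr hq j).ev fun s => (N0 s).le,
    hrat.ev fun s => wN _, (((ot1 (cf := cf)).add ot2).cmul (-1 / 2)).ev fun s => wN _,
    eventually_all.2 fun j => eventually_all.2 fun k => ((oS1 (cf := cf) j k).sub (oS3 j k)).ev w1,
    hμ.ev w1, eventually_all.2 fun j => ((O.d1 hμ w1 j).le w3).ev fun s => (δ0 s).le,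
    eventually_all.2 fun j => ((O.d2 hμ j).le w3).ev fun s => (δ0 s).le,
    eventually_all.2 fun j => (hμ.dd (.inl j)).ev w1,
    eventually_all.2 fun j => (op1 (cf := cf) j).ev fun s => (N0 s).le,
    eventually_all.2 fun j => (op2 (cf := cf) j).ev fun s => (N0 s).le,
    eventually_all.2 fun i => eventually_all.2 fun j =>
      ((op1 (cf := cf) j).dd (.inl i)).ev fun s => (N0 s).le,
    eventually_all.2 fun i => eventually_all.2 fun j =>
      ((op2 (cf := cf) j).dd (.inl i)).ev fun s => (N0 s).le]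
    with M m0 m1 m2 a1 a2 a3 a4 a5 a6 a7 a8 a9 b1 b2 b3 b4 b5 b6 b7
  refine ⟨m0, fun s => ?_⟩
  have hB := (cf s).B0
  have w4 : 0 ≤ (cf s).δ / (cf s).r := (div_pos (δ0 s) (r0 s)).le
  have l1 := len_bd (r0 s) (hq' s) (h1 s)
  have l2 := len_bd (r0 s) (hq' s) (h2 s)
  have f1 : ∀ j : Fin n, dd (e1 j) (cf s).P.b1 = fun y : V n × V n => pq (cf s).P j y.1 :=
    fun j => funext (dd_b11 hB j)
  have f2 : ∀ j : Fin n, dd (e2 j) (cf s).P.b2 = fun y : V n × V n => pq (cf s).P j y.2 :=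
    fun j => funext (dd_b22 hB j)
  exact
    { sm := th_sa (cf s).gs' hB (q_ne hq s).self_of_nhds
      s1 := (b1_sm hB).contDiffAt
      s2 := (b2_sm hB).contDiffAt
      sμ := hμ.sa s
      rN := (cf s).rN.trans (le_mul_of_one_le_left (δ0 s).le m0)
      n1l := l1.1
      n1u := l1.2
      n2l := l2.1
      n2u := l2.2
      d1 := fun j => (a1 j s).trans_eq (div_eq_mul_inv _ _).symm
      d2 := fun j => (a2 j s).trans_eq (div_eq_mul_inv _ _).symm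
      d11 := fun i j => (a3 i j s).trans_eq (by ring)
      dn := fun j => (a4 j s).trans_eq (by ring)
      tr := fun j => a5 j s
      rat := (a6 s).trans_eq (by ring)
      bb := (le_of_eq (congrArg abs (by
        rw [Cf.t1, Cf.t2, ← logb_sub hB]
        ring))).trans ((a7 s).trans_eq (by ring))
      gd := fun j k => (le_of_eq (congrArg abs (by
        rw [P088F.a1, P088F.a2]
        ring))).trans ((a8 j k s).trans_eq (by ring))
      μ0 := (a9 s).trans_eq (by ring)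
      μ1 := fun j => b1 j s
      μ2 := fun j => b2 j s
      μ3 := fun j => (le_of_eq (congrArg abs (dd_dr _ j _ _).symm)).trans
        ((b3 j s).trans_eq (by ring))
      h1 := (k1 s).trans ((mul_le_mul_of_nonneg_right m1 w4).trans_eq (by ring))
      h2 := (k2 s).trans ((mul_le_mul_of_nonneg_right m2 w4).trans_eq (by ring))
      p1 := fun j => by rw [f1]; exact b4 j s
      p2 := fun j => by rw [f2]; exact b5 j s
      p11 := fun i j => by rw [f1, ← dd_fst (cf s) (pq_sm hB j)]; exact b6 i j s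
      p22 := fun i j => by rw [f2, ← dd_snd (cf s) (pq_sm hB j)]; exact b7 i j s }

theorem geo_cf (n : ℕ) [NeZero n] : ∃ δ₁ M : ℝ, 0 < δ₁ ∧ 1 ≤ M ∧ ∀ c : Cf n, c.δ ≤ δ₁ →
    |qq c.g' c.p - c.r ^ 2| ≤ c.r ^ 2 / 4 ∧ Geo c.P c.g c.g' c.p c.r M (M * c.δ) := by
  obtain ⟨M0, m0, k0⟩ := (oq1 (cf := fun c : Cf n => c)).bd
  have q1 : ∀ c : Cf n, c.δ ≤ 1 / (4 * M0 + 4) → |qq c.g' c.p - c.r ^ 2| ≤ c.r ^ 2 / 4 :=
    fun c hc => by
      have h1 := k0 c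
      rw [zz_sq] at h1
      rw [le_div_iff₀ (by positivity)] at hc
      nlinarith [sq_nonneg c.r, c.δ0]
  have q2 : ∀ s : {c : Cf n // c.δ ≤ 1 / (4 * M0 + 4)}, s.1.r ^ 2 / 2 ≤ qq s.1.g' s.1.p :=
    fun s => by linarith [(abs_le.1 (q1 s.1 s.2)).1, sq_nonneg s.1.r]
  obtain ⟨M1, m1, k1⟩ := ((oR1 q2).le fun s => s.1.rN1).bd
  obtain ⟨M2, m2, k2⟩ := ((oR2 q2).le fun s => s.1.rN1).bd
  have q3 : ∀ c : Cf n, c.δ ≤ 1 / (4 * (M0 + M1 + M2) + 4) → c.δ ≤ 1 / (4 * M0 + 4) ∧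
      M1 * c.δ ≤ 1 / 4 ∧ M2 * c.δ ≤ 1 / 4 := fun c hc => by
    rw [le_div_iff₀ (by positivity)] at hc ⊢
    have := c.δ0
    refine ⟨?_, ?_, ?_⟩ <;> nlinarith [mul_nonneg m0 this.le, mul_nonneg m1 this.le,
      mul_nonneg m2 this.le]
  obtain ⟨M, m, k⟩ := geo_fam
    (cf := fun s : {c : Cf n // c.δ ≤ 1 / (4 * (M0 + M1 + M2) + 4)} => s.1)
    (fun s => q1 s.1 (q3 s.1 s.2).1) (fun s => (k1 ⟨s.1, (q3 s.1 s.2).1⟩).trans (q3 s.1 s.2).2.1)
    fun s => (k2 ⟨s.1, (q3 s.1 s.2).1⟩).trans (q3 s.1 s.2).2.2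
  exact ⟨_, M, by positivity, m, fun c hc => ⟨q1 c (q3 c hc).1, k ⟨c, hc⟩⟩⟩

end Vale.Agent.P088F.Eg

namespace Vale.Agent.P088F

open Vale.Agent.P292E Eg

variable {n : ℕ} [NeZero n] {ι : Type}

theorem pg : PG n ι := by
  obtain ⟨δ₁, M, d1, m, k⟩ := geo_cf n
  refine ⟨M, m, fun δ hδ => ?_⟩
  have n0 : (0 : ℝ) < n := by exact_mod_cast Nat.pos_of_ne_zero (NeZero.ne n)
  have m0 : 0 < M := zero_lt_one.trans_le m
  obtain ⟨c, c0, c1, c2, c3, c4⟩ : ∃ c : ℝ, 0 < c ∧ c ≤ δ₁ ∧ c * (2 * n) ≤ 1 ∧ M * c ≤ δ ∧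
      M * c ≤ 1 / 2 := by
    refine ⟨min (min δ₁ (1 / (2 * n))) (min (δ / M) (1 / 2 / M)), by positivity,
      (min_le_left _ _).trans (min_le_left _ _), ?_, ?_, ?_⟩
    · rw [← le_div_iff₀ (by positivity)]
      exact (min_le_left _ _).trans (min_le_right _ _)
    · rw [← le_div_iff₀' m0]
      exact (min_le_right _ _).trans (min_le_left _ _)
    · rw [← le_div_iff₀' m0]
      exact (min_le_right _ _).trans (min_le_right _ _)
  refine ⟨c, c, c0, c0, fun P d p κ0 κ1 N1 B0 s1 s2 n1 n2 x2 ne rN => ⟨fun h => ?_, fun h => ?_⟩⟩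
  · have r0 : 0 < ‖p.1 - p.2‖ := norm_pos_iff.2 (sub_ne_zero.2 ne)
    let s : Cf n := ⟨P, d.L2.g, d.L2.g, p, c, s2.gs, s2.gs, κ0, κ1, N1, B0, c2, n2.g, n2.g, x2, ne,
      rN, fun i _ j k => by simpa using (mul_pos c0 r0).le⟩
    obtain ⟨k1, k2⟩ := k s c1
    have h1 : P.b1 p - P.b2 p ≤ 1 / 2 := by
      have h2 : P.N * ‖p.1 - p.2‖ ≤ c := (mul_comm _ _).trans_le s.rN1
      exact ((le_abs_self _).trans k2.bb).trans ((mul_le_mul_of_nonneg_left h2 m0.le).trans c4)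
    have h2 : qq d.L2.g p ≤ 5 / 4 * ‖p.1 - p.2‖ ^ 2 := by
      have := (abs_le.1 k1).2
      change qq d.L2.g p - ‖p.1 - p.2‖ ^ 2 ≤ ‖p.1 - p.2‖ ^ 2 / 4 at this
      linarith
    have h3 : 0 < qq d.L2.g p := by
      have := (abs_le.1 k1).1
      change -(‖p.1 - p.2‖ ^ 2 / 4) ≤ qq d.L2.g p - ‖p.1 - p.2‖ ^ 2 at this
      nlinarith [pow_pos r0 2]
    have b0 : 0 < P.b p.1 := mul_pos B0 (Real.exp_pos _)
    have h4 : Real.exp (P.b1 p + P.b1 p + -(1 / 2)) ≤ qq d.L2.g p := by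
      rw [← Real.le_log_iff_exp_le h3]
      change 0 < Real.log (qq d.L2.g p) - P.b1 p - P.b2 p at h
      linarith
    rw [Real.exp_add, Real.exp_add, Par.b1, Real.exp_log b0] at h4
    have h5 := Real.add_one_le_exp (-(1 / 2) : ℝ)
    have h6 : P.b p.1 ^ 2 ≤ (2 * ‖p.1 - p.2‖) ^ 2 := by
      nlinarith [mul_le_mul_of_nonneg_left h5 (mul_pos b0 b0).le, pow_pos r0 2]
    exact (pow_le_pow_iff_left₀ b0.le (by positivity) two_ne_zero).1 h6
  · let s : Cf n := ⟨P, d.L1.g, d.L2.g, p, c, s1.gs, s2.gs, κ0, κ1, N1, B0, c2, n1.g, n2.g, x2, ne,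
      rN, fun i hi j k => (h i (by omega)).1 j k⟩
    exact geo_mono (k s c1).2 s.r0 c3

end Vale.Agent.P088F
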