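import Vale.Agent.P088F.ESy

/-! P088F, part E: the symbols of the phase. -/

open scoped ContDiff Topology
open Set Filter

noncomputable section

namespace Vale.Agent.P088F.Eg

open Vale.Agent.P292E Vale.Agent.P088 Vale.Agent.P088.Car

variable {n : ℕ} [NeZero n] {S : Type}

/-- the phase of a configuration -/
abbrev Cf.th (c : Cf n) : V n × V n → ℝ := c.P.Th c.g'

/-- the first gradient -/
abbrev om1 (cf : S → Cf n) : Fin n → S → V n × V n → ℝ :=
  om (-1) (fun j s => uu (cf s).g' j) (fun j s y => pq (cf s).P j y.1) (fun j s => RR (cf s).g' j)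
    fun s => qq (cf s).g'

/-- the second gradient -/
abbrev om2 (cf : S → Cf n) : Fin n → S → V n × V n → ℝ :=
  om 1 (fun j s => uu (cf s).g' j) (fun j s y => pq (cf s).P j y.2) (fun j s => RR (cf s).g' j)
    fun s => qq (cf s).g'

/-- the normalised first length -/
def Cf.R1 (c : Cf n) (y : V n × V n) : ℝ := qq c.g' y * c.P.n1 c.g c.g' y / 4

/-- the normalised second length -/
def Cf.R2 (c : Cf n) (y : V n × V n) : ℝ := qq c.g' y * c.P.n2 c.g' y / 4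

/-- the first pairing -/
def Cf.t1 (c : Cf n) (y : V n × V n) : ℝ := ∑ j, zz j y * pq c.P j y.1

/-- the second pairing -/
def Cf.t2 (c : Cf n) (y : V n × V n) : ℝ := ∑ j, zz j y * pq c.P j y.2

theorem pq_sm {P : Par} (hB : 0 < P.B) (j : Fin n) : ContDiff ℝ ∞ (pq P j) := by
  rw [← funext (dd_logb hB j)]
  exact sm_dd (logb_sm hB) _

theorem dd_fst (c : Cf n) {U : V n → ℝ} (h : ContDiff ℝ ∞ U) (j : Fin n) (y : V n × V n) :
    dd (c.dr (.inl j)) (fun y => U y.1) y = dd (e1 j) (fun y => U y.1) y := by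
  have h1 := dd_lin (ContinuousLinearMap.fst ℝ (V n) (V n)) (y := y)
    (h.differentiable (by simp) _) (e2 j)
  rw [dd_dr, show dd (e2 j) (fun y => U y.1) y = _ from h1]
  simp [dd, e2]

theorem dd_snd (c : Cf n) {U : V n → ℝ} (h : ContDiff ℝ ∞ U) (j : Fin n) (y : V n × V n) :
    dd (c.dr (.inl j)) (fun y => U y.2) y = dd (e2 j) (fun y => U y.2) y := by
  have h1 := dd_lin (ContinuousLinearMap.snd ℝ (V n) (V n)) (y := y)
    (h.differentiable (by simp) _) (e1 j)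
  rw [dd_dr, show dd (e1 j) (fun y => U y.2) y = _ from h1]
  simp [dd, e1]

variable {cf : S → Cf n}

theorem wN (c : Cf n) : 0 ≤ c.r * c.P.N := (mul_pos c.r0 c.N0).le

theorem ot1 : O cf 1 (fun s => (cf s).r * (cf s).P.N) fun s => (cf s).t1 :=
  ob_sum Finset.univ (fun _ => wN _) fun j => (oz j).mul (op1 j)

theorem ot2 : O cf 1 (fun s => (cf s).r * (cf s).P.N) fun s => (cf s).t2 :=
  ob_sum Finset.univ (fun _ => wN _) fun j => (oz j).mul (op2 j)

variable (hq : ∀ s, (cf s).r ^ 2 / 2 ≤ qq (cf s).g' (cf s).p)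
include hq

theorem th1 (s : S) (j : Fin n) : om1 cf j s =ᶠ[𝓝 (cf s).p] dd (e1 j) (cf s).th := by
  filter_upwards [q_ne hq s] with y hy
  rw [dd_th (cf s).gs' (cf s).B0 hy, dd_qq1 (cf s).gs', dd_b11 (cf s).B0, dd_b21 (cf s).B0, sub_zero]
  rfl

theorem th2 (s : S) (j : Fin n) : om2 cf j s =ᶠ[𝓝 (cf s).p] dd (e2 j) (cf s).th := by
  filter_upwards [q_ne hq s] with y hy
  rw [dd_th (cf s).gs' (cf s).B0 hy, dd_qq2 (cf s).gs', dd_b22 (cf s).B0, dd_b12 (cf s).B0, sub_zero]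
  rfl

theorem fx1 (s : S) (j : Fin n) : up (fun j k s => a1 (cf s).g j k) (om1 cf) j s =ᶠ[𝓝 (cf s).p]
    fx e1 (a1 (cf s).g) (cf s).th j := by
  filter_upwards [eventually_all.2 (th1 hq s)] with y hy
  simp only [up, fx, hy, smul_eq_mul]

theorem fx2 (s : S) (j : Fin n) : up (fun j k s => a2 (cf s).g' j k) (om2 cf) j s =ᶠ[𝓝 (cf s).p]
    fx e2 (a2 (cf s).g') (cf s).th j := by
  filter_upwards [eventually_all.2 (th2 hq s)] with y hy
  simp only [up, fx, hy, smul_eq_mul]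

theorem n1_eq (s : S) : dt (up (fun j k s => a1 (cf s).g j k) (om1 cf)) (om1 cf) s =ᶠ[𝓝 (cf s).p]
    (cf s).P.n1 (cf s).g (cf s).g' := by
  filter_upwards [eventually_all.2 (th1 hq s), eventually_all.2 (fx1 hq s)] with y hy hy'
  simp only [dt, Par.n1, Car.qq, al, hy, hy']

theorem n2_eq (s : S) : dt (up (fun j k s => a2 (cf s).g' j k) (om2 cf)) (om2 cf) s =ᶠ[𝓝 (cf s).p]
    (cf s).P.n2 (cf s).g' := by
  filter_upwards [eventually_all.2 (th2 hq s), eventually_all.2 (fx2 hq s)] with y hy hy'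
  simp only [dt, Par.n2, Car.qq, al, hy, hy']

theorem oth1 (j : Fin n) : O cf 1 (fun s => ((cf s).r)⁻¹) fun s => dd (e1 j) (cf s).th :=
  ((sy1 hq).oom j).congr fun s => th1 hq s j

theorem oth2 (j : Fin n) : O cf 1 (fun s => ((cf s).r)⁻¹) fun s => dd (e2 j) (cf s).th :=
  ((sy2 hq).oom j).congr fun s => th2 hq s j

theorem on1 : O cf 1 (fun s => ((cf s).r)⁻¹ * ((cf s).r)⁻¹)
    fun s => (cf s).P.n1 (cf s).g (cf s).g' :=
  (ob_sum Finset.univ (fun _ => mul_self_nonneg _) fun j => (ob_sum Finset.univ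
    (fun s => (inv_pos.2 (cf s).r0).le) fun k => ((sy1 hq).ha j k).omul ((sy1 hq).oom k)).mul
      ((sy1 hq).oom j)).congr fun s => n1_eq hq s

theorem oX1 : O cf 1 (fun s => (cf s).δ * (cf s).r) fun s y => (cf s).R1 y - 1 - (cf s).t1 y :=
  (sy1 hq).on.congr fun s => by
    filter_upwards [n1_eq hq s] with y hy
    rw [hy, Cf.R1, Cf.t1, dt]
    ring

theorem oX2 : O cf 1 (fun s => (cf s).δ * (cf s).r) fun s y => (cf s).R2 y - 1 + (cf s).t2 y :=
  (sy2 hq).on.congr fun s => by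
    filter_upwards [n2_eq hq s] with y hy
    rw [hy, Cf.R2, Cf.t2, dt]
    ring

omit hq in
theorem wle (c : Cf n) : c.δ * c.r ≤ c.r * c.P.N := by
  nlinarith [c.r0, c.δ3, c.N1]

theorem oR1 : O cf 1 (fun s => (cf s).r * (cf s).P.N) fun s y => (cf s).R1 y - 1 :=
  (((oX1 hq).le fun s => wle _).add ot1).of_eq fun s y => by ring

theorem oR2 : O cf 1 (fun s => (cf s).r * (cf s).P.N) fun s y => (cf s).R2 y - 1 :=
  (((oX2 hq).le fun s => wle _).sub ot2).of_eq fun s y => by ring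

theorem otr (j : Fin n) : O cf 1 (fun s => (cf s).P.N) fun s y =>
    fx e1 (a1 (cf s).g) (cf s).th j y + fx e2 (a2 (cf s).g') (cf s).th j y :=
  ((((((sy1 hq).oA j).add ((sy2 hq).oA j)).le fun s => (cf s).δ3.trans (cf s).N1).sub
    ((sy1 hq).oap j)).sub ((sy2 hq).oap j)).congr fun s => by
      filter_upwards [fx1 hq s j, fx2 hq s j] with y hy hy'
      rw [← hy, ← hy']
      ring

theorem oh1 : ∃ M, 0 ≤ M ∧ ∀ s, |dv e1 (a1 (cf s).g) (cf s).th (cf s).p +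
    (2 - n) * al e1 (fx e1 (a1 (cf s).g) (cf s).th) (cf s).P.b1 (cf s).p -
    (n - 2) / 2 * (cf s).P.n1 (cf s).g (cf s).g' (cf s).p| ≤ M * ((cf s).δ / (cf s).r) := by
  obtain ⟨M, hM, h⟩ := (sy1 hq).oh e1 (fun j w f hw hf => O.d1 hf hw j)
    (fun j => (((sy1 hq).oap j).dd (.inl j)).of_eq fun s y => dd_fst (cf s)
      (U := fun x => ∑ k, (cf s).g j k x * pq (cf s).P k x)
      (ContDiff.sum fun k _ => ((cf s).gs.sm j k).mul (pq_sm (cf s).B0 k)) j y)
    (fun j s => by rw [dd_zz]; simp [zz, e1, ee_apply, dl]) fun j s => dd_qq1 (cf s).gs' j _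
  refine ⟨M, hM, fun s => (le_of_eq ?_).trans (h s)⟩
  rw [(n1_eq hq s).self_of_nhds]
  simp only [dv, al, dt, fun j => dd_congr (fx1 hq s j) (e1 j), fun j => (fx1 hq s j).self_of_nhds,
    dd_b11 (cf s).B0]

theorem oh2 : ∃ M, 0 ≤ M ∧ ∀ s, |dv e2 (a2 (cf s).g') (cf s).th (cf s).p +
    (2 - n) * al e2 (fx e2 (a2 (cf s).g') (cf s).th) (cf s).P.b2 (cf s).p -
    (n - 2) / 2 * (cf s).P.n2 (cf s).g' (cf s).p| ≤ M * ((cf s).δ / (cf s).r) := by
  obtain ⟨M, hM, h⟩ := (sy2 hq).oh e2 (fun j w f _ hf => O.d2 hf j)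
    (fun j => (((sy2 hq).oap j).dd (.inl j)).of_eq fun s y => dd_snd (cf s)
      (U := fun x => ∑ k, (cf s).g' j k x * pq (cf s).P k x)
      (ContDiff.sum fun k _ => ((cf s).gs'.sm j k).mul (pq_sm (cf s).B0 k)) j y)
    (fun j s => by rw [dd_zz]; simp [zz, e2, ee_apply, dl]) fun j s => dd_qq2 (cf s).gs' j _
  refine ⟨M, hM, fun s => (le_of_eq ?_).trans (h s)⟩
  rw [(n2_eq hq s).self_of_nhds]
  simp only [dv, al, dt, fun j => dd_congr (fx2 hq s j) (e2 j), fun j => (fx2 hq s j).self_of_nhds,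
    dd_b22 (cf s).B0]

omit hq in
theorem wNN (c : Cf n) : c.r * c.P.N * (c.r * c.P.N) ≤ c.δ * c.r := by
  nlinarith [mul_le_mul_of_nonneg_left (show c.r * c.P.N ^ 2 ≤ c.δ from c.rN) c.r0.le]

theorem orat (h2 : ∀ s, 1 / 2 ≤ (cf s).R2 (cf s).p) : O cf 1 (fun s => (cf s).r * (cf s).P.N)
    fun s y => (cf s).P.n1 (cf s).g (cf s).g' y / (cf s).P.n2 (cf s).g' y - 1 := by
  have h3 : O cf 1 (fun _ => 1) fun s => (cf s).R2 :=
    (((oR2 hq).le fun s => (cf s).rN1.trans (cf s).δ3).add (ob_c 1)).of_eq fun s y => by ring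
  refine (((oR1 hq).sub (oR2 hq)).mulo (h3.inv (by norm_num) h2)).congr fun s => ?_
  filter_upwards [(h3.sa s).continuousAt.eventually_ne
    ((by norm_num : (0 : ℝ) < 1 / 2).trans_le (h2 s)).ne'] with y hy
  rw [Cf.R2] at hy
  have h4 : qq (cf s).g' y ≠ 0 := fun h => hy (by simp [h])
  have h5 : (cf s).P.n2 (cf s).g' y ≠ 0 := fun h => hy (by simp [h])
  rw [Cf.R1, Cf.R2]
  field_simp
  ring

theorem omu (h1 : ∀ s, 1 / 2 ≤ (cf s).R1 (cf s).p) : O cf 1 (fun s => (cf s).δ * (cf s).r)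
    fun s => (cf s).P.mu (cf s).g (cf s).g' := by
  have k1 : ∀ s, (cf s).r * (cf s).P.N ≤ 1 := fun s => (cf s).rN1.trans (cf s).δ3
  have h3 : O cf 1 (fun _ => 1) fun s => (cf s).R1 :=
    (((oR1 hq).le k1).add (ob_c 1)).of_eq fun s y => by ring
  have h4 : O cf 1 (fun _ => 1) fun s => (cf s).R2 :=
    (((oR2 hq).le k1).add (ob_c 1)).of_eq fun s y => by ring
  have h5 := (ot1 (cf := cf)).add ot2
  refine (((((oX2 hq).sub (oX1 hq)).add ((h5.mul (oR2 hq)).le fun s => wNN _)).add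
    (((h5.exp2 k1).mulo h4).le fun s => wNN _)).mulo (h3.inv (by norm_num) h1)).congr fun s => ?_
  filter_upwards [(h3.sa s).continuousAt.eventually_ne
    ((by norm_num : (0 : ℝ) < 1 / 2).trans_le (h1 s)).ne'] with y hy
  have b0 : ∀ x : V n, 0 < (cf s).P.b x := fun x => mul_pos (cf s).B0 (Real.exp_pos _)
  have e1 : Real.exp ((cf s).t1 y + (cf s).t2 y) = (cf s).P.b y.2 ^ 2 / (cf s).P.b y.1 ^ 2 := by
    rw [Cf.t1, Cf.t2, ← logb_sub (cf s).B0, two_mul, Real.exp_add, Real.exp_sub, Par.b1, Par.b2,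
      Real.exp_log (b0 _), Real.exp_log (b0 _), ← div_pow, sq]
  have e2 : (cf s).P.mu (cf s).g (cf s).g' y =
      (Real.exp ((cf s).t1 y + (cf s).t2 y) * (cf s).R2 y - (cf s).R1 y) * ((cf s).R1 y)⁻¹ := by
    rw [Cf.R1] at hy
    have h6 : qq (cf s).g' y ≠ 0 := fun h => hy (by simp [h])
    have h7 : (cf s).P.n1 (cf s).g (cf s).g' y ≠ 0 := fun h => hy (by simp [h])
    have h8 := (b0 y.1).ne'
    rw [e1, Par.mu, Cf.R1, Cf.R2]
    field_simp
  rw [e2]
  ring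

end Vale.Agent.P088F.Eg
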