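import Vale.Agent.P088F.EB0

/-! P088F, part E: the deformation tensor is the gauged Hessian. -/

open MeasureTheory Set Filter Topology
open scoped ContDiff

noncomputable section

namespace Vale.Agent.P088F

open Vale.Agent.P292E Vale.Agent.P088

variable {n : ℕ} [NeZero n] {P : Par} {g g' : Mf n} {M : ℝ} {J : ℕ} {p : V n × V n}
  {r C δ t : ℝ}

section abs
variable {E : Type} [NormedAddCommGroup E] [NormedSpace ℝ E] {κ : Type} [Fintype κ]
  {e : κ → E} {a : κ → κ → E → ℝ} {x : E} {Θ : E → ℝ}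

theorem eh1b_lin (c : κ → ℝ) (f : E → ℝ) :
    Car.dd (∑ i, c i • e i) f x = ∑ i, c i * Car.dd (e i) f x := by
  simp only [Car.dd, map_sum, map_smul, smul_eq_mul]

theorem eh1b_abs (ha : ∀ i j, Car.SA (a i j) x) (hs : ∀ i j, a i j x = a j i x) (hΘ : Car.SA Θ x)
    (ζ : κ → ℝ) {v u : E} (hv : v = ∑ i, (∑ j, a i j x * ζ j) • e i)
    (hu : u = ∑ i, (∑ j, a i j x * Car.dd (e j) Θ x) • e i) :
    Car.LL e a (Car.fx e a Θ) x ζ = 2 * fderiv ℝ (fderiv ℝ Θ) x v v +
      2 * ∑ k, ∑ l, Car.dd v (a k l) x * Car.dd (e l) Θ x * ζ k -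
      ∑ i, ∑ j, Car.dd u (a i j) x * ζ i * ζ j := by
  have h1 : DifferentiableAt ℝ (fderiv ℝ Θ) x :=
    (hΘ.fderiv_right (m := ∞) le_rfl).differentiableAt (by simp)
  have h2 : ∀ i l, Car.dd (e i) (Car.dd (e l) Θ) x = fderiv ℝ (fderiv ℝ Θ) x (e i) (e l) :=
    fun i l => by
      show fderiv ℝ (fun y => fderiv ℝ Θ y (e l)) x (e i) = _
      rw [fderiv_clm_apply h1 (differentiableAt_const _)]
      simp
  have h3 : fderiv ℝ (fderiv ℝ Θ) x v v = ∑ i, ∑ k, ∑ l, (∑ j, a i j x * ζ j) *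
      (a k l x * fderiv ℝ (fderiv ℝ Θ) x (e i) (e l)) * ζ k := by
    rw [hv]
    simp only [map_sum, map_smul, _root_.sum_apply, _root_.smul_apply,
      smul_eq_mul]
    simp only [Finset.mul_sum _ _ (∑ j, a _ j x * ζ j)]
    rw [Finset.sum_comm]
    refine Finset.sum_congr rfl fun i _ => ?_
    rw [Finset.sum_comm]
    refine Finset.sum_congr rfl fun l _ => ?_
    rw [Finset.sum_mul Finset.univ fun k => a l k x * ζ k]
    exact Finset.sum_congr rfl fun k _ => by rw [hs l k]; ring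
  have h4 : ∀ i k, (∑ j, a i j x * ζ j) * Car.dd (e i) (Car.fx e a Θ k) x * ζ k =
      ∑ l, (∑ j, a i j x * ζ j) * (a k l x * fderiv ℝ (fderiv ℝ Θ) x (e i) (e l)) * ζ k +
        ∑ l, (∑ j, a i j x * ζ j) * Car.dd (e i) (a k l) x * Car.dd (e l) Θ x * ζ k :=
    fun i k => by
    rw [eb_ddfx ha hΘ, Finset.mul_sum, Finset.sum_mul, ← Finset.sum_add_distrib]
    refine Finset.sum_congr rfl fun l _ => ?_
    rw [h2]
    ring
  have h5 : ∑ k, ∑ l, Car.dd v (a k l) x * Car.dd (e l) Θ x * ζ k = ∑ i, ∑ k, ∑ l,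
      (∑ j, a i j x * ζ j) * Car.dd (e i) (a k l) x * Car.dd (e l) Θ x * ζ k := by
    rw [hv, Finset.sum_comm (f := fun i k => ∑ l, (∑ j, a i j x * ζ j) * _ * _ * _)]
    refine Finset.sum_congr rfl fun k _ => ?_
    rw [Finset.sum_comm]
    refine Finset.sum_congr rfl fun l _ => ?_
    rw [eh1b_lin, Finset.sum_mul, Finset.sum_mul]
  have h6 : ∑ i, ∑ j, Car.dd u (a i j) x * ζ i * ζ j =
      ∑ k, Car.fx e a Θ k x * ∑ i, ∑ j, Car.dd (e k) (a i j) x * ζ i * ζ j := by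
    simp only [Finset.mul_sum _ _ (Car.fx e a Θ _ x)]
    rw [hu, Finset.sum_comm (f := fun k i => ∑ j, Car.fx e a Θ k x * _)]
    refine Finset.sum_congr rfl fun i _ => ?_
    rw [Finset.sum_comm]
    refine Finset.sum_congr rfl fun j _ => ?_
    rw [eh1b_lin, Finset.sum_mul, Finset.sum_mul]
    exact Finset.sum_congr rfl fun k _ => by simp only [Car.fx, smul_eq_mul]; ring
  simp only [Car.LL, h3, h4, h5, h6, Finset.sum_add_distrib]
  ring

end abs

omit [NeZero n] in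
theorem eh1b_vec (a c : V n) : (a, c) = ∑ i, a i • e1 i + ∑ i, c i • e2 i := by
  ext k <;> simp [e1, e2, ee, Prod.fst_sum, Prod.snd_sum, Pi.single_apply]

omit [NeZero n] in
theorem eh1b_f1 {f : V n → ℝ} (hf : DifferentiableAt ℝ f p.1) (a c : V n) :
    Car.dd (a, c) (fun q : V n × V n => f q.1) p = ∑ i, a i * pr i f p.1 := by
  have := (hf.hasFDerivAt.comp p hasFDerivAt_fst).fderiv
  rw [Car.dd, show (fun q : V n × V n => f q.1) = f ∘ Prod.fst from rfl, this]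
  have h : a = ∑ i, a i • ee i := by ext k; simp [ee, Pi.single_apply]
  conv_lhs => rw [h]
  simp [pr]

omit [NeZero n] in
theorem eh1b_f2 {f : V n → ℝ} (hf : DifferentiableAt ℝ f p.2) (a c : V n) :
    Car.dd (a, c) (fun q : V n × V n => f q.2) p = ∑ i, c i * pr i f p.2 := by
  have := (hf.hasFDerivAt.comp p hasFDerivAt_snd).fderiv
  rw [Car.dd, show (fun q : V n × V n => f q.2) = f ∘ Prod.snd from rfl, this]
  have h : c = ∑ i, c i • ee i := by ext k; simp [ee, Pi.single_apply]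
  conv_lhs => rw [h]
  simp [pr]

omit [NeZero n] in
theorem eh1b_gv (g : Mf n) (x w ξ : V n) : ∑ i, gv g x ξ i * w i = ip g x w ξ := by
  simp only [gv, ip, Finset.sum_mul]
  exact Finset.sum_congr rfl fun i _ => Finset.sum_congr rfl fun k _ => by ring

omit [NeZero n] in
theorem eh1b_ip (g : Mf n) (x w ξ : V n) (c d : ℝ) : ip g x (c • w) (d • ξ) = c * d * ip g x w ξ := by
  simp only [ip, Finset.mul_sum, PiLp.smul_apply, smul_eq_mul]
  exact Finset.sum_congr rfl fun i _ => Finset.sum_congr rfl fun k _ => by ring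

omit [NeZero n] in
theorem eh1b_b1 {x : V n} (hs : ∀ j k, g j k x = g k j x) (a θ ξ : V n) (α L : ℝ) :
    ∑ k, ∑ l, (α * g k l x + L * ∑ i, a i * pr i (g k l) x) * θ l * ξ k = α * ip g x θ ξ +
      ∑ i, ∑ k, ∑ l, a i * pr i (g k l) x * θ l * (L • ξ) k := by
  simp only [add_mul, Finset.sum_add_distrib]
  congr 1
  · simp only [ip, Finset.mul_sum]
    rw [Finset.sum_comm]
    exact Finset.sum_congr rfl fun i _ => Finset.sum_congr rfl fun k _ => by rw [hs]; ring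
  · rw [Finset.sum_comm (f := fun i k => ∑ l, a i * pr i (g k l) x * θ l * (L • ξ) k)]
    refine Finset.sum_congr rfl fun k _ => ?_
    rw [Finset.sum_comm (f := fun i l => a i * pr i (g k l) x * θ l * (L • ξ) k)]
    refine Finset.sum_congr rfl fun l _ => ?_
    simp only [Finset.mul_sum, Finset.sum_mul, PiLp.smul_apply, smul_eq_mul]
    exact Finset.sum_congr rfl fun i _ => by ring

omit [NeZero n] in
theorem eh1b_b2 (x a ξ : V n) (α L : ℝ) :
    ∑ j, ∑ k, (α * g j k x + L * ∑ i, (L • a) i * pr i (g j k) x) * ξ j * ξ k = α * ip g x ξ ξ +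
      ∑ i, ∑ j, ∑ k, a i * pr i (g j k) x * (L • ξ) j * (L • ξ) k := by
  simp only [add_mul, Finset.sum_add_distrib]
  congr 1
  · simp only [ip, Finset.mul_sum]
    exact Finset.sum_congr rfl fun i _ => Finset.sum_congr rfl fun k _ => by ring
  · rw [Finset.sum_comm (f := fun i j => ∑ k, a i * pr i (g j k) x * (L • ξ) j * (L • ξ) k)]
    refine Finset.sum_congr rfl fun j _ => ?_
    rw [Finset.sum_comm (f := fun i k => a i * pr i (g j k) x * (L • ξ) j * (L • ξ) k)]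
    refine Finset.sum_congr rfl fun k _ => ?_
    simp only [Finset.mul_sum, Finset.sum_mul, PiLp.smul_apply, smul_eq_mul]
    exact Finset.sum_congr rfl fun i _ => by ring

theorem eh1b_d (h : Cx P g g' M J p r C δ t) (hμ : 0 < 1 + P.mu g g' p) :
    Car.SA (P.dt g g' M J).l1 p ∧ Car.SA (P.dt g g' M J).l2 p ∧ ∀ a c : V n,
      Car.dd (a, c) (P.dt g g' M J).l1 p = (P.dt g g' M J).l1 p *
        (2 * ∑ i, a i * P.w p.1 i + Car.dd (a, c) (P.mu g g') p / (1 + P.mu g g' p)) ∧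
      Car.dd (a, c) (P.dt g g' M J).l2 p = (P.dt g g' M J).l2 p * (2 * ∑ i, c i * P.w p.2 i) := by
  have s1 : Car.SA (fun q => 2 * P.b1 q) p := contDiffAt_const.mul h.geo.s1
  have s2 : Car.SA (fun q => 2 * P.b2 q) p := contDiffAt_const.mul h.geo.s2
  have s3 : Car.SA (fun q => 1 + P.mu g g' q) p := contDiffAt_const.add h.geo.sμ
  have f1 : DifferentiableAt ℝ (fun y => Real.log (P.b y)) p.1 :=
    DifferentiableAt.comp (g := P.b1) (f := fun y => (y, p.2)) p.1 h.geo.s1.df (by fun_prop)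
  have f2 : DifferentiableAt ℝ (fun y => Real.log (P.b y)) p.2 :=
    DifferentiableAt.comp (g := P.b2) (f := fun y => (p.1, y)) p.2 h.geo.s2.df (by fun_prop)
  refine ⟨s3.mul s1.exp, s2.exp, fun a c => ⟨?_, ?_⟩⟩
  · show Car.dd (a, c) (fun q => (1 + P.mu g g' q) * Real.exp (2 * P.b1 q)) p =
      (1 + P.mu g g' p) * Real.exp (2 * P.b1 p) * _
    rw [Car.dd_mul s3 s1.exp, Car.dd_exp s1, Car.dd_cmul _ h.geo.s1,
      Car.dd_add contDiffAt_const h.geo.sμ, Car.dd_const]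
    have := eh1b_f1 f1 a c
    rw [show Car.dd (a, c) P.b1 p = ∑ i, a i * P.w p.1 i from this]
    field_simp
    ring
  · show Car.dd (a, c) (fun q => Real.exp (2 * P.b2 q)) p = Real.exp (2 * P.b2 p) * _
    rw [Car.dd_exp s2, Car.dd_cmul _ h.geo.s2]
    have := eh1b_f2 f2 a c
    rw [show Car.dd (a, c) P.b2 p = ∑ i, c i * P.w p.2 i from this]

/-- Hint: compare `pa_LL` of PA. `LL G (fx G Θ) ζ = 2 Θ''(Gζ, Gζ) + 2 (Gζ)^i d_i G (Θ', ζ) -
(G Θ')^l d_l G (ζ, ζ)`, `G ζ = (gv g ξ', gv g' η')`, `d l1 = l1 (2 d b1 + d μ / (1 + μ))`,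
`d l2 = 2 l2 d b2`, `l2 / l1 = n1 / n2` by `Cx.null`; `P.w p.1 j = dd (e1 j) b1 p`. -/
theorem eh1b (h : Cx P g g' M J p r C δ t) (hμ : 0 < 1 + P.mu g g' p) (ξ η ξ' η' : V n)
    (h1 : ξ' = (P.dt g g' M J).l1 p • ξ) (h2 : η' = -(P.dt g g' M J).l2 p • η) :
    Car.LL (P.dt g g' M J).es (P.dt g g' M J).G (P.X0 g g' M J) p (Sum.elim ξ.ofLp η.ofLp) =
      2 * (Lev g g' (P.Th g') p (P.w p.1) (P.w p.2) ξ' η' + P.Ex g g' p ξ' η') := by
  obtain ⟨s1, s2, hd⟩ := eh1b_d h hμ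
  obtain ⟨sa1, sa2, -⟩ := h.a
  have hn := h.null
  have n2 : P.n2 g' p ≠ 0 := fun e => by have := h.geo.n2l; rw [e] at this; linarith
  set D := P.dt g g' M J with hD
  have hθ := eb_dd h.geo.sm.df
  have dg : ∀ (a c : V n) k l, Car.dd (a, c) (D.G (.inl k) (.inl l)) p =
      Car.dd (a, c) D.l1 p * g k l p.1 + D.l1 p * ∑ i, a i * pr i (g k l) p.1 := fun a c k l => by
    rw [← eh1b_f1 ((h.sg k l).differentiable (by simp) _) a c]
    exact Car.dd_mul s1 (sa1 k l) _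
  have dg' : ∀ (a c : V n) k l, Car.dd (a, c) (D.G (.inr k) (.inr l)) p =
      -Car.dd (a, c) D.l2 p * g' k l p.2 + -D.l2 p * ∑ i, c i * pr i (g' k l) p.2 :=
    fun a c k l => by
    rw [← eh1b_f2 ((h.sg' k l).differentiable (by simp) _) a c]
    have := Car.dd_cmul (-1) (s2.mul (sa2 k l)) (a, c)
    rw [Car.dd_mul s2 (sa2 k l)] at this
    simp only [neg_mul, one_mul] at this ⊢
    rw [← neg_add]
    exact this
  have d0 : ∀ (w : V n × V n) k l, Car.dd w (D.G (.inl k) (.inr l)) p = 0 ∧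
      Car.dd w (D.G (.inr k) (.inl l)) p = 0 := fun w k l => ⟨Car.dd_const _ _ _, Car.dd_const _ _ _⟩
  have key : ∀ a c : V n, (gv g p.1 (D.l1 p • a), gv g' p.2 (-D.l2 p • c)) =
      ∑ i, (∑ j, D.G i j p * Sum.elim a.ofLp c.ofLp j) • D.es i := fun a c => by
    rw [eh1b_vec, Fintype.sum_sum_type]
    congr 1 <;> refine Finset.sum_congr rfl fun i _ => ?_ <;> congr 1 <;>
      simp only [gv, Dt.G, blk, Fintype.sum_sum_type, Sum.elim_inl, Sum.elim_inr, zero_mul,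
        Finset.sum_const_zero, add_zero, zero_add, PiLp.smul_apply, smul_eq_mul] <;>
      exact Finset.sum_congr rfl fun k _ => by simp only [hD, Par.dt, a1, a2]; ring
  have hv := key ξ η
  rw [← h1, ← h2] at hv
  have hu := key (grx (P.Th g') p) (gry (P.Th g') p)
  have eθ : Sum.elim (grx (P.Th g') p).ofLp (gry (P.Th g') p).ofLp =
      fun j => Car.dd (D.es j) (P.Th g') p := by
    funext j
    cases j with
    | inl j => exact (hθ j).1.symm
    | inr j => exact (hθ j).2.symm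
  have gs : ∀ (g : Mf n) (x a : V n) (c : ℝ), gv g x (c • a) = c • gv g x a := fun g x a c => by
    ext i
    simp only [gv, PiLp.smul_apply, smul_eq_mul, Finset.mul_sum]
    exact Finset.sum_congr rfl fun k _ => by ring
  rw [eθ, gs, gs] at hu
  have hμu : Car.dd (D.l1 p • gv g p.1 (grx (P.Th g') p), -D.l2 p • gv g' p.2 (gry (P.Th g') p))
      (P.mu g g') p = D.l1 p * Car.dd (gv g p.1 (grx (P.Th g') p),
        -(P.n1 g g' p / P.n2 g' p) • gv g' p.2 (gry (P.Th g') p)) (P.mu g g') p := by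
    rw [Car.dd, Car.dd, ← smul_eq_mul, ← map_smul, Prod.smul_mk, smul_smul]
    congr 3
    field_simp
    linarith
  have e1' : ∀ l, Car.dd (D.es (.inl l)) (P.Th g') p = grx (P.Th g') p l := fun l => (hθ l).1
  have e2' : ∀ l, Car.dd (D.es (.inr l)) (P.Th g') p = gry (P.Th g') p l := fun l => (hθ l).2
  refine (eh1b_abs (a := D.G) (blk_sa (fun i j => s1.mul (sa1 i j)) fun i j => (s2.mul (sa2 i j)).neg)
    (blk_symm (fun i j => by simp only [hD, Par.dt, a1, h.y i j])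
      fun i j => by simp only [hD, Par.dt, a2, h.y' i j]) h.geo.sm _ hv hu).trans ?_
  simp only [Fintype.sum_sum_type, Sum.elim_inl, Sum.elim_inr, d0, zero_mul, Finset.sum_const_zero,
    add_zero, zero_add, dg, dg', e1', e2']
  rw [eh1b_b1 (fun j k => h.y j k _), eh1b_b1 (fun j k => h.y' j k _), eh1b_b2, eh1b_b2, ← h1, ← h2,
    (hd _ _).1, (hd _ _).2, (hd _ _).1, (hd _ _).2, hμu]
  simp only [PiLp.smul_apply, smul_eq_mul, mul_assoc, ← Finset.mul_sum, eh1b_gv]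
  have i1 := eh1b_ip g p.1 (grx (P.Th g') p) ξ 1 (D.l1 p)
  have i2 := eh1b_ip g' p.2 (gry (P.Th g') p) η 1 (-D.l2 p)
  have i3 := eh1b_ip g p.1 ξ ξ (D.l1 p) (D.l1 p)
  have i4 := eh1b_ip g' p.2 η η (-D.l2 p) (-D.l2 p)
  rw [one_smul, ← h1] at i1
  rw [one_smul, ← h2] at i2
  rw [← h1] at i3
  rw [← h2] at i4
  simp only [Lev, hsT, gau, Par.Ex, mul_assoc, ← Finset.mul_sum, i1, i2, i3, i4]
  ring

end Vale.Agent.P088F
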