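import Vale.Agent.P088F.EB0

/-! P088F, part E: the divergence of the phase field. -/

open MeasureTheory Set Filter Topology
open scoped ContDiff

noncomputable section

namespace Vale.Agent.P088F

open Vale.Agent.P292E Vale.Agent.P088

section abs
variable {E : Type} [NormedAddCommGroup E] [NormedSpace ℝ E] {κ : Type} [Fintype κ]
  {e : κ → E} {a A : κ → κ → E → ℝ} {x : E} {l f h : E → ℝ}

theorem eh1c_fx (hA : ∀ i j y, A i j y = l y * a i j y) (i : κ) :
    Car.fx e A f i = fun y => Car.fx e a f i y * l y := by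
  funext y
  simp only [Car.fx, hA, smul_eq_mul, Finset.sum_mul]
  exact Finset.sum_congr rfl fun j _ => by ring

theorem eh1c_dv (hA : ∀ i j y, A i j y = l y * a i j y) (ha : ∀ i j, Car.SA (a i j) x)
    (hf : Car.SA f x) (hl : Car.SA l x) :
    Car.dv e A f x = Car.dv e a f x * l x + Car.al e (Car.fx e a f) l x := by
  have h := Car.div_pt (e := e) (fun k => Car.sa_fx (e := e) ha hf k) hl
  unfold Car.dv
  simp only [eh1c_fx hA]
  exact h

theorem eh1c_al (hA : ∀ i j y, A i j y = l y * a i j y) :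
    Car.al e (Car.fx e A f) h x = l x * Car.al e (Car.fx e a f) h x := by
  simp only [Car.al, eh1c_fx hA, Finset.mul_sum]
  exact Finset.sum_congr rfl fun j _ => by ring

theorem eh1c_lin {X : κ → E → ℝ} {u v : E → ℝ} {c d : ℝ}
    (H : ∀ k, Car.dd (e k) h x = c * Car.dd (e k) u x + d * Car.dd (e k) v x) :
    Car.al e X h x = c * Car.al e X u x + d * Car.al e X v x := by
  simp only [Car.al, H, Finset.mul_sum, ← Finset.sum_add_distrib]
  exact Finset.sum_congr rfl fun j _ => by ring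

end abs

theorem eh1c_eq {n : ℕ} [NeZero n] {P : Par} {g g' : Mf n} {M : ℝ} {J : ℕ} {p : V n × V n}
    {r C δ t : ℝ} (h : Cx P g g' M J p r C δ t) : P.Dv g g' M J p =
    (P.dt g g' M J).l1 p * (Car.dv e1 (a1 g) (P.Th g') p +
        (2 - n) * Car.al e1 (Car.fx e1 (a1 g) (P.Th g')) P.b1 p) +
      Real.exp (2 * P.b1 p) * Car.al e1 (Car.fx e1 (a1 g) (P.Th g')) (P.mu g g') p -
      (P.dt g g' M J).l2 p * (Car.dv e2 (a2 g') (P.Th g') p +
        (2 - n) * Car.al e2 (Car.fx e2 (a2 g') (P.Th g')) P.b2 p) := by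
  obtain ⟨sa1, sa2, -⟩ := h.a
  have s1 := h.geo.s1
  have s2 := h.geo.s2
  have c1 : Car.SA (fun q : V n × V n => 2 * P.b1 q) p := contDiffAt_const.mul s1
  have c2 : Car.SA (fun q : V n × V n => 2 * P.b2 q) p := contDiffAt_const.mul s2
  have m1 : Car.SA (fun q : V n × V n => 1 + P.mu g g' q) p := contDiffAt_const.add h.geo.sμ
  have z1 (j : Fin n) : Car.dd (e1 j) (P.b2 : V n × V n → ℝ) p = 0 :=
    congrFun (eb_dd12 (f := fun x : V n => Real.log (P.b x)) j).2 p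
  have z2 (j : Fin n) : Car.dd (e2 j) (P.b1 : V n × V n → ℝ) p = 0 :=
    congrFun (eb_dd12 (f := fun x : V n => Real.log (P.b x)) j).1 p
  have hA1 : ∀ i j y, (fun i j y => (P.dt g g' M J).l1 y * a1 g i j y) i j y =
      (fun q => (1 + P.mu g g' q) * Real.exp (2 * P.b1 q)) y * a1 g i j y := fun _ _ _ => rfl
  have hA2 : ∀ i j y, (fun i j y => -((P.dt g g' M J).l2 y * a2 g' i j y)) i j y =
      (fun q => -1 * Real.exp (2 * P.b2 q)) y * a2 g' i j y := fun _ _ y => by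
    show -(Real.exp (2 * P.b2 y) * _) = _
    ring
  have d1 := eh1c_dv (e := e1) (f := P.Th g') hA1 sa1 h.geo.sm (m1.mul c1.exp)
  have d2 := eh1c_dv (e := e2) (f := P.Th g') hA2 sa2 h.geo.sm (contDiffAt_const.mul c2.exp)
  have w1 := eh1c_al (e := e1) (f := P.Th g') (h := fun q => -n * (P.b1 q + P.b2 q)) (x := p) hA1
  have w2 := eh1c_al (e := e2) (f := P.Th g') (h := fun q => -n * (P.b1 q + P.b2 q)) (x := p) hA2
  have u1 := eh1c_lin (e := e1) (X := Car.fx e1 (a1 g) (P.Th g')) (x := p)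
    (h := fun q => (1 + P.mu g g' q) * Real.exp (2 * P.b1 q)) (u := P.mu g g') (v := P.b1)
    (c := Real.exp (2 * P.b1 p)) (d := 2 * ((1 + P.mu g g' p) * Real.exp (2 * P.b1 p)))
    fun k => by
      rw [Car.dd_mul m1 c1.exp, Car.dd_add contDiffAt_const h.geo.sμ, Car.dd_const,
        Car.dd_exp c1, Car.dd_cmul 2 s1]
      ring
  have u2 := eh1c_lin (e := e2) (X := Car.fx e2 (a2 g') (P.Th g')) (x := p)
    (h := fun q => -1 * Real.exp (2 * P.b2 q)) (u := P.b2) (v := P.b2)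
    (c := 0) (d := -2 * Real.exp (2 * P.b2 p)) fun k => by
      rw [Car.dd_cmul (-1) c2.exp, Car.dd_exp c2, Car.dd_cmul 2 s2]
      ring
  have v1 := eh1c_lin (e := e1) (X := Car.fx e1 (a1 g) (P.Th g')) (x := p)
    (h := fun q => -n * (P.b1 q + P.b2 q)) (u := P.b1) (v := P.b1) (c := 0) (d := -n)
    fun k => by
      rw [Car.dd_cmul _ (s1.add s2), Car.dd_add s1 s2, z1]
      ring
  have v2 := eh1c_lin (e := e2) (X := Car.fx e2 (a2 g') (P.Th g')) (x := p)
    (h := fun q => -n * (P.b1 q + P.b2 q)) (u := P.b2) (v := P.b2) (c := 0) (d := -n)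
    fun k => by
      rw [Car.dd_cmul _ (s1.add s2), Car.dd_add s1 s2, z2]
      ring
  have e0 : P.Dv g g' M J p =
      (Car.dv e1 (fun i j y => (P.dt g g' M J).l1 y * a1 g i j y) (P.Th g') p +
        Car.dv e2 (fun i j y => -((P.dt g g' M J).l2 y * a2 g' i j y)) (P.Th g') p) +
      (Car.al e1 (Car.fx e1 (fun i j y => (P.dt g g' M J).l1 y * a1 g i j y) (P.Th g'))
          (fun q => -n * (P.b1 q + P.b2 q)) p +
        Car.al e2 (Car.fx e2 (fun i j y => -((P.dt g g' M J).l2 y * a2 g' i j y)) (P.Th g'))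
          (fun q => -n * (P.b1 q + P.b2 q)) p) := by
    rw [← dv_blk]
    unfold Par.Dv
    congr 1
    refine (al_elim _ _).trans ?_
    congr 2
    · exact funext fun i => fx_blk_l _ i
    · exact funext fun i => fx_blk_r _ i
  rw [e0, d1, d2, w1, w2, u1, u2, v1, v2]
  show _ = (1 + P.mu g g' p) * Real.exp (2 * P.b1 p) * _ + _ - Real.exp (2 * P.b2 p) * _
  ring

/-- `Dv = l1 (dv e1 a1 Θ + (2-n) al (fx Θ) b1) + exp (2 b1) al e1 (fx Θ) μ -
l2 (dv e2 a2 Θ + (2-n) al (fx Θ) b2)`. -/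
theorem eh1c (n : ℕ) [NeZero n] (C : ℝ) : ∃ K t₀ : ℝ, 0 < K ∧ 0 < t₀ ∧ ∀ (P : Par) (g g' : Mf n)
    (M : ℝ) (J : ℕ) (p : V n × V n) (r δ t : ℝ), t ≤ t₀ → Cx P g g' M J p r C δ t →
    |P.Dv g g' M J p| ≤ K * δ * (P.dt g g' M J).l2 p / r := by
  refine ⟨3 + 4 * n ^ 2 * |C|, 1 / (10 * (|C| + 1)), by positivity, by positivity,
    fun P g g' M J p r δ t ht h => ?_⟩
  have C1 := h.C1
  have t0 : 0 < t := h.δ0.trans_le h.δt
  rw [abs_of_pos (by linarith : 0 < C)] at ht ⊢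
  rw [le_div_iff₀ (by positivity)] at ht
  have δ1 : δ ≤ 1 := by nlinarith [h.δt]
  obtain ⟨-, l10, l20, -, -, l12, x12, -⟩ := h.l12 (by nlinarith)
  have b1 : ∀ i, |Car.fx e1 (a1 g) (P.Th g') i p| ≤ Fintype.card (Fin n) * 2 * (C / r) :=
    eb_fx (h.a.2.2.2.2 δ1).1 h.geo.d1
  have b2 := eb_al b1 h.geo.μ1
  rw [Fintype.card_fin] at b2
  have h1 := h.geo.h1
  have h2 := h.geo.h2
  have hn := h.null
  rw [eh1c_eq h]
  generalize Car.dv e1 (a1 g) (P.Th g') p +
    (2 - n) * Car.al e1 (Car.fx e1 (a1 g) (P.Th g')) P.b1 p = A₁ at h1 ⊢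
  generalize Car.dv e2 (a2 g') (P.Th g') p +
    (2 - n) * Car.al e2 (Car.fx e2 (a2 g') (P.Th g')) P.b2 p = A₂ at h2 ⊢
  generalize Car.al e1 (Car.fx e1 (a1 g) (P.Th g')) (P.mu g g') p = A₃ at b2 ⊢
  have x0 := Real.exp_pos (2 * P.b1 p)
  generalize Real.exp (2 * P.b1 p) = y at x0 x12 ⊢
  generalize (P.dt g g' M J).l1 p = l₁ at *
  generalize (P.dt g g' M J).l2 p = l₂ at *
  generalize P.n1 g g' p = n₁ at *
  generalize P.n2 g' p = n₂ at *
  have e : l₁ * A₁ + y * A₃ - l₂ * A₂ =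
      l₁ * (A₁ - (n - 2) / 2 * n₁) + y * A₃ - l₂ * (A₂ - (n - 2) / 2 * n₂) := by
    linear_combination ((n : ℝ) - 2) / 2 * hn
  rw [e]
  refine (abs_sub _ _).trans ((add_le_add_left (abs_add_le _ _) _).trans ?_)
  rw [abs_mul, abs_mul, abs_mul, abs_of_pos l10, abs_of_pos l20, abs_of_pos x0]
  calc _ ≤ 2 * l₂ * (δ / r) + 2 * l₂ * (n * (n * 2 * (C / r)) * δ) + l₂ * (δ / r) := by gcongr
    _ = _ := by ring

end Vale.Agent.P088F
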