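import Vale.Agent.P088F.Defs

/-! P088F part Q: definitions and contracts for the pointwise positivity. -/

open scoped ContDiff Topology RealInnerProductSpace
open Set Filter Metric

noncomputable section

namespace Vale.Agent.P088F

open Vale.Agent.P292E

variable {n : ℕ}

/-- a matrix field at a point as a linear map -/
def gl (g : Mf n) (x : V n) : V n →ₗ[ℝ] V n where
  toFun := gv g x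
  map_add' u v := by
    ext j; simp [gv, mul_add, Finset.sum_add_distrib]
  map_smul' t u := by
    ext j; simp [gv, Finset.mul_sum, mul_left_comm]

theorem gl_apply (g : Mf n) (x v : V n) (j : Fin n) : gl g x v j = ∑ k, g j k x * v k := rfl

theorem gv_gl (g : Mf n) (x v : V n) : gv g x v = gl g x v := rfl

theorem inner_sum' (u v : V n) : ⟪u, v⟫ = ∑ j, u j * v j := by
  simp [PiLp.inner_apply, mul_comm]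

theorem ip_gl (g : Mf n) (x u v : V n) : ip g x u v = ⟪u, gl g x v⟫ := by
  rw [inner_sum']
  simp only [ip, gl_apply, Finset.mul_sum]
  exact Finset.sum_congr rfl fun j _ => Finset.sum_congr rfl fun k _ => by ring

theorem gl_symm {g : Mf n} {x : V n} (h : ∀ j k, g j k x = g k j x) (u v : V n) :
    ⟪gl g x u, v⟫ = ⟪u, gl g x v⟫ := by
  rw [real_inner_comm, ← ip_gl, ← ip_gl]
  unfold ip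
  rw [Finset.sum_comm]
  exact Finset.sum_congr rfl fun j _ => Finset.sum_congr rfl fun k _ => by rw [h k j]; ring

theorem gl_le {g : Mf n} {x : V n} {s : ℝ} (h : ∀ j k, |g j k x| ≤ s) (v : V n) :
    ‖gl g x v‖ ≤ n * s * ‖v‖ := by
  rcases Nat.eq_zero_or_pos n with rfl | hn
  · simp [Subsingleton.elim (gl g x v) 0]
  have hs : 0 ≤ s := (abs_nonneg _).trans (h ⟨0, hn⟩ ⟨0, hn⟩)
  have h1 : ∀ j, (gl g x v j) ^ 2 ≤ n * s ^ 2 * ‖v‖ ^ 2 := fun j => by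
    rw [gl_apply, EuclideanSpace.real_norm_sq_eq]
    refine (Finset.sum_mul_sq_le_sq_mul_sq _ _ _).trans ?_
    refine mul_le_mul_of_nonneg_right ?_ (Finset.sum_nonneg fun _ _ => sq_nonneg _)
    calc ∑ k, g j k x ^ 2 ≤ ∑ _k : Fin n, s ^ 2 :=
          Finset.sum_le_sum fun k _ => sq_le_sq' (abs_le.1 (h j k)).1 (abs_le.1 (h j k)).2
      _ = _ := by simp
  refine abs_le_of_sq_le_sq' ?_ (by positivity) |>.2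
  rw [EuclideanSpace.real_norm_sq_eq]
  calc ∑ j, gl g x v j ^ 2 ≤ ∑ _j : Fin n, n * s ^ 2 * ‖v‖ ^ 2 := Finset.sum_le_sum fun j _ => h1 j
    _ = _ := by simp; ring

theorem gl_close {g g' : Mf n} {x y : V n} {s : ℝ} (h : ∀ j k, |g j k x - g' j k y| ≤ s) (v : V n) :
    ‖gl g x v - gl g' y v‖ ≤ n * s * ‖v‖ := by
  have := gl_le (g := fun j k _ => g j k x - g' j k y) (x := x) h v
  convert this using 2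
  ext j; simp [gl_apply, sub_mul, Finset.sum_sub_distrib]

theorem ip_le {g : Mf n} {x : V n} {s : ℝ} (h : ∀ j k, |g j k x| ≤ s) (u v : V n) :
    |ip g x u v| ≤ n * s * ‖u‖ * ‖v‖ := by
  rw [ip_gl]
  calc _ ≤ ‖u‖ * ‖gl g x v‖ := abs_real_inner_le_norm _ _
    _ ≤ ‖u‖ * (n * s * ‖v‖) := mul_le_mul_of_nonneg_left (gl_le h v) (norm_nonneg _)
    _ = _ := by ring

/-- the inverse field -/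
def hm (g : Mf n) : Mf n := fun j k x => (Matrix.of fun j k => g j k x)⁻¹ j k

/-- first directional derivative of a field -/
def dg (g : Mf n) (u : V n) : Mf n := fun j k x => fderiv ℝ (g j k) x u

/-- second directional derivative of a field -/
def dg2 (g : Mf n) (u : V n) : Mf n := fun j k x => fderiv ℝ (fderiv ℝ (g j k)) x u u

/-- the Hessian of the logarithm of the scale as a quadratic form -/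
def sS (κ N : ℝ) (e v : V n) : ℝ := N * κ * (2 * ‖v‖ ^ 2 - 8 * ⟪e, v⟫ ^ 2)

/-- the Hessian of the logarithm of the scale as a map -/
def sv (κ N : ℝ) (e z : V n) : V n := (N * κ) • ((2 : ℝ) • z - (8 * ⟪e, z⟫) • e)

/-- the gradient of the logarithm of the scale -/
def pv (κ N : ℝ) (e x : V n) : V n := N • e + sv κ N e x

/-- the zero order part of the gradient of the logarithm of the quadratic form -/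
def Ev (h : Mf n) (m z : V n) : V n :=
  WithLp.toLp 2 fun i => ip (dg h (ee i)) m z z / (2 * ip h m z z)

/-- a symmetric map close to the identity and its inverse -/
structure GH (G H : V n →ₗ[ℝ] V n) (δ : ℝ) : Prop where
  sG : ∀ u v, ⟪G u, v⟫ = ⟪u, G v⟫
  sH : ∀ u v, ⟪H u, v⟫ = ⟪u, H v⟫
  gh : ∀ v, G (H v) = v
  hg : ∀ v, H (G v) = v
  nG : ∀ v, ‖G v - v‖ ≤ δ * ‖v‖
  nH : ∀ v, ‖H v - v‖ ≤ δ * ‖v‖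

/-- a symmetric map close to `G` -/
structure CG (A G : V n →ₗ[ℝ] V n) (s : ℝ) : Prop where
  sA : ∀ u v, ⟪A u, v⟫ = ⟪u, A v⟫
  cl : ∀ v, ‖A v - G v‖ ≤ s * ‖v‖

variable (n)

/-- the flat inequality -/
def QAlg : Prop :=
  ∃ κ₀ A : ℝ, 0 < κ₀ ∧ 1 ≤ A ∧ ∀ κ δ μ N r : ℝ, 0 < κ → κ ≤ κ₀ → 0 ≤ δ → 0 ≤ μ → A * δ ≤ 1 →
    A * μ ≤ 1 → 1 ≤ N → 0 < r → r * N ^ 2 ≤ δ → ∀ o e a W P Q c P' X Y : V n, ‖o‖ = 1 →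
    |‖e‖ ^ 2 - 1| ≤ 1 / 100 → ‖P - N • e‖ ≤ 30 * κ * N → ‖Q - sv κ N e o‖ ≤ δ * N →
    c = a + r • W → P' = P + r • Q → X = -((2 / r) • o) - P → Y = (2 / r) • o - P' →
      3 / 4 * κ * N * ((‖a‖ ^ 2 - ⟪o, a⟫ ^ 2) + (‖c‖ ^ 2 - ⟪o, c⟫ ^ 2)) -
          2 * (⟪X, a⟫ + ⟪Y, c⟫) ^ 2 + μ * ‖W‖ ^ 2 / N - A * (μ + δ) * N * ‖a‖ ^ 2 ≤
        2 * ‖W‖ ^ 2 - 4 * ⟪o, W⟫ ^ 2 - sS κ N e a - sS κ N e c +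
          (2 * ⟪P, a⟫ * ⟪X, a⟫ - ⟪P, X⟫ * ‖a‖ ^ 2) + (2 * ⟪P', c⟫ * ⟪Y, c⟫ - ⟪P', Y⟫ * ‖c‖ ^ 2)

/-- the inequality for a frozen metric -/
def QAlgH : Prop :=
  ∃ κ₀ A : ℝ, 0 < κ₀ ∧ κ₀ ≤ 1 / 100 ∧ 1 ≤ A ∧ ∀ κ δ μ N ρ : ℝ, 0 < κ → κ ≤ κ₀ → 0 ≤ δ → 0 ≤ μ →
    A * δ ≤ 1 → A * μ ≤ 1 → 1 ≤ N → 0 < ρ → ρ * N ^ 2 ≤ δ → ∀ G H : V n →ₗ[ℝ] V n, GH G H δ →
    ∀ (z e x a c w p p' X Y : V n) (q : ℝ), ‖z‖ = ρ → ‖e‖ = 1 → ‖x‖ ≤ 2 → q = ⟪z, H z⟫ →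
    w = c - a → p = pv κ N e x → p' = pv κ N e (x + z) → X = -((2 / q) • H z) - p →
    Y = (2 / q) • H z - p' →
      3 / 4 * κ * N * ((⟪a, H a⟫ - ⟪z, H a⟫ ^ 2 / q) + (⟪c, H c⟫ - ⟪z, H c⟫ ^ 2 / q)) -
          2 * (⟪X, a⟫ + ⟪Y, c⟫) ^ 2 + μ * ‖w‖ ^ 2 / (N * ρ ^ 2) - A * (μ + δ) * N * ‖a‖ ^ 2 ≤
        2 * ⟪w, H w⟫ / q - (2 * ⟪z, H w⟫ / q) ^ 2 - sS κ N e a - sS κ N e c +
          (2 * ⟪p, a⟫ * ⟪X, a⟫ - ⟪p, G X⟫ * ⟪a, H a⟫) +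
          (2 * ⟪p', c⟫ * ⟪Y, c⟫ - ⟪p', G Y⟫ * ⟪c, H c⟫)

/-- the error in the gauge term -/
def QGau : Prop :=
  ∀ δ N ρ : ℝ, 0 ≤ δ → δ ≤ 1 / 2 → 1 ≤ N → 0 < ρ → ρ ≤ 1 → ∀ A G H : V n →ₗ[ℝ] V n, GH G H δ →
    CG A G (δ * ρ) → ∀ p X E ξ : V n, ‖p‖ ≤ 2 * N → ‖X‖ ≤ 8 / ρ → ‖E‖ ≤ δ →
      |(2 * ⟪p, A ξ⟫ * ⟪X + E, A ξ⟫ - ⟪p, A (X + E)⟫ * ⟪ξ, A ξ⟫) -
        (2 * ⟪p, A ξ⟫ * ⟪X, A ξ⟫ - ⟪p, G X⟫ * ⟪A ξ, H (A ξ)⟫)| ≤ 200 * δ * N * ‖ξ‖ ^ 2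

/-- the orthogonal part -/
def QPerp : Prop :=
  ∀ δ N ρ s q : ℝ, 0 ≤ δ → δ ≤ 1 / 100 → 1 ≤ N → 0 < ρ → ρ ≤ 1 → s ^ 2 = 1 →
    ∀ A G H : V n →ₗ[ℝ] V n, GH G H δ → CG A G (δ * ρ) → ∀ z F ξ ϖ : V n, ‖z‖ = ρ →
    q = ⟪z, H z⟫ → ‖F‖ ≤ 3 * N → ϖ = (s * (2 / q)) • H z + F →
      ⟪ξ, A ξ⟫ - ⟪ϖ, A ξ⟫ ^ 2 / ⟪ϖ, A ϖ⟫ ≤
        3 * (⟪A ξ, H (A ξ)⟫ - ⟪z, H (A ξ)⟫ ^ 2 / q) + 50 * (ρ * N) ^ 2 * ‖ξ‖ ^ 2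

/-- the abstract form of the positivity -/
def QAbs : Prop :=
  ∃ κ₀ : ℝ, 0 < κ₀ ∧ κ₀ ≤ 1 / 100 ∧ ∀ κ, 0 < κ → κ ≤ κ₀ → ∀ η, 0 < η → ∃ δ η' : ℝ, 0 < δ ∧
    δ ≤ 1 / 100 ∧ 0 < η' ∧ ∀ N ρ : ℝ, 1 ≤ N → 0 < ρ → ρ * N ^ 2 ≤ δ →
    ∀ A A' G H : V n →ₗ[ℝ] V n, GH G H δ → CG A G (δ * ρ) → CG A' G (δ * ρ) →
    ∀ (z e x ξ ζ E w p p' ϖ ϖ' : V n) (q T : ℝ), ‖z‖ = ρ → ‖e‖ = 1 → ‖x‖ ≤ 2 → q = ⟪z, H z⟫ →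
    ‖E‖ ≤ δ → w = A' ζ - A ξ → p = pv κ N e x → p' = pv κ N e (x + z) →
    ϖ = -((2 / q) • H z) + E - p → ϖ' = (2 / q) • H z + E - p' →
    |T| ≤ δ * (‖w‖ ^ 2 / (N * ρ ^ 2) + N * (‖ξ‖ ^ 2 + ‖ζ‖ ^ 2)) →
      κ * N / 4 * ((⟪ξ, A ξ⟫ - ⟪ϖ, A ξ⟫ ^ 2 / ⟪ϖ, A ϖ⟫) +
          (⟪ζ, A' ζ⟫ - ⟪ϖ', A' ζ⟫ ^ 2 / ⟪ϖ', A' ϖ'⟫)) -
        η * κ * N * (‖ξ‖ ^ 2 + ‖ζ‖ ^ 2) - 4 * (⟪ϖ, A ξ⟫ + ⟪ϖ', A' ζ⟫) ^ 2 +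
        η' / (N * ρ ^ 2) * ‖w‖ ^ 2 ≤
      2 * ⟪w, H w⟫ / q - (2 * ⟪z, H w⟫ / q + ⟪E, A ξ + A' ζ⟫) ^ 2 - sS κ N e (A ξ) -
        sS κ N e (A' ζ) + T + (2 * ⟪p, A ξ⟫ * ⟪ϖ, A ξ⟫ - ⟪p, A ϖ⟫ * ⟪ξ, A ξ⟫) +
        (2 * ⟪p', A' ζ⟫ * ⟪ϖ', A' ζ⟫ - ⟪p', A' ϖ'⟫ * ⟪ζ, A' ζ⟫)

/-- the inverse field -/
def QInv : Prop :=
  ∃ ε₀ C : ℝ, 0 < ε₀ ∧ 1 ≤ C ∧ ∀ (ε : ℝ) (g : Mf n), 0 < ε → ε ≤ ε₀ →
    (∀ j k, ContDiff ℝ ∞ (g j k)) → (∀ j k x, g j k x = g k j x) →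
    (∀ j k, Bd 3 (fun x => g j k x - if j = k then 1 else 0) univ ε) →
      (∀ j k, ContDiff ℝ ∞ (hm g j k)) ∧ (∀ j k x, hm g j k x = hm g k j x) ∧
      (∀ x, GH (gl g x) (gl (hm g) x) (C * ε)) ∧
      (∀ x u z w, |ip (dg (hm g) u) x z w| ≤ C * ε * ‖u‖ * ‖z‖ * ‖w‖) ∧
      ∀ x u z, |ip (dg2 (hm g) u) x z z| ≤ C * ε * ‖u‖ ^ 2 * ‖z‖ ^ 2

/-- bounds for the entries -/
def QEnt : Prop :=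
  ∀ (ε c ρ : ℝ) (f f' : V n → ℝ) (t : ℝ) (x y : V n), ε ≤ 1 → |t| ≤ 1 → ContDiff ℝ ∞ f →
    ContDiff ℝ ∞ f' → Bd 3 (fun x => f x - t) univ ε → Bd 3 (fun x => f' x - t) univ ε →
    (∀ i ≤ 3, ‖iteratedFDeriv ℝ i (fun y => f y - f' y) x‖ ≤ c * ρ) → ‖y - x‖ ≤ ρ →
      |f x| ≤ 2 ∧ |f' y| ≤ 2 ∧ |f x - f' y| ≤ (ε + c) * ρ ∧
      ∀ i, |pr i f x| ≤ ε ∧ |pr i f' y| ≤ ε ∧ |pr i f x - pr i f' y| ≤ (ε + c) * ρ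

/-- cancellation of the connection terms -/
def QHs : Prop :=
  ∃ C : ℝ, 1 ≤ C ∧ ∀ (δ N ρ : ℝ) (g g' : Mf n) (x y Z F F' ξ ζ : V n), 0 ≤ δ → δ ≤ 1 → 1 ≤ N →
    0 < ρ → (∀ j k, |g j k x| ≤ 2 ∧ |g' j k y| ≤ 2 ∧ |g j k x - g' j k y| ≤ δ * ρ ∧
      ∀ i, |pr i (g j k) x| ≤ δ ∧ |pr i (g' j k) y| ≤ δ ∧
        |pr i (g j k) x - pr i (g' j k) y| ≤ δ * ρ) →
    ‖Z‖ ≤ 6 / ρ → ‖F‖ ≤ 3 * N → ‖F'‖ ≤ 3 * N →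
      |hsT g x (-Z + F) ξ + hsT g' y (Z + F') ζ| ≤
        C * δ * (‖ζ - ξ‖ / ρ * (‖ξ‖ + ‖ζ‖) + N * (‖ξ‖ ^ 2 + ‖ζ‖ ^ 2))

/-- formulas for the derivatives of the phase -/
def QCalc [NeZero n] : Prop :=
  ∀ (P : Par) (g : Mf n) (p : V n × V n) (m z : V n) (q : ℝ), 0 < P.B →
    (∀ j k, ContDiff ℝ ∞ (hm g j k)) → (∀ j k x, hm g j k x = hm g k j x) →
    m = (1 / 2 : ℝ) • (p.1 + p.2) → z = p.2 - p.1 → q = ip (hm g) m z z → 0 < q →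
      (∀ x : V n, P.w x = pv P.κ P.N (ee 0) x) ∧
      grx (P.Th g) p = -((2 / q) • gl (hm g) m z) + Ev (hm g) m z - pv P.κ P.N (ee 0) p.1 ∧
      gry (P.Th g) p = (2 / q) • gl (hm g) m z + Ev (hm g) m z - pv P.κ P.N (ee 0) p.2 ∧
      ∀ a c u w : V n, u = (1 / 2 : ℝ) • (a + c) → w = c - a →
        fderiv ℝ (fderiv ℝ (P.Th g)) p (a, c) (a, c) =
          (2 * ip (hm g) m w w + 4 * ip (dg (hm g) u) m z w + ip (dg2 (hm g) u) m z z) / q -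
            (2 * ip (hm g) m z w / q + ⟪Ev (hm g) m z, a + c⟫) ^ 2 -
            sS P.κ P.N (ee 0) a - sS P.κ P.N (ee 0) c

end Vale.Agent.P088F
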