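import Vale.Agent.P088F.EB0
import Vale.Agent.P088F.QDefs

/-! P088F, part E: the extra term. -/

open MeasureTheory Set Filter Topology
open scoped ContDiff

noncomputable section

namespace Vale.Agent.P088F

open Vale.Agent.P292E Vale.Agent.P088

theorem eh1e_nm {n : ℕ} {v : V n} {s : ℝ} (hs : 0 ≤ s) (h : ∀ j, |v j| ≤ s) : ‖v‖ ≤ n * s := by
  refine (abs_le_of_sq_le_sq' ?_ (by positivity)).2
  rw [EuclideanSpace.real_norm_sq_eq]
  have h1 : (n : ℝ) ≤ n ^ 2 := by exact_mod_cast Nat.le_self_pow two_ne_zero n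
  calc ∑ j, v j ^ 2 ≤ ∑ _j : Fin n, s ^ 2 :=
        Finset.sum_le_sum fun j _ => sq_le_sq' (abs_le.1 (h j)).1 (abs_le.1 (h j)).2
    _ = n * s ^ 2 := by simp
    _ ≤ _ := by rw [mul_pow]; exact mul_le_mul_of_nonneg_right h1 (sq_nonneg _)

theorem eh1e_dd {n : ℕ} {f : V n × V n → ℝ} {p : V n × V n} {δ r : ℝ}
    (h2 : ∀ j, |Car.dd (e2 j) f p| ≤ δ)
    (h3 : ∀ j, |Car.dd (e1 j) f p + Car.dd (e2 j) f p| ≤ δ * r) (a c : V n) :
    |Car.dd (a, c) f p| ≤ n * δ * (r * ‖a‖ + ‖c - a‖) := by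
  rw [eb_exp, ← Finset.sum_add_distrib]
  refine (Finset.abs_sum_le_sum_abs _ _).trans ?_
  have k : ∀ j, |a j * Car.dd (e1 j) f p + c j * Car.dd (e2 j) f p| ≤
      δ * (r * ‖a‖ + ‖c - a‖) := fun j => by
    have e : a j * Car.dd (e1 j) f p + c j * Car.dd (e2 j) f p =
        a j * (Car.dd (e1 j) f p + Car.dd (e2 j) f p) + (c - a) j * Car.dd (e2 j) f p := by
      rw [PiLp.sub_apply]; ring
    have k1 : |a j| ≤ ‖a‖ := by simpa using PiLp.norm_apply_le a j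
    have k2 : |(c - a) j| ≤ ‖c - a‖ := by simpa using PiLp.norm_apply_le (c - a) j
    rw [e]
    refine (abs_add_le _ _).trans ?_
    rw [abs_mul, abs_mul]
    have k3 := mul_le_mul k1 (h3 j) (abs_nonneg _) (norm_nonneg _)
    have k4 := mul_le_mul k2 (h2 j) (abs_nonneg _) (norm_nonneg _)
    linarith
  calc _ ≤ ∑ _j : Fin n, δ * (r * ‖a‖ + ‖c - a‖) := Finset.sum_le_sum fun j _ => k j
    _ = _ := by simp [mul_assoc]

theorem eh1e_two {n : ℕ} {g : Mf n} {δ : ℝ} (hδ : δ ≤ 1)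
    (h : ∀ j k x, |g j k x - if j = k then 1 else 0| ≤ δ) (x : V n) (j k : Fin n) :
    |g j k x| ≤ 2 := by
  have := abs_le.1 (h j k x)
  refine abs_le.2 ⟨?_, ?_⟩ <;> split_ifs at this <;> linarith [this.1, this.2]

theorem eh1e_num {n C δ N r x w D1 I1 D2 I2 m : ℝ} (hn : 1 ≤ n) (hC : 1 ≤ C) (hδ : 0 < δ)
    (hN : 1 ≤ N) (hr : 0 < r) (hx : 0 ≤ x) (hw : 0 ≤ w) (hm : 1 / 2 ≤ m)
    (h1 : |D1| ≤ n * δ * (r * (n * 2 * x) + w)) (h2 : |I1| ≤ n * 2 * (n * (C / r)) * x)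
    (h3 : |D2| ≤ n * δ * (5 * n ^ 2 * C ^ 2 * N)) (h4 : |I2| ≤ n * 2 * x * x) :
    |(D1 * I1 - 1 / 2 * D2 * I2) / m| ≤ (18 * n ^ 4 * C ^ 2 + 1) * δ * (N * x ^ 2 + w * x / r) := by
  have hW : 0 ≤ w * x / r := by positivity
  have hX : 0 ≤ N * x ^ 2 := by positivity
  have k1 : |D1 * I1| ≤ 4 * n ^ 4 * C ^ 2 * δ * (N * x ^ 2 + w * x / r) := by
    rw [abs_mul]
    refine (mul_le_mul h1 h2 (abs_nonneg _) (by positivity)).trans ?_
    have e : n * δ * (r * (n * 2 * x) + w) * (n * 2 * (n * (C / r)) * x) =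
        2 * n ^ 3 * C * δ * (2 * n * (1 * x ^ 2) + 1 * (w * x / r)) := by
      field_simp
    have e' : 4 * n ^ 4 * C ^ 2 * δ * (N * x ^ 2 + w * x / r) =
        2 * n ^ 3 * (C * C) * δ * (2 * n * (N * x ^ 2) + 2 * n * (w * x / r)) := by ring
    rw [e, e']
    gcongr
    · nlinarith
    · linarith
  have k2 : |1 / 2 * D2 * I2| ≤ 5 * n ^ 4 * C ^ 2 * δ * (N * x ^ 2 + w * x / r) := by
    rw [abs_mul, abs_mul, abs_of_pos (by norm_num : (0 : ℝ) < 1 / 2), mul_assoc]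
    have k := mul_le_mul h3 h4 (abs_nonneg _) (by positivity)
    have k' : 0 ≤ 5 * n ^ 4 * C ^ 2 * δ * (w * x / r) := by positivity
    nlinarith
  have k3 := (abs_sub _ _).trans (add_le_add k1 k2)
  have k4 : 0 ≤ n ^ 4 * C ^ 2 * δ * (N * x ^ 2 + w * x / r) := by positivity
  have k5 : 0 ≤ δ * (N * x ^ 2 + w * x / r) := by positivity
  have hm0 : 0 < m := by linarith
  rw [abs_div, abs_of_pos hm0, div_le_iff₀ hm0]
  refine k3.trans (le_trans ?_ (mul_le_mul_of_nonneg_left hm (by positivity)))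
  nlinarith

/-- Hint: split `(a, c) = (a, a) + (0, c - a)`; `dd (a, a) μ = ∑ a j (dd (e1 j) μ + dd (e2 j) μ)` is at
most `n δ r ‖a‖`, `dd (0, w) μ` at most `n δ ‖w‖`; `‖grx Θ‖ ≤ n C / r`; for the second direction
`c - a = -(n1/n2 - 1) gv g' Θ_y - (gv g' Θ_y + gv g Θ_x)` has size `C' N` (`geo.rat`, `geo.tr`). -/
theorem eh1e (n : ℕ) [NeZero n] (C : ℝ) : ∃ K t₀ : ℝ, 0 < K ∧ 0 < t₀ ∧ ∀ (P : Par) (g g' : Mf n)
    (M : ℝ) (J : ℕ) (p : V n × V n) (r δ t : ℝ), t ≤ t₀ → Cx P g g' M J p r C δ t → ∀ ξ η : V n,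
    |P.Ex g g' p ξ η| ≤ K * δ * (P.N * ‖ξ‖ ^ 2 + ‖gv g' p.2 η - gv g p.1 ξ‖ * ‖ξ‖ / r) := by
  refine ⟨18 * n ^ 4 * C ^ 2 + 1, 1 / 2, by positivity, by norm_num, ?_⟩
  intro P g g' M J p r δ t ht h ξ η
  have hn : (1 : ℝ) ≤ n := by exact_mod_cast Nat.one_le_iff_ne_zero.2 (NeZero.ne n)
  have hδ : δ ≤ 1 / 2 := h.δt.trans ht
  have hr := h.r0
  have hC := h.C1
  have hN := h.N1
  have hd := h.δ0
  have hrδ : r ≤ δ := le_trans (le_mul_of_one_le_right hr.le (one_le_pow₀ hN)) h.geo.rN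
  have hm : 1 / 2 ≤ 1 + P.mu g g' p := by
    have := (abs_le.1 h.geo.μ0).1
    nlinarith
  have b1 := eh1e_two (by linarith) h.g0 p.1
  have b2 := eh1e_two (by linarith) h.g0' p.2
  have dΘ := fun j => eb_dd h.geo.sm.df j
  have hx : ‖grx (P.Th g') p‖ ≤ n * (C / r) :=
    eh1e_nm (by positivity) fun j => (dΘ j).1 ▸ h.geo.d1 j
  have hy : ‖gry (P.Th g') p‖ ≤ n * (C / r) :=
    eh1e_nm (by positivity) fun j => (dΘ j).2 ▸ h.geo.d2 j
  have gx : ‖gv g p.1 (grx (P.Th g') p)‖ ≤ n * 2 * (n * (C / r)) :=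
    (gl_le b1 _).trans (by gcongr)
  have gy : ‖gv g' p.2 (gry (P.Th g') p)‖ ≤ n * 2 * (n * (C / r)) :=
    (gl_le b2 _).trans (by gcongr)
  have tr : ‖gv g p.1 (grx (P.Th g') p) + gv g' p.2 (gry (P.Th g') p)‖ ≤ n * (C * P.N) :=
    eh1e_nm (by positivity) fun j => by
      have := h.geo.tr j
      simp only [Car.fx, (dΘ _).1, (dΘ _).2, smul_eq_mul] at this
      exact this
  refine eh1e_num hn hC hd hN hr (norm_nonneg _) (norm_nonneg _) hm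
    ((eh1e_dd h.geo.μ2 h.geo.μ3 _ _).trans ?_) ((ip_le b1 _ _).trans (by gcongr))
    ((eh1e_dd h.geo.μ2 h.geo.μ3 _ _).trans ?_) (ip_le b1 _ _)
  · have := gl_le b1 ξ
    rw [← gv_gl] at this
    gcongr
  · have e : -(P.n1 g g' p / P.n2 g' p) • gv g' p.2 (gry (P.Th g') p) -
        gv g p.1 (grx (P.Th g') p) =
        -((P.n1 g g' p / P.n2 g' p - 1) • gv g' p.2 (gry (P.Th g') p) +
          (gv g p.1 (grx (P.Th g') p) + gv g' p.2 (gry (P.Th g') p))) := by module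
    have k1 : ‖(P.n1 g g' p / P.n2 g' p - 1) • gv g' p.2 (gry (P.Th g') p)‖ ≤
        C * (P.N * r) * (n * 2 * (n * (C / r))) := by
      rw [norm_smul, Real.norm_eq_abs]
      exact mul_le_mul h.geo.rat gy (norm_nonneg _) (by positivity)
    have k2 : C * (P.N * r) * (n * 2 * (n * (C / r))) = 2 * (n ^ 2 * C ^ 2 * P.N) := by
      field_simp
    have k3 : r * ‖gv g p.1 (grx (P.Th g') p)‖ ≤ 2 * (n ^ 2 * C ^ 2 * P.N) := by
      refine (mul_le_mul_of_nonneg_left gx hr.le).trans ?_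
      have : r * (n * 2 * (n * (C / r))) = 2 * (n ^ 2 * (C * 1) * 1) := by field_simp
      rw [this, pow_two C]
      gcongr
    have k4 : n * (C * P.N) ≤ n ^ 2 * C ^ 2 * P.N := by
      have : n * (C * P.N) = (n * 1) * (C * 1) * P.N := by ring
      rw [this, pow_two C, pow_two (n : ℝ)]
      gcongr
    have k5 := norm_add_le ((P.n1 g g' p / P.n2 g' p - 1) • gv g' p.2 (gry (P.Th g') p))
      (gv g p.1 (grx (P.Th g') p) + gv g' p.2 (gry (P.Th g') p))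
    rw [e, norm_neg]
    refine mul_le_mul_of_nonneg_left ?_ (by positivity)
    linarith

end Vale.Agent.P088F
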