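import Vale.Agent.P088F.EB0

/-! P088F, part E: comparison of the two covectors. -/

open MeasureTheory Set Filter Topology
open scoped ContDiff

noncomputable section

namespace Vale.Agent.P088F

open Vale.Agent.P292E Vale.Agent.P088

section aux
variable {n : ℕ} {g g' : Mf n} {x y : V n}

theorem eh1f_l1 (u : V n) : (∑ j, |u j|) ^ 2 ≤ n * ‖u‖ ^ 2 := by
  have h := sq_sum_le_card_mul_sum_sq (s := (Finset.univ : Finset (Fin n))) (f := fun j => |u j|)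
  rw [EuclideanSpace.real_norm_sq_eq]
  simpa using h

theorem eh1f_bd {c : Fin n → Fin n → ℝ} {A : ℝ} (hA : 0 ≤ A) (h : ∀ j k, |c j k| ≤ A)
    (u v : V n) : |∑ j, ∑ k, c j k * u j * v k| ≤ n * A * ‖u‖ * ‖v‖ := by
  have h1 : |∑ j, ∑ k, c j k * u j * v k| ≤ A * ((∑ j, |u j|) * ∑ k, |v k|) := by
    rw [Finset.sum_mul_sum, Finset.mul_sum]
    refine (Finset.abs_sum_le_sum_abs _ _).trans (Finset.sum_le_sum fun j _ => ?_)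
    rw [Finset.mul_sum]
    refine (Finset.abs_sum_le_sum_abs _ _).trans (Finset.sum_le_sum fun k _ => ?_)
    rw [abs_mul, abs_mul, mul_assoc]
    exact mul_le_mul_of_nonneg_right (h j k) (by positivity)
  have h2 : (∑ j, |u j|) * ∑ k, |v k| ≤ n * ‖u‖ * ‖v‖ := by
    refine (pow_le_pow_iff_left₀ (by positivity) (by positivity) two_ne_zero).1 ?_
    rw [mul_pow]
    refine (mul_le_mul (eh1f_l1 u) (eh1f_l1 v) (by positivity) (by positivity)).trans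
      (le_of_eq ?_)
    ring
  refine h1.trans ((mul_le_mul_of_nonneg_left h2 hA).trans (le_of_eq ?_))
  ring

theorem eh1f_inner (u v : V n) : ip g x u v = inner ℝ u (gv g x v) := by
  simp only [ip, gv, PiLp.inner_apply, RCLike.inner_apply, conj_trivial, Finset.sum_mul]
  refine Finset.sum_congr rfl fun j _ => Finset.sum_congr rfl fun k _ => ?_
  ring

theorem eh1f_symm (h : ∀ j k, g j k x = g k j x) (u v : V n) : ip g x u v = ip g x v u := by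
  rw [ip, ip, Finset.sum_comm]
  refine Finset.sum_congr rfl fun j _ => Finset.sum_congr rfl fun k _ => ?_
  rw [h]
  ring

theorem eh1f_sub (u v w : V n) : ip g x (u - v) w = ip g x u w - ip g x v w := by
  simp only [eh1f_inner, inner_sub_left]

theorem eh1f_smul (s : ℝ) (u w : V n) : ip g x (s • u) w = s * ip g x u w := by
  simp only [eh1f_inner, real_inner_smul_left]

theorem eh1f_perp (h : ∀ j k, g j k x = g k j x) (h0 : ∀ u, 0 ≤ ip g x u u) (v ξ : V n) :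
    0 ≤ perp g x v ξ := by
  unfold perp
  rcases (h0 v).eq_or_lt with h1 | h1
  · rw [← h1, div_zero, sub_zero]
    exact h0 ξ
  · have h2 := h0 (ξ - (ip g x v ξ / ip g x v v) • v)
    rw [eh1f_sub, eh1f_smul, eh1f_symm h ξ, eh1f_symm h v (_ - _), eh1f_sub, eh1f_sub, eh1f_smul,
      eh1f_smul] at h2
    refine h2.trans (le_of_eq ?_)
    rw [eh1f_symm h ξ v]
    field_simp
    ring

theorem eh1f_dif {e : ℝ} (he : 0 ≤ e) (hy : ∀ j k, g' j k y = g' k j y)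
    (h0 : ∀ u, ‖u‖ ^ 2 ≤ 2 * ip g' y u u) (h2 : ∀ j k, |g j k x| ≤ 2)
    (hd : ∀ j k, |g j k x - g' j k y| ≤ e) (he1 : n * e ≤ 1) (ξ η : V n) :
    |ip g' y η η - ip g x ξ ξ| ≤ (3 + 4 * n) * (‖gv g' y η - gv g x ξ‖ * ‖ξ‖) +
      2 * ‖gv g' y η - gv g x ξ‖ ^ 2 + 4 * n * (n * e) * ‖ξ‖ ^ 2 := by
  set w := gv g' y η - gv g x ξ with hw
  have hn : (0 : ℝ) ≤ n := Nat.cast_nonneg n
  have e1 : ∀ u, ip g' y u η = inner ℝ u w + ip g x u ξ := fun u => by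
    rw [hw, inner_sub_right, eh1f_inner, eh1f_inner]
    ring
  have e2 : ip g x (η - ξ) ξ - ip g' y (η - ξ) ξ =
      ∑ j, ∑ k, (g j k x - g' j k y) * (η - ξ) j * ξ k := by
    simp only [ip, sub_mul, Finset.sum_sub_distrib]
  have b1 := eh1f_bd he hd (η - ξ) ξ
  rw [← e2] at b1
  have b2 : ‖η - ξ‖ ≤ 2 * (‖w‖ + n * e * ‖ξ‖) := by
    have b3 := h0 (η - ξ)
    rw [eh1f_symm hy, eh1f_sub, eh1f_symm hy η, eh1f_symm hy ξ, e1] at b3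
    have b4 := real_inner_le_norm (η - ξ) w
    have b5 := le_abs_self (ip g x (η - ξ) ξ - ip g' y (η - ξ) ξ)
    rcases (norm_nonneg (η - ξ)).eq_or_lt with h1 | h1
    · rw [← h1]
      positivity
    · refine le_of_mul_le_mul_left ?_ h1
      nlinarith
  have b6 : |ip g x (η - ξ) ξ| ≤ n * 2 * ‖η - ξ‖ * ‖ξ‖ := eh1f_bd two_pos.le h2 (η - ξ) ξ
  have b7 : |inner ℝ η w| ≤ ‖η‖ * ‖w‖ := abs_real_inner_le_norm η w
  have b8 : ‖η‖ ≤ ‖ξ‖ + ‖η - ξ‖ := by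
    simpa using norm_add_le ξ (η - ξ)
  have e3 : ip g' y η η - ip g x ξ ξ = inner ℝ η w + ip g x (η - ξ) ξ := by
    rw [e1, eh1f_sub]
    ring
  rw [e3]
  refine (abs_add_le _ _).trans ?_
  have c1 : ‖η‖ * ‖w‖ ≤ (‖ξ‖ + 2 * (‖w‖ + n * e * ‖ξ‖)) * ‖w‖ :=
    mul_le_mul_of_nonneg_right (by linarith) (norm_nonneg _)
  have c2 : n * 2 * ‖η - ξ‖ * ‖ξ‖ ≤ n * 2 * (2 * (‖w‖ + n * e * ‖ξ‖)) * ‖ξ‖ := by gcongr
  have c3 : n * e * (‖w‖ * ‖ξ‖) ≤ 1 * (‖w‖ * ‖ξ‖) :=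
    mul_le_mul_of_nonneg_right he1 (by positivity)
  nlinarith

theorem eh1f_ar1 {m C X Y Z : ℝ} (hm : 0 ≤ m) (hC : 0 ≤ C) (hX : 0 ≤ X) (hY : 0 ≤ Y)
    (hZ : 0 ≤ Z) : (3 + 4 * m) * X + 2 * Y + (2 * C + 4 * m ^ 2) * Z ≤
      (2 * C + 4 * m ^ 2 + (3 + 4 * m) + 2 + 2 * (3 + 4 * m) ^ 2) * (X + Y + Z) := by
  have : 0 ≤ (2 * C + 4 * m ^ 2 + 2 + 2 * (3 + 4 * m) ^ 2) * X +
      (2 * C + 4 * m ^ 2 + (3 + 4 * m) + 2 * (3 + 4 * m) ^ 2) * Y +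
      ((3 + 4 * m) + 2 + 2 * (3 + 4 * m) ^ 2) * Z := by positivity
  linarith

theorem eh1f_ar2 {m C a b s u v : ℝ} (hm : 0 ≤ m) (hC : 0 ≤ C) (hs : s ≤ 1 / 8)
    (h : b - a ≤ (3 + 4 * m) * (u * v) + 2 * u ^ 2 + s * v ^ 2) (ha : v ^ 2 ≤ 2 * a) :
    b ≤ 3 / 2 * a + (2 * C + 4 * m ^ 2 + (3 + 4 * m) + 2 + 2 * (3 + 4 * m) ^ 2) * u ^ 2 := by
  have c2 := mul_le_mul_of_nonneg_right hs (sq_nonneg v)
  have c4 := sq_nonneg (v - 4 * (3 + 4 * m) * u)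
  have c5 : 0 ≤ (2 * C + 4 * m ^ 2 + (3 + 4 * m)) * u ^ 2 := by positivity
  linarith

theorem eh1f_ar3 {m C t δ r N : ℝ} (hm : 1 ≤ m) (hC : 1 ≤ C) (hδ : 0 < δ) (hδt : δ ≤ t)
    (hr : 0 < r) (hrδ : r ≤ δ) (hN : 1 ≤ N) (ht : t * (32 * m ^ 2 + 10 * C) ≤ 1) :
    t * (10 * C) ≤ 1 ∧ t * (2 * m) ≤ 1 ∧ δ ≤ 1 ∧ 4 * m * (m * (δ * r)) ≤ 1 / 8 ∧
      m * (δ * r) ≤ 1 ∧ 4 * m * (m * (δ * r)) ≤ 4 * m ^ 2 * (N * r) := by
  have ht0 : 0 < t := hδ.trans_le hδt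
  have t0 : 0 < t * m ^ 2 := by positivity
  have t0' : 0 < t * C := by positivity
  have t1 : t * (10 * C) ≤ 1 := by linarith
  have t2 : t * (32 * m ^ 2) ≤ 1 := by linarith
  have t3 : t * (2 * m) ≤ 1 :=
    le_trans (mul_le_mul_of_nonneg_left (by nlinarith) ht0.le) t2
  have t4 : δ ≤ 1 := by nlinarith
  have t5 : δ * r ≤ t := by nlinarith
  have t6 : m ^ 2 * (δ * r) ≤ m ^ 2 * t := mul_le_mul_of_nonneg_left t5 (by positivity)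
  have t7 : m * (δ * r) ≤ m * t := mul_le_mul_of_nonneg_left t5 (by positivity)
  have t8 : δ * r ≤ N * r := mul_le_mul_of_nonneg_right (by linarith) hr.le
  have t9 : m ^ 2 * (δ * r) ≤ m ^ 2 * (N * r) := mul_le_mul_of_nonneg_left t8 (by positivity)
  have t10 : 0 < t * m := by positivity
  exact ⟨t1, t3, t4, by linarith, by linarith, by linarith⟩

end aux

/-- Hint: `w = g' η - g ξ`, `g' (η - ξ) = (g - g') ξ + w`, so `‖η - ξ‖ ≤ 2 (n δ r ‖ξ‖ + ‖w‖)` (`geo.gd`,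
ellipticity); `ip g' η η - ip g ξ ξ = ⟪η - ξ, g ξ⟫ + ⟪η, w⟫`; `l2 / l1 = n1 / n2` (`geo.rat`). -/
theorem eh1f (n : ℕ) [NeZero n] (C : ℝ) : ∃ K t₀ : ℝ, 0 < K ∧ 0 < t₀ ∧ ∀ (P : Par) (g g' : Mf n)
    (M : ℝ) (J : ℕ) (p : V n × V n) (r δ t : ℝ), t ≤ t₀ → Cx P g g' M J p r C δ t → ∀ ξ η w : V n,
    w = gv g' p.2 η - gv g p.1 ξ →
    (P.dt g g' M J).l2 p * |ip g p.1 ξ ξ / (P.dt g g' M J).l1 p -
      ip g' p.2 η η / (P.dt g g' M J).l2 p| ≤ K * (‖w‖ * ‖ξ‖ + ‖w‖ ^ 2 + P.N * r * ‖ξ‖ ^ 2) ∧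
    ip g' p.2 η η ≤ 3 / 2 * ip g p.1 ξ ξ + K * ‖w‖ ^ 2 ∧ ‖ξ‖ ^ 2 ≤ 2 * ip g p.1 ξ ξ ∧
    ‖η‖ ^ 2 ≤ 2 * ip g' p.2 η η ∧ ip g p.1 ξ ξ ≤ 2 * ‖ξ‖ ^ 2 ∧
    0 ≤ perp g p.1 (grx (P.Th g') p) ξ ∧ 0 ≤ perp g' p.2 (gry (P.Th g') p) η := by
  have hn : (1 : ℝ) ≤ n := by exact_mod_cast Nat.one_le_iff_ne_zero.2 (NeZero.ne n)
  refine ⟨2 * |C| + 4 * n ^ 2 + (3 + 4 * n) + 2 + 2 * (3 + 4 * n) ^ 2,
    1 / (32 * n ^ 2 + 10 * |C|), by positivity, by positivity,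
    fun P g g' M J p r δ t ht h ξ η w hw => ?_⟩
  have hC : |C| = C := abs_of_nonneg (by linarith [h.C1])
  rw [hC] at ht ⊢
  have hC1 := h.C1
  have hδ := h.δ0
  have hr := h.r0
  have hN := h.N1
  rw [le_div_iff₀ (by positivity)] at ht
  obtain ⟨-, -, hrδ, -⟩ := h.k
  obtain ⟨t1, t3, t4, t6, t7, t8⟩ := eh1f_ar3 hn hC1 hδ h.δt hr hrδ hN ht
  have hq : ∀ u : V n, ‖u‖ ^ 2 ≤ 2 * ip g p.1 u u ∧ ip g p.1 u u ≤ 2 * ‖u‖ ^ 2 ∧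
      ‖u‖ ^ 2 ≤ 2 * ip g' p.2 u u ∧ ip g' p.2 u u ≤ 2 * ‖u‖ ^ 2 := fun u => by
    rw [EuclideanSpace.real_norm_sq_eq]
    exact h.q1 t3 u.ofLp
  obtain ⟨-, hl1, hl2, -⟩ := h.l12 t1
  have hd := eh1f_dif (x := p.1) (y := p.2) (by positivity) (fun j k => h.y' j k _)
    (fun u => (hq u).2.2.1) (h.a.2.2.2.2 t4).1 h.geo.gd t7 ξ η
  rw [← hw] at hd
  have p0 : ∀ u, 0 ≤ ip g p.1 u u := fun u => by nlinarith [(hq u).1, sq_nonneg ‖u‖]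
  have p0' : ∀ u, 0 ≤ ip g' p.2 u u := fun u => by nlinarith [(hq u).2.2.1, sq_nonneg ‖u‖]
  refine ⟨?_, ?_, (hq ξ).1, (hq η).2.2.1, (hq ξ).2.1, eh1f_perp (fun j k => h.y j k _) p0 _ _,
    eh1f_perp (fun j k => h.y' j k _) p0' _ _⟩
  · have hn2 : 0 < P.n2 g' p := by
      by_contra h1
      nlinarith [h.geo.n2l, mul_nonneg (sq_nonneg r) (neg_nonneg.2 (not_lt.1 h1))]
    have e1 : P.n1 g g' p / P.n2 g' p = (P.dt g g' M J).l2 p / (P.dt g g' M J).l1 p := by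
      rw [div_eq_div_iff hn2.ne' hl1.ne', ← h.null]
      ring
    have hrat := h.geo.rat
    rw [e1] at hrat
    generalize (P.dt g g' M J).l1 p = l1 at *
    generalize (P.dt g g' M J).l2 p = l2 at *
    have e2 : l2 * |ip g p.1 ξ ξ / l1 - ip g' p.2 η η / l2| =
        |(l2 / l1 - 1) * ip g p.1 ξ ξ - (ip g' p.2 η η - ip g p.1 ξ ξ)| := by
      rw [← abs_of_pos hl2, ← abs_mul, abs_of_pos hl2]
      congr 1
      field_simp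
      ring
    rw [e2]
    refine (abs_sub _ _).trans ?_
    have c1 : |(l2 / l1 - 1) * ip g p.1 ξ ξ| ≤ C * (P.N * r) * (2 * ‖ξ‖ ^ 2) := by
      rw [abs_mul, abs_of_nonneg (p0 ξ)]
      exact mul_le_mul hrat (hq ξ).2.1 (p0 ξ) (by positivity)
    have c2 := mul_le_mul_of_nonneg_right t8 (sq_nonneg ‖ξ‖)
    have c3 := eh1f_ar1 (m := n) (C := C) (X := ‖w‖ * ‖ξ‖) (Y := ‖w‖ ^ 2)
      (Z := P.N * r * ‖ξ‖ ^ 2) (by positivity) (by positivity) (by positivity) (by positivity)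
      (by positivity)
    linarith
  · exact eh1f_ar2 (by positivity) (by positivity) t6 ((le_abs_self _).trans hd) (hq ξ).1

end Vale.Agent.P088F
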