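import Vale.Agent.P088F.EB0

/-! P088F, part E: translation of the quadratic forms. -/

open MeasureTheory Set Filter Topology
open scoped ContDiff

noncomputable section

namespace Vale.Agent.P088F

open Vale.Agent.P292E Vale.Agent.P088

variable {n : ℕ} [NeZero n] {P : Par} {g g' : Mf n} {M : ℝ} {J : ℕ} {p : V n × V n}
  {r C δ t : ℝ}

omit [NeZero n] in
theorem EH1g_smul (g : Mf n) (x ξ η : V n) (c d : ℝ) :
    ip g x (c • ξ) (d • η) = c * d * ip g x ξ η := by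
  simp only [ip, PiLp.smul_apply, smul_eq_mul, Finset.mul_sum]
  exact Finset.sum_congr rfl fun j _ => Finset.sum_congr rfl fun k _ => by ring

omit [NeZero n] in
theorem EH1g_dp {e : Fin n → V n × V n} {a : Fin n → Fin n → V n × V n → ℝ} {f : V n × V n → ℝ}
    {x θ : V n} (c : ℝ) (hy : ∀ j k x, g j k x = g k j x) (ha : ∀ j k, a j k p = c * g j k x)
    (hf : ∀ j, Car.dd (e j) f p = θ j) (ξ : V n) :
    ∑ k, Car.fx e a f k p * ξ k = c * ip g x θ ξ := by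
  simp only [Car.fx, ip, ha, hf, smul_eq_mul, Finset.mul_sum, Finset.sum_mul]
  rw [Finset.sum_comm]
  exact Finset.sum_congr rfl fun j _ => Finset.sum_congr rfl fun k _ => by rw [hy k j]; ring

omit [NeZero n] in
theorem EH1g_qf {a : Fin n → Fin n → V n × V n → ℝ} {x : V n} (c : ℝ)
    (ha : ∀ j k, a j k p = c * g j k x) (ξ : V n) :
    Car.qf a p ξ.ofLp ξ.ofLp = c * ip g x ξ ξ := by
  simp only [Car.qf, ip, ha, Finset.mul_sum, mul_assoc]

theorem eh1g (h : Cx P g g' M J p r C δ t) (hμ : 0 < 1 + P.mu g g' p) (ξ η ξ' η' : V n)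
    (h1 : ξ' = (P.dt g g' M J).l1 p • ξ) (h2 : η' = -(P.dt g g' M J).l2 p • η) :
    dp (P.X0 g g' M J) p (Sum.elim ξ.ofLp η.ofLp) = tau g g' (P.Th g') p ξ' η' ∧
    Car.qf (P.dt g g' M J).G p (Sum.elim ξ.ofLp η.ofLp) (Sum.elim ξ.ofLp η.ofLp) =
      ip g p.1 ξ' ξ' / (P.dt g g' M J).l1 p - ip g' p.2 η' η' / (P.dt g g' M J).l2 p ∧
    Car.qf (a1 g) p ξ.ofLp ξ.ofLp = ip g p.1 ξ' ξ' / (P.dt g g' M J).l1 p ^ 2 ∧
    Car.qf (a2 g') p η.ofLp η.ofLp = ip g' p.2 η' η' / (P.dt g g' M J).l2 p ^ 2 ∧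
    Car.qf (a1 g) p ξ.ofLp ξ.ofLp - dp (P.dt g g' M J).Y p ξ.ofLp ^ 2 / (P.dt g g' M J).V p =
      perp g p.1 (grx (P.Th g') p) ξ' / (P.dt g g' M J).l1 p ^ 2 := by
  have l1 : 0 < (P.dt g g' M J).l1 p := mul_pos hμ (Real.exp_pos _)
  have l2 : 0 < (P.dt g g' M J).l2 p := Real.exp_pos _
  have dx := fun j => (eb_dd h.geo.sm.df j).1
  have dy := fun j => (eb_dd h.geo.sm.df j).2
  have q1 : Car.qf (a1 g) p ξ.ofLp ξ.ofLp = ip g p.1 ξ ξ := rfl
  have q2 : Car.qf (a2 g') p η.ofLp η.ofLp = ip g' p.2 η η := rfl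
  have i1 : ∀ θ, ip g p.1 θ ξ' = (P.dt g g' M J).l1 p * ip g p.1 θ ξ := fun θ => by
    simpa [h1] using EH1g_smul g p.1 θ ξ 1 ((P.dt g g' M J).l1 p)
  have i2 : ∀ θ, ip g' p.2 θ η' = -(P.dt g g' M J).l2 p * ip g' p.2 θ η := fun θ => by
    have := EH1g_smul g' p.2 θ η 1 (-(P.dt g g' M J).l2 p)
    rwa [one_smul, one_mul, ← h2] at this
  have j1 : ip g p.1 ξ' ξ' = (P.dt g g' M J).l1 p ^ 2 * ip g p.1 ξ ξ := by
    rw [h1, EH1g_smul, sq]
  have j2 : ip g' p.2 η' η' = (P.dt g g' M J).l2 p ^ 2 * ip g' p.2 η η := by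
    rw [h2, EH1g_smul]; ring
  refine ⟨?_, ?_, ?_, ?_, ?_⟩
  · rw [tau, i1, i2, ← EH1g_dp (e := e1) (f := P.Th g') (p := p) (a := fun i j y =>
      (P.dt g g' M J).l1 y * a1 g i j y) _ h.y (fun _ _ => rfl) dx,
      ← EH1g_dp (e := e2) (f := P.Th g') (p := p) (a := fun i j y =>
      -((P.dt g g' M J).l2 y * a2 g' i j y)) _ h.y' (fun _ _ => (neg_mul _ _).symm) dy]
    simp only [dp, Par.X0, Dt.es, Dt.G, Fintype.sum_sum_type, fx_blk_l, fx_blk_r, Sum.elim_inl,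
      Sum.elim_inr]
    rfl
  · rw [Dt.G, qf_blk, EH1g_qf (g := g) (x := p.1) ((P.dt g g' M J).l1 p) fun _ _ => rfl,
      EH1g_qf (g := g') (x := p.2) (-(P.dt g g' M J).l2 p) fun _ _ => (neg_mul _ _).symm, j1, j2]
    field_simp
    ring
  · rw [q1, j1]
    field_simp
  · rw [q2, j2]
    field_simp
  · have k0 := h.k.1.ne'
    have y1 : dp (P.dt g g' M J).Y p ξ.ofLp =
        -kk M J (P.Th g' p) * ip g p.1 (grx (P.Th g') p) ξ := by
      rw [← one_mul (ip _ _ _ _), ← EH1g_dp (e := e1) (f := P.Th g') (p := p) (a := a1 g) 1 h.y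
        (fun _ _ => (one_mul _).symm) dx, Finset.mul_sum]
      refine Finset.sum_congr rfl fun k _ => ?_
      rw [← mul_assoc, ← (h.fxΨ e1 (a1 g)).self_of_nhds k]
      rfl
    have n1 : P.n1 g g' p = ip g p.1 (grx (P.Th g') p) (grx (P.Th g') p) := by
      rw [← one_mul (ip _ _ _ _), ← EH1g_dp (e := e1) (f := P.Th g') (p := p) (a := a1 g) 1 h.y
        (fun _ _ => (one_mul _).symm) dx]
      simp only [Par.n1, Car.qq, Car.al, dx]
    rw [q1, y1, h.Vq.self_of_nhds.1, perp, j1, i1, ← n1, mul_pow, neg_sq,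
      mul_div_mul_left _ _ (pow_ne_zero 2 k0)]
    field_simp

end Vale.Agent.P088F
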