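import Vale.Agent.P088F.EH1a
import Vale.Agent.P088F.EH1b
import Vale.Agent.P088F.EH1c
import Vale.Agent.P088F.EH1e
import Vale.Agent.P088F.EH1f
import Vale.Agent.P088F.EH1g

/-! P088F, part E: positivity of the main commutator. -/

open MeasureTheory Set Filter Topology
open scoped ContDiff

noncomputable section

namespace Vale.Agent.P088F

open Vale.Agent.P292E Vale.Agent.P088

theorem eh1_num {κ N r δ η' K₁ K₂ K₃ α β w A B p₁ p₂ lam L Ex Q c τ C' : ℝ} (hκ : 0 < κ)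
    (hκ1 : κ ≤ 1) (hN : 1 ≤ N) (hr : 0 < r) (hδ1 : δ ≤ 1) (hrN : r * N ^ 2 ≤ δ) (hK₁ : 0 < K₁)
    (hK₂ : 0 < K₂) (hK₃ : 0 < K₃) (d1 : δ * (3 * K₂ + 2 * (K₁ * K₃) + K₃) ≤ κ / 12800)
    (d2 : δ * (3 * K₂ + 2 * (K₁ * K₃) + K₃) ≤ η') (l1 : 1 / 2 ≤ lam) (l2 : lam ≤ 2)
    (h1 : B ≤ 3 / 2 * A + K₃ * w ^ 2) (h2 : α ^ 2 ≤ 2 * A) (h3 : β ^ 2 ≤ 2 * B) (h4 : A ≤ 2 * α ^ 2)
    (h5 : 0 ≤ p₁) (h6 : 0 ≤ p₂)
    (hL : κ * N / 4 * (p₁ + p₂) - 1 / 200000 * κ * N * (α ^ 2 + β ^ 2) - C' * τ ^ 2 +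
      η' / (N * r ^ 2) * w ^ 2 ≤ L)
    (hE : |Ex| ≤ K₂ * δ * (N * α ^ 2 + w * α / r))
    (hQ : |Q| ≤ K₁ * δ / r * (K₃ * (w * α + w ^ 2 + N * r * α ^ 2))) (hc : 2 * C' ≤ c) :
    κ * N / 4 * (lam * p₁ - lam * A / 100 + B / 400) ≤ 2 * (L + Ex) + c * τ ^ 2 - Q := by
  have hN0 : 0 < N := by linarith
  have hδ : 0 < δ := lt_of_lt_of_le (by positivity) hrN
  obtain ⟨ν, rfl⟩ : ∃ ν, w = r * ν := ⟨w / r, by field_simp⟩
  obtain ⟨Y, hY, Y0⟩ : ∃ Y, ν ^ 2 = N * Y ∧ 0 ≤ Y := ⟨ν ^ 2 / N, by field_simp, by positivity⟩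
  have e1 : η' / (N * r ^ 2) * (r * ν) ^ 2 = η' * Y := by
    rw [mul_pow, hY]
    field_simp
  have e2 : r * ν * α / r = ν * α := by field_simp
  have e3 : K₁ * δ / r * (K₃ * (r * ν * α + (r * ν) ^ 2 + N * r * α ^ 2)) =
      δ * (K₁ * K₃) * (ν * α + r * N * Y + N * α ^ 2) := by
    rw [mul_pow, hY]
    field_simp
  rw [e1] at hL
  rw [e2] at hE
  rw [e3] at hQ
  have a0 : 0 ≤ N * α ^ 2 := by positivity
  have a1 : ν * α ≤ (N * α ^ 2 + Y) / 2 := by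
    have : N * (ν * α) ≤ N * ((N * α ^ 2 + Y) / 2) := by linarith [sq_nonneg (N * α - ν)]
    exact le_of_mul_le_mul_left this hN0
  have r1 : r * N ≤ 1 :=
    ((mul_le_mul_of_nonneg_left (le_self_pow₀ hN two_ne_zero) hr.le).trans hrN).trans hδ1
  have r2 : r ≤ 1 := (le_mul_of_one_le_right hr.le hN).trans r1
  have a2 := mul_le_mul_of_nonneg_right r1 Y0
  have a3 : κ * N * (r * ν) ^ 2 ≤ δ * Y := by
    have b1 : κ * r ≤ 1 := mul_le_one₀ hκ1 hr.le r2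
    have b2 := mul_le_mul_of_nonneg_right hrN Y0
    have b3 := mul_le_mul_of_nonneg_right b1 (show 0 ≤ r * N ^ 2 * Y by positivity)
    rw [mul_pow, hY]
    linarith
  have A0 : 0 ≤ A := by linarith [sq_nonneg α]
  have a4 : lam * p₁ - lam * A / 100 + B / 400 ≤ 2 * p₁ - α ^ 2 / 1600 + K₃ * (r * ν) ^ 2 / 400 := by
    linarith [mul_le_mul_of_nonneg_right l2 h5, mul_le_mul_of_nonneg_right l1 A0]
  have kN : 0 ≤ κ * N := by positivity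
  have a5 := mul_le_mul_of_nonneg_left a4 kN
  have a6 := mul_le_mul_of_nonneg_left
    (show α ^ 2 + β ^ 2 ≤ 7 * α ^ 2 + 2 * (K₃ * (r * ν) ^ 2) by linarith) kN
  have a7 := mul_le_mul_of_nonneg_left a3 hK₃.le
  have a8 := mul_le_mul_of_nonneg_left
    (show N * α ^ 2 + ν * α ≤ 3 / 2 * (N * α ^ 2) + Y / 2 by linarith) (mul_pos hK₂ hδ).le
  have a9 := mul_le_mul_of_nonneg_left
    (show ν * α + r * N * Y + N * α ^ 2 ≤ 3 / 2 * (N * α ^ 2) + 3 / 2 * Y by linarith)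
    (mul_pos hδ (mul_pos hK₁ hK₃)).le
  have b1 := mul_le_mul_of_nonneg_right d1 a0
  have b2 := mul_le_mul_of_nonneg_right d2 Y0
  have b3 := mul_le_mul_of_nonneg_right hc (sq_nonneg τ)
  have b4 := mul_nonneg kN h6
  have b5 : 0 ≤ δ * K₃ * (N * α ^ 2) := by positivity
  have b6 : 0 ≤ δ * (K₁ * K₃) * (N * α ^ 2) := by positivity
  have b7 : 0 ≤ δ * K₂ * Y := by positivity
  have b8 : 0 ≤ δ * K₃ * Y := by positivity
  have b9 : 0 ≤ δ * (K₁ * K₃) * Y := by positivity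
  have b10 : 0 ≤ κ * (N * α ^ 2) := by positivity
  linarith [(abs_le.1 hE).1, (abs_le.1 hQ).2]

/-- Hint: `ξ' = l1 ξ`, `η' = -l2 η`; rewrite with `eh1a, eh1b, eh1g`; divide by `m k`; the `tau^2`
coefficient `k + 2 k1 / k - 2 C'` is nonnegative; `l2^2 / l1^2 ∈ [1/2, 2]` (`Cx.l12`); what remains is
a numerical inequality in `‖ξ'‖, ‖w‖`, using `N^2 r ≤ δ`, `r ≤ δ` and `δ` small in terms of `κ, η'`. -/
theorem eh1 (n : ℕ) [NeZero n] (C C' : ℝ) : ∃ t₀ η : ℝ, 0 < t₀ ∧ 0 < η ∧ ∀ κ η' : ℝ, 0 < κ →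
    0 < η' → ∃ δ₀ : ℝ, 0 < δ₀ ∧ ∀ (P : Par) (g g' : Mf n) (M : ℝ) (J : ℕ) (p : V n × V n)
      (r δ t : ℝ), P.κ = κ → t ≤ t₀ → δ ≤ δ₀ → Cx P g g' M J p r C δ t →
      PQat P g g' p r C' η η' → (P.dt g g' M J).H1 p := by
  obtain ⟨K₁, t₁, hK₁, ht₁, H₁⟩ := eh1c n C
  obtain ⟨K₂, t₂, hK₂, ht₂, H₂⟩ := eh1e n C
  obtain ⟨K₃, t₃, hK₃, ht₃, H₃⟩ := eh1f n C
  have hT : 0 < 10 * |C| + 4 * |C'| + 4 := by positivity
  have hK : 0 < 3 * K₂ + 2 * (K₁ * K₃) + K₃ := by positivity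
  refine ⟨min (min t₁ t₂) (min t₃ (1 / (10 * |C| + 4 * |C'| + 4))), 1 / 200000, by positivity,
    by norm_num, fun κ η' hκ hη' => ⟨min (κ / 12800) η' / (3 * K₂ + 2 * (K₁ * K₃) + K₃),
      by positivity, fun P g g' M J p r δ t hP ht hδ h hq ξ η => ?_⟩⟩
  subst hP
  obtain ⟨ht12, ht34⟩ := le_min_iff.1 ht
  have t0 : 0 < t := h.δ0.trans_le h.δt
  have t1 : t * (10 * |C| + 4 * |C'| + 4) ≤ 1 := (le_div_iff₀ hT).1 (le_min_iff.1 ht34).2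
  have t2 : t * C ≤ t * |C| := mul_le_mul_of_nonneg_left (le_abs_self _) t0.le
  have t3 := mul_nonneg t0.le (abs_nonneg C)
  have t4 := mul_nonneg t0.le (abs_nonneg C')
  obtain ⟨hμ, l1, l2, l3, l4, -⟩ := h.l12 (by linarith)
  obtain ⟨k0, k2, -⟩ := h.k
  have d0 := (le_div_iff₀ hK).1 hδ
  have hμ' : 0 < 1 + P.mu g g' p := by linarith
  have e1 := eh1a h (Sum.elim ξ η)
  have e2 := eh1b h hμ' (WithLp.toLp 2 ξ) (WithLp.toLp 2 η) _ _ rfl rfl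
  obtain ⟨e3, e4, e5, e6, e7⟩ := eh1g h hμ' (WithLp.toLp 2 ξ) (WithLp.toLp 2 η) _ _ rfl rfl
  rw [WithLp.ofLp_toLp, WithLp.ofLp_toLp] at e2 e3 e4
  rw [WithLp.ofLp_toLp] at e5 e6 e7
  generalize (P.dt g g' M J).l1 p • (WithLp.toLp 2 ξ : V n) = ξ' at e2 e3 e4 e5 e7
  generalize -(P.dt g g' M J).l2 p • (WithLp.toLp 2 η : V n) = η₁ at e2 e3 e4 e6
  obtain ⟨f1, f2, f3, f4, f5, f6, f7⟩ :=
    H₃ P g g' M J p r δ t (le_min_iff.1 ht34).1 h ξ' η₁ _ rfl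
  have f8 := H₁ P g g' M J p r δ t (le_min_iff.1 ht12).1 h
  have m0 : 0 < (P.dt g g' M J).m p := Real.exp_pos _
  have eg : (P.dt g g' M J).g p = P.κ * P.N / 4 * kk M J (P.Th g' p) *
      ((P.dt g g' M J).m p * (P.dt g g' M J).l2 p ^ 2) := rfl
  have ea1 : (P.dt g g' M J).a1 = a1 g := rfl
  have ea2 : (P.dt g g' M J).a2 = a2 g' := rfl
  have tk := (abs_le.1 h.tk).1
  rw [e1, e2, e3, e4, ea1, ea2, e7, e5, e6, eg]
  generalize (P.dt g g' M J).l1 p = a at *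
  generalize (P.dt g g' M J).l2 p = b at *
  generalize (P.dt g g' M J).m p = m at *
  generalize kk M J (P.Th g' p) = k at *
  generalize k1 J (P.Th g' p) = k' at *
  have hQ : |P.Dv g g' M J p * (ip g p.1 ξ' ξ' / a - ip g' p.2 η₁ η₁ / b)| ≤ K₁ * δ / r *
      (K₃ * (‖gv g' p.2 η₁ - gv g p.1 ξ'‖ * ‖ξ'‖ + ‖gv g' p.2 η₁ - gv g p.1 ξ'‖ ^ 2 +
        P.N * r * ‖ξ'‖ ^ 2)) := by
    have r0 := h.r0
    have δ0 := h.δ0
    rw [abs_mul]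
    refine (mul_le_mul_of_nonneg_right f8 (abs_nonneg _)).trans ?_
    rw [mul_div_right_comm, mul_assoc]
    exact mul_le_mul_of_nonneg_left f1 (by positivity)
  have hc : 2 * C' ≤ k + 2 * (k' / k) := by
    have c1 : -(t * k) ≤ k' / k := by
      rw [le_div_iff₀ k0]
      linarith
    have c2 := mul_le_mul_of_nonneg_right t1 k0.le
    have c3 := mul_le_mul_of_nonneg_left k2 (abs_nonneg C')
    linarith [le_abs_self C', mul_nonneg t3 k0.le]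
  have key := eh1_num (lam := b ^ 2 / a ^ 2) hκ h.κ1 h.N1 h.r0 (by linarith [h.δt]) h.geo.rN hK₁ hK₂
    hK₃ (d0.trans (min_le_left _ _)) (d0.trans (min_le_right _ _))
    ((le_div_iff₀ (by positivity)).2 (by linarith)) ((div_le_iff₀ (by positivity)).2 l4) f2 f3 f4 f5
    f6 f7 (hq ξ' η₁) (H₂ P g g' M J p r δ t (le_min_iff.1 ht12).2 h ξ' η₁) hQ hc
  refine le_of_eq_of_le ?_ ((mul_le_mul_of_nonneg_left key (mul_pos m0 k0).le).trans_eq ?_)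
  · field_simp
  · field_simp

end Vale.Agent.P088F
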