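import Vale.Agent.P088F.EB0

/-! P088F, part E: the main commutator, first reduction. -/

open MeasureTheory Set Filter Topology
open scoped ContDiff

noncomputable section

namespace Vale.Agent.P088F

open Vale.Agent.P292E Vale.Agent.P088

theorem eh1a_abs {E : Type} [NormedAddCommGroup E] [NormedSpace ℝ E] {κ : Type} [Fintype κ]
    {e : κ → E} {G : κ → κ → E → ℝ} {X : κ → E → ℝ} {m β f Θ : E → ℝ} {x : E} {k' : ℝ}
    (hG : ∀ i j, Car.SA (G i j) x) (hs : ∀ i j, G i j x = G j i x) (hm : Car.SA m x)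
    (hf : Car.SA f x) (hΘ : Car.SA Θ x)
    (hX : ∀ᶠ q in 𝓝 x, ∀ i, X i q = -f q * Car.fx e G Θ i q)
    (hf' : ∀ v, Car.dd v f x = k' * Car.dd v Θ x) (hm' : ∀ v, Car.dd v m x = m x * Car.dd v β x)
    (h0 : Car.qq e G Θ x = 0) (ζ : κ → ℝ) :
    -Car.LL e (fun i j y => m y * G i j y) X x ζ +
      Car.dg e X x * Car.qf (fun i j y => m y * G i j y) x ζ ζ + m x * dp X x ζ ^ 2 =
    m x * (f x * Car.LL e G (Car.fx e G Θ) x ζ + (f x ^ 2 + 2 * k') * dp (Car.fx e G Θ) x ζ ^ 2 -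
      f x * (Car.dv e G Θ x + Car.al e (Car.fx e G Θ) β x) * Car.qf G x ζ ζ) := by
  have hY : ∀ i, Car.SA (Car.fx e G Θ i) x := Car.sa_fx hG hΘ
  have hdv : Car.dv e G Θ x = Car.dg e (Car.fx e G Θ) x := rfl
  have hdp : ∑ i, (∑ j, G i j x * ζ j) * Car.dd (e i) Θ x = dp (Car.fx e G Θ) x ζ := by
    simp only [dp, Car.fx, smul_eq_mul, Finset.sum_mul]
    rw [Finset.sum_comm]
    exact Finset.sum_congr rfl fun i _ => Finset.sum_congr rfl fun j _ => by rw [hs]; ring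
  have h0' : ∑ k, Car.fx e G Θ k x * Car.dd (e k) Θ x = 0 := h0
  rw [hdv]
  generalize Car.fx e G Θ = Y at *
  have X0 : ∀ i, X i x = -f x * Y i x := hX.self_of_nhds
  have X1 : ∀ v i, Car.dd v (X i) x =
      -(k' * Car.dd v Θ x * Y i x + f x * Car.dd v (Y i) x) := fun v i => by
    rw [Car.dd_congr (w := fun q => (-1) * (f q * Y i q))
      (hX.mono fun q hq => by rw [hq i]; ring), Car.dd_cmul _ (hf.mul (hY i)),
      Car.dd_mul hf (hY i), hf']
    ring
  have G1 : ∀ v i j, Car.dd v (fun y => m y * G i j y) x =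
      m x * Car.dd v β x * G i j x + m x * Car.dd v (G i j) x := fun v i j => by
    rw [Car.dd_mul hm (hG i j), hm']
  have T1 : ∑ i, ∑ k, (∑ j, m x * G i j x * ζ j) * Car.dd (e i) (X k) x * ζ k =
      -(m x * k' * dp Y x ζ ^ 2 +
        m x * f x * ∑ i, ∑ k, (∑ j, G i j x * ζ j) * Car.dd (e i) (Y k) x * ζ k) := by
    have : dp Y x ζ ^ 2 =
        ∑ i, ∑ k, (∑ j, G i j x * ζ j) * Car.dd (e i) Θ x * (Y k x * ζ k) := by
      rw [← Finset.sum_mul_sum, hdp, sq, dp]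
    rw [this, Finset.mul_sum, Finset.mul_sum, ← Finset.sum_add_distrib, ← Finset.sum_neg_distrib]
    refine Finset.sum_congr rfl fun i _ => ?_
    rw [Finset.mul_sum, Finset.mul_sum, ← Finset.sum_add_distrib, ← Finset.sum_neg_distrib]
    refine Finset.sum_congr rfl fun k _ => ?_
    rw [X1, show ∑ j, m x * G i j x * ζ j = m x * ∑ j, G i j x * ζ j by
      rw [Finset.mul_sum]; exact Finset.sum_congr rfl fun j _ => by ring]
    ring
  have T2 : ∑ k, X k x * ∑ i, ∑ j, Car.dd (e k) (fun y => m y * G i j y) x * ζ i * ζ j =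
      -(f x * m x) * (Car.al e Y β x * Car.qf G x ζ ζ +
        ∑ k, Y k x * ∑ i, ∑ j, Car.dd (e k) (G i j) x * ζ i * ζ j) := by
    rw [Car.al, Finset.sum_mul, ← Finset.sum_add_distrib, Finset.mul_sum]
    refine Finset.sum_congr rfl fun k _ => ?_
    have : ∑ i, ∑ j, Car.dd (e k) (fun y => m y * G i j y) x * ζ i * ζ j =
        m x * Car.dd (e k) β x * Car.qf G x ζ ζ +
          m x * ∑ i, ∑ j, Car.dd (e k) (G i j) x * ζ i * ζ j := by
      simp only [G1, Car.qf, Finset.mul_sum, ← Finset.sum_add_distrib]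
      exact Finset.sum_congr rfl fun i _ => Finset.sum_congr rfl fun j _ => by ring
    rw [this, X0]
    ring
  have T3 : Car.dg e X x = -(f x * Car.dg e Y x) := by
    have : Car.dg e X x = -(k' * ∑ k, Y k x * Car.dd (e k) Θ x + f x * Car.dg e Y x) := by
      simp only [Car.dg, X1, Finset.mul_sum, ← Finset.sum_add_distrib, ← Finset.sum_neg_distrib]
      exact Finset.sum_congr rfl fun i _ => by ring
    rw [this, h0']
    ring
  have T4 : Car.qf (fun i j y => m y * G i j y) x ζ ζ = m x * Car.qf G x ζ ζ := by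
    simp only [Car.qf, Finset.mul_sum]
    exact Finset.sum_congr rfl fun i _ => Finset.sum_congr rfl fun j _ => by ring
  have T5 : dp X x ζ = -f x * dp Y x ζ := by
    simp only [dp, X0, Finset.mul_sum]
    exact Finset.sum_congr rfl fun i _ => by ring
  rw [Car.LL, T1, T2, T3, T4, T5, Car.LL]
  ring

theorem eh1a_qq {E : Type} [NormedAddCommGroup E] [NormedSpace ℝ E] {κ : Type} [Fintype κ]
    (e : κ → E) (a : κ → κ → E → ℝ) (l Θ : E → ℝ) (x : E) :
    Car.al e (Car.fx e (fun i j y => l y * a i j y) Θ) Θ x = l x * Car.qq e a Θ x := by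
  simp only [Car.qq, Car.al, Car.fx, smul_eq_mul, Finset.mul_sum, Finset.sum_mul]
  exact Finset.sum_congr rfl fun i _ => Finset.sum_congr rfl fun j _ => by ring

variable {n : ℕ} [NeZero n] {P : Par} {g g' : Mf n} {M : ℝ} {J : ℕ} {p : V n × V n}
  {r C δ t : ℝ}

/-- Hint: near `p`, `X i = -k(Θ) X0 i` (`Cx.fxΨ`); `LL (m G) X = m LL G X - (al X m) qf G`,
`LL G (f X0) = f LL G X0 + 2 qf G ζ (gr f) (X0 ζ)`, `dg (f X0) = f dv G Θ + al X0 f`,
`al X0 Θ = l1 n1 - l2 n2 = 0` (`Cx.null`), `dd v m = m dd v (-n (b1 + b2))`. -/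
theorem eh1a (h : Cx P g g' M J p r C δ t) (ζ : Fin n ⊕ Fin n → ℝ) :
    -Car.LL (P.dt g g' M J).es (P.dt g g' M J).Gm (P.dt g g' M J).X p ζ +
      Car.dg (P.dt g g' M J).es (P.dt g g' M J).X p * Car.qf (P.dt g g' M J).Gm p ζ ζ +
      (P.dt g g' M J).m p * dp (P.dt g g' M J).X p ζ ^ 2 =
    (P.dt g g' M J).m p * (kk M J (P.Th g' p) *
        Car.LL (P.dt g g' M J).es (P.dt g g' M J).G (P.X0 g g' M J) p ζ +
      (kk M J (P.Th g' p) ^ 2 + 2 * k1 J (P.Th g' p)) * dp (P.X0 g g' M J) p ζ ^ 2 -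
      kk M J (P.Th g' p) * P.Dv g g' M J p * Car.qf (P.dt g g' M J).G p ζ ζ) := by
  have hβ : Car.SA (fun q => -(n : ℝ) * (P.b1 q + P.b2 q)) p :=
    contDiffAt_const.mul (h.geo.s1.add h.geo.s2)
  have l1 : Car.SA (P.dt g g' M J).l1 p :=
    (contDiffAt_const.add h.geo.sμ).mul (contDiffAt_const.mul h.geo.s1).exp
  have l2 : Car.SA (P.dt g g' M J).l2 p := (contDiffAt_const.mul h.geo.s2).exp
  obtain ⟨-, -, -, -, k0, -, -, -, k1'⟩ := h.k
  refine eh1a_abs (G := (P.dt g g' M J).G) (m := (P.dt g g' M J).m)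
    (f := fun q => kk M J (P.Th g' q)) (Θ := P.Th g')
    (blk_sa (fun i j => l1.mul (h.a.1 i j)) fun i j => (l2.mul (h.a.2.1 i j)).neg)
    (blk_symm (fun i j => ?_) fun i j => ?_) hβ.exp k0 h.geo.sm (h.fxΨ _ _) k1'
    (fun v => Car.dd_exp hβ v) ?_ ζ
  · exact congrArg _ (h.y i j _)
  · exact congrArg (fun s => -((P.dt g g' M J).l2 p * s)) (h.y' i j _)
  · have e1' := eh1a_qq e1 (a1 g) (P.dt g g' M J).l1 (P.Th g') p
    have e2' := eh1a_qq e2 (a2 g') (fun y => -(P.dt g g' M J).l2 y) (P.Th g') p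
    have hn := h.null
    simp only [neg_mul] at e2'
    rw [Car.qq, Dt.es, Dt.G, al_elim]
    simp only [fx_blk_l, fx_blk_r]
    exact (congrArg₂ (· + ·) e1' e2').trans (by rw [← Par.n1, ← Par.n2, hn]; ring)

end Vale.Agent.P088F
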