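import Vale.Agent.P088F.EB0

/-! P088F, part E: first order errors. -/

open MeasureTheory Set Filter Topology
open scoped ContDiff

noncomputable section

namespace Vale.Agent.P088F

open Vale.Agent.P292E Vale.Agent.P088

theorem eh2_qq {E : Type} [NormedAddCommGroup E] [NormedSpace ℝ E] {κ : Type} [Fintype κ]
    {e : κ → E} {a : κ → κ → E → ℝ} {x : E} {Ψ σ : E → ℝ} {B : ℝ}
    (q1 : ∀ ξ, Car.sq2 ξ ≤ 2 * Car.qf a x ξ ξ) (q2 : ∀ ξ, Car.qf a x ξ ξ ≤ 2 * Car.sq2 ξ)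
    (h1 : Car.SA Ψ x) (h2 : Car.SA σ x) (hB : ∀ j, |Car.dd (e j) σ x| ≤ B) :
    Car.qq e a (fun y => Ψ y + σ y / 2) x ≤ 2 * Car.qq e a Ψ x + Fintype.card κ * B ^ 2 := by
  have e0 : ∀ f : E → ℝ, Car.qq e a f x = Car.qf a x (Car.gr e f x) (Car.gr e f x) := fun f =>
    (Finset.sum_congr rfl fun i _ => mul_comm _ _).trans (Car.qf_eq _ f).symm
  have e1 : Car.gr e (fun y => Ψ y + σ y / 2) x =
      fun i => Car.gr e Ψ x i + 1 / 2 * Car.gr e σ x i := funext fun i => by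
    have e2 : (fun y => Ψ y + σ y / 2) = fun y => Ψ y + 1 / 2 * σ y := funext fun y => by ring
    rw [Car.gr, e2, Car.dd_add h1 (contDiffAt_const.mul h2), Car.dd_cmul _ h2]
    rfl
  have e3 : ∀ ξ η : κ → ℝ, Car.qf a x (fun i => ξ i + 1 / 2 * η i) (fun i => ξ i + 1 / 2 * η i) +
      Car.qf a x (fun i => ξ i - 1 / 2 * η i) (fun i => ξ i - 1 / 2 * η i) =
      2 * Car.qf a x ξ ξ + 1 / 2 * Car.qf a x η η := fun ξ η => by
    simp only [Car.qf, Finset.mul_sum, ← Finset.sum_add_distrib]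
    exact Finset.sum_congr rfl fun i _ => Finset.sum_congr rfl fun j _ => by ring
  have e4 : Car.sq2 (Car.gr e σ x) ≤ Fintype.card κ * B ^ 2 := by
    rw [← Finset.card_univ, ← nsmul_eq_mul]
    exact Finset.sum_le_card_nsmul _ _ _ fun j _ =>
      (sq_abs _).symm.trans_le (pow_le_pow_left₀ (abs_nonneg _) (hB j) 2)
  rw [e0, e0, e1]
  linarith [e3 (Car.gr e Ψ x) (Car.gr e σ x), q2 (Car.gr e σ x),
    q1 fun i => Car.gr e Ψ x i - 1 / 2 * Car.gr e σ x i,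
    Car.sq2_nonneg fun i => Car.gr e Ψ x i - 1 / 2 * Car.gr e σ x i]

variable {n : ℕ} [NeZero n] {P : Par} {g g' : Mf n} {M : ℝ} {J : ℕ} {p : V n × V n}
  {r C δ t : ℝ}

theorem eh2_b (j : Fin n) : Car.dd (e2 j) (P.b1 : V n × V n → ℝ) p = 0 ∧
    Car.dd (e1 j) (P.b2 : V n × V n → ℝ) p = 0 :=
  ⟨congrFun (eb_dd12 (f := fun y => Real.log (P.b y)) j).1 p,
    congrFun (eb_dd12 (f := fun y => Real.log (P.b y)) j).2 p⟩

theorem eh2_σ (h : Cx P g g' M J p r C δ t) (v : V n × V n) :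
    Car.dd v (P.dt g g' M J).σ p = (2 - n) * (Car.dd v P.b1 p + Car.dd v P.b2 p) :=
  (Car.dd_cmul _ (h.geo.s1.add h.geo.s2) v).trans (by rw [Car.dd_add h.geo.s1 h.geo.s2])

theorem eh2_m (h : Cx P g g' M J p r C δ t) (v : V n × V n) :
    Car.SA (P.dt g g' M J).m p ∧ Car.dd v (P.dt g g' M J).m p =
      (P.dt g g' M J).m p * (-n * (Car.dd v P.b1 p + Car.dd v P.b2 p)) :=
  ⟨(contDiffAt_const.mul (h.geo.s1.add h.geo.s2)).exp,
    (Car.dd_exp (contDiffAt_const.mul (h.geo.s1.add h.geo.s2)) v).trans (by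
      rw [Car.dd_cmul _ (h.geo.s1.add h.geo.s2), Car.dd_add h.geo.s1 h.geo.s2]
      rfl)⟩

omit [NeZero n] in
theorem eh2_ex {f : V n × V n → ℝ} (h : Car.SA f p) (v : V n × V n) :
    Car.SA (fun q => Real.exp (2 * f q)) p ∧
      Car.dd v (fun q => Real.exp (2 * f q)) p = Real.exp (2 * f p) * (2 * Car.dd v f p) :=
  ⟨(contDiffAt_const.mul h).exp, by rw [Car.dd_exp (contDiffAt_const.mul h), Car.dd_cmul _ h]⟩

theorem eh2_Ef (h : Cx P g g' M J p r C δ t) (k : Fin n) : (P.dt g g' M J).Ef k p =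
    (P.dt g g' M J).m p * Real.exp (2 * P.b1 p) * Car.fx e1 (a1 g) (P.mu g g') k p := by
  have s1 : Car.SA (fun q => 1 + P.mu g g' q) p := contDiffAt_const.add h.geo.sμ
  have e : ∀ j, Car.dd (e1 j) (P.dt g g' M J).l1 p = Car.dd (e1 j) (P.mu g g') p *
      Real.exp (2 * P.b1 p) + (P.dt g g' M J).l1 p * (2 * Car.dd (e1 j) P.b1 p) := fun j =>
    (Car.dd_mul s1 (eh2_ex h.geo.s1 (e1 j)).1 _).trans (by
      rw [(eh2_ex h.geo.s1 (e1 j)).2, Car.dd_add contDiffAt_const h.geo.sμ, Car.dd_const, zero_add,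
        ← mul_assoc]
      rfl)
  have s2 : Car.SA (P.dt g g' M J).l1 p := s1.mul (eh2_ex h.geo.s1 0).1
  change Car.fx e1 (a1 g) _ k p - _ * Car.fx e1 (a1 g) _ k p = _
  simp only [Car.fx, smul_eq_mul, Finset.mul_sum, ← Finset.sum_sub_distrib]
  refine Finset.sum_congr rfl fun j _ => ?_
  rw [Car.dd_mul (eh2_m h 0).1 s2, (eh2_m h _).2, e, eh2_σ h, (eh2_b j).2]
  ring

theorem eh2_two (h : Cx P g g' M J p r C δ t) (k : Fin n) :
    Car.fx e2 (a2 g') (fun y => (P.dt g g' M J).m y * (P.dt g g' M J).l2 y) k p =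
      (P.dt g g' M J).m p * (P.dt g g' M J).l2 p * Car.fx e2 (a2 g') (P.dt g g' M J).σ k p := by
  have e : ∀ v, Car.dd v (P.dt g g' M J).l2 p = (P.dt g g' M J).l2 p * (2 * Car.dd v P.b2 p) :=
    fun v => (eh2_ex h.geo.s2 v).2
  have s2 : Car.SA (P.dt g g' M J).l2 p := (eh2_ex h.geo.s2 0).1
  simp only [Car.fx, smul_eq_mul, Finset.mul_sum]
  refine Finset.sum_congr rfl fun j _ => ?_
  rw [Car.dd_mul (eh2_m h 0).1 s2, (eh2_m h _).2, e, eh2_σ h, (eh2_b j).1]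
  ring

theorem eh2_num {k N r v t : ℝ} (k0 : 0 < k) (tk : 1 ≤ t * k) (r0 : 0 < r) (rt : r ≤ t)
    (N0 : 0 ≤ N) (Nr : N * r ≤ t) (hv : 1 ≤ r ^ 2 * v) (t1 : t ≤ 1) :
    1 ≤ k ∧ N ^ 2 ≤ t * (k ^ 2 * v) ∧ N * k ≤ t * (k ^ 2 * v) := by
  have k1 : 1 ≤ k := tk.trans (mul_le_of_le_one_left k0.le t1)
  have t0 : 0 ≤ t := r0.le.trans rt
  have v0 : 0 ≤ v := le_of_mul_le_mul_left
    (by rw [mul_zero]; exact zero_le_one.trans hv) (pow_pos r0 2)
  have v1 : v ≤ k ^ 2 * v := le_mul_of_one_le_left v0 (one_le_pow₀ k1)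
  refine ⟨k1, ?_, ?_⟩
  · calc N ^ 2 ≤ N ^ 2 * (r ^ 2 * v) := le_mul_of_one_le_right (sq_nonneg N) hv
      _ = N * r * (N * r) * v := by ring
      _ ≤ t * 1 * (k ^ 2 * v) := by gcongr; exact Nr.trans t1
      _ = _ := by ring
  · calc N * k ≤ N * k * (r ^ 2 * v) := le_mul_of_one_le_right (by positivity) hv
      _ = N * r * (r * 1 * (k * v)) := by ring
      _ ≤ t * (1 * k * (k * v)) := by gcongr; exact rt.trans t1
      _ = _ := by ring

theorem eh2 (n : ℕ) [NeZero n] : Sml n Dt.H2 := by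
  intro C
  refine ⟨(100000 * ((n : ℝ) ^ 3 * (n + 2) ^ 2 * C ^ 2) + 1)⁻¹, by positivity,
    fun P g g' M J p r δ t ht h => ?_⟩
  have n1 : (1 : ℝ) ≤ n := by exact_mod_cast NeZero.one_le
  have C1 := h.C1
  have δ0 := h.δ0
  have t0 : 0 < t := δ0.trans_le h.δt
  have N0 : 0 ≤ P.N := zero_le_one.trans h.N1
  obtain ⟨Z, hZ⟩ : ∃ Z, Z = (n : ℝ) ^ 3 * (n + 2) ^ 2 * C ^ 2 := ⟨_, rfl⟩
  have z0 : (n : ℝ) ≤ n ^ 3 := le_self_pow₀ n1 (by norm_num)
  have z1 : 1 ≤ ((n : ℝ) + 2) ^ 2 := one_le_pow₀ (by linarith)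
  have z2 : (n : ℝ) ^ 3 ≤ Z := by
    rw [hZ, mul_assoc]
    exact le_mul_of_one_le_right (by positivity) (one_le_mul_of_one_le_of_one_le z1 (one_le_pow₀ C1))
  have z3 : C ≤ Z := by
    rw [hZ]
    exact (le_self_pow₀ C1 two_ne_zero).trans (le_mul_of_one_le_left (sq_nonneg C)
      (one_le_mul_of_one_le_of_one_le (n1.trans z0) z1))
  have z4 : n * ((n : ℝ) + 2) ^ 2 * C ^ 2 ≤ Z := by
    rw [hZ]
    gcongr
  have tZ : ∀ X, X ≤ 100000 * Z → t * X ≤ 1 := fun X hX => by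
    rw [← hZ, le_inv_comm₀ t0 (by linarith), ← one_div, le_div_iff₀' t0] at ht
    exact (mul_le_mul_of_nonneg_left (by linarith) t0.le).trans ht
  have t1 : t * 25 ≤ 1 := tZ 25 (by linarith)
  have q := h.q1 (tZ _ (by linarith))
  obtain ⟨-, -, l2, -, -, -, l3, -, -, l4⟩ := h.l12 (tZ _ (by linarith))
  obtain ⟨k0, tk, rδ, Nr, -, sΨ, -⟩ := h.k
  obtain ⟨A1, A2⟩ := h.a.2.2.2.2 (by linarith [h.δt])
  obtain ⟨V1, V2⟩ := h.Vq.self_of_nhds
  obtain ⟨k1, b1, b2⟩ := eh2_num k0 tk h.r0 (rδ.trans h.δt) N0 (Nr.trans h.δt) h.geo.n1l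
    (by linarith)
  have V3 := mul_le_mul_of_nonneg_left l4 (sq_nonneg (kk M J (P.Th g' p)))
  rw [mul_left_comm, ← V2] at V3
  rw [← V1] at b1 b2 V3
  have sσ : Car.SA (P.dt g g' M J).σ p := contDiffAt_const.mul (h.geo.s1.add h.geo.s2)
  have a2n : |(2 : ℝ) - n| ≤ n + 2 := abs_le.2 ⟨by linarith, by linarith⟩
  have d1 : ∀ j, |Car.dd (e1 j) (P.dt g g' M J).σ p| ≤ (n + 2) * (C * P.N) := fun j => by
    rw [eh2_σ h, (eh2_b j).2, add_zero, abs_mul]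
    exact mul_le_mul a2n (h.geo.p1 j) (abs_nonneg _) (by positivity)
  have d2 : ∀ j, |Car.dd (e2 j) (P.dt g g' M J).σ p| ≤ (n + 2) * (C * P.N) := fun j => by
    rw [eh2_σ h, (eh2_b j).1, zero_add, abs_mul]
    exact mul_le_mul a2n (h.geo.p2 j) (abs_nonneg _) (by positivity)
  have m0 : 0 < (P.dt g g' M J).m p := Real.exp_pos _
  have eg : (P.dt g g' M J).g p = P.κ * P.N / 4 * kk M J (P.Th g' p) *
      ((P.dt g g' M J).m p * (P.dt g g' M J).l2 p ^ 2) := rfl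
  have u1 := eh2_qq (fun ξ => (q ξ).1) (fun ξ => (q ξ).2.1) sΨ sσ d1
  have u2 := eh2_qq (fun ξ => (q ξ).2.2.1) (fun ξ => (q ξ).2.2.2) sΨ sσ d2
  have V0 : 0 ≤ (P.dt g g' M J).V p := nonneg_of_mul_nonneg_right ((sq_nonneg _).trans b1) t0
  have b3 : ∀ c X : ℝ, 0 ≤ X → c * X ≤ 100000 * Z →
      c * (X * P.N ^ 2) ≤ (P.dt g g' M J).V p ∨ c < 0 := fun c X hX hc => by
    refine (le_or_gt 0 c).imp_left fun c0 => ?_
    calc c * (X * P.N ^ 2) ≤ c * (X * (t * (P.dt g g' M J).V p)) := by gcongr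
      _ = t * (c * X) * (P.dt g g' M J).V p := by ring
      _ ≤ _ := mul_le_of_le_one_left V0 (tZ _ hc)
  have b4 : n * ((n + 2) * (C * P.N)) ^ 2 ≤ (P.dt g g' M J).V p := by
    have := (b3 1 (n * (n + 2) ^ 2 * C ^ 2) (by positivity) (by linarith)).resolve_right
      (by norm_num)
    linarith
  rw [Fintype.card_fin] at u1 u2
  refine ⟨fun ξ => ?_, eh2_two h, fun ξ => ?_, ?_, u1.trans ?_, u2.trans ?_⟩
  · have c1 : ∀ k, |(P.dt g g' M J).Ef k p| ≤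
        (P.dt g g' M J).m p * (2 * (P.dt g g' M J).l2 p) * (n * 2 * δ) := fun k => by
      have c2 := eb_fx A1 h.geo.μ1 k
      rw [Fintype.card_fin] at c2
      rw [eh2_Ef h, abs_mul, abs_of_pos (by positivity)]
      gcongr
    refine (eb_dp c1 ξ).trans ?_
    change _ ≤ _ * Car.qf (a1 g) p ξ ξ / 100
    have c2 : 12800 * (n : ℝ) ^ 3 * δ ^ 2 ≤ P.κ * P.N * kk M J (P.Th g' p) := by
      have c3 := tZ (12800 * n ^ 3) (by linarith)
      have c4 : δ ^ 2 ≤ t := by nlinarith [h.δt]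
      have c5 := one_le_mul_of_one_le_of_one_le h.κN k1
      nlinarith [mul_le_mul_of_nonneg_left c4 (by positivity : (0 : ℝ) ≤ 12800 * n ^ 3)]
    have c3 := (q ξ).1
    have c4 := Car.sq2_nonneg ξ
    rw [Fintype.card_fin, eg]
    generalize Car.qf (a1 g) p ξ ξ = Q at *
    calc _ = 12800 * (n : ℝ) ^ 3 * δ ^ 2 * Car.sq2 ξ *
          (((P.dt g g' M J).m p * (P.dt g g' M J).l2 p) ^ 2 / 800) := by ring
      _ ≤ P.κ * P.N * kk M J (P.Th g' p) * (2 * Q) *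
          (((P.dt g g' M J).m p * (P.dt g g' M J).l2 p) ^ 2 / 800) := by
        gcongr
        exact le_trans (by positivity) c2
      _ = _ := by ring
  · refine (eb_dp (eb_fx A1 d1) ξ).trans ?_
    change _ ≤ _ * Car.qf (a1 g) p ξ ξ / 10000
    have c2 := (b3 80000 (n ^ 3 * (n + 2) ^ 2 * C ^ 2) (by positivity) (by linarith)).resolve_right
      (by norm_num)
    have c3 := mul_le_mul c2 (q ξ).1 (Car.sq2_nonneg ξ) V0
    rw [Fintype.card_fin]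
    linarith
  · have c1 : P.κ * P.N / 4 * kk M J (P.Th g' p) ≤ (P.dt g g' M J).V p / 100 := by
      have c2 := mul_le_mul_of_nonneg_right h.κ1 (mul_nonneg N0 k0.le)
      have c3 := mul_le_mul_of_nonneg_right t1 V0
      linarith
    have c4 := mul_le_mul_of_nonneg_left c1 (mul_pos m0 (pow_pos l2 2)).le
    rw [eg]
    linarith
  · change 2 * (P.dt g g' M J).V p + _ ≤ _
    linarith
  · linarith

end Vale.Agent.P088F
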