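import Vale.Agent.P088F.EB0

/-! P088F, part E: the zero order error. -/

open MeasureTheory Set Filter Topology
open scoped ContDiff

noncomputable section

namespace Vale.Agent.P088F

open Vale.Agent.P292E Vale.Agent.P088

theorem eh3_side {E : Type} [NormedAddCommGroup E] [NormedSpace ℝ E] {n : ℕ} {e : Fin n → E}
    {a : Fin n → Fin n → E → ℝ} {Θ Ψ σ b b' : E → ℝ} {x : E} {c k k' B : ℝ}
    (ha : ∀ i j, Car.SA (a i j) x) (hs : ∀ i j, a i j x = a j i x) (a0 : ∀ i j, |a i j x| ≤ 2)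
    (a1 : ∀ i j k, |Car.dd (e i) (a j k) x| ≤ 1) (hΨ : Car.SA Ψ x) (hb : Car.SA b x)
    (hb' : Car.SA b' x) (h0 : ∀ j, Car.dd (e j) b' = fun _ => 0)
    (hσ : σ = fun y => c * (b y + b' y)) (hB : 0 ≤ B) (p1 : ∀ j, |Car.dd (e j) b x| ≤ B)
    (p2 : ∀ i j, |Car.dd (e i) (Car.dd (e j) b) x| ≤ B)
    (f1 : ∀ i, Car.fx e a Ψ i x = -k * Car.fx e a Θ i x)
    (f2 : Car.dv e a Ψ x = -k * Car.dv e a Θ x - k' * Car.qq e a Θ x)
    (f3 : Car.qq e a Ψ x = k ^ 2 * Car.qq e a Θ x) :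
    |Car.dv e a (fun y => Ψ y + σ y / 2) x + Car.qq e a (fun y => Ψ y + σ y / 2) x -
      ((k ^ 2 - k') * Car.qq e a Θ x - k * (Car.dv e a Θ x + c * Car.al e (Car.fx e a Θ) b x))| ≤
      3 * n ^ 2 * (|c| * B) + 2 * n ^ 2 * (|c| * B) ^ 2 := by
  have sσ : Car.SA σ x := hσ ▸ contDiffAt_const.mul (hb.add hb')
  have d1 : ∀ j, Car.dd (e j) σ =ᶠ[𝓝 x] fun y => c * Car.dd (e j) b y := fun j => by
    filter_upwards [hb.ev 1, hb'.ev 1] with y h1 h2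
    have h3 := h1.differentiableAt one_ne_zero
    have h4 := h2.differentiableAt one_ne_zero
    have h5 : fderiv ℝ b' y (e j) = 0 := congrFun (h0 j) y
    rw [hσ, Car.dd, Car.dd, fderiv_const_mul (h3.fun_add h4), fderiv_fun_add h3 h4]
    simp [h5]
  have d2 : ∀ j, |Car.dd (e j) σ x| ≤ |c| * B := fun j => by
    rw [(d1 j).self_of_nhds, abs_mul]
    exact mul_le_mul_of_nonneg_left (p1 j) (abs_nonneg c)
  have d3 : ∀ i j, |Car.dd (e i) (Car.dd (e j) σ) x| ≤ |c| * B := fun i j => by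
    rw [Car.dd_congr (d1 j), Car.dd_cmul c (hb.dd _), abs_mul]
    exact mul_le_mul_of_nonneg_left (p2 i j) (abs_nonneg c)
  have d4 : Car.al e (Car.fx e a Ψ) σ x = -k * (c * Car.al e (Car.fx e a Θ) b x) := by
    simp only [Car.al, f1, fun j => (d1 j).self_of_nhds, Finset.mul_sum]
    exact Finset.sum_congr rfl fun i _ => by ring
  have cB : 0 ≤ |c| * B := by positivity
  have d5 : |Car.dv e a σ x| ≤ n * (n * (3 * (|c| * B))) := by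
    refine (Finset.abs_sum_le_sum_abs _ _).trans
      ((Finset.sum_le_card_nsmul _ _ (n * (3 * (|c| * B))) fun i _ => ?_).trans_eq (by simp))
    rw [eb_ddfx ha sσ]
    refine (Finset.abs_sum_le_sum_abs _ _).trans
      ((Finset.sum_le_card_nsmul _ _ (3 * (|c| * B)) fun j _ => ?_).trans_eq (by simp))
    refine (abs_add_le _ _).trans ?_
    rw [abs_mul, abs_mul]
    linarith [mul_le_mul (a1 i i j) (d2 j) (abs_nonneg _) zero_le_one,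
      mul_le_mul (a0 i j) (d3 i j) (abs_nonneg _) zero_le_two]
  have d6 : |Car.qq e a σ x| ≤ _ := eb_al (eb_fx a0 d2) d2
  rw [Fintype.card_fin] at d6
  obtain ⟨e1, e2, -⟩ := eb_pot (e := e) ha hs hΨ sσ
  rw [e1, e2, f2, f3, d4, abs_le]
  obtain ⟨d7, d8⟩ := abs_le.1 d5
  obtain ⟨d9, d10⟩ := abs_le.1 d6
  have c1 : 0 ≤ n ^ 2 * (|c| * B) := by positivity
  have c2 : 0 ≤ n ^ 2 * (|c| * B) ^ 2 := by positivity
  constructor <;> linarith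

theorem eh3_num {n : ℕ} {C N : ℝ} (hC : 1 ≤ C) (hN : 1 ≤ N) :
    3 * n ^ 2 * (|2 - (n : ℝ)| * (C * N)) + 2 * n ^ 2 * (|2 - (n : ℝ)| * (C * N)) ^ 2 ≤
      (5 * n ^ 2 * (n + 2) ^ 2 + 1) * C ^ 2 * N ^ 2 := by
  have h0 : (0 : ℝ) ≤ n := Nat.cast_nonneg n
  have h1 : |2 - (n : ℝ)| ≤ n + 2 := abs_le.2 ⟨by linarith, by linarith⟩
  have h2 : 1 ≤ C * N := one_le_mul_of_one_le_of_one_le hC hN
  have h3 : |2 - (n : ℝ)| * (C * N) ≤ (n + 2) * (C * N) :=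
    mul_le_mul_of_nonneg_right h1 (by linarith)
  have h4 : 1 ≤ (n + 2) * (C * N) := one_le_mul_of_one_le_of_one_le (by linarith) h2
  have h5 : (n + 2) * (C * N) ≤ ((n + 2) * (C * N)) ^ 2 := le_self_pow₀ h4 two_ne_zero
  have h6 := pow_le_pow_left₀ (by positivity) h3 2
  have h7 := mul_le_mul_of_nonneg_left (h3.trans h5) (sq_nonneg (n : ℝ))
  have h8 := mul_le_mul_of_nonneg_left h6 (sq_nonneg (n : ℝ))
  nlinarith [sq_nonneg (C * N)]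

theorem eh3_fin {m l1 l2 n1 n2 p1 p2 h1 h2 k k' s A δ t r N w : ℝ} (hm : 0 < m) (l0 : 0 < l1)
    (l0' : 0 < l2) (hl : l1 ≤ 2 * l2) (he : l1 * n1 = l2 * n2) (hA : 0 ≤ A) (hr : 0 < r)
    (e1 : |p1 - ((k ^ 2 - k') * n1 - k * h1)| ≤ A * N ^ 2)
    (e2 : |p2 - ((k ^ 2 - k') * n2 - k * h2)| ≤ A * N ^ 2) (g1 : |h1 - s * n1| ≤ δ / r)
    (g2 : |h2 - s * n2| ≤ δ / r) (hN : r * N ^ 2 ≤ δ) (hk : 1 ≤ k) (δ0 : 0 < δ) (δt : δ ≤ t)
    (ht : t * (60 * (1 + A)) ≤ 1) (hn : 1 ≤ r ^ 2 * n1) (hw : 1 ≤ w) :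
    (m * (l1 * p1 - l2 * p2)) ^ 2 ≤ m * (w / 4 * k * (m * l2 ^ 2)) * (k ^ 2 * n1) / 100 := by
  have k0 : 0 < k := one_pos.trans_le hk
  have q0 : 0 < δ / r := by positivity
  have h3 : A * N ^ 2 ≤ A * (k * (δ / r)) := mul_le_mul_of_nonneg_left
    (((le_div_iff₀' hr).2 hN).trans (le_mul_of_one_le_left q0.le hk)) hA
  have key : ∀ {p h q : ℝ}, |p - ((k ^ 2 - k') * q - k * h)| ≤ A * N ^ 2 → |h - s * q| ≤ δ / r →
      |p - (k ^ 2 - k' - k * s) * q| ≤ (1 + A) * (k * (δ / r)) := fun {p h q} u1 u2 => by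
    obtain ⟨u3, u4⟩ := abs_le.1 u1
    obtain ⟨u5, u6⟩ := abs_le.1 u2
    have u7 := mul_le_mul_of_nonneg_left u5 k0.le
    have u8 := mul_le_mul_of_nonneg_left u6 k0.le
    exact abs_le.2 ⟨by linarith, by linarith⟩
  have h4 : (1 + A) * (k * (δ / r)) ≤ k / r / 60 := by
    have : δ * (60 * (1 + A)) ≤ 1 := (mul_le_mul_of_nonneg_right δt (by positivity)).trans ht
    have := mul_le_mul_of_nonneg_left this (div_pos k0 hr).le
    have e : (1 + A) * (k * (δ / r)) = k / r * (δ * (60 * (1 + A))) / 60 := by ring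
    linarith
  obtain ⟨u1, u2⟩ := abs_le.1 ((key e1 g1).trans h4)
  obtain ⟨u3, u4⟩ := abs_le.1 ((key e2 g2).trans h4)
  have z0 : 0 < k / r := div_pos k0 hr
  have e3 : (k ^ 2 - k' - k * s) * (l1 * n1) = (k ^ 2 - k' - k * s) * (l2 * n2) := by rw [he]
  have h5 : |l1 * p1 - l2 * p2| ≤ l2 * (k / r) / 20 := by
    have v1 := mul_le_mul_of_nonneg_left u1 l0.le
    have v2 := mul_le_mul_of_nonneg_left u2 l0.le
    have v3 := mul_le_mul_of_nonneg_left u3 l0'.le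
    have v4 := mul_le_mul_of_nonneg_left u4 l0'.le
    have v5 := mul_le_mul_of_nonneg_right hl z0.le
    exact abs_le.2 ⟨by linarith, by linarith⟩
  have h6 : (l1 * p1 - l2 * p2) ^ 2 ≤ (l2 * (k / r) / 20) ^ 2 := sq_le_sq' (abs_le.1 h5).1 (abs_le.1 h5).2
  have h7 : (k / r) ^ 2 ≤ w * k * (k ^ 2 * n1) := by
    have v1 : (k / r) ^ 2 ≤ k ^ 2 * n1 := by
      rw [div_pow, div_le_iff₀ (by positivity)]
      nlinarith [mul_le_mul_of_nonneg_left hn (sq_nonneg k)]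
    exact v1.trans (le_mul_of_one_le_left ((sq_nonneg _).trans v1)
      (one_le_mul_of_one_le_of_one_le hw hk))
  have h8 := mul_le_mul_of_nonneg_left h6 (sq_nonneg m)
  have h9 := mul_le_mul_of_nonneg_left h7 (sq_nonneg (m * l2))
  rw [mul_pow]
  linarith

/-- Hint: with `k = kk`, `dv e a Φ + qq e a Φ = (k^2 - k1) n_i - k (dv e a Θ + al (fx e a Θ) σ) +
dv e a σ / 2 + qq e a σ / 4`; multiply by `l1`, `l2`, subtract, use `Cx.null` twice and `geo.h1, geo.h2`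
(`al e1 (fx Θ) σ = (2-n) al e1 (fx Θ) b1`): `|c| ≤ m l2 (3 k δ / r + C' N^2)`, `N^2 ≤ δ / r`, while
`m g V = m^2 l2^2 κ N k^3 n1 / 4`. -/
theorem eh3 (n : ℕ) [NeZero n] : Sml n Dt.H3 := by
  intro C
  have hA : 0 ≤ (5 * (n : ℝ) ^ 2 * (n + 2) ^ 2 + 1) * C ^ 2 := by positivity
  refine ⟨(60 * (1 + (5 * (n : ℝ) ^ 2 * (n + 2) ^ 2 + 1) * C ^ 2))⁻¹, by positivity,
    fun P g g' M J p r δ t ht h => ?_⟩
  have t0 : 0 < t := h.δ0.trans_le h.δt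
  have C1 := h.C1
  have t1 : t * (60 * (1 + (5 * (n : ℝ) ^ 2 * (n + 2) ^ 2 + 1) * C ^ 2)) ≤ 1 :=
    (le_div_iff₀ (by positivity)).1 (by rwa [one_div])
  have C2 : C ≤ (5 * (n : ℝ) ^ 2 * (n + 2) ^ 2 + 1) * C ^ 2 :=
    (le_self_pow₀ C1 two_ne_zero).trans (le_mul_of_one_le_left (sq_nonneg C)
      (le_add_of_nonneg_left (by positivity)))
  have t2 : t * (10 * C) ≤ 1 := (mul_le_mul_of_nonneg_left (by linarith) t0.le).trans t1
  have t3 : t ≤ 1 := by nlinarith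
  have δ1 : δ ≤ 1 := h.δt.trans t3
  obtain ⟨s1, s2, a1, a2, a3⟩ := h.a
  obtain ⟨a3, a4⟩ := a3 δ1
  obtain ⟨k0, k1, -, -, -, sΨ, -⟩ := h.k
  obtain ⟨-, l1, l2, -, -, l3, -⟩ := h.l12 t2
  obtain ⟨v1, v2⟩ := h.Vq.self_of_nhds
  have B0 : 0 ≤ C * P.N := mul_nonneg (by linarith) (by linarith [h.N1])
  have e1 := (eh3_side (σ := (P.dt g g' M J).σ) s1 (fun i j => h.y i j _) a3
    (fun i j k => (a1 i j k).trans δ1) sΨ h.geo.s1 h.geo.s2
    (fun j => (eb_dd12 (f := fun y => Real.log (P.b y)) j).2) rfl B0 h.geo.p1 h.geo.p11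
    (h.fxΨ _ _).self_of_nhds (h.dvΨ _ s1) v1).trans (eh3_num C1 h.N1)
  have e2 := (eh3_side (σ := (P.dt g g' M J).σ) s2 (fun i j => h.y' i j _) a4
    (fun i j k => (a2 i j k).trans δ1) sΨ h.geo.s2 h.geo.s1
    (fun j => (eb_dd12 (f := fun y => Real.log (P.b y)) j).1)
    (funext fun y => congrArg _ (add_comm _ _)) B0 h.geo.p2 h.geo.p22
    (h.fxΨ _ _).self_of_nhds (h.dvΨ _ s2) v2).trans (eh3_num C1 h.N1)
  rw [Dt.H3, v1]
  exact eh3_fin (Real.exp_pos _) l1 l2 l3 h.null hA h.r0 e1 e2 h.geo.h1 h.geo.h2 h.geo.rN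
    (k1.trans (mul_le_of_le_one_left k0.le t3)) h.δ0 h.δt t1 h.geo.n1l h.κN

end Vale.Agent.P088F
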