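import Vale.Agent.P088F.EB0

/-! P088F, part E: the potential error. -/

open MeasureTheory Set Filter Topology
open scoped ContDiff

noncomputable section

namespace Vale.Agent.P088F

open Vale.Agent.P292E Vale.Agent.P088

theorem eh5_num {k κ N t b d q A B D : ℝ} (hk : 0 < k) (ht : 0 < t) (ht1 : t ≤ 1) (htk : 1 ≤ t * k)
    (h1 : |κ| ≤ t * k ^ 2) (hN : 0 < N) (hb : |b| ≤ A * N) (hd : |d| ≤ B * N) (hq : |q| ≤ D * N)
    (hB : 0 ≤ B) (hD : 0 ≤ D) (hK : t * (1 + A + B + D) ≤ 1 / 100) :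
    |-(κ * N) - k * b + d / 2 + q / 4| ≤ k ^ 2 * N / 100 := by
  have h2 : k ≤ t * k ^ 2 := by nlinarith
  have h3 : 1 ≤ t * k ^ 2 := by nlinarith
  have h4 : |κ * N| ≤ t * k ^ 2 * N := by
    rw [abs_mul, abs_of_pos hN]
    gcongr
  have h5 : |k * b| ≤ t * k ^ 2 * (A * N) := by
    rw [abs_mul, abs_of_pos hk]
    gcongr
  have h6 : B * N ≤ t * k ^ 2 * (B * N) := le_mul_of_one_le_left (by positivity) h3
  have h7 : D * N ≤ t * k ^ 2 * (D * N) := le_mul_of_one_le_left (by positivity) h3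
  have h8 : t * (1 + A + B + D) * (k ^ 2 * N) ≤ 1 / 100 * (k ^ 2 * N) := by gcongr
  have h9 := abs_nonneg d
  have h10 := abs_nonneg q
  rw [abs_le] at *
  constructor <;> nlinarith [le_abs_self d, neg_abs_le d, le_abs_self q, neg_abs_le q]

variable {n : ℕ} [NeZero n] {P : Par} {g g' : Mf n} {M : ℝ} {J : ℕ} {p : V n × V n}
  {r C δ t : ℝ}

theorem eh5_dd (h : Cx P g g' M J p r C δ t) (j : Fin n) :
    Car.dd (e1 j) (P.dt g g' M J).σ =ᶠ[𝓝 p] fun q => (2 - n) * Car.dd (e1 j) P.b1 q := by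
  filter_upwards [h.geo.s1.ev 1, h.geo.s2.ev 1] with q h1 h2
  have h3 : Car.dd (e1 j) P.b2 q = 0 :=
    congrFun (eb_dd12 (f := fun x => Real.log (P.b x)) j).2 q
  have h4 := (h1.differentiableAt (by simp)).hasFDerivAt
  have h5 := (h2.differentiableAt (by simp)).hasFDerivAt
  have h6 : fderiv ℝ (P.dt g g' M J).σ q = _ := ((h4.add h5).const_mul (2 - n : ℝ)).fderiv
  simp only [Car.dd] at h3 ⊢
  rw [h6, smul_apply, add_apply, h3, add_zero, smul_eq_mul]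

theorem eh5 (n : ℕ) [NeZero n] : Sml n Dt.H5 := by
  intro C
  set m : ℝ := n + 2 with hm
  have hm0 : 0 < m := by positivity
  have hm1 : |(2 - n : ℝ)| ≤ m := abs_le.2 ⟨by linarith, by linarith [Nat.cast_nonneg (α := ℝ) n]⟩
  set K : ℝ := 1 + (1 + m) + n * (n * (3 * (m * C ^ 2))) + n * (n * 2 * (m * C ^ 2)) * (m * C ^ 2)
    with hK
  have hK1 : 1 ≤ K := by
    have : 0 ≤ (1 + m) + n * (n * (3 * (m * C ^ 2))) + n * (n * 2 * (m * C ^ 2)) * (m * C ^ 2) := by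
      positivity
    linarith
  refine ⟨1 / (100 * K), by positivity, fun P g g' M J p r δ t ht h => ?_⟩
  have ht0 : 0 < t := h.δ0.trans_le h.δt
  have htK : t * K ≤ 1 / 100 := by
    rw [le_div_iff₀ (by positivity)] at ht
    linarith
  have ht1 : t ≤ 1 := by nlinarith
  have hδ1 : δ ≤ 1 := h.δt.trans ht1
  obtain ⟨hk, htk, hr, hNr, -, sΨ, -, -, -⟩ := h.k
  obtain ⟨sa, -, da, -, ba⟩ := h.a
  have sσ : Car.SA (P.dt g g' M J).σ p := contDiffAt_const.mul (h.geo.s1.add h.geo.s2)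
  have hr0 := h.r0
  have hN1 := h.N1
  have hC1 := h.C1
  have hn := h.geo.n1l
  have hn0 : 0 < P.n1 g g' p := pos_of_mul_pos_right (zero_lt_one.trans_le hn) (sq_nonneg r)
  have hN2 : P.N ^ 2 ≤ P.n1 g g' p := by
    have h1 : (P.N * r) ^ 2 ≤ 1 := pow_le_one₀ (by positivity) (hNr.trans hδ1)
    refine le_of_mul_le_mul_left (a := r ^ 2) ?_ (by positivity)
    nlinarith
  have hN3 : P.N ≤ P.n1 g g' p := by nlinarith
  have hCN : C * P.N ≤ C ^ 2 * P.N := by gcongr; nlinarith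
  have d1 : ∀ j, |Car.dd (e1 j) (P.dt g g' M J).σ p| ≤ m * C ^ 2 * P.N := fun j => by
    rw [(eh5_dd h j).self_of_nhds, abs_mul, mul_assoc]
    exact mul_le_mul hm1 ((h.geo.p1 j).trans hCN) (abs_nonneg _) hm0.le
  have d2 : ∀ i j, |Car.dd (e1 i) (Car.dd (e1 j) (P.dt g g' M J).σ) p| ≤ m * C ^ 2 * P.N :=
    fun i j => by
      rw [Car.dd_congr (eh5_dd h j), Car.dd_cmul _ (h.geo.s1.dd _), abs_mul, mul_assoc]
      exact mul_le_mul hm1 ((h.geo.p11 i j).trans hCN) (abs_nonneg _) hm0.le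
  have hd : |Car.dv e1 (a1 g) (P.dt g g' M J).σ p| ≤
      n * (n * (3 * (m * C ^ 2))) * P.n1 g g' p := by
    have h1 : ∀ i, |Car.dd (e1 i) (Car.fx e1 (a1 g) (P.dt g g' M J).σ i) p| ≤
        n * (3 * (m * C ^ 2 * P.N)) := fun i => by
      rw [eb_ddfx sa sσ]
      refine (Finset.abs_sum_le_sum_abs _ _).trans ?_
      refine (Finset.sum_le_card_nsmul _ _ (3 * (m * C ^ 2 * P.N)) fun j _ => ?_).trans (by simp)
      refine (abs_add_le _ _).trans ?_
      rw [abs_mul, abs_mul]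
      have h2 := mul_le_mul ((da i i j).trans hδ1) (d1 j) (abs_nonneg _) zero_le_one
      have h3 := mul_le_mul ((ba hδ1).1 i j) (d2 i j) (abs_nonneg _) zero_le_two
      linarith
    refine (Finset.abs_sum_le_sum_abs _ _).trans ?_
    refine (Finset.sum_le_card_nsmul _ _ _ fun i _ => h1 i).trans ?_
    simp only [Finset.card_univ, Fintype.card_fin, nsmul_eq_mul]
    calc _ = n * (n * (3 * (m * C ^ 2))) * P.N := by ring
      _ ≤ _ := by gcongr
  have hq : |Car.qq e1 (a1 g) (P.dt g g' M J).σ p| ≤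
      n * (n * 2 * (m * C ^ 2)) * (m * C ^ 2) * P.n1 g g' p := by
    refine (eb_al (fun i => eb_fx (ba hδ1).1 d1 i) d1).trans ?_
    simp only [Fintype.card_fin]
    calc _ = n * (n * 2 * (m * C ^ 2)) * (m * C ^ 2) * P.N ^ 2 := by ring
      _ ≤ _ := by gcongr
  have hb : |Car.dv e1 (a1 g) (P.Th g') p + (2 - n) *
      Car.al e1 (Car.fx e1 (a1 g) (P.Th g')) P.b1 p| ≤ (1 + m) * P.n1 g g' p := by
    have h1 := abs_le.1 h.geo.h1
    have h2 : δ / r ≤ P.n1 g g' p := by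
      rw [div_le_iff₀ hr0]
      nlinarith [mul_le_mul_of_nonneg_right (hr.trans hδ1) (mul_pos hr0 hn0).le]
    have h3 := abs_le.1 hm1
    rw [abs_le]
    constructor <;> nlinarith
  have e1' : Car.al e1 (Car.fx e1 (a1 g) (P.dt g g' M J).Ψ) (P.dt g g' M J).σ p =
      -kk M J (P.Th g' p) * ((2 - n) * Car.al e1 (Car.fx e1 (a1 g) (P.Th g')) P.b1 p) := by
    simp only [Car.al, Finset.mul_sum]
    refine Finset.sum_congr rfl fun k _ => ?_
    rw [(h.fxΨ e1 (a1 g)).self_of_nhds k, (eh5_dd h k).self_of_nhds]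
    ring
  obtain ⟨p1, p2, -⟩ := eb_pot (e := e1) sa (fun i j => h.y i j p.1) sΨ sσ
  have e2' : (P.dt g g' M J).c1 p = -(k1 J (P.Th g' p) * P.n1 g g' p) - kk M J (P.Th g' p) *
      (Car.dv e1 (a1 g) (P.Th g') p + (2 - n) * Car.al e1 (Car.fx e1 (a1 g) (P.Th g')) P.b1 p) +
      Car.dv e1 (a1 g) (P.dt g g' M J).σ p / 2 + Car.qq e1 (a1 g) (P.dt g g' M J).σ p / 4 := by
    have h1 : (P.dt g g' M J).c1 p =
        Car.dv e1 (a1 g) (fun y => (P.dt g g' M J).Ψ y + (P.dt g g' M J).σ y / 2) p +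
        Car.qq e1 (a1 g) (fun y => (P.dt g g' M J).Ψ y + (P.dt g g' M J).σ y / 2) p -
        Car.qq e1 (a1 g) (P.dt g g' M J).Ψ p := rfl
    rw [h1, p1, p2, e1', h.dvΨ e1 sa, Par.n1]
    ring
  rw [Dt.H5, e2', h.Vq.self_of_nhds.1]
  exact eh5_num hk ht0 ht1 htk h.tk hn0 hb hd hq (by positivity) (by positivity) htK

end Vale.Agent.P088F
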