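import Vale.Agent.P088F.EB0

/-! P088F, part E: the first auxiliary multiplier. -/

open MeasureTheory Set Filter Topology
open scoped ContDiff

noncomputable section

namespace Vale.Agent.P088F

open Vale.Agent.P292E Vale.Agent.P088

theorem eh6_num {n C t : ℝ} (hn : 0 ≤ n) (hC : 1 ≤ C) (t0 : 0 < t)
    (ht : t ≤ 1 / (1000 * ((n + 1) ^ 3 * (C ^ 2 + 1)))) :
    t ≤ 1 ∧ t * (2 * n) ≤ 1 ∧ n * (n * 2 * (t * C * (n + 1))) ^ 2 * 2 ≤ 1 / 10000 ∧
      n * (n * 2 * C) * (t * C * (n + 1)) + n * (n * (3 * C)) * t + t ≤ 1 / 100 := by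
  obtain ⟨m, hm⟩ : ∃ m, m = n + 1 := ⟨_, rfl⟩
  have m1 : 1 ≤ m := by linarith
  have m2 : n ≤ m := by linarith
  rw [← hm] at ht ⊢
  rw [le_div_iff₀ (by positivity)] at ht
  have h1 : t * (m ^ 3 * C ^ 2) ≤ 1 / 1000 := by
    have : 0 ≤ t * m ^ 3 := by positivity
    linarith
  have a1 : m ^ 2 ≤ m ^ 3 := pow_le_pow_right₀ m1 (by omega)
  have a2 : m ≤ m ^ 3 := le_self_pow₀ m1 (by omega)
  have a3 : C ≤ C ^ 2 := le_self_pow₀ hC (by omega)
  have b1 : t * (m * 1) ≤ t * (m ^ 3 * C ^ 2) := by gcongr; linarith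
  have b2 : t * (m ^ 2 * C) ≤ t * (m ^ 3 * C ^ 2) := by gcongr
  have b3 : t * 1 ≤ t * m := by gcongr
  have b4 : t * n ≤ t * m := by gcongr
  refine ⟨by linarith, by linarith, ?_, ?_⟩
  · calc _ ≤ m ^ 2 * (m * 2 * (t * C ^ 2 * m)) ^ 2 * 2 := by
          gcongr
          exact m2.trans (le_self_pow₀ m1 (by omega))
      _ = 8 * (t * (m ^ 3 * C ^ 2)) ^ 2 := by ring
      _ ≤ 8 * (1 / 1000) ^ 2 := by gcongr
      _ ≤ _ := by norm_num
  · calc _ ≤ m * (m * 2 * C) * (t * C * m) + m * (m * (3 * C)) * t + t := by gcongr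
      _ = 2 * (t * (m ^ 3 * C ^ 2)) + 3 * (t * (m ^ 2 * C)) + t := by ring
      _ ≤ _ := by linarith

/-- Hint: `dd (e1 j) g = g (k1 / k * dd (e1 j) Θ - n dd (e1 j) b1)` (`Cx.ddg`), so it is at most
`g (t k C / r + n C N)`; `dg e1 gY = g dv e1 a1 Ψ + al e1 Y g`, `Cx.dvΨ`. -/
theorem eh6 (n : ℕ) [NeZero n] : Sml n Dt.H6 := by
  intro C
  refine ⟨1 / (1000 * ((n + 1) ^ 3 * (C ^ 2 + 1))), by positivity,
    fun P g g' M J p r δ t ht h => ?_⟩
  obtain ⟨k0, tk, r1, r2, -, sΨ, -, -, -⟩ := h.k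
  obtain ⟨sa, -, da, -, ba⟩ := h.a
  have C1 := h.C1
  have r0 := h.r0
  have δ0 := h.δ0
  have δt := h.δt
  have t0 : 0 < t := δ0.trans_le δt
  obtain ⟨t1, t2, t3, t4⟩ := eh6_num (Nat.cast_nonneg n) C1 t0 ht
  have ba := (ba (δt.trans t1)).1
  have hV := h.Vq.self_of_nhds.1
  have hY := (h.fxΨ e1 (a1 g)).self_of_nhds
  have hΨ := h.dvΨ e1 sa
  have hg := h.ddg
  have hk := h.tk
  have G0 := (hg 0).2.1
  generalize kk M J (P.Th g' p) = k at k0 tk hV hY hΨ hg hk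
  obtain ⟨u, hu⟩ : ∃ u, u = k / r := ⟨_, rfl⟩
  have u0 : 0 < u := hu ▸ div_pos k0 r0
  have uV : u ^ 2 ≤ (P.dt g g' M J).V p := by
    rw [hV, hu, div_pow, div_le_iff₀ (by positivity), mul_assoc, mul_comm _ (r ^ 2)]
    exact le_mul_of_one_le_right (by positivity) h.geo.n1l
  have k1' : 1 ≤ k := tk.trans (mul_le_of_le_one_left k0.le t1)
  have Nu : P.N ≤ t * u := by
    rw [hu, ← mul_div_assoc, le_div_iff₀ r0]
    exact (r2.trans δt).trans (le_mul_of_one_le_right t0.le k1')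
  have hB : ∀ j, |Car.dd (e1 j) (P.dt g g' M J).g p| ≤
      (P.dt g g' M J).g p * u * (t * C * (n + 1)) := fun j => by
    rw [(hg j).2.2, abs_mul, abs_of_pos G0, mul_assoc]
    refine mul_le_mul_of_nonneg_left ((abs_sub _ _).trans ?_) G0.le
    have a1 : |k1 J (P.Th g' p) / k| ≤ t * k := by
      rw [abs_div, abs_of_pos k0, div_le_iff₀ k0, mul_assoc, ← sq]
      exact hk
    rw [abs_mul, abs_mul, Nat.abs_cast]
    calc _ ≤ t * k * (C / r) + n * (C * (t * u)) := by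
          gcongr
          · exact h.geo.d1 j
          · exact (h.geo.p1 j).trans (mul_le_mul_of_nonneg_left Nu (by linarith))
      _ = _ := by rw [hu]; ring
  refine ⟨fun ξ => ?_, ?_⟩
  · refine (eb_dp (fun i => eb_fx ba hB i) ξ).trans ?_
    have q1 := (h.q1 t2 ξ).1
    have q0 : 0 ≤ Car.qf (a1 g) p ξ ξ := by linarith [Car.sq2_nonneg ξ]
    rw [Fintype.card_fin]
    calc _ ≤ n * (n * 2 * ((P.dt g g' M J).g p * u * (t * C * (n + 1)))) ^ 2 *
          (2 * Car.qf (a1 g) p ξ ξ) := by gcongr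
      _ = (P.dt g g' M J).g p ^ 2 * u ^ 2 * Car.qf (a1 g) p ξ ξ *
          (n * (n * 2 * (t * C * (n + 1))) ^ 2 * 2) := by ring
      _ ≤ (P.dt g g' M J).g p ^ 2 * (P.dt g g' M J).V p * Car.qf (a1 g) p ξ ξ * (1 / 10000) := by
          gcongr
          exact mul_nonneg (mul_nonneg (sq_nonneg _) ((sq_nonneg u).trans uV)) q0
      _ = _ := mul_one_div _ _
  have e : Car.dg (P.dt g g' M J).e1 (P.dt g g' M J).gY p =
      Car.al e1 (Car.fx e1 (a1 g) (P.dt g g' M J).Ψ) (P.dt g g' M J).g p +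
        (P.dt g g' M J).g p * Car.dv e1 (a1 g) (P.dt g g' M J).Ψ p := by
    rw [Car.al, Car.dv, Finset.mul_sum, ← Finset.sum_add_distrib]
    refine Finset.sum_congr rfl fun i _ => (Car.dd_mul (hg 0).1 (Car.sa_fx sa sΨ i) _).trans ?_
    rw [mul_comm]
    rfl
  have b1 : ∀ i, |Car.fx e1 (a1 g) (P.dt g g' M J).Ψ i p| ≤ u * (n * 2 * C) := fun i => by
    rw [hY, abs_mul, abs_neg, abs_of_pos k0]
    refine (mul_le_mul_of_nonneg_left (eb_fx ba h.geo.d1 i) k0.le).trans (le_of_eq ?_)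
    rw [hu, Fintype.card_fin]
    ring
  have b2 := eb_al b1 hB
  have b3 : |Car.dv e1 (a1 g) (P.Th g') p| ≤ n * (n * (3 * C / r ^ 2)) := by
    have c1 : δ * (C / r) ≤ C / r ^ 2 := by
      rw [← mul_div_assoc, div_le_div_iff₀ r0 (by positivity)]
      calc δ * C * r ^ 2 = δ * r * (C * r) := by ring
        _ ≤ 1 * 1 * (C * r) := by gcongr <;> linarith
        _ = _ := by ring
    refine (Finset.abs_sum_le_sum_abs _ _).trans ((Finset.sum_le_card_nsmul _ _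
      (n * (3 * C / r ^ 2)) fun i _ => ?_).trans (by simp))
    rw [eb_ddfx sa h.geo.sm]
    refine (Finset.abs_sum_le_sum_abs _ _).trans ((Finset.sum_le_card_nsmul _ _
      (3 * C / r ^ 2) fun j _ => (abs_add_le _ _).trans ?_).trans (by simp))
    rw [abs_mul, abs_mul]
    calc _ ≤ δ * (C / r) + 2 * (C / r ^ 2) := by
          gcongr
          exacts [da i i j, h.geo.d1 j, ba i j, h.geo.d11 i j]
      _ ≤ C / r ^ 2 + 2 * (C / r ^ 2) := by gcongr
      _ = _ := by ring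
  have n0 : 0 ≤ P.n1 g g' p := by
    have := h.geo.n1l
    by_contra h0
    nlinarith [sq_nonneg r]
  have b4 : |Car.dv e1 (a1 g) (P.dt g g' M J).Ψ p| ≤
      u ^ 2 * (n * (n * (3 * C)) * t) + (P.dt g g' M J).V p * t := by
    rw [hΨ]
    refine (abs_sub _ _).trans ?_
    rw [abs_mul, abs_mul, abs_neg, abs_of_pos k0, hV]
    refine add_le_add ?_ ?_
    · calc _ ≤ k * (t * k) * (n * (n * (3 * C / r ^ 2))) :=
            mul_le_mul (le_mul_of_one_le_right k0.le tk) b3 (abs_nonneg _) (by positivity)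
        _ = _ := by rw [hu]; ring
    · calc _ ≤ t * k ^ 2 * P.n1 g g' p :=
            mul_le_mul hk (abs_of_nonneg n0).le (abs_nonneg _) (by positivity)
        _ = _ := by ring
  rw [e, Fintype.card_fin] at *
  refine (abs_add_le _ _).trans ?_
  rw [abs_mul, abs_of_pos G0]
  calc _ ≤ n * (u * (n * 2 * C)) * ((P.dt g g' M J).g p * u * (t * C * (n + 1))) +
        (P.dt g g' M J).g p * (u ^ 2 * (n * (n * (3 * C)) * t) + (P.dt g g' M J).V p * t) := by
        gcongr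
    _ = (P.dt g g' M J).g p * (u ^ 2 * (n * (n * 2 * C) * (t * C * (n + 1)) +
        n * (n * (3 * C)) * t) + (P.dt g g' M J).V p * t) := by ring
    _ ≤ (P.dt g g' M J).g p * ((P.dt g g' M J).V p * (n * (n * 2 * C) * (t * C * (n + 1)) +
        n * (n * (3 * C)) * t) + (P.dt g g' M J).V p * t) := by gcongr
    _ = (P.dt g g' M J).g p * (P.dt g g' M J).V p * (n * (n * 2 * C) * (t * C * (n + 1)) +
        n * (n * (3 * C)) * t + t) := by ring
    _ ≤ (P.dt g g' M J).g p * (P.dt g g' M J).V p * (1 / 100) :=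
        mul_le_mul_of_nonneg_left t4 (mul_nonneg G0.le ((sq_nonneg u).trans uV))
    _ = _ := mul_one_div _ _

end Vale.Agent.P088F
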