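import Vale.Agent.P088F.EB0
import Vale.Agent.P088F.AUb

/-! P088F, part E: the second auxiliary multiplier. -/

open MeasureTheory Set Filter Topology
open scoped ContDiff

noncomputable section

namespace Vale.Agent.P088F

open Vale.Agent.P292E Vale.Agent.P088

theorem EH7_sum {κ : Type} [Fintype κ] {f : κ → ℝ} {b : ℝ} (h : ∀ i, |f i| ≤ b) :
    |∑ i, f i| ≤ Fintype.card κ * b :=
  (Finset.abs_sum_le_sum_abs _ _).trans ((Finset.sum_le_card_nsmul _ _ b fun i _ => h i).trans_eq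
    (by rw [nsmul_eq_mul, Finset.card_univ]))

theorem EH7_mul {a b A B : ℝ} (h : |a| ≤ A) (h' : |b| ≤ B) : |a * b| ≤ A * B := by
  rw [abs_mul]
  exact mul_le_mul h h' (abs_nonneg _) ((abs_nonneg _).trans h)

theorem EH7_abs {E : Type} [NormedAddCommGroup E] [NormedSpace ℝ E] {κ : Type} [Fintype κ]
    {e : κ → E} {a : κ → κ → E → ℝ} {x : E} {X : κ → E → ℝ} {B : ℝ} (h1 : ∀ i j, |a i j x| ≤ 2)
    (h2 : ∀ k i j, |Car.dd (e k) (a i j) x| ≤ 1) (h3 : ∀ k, |X k x| ≤ B)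
    (h4 : ∀ i k, |Car.dd (e i) (X k) x| ≤ B) (ξ : κ → ℝ) :
    |Car.LL e a X x ξ - Car.dg e X x * Car.qf a x ξ ξ| ≤
      7 * (Fintype.card κ : ℝ) ^ 3 * B * Car.sq2 ξ := by
  refine Car.hom_bd (H := fun ξ => Car.LL e a X x ξ - Car.dg e X x * Car.qf a x ξ ξ)
    (fun t ξ => by rw [Car.LL_smul, Car.qf_smul]; ring) (fun ξ h => ?_) ξ
  have k1 := EH7_sum fun i => EH7_sum fun k => EH7_mul (EH7_mul
    (EH7_sum fun j => EH7_mul (h1 i j) (h j)) (h4 i k)) (h k)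
  have k2 := EH7_sum fun k => EH7_mul (h3 k) (EH7_sum fun i => EH7_sum fun j =>
    EH7_mul (EH7_mul (h2 k i j) (h i)) (h j))
  have k3 := EH7_mul (EH7_sum fun k => h4 k k) (EH7_sum fun i => EH7_sum fun j =>
    EH7_mul (EH7_mul (h1 i j) (h i)) (h j))
  simp only [Car.LL, Car.dg, Car.qf]
  rw [abs_le] at k1 k2 k3 ⊢
  constructor <;> nlinarith [k1.1, k1.2, k2.1, k2.2, k3.1, k3.2]

theorem EH7_inv {E : Type} [NormedAddCommGroup E] [NormedSpace ℝ E] {f : E → ℝ} {x : E}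
    (h : Car.SA f x) (h0 : f x ≠ 0) (v : E) :
    Car.dd v (fun y => (f y)⁻¹) x = -(Car.dd v f x * ((f x)⁻¹ * (f x)⁻¹)) := by
  have h1 := ((hasDerivAt_inv h0).comp_hasFDerivAt x h.df.hasFDerivAt).fderiv
  simp only [Car.dd]
  rw [show (fun y => (f y)⁻¹) = (fun y : ℝ => y⁻¹) ∘ f from rfl, h1, smul_apply, smul_eq_mul]
  field_simp

/-- Hint: near `p`, `hY j = f * fx e1 a1 Θ j` with `f = -g / (k n1)` (`Cx.Vq`, `Cx.fxΨ`), and
`g / k = κ N / 4 * m l2^2`, so `dd (e1 j) f = f (-n dd b1 - dd n1 / n1)` is at most `|f| C' / r`.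
All entries `hY j`, `dd (e1 i) (hY j)` are bounded by `|f| C' / r`, `|f| C' / r^2` and
`|f| / r^2 ≤ g / k ≤ t g`. Then bound `LL` and `dg` termwise, `sq2 ξ ≤ 2 qf`. -/
theorem eh7 (n : ℕ) [NeZero n] : Sml n Dt.H7 := by
  intro C
  obtain ⟨K, hK⟩ : ∃ K : ℝ, K = 2 * n * (n + 1) * C ^ 2 + 3 * n * |C| := ⟨_, rfl⟩
  have K0 : 0 ≤ K := by rw [hK]; positivity
  have n1 : (1 : ℝ) ≤ n := Nat.one_le_cast.2 (Nat.pos_of_ne_zero (NeZero.ne n))
  refine ⟨1 / (1400 * n ^ 3 * K + 2 * n), by positivity, fun P g g' M J p r δ t ht h ξ => ?_⟩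
  have t0 : 0 < t := h.δ0.trans_le h.δt
  rw [le_div_iff₀ (by positivity)] at ht
  have t3 : 0 ≤ t * (1400 * n ^ 3 * K) := by positivity
  have t1 : t * (2 * n) ≤ 1 := by linarith
  have t2 : t * (1400 * n ^ 3 * K) ≤ 1 := by nlinarith
  have δ1 : δ ≤ 1 := h.δt.trans (by nlinarith)
  obtain ⟨sa, -, da, -, ba⟩ := h.a
  obtain ⟨k0, k1, rδ, Nr, sk, -, sn, -, -⟩ := h.k
  have r0 := h.r0
  have r1 : r ≤ 1 := rδ.trans δ1
  have C0 : 0 < C := one_pos.trans_le h.C1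
  rw [abs_of_pos C0] at hK
  obtain ⟨w, hw⟩ : ∃ w : V n × V n → ℝ, w = fun q => P.κ * P.N / 4 *
    (Real.exp (-n * (P.b1 q + P.b2 q)) * (Real.exp (2 * P.b2 q) * Real.exp (2 * P.b2 q))) := ⟨_, rfl⟩
  have s1 : Car.SA (fun q => -n * (P.b1 q + P.b2 q)) p :=
    contDiffAt_const.mul (h.geo.s1.add h.geo.s2)
  have s2 : Car.SA (fun q => 2 * P.b2 q) p := contDiffAt_const.mul h.geo.s2
  have sw : Car.SA w p := hw ▸ contDiffAt_const.mul (s1.exp.mul (s2.exp.mul s2.exp))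
  have w0 : 0 ≤ w p := by
    have := h.κN
    rw [hw]
    positivity
  have eg : ∀ q, (P.dt g g' M J).g q = w q * kk M J (P.Th g' q) := fun q => by
    simp only [hw, Par.dt]
    ring
  have dw : ∀ i, Car.dd (e1 i) w p = w p * (-n * Car.dd (e1 i) P.b1 p) := fun i => by
    have z : Car.dd (e1 i) P.b2 p = 0 :=
      congrFun (eb_dd12 (f := fun y => Real.log (P.b y)) i).2 p
    rw [hw, Car.dd_cmul _ (s1.exp.mul (s2.exp.mul s2.exp)), Car.dd_mul s1.exp (s2.exp.mul s2.exp),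
      Car.dd_mul s2.exp s2.exp, Car.dd_exp s1, Car.dd_exp s2, Car.dd_cmul _ h.geo.s2,
      Car.dd_cmul _ (h.geo.s1.add h.geo.s2), Car.dd_add h.geo.s1 h.geo.s2, z]
    ring
  have m0 : 0 < P.n1 g g' p := (pos_iff_pos_of_mul_pos (one_pos.trans_le h.geo.n1l)).1 (by positivity)
  have m1 : |(P.n1 g g' p)⁻¹| ≤ r ^ 2 := by
    rw [abs_of_pos (inv_pos.2 m0), inv_le_iff_one_le_mul₀ m0]
    exact h.geo.n1l
  have si : Car.SA (fun q => (P.n1 g g' q)⁻¹) p := sn.inv m0.ne'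
  have sF := fun j => Car.sa_fx (e := e1) sa h.geo.sm j
  have ev : ∀ j, (P.dt g g' M J).hY j =ᶠ[𝓝 p]
      fun q => -1 * (w q * (P.n1 g g' q)⁻¹ * Car.fx e1 (a1 g) (P.Th g') j q) := fun j => by
    filter_upwards [h.Vq, h.fxΨ e1 (a1 g), sk.continuousAt.eventually_ne k0.ne'] with q q1 q2 q3
    rw [Dt.hY, q1.1, eg, show (P.dt g g' M J).Y j q = _ from q2 j]
    field_simp
  have bw : |w p| ≤ w p := (abs_of_nonneg w0).le
  have bF : ∀ j, |Car.fx e1 (a1 g) (P.Th g') j p| ≤ n * 2 * (C / r) := fun j => by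
    simpa only [Fintype.card_fin] using eb_fx (ba δ1).1 h.geo.d1 j
  have dF : ∀ i j, |Car.dd (e1 i) (Car.fx e1 (a1 g) (P.Th g') j) p| ≤ n * (3 * (C / r ^ 2)) :=
    fun i j => by
      rw [eb_ddfx sa h.geo.sm]
      refine (EH7_sum fun l => (abs_add_le _ _).trans ((add_le_add
        (EH7_mul ((da i j l).trans δ1) (h.geo.d1 l))
        (EH7_mul ((ba δ1).1 j l) (h.geo.d11 i l))).trans (b := 1 * (C / r) + 2 * (C / r ^ 2))
          (c := 3 * (C / r ^ 2)) ?_)).trans_eq (by rw [Fintype.card_fin])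
      have : C / r ≤ C / r ^ 2 := div_le_div_of_nonneg_left C0.le (by positivity) (by nlinarith)
      linarith
  have db : ∀ i, |-(n : ℝ) * Car.dd (e1 i) P.b1 p| ≤ n * (C / r) := fun i =>
    EH7_mul (by rw [abs_neg, abs_of_nonneg (by positivity)]) ((h.geo.p1 i).trans (by
      rw [le_div_iff₀ r0]
      nlinarith))
  have b1 : ∀ j, |(P.dt g g' M J).hY j p| ≤ w p * K := fun j => by
    rw [(ev j).eq_of_nhds, neg_one_mul, abs_neg]
    refine (EH7_mul (EH7_mul bw m1) (bF j)).trans ?_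
    rw [mul_assoc, show r ^ 2 * (n * 2 * (C / r)) = r * (n * 2 * C) by field_simp]
    refine mul_le_mul_of_nonneg_left ?_ w0
    have : 0 ≤ 2 * (n : ℝ) * (n + 1) * C ^ 2 := by positivity
    have : 0 ≤ (n : ℝ) * C := by positivity
    nlinarith
  have b2 : ∀ i j, |Car.dd (e1 i) ((P.dt g g' M J).hY j) p| ≤ w p * K := fun i j => by
    rw [Car.dd_congr (ev j), Car.dd_cmul _ ((sw.mul si).mul (sF j)), neg_one_mul, abs_neg,
      Car.dd_mul (sw.mul si) (sF j), Car.dd_mul sw si, dw, EH7_inv sn m0.ne']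
    refine (abs_add_le _ _).trans ((add_le_add (EH7_mul ((abs_add_le _ _).trans (add_le_add
      (EH7_mul (EH7_mul bw (db i)) m1) (EH7_mul bw ((abs_neg _).trans_le
        (EH7_mul (h.geo.dn i) (EH7_mul m1 m1)))))) (bF j))
      (EH7_mul (EH7_mul bw m1) (dF i j))).trans_eq ?_)
    rw [hK]
    field_simp
  have q1 := (h.q1 t1 ξ).1
  have k2 := EH7_abs (ba δ1).1 (fun k i j => (da k i j).trans δ1) b1 b2 ξ
  rw [Fintype.card_fin] at k2
  refine k2.trans ?_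
  have q0 := Car.sq2_nonneg ξ
  have k3 : 7 * (n : ℝ) ^ 3 * (w p * K) ≤ w p * kk M J (P.Th g' p) / 200 := by
    have k4 : 1400 * (n : ℝ) ^ 3 * K ≤ kk M J (P.Th g' p) := by
      nlinarith [mul_le_mul_of_nonneg_left t2 k0.le,
        mul_le_mul_of_nonneg_left k1 (by positivity : (0 : ℝ) ≤ 1400 * n ^ 3 * K)]
    nlinarith [mul_le_mul_of_nonneg_left k4 w0]
  rw [eg]
  change _ ≤ _ * Car.qf (a1 g) p ξ ξ / 100
  nlinarith [mul_le_mul_of_nonneg_right k3 q0,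
    mul_le_mul_of_nonneg_left q1 (mul_nonneg w0 k0.le)]

end Vale.Agent.P088F
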