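import Vale.Agent.P088F.ECore0
import Vale.Agent.P088F.ECore1

/-! P088F, part E: the integrated estimate. -/

open MeasureTheory Set Filter Topology
open scoped ContDiff

noncomputable section

namespace Vale.Agent.P088F

open Vale.Agent.P088

open Vale.Agent.P088.Car

variable {E : Type} [NormedAddCommGroup E] [NormedSpace ℝ E] {ι : Type} [Fintype ι]
  {D : Dt E ι} {x : E} {u : E → ℝ}

theorem eint_cj {e : ι → E} {a : ι → ι → E → ℝ} {Φ : E → ℝ} (ha : ∀ i j, SA (a i j) x)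
    (hs : ∀ i j, a i j x = a j i x) (hΦ : SA Φ x) (hu : SA u x) :
    dv e a (fun y => Real.exp (Φ y) * u y) x = Real.exp (Φ x) * cj e a Φ u x := by
  have hE : SA (fun y => Real.exp (Φ y)) x := hΦ.exp
  have d1 : ∀ i, dd (e i) (fun y => Real.exp (Φ y)) =ᶠ[𝓝 x]
      fun y => Real.exp (Φ y) * dd (e i) Φ y := fun i => by
    filter_upwards [hΦ.ev 1] with y hy
    simp only [dd, (hy.differentiableAt one_ne_zero).hasFDerivAt.exp.fderiv, smul_apply,
      smul_eq_mul]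
  have d2 : ∀ i, fx e a (fun y => Real.exp (Φ y)) i =ᶠ[𝓝 x]
      fun y => Real.exp (Φ y) * fx e a Φ i y := fun i => by
    filter_upwards [eventually_all.2 d1] with y hy
    simp only [fx, hy, Finset.mul_sum, smul_eq_mul]
    exact Finset.sum_congr rfl fun j _ => by ring
  have d3 : dv e a (fun y => Real.exp (Φ y)) x =
      Real.exp (Φ x) * (Car.qq e a Φ x + dv e a Φ x) := by
    simp only [dv, fun i => dd_congr (d2 i) (e i),
      fun i => dd_mul hE (sa_fx (e := e) ha hΦ i) (e i), fun i => (d1 i).self_of_nhds, Car.qq, al,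
      Finset.mul_sum, mul_add, ← Finset.sum_add_distrib]
    exact Finset.sum_congr rfl fun j _ => by ring
  have d4 : al e (fx e a fun y => Real.exp (Φ y)) u x =
      Real.exp (Φ x) * al e (fx e a Φ) u x := by
    simp only [al, fun i => (d2 i).self_of_nhds, Finset.mul_sum]
    exact Finset.sum_congr rfl fun j _ => by ring
  rw [dv_mul ha hs hE hu, d3, d4, cj]
  ring

theorem eint_gr {e : ι → E} {a : ι → ι → E → ℝ} {Φ : E → ℝ} (hs : ∀ i j, a i j x = a j i x)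
    (hq : ∀ ξ, sq2 ξ ≤ 2 * qf a x ξ ξ) (hΦ : SA Φ x) (hu : SA u x) :
    sq2 (gr e (fun y => Real.exp (Φ y) * u y) x) ≤ Real.exp (Φ x) ^ 2 *
      (4 * qf a x (gr e u x) (gr e u x) + 4 * (Car.qq e a Φ x * u x ^ 2)) := by
  have e1 : gr e (fun y => Real.exp (Φ y) * u y) x =
      fun i => Real.exp (Φ x) * (gr e u x i + u x * gr e Φ x i) := by
    funext i
    simp only [gr, dd_mul hΦ.exp hu, dd_exp hΦ]
    ring
  have e2 : Car.qq e a Φ x = qf a x (gr e Φ x) (gr e Φ x) := by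
    rw [qf_eq]
    exact Finset.sum_congr rfl fun i _ => mul_comm _ _
  have e3 : ∀ s t : ℝ, qf a x (fun i => s * (gr e u x i + t * gr e Φ x i))
      (fun i => s * (gr e u x i + t * gr e Φ x i)) =
      s ^ 2 * (qf a x (gr e u x) (gr e u x) + t * (qf a x (gr e u x) (gr e Φ x) +
        qf a x (gr e Φ x) (gr e u x)) + t ^ 2 * qf a x (gr e Φ x) (gr e Φ x)) := fun s t => by
    simp only [qf, Finset.mul_sum, ← Finset.sum_add_distrib]
    exact Finset.sum_congr rfl fun i _ => Finset.sum_congr rfl fun j _ => by ring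
  have _ := hs
  have h1 := hq fun i => Real.exp (Φ x) * (gr e u x i + u x * gr e Φ x i)
  have h2 := (sq2_nonneg _).trans (hq fun i => Real.exp (Φ x) * (gr e u x i + -u x * gr e Φ x i))
  rw [e3] at h1 h2
  rw [e1, e2]
  linarith

theorem eint_pt (h : D.Cf x) (hu : SA u x) {v : E → ℝ} (hv : v = fun y => Real.exp (D.Φ y) * u y) :
    1 / 1600 * (D.Om x * (sq2 (gr D.e1 v x) + sq2 (gr D.e2 v x) + v x ^ 2)) +
      ∑ i, dd (Sum.elim D.es D.e1 i) (Sum.elim (D.W0 u) (D.W1 u) i) x ≤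
      625 * (D.Om x * (dv D.e1 D.a1 v x ^ 2 + dv D.e2 D.a2 v x ^ 2)) := by
  have s := h.s0
  have hΦ : SA D.Φ x := s.Ψ.add (s.σ.div_const 2)
  have k0 := core0 h hu
  have k1 := core1 h hu
  have g1 := eint_gr (e := D.e1) (fun i j => s.y1 i j x) s.q1 hΦ hu
  have g2 := eint_gr (e := D.e2) (fun i j => s.y2 i j x) s.q2 hΦ hu
  have c1 := eint_cj (e := D.e1) s.a1 (fun i j => s.y1 i j x) hΦ hu
  have c2 := eint_cj (e := D.e2) s.a2 (fun i j => s.y2 i j x) hΦ hu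
  rw [← hv] at g1 g2 c1 c2
  have p1 := (sq2_nonneg _).trans (s.q1 (gr D.e1 u x))
  have p2 := (sq2_nonneg _).trans (s.q2 (gr D.e2 u x))
  have b1 := h.h2.2.2.2.2.1
  have b2 := h.h2.2.2.2.2.2
  have hw : 0 < D.m x * D.l2 x ^ 2 := mul_pos s.m0 (pow_pos s.l20 2)
  have hE : Real.exp (-2 * D.Φ x) * Real.exp (D.Φ x) ^ 2 = 1 := by
    rw [← Real.exp_nat_mul, ← Real.exp_add]
    simp
  have hv0 : v x = Real.exp (D.Φ x) * u x := by rw [hv]
  have hV := s.V0
  have hg := s.g0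
  rw [Fintype.sum_sum_type, c1, c2, hv0, Dt.Om]
  simp only [Sum.elim_inl, Sum.elim_inr]
  have hX := Real.exp_pos (-2 * D.Φ x)
  generalize Real.exp (-2 * D.Φ x) = X at *
  generalize Real.exp (D.Φ x) = Y at *
  generalize D.m x * D.l2 x ^ 2 = w at *
  generalize cj D.e1 D.a1 D.Φ u x = P1 at *
  generalize cj D.e2 D.a2 D.Φ u x = P2 at *
  generalize qf D.a1 x (gr D.e1 u x) (gr D.e1 u x) = Q1 at *
  generalize qf D.a2 x (gr D.e2 u x) (gr D.e2 u x) = Q2 at *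
  generalize sq2 (gr D.e1 v x) = S1 at *
  generalize sq2 (gr D.e2 v x) = S2 at *
  have u2 := sq_nonneg (u x)
  have m1 := mul_le_mul_of_nonneg_right b1 u2
  have m2 := mul_le_mul_of_nonneg_right b2 u2
  have m3 := mul_le_mul_of_nonneg_right hV u2
  have n1 : X * S1 ≤ 4 * Q1 + 16 * (D.V x * u x ^ 2) := by
    refine (mul_le_mul_of_nonneg_left g1 hX.le).trans ?_
    rw [← mul_assoc, hE]
    linarith
  have n2 : X * S2 ≤ 4 * Q2 + 32 * (D.V x * u x ^ 2) := by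
    refine (mul_le_mul_of_nonneg_left g2 hX.le).trans ?_
    rw [← mul_assoc, hE]
    linarith
  have n3 : X * (Y * u x) ^ 2 = u x ^ 2 := by rw [mul_pow, ← mul_assoc, hE, one_mul]
  have n4 : X * w * ((Y * P1) ^ 2 + (Y * P2) ^ 2) = w * (P1 ^ 2 + P2 ^ 2) := by
    calc _ = X * Y ^ 2 * (w * (P1 ^ 2 + P2 ^ 2)) := by ring
      _ = _ := by rw [hE, one_mul]
  have n5 : X * w * (S1 + S2 + (Y * u x) ^ 2) ≤
      w * (1600 * (46 / 100 * Q1 + Q2 / 400 + 19 / 100 * (D.V x * u x ^ 2))) := by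
    calc _ = w * (X * S1 + X * S2 + X * (Y * u x) ^ 2) := by ring
      _ ≤ _ := mul_le_mul_of_nonneg_left (by linarith) hw.le
  have n6 : w * (1600 * (46 / 100 * Q1 + Q2 / 400 + 19 / 100 * (D.V x * u x ^ 2))) ≤
      D.g x * (1600 * (46 / 100 * Q1 + Q2 / 400 + 19 / 100 * (D.V x * u x ^ 2))) :=
    mul_le_mul_of_nonneg_right hg (by linarith)
  have n7 := mul_nonneg hw.le (sq_nonneg P1)
  have n8 := mul_nonneg hw.le (sq_nonneg P2)
  rw [n4]
  linarith

theorem eint_sa (h : D.Cf x) (hu : SA u x) (i : (ι ⊕ ι) ⊕ ι) :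
    SA (Sum.elim (D.W0 u) (D.W1 u) i) x := by
  have s := h.s0
  have hG : ∀ i j, SA (D.G i j) x :=
    blk_sa (fun i j => s.l1.mul (s.a1 i j)) fun i j => (s.l2.mul (s.a2 i j)).neg
  have hGm : ∀ i j, SA (D.Gm i j) x := fun i j => s.m.mul (hG i j)
  have hX : ∀ i, SA (D.X i) x := sa_fx hG s.Ψ
  have hY : ∀ i, SA (D.Y i) x := sa_fx s.a1 s.Ψ
  have hV : SA D.V x := sa_qq s.a1 s.Ψ
  have hh : ∀ i, SA (D.hY i) x := fun i =>
    (s.g.div hV (one_pos.trans_le s.V0).ne').mul (hY i)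
  rcases i with i | i
  · exact (contDiffAt_const.mul ((sa_al hX hu).mul (sa_fx hGm hu i))).sub
      ((hX i).mul (sa_qf hGm hu hu))
  · exact (contDiffAt_const.mul ((s.g.mul hu).mul (sa_fx s.a1 hu i))).add
      (((contDiffAt_const.mul ((sa_al hh hu).mul (sa_fx s.a1 hu i))).sub
        ((hh i).mul (sa_qf s.a1 hu hu))).add ((s.g.mul (hY i)).mul (hu.mul hu)))

variable [FiniteDimensional ℝ E] [MeasurableSpace E] [BorelSpace E] (μ : Measure E)
  [μ.IsAddHaarMeasure] {K : Set E} {v : E → ℝ}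

/-- Hint: `u = exp (-Φ) v`, then `cj e a Φ u = exp (-Φ) dv e a v` (`dv_mul`, compare `conj_pt` and
`carl_core` of ACore); add `core0` and `core1`; `exp (-2Φ) qf (gr v) ≤ 2 qf (gr u) + 2 u^2 qq Φ`;
integrate with `int_le_of_div` for the directions `Sum.elim D.es D.e1`. -/
theorem eint (hK : IsCompact K) (h : ∀ x ∈ K, D.Cf x) (hv : ∀ x ∈ K, SA v x)
    (h0 : ∀ x ∉ K, v x = 0) :
    ∫ x, D.Om x * (sq2 (gr D.e1 v x) + sq2 (gr D.e2 v x) + v x ^ 2) ∂μ ≤
      1000000 * ∫ x, D.Om x * (dv D.e1 D.a1 v x ^ 2 + dv D.e2 D.a2 v x ^ 2) ∂μ := by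
  obtain ⟨u, hu⟩ : ∃ u : E → ℝ, u = fun y => Real.exp (-D.Φ y) * v y := ⟨_, rfl⟩
  have hΦ : ∀ x ∈ K, SA D.Φ x := fun x hx => (h x hx).s0.Ψ.add ((h x hx).s0.σ.div_const 2)
  have hus : ∀ x ∈ K, SA u x := fun x hx => hu ▸ (hΦ x hx).neg.exp.mul (hv x hx)
  have hvu : v = fun y => Real.exp (D.Φ y) * u y := by
    funext y
    rw [hu, ← mul_assoc, ← Real.exp_add]
    simp
  have hO : ∀ x ∈ K, SA D.Om x := fun x hx => (contDiffAt_const.mul (hΦ x hx)).exp.mul
    ((h x hx).s0.m.mul ((h x hx).s0.l2.pow 2))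
  have z1 := fun w => dd_zero hK.isClosed h0 w
  have z2 : ∀ (e : ι → E) (a : ι → ι → E → ℝ) i, ∀ x ∉ K, fx e a v i x = 0 :=
    fun e a i x hx => by simp [fx, z1 _ x hx]
  have z3 : ∀ (e : ι → E) (a : ι → ι → E → ℝ), ∀ x ∉ K, dv e a v x = 0 := fun e a x hx => by
    simp [dv, dd_zero hK.isClosed (z2 e a _) _ x hx]
  have z4 : ∀ x ∉ K, u x = 0 := fun x hx => by simp [hu, h0 x hx]
  have z5 : ∀ i, ∀ x ∉ K, Sum.elim (D.W0 u) (D.W1 u) i x = 0 := by
    rintro (i | i) x hx <;>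
      simp [Dt.W0, Dt.W1, al, fx, qf, gr, dd_zero hK.isClosed z4 _ x hx, z4 x hx]
  have k := int_le_of_div μ (Sum.elim D.es D.e1) hK
    (f := fun x => 1 / 1600 * (D.Om x * (sq2 (gr D.e1 v x) + sq2 (gr D.e2 v x) + v x ^ 2)))
    (g := fun x => 625 * (D.Om x * (dv D.e1 D.a1 v x ^ 2 + dv D.e2 D.a2 v x ^ 2)))
    (int_loc μ hK (fun x hx => contDiffAt_const.mul ((hO x hx).mul
      (((ContDiffAt.sum fun i _ => ((hv x hx).dd _).pow 2).add
        (ContDiffAt.sum fun i _ => ((hv x hx).dd _).pow 2)).add ((hv x hx).pow 2))))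
      fun x hx => by simp [sq2, gr, z1 _ x hx, h0 x hx])
    (int_loc μ hK (fun x hx => contDiffAt_const.mul ((hO x hx).mul
      (((sa_dv (h x hx).s0.a1 (hv x hx)).pow 2).add ((sa_dv (h x hx).s0.a2 (hv x hx)).pow 2))))
      fun x hx => by simp [z3 _ _ x hx])
    (fun i x hx => eint_sa (h x hx) (hus x hx) i) z5 fun x => by
      by_cases hx : x ∈ K
      · exact eint_pt (h x hx) (hus x hx) hvu
      · simp [sq2, gr, z1 _ x hx, h0 x hx, z3 _ _ x hx, dd_zero hK.isClosed (z5 _) _ x hx]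
  rw [integral_const_mul, integral_const_mul] at k
  linarith

end Vale.Agent.P088F
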