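import Vale.Agent.P088F.ACore

/-! P088, part E: families of germs with weighted bounds in moving directions. -/

open MeasureTheory Set Filter Topology
open scoped ContDiff

noncomputable section

namespace Vale.Agent.P088.Car

variable {E : Type} [NormedAddCommGroup E] [NormedSpace ℝ E] {ι : Type} {S : Type}

/-- The germs `f s` at `p s` and their derivatives up to order `k` along the directions `e s` are
bounded by a fixed multiple of `w s`. -/
def OB (e : S → ι → E) (p : S → E) : ℕ → (S → ℝ) → (S → E → ℝ) → Prop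
  | 0, w, f => ∃ M, 0 ≤ M ∧ ∀ s, SA (f s) (p s) ∧ |f s (p s)| ≤ M * w s
  | k + 1, w, f => (∃ M, 0 ≤ M ∧ ∀ s, SA (f s) (p s) ∧ |f s (p s)| ≤ M * w s) ∧
      ∀ i, OB e p k w fun s => dd (e s i) (f s)

variable {e : S → ι → E} {p : S → E} {k : ℕ} {w w' : S → ℝ} {f g : S → E → ℝ}

theorem OB.zero (h : OB e p k w f) : OB e p 0 w f := by
  cases k
  exacts [h, h.1]

theorem OB.sa (h : OB e p k w f) (s : S) : SA (f s) (p s) := (h.zero.choose_spec.2 s).1

theorem OB.bd (h : OB e p k w f) : ∃ M, 0 ≤ M ∧ ∀ s, |f s (p s)| ≤ M * w s := by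
  obtain ⟨M, h0, hM⟩ := h.zero
  exact ⟨M, h0, fun s => (hM s).2⟩

theorem OB.ev (h : OB e p k w f) (hw : ∀ s, 0 ≤ w s) :
    ∀ᶠ M in (atTop : Filter ℝ), ∀ s, |f s (p s)| ≤ M * w s := by
  obtain ⟨M, -, hM⟩ := h.bd
  filter_upwards [eventually_ge_atTop M] with M' hM' s
  exact (hM s).trans (mul_le_mul_of_nonneg_right hM' (hw s))

theorem OB.dd (h : OB e p (k + 1) w f) (i : ι) : OB e p k w fun s => dd (e s i) (f s) := h.2 i

theorem OB.pred (h : OB e p (k + 1) w f) : OB e p k w f := by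
  induction k generalizing f with
  | zero => exact h.1
  | succ k ih => exact ⟨h.1, fun i => ih (h.2 i)⟩

theorem OB.congr (h : OB e p k w f) (hg : ∀ s, f s =ᶠ[𝓝 (p s)] g s) : OB e p k w g := by
  have h0 : ∀ {f g : S → E → ℝ}, OB e p 0 w f → (∀ s, f s =ᶠ[𝓝 (p s)] g s) → OB e p 0 w g :=
    fun ⟨M, h0, hM⟩ hg => ⟨M, h0, fun s => ⟨(hM s).1.congr_of_eventuallyEq (hg s).symm,
      (hg s).self_of_nhds ▸ (hM s).2⟩⟩
  induction k generalizing f g with
  | zero => exact h0 h hg
  | succ k ih => exact ⟨h0 h.1 hg, fun i => ih (h.2 i) fun s => dd_congr_ev (hg s) _⟩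

theorem OB.of_eq (h : OB e p k w f) (hg : ∀ s y, f s y = g s y) : OB e p k w g :=
  h.congr fun s => .of_forall (hg s)

theorem OB.mono (h : OB e p k w f) {c : ℝ} (hc : 0 ≤ c) (hw : ∀ s, w s ≤ c * w' s) :
    OB e p k w' f := by
  have h0 : ∀ {f : S → E → ℝ}, OB e p 0 w f → OB e p 0 w' f :=
    fun ⟨M, h0, hM⟩ => ⟨M * c, mul_nonneg h0 hc, fun s => ⟨(hM s).1, (hM s).2.trans (by
      rw [mul_assoc]
      exact mul_le_mul_of_nonneg_left (hw s) h0)⟩⟩
  induction k generalizing f with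
  | zero => exact h0 h
  | succ k ih => exact ⟨h0 h.1, fun i => ih (h.2 i)⟩

theorem OB.le (h : OB e p k w f) (hw : ∀ s, w s ≤ w' s) : OB e p k w' f :=
  h.mono zero_le_one fun s => by rw [one_mul]; exact hw s

theorem ob_const {c : S → ℝ} {M : ℝ} (hM : 0 ≤ M) (h : ∀ s, |c s| ≤ M * w s) :
    OB e p k w fun s _ => c s := by
  induction k generalizing c with
  | zero => exact ⟨M, hM, fun s => ⟨contDiffAt_const, h s⟩⟩
  | succ k ih =>
    exact ⟨⟨M, hM, fun s => ⟨contDiffAt_const, h s⟩⟩, fun i => (ih (c := fun _ => 0)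
      fun s => by simpa using (abs_nonneg _).trans (h s)).of_eq
        fun s y => (dd_const _ _ _).symm⟩

theorem ob_c (c : ℝ) : OB e p k (fun _ => 1) fun _ _ => c :=
  ob_const (abs_nonneg c) fun _ => by rw [mul_one]

theorem ob_w (hw : ∀ s, 0 ≤ w s) : OB e p k w fun s _ => w s :=
  ob_const zero_le_one fun s => by rw [one_mul, abs_of_nonneg (hw s)]

theorem ob_zero (hw : ∀ s, 0 ≤ w s) : OB e p k w fun _ _ => 0 :=
  ob_const zero_le_one fun s => by simpa using hw s

theorem OB.add (h : OB e p k w f) (h' : OB e p k w g) :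
    OB e p k w fun s y => f s y + g s y := by
  have h0 : ∀ {f g : S → E → ℝ}, OB e p 0 w f → OB e p 0 w g →
      OB e p 0 w fun s y => f s y + g s y :=
    fun ⟨M, h0, hM⟩ ⟨M', h0', hM'⟩ => ⟨M + M', add_nonneg h0 h0', fun s => ⟨(hM s).1.add (hM' s).1,
      (abs_add_le _ _).trans ((add_le_add (hM s).2 (hM' s).2).trans_eq (add_mul _ _ _).symm)⟩⟩
  induction k generalizing f g with
  | zero => exact h0 h h'
  | succ k ih =>
    refine ⟨h0 h.1 h'.1, fun i => (ih (h.2 i) (h'.2 i)).congr fun s => ?_⟩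
    filter_upwards [(h.sa s).ev 1, (h'.sa s).ev 1] with y h1 h2
    simp only [Car.dd, fderiv_fun_add (h1.differentiableAt one_ne_zero)
      (h2.differentiableAt one_ne_zero), add_apply]

theorem OB.mul (h : OB e p k w f) (h' : OB e p k w' g) :
    OB e p k (fun s => w s * w' s) fun s y => f s y * g s y := by
  have h0 : ∀ {f g : S → E → ℝ}, OB e p 0 w f → OB e p 0 w' g →
      OB e p 0 (fun s => w s * w' s) fun s y => f s y * g s y :=
    fun ⟨M, h0, hM⟩ ⟨M', h0', hM'⟩ => ⟨M * M', mul_nonneg h0 h0', fun s =>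
      ⟨(hM s).1.mul (hM' s).1, by
        rw [abs_mul, mul_mul_mul_comm]
        exact mul_le_mul (hM s).2 (hM' s).2 (abs_nonneg _) ((abs_nonneg _).trans (hM s).2)⟩⟩
  induction k generalizing f g with
  | zero => exact h0 h h'
  | succ k ih =>
    refine ⟨h0 h.1 h'.1, fun i => ((ih (h.2 i) h'.pred).add (ih h.pred (h'.2 i))).congr fun s => ?_⟩
    filter_upwards [(h.sa s).ev 1, (h'.sa s).ev 1] with y h1 h2
    simp only [Car.dd, fderiv_fun_mul (h1.differentiableAt one_ne_zero)
      (h2.differentiableAt one_ne_zero), add_apply, smul_apply, smul_eq_mul]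
    ring

/-- Product with a factor of weight one. -/
theorem OB.omul (h : OB e p k (fun _ => 1) f) (h' : OB e p k w g) :
    OB e p k w fun s y => f s y * g s y := (h.mul h').le fun _ => (one_mul _).le

theorem OB.mulo (h : OB e p k w f) (h' : OB e p k (fun _ => 1) g) :
    OB e p k w fun s y => f s y * g s y := (h.mul h').le fun _ => (mul_one _).le

theorem OB.cmul (h : OB e p k w f) (c : ℝ) : OB e p k w fun s y => c * f s y := (ob_c c).omul h

theorem OB.neg (h : OB e p k w f) : OB e p k w fun s y => -f s y :=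
  (h.cmul (-1)).of_eq fun _ _ => by ring

theorem OB.sub (h : OB e p k w f) (h' : OB e p k w g) : OB e p k w fun s y => f s y - g s y :=
  (h.add h'.neg).of_eq fun _ _ => by ring

theorem ob_sum {κ : Type} (t : Finset κ) {F : κ → S → E → ℝ} (hw : ∀ s, 0 ≤ w s)
    (h : ∀ i, OB e p k w (F i)) : OB e p k w fun s y => ∑ i ∈ t, F i s y := by
  classical
  induction t using Finset.induction_on with
  | empty => exact (ob_zero hw).of_eq fun _ _ => by simp
  | insert j t hj ih => exact ((h j).add ih).of_eq fun _ _ => by simp [Finset.sum_insert hj]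

theorem ob_dd_exp {s : S} (h : SA (f s) (p s)) (v : E) : (fun y => Real.exp (f s y) * Car.dd v (f s) y)
    =ᶠ[𝓝 (p s)] Car.dd v fun y => Real.exp (f s y) := by
  filter_upwards [h.ev 1] with y h1
  simp only [Car.dd, (h1.differentiableAt one_ne_zero).hasFDerivAt.exp.fderiv, smul_apply,
    smul_eq_mul]

theorem OB.exp (h : OB e p k (fun _ => 1) f) :
    OB e p k (fun _ => 1) fun s y => Real.exp (f s y) := by
  have h0 : ∀ {f : S → E → ℝ}, OB e p 0 (fun _ => 1) f →
      OB e p 0 (fun _ => 1) fun s y => Real.exp (f s y) :=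
    fun ⟨M, _, hM⟩ => ⟨Real.exp M, (Real.exp_pos _).le, fun s => ⟨(hM s).1.exp, by
      rw [abs_of_pos (Real.exp_pos _), mul_one]
      exact Real.exp_le_exp.2 ((le_abs_self _).trans ((hM s).2.trans_eq (mul_one _)))⟩⟩
  induction k generalizing f with
  | zero => exact h0 h
  | succ k ih =>
    exact ⟨h0 h.1, fun i => ((ih h.pred).omul (h.2 i)).congr fun s => ob_dd_exp (h.sa s) _⟩

theorem ob_exp1 (t : ℝ) : |Real.exp t - 1| ≤ Real.exp |t| * |t| := by
  have h1 := Real.add_one_le_exp t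
  have h2 := Real.add_one_le_exp (-t)
  have h3 : Real.exp t * Real.exp (-t) = 1 := by rw [← Real.exp_add, add_neg_cancel, Real.exp_zero]
  have h4 := Real.exp_pos t
  rcases le_total 0 t with h | h
  · rw [abs_of_nonneg h, abs_of_nonneg (by linarith)]
    nlinarith
  · rw [abs_of_nonpos h, abs_of_nonpos (by have := Real.exp_le_one_iff.2 h; linarith)]
    nlinarith

theorem ob_exp2 (t : ℝ) : |Real.exp t - 1 - t| ≤ Real.exp |t| * (|t| * |t|) := by
  have h1 := Real.add_one_le_exp t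
  have h2 := Real.add_one_le_exp (-t)
  have h3 : Real.exp t * Real.exp (-t) = 1 := by rw [← Real.exp_add, add_neg_cancel, Real.exp_zero]
  have h4 := Real.exp_pos t
  have h5 := ob_exp1 t
  have h6 : Real.exp t - 1 - t ≤ (Real.exp t - 1) * t := by nlinarith
  rw [abs_of_nonneg (by linarith), ← mul_assoc]
  refine h6.trans ((le_abs_self _).trans ?_)
  rw [abs_mul]
  exact mul_le_mul_of_nonneg_right h5 (abs_nonneg _)

theorem OB.exp1 (h : OB e p k w f) (h2 : ∀ s, w s ≤ 1) :
    OB e p k w fun s y => Real.exp (f s y) - 1 := by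
  have h0 : OB e p 0 w fun s y => Real.exp (f s y) - 1 := by
    obtain ⟨M, h0, hM⟩ := h.zero
    refine ⟨Real.exp M * M, by positivity, fun s => ⟨(hM s).1.exp.sub contDiffAt_const, ?_⟩⟩
    have h3 : |f s (p s)| ≤ M := (hM s).2.trans (mul_le_of_le_one_right h0 (h2 s))
    refine (ob_exp1 _).trans ?_
    rw [mul_assoc]
    exact mul_le_mul (Real.exp_le_exp.2 h3) (hM s).2 (abs_nonneg _) (Real.exp_pos _).le
  cases k with
  | zero => exact h0
  | succ k =>
    refine ⟨h0, fun i => ((h.pred.le h2).exp.omul (h.2 i)).congr fun s => ?_⟩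
    filter_upwards [ob_dd_exp (h.sa s) (e s i)] with y hy
    rw [hy]
    simp only [Car.dd, fderiv_sub_const]

theorem OB.exp2 (h : OB e p k w f) (h2 : ∀ s, w s ≤ 1) :
    OB e p k (fun s => w s * w s) fun s y => Real.exp (f s y) - 1 - f s y := by
  have h0 : OB e p 0 (fun s => w s * w s) fun s y => Real.exp (f s y) - 1 - f s y := by
    obtain ⟨M, h0, hM⟩ := h.zero
    refine ⟨Real.exp M * (M * M), by positivity, fun s =>
      ⟨((hM s).1.exp.sub contDiffAt_const).sub (hM s).1, ?_⟩⟩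
    have h3 : |f s (p s)| ≤ M := (hM s).2.trans (mul_le_of_le_one_right h0 (h2 s))
    refine (ob_exp2 _).trans ?_
    rw [mul_assoc, mul_mul_mul_comm]
    exact mul_le_mul (Real.exp_le_exp.2 h3) (mul_le_mul (hM s).2 (hM s).2 (abs_nonneg _)
      ((abs_nonneg _).trans (hM s).2)) (by positivity) (Real.exp_pos _).le
  cases k with
  | zero => exact h0
  | succ k =>
    refine ⟨h0, fun i => ((h.pred.exp1 h2).mul (h.2 i)).congr fun s => ?_⟩
    filter_upwards [ob_dd_exp (h.sa s) (e s i), (h.sa s).ev 1] with y hy h3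
    have h4 := h3.differentiableAt one_ne_zero
    rw [sub_mul, hy]
    simp only [Car.dd, fderiv_fun_sub (h4.exp.sub_const 1) h4, fderiv_sub_const, sub_apply, one_mul]

theorem OB.inv (h : OB e p k (fun _ => 1) f) {c : ℝ} (hc : 0 < c) (hf : ∀ s, c ≤ f s (p s)) :
    OB e p k (fun _ => 1) fun s y => (f s y)⁻¹ := by
  have h0 : OB e p 0 (fun _ => 1) fun s y => (f s y)⁻¹ :=
    ⟨c⁻¹, by positivity, fun s => ⟨(h.sa s).inv (hc.trans_le (hf s)).ne', by
      rw [abs_of_pos (inv_pos.2 (hc.trans_le (hf s))), mul_one]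
      exact inv_anti₀ hc (hf s)⟩⟩
  induction k with
  | zero => exact h0
  | succ k ih =>
    refine ⟨h0, fun i => (((ih h.pred).omul (ih h.pred)).omul (h.2 i)).neg.congr fun s => ?_⟩
    filter_upwards [(h.sa s).ev 1, (h.sa s).continuousAt.eventually_ne (hc.trans_le (hf s)).ne']
      with y h1 h2
    have h3 := ((hasDerivAt_inv h2).comp_hasFDerivAt y
      (h1.differentiableAt one_ne_zero).hasFDerivAt).fderiv
    simp only [Car.dd]
    rw [show (fun y => (f s y)⁻¹) = (fun y => y⁻¹) ∘ f s from rfl, h3]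
    simp [sq]

theorem OB.comp {S' : Type} (h : OB e p k w f) (t : S' → S) :
    OB (fun s => e (t s)) (fun s => p (t s)) k (fun s => w (t s)) fun s => f (t s) := by
  have h0 : ∀ {f : S → E → ℝ}, OB e p 0 w f →
      OB (fun s => e (t s)) (fun s => p (t s)) 0 (fun s => w (t s)) fun s => f (t s) :=
    fun ⟨M, h0, hM⟩ => ⟨M, h0, fun s => hM (t s)⟩
  induction k generalizing f with
  | zero => exact h0 h
  | succ k ih => exact ⟨h0 h.1, fun i => ih (h.2 i)⟩

theorem dd_lin {F : Type} [NormedAddCommGroup F] [NormedSpace ℝ F] (L : E →L[ℝ] F) {u : F → ℝ}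
    {y : E} (h : DifferentiableAt ℝ u (L y)) (v : E) :
    Car.dd v (fun y => u (L y)) y = Car.dd (L v) u (L y) := by
  have h1 := (h.hasFDerivAt.comp y L.hasFDerivAt).fderiv
  simp only [Car.dd]
  rw [show (fun y => u (L y)) = u ∘ L from rfl, h1]
  rfl

/-- Pull back along a linear map which sends the directions to bounded combinations of the
directions of the target. -/
theorem OB.pull {F κ : Type} [NormedAddCommGroup F] [NormedSpace ℝ F] [Fintype κ] (L : E →L[ℝ] F)
    {e' : S → κ → F} {u : S → F → ℝ} (h : OB e' (fun s => L (p s)) k w u) (hw : ∀ s, 0 ≤ w s)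
    {c : S → ι → κ → ℝ} (hc : ∀ s i j, |c s i j| ≤ 1)
    (hL : ∀ s i, L (e s i) = ∑ j, c s i j • e' s j) : OB e p k w fun s y => u s (L y) := by
  have h0 : ∀ {u : S → F → ℝ}, OB e' (fun s => L (p s)) 0 w u → OB e p 0 w fun s y => u s (L y) :=
    fun ⟨M, h0, hM⟩ => ⟨M, h0, fun s => ⟨(hM s).1.comp _ L.contDiff.contDiffAt, (hM s).2⟩⟩
  induction k generalizing u with
  | zero => exact h0 h
  | succ k ih =>
    refine ⟨h0 h.1, fun i => (ob_sum Finset.univ hw fun j => (ob_const (w := fun _ => 1)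
      (c := fun s => c s i j) zero_le_one fun s => by simpa using hc s i j).omul
        (ih (h.2 j))).congr fun s => ?_⟩
    filter_upwards [L.continuous.continuousAt.eventually ((h.sa s).ev 1)] with y hy
    rw [dd_lin L (hy.differentiableAt one_ne_zero), hL]
    simp only [Car.dd, map_sum, map_smul, smul_eq_mul]

theorem bd_dd {u : E → ℝ} {x : E} (h : SA u x) {M : ℝ} {j : ℕ}
    (hM : ‖iteratedFDeriv ℝ (j + 1) u x‖ ≤ M) (v : E) :
    ‖iteratedFDeriv ℝ j (Car.dd v u) x‖ ≤ ‖v‖ * M := by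
  refine (norm_iteratedFDeriv_clm_apply_const (h.fderiv_right (m := ∞) le_rfl)
    (by exact_mod_cast le_top)).trans ?_
  rw [norm_iteratedFDeriv_fderiv]
  exact mul_le_mul_of_nonneg_left hM (norm_nonneg _)

theorem ob_of_bd (he : ∀ s i, ‖e s i‖ ≤ 1) (h : ∀ s, SA (f s) (p s))
    (hM : ∀ s, ∀ i ≤ k, ‖iteratedFDeriv ℝ i (f s) (p s)‖ ≤ w s) : OB e p k w f := by
  have h0 : ∀ {f : S → E → ℝ}, (∀ s, SA (f s) (p s)) →
      (∀ s, ‖iteratedFDeriv ℝ 0 (f s) (p s)‖ ≤ w s) → OB e p 0 w f :=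
    fun h hM => ⟨1, zero_le_one, fun s => ⟨h s, by simpa using hM s⟩⟩
  induction k generalizing f with
  | zero => exact h0 h fun s => hM s 0 le_rfl
  | succ k ih =>
    refine ⟨h0 h fun s => hM s 0 (Nat.zero_le _), fun i => ih (fun s => (h s).dd _)
      fun s j hj => (bd_dd (h s) (hM s _ (by omega)) _).trans ?_⟩
    exact mul_le_of_le_one_left ((norm_nonneg _).trans (hM s 0 (Nat.zero_le _))) (he s i)

end Vale.Agent.P088.Car
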