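import Vale.Agent.P088F.Defs
import Vale.Agent.P088F.EOb

/-! P088F, part E: the inverse of a matrix field. -/

open scoped ContDiff Topology
open Set Filter

noncomputable section

namespace Vale.Agent.P088F

open Vale.Agent.P292E Vale.Agent.P088 Vale.Agent.P088.Car

variable {n : ℕ} {ι S κ : Type} [Fintype ι] [DecidableEq ι]

/-- the inverse matrix field -/
def Gi (g : Mf n) (j k : Fin n) (x : V n) : ℝ := (Matrix.of fun j k => g j k x)⁻¹ j k

/-- the unit matrix -/
def dl (j k : Fin n) : ℝ := if j = k then 1 else 0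

/-- smooth symmetric positive matrix fields -/
structure GS (g : Mf n) : Prop where
  sm : ∀ j k, ContDiff ℝ ∞ (g j k)
  symm : ∀ j k x, g j k x = g k j x
  pos : ∀ x ξ, ξ ≠ 0 → 0 < ip g x ξ ξ

omit [Fintype ι] [DecidableEq ι] in
theorem Op.Sm.gs {L : Op n ι} (h : L.Sm) : GS L.g := ⟨h.g, h.symm, h.pos⟩

theorem dl_sum (j : Fin n) (a : Fin n → ℝ) : ∑ k, dl j k * a k = a j := by simp [dl]

theorem sum_dl (j : Fin n) (a : Fin n → ℝ) : ∑ k, a k * dl k j = a j := by simp [dl]

theorem dl_abs (j k : Fin n) : |dl j k| ≤ 1 := by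
  unfold dl
  split_ifs <;> simp

theorem einv_det {M : V n → Matrix (Fin n) (Fin n) ℝ} (h : ∀ i j, ContDiff ℝ ∞ fun x => M x i j) :
    ContDiff ℝ ∞ fun x => (M x).det := by
  simp only [Matrix.det_apply']
  exact ContDiff.sum fun σ _ => contDiff_const.mul (contDiff_prod fun i _ => h _ _)

variable {g : Mf n}

theorem GS.det_ne (h : GS g) (x : V n) : (Matrix.of fun j k => g j k x).det ≠ 0 := by
  intro h0
  obtain ⟨v, hv, h1⟩ := Matrix.exists_mulVec_eq_zero_iff.2 h0
  have h2 := h.pos x (WithLp.toLp 2 v) (by simpa using hv)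
  have h3 : ip g x (WithLp.toLp 2 v) (WithLp.toLp 2 v) =
      ∑ j, v j * (Matrix.mulVec (Matrix.of fun j k => g j k x) v) j := by
    simp only [ip, Matrix.mulVec, dotProduct, Matrix.of_apply, Finset.mul_sum]
    exact Finset.sum_congr rfl fun j _ => Finset.sum_congr rfl fun k _ => by ring
  rw [h3, h1] at h2
  simp at h2

theorem GS.mul_inv (h : GS g) (x : V n) (j k : Fin n) : ∑ l, g j l x * Gi g l k x = dl j k := by
  have h1 := Matrix.mul_nonsing_inv _ (isUnit_iff_ne_zero.2 (h.det_ne x))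
  have h2 := congrFun (congrFun h1 j) k
  rw [Matrix.mul_apply, Matrix.one_apply] at h2
  exact h2

theorem GS.inv_mul (h : GS g) (x : V n) (j k : Fin n) : ∑ l, Gi g j l x * g l k x = dl j k := by
  have h1 := Matrix.nonsing_inv_mul _ (isUnit_iff_ne_zero.2 (h.det_ne x))
  have h2 := congrFun (congrFun h1 j) k
  rw [Matrix.mul_apply, Matrix.one_apply] at h2
  exact h2

theorem GS.isymm (h : GS g) (x : V n) (j k : Fin n) : Gi g j k x = Gi g k j x := by
  have h1 : (Matrix.of fun j k => g j k x).transpose = Matrix.of fun j k => g j k x := by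
    ext a b
    exact h.symm b a x
  have h2 := Matrix.transpose_nonsing_inv (Matrix.of fun j k => g j k x)
  rw [h1] at h2
  exact (congrFun (congrFun h2 j) k).symm

theorem GS.ism (h : GS g) (j k : Fin n) : ContDiff ℝ ∞ (Gi g j k) := by
  have h1 : Gi g j k = fun x => ((Matrix.of fun j k => g j k x).det)⁻¹ *
      ((Matrix.of fun j k => g j k x).updateRow k (Pi.single j 1)).det := by
    funext x
    simp only [Gi, Matrix.inv_def, Ring.inverse_eq_inv', Matrix.smul_apply, Matrix.adjugate_apply,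
      smul_eq_mul]
  rw [h1]
  refine ((einv_det fun a b => h.sm a b).inv h.det_ne).mul (einv_det fun a b => ?_)
  by_cases hab : a = k
  · simp only [hab, Matrix.updateRow_self]
    exact contDiff_const
  · simp only [Matrix.updateRow_ne hab]
    exact h.sm a b

theorem GS.inv_sub (h : GS g) (x : V n) (j k : Fin n) :
    Gi g j k x - dl j k = -∑ l, Gi g j l x * (g l k x - dl l k) := by
  simp only [mul_sub, Finset.sum_sub_distrib, h.inv_mul, sum_dl]
  ring

theorem GS.ibd (h : GS g) {x : V n} {δ : ℝ} (hδ : ∀ j k, |g j k x - dl j k| ≤ δ)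
    (hn : δ * (2 * n) ≤ 1) (j k : Fin n) : |Gi g j k x| ≤ 2 := by
  obtain ⟨a, -, ha⟩ := Finset.exists_max_image Finset.univ (fun a => |Gi g j a x|)
    ⟨k, Finset.mem_univ _⟩
  have h1 : |Gi g j a x - dl j a| ≤ n * (|Gi g j a x| * δ) := by
    rw [h.inv_sub, abs_neg]
    refine (Finset.abs_sum_le_sum_abs _ _).trans ((Finset.sum_le_card_nsmul _ _
      (|Gi g j a x| * δ) fun l _ => ?_).trans_eq (by simp))
    rw [abs_mul]
    exact mul_le_mul (ha l (Finset.mem_univ _)) (hδ _ _) (abs_nonneg _) (abs_nonneg _)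
  have h2 := abs_sub_abs_le_abs_sub (Gi g j a x) (dl j a)
  have h3 := dl_abs j a
  have h4 := ha k (Finset.mem_univ _)
  nlinarith [abs_nonneg (Gi g j a x)]

theorem GS.dd_inv (h : GS g) (v x : V n) (j k : Fin n) :
    dd v (Gi g j k) x = -∑ a, ∑ b, Gi g j a x * dd v (g a b) x * Gi g b k x := by
  have h1 : ∀ b, ∑ a, (dd v (Gi g j a) x * g a b x + Gi g j a x * dd v (g a b) x) = 0 := fun b => by
    have h2 := dd_sum (x := x) Finset.univ (U := fun a y => Gi g j a y * g a b y)
      (fun a => ((h.ism j a).mul (h.sm a b)).contDiffAt) v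
    simp only [h.inv_mul, dd_const] at h2
    rw [h2]
    exact Finset.sum_congr rfl fun a _ =>
      (dd_mul (h.ism j a).contDiffAt (h.sm a b).contDiffAt v).symm
  have h3 : ∑ b, (∑ a, (dd v (Gi g j a) x * g a b x + Gi g j a x * dd v (g a b) x)) *
      Gi g b k x = 0 := by simp [h1]
  have h4 : ∑ b, ∑ a, dd v (Gi g j a) x * g a b x * Gi g b k x = dd v (Gi g j k) x := by
    rw [Finset.sum_comm]
    simp only [mul_assoc, ← Finset.mul_sum, h.mul_inv, sum_dl]
  simp only [Finset.sum_mul, add_mul, Finset.sum_add_distrib] at h3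
  rw [h4, Finset.sum_comm] at h3
  linarith

variable {e : S → κ → V n} {p : S → V n} {G : S → Mf n} {m : ℕ} {w : S → ℝ}

theorem ob_inv (h : ∀ s, GS (G s)) (hg : ∀ j k, OB e p m (fun _ => 1) fun s => G s j k)
    (hb : ∀ s j k, |Gi (G s) j k (p s)| ≤ 2) (j k : Fin n) :
    OB e p m (fun _ => 1) fun s => Gi (G s) j k := by
  have h0 : ∀ j k, OB e p 0 (fun _ => 1) fun s => Gi (G s) j k := fun j k =>
    ⟨2, zero_le_two, fun s => ⟨((h s).ism j k).contDiffAt, by rw [mul_one]; exact hb s j k⟩⟩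
  induction m generalizing j k with
  | zero => exact h0 j k
  | succ m ih =>
    have h1 := ih fun j k => (hg j k).pred
    exact ⟨h0 j k, fun i => (ob_sum Finset.univ (fun _ => zero_le_one) fun a =>
      ob_sum Finset.univ (fun _ => zero_le_one) fun b =>
        ((h1 j a).omul ((hg a b).dd i)).omul (h1 b k)).neg.of_eq
          fun s y => ((h s).dd_inv _ y j k).symm⟩

theorem ob_inv_sub (h : ∀ s, GS (G s)) (hg : ∀ j k, OB e p m w fun s y => G s j k y - dl j k)
    (h0 : ∀ s, 0 ≤ w s) (h1 : ∀ s, w s ≤ 1) (hb : ∀ s j k, |Gi (G s) j k (p s)| ≤ 2) (j k : Fin n) :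
    OB e p m w fun s y => Gi (G s) j k y - dl j k := by
  have h2 := ob_inv (e := e) (m := m) h (fun j k => (((hg j k).le h1).add (ob_c (dl j k))).of_eq
    fun s y => by ring) hb
  exact (ob_sum Finset.univ h0 fun l => (h2 j l).omul (hg l k)).neg.of_eq
    fun s y => ((h s).inv_sub y j k).symm

end Vale.Agent.P088F
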