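import Vale.Agent.P088F.EC

/-! P088F, part E: the profile of the weight. -/

open MeasureTheory Set Filter Topology
open scoped ContDiff

noncomputable section

namespace Vale.Agent.P088F

open Vale.Agent.P292E Vale.Agent.P088

theorem ek_sa (M : ℝ) (J : ℕ) {s : ℝ} (hs : 0 < s) : ContDiffAt ℝ ∞ (ph M J) s ∧
    ContDiffAt ℝ ∞ (kk M J) s ∧ HasDerivAt (ph M J) (-kk M J s) s ∧
    HasDerivAt (kk M J) (k1 J s) s ∧ M ≤ kk M J s ∧ Real.exp (-2 * ph M J s) = wt M J s := by
  have h1 : 1 + s ≠ 0 := by positivity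
  have h2 : s * (1 + s) ≠ 0 := by positivity
  have a1 : ContDiffAt ℝ ∞ (fun s : ℝ => 1 + s) s := contDiffAt_const.add contDiffAt_id
  have d1 : HasDerivAt (fun s : ℝ => 1 + s) 1 s := (hasDerivAt_id s).const_add 1
  refine ⟨(contDiffAt_const.mul contDiffAt_id).add (contDiffAt_const.mul
    ((a1.log h1).sub (contDiffAt_id.log hs.ne'))),
    contDiffAt_const.add (contDiffAt_const.div (contDiffAt_id.mul a1) h2),
    (((hasDerivAt_id s).const_mul (-M)).add (((d1.log h1).sub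
      (Real.hasDerivAt_log hs.ne')).const_mul (J : ℝ))).congr_deriv ?_,
    (((hasDerivAt_const s (J : ℝ)).div ((hasDerivAt_id s).mul d1) h2).const_add M).congr_deriv ?_,
    le_add_of_nonneg_right (by positivity), ?_⟩
  · rw [kk]
    field_simp
    ring
  · simp only [k1, Pi.mul_apply, id]
    ring
  · rw [wt, ph, ← Real.exp_log (show 0 < s / (1 + s) by positivity), ← Real.exp_nat_mul,
      ← Real.exp_add, Real.log_div hs.ne' h1]
    push_cast
    ring_nf

/-- Hint: `J ≥ 3 / t`, `J ≥ 3`; for `s ≤ 1` compare with `(J / (s (1+s)))^2`, for `1 ≤ s` one has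
`|k1| ≤ 3 J / 4 ≤ t M^2`. -/
theorem ek_ex {t : ℝ} (ht : 0 < t) : ∃ (M : ℝ) (J : ℕ), 0 < M ∧ 3 ≤ J ∧ 1 ≤ t * M ∧
    ∀ s, 0 < s → |k1 J s| ≤ t * kk M J s ^ 2 := by
  obtain ⟨J, hJ⟩ := exists_nat_ge (max 3 (1 / t))
  have j3 : (3 : ℝ) ≤ J := (le_max_left _ _).trans hJ
  have jt : 1 ≤ t * J := by
    have h := (le_max_right _ _).trans hJ
    rwa [div_le_iff₀' ht] at h
  refine ⟨1 / t, J, by positivity, by exact_mod_cast j3, by rw [mul_one_div_cancel ht.ne'],
    fun s hs => ?_⟩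
  obtain ⟨w, hw⟩ : ∃ w : ℝ, w = 1 / (s * (1 + s)) := ⟨_, rfl⟩
  have w0 : 0 < w := by rw [hw]; positivity
  have w1 : s * w ≤ 1 := by
    rw [hw, mul_one_div, div_le_one (by positivity)]
    nlinarith
  have e1 : |k1 J s| = J * w ^ 2 + 2 * J * w * (s * w) := by
    rw [k1, neg_div, abs_neg, abs_of_nonneg (by positivity), hw]
    field_simp
  have e2 : t * kk (1 / t) J s ^ 2 = 1 / t + 2 * J * w + t * J * (J * w ^ 2) := by
    rw [kk, hw]
    field_simp
    ring
  have h1 : 2 * J * w * (s * w) ≤ 2 * J * w := mul_le_of_le_one_right (by positivity) w1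
  have h2 : J * w ^ 2 ≤ t * J * (J * w ^ 2) := le_mul_of_one_le_left (by positivity) jt
  have h3 : 0 < 1 / t := by positivity
  rw [e1, e2]
  linarith

end Vale.Agent.P088F
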