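import Vale.Agent.P088F.EB0

/-! P088F, part E: smoothness and signs. -/

open MeasureTheory Set Filter Topology
open scoped ContDiff

noncomputable section

namespace Vale.Agent.P088F

open Vale.Agent.P292E Vale.Agent.P088

variable {n : ℕ} [NeZero n]

/-- Hint: `Cx.l12`, `Cx.Vq`, `Cx.q1`; `g = κ N k / 4 * m l2^2` with `1 ≤ κ N`, `1 ≤ t k`, `t ≤ 1 / 4`;
`V = k^2 n1 ≥ k^2 / r^2`, `r ≤ δ ≤ 1`. -/
theorem es0 (n : ℕ) [NeZero n] : Sml n Dt.S0 := by
  intro C
  have hn : (0 : ℝ) < n := by exact_mod_cast Nat.pos_of_ne_zero (NeZero.ne n)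
  have hC : 0 < |C| + 1 := by positivity
  refine ⟨min (1 / 4) (min (1 / (2 * n)) (1 / (10 * (|C| + 1)))), by positivity, ?_⟩
  intro P g g' M J p r δ t ht h
  have t4 : t ≤ 1 / 4 := ht.trans (min_le_left _ _)
  have tn : t ≤ 1 / (2 * n) := ht.trans ((min_le_right _ _).trans (min_le_left _ _))
  have tC : t ≤ 1 / (10 * (|C| + 1)) := ht.trans ((min_le_right _ _).trans (min_le_right _ _))
  have t0 : 0 < t := h.δ0.trans_le h.δt
  have hn' : t * (2 * n) ≤ 1 := by rwa [le_div_iff₀ (by positivity)] at tn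
  have hC' : t * (10 * C) ≤ 1 := by
    rw [le_div_iff₀ (by positivity)] at tC
    have := le_abs_self C
    nlinarith
  obtain ⟨k0, k1', rδ, -, -, hΨ, -, -, -⟩ := h.k
  obtain ⟨-, l10, l20, -, -, l12, -⟩ := h.l12 hC'
  have k4 : 4 ≤ kk M J (P.Th g' p) := by nlinarith
  have s1 : ContDiffAt ℝ ∞ P.b1 p := h.geo.s1
  have s2 : ContDiffAt ℝ ∞ P.b2 p := h.geo.s2
  have sμ : ContDiffAt ℝ ∞ (P.mu g g') p := h.geo.sμ
  refine ⟨h.a.1, h.a.2.1, fun i j y => h.y i j y.1, fun i j y => h.y' i j y.2, ?_, ?_, ?_, hΨ, ?_,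
    (h.ddg 0).1, fun ξ => (h.q1 hn' ξ).1, fun ξ => (h.q1 hn' ξ).2.2.1, Real.exp_pos _, l10, l20,
    l12, ?_, ?_⟩
  · exact (contDiffAt_const.mul (s1.add s2)).exp
  · exact (contDiffAt_const.add sμ).mul (contDiffAt_const.mul s1).exp
  · exact (contDiffAt_const.mul s2).exp
  · exact contDiffAt_const.mul (s1.add s2)
  · have h1 : 1 ≤ P.κ * P.N / 4 * kk M J (P.Th g' p) := by nlinarith [h.κN]
    have h2 : 0 < Real.exp (-n * (P.b1 p + P.b2 p)) * Real.exp (2 * P.b2 p) ^ 2 := by positivity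
    exact le_mul_of_one_le_left h2.le h1
  · rw [h.Vq.self_of_nhds.1]
    have h1 := h.geo.n1l
    have r1 : r ^ 2 ≤ 1 := by
      have := h.r0
      have := h.δt
      nlinarith
    have r2 : 0 < r ^ 2 := pow_pos h.r0 2
    have h2 : 0 < P.n1 g g' p := by
      by_contra hh
      push Not at hh
      nlinarith
    have h3 : 1 ≤ P.n1 g g' p := by nlinarith
    have h4 : 1 ≤ kk M J (P.Th g' p) ^ 2 := by nlinarith
    nlinarith

end Vale.Agent.P088F
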