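import Vale.Agent.P088F.ECf

/-! P088F, part E: the symbols of the quadratic form. -/

open scoped ContDiff Topology
open Set Filter

noncomputable section

namespace Vale.Agent.P088F.Eg

open Vale.Agent.P292E Vale.Agent.P088 Vale.Agent.P088.Car

variable {n : ℕ} {S : Type}

/-- the inverse matrix at the midpoint -/
def Gm (g : Mf n) (j k : Fin n) (y : V n × V n) : ℝ := Gi g j k (Lt n (1 / 2) y)

/-- the lowered difference vector -/
def uu (g : Mf n) (j : Fin n) (y : V n × V n) : ℝ := ∑ k, Gm g j k y * zz k y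

/-- the remainder in the gradient of the quadratic form -/
def RR (g : Mf n) (i : Fin n) (y : V n × V n) : ℝ :=
  ∑ j, ∑ k, 1 / 2 * (dd (ee i) (Gi g j k) (Lt n (1 / 2) y) * (zz j y * zz k y))

variable {g : Mf n}

theorem qq_eq (g : Mf n) (y : V n × V n) : qq g y = ∑ j, zz j y * uu g j y := by
  simp only [qq, uu, Gm, Gi, zz, Lth, Finset.mul_sum]
  exact Finset.sum_congr rfl fun j _ => Finset.sum_congr rfl fun k _ => by ring

theorem Gm_sm (h : GS g) (j k : Fin n) : ContDiff ℝ ∞ (Gm g j k) :=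
  (h.ism j k).comp (Lt n (1 / 2)).contDiff

theorem uu_sm (h : GS g) (j : Fin n) : ContDiff ℝ ∞ (uu g j) :=
  ContDiff.sum fun k _ => (Gm_sm h j k).mul (zz_sm k)

theorem qq_sm (h : GS g) : ContDiff ℝ ∞ (qq g) := by
  rw [show qq g = fun y => ∑ j, zz j y * uu g j y from funext (qq_eq g)]
  exact ContDiff.sum fun j _ => (zz_sm j).mul (uu_sm h j)

theorem dd_qq (h : GS g) {v : V n × V n} {i : Fin n} {σ : ℝ}
    (h1 : Lt n (1 / 2) v = (1 / 2 : ℝ) • ee i) (h2 : ∀ j, zz j v = σ * dl i j) (y : V n × V n) :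
    dd v (qq g) y = 2 * σ * uu g i y + RR g i y := by
  have h3 : ∀ j k, dd v (Gm g j k) y = 1 / 2 * dd (ee i) (Gi g j k) (Lt n (1 / 2) y) := fun j k => by
    refine (dd_lin (Lt n (1 / 2)) ((h.ism j k).differentiable (by simp) _) v).trans ?_
    rw [h1]
    simp only [dd, map_smul, smul_eq_mul]
  have h4 : ∀ j, dd v (uu g j) y = ∑ k, 1 / 2 * dd (ee i) (Gi g j k) (Lt n (1 / 2) y) * zz k y +
      σ * Gm g i j y := fun j => by
    refine (dd_sum (U := fun k y => Gm g j k y * zz k y) _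
      (fun k => ((Gm_sm h j k).mul (zz_sm k)).contDiffAt) v).trans ?_
    simp only [fun k => dd_mul (Gm_sm h j k).contDiffAt (zz_sm k).contDiffAt (x := y) v, h3, dd_zz,
      h2, Finset.sum_add_distrib]
    congr 1
    rw [Gm, h.isymm, ← dl_sum i fun k => σ * Gi g j k (Lt n (1 / 2) y)]
    exact Finset.sum_congr rfl fun k _ => by rw [Gm]; ring
  rw [show qq g = fun y => ∑ j, zz j y * uu g j y from funext (qq_eq g),
    dd_sum (U := fun j y => zz j y * uu g j y) _ fun j => ((zz_sm j).mul (uu_sm h j)).contDiffAt]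
  simp only [fun j => dd_mul (zz_sm j).contDiffAt (uu_sm h j).contDiffAt (x := y) v, h4, dd_zz, h2,
    Finset.sum_add_distrib, mul_add, mul_assoc σ, ← Finset.mul_sum, dl_sum]
  have h5 : ∑ j, zz j y * (σ * Gm g i j y) = σ * uu g i y := by
    rw [uu, Finset.mul_sum]
    exact Finset.sum_congr rfl fun j _ => by ring
  have h6 : ∑ j, zz j y * ∑ k, 1 / 2 * dd (ee i) (Gi g j k) (Lt n (1 / 2) y) * zz k y =
      RR g i y := by
    simp only [RR, Finset.mul_sum]
    exact Finset.sum_congr rfl fun j _ => Finset.sum_congr rfl fun k _ => by ring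
  rw [h5, h6]
  ring

theorem dd_qq1 (h : GS g) (i : Fin n) (y : V n × V n) :
    dd (e1 i) (qq g) y = 2 * -1 * uu g i y + RR g i y :=
  dd_qq h (by rw [Lth]; simp [e1]) (fun j => by simp [zz, e1, ee_apply]) y

theorem dd_qq2 (h : GS g) (i : Fin n) (y : V n × V n) :
    dd (e2 i) (qq g) y = 2 * 1 * uu g i y + RR g i y :=
  dd_qq h (by rw [Lth]; simp [e2]) (fun j => by simp [zz, e2, ee_apply]) y

theorem mul_uu (h : GS g) (j : Fin n) (y : V n × V n) :
    ∑ k, g j k (Lt n (1 / 2) y) * uu g k y = zz j y := by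
  simp only [uu, Finset.mul_sum]
  rw [Finset.sum_comm]
  simp only [← mul_assoc, ← Finset.sum_mul, Gm, h.mul_inv, dl_sum]

variable [NeZero n] {P : Par}

theorem th_eq (P : Par) (g : Mf n) : P.Th g = fun y => Real.log (qq g y) - P.b1 y - P.b2 y := rfl

theorem th_sa (h : GS g) (hB : 0 < P.B) {y : V n × V n} (hy : qq g y ≠ 0) : SA (P.Th g) y :=
  (((qq_sm h).contDiffAt.log hy).sub (b1_sm hB).contDiffAt).sub (b2_sm hB).contDiffAt

theorem dd_th (h : GS g) (hB : 0 < P.B) {y : V n × V n} (hy : qq g y ≠ 0) (v : V n × V n) :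
    dd v (P.Th g) y = dd v (qq g) y * (qq g y)⁻¹ - dd v P.b1 y - dd v P.b2 y := by
  have h1 : SA (fun y => Real.log (qq g y)) y := (qq_sm h).contDiffAt.log hy
  rw [th_eq, dd_sub (h1.sub (b1_sm hB).contDiffAt) (b2_sm hB).contDiffAt,
    dd_sub h1 (b1_sm hB).contDiffAt]
  simp only [dd, (((qq_sm h).differentiable (by simp) y).hasFDerivAt.log hy).fderiv, smul_apply,
    smul_eq_mul, mul_comm]

theorem dd_b11 (hB : 0 < P.B) (j : Fin n) (y : V n × V n) : dd (e1 j) P.b1 y = pq P j y.1 :=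
  (dd_b1 hB _ y).trans (dd_logb hB j _)

theorem dd_b22 (hB : 0 < P.B) (j : Fin n) (y : V n × V n) : dd (e2 j) P.b2 y = pq P j y.2 :=
  (dd_b2 hB _ y).trans (dd_logb hB j _)

theorem dd_b12 (hB : 0 < P.B) (j : Fin n) (y : V n × V n) : dd (e2 j) P.b1 y = 0 := by
  rw [dd_b1 hB]
  simp [dd, e2]

theorem dd_b21 (hB : 0 < P.B) (j : Fin n) (y : V n × V n) : dd (e1 j) P.b2 y = 0 := by
  rw [dd_b2 hB]
  simp [dd, e1]

variable {cf : S → Cf n}

theorem obG : ∀ j k, Ob (fun s => Lt n (1 / 2) (cf s).p) 2 (fun s => (cf s).δ)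
    fun s y => Gi (cf s).g' j k y - dl j k :=
  ob_inv_sub (fun s => (cf s).gs') (fun j k => ob_bd
    (fun s => ((cf s).gs'.sm j k).sub contDiff_const) fun s i hi => (cf s).nr' j k i (by omega))
    (fun s => (cf s).δ0.le) (fun s => (cf s).δ3) fun s => (cf s).gs'.ibd
      (fun j k => by simpa using (cf s).nr' j k 0 (Nat.zero_le _) _ trivial) (cf s).δ1

theorem half_le : |(1 / 2 : ℝ)| ≤ 1 := by norm_num [abs_of_pos]

theorem oG (j k : Fin n) : O cf 1 (fun s => (cf s).δ) fun s y => Gm (cf s).g' j k y - dl j k :=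
  Ob.pull half_le (obG j k).pred fun s => (cf s).δ0.le

theorem ou (j : Fin n) : O cf 1 (fun s => (cf s).r) fun s => uu (cf s).g' j :=
  ob_sum Finset.univ (fun s => (cf s).r0.le) fun k => (((((oG j k).le fun s => (cf s).δ3).add
    (ob_c (dl j k))).omul (oz k)).of_eq fun s y => by ring)

theorem w0 (c : Cf n) : 0 ≤ c.δ * c.r ^ 2 := mul_nonneg c.δ0.le (sq_nonneg _)

theorem oR (i : Fin n) : O cf 1 (fun s => (cf s).δ * (cf s).r ^ 2) fun s => RR (cf s).g' i :=
  ob_sum Finset.univ (fun s => w0 _) fun j => ob_sum Finset.univ (fun s => w0 _) fun k =>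
    ((((Ob.pull half_le ((obG j k).dd i) fun s => (cf s).δ0.le).mul ((oz j).mul (oz k))).le
      fun s => by rw [sq]).cmul (1 / 2)).of_eq fun s y => by simp only [dd, fderiv_sub_const]

theorem oq1 : O cf 1 (fun s => (cf s).δ * (cf s).r ^ 2)
    fun s y => qq (cf s).g' y - ∑ j, zz j y * zz j y := by
  refine (ob_sum Finset.univ (fun s => w0 _) fun j => ob_sum Finset.univ (fun s => w0 _) fun k =>
    ((oG j k).mul ((oz j).mul (oz k))).le fun s => by rw [sq]).of_eq fun s y => ?_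
  rw [qq_eq, ← Finset.sum_sub_distrib]
  refine Finset.sum_congr rfl fun j _ => ?_
  simp only [sub_mul, Finset.sum_sub_distrib, uu, Finset.mul_sum, mul_left_comm (dl j _),
    mul_left_comm (Gm _ _ _ _)]
  rw [← Finset.mul_sum, ← Finset.mul_sum, dl_sum, Finset.mul_sum]

theorem oS2 {t : ℝ} (ht : |t| ≤ 1) (h1 : |t - 1 / 2| ≤ 1) (j k : Fin n) :
    O cf 1 (fun s => (cf s).δ * (cf s).r)
      fun s y => (cf s).g' j k (Lt n t y) - (cf s).g' j k (Lt n (1 / 2) y) :=
  (ob_diff ht half_le h1 (fun s => ((cf s).gs'.sm j k).sub contDiff_const)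
    fun s i hi => (cf s).nr' j k i (by omega)).of_eq fun s y => by ring

theorem oS0 (j k : Fin n) : O cf 1 (fun s => (cf s).δ * (cf s).r)
    fun s y => (cf s).g j k y.1 - (cf s).g' j k y.1 :=
  (Ob.pull (t := 0) (by simp) (u := fun s y => (cf s).g j k y - (cf s).g' j k y)
    (ob_of_bd (fun _ j => (ee_norm j).le)
      (fun s => (((cf s).gs.sm j k).sub ((cf s).gs'.sm j k)).contDiffAt)
      fun s i hi => by rw [Lt0]; exact (cf s).df i hi j k)
    fun s => (mul_pos (cf s).δ0 (cf s).r0).le).of_eq fun s y => by rw [Lt0]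

theorem oS1 (j k : Fin n) : O cf 1 (fun s => (cf s).δ * (cf s).r)
    fun s y => a1 (cf s).g j k y - (cf s).g' j k (Lt n (1 / 2) y) :=
  ((oS0 j k).add (oS2 (t := 0) (by simp) (by norm_num [abs_of_pos]) j k)).of_eq
    fun s y => by rw [Lt0, a1]; ring

theorem oS3 (j k : Fin n) : O cf 1 (fun s => (cf s).δ * (cf s).r)
    fun s y => a2 (cf s).g' j k y - (cf s).g' j k (Lt n (1 / 2) y) :=
  (oS2 (t := 1) (by simp) (by norm_num [abs_of_pos]) j k).of_eq fun s y => by rw [Lt1, a2]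

theorem oT {a : Fin n → Fin n → S → V n × V n → ℝ} (h : ∀ j k, O cf 1 (fun s => (cf s).δ * (cf s).r)
    fun s y => a j k s y - (cf s).g' j k (Lt n (1 / 2) y)) (j : Fin n) :
    O cf 1 (fun s => (cf s).δ * (cf s).r ^ 2)
      fun s y => ∑ k, a j k s y * uu (cf s).g' k y - zz j y :=
  (ob_sum Finset.univ (fun s => w0 _) fun k => ((h j k).mul (ou k)).le
    fun s => by rw [sq, mul_assoc]).of_eq fun s y => by
      simp only [sub_mul, Finset.sum_sub_distrib, mul_uu (cf s).gs']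

theorem og {x : S → V n} {G : S → Mf n} (h : ∀ s, GS (G s))
    (hb : ∀ s j k, Bd 3 (fun x => G s j k x - dl j k) univ (cf s).δ) (j k : Fin n) :
    Ob x 1 (fun _ => 1) fun s => G s j k :=
  (((ob_bd (fun s => ((h s).sm j k).sub contDiff_const) fun s i hi => hb s j k i (by omega)).le
    fun s => (cf s).δ3).add (ob_c (dl j k))).of_eq fun s y => by ring

theorem pull0 {k : ℕ} {w : S → ℝ} {u : S → V n → ℝ} (h : Ob (fun s => (cf s).p.1) k w u)
    (hw : ∀ s, 0 ≤ w s) : O cf k w fun s y => u s y.1 :=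
  (Ob.pull (t := 0) (by simp) (by simpa only [Lt0] using h) hw).of_eq fun s y => by rw [Lt0]

theorem pull1 {k : ℕ} {w : S → ℝ} {u : S → V n → ℝ} (h : Ob (fun s => (cf s).p.2) k w u)
    (hw : ∀ s, 0 ≤ w s) : O cf k w fun s y => u s y.2 :=
  (Ob.pull (t := 1) (by simp) (by simpa only [Lt1] using h) hw).of_eq fun s y => by rw [Lt1]

theorem op1 (j : Fin n) : O cf 1 (fun s => (cf s).P.N) fun s y => pq (cf s).P j y.1 :=
  pull0 (ob_pq (fun s => (cf s).x2.le.trans (by norm_num)) j) fun s => (cf s).N0.le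

theorem op2 (j : Fin n) : O cf 1 (fun s => (cf s).P.N) fun s y => pq (cf s).P j y.2 :=
  pull1 (ob_pq (fun s => (cf s).y3) j) fun s => (cf s).N0.le

variable (hq : ∀ s, (cf s).r ^ 2 / 2 ≤ qq (cf s).g' (cf s).p)
include hq

theorem q_ne (s : S) : ∀ᶠ y in 𝓝 (cf s).p, qq (cf s).g' y ≠ 0 :=
  (qq_sm (cf s).gs').continuous.continuousAt.eventually_ne
    ((by have := (cf s).r0; positivity : 0 < (cf s).r ^ 2 / 2).trans_le (hq s)).ne'

theorem oqi : O cf 1 (fun s => ((cf s).r ^ 2)⁻¹) fun s y => (qq (cf s).g' y)⁻¹ := by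
  have h0 : ∀ s, 0 < (cf s).r ^ 2 := fun s => pow_pos (cf s).r0 2
  have h1 : O cf 1 (fun s => (cf s).r ^ 2) fun s => qq (cf s).g' :=
    ((ob_sum Finset.univ (fun s => mul_self_nonneg _) fun j => (oz j).mul (ou j)).le
      fun s => (sq _).ge).of_eq fun s y => (qq_eq _ y).symm
  have h2 : O cf 1 (fun s => ((cf s).r ^ 2)⁻¹) fun s _ => ((cf s).r ^ 2)⁻¹ :=
    ob_w fun s => (inv_pos.2 (h0 s)).le
  refine (h2.mulo (((h2.mul h1).le fun s => (inv_mul_cancel₀ (h0 s).ne').le).inv (c := 1 / 2)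
    (by norm_num) fun s => ?_)).of_eq fun s y => ?_
  · rw [le_inv_mul_iff₀ (h0 s)]
    linarith [hq s]
  · rw [mul_inv, inv_inv, inv_mul_cancel_left₀ (h0 s).ne']

theorem sy1 : Sy (fun s => (cf s).dr) (fun s => (cf s).p) (fun s => (cf s).r) (fun s => (cf s).δ)
    (fun s => (cf s).P.N) (-1) (fun j _ => zz j) (fun j s => uu (cf s).g' j)
    (fun j s y => pq (cf s).P j y.1) (fun j s => RR (cf s).g' j) (fun j k s => a1 (cf s).g j k)
    fun s => qq (cf s).g' :=
  ⟨fun s => (cf s).r0, fun s => (cf s).N1, fun s => (cf s).rN, fun s => (cf s).δ3, by norm_num,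
    oz, ou, op1, oR, fun j k => pull0 (og (fun s => (cf s).gs) (fun s => (cf s).nr) j k)
      fun _ => zero_le_one, fun j k s y => (cf s).gs.symm j k _, oT oS1, fun s => qq_eq _,
    oqi hq, q_ne hq⟩

theorem sy2 : Sy (fun s => (cf s).dr) (fun s => (cf s).p) (fun s => (cf s).r) (fun s => (cf s).δ)
    (fun s => (cf s).P.N) 1 (fun j _ => zz j) (fun j s => uu (cf s).g' j)
    (fun j s y => pq (cf s).P j y.2) (fun j s => RR (cf s).g' j) (fun j k s => a2 (cf s).g' j k)
    fun s => qq (cf s).g' :=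
  ⟨fun s => (cf s).r0, fun s => (cf s).N1, fun s => (cf s).rN, fun s => (cf s).δ3, by norm_num,
    oz, ou, op2, oR, fun j k => pull1 (og (fun s => (cf s).gs') (fun s => (cf s).nr') j k)
      fun _ => zero_le_one, fun j k s y => (cf s).gs'.symm j k _, oT oS3, fun s => qq_eq _,
    oqi hq, q_ne hq⟩

end Vale.Agent.P088F.Eg
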