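import Vale.Agent.P292E.Ell
import Vale.Agent.P292E.Reg
import Vale.Agent.P292E.Sys

/-! The interior estimate for classical solutions of scalar equations. -/

open MeasureTheory Set Filter Topology Metric
open scoped ContDiff

noncomputable section

namespace Vale.Agent.P088F

open Vale.Agent.P292E

variable {N : ℕ} {U : Set (V N)} {φ g : V N → ℂ}

theorem tst_zero (hφ : Tst U φ) {x : V N} (hx : x ∉ U) : φ x = 0 :=
  image_eq_zero_of_notMem_tsupport fun h => hx (hφ.2.2 h)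

theorem pd_cut (hU : IsOpen U) (hφ : Tst U φ) (hg : ContDiffOn ℝ ∞ g U) (p : Fin N) :
    pd p (fun y => φ y * g y) = fun x => pd p φ x * g x + φ x * pd p g x := by
  funext x
  by_cases hx : x ∈ U
  · exact sys_pd_mul (hφ.1.differentiable (by simp) x)
      ((hg.contDiffAt (hU.mem_nhds hx)).differentiableAt (by simp)) p
  · rw [tst_zero ((cut_contDiff hU hφ hg).pd p).1 hx, tst_zero (hφ.pd p).1 hx, tst_zero hφ hx,
      zero_mul, zero_mul, add_zero]

theorem ibp (hU : IsOpen U) (hφ : Tst U φ) (hg : ContDiffOn ℝ ∞ g U) (p : Fin N) :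
    ∫ x, φ x * pd p g x = -∫ x, pd p φ x * g x := by
  have h := sys_ibp (cut_contDiff hU hφ hg) p
  rw [pd_cut hU hφ hg, integral_add (sys_int (cut_contDiff hU (hφ.pd p).1 hg))
    (sys_int (cut_contDiff hU hφ (contDiffOn_pd hU hg p)))] at h
  exact eq_neg_of_add_eq_zero_right h

theorem pd_add {f : V N → ℂ} {x : V N} (hf : DifferentiableAt ℝ f x) (hg : DifferentiableAt ℝ g x)
    (p : Fin N) : pd p (fun y => f y + g y) x = pd p f x + pd p g x := by
  rw [pd, fderiv_fun_add hf hg]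
  rfl

theorem weak_cl (hU : IsOpen U) {a : Fin N → Fin N → V N → ℂ} {b : Fin N → V N → ℂ}
    {c u f : V N → ℂ} (ha : ∀ p q, ContDiffOn ℝ ∞ (a p q) U) (hb : ∀ p, ContDiffOn ℝ ∞ (b p) U)
    (hc : ContDiffOn ℝ ∞ c U) (hu : ContDiffOn ℝ ∞ u U) (h : ∀ x ∈ U, Qop a b c u x = f x) :
    Weak U (fun p q => a q p) (fun p x => ∑ q, (pd q (a p q) x + pd q (a q p) x) + -b p x)
      (fun x => ∑ p, ∑ q, pd q (pd p (a p q)) x + -∑ p, pd p (b p) x + c x) u f 0 := by
  intro φ hφ
  have t1 := fun p q => cut_contDiff hU hφ (ha p q)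
  have t2 := fun p => cut_contDiff hU hφ (hb p)
  have u1 := fun p => contDiffOn_pd hU hu p
  have i1 := fun p q => sys_int (cut_contDiff hU (t1 p q) (contDiffOn_pd hU (u1 q) p))
  have i2 := fun p => sys_int (cut_contDiff hU (t2 p) (u1 p))
  have i3 := sys_int (cut_contDiff hU (cut_contDiff hU hφ hc) hu)
  have j1 := fun p q => sys_int (cut_contDiff hU (((t1 p q).pd p).1.pd q).1 hu)
  have j2 := fun p => (sys_int (cut_contDiff hU ((t2 p).pd p).1 hu)).fun_neg
  have s1 := integrable_finsetSum Finset.univ fun p _ =>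
    integrable_finsetSum Finset.univ fun q _ => i1 p q
  have s2 := integrable_finsetSum Finset.univ fun p _ => i2 p
  have r1 := integrable_finsetSum Finset.univ fun p _ =>
    integrable_finsetSum Finset.univ fun q _ => j1 p q
  have r2 := integrable_finsetSum Finset.univ fun p _ => j2 p
  have e : ∫ x, (∑ p, ∑ q, pd q (pd p fun y => φ y * a p q y) x * u x +
      ∑ p, -(pd p (fun y => φ y * b p y) x * u x) + φ x * c x * u x) =
      ∫ x, (∑ p, ∑ q, φ x * a p q x * pd p (pd q u) x + ∑ p, φ x * b p x * pd p u x +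
        φ x * c x * u x) := by
    rw [integral_add (r1.fun_add r2) i3, integral_add (s1.fun_add s2) i3, integral_add r1 r2,
      integral_add s1 s2, integral_finsetSum _ fun p _ => integrable_finsetSum _ fun q _ => j1 p q,
      integral_finsetSum _ fun p _ => integrable_finsetSum _ fun q _ => i1 p q,
      integral_finsetSum _ fun p _ => j2 p, integral_finsetSum _ fun p _ => i2 p]
    congr 2
    · refine Finset.sum_congr rfl fun p _ => ?_
      rw [integral_finsetSum _ fun q _ => j1 p q, integral_finsetSum _ fun q _ => i1 p q]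
      refine Finset.sum_congr rfl fun q _ => ?_
      rw [ibp hU (t1 p q) (u1 q), ibp hU ((t1 p q).pd p).1 hu, neg_neg]
    · refine Finset.sum_congr rfl fun p _ => ?_
      rw [ibp hU (t2 p) hu, integral_neg]
  refine (integral_congr_ae (.of_forall fun x => ?_)).trans
    (e.trans (integral_congr_ae (.of_forall fun x => ?_)))
  · have d : ∀ {ψ : V N → ℂ}, Tst U ψ → DifferentiableAt ℝ ψ x := fun h =>
      h.1.differentiable (by simp) x
    have e1 : ∀ p q, pd q (pd p fun y => φ y * a p q y) x = pd q (pd p φ) x * a p q x +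
        pd p φ x * pd q (a p q) x + (pd q φ x * pd p (a p q) x + φ x * pd q (pd p (a p q)) x) :=
      fun p q => by
        have k := contDiffOn_pd hU (ha p q) p
        rw [pd_cut hU hφ (ha p q), pd_add (d (cut_contDiff hU (hφ.pd p).1 (ha p q)))
          (d (cut_contDiff hU hφ k)), pd_cut hU (hφ.pd p).1 (ha p q), pd_cut hU hφ k]
    have e2 : ∑ p, ∑ q, a q p x * pd p (pd q φ) x = ∑ p, ∑ q, pd q (pd p φ) x * a p q x :=
      Finset.sum_comm.trans (by simp only [mul_comm])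
    have e3 : ∑ p, ∑ q, pd q φ x * pd p (a p q) x = ∑ p, pd p φ x * ∑ q, pd q (a q p) x :=
      Finset.sum_comm.trans (by simp only [Finset.mul_sum])
    simp only [Qop, e1, pd_cut hU hφ (hb _), e2, add_mul, Finset.sum_mul, ← mul_comm (u x),
      ← Finset.mul_sum, Finset.sum_add_distrib, Finset.sum_neg_distrib, neg_mul,
      mul_comm (pd _ (a _ _) x), mul_comm (b _ x), ← mul_comm (φ x)]
    rw [e3]
    ring
  · by_cases hx : x ∈ U
    · simp only [← h x hx, Qop, Pi.zero_apply, zero_mul, Finset.sum_const_zero, add_zero,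
        mul_assoc, ← Finset.mul_sum]
      ring
    · simp [tst_zero hφ hx]

/-- Smooth functions on the ball of radius three with bounded derivatives. -/
def Cl (M : ℕ) (K : ℝ) (f : V N → ℂ) : Prop :=
  ContDiffOn ℝ ∞ f (ball 0 3) ∧ Bd M f (ball 0 3) K

variable {M M' : ℕ} {K K' : ℝ} {f : V N → ℂ}

theorem Cl.mono (h : Cl M K f) (hM : M' ≤ M) (hK : K ≤ K') : Cl M' K' f :=
  ⟨h.1, h.2.mono hM le_rfl hK⟩

theorem Cl.nn (h : Cl M K f) : 0 ≤ K :=
  (norm_nonneg _).trans (h.2.norm_le (mem_ball_self (by norm_num)))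

theorem Cl.add (h : Cl M K f) (h' : Cl M K' g) : Cl M (K + K') fun x => f x + g x :=
  ⟨h.1.add h'.1, .add isOpen_ball h.1 h'.1 h.2 h'.2⟩

theorem Cl.neg (h : Cl M K f) : Cl M K fun x => -f x := ⟨h.1.neg, h.2.neg⟩

theorem Cl.mul (h : Cl M K f) (h' : Cl M K' g) : Cl M (2 ^ M * K * K') fun x => f x * g x :=
  ⟨h.1.mul h'.1, .mul isOpen_ball h.1 h'.1 h.2 h'.2⟩

theorem Cl.sum {ι : Type} [Fintype ι] {F : ι → V N → ℂ} (h : ∀ i, Cl M K (F i)) :
    Cl M (Fintype.card ι * K) fun x => ∑ i, F i x :=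
  ⟨.sum fun i _ => (h i).1, .sum isOpen_ball (fun i => (h i).1) fun i => (h i).2⟩

theorem Cl.pd (h : Cl (M + 1) K f) (p : Fin N) : Cl M K (pd p f) :=
  ⟨contDiffOn_pd isOpen_ball h.1 p, h.2.pd isOpen_ball h.1 p⟩

theorem cl_const {c : ℂ} (h : ‖c‖ ≤ K) : Cl M K fun _ : V N => c :=
  ⟨contDiffOn_const, (Bd_const M c _).mono le_rfl le_rfl h⟩

theorem Cl.congr (h : Cl M K f) (e : EqOn g f (ball 0 3)) : Cl M K g :=
  ⟨h.1.congr e, h.2.congr isOpen_ball e⟩

theorem est_sc (N j : ℕ) : ∃ M : ℕ, ∀ k : ℝ, 0 < k → ∃ ε : ℝ, 0 < ε ∧ ∀ K : ℝ, ∃ C : ℝ,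
    ∀ (a₀ : Fin N → Fin N → ℂ) (a : Fin N → Fin N → V N → ℂ) (b : Fin N → V N → ℂ)
      (c u f : V N → ℂ) (A B : ℝ), (∀ ξ, k * ‖ξ‖ ^ 2 ≤ symb a₀ ξ) → (∀ p q, ‖a₀ p q‖ ≤ K) →
      (∀ p q, Cl M ε fun x => a p q x - a₀ p q) → (∀ p, Cl M K (b p)) → Cl M K c → Cl M B f →
      ContDiffOn ℝ ∞ u (ball 0 3) → IntegrableOn u (ball 0 3) → ∫ x in ball 0 3, ‖u x‖ ≤ A →
      (∀ x ∈ ball 0 3, Qop a b c u x = f x) → Bd j u (ball 0 1) (C * (A + B)) := by
  obtain ⟨M, hM⟩ := ellS N j
  refine ⟨M + 2, fun k hk => ?_⟩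
  obtain ⟨ε, hε, h⟩ := hM k hk
  refine ⟨ε, hε, fun K => ?_⟩
  obtain ⟨C, hC⟩ := h (max K (max (N * (ε + ε) + K) (N * (N * ε) + N * K + K)))
  refine ⟨C, fun a₀ a b c u f A B h1 h2 h3 h4 h5 h6 h7 h8 h9 h10 => ?_⟩
  have ha : ∀ p q, ContDiffOn ℝ ∞ (a p q) (ball 0 3) := fun p q => by
    simpa using (h3 p q).1.add (contDiffOn_const (c := a₀ p q))
  have k1 : ∀ p q r, Cl (M + 1) ε (pd r (a p q)) := fun p q r =>
    ((h3 p q).pd r).congr fun x _ => by simp only [pd, fderiv_sub_const]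
  have k2 := fun p => ((Cl.sum fun q => ((k1 p q q).add (k1 q p q)).mono M.le_succ le_rfl).add
    ((h4 p).neg.mono (M.le_add_right 2) le_rfl)).mono le_rfl (by
      rw [Fintype.card_fin]
      exact le_max_of_le_right (le_max_left _ _) : _ ≤ max K (max (N * (ε + ε) + K)
        (N * (N * ε) + N * K + K)))
  have k3 := (((Cl.sum fun p => Cl.sum fun q => (k1 p q p).pd q).add (Cl.sum fun p =>
    ((h4 p).pd p).mono M.le_succ le_rfl).neg).add (h5.mono (M.le_add_right 2) le_rfl)).mono le_rfl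
      (by
        rw [Fintype.card_fin]
        exact le_max_of_le_right (le_max_right _ _) : _ ≤ max K (max (N * (ε + ε) + K)
          (N * (N * ε) + N * K + K)))
  obtain ⟨w, w1, w2, w3⟩ := hC (fun p q => a₀ q p) _ _ _ u f 0 A B
    (fun ξ => (h1 ξ).trans_eq (congrArg Complex.re (Finset.sum_comm.trans (by
      simp only [mul_right_comm])))) (fun p q => le_max_of_le_left (h2 q p))
    (fun p q => ha q p) (fun p => (k2 p).1) k3.1 h6.1 (fun _ => contDiffOn_const)
    (fun p q => ((h3 q p).mono (M.le_add_right 2) le_rfl).2) (fun p => (k2 p).2) k3.2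
    (h6.mono (M.le_add_right 2) le_rfl).2 (fun _ => (cl_const (norm_zero.trans_le h6.nn)).2) h8 h9
    (weak_cl isOpen_ball ha (fun p => (h4 p).1) h5.1 h7 h10)
  exact (w3.mono le_rfl (subset_univ _) le_rfl).congr isOpen_ball
    (Measure.eqOn_open_of_ae_eq (μ := volume) ((ae_restrict_iff' measurableSet_ball).2 w2)
      isOpen_ball (h7.continuousOn.mono (ball_subset_ball (by norm_num)))
      w1.continuous.continuousOn)

end Vale.Agent.P088F
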