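import Vale.Agent.P088F.Est1

/-! The interior estimate for classical solutions of systems with scalar principal part. -/

open MeasureTheory Set Filter Topology Metric
open scoped ContDiff

noncomputable section

namespace Vale.Agent.P088F

open Vale.Agent.P292E

variable {N m : ℕ}

theorem bd_aff {N' M : ℕ} {K : ℝ} (L : V N' →L[ℝ] V N) (hL : ‖L‖ ≤ 1) (c : V N) {s : Set (V N)}
    {s' : Set (V N')} (hs : IsOpen s) {f : V N → ℂ} (hf : ContDiffOn ℝ ∞ f s) {t : Set (V N)}
    (hts : t ⊆ s) (h : Bd M f t K) (hm : ∀ z ∈ s', c + L z ∈ t) :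
    Bd M (fun z => f (c + L z)) s' K := fun i hi z hz => by
  have ht : IsOpen ((fun z => c + z) ⁻¹' s) := hs.preimage (by fun_prop)
  have ht' := ht.preimage L.continuous
  have hy : L z ∈ (fun z => c + z) ⁻¹' s := hts (hm z hz)
  have h1 := L.iteratedFDerivWithin_comp_right (f := fun z => f (c + z)) (s := (fun z => c + z) ⁻¹' s)
    (hf.comp (contDiff_const.add contDiff_id).contDiffOn fun z hz => hz) ht.uniqueDiffOn
    ht'.uniqueDiffOn hy (BdC_le i)
  rw [iteratedFDerivWithin_of_isOpen i ht' hy, iteratedFDerivWithin_of_isOpen i ht hy,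
    iteratedFDeriv_comp_add_left] at h1
  refine (congrArg norm h1).trans_le
    ((ContinuousMultilinearMap.norm_compContinuousLinearMap_le _ _).trans ?_)
  rw [Finset.prod_const, Finset.card_fin]
  exact (mul_le_of_le_one_right (norm_nonneg _) (pow_le_one₀ (norm_nonneg _) hL)).trans
    (h i hi _ (hm z hz))

/-- The splitting of the variables. -/
def sp (N m : ℕ) : V (N + m) ≃L[ℝ] V N × V m := EuclideanSpace.finAddEquivProd

/-- The old variables. -/
def prj (N m : ℕ) : V (N + m) →L[ℝ] V N :=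
  (ContinuousLinearMap.fst ℝ (V N) (V m)).comp (sp N m).toContinuousLinearMap

/-- The new variables. -/
def ta (I : Fin m) : V (N + m) →L[ℝ] ℂ :=
  Complex.ofRealCLM.comp (EuclideanSpace.proj (Fin.natAdd N I))

theorem sp_norm (z : V (N + m)) : ‖z‖ ^ 2 = ‖(sp N m z).1‖ ^ 2 + ‖(sp N m z).2‖ ^ 2 := by
  simp only [EuclideanSpace.norm_sq_eq, Fin.sum_univ_add]
  rfl

theorem pr_le (z : V (N + m)) : ‖prj N m z‖ ≤ ‖z‖ :=
  le_of_sq_le_sq ((le_add_of_nonneg_right (sq_nonneg _)).trans_eq (sp_norm z).symm) (norm_nonneg _)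

theorem pr_mem {z : V (N + m)} (h : z ∈ ball 0 3) : prj N m z ∈ ball 0 3 :=
  mem_ball_zero_iff.2 ((pr_le z).trans_lt (mem_ball_zero_iff.1 h))

theorem pr_L (p : Fin N) : prj N m (ee (Fin.castAdd m p)) = ee p := by
  ext q
  change ee (Fin.castAdd m p) (Fin.castAdd m q) = _
  simp [ee, Fin.ext_iff]

theorem pr_R (I : Fin m) : prj N m (ee (Fin.natAdd N I)) = 0 := by
  ext q
  change ee (Fin.natAdd N I) (Fin.castAdd m q) = _
  have := q.2
  simp [ee, Fin.ext_iff]
  omega

theorem ta_L (I : Fin m) (p : Fin N) : ta I (ee (Fin.castAdd m p)) = 0 := by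
  have := p.2
  simp [ta, ee, Fin.ext_iff]
  omega

theorem ta_R (I J : Fin m) : ta I (ee (Fin.natAdd N J)) = if I = J then 1 else 0 := by
  simp only [ta, ee, ContinuousLinearMap.comp_apply, PiLp.proj_apply, PiLp.single_apply,
    Fin.natAdd_inj]
  split_ifs <;> simp

theorem Cl.pr {M : ℕ} {K : ℝ} {f : V N → ℂ} (h : Cl M K f) : Cl M K fun z => f (prj N m z) :=
  ⟨h.1.comp (prj N m).contDiff.contDiffOn fun _ => pr_mem, by
    simpa only [zero_add] using bd_aff (prj N m) (ContinuousLinearMap.opNorm_le_bound _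
      zero_le_one fun z => (pr_le z).trans_eq (one_mul _).symm) 0 isOpen_ball h.1 le_rfl h.2
      fun z hz => by simpa only [zero_add] using pr_mem hz⟩

theorem cl_ta (M : ℕ) (I : Fin m) : Cl M 3 fun z : V (N + m) => ta I z :=
  ⟨(ta I).contDiff.contDiffOn, (Bd_lin M _).mono le_rfl le_rfl (mul_le_of_le_one_right
    (by norm_num) (ContinuousLinearMap.opNorm_le_bound _ zero_le_one fun z => by
      simpa [ta] using PiLp.norm_apply_le z _))⟩

/-- The function that is linear in the new variables. -/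
def lift (g : Fin m → V N → ℂ) (z : V (N + m)) : ℂ := ∑ I, ta I z * g I (prj N m z)

theorem Cl.lift {M : ℕ} {K : ℝ} {g : Fin m → V N → ℂ} (h : ∀ I, Cl M K (g I)) :
    Cl M (m * (2 ^ M * 3 * K)) (lift g) := by
  exact (Cl.sum fun I => (cl_ta M I).mul (h I).pr).mono le_rfl (by rw [Fintype.card_fin])

theorem pd_pr {g : V N → ℂ} (hg : ContDiffOn ℝ ∞ g (ball 0 3)) {z : V (N + m)} (hz : z ∈ ball 0 3) :
    HasFDerivAt (fun z => g (prj N m z)) ((fderiv ℝ g (prj N m z)).comp (prj N m)) z :=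
  ((hg.contDiffAt (isOpen_ball.mem_nhds (pr_mem hz))).differentiableAt
    (by simp)).hasFDerivAt.comp z (prj N m).hasFDerivAt

theorem pd_lift {g : Fin m → V N → ℂ} (hg : ∀ I, ContDiffOn ℝ ∞ (g I) (ball 0 3))
    {z : V (N + m)} (hz : z ∈ ball 0 3) :
    (∀ p, pd (Fin.castAdd m p) (lift g) z = lift (fun I => pd p (g I)) z) ∧
      ∀ J, pd (Fin.natAdd N J) (lift g) z = g J (prj N m z) := by
  have h := (HasFDerivAt.fun_sum (u := Finset.univ) fun I _ =>
    (ta I).hasFDerivAt.fun_mul (pd_pr (hg I) hz)).fderiv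
  refine ⟨fun p => (DFunLike.congr_fun h _).trans ?_, fun J => (DFunLike.congr_fun h _).trans ?_⟩
  · simp [pr_L, ta_L, lift, pd]
  · simp [pr_R, ta_R]

theorem pd_ev {f g : V N → ℂ} (h : ∀ z ∈ ball 0 3, f z = g z) {z : V N} (hz : z ∈ ball 0 3)
    (p : Fin N) : pd p f z = pd p g z := by
  rw [pd, pd, EventuallyEq.fderiv_eq (mem_of_superset (isOpen_ball.mem_nhds hz) h)]

theorem lift_l1 (N m : ℕ) : ∃ c : ℝ, 0 ≤ c ∧ ∀ (u : Fin m → V N → ℂ) (A : ℝ),
    (∀ I, IntegrableOn (u I) (ball 0 3)) → (∀ I, ∫ x in ball 0 3, ‖u I x‖ ≤ A) →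
      IntegrableOn (lift u) (ball 0 3) ∧ ∫ z in ball 0 3, ‖lift u z‖ ≤ c * A := by
  obtain ⟨k, hμ⟩ : ∃ k : NNReal, (volume : Measure (V (N + m))) =
      k • ((volume : Measure (V N)).prod (volume : Measure (V m))).map (sp N m).symm :=
    ⟨_, Measure.isAddLeftInvariant_eq_smul _ _⟩
  have hm : MeasurableEmbedding (sp N m).symm := (sp N m).symm.toHomeomorph.measurableEmbedding
  refine ⟨m * (3 * (k * volume.real (ball (0 : V m) 3))), by positivity, fun u A h1 h2 => ?_⟩
  have hs : ball (0 : V (N + m)) 3 ⊆ sp N m ⁻¹' (ball 0 3 ×ˢ ball 0 3) := fun z hz =>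
    ⟨pr_mem hz, mem_ball_zero_iff.2 ((le_of_sq_le_sq ((le_add_of_nonneg_left (sq_nonneg _)).trans_eq
      (sp_norm z).symm) (norm_nonneg _)).trans_lt (mem_ball_zero_iff.1 hz))⟩
  have e : (sp N m).symm ⁻¹' (sp N m ⁻¹' (ball 0 3 ×ˢ ball 0 3)) = ball 0 3 ×ˢ ball 0 3 := by
    ext w
    simp
  have e' : ∀ w, prj N m ((sp N m).symm w) = w.1 := fun w => by simp [prj]
  have : IsFiniteMeasure (volume.restrict (ball (0 : V m) 3)) :=
    isFiniteMeasure_restrict.2 measure_ball_lt_top.ne
  have h3 : ∀ I, IntegrableOn (fun z => u I (prj N m z)) (sp N m ⁻¹' (ball 0 3 ×ˢ ball 0 3)) :=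
    fun I => by
      rw [hμ, IntegrableOn, Measure.restrict_smul]
      refine (hm.integrableOn_map_iff.2 ?_).smul_measure_nnreal
      rw [e, IntegrableOn, ← Measure.prod_restrict]
      simpa only [Function.comp_def, e'] using (h1 I).comp_fst _
  have h4 : ∀ I, ∫ z in ball 0 3, ‖u I (prj N m z)‖ ≤ k * volume.real (ball (0 : V m) 3) * A :=
    fun I => by
      refine (setIntegral_mono_set (h3 I).norm (.of_forall fun _ => norm_nonneg _)
        hs.eventuallyLE).trans ?_
      rw [hμ, Measure.restrict_smul, integral_smul_nnreal_measure, hm.setIntegral_map, e,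
        ← Measure.prod_restrict, mul_assoc]
      simp only [e']
      rw [integral_fun_fst fun x => ‖u I x‖, measureReal_restrict_apply_univ]
      exact mul_le_mul_of_nonneg_left (mul_le_mul_of_nonneg_left (h2 I) measureReal_nonneg) k.2
  have h5 : ∀ I, ∀ z ∈ ball (0 : V (N + m)) 3, ‖ta I z‖ ≤ 3 := fun I z => (cl_ta 0 I).2.norm_le
  have h6 : ∀ I, IntegrableOn (fun z => ta I z * u I (prj N m z)) (ball 0 3) := fun I =>
    ((h3 I).mono_set hs).bdd_mul (ta I).continuous.aestronglyMeasurable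
      (ae_restrict_of_forall_mem measurableSet_ball (h5 I))
  have h7 := fun I => ((h3 I).mono_set hs).norm.const_mul 3
  refine ⟨integrable_finsetSum _ fun I _ => h6 I, (setIntegral_mono_on
    (integrable_finsetSum _ fun I _ => h6 I).norm (integrable_finsetSum Finset.univ fun I _ => h7 I)
    measurableSet_ball fun z hz => (norm_sum_le _ _).trans (Finset.sum_le_sum fun I _ =>
      (norm_mul_le _ _).trans (mul_le_mul_of_nonneg_right (h5 I z hz) (norm_nonneg _)))).trans ?_⟩
  rw [integral_finsetSum _ fun I _ => h7 I]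
  refine (Finset.sum_le_card_nsmul _ _ _ fun I _ => (integral_const_mul _ _).trans_le
    (mul_le_mul_of_nonneg_left (h4 I) (by norm_num))).trans_eq ?_
  rw [Finset.card_fin, nsmul_eq_mul]
  ring

theorem est_fin (N m j : ℕ) : ∃ M : ℕ, ∀ k : ℝ, 0 < k → ∃ ε : ℝ, 0 < ε ∧ ∀ K : ℝ, ∃ C : ℝ,
    ∀ (a₀ : Fin N → Fin N → ℂ) (a : Fin N → Fin N → V N → ℂ)
      (b : Fin N → Fin m → Fin m → V N → ℂ) (c : Fin m → Fin m → V N → ℂ)
      (u f : Fin m → V N → ℂ) (A B : ℝ), 0 ≤ A → 0 ≤ B → (∀ ξ, k * ‖ξ‖ ^ 2 ≤ symb a₀ ξ) →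
      (∀ p q, ‖a₀ p q‖ ≤ K) → (∀ p q, Cl M ε fun x => a p q x - a₀ p q) →
      (∀ p I J, Cl M ε (b p I J)) → (∀ I J, Cl M K (c I J)) → (∀ I, Cl M B (f I)) →
      (∀ I, ContDiffOn ℝ ∞ (u I) (ball 0 3)) → (∀ I, IntegrableOn (u I) (ball 0 3)) →
      (∀ I, ∫ x in ball 0 3, ‖u I x‖ ≤ A) →
      (∀ I, ∀ x ∈ ball 0 3, ∑ p, ∑ q, a p q x * pd p (pd q (u I)) x +
        ∑ p, ∑ J, b p I J x * pd p (u J) x + ∑ J, c I J x * u J x = f I x) →
      ∀ I, Bd j (u I) (ball 0 (1 / 2)) (C * (A + B)) := by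
  obtain ⟨M, hM⟩ := est_sc (N + m) j
  obtain ⟨c₀, hc₀, hl⟩ := lift_l1 N m
  refine ⟨M, fun k hk => ?_⟩
  obtain ⟨ε, hε, h⟩ := hM (min k 1) (lt_min hk one_pos)
  have hT : (0 : ℝ) ≤ m * (2 ^ M * 3) := by positivity
  refine ⟨ε / (m * (2 ^ M * 3) + 1), by positivity, fun K => ?_⟩
  obtain ⟨C, hC⟩ := h (max (max K 1) (m * (2 ^ M * 3 * K)))
  refine ⟨2 * (|C| * (c₀ + m * (2 ^ M * 3))),
    fun a₀ a b c u f A B hA hB h1 h2 h3 h4 h5 h6 h7 h8 h9 h10 I => ?_⟩
  have hε1 : ε / (m * (2 ^ M * 3) + 1) ≤ ε := div_le_self hε.le (by linarith)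
  have hε2 : m * (2 ^ M * 3 * (ε / (m * (2 ^ M * 3) + 1))) ≤ ε := by
    rw [← mul_assoc, mul_div_assoc', div_le_iff₀ (by positivity)]
    linarith
  have u1 := fun p I => contDiffOn_pd isOpen_ball (h7 I) p
  have k := hC (Fin.addCases (fun p => Fin.addCases (a₀ p) fun _ => 0)
      fun J => Fin.addCases (fun _ => 0) fun J' => if J = J' then 1 else 0)
    (Fin.addCases (fun p => Fin.addCases (fun q z => a p q (prj N m z)) fun _ _ => 0)
      fun J => Fin.addCases (fun p => lift fun I => b p I J) fun J' _ => if J = J' then 1 else 0)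
    (Fin.addCases (fun _ _ => 0) fun J => lift fun I => c I J) (fun _ => 0) (lift u) (lift f) _ _
    (fun ξ => by
      have e := h1 (sp N m ξ).1
      have e1 : symb (Fin.addCases (fun p => Fin.addCases (a₀ p) fun _ => 0)
          fun J => Fin.addCases (fun _ => 0) fun J' => if J = J' then 1 else 0) ξ =
          symb a₀ (sp N m ξ).1 + ‖(sp N m ξ).2‖ ^ 2 := by
        simp only [symb, Fin.sum_univ_add, Fin.addCases_left, Fin.addCases_right, zero_mul,
          Finset.sum_const_zero, add_zero, zero_add, ite_mul, one_mul, Finset.sum_ite_eq,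
          Finset.mem_univ, if_true, Complex.add_re, ← Complex.ofReal_mul, ← Complex.ofReal_sum,
          Complex.ofReal_re, EuclideanSpace.norm_sq_eq, Real.norm_eq_abs, sq_abs]
        simp only [sq]
        rfl
      rw [e1, sp_norm, mul_add]
      exact add_le_add ((mul_le_mul_of_nonneg_right (min_le_left _ _) (sq_nonneg _)).trans e)
        (mul_le_of_le_one_left (sq_nonneg _) (min_le_right _ _)))
    (fun p q => le_max_of_le_left (by
      induction p using Fin.addCases <;> induction q using Fin.addCases <;>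
        simp only [Fin.addCases_left, Fin.addCases_right]
      exacts [le_max_of_le_left (h2 _ _), by simp, by simp, by split_ifs <;> simp]))
    (fun p q => by
      induction p using Fin.addCases <;> induction q using Fin.addCases <;>
        simp only [Fin.addCases_left, Fin.addCases_right, sub_self, sub_zero]
      exacts [((h3 _ _).mono le_rfl hε1).pr, cl_const (by simpa using hε.le),
        (Cl.lift fun I => h4 _ I _).mono le_rfl hε2, cl_const (by simpa using hε.le)])
    (fun p => by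
      induction p using Fin.addCases <;> simp only [Fin.addCases_left, Fin.addCases_right]
      exacts [cl_const (by simp), (Cl.lift fun I => h5 I _).mono le_rfl (le_max_right _ _)])
    (cl_const (by simp)) (Cl.lift h6)
    (.sum fun I _ => (ta I).contDiff.contDiffOn.mul
      ((h7 I).comp (prj N m).contDiff.contDiffOn fun _ => pr_mem))
    (hl u A h8 h9).1 (hl u A h8 h9).2 fun z hz => by
      have e1 : ∀ p q, pd (Fin.castAdd m p) (pd (Fin.castAdd m q) (lift u)) z =
          lift (fun I => pd p (pd q (u I))) z := fun p q =>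
        (pd_ev (fun z hz => (pd_lift h7 hz).1 q) hz _).trans ((pd_lift (u1 q) hz).1 p)
      have e2 : ∀ J q, pd (Fin.natAdd N J) (pd (Fin.castAdd m q) (lift u)) z =
          pd q (u J) (prj N m z) := fun J q =>
        (pd_ev (fun z hz => (pd_lift h7 hz).1 q) hz _).trans ((pd_lift (u1 q) hz).2 J)
      have e3 : ∀ J, pd (Fin.natAdd N J) (pd (Fin.natAdd N J) (lift u)) z = 0 := fun J =>
        (pd_ev (fun z hz => (pd_lift h7 hz).2 J) hz _).trans (by
          rw [pd, (pd_pr (h7 J) hz).fderiv, ContinuousLinearMap.comp_apply, pr_R, map_zero])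
      simp only [Qop, Fin.sum_univ_add, Fin.addCases_left, Fin.addCases_right, zero_mul,
        Finset.sum_const_zero, add_zero, zero_add, ite_mul, one_mul, Finset.sum_ite_eq,
        Finset.mem_univ, if_true, e1, e2, e3, (pd_lift h7 hz).2]
      simp only [lift, ← h10 _ _ (pr_mem hz), mul_add, Finset.sum_add_distrib, Finset.mul_sum,
        Finset.sum_mul, mul_assoc, mul_left_comm (a _ _ _)]
      refine congrArg₂ (· + ·) (congrArg₂ (· + ·) ?_ ?_) Finset.sum_comm
      · exact (Finset.sum_congr rfl fun _ _ => Finset.sum_comm).trans Finset.sum_comm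
      · exact Finset.sum_comm.trans
          ((Finset.sum_congr rfl fun _ _ => Finset.sum_comm).trans Finset.sum_comm)
  obtain ⟨L, hL⟩ : ∃ L : V N →L[ℝ] V (N + m), ∀ x, sp N m (L x) = (x, 0) :=
    ⟨(sp N m).symm.toContinuousLinearMap.comp (.inl ℝ _ _), fun x => by simp⟩
  have l1 : ∀ x, ‖L x‖ = ‖x‖ := fun x => by
    rw [← sq_eq_sq₀ (norm_nonneg _) (norm_nonneg _), sp_norm, hL]
    simp
  have l2 : ∀ x, lift u ((1 / 2 : ℝ) • ee (Fin.natAdd N I) + L x) = 1 / 2 * u I x := fun x => by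
    have l3 : prj N m (L x) = x := congrArg Prod.fst (hL x)
    have l4 : ∀ J, ta J (L x) = 0 := fun J =>
      congrArg Complex.ofReal (congrArg (fun w : V N × V m => w.2 J) (hL x))
    simp [lift, l3, l4, pr_R, ta_R]
  have k1 := bd_aff L (ContinuousLinearMap.opNorm_le_bound _ zero_le_one fun x => by simp [l1])
    ((1 / 2 : ℝ) • ee (Fin.natAdd N I)) isOpen_ball
    (.sum fun I _ => (ta I).contDiff.contDiffOn.mul
      ((h7 I).comp (prj N m).contDiff.contDiffOn fun _ => pr_mem))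
    (ball_subset_ball (by norm_num)) k (s' := ball 0 (1 / 2)) fun x hx => by
      refine mem_ball_zero_iff.2 ((norm_add_le _ _).trans_lt ?_)
      have := mem_ball_zero_iff.1 hx
      simp only [l1, norm_smul, ee, PiLp.norm_single, norm_one, Real.norm_eq_abs]
      norm_num at this ⊢
      linarith
  have k2 := Bd.clm ((2 : ℝ) • ContinuousLinearMap.id ℝ ℂ) isOpen_ball
    (contDiffOn_const.mul ((h7 I).mono (ball_subset_ball (by norm_num))))
    (k1.congr isOpen_ball fun x _ => (l2 x).symm)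
  refine (k2.congr isOpen_ball fun x _ => by simp).mono le_rfl le_rfl ?_
  rw [norm_smul, ContinuousLinearMap.norm_id, mul_one, Real.norm_two, mul_assoc 2, mul_assoc |C|]
  refine mul_le_mul_of_nonneg_left ((mul_le_mul_of_nonneg_right (le_abs_self C)
    (by positivity)).trans (mul_le_mul_of_nonneg_left ?_ (abs_nonneg C))) zero_le_two
  nlinarith [mul_nonneg hc₀ hB, mul_nonneg hT hA]

end Vale.Agent.P088F
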