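import Vale.Agent.P088F.Est2

/-! The interior estimate at every scale. -/

open MeasureTheory Set Filter Topology Metric
open scoped ContDiff

noncomputable section

namespace Vale.Agent.P088F

open Vale.Agent.P292E

variable {N : ℕ} {ι : Type} [Fintype ι]

/-- Systems with scalar principal part. -/
def Sy (a : Fin N → Fin N → V N → ℂ) (b : Fin N → ι → ι → V N → ℂ) (c : ι → ι → V N → ℂ)
    (u : ι → V N → ℂ) (I : ι) (x : V N) : ℂ :=
  ∑ p, ∑ q, a p q x * pd p (pd q (u I)) x + ∑ p, ∑ J, b p I J x * pd p (u J) x +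
    ∑ J, c I J x * u J x

theorem pd_sc (g : V N → ℂ) (x : V N) (r : ℝ) (k : ℂ) (p : Fin N) :
    pd p (fun y => k * g (x + r • y)) = fun y => k * r * pd p g (x + r • y) := by
  funext y
  have h := congrFun (fderiv_const_smul_field (𝕜 := ℝ) (f := fun y => g (x + r • y)) k) y
  rw [pd, show (fun y => k * g (x + r • y)) = k • fun y => g (x + r • y) from rfl, h,
    Pi.smul_apply, fderiv_comp_smul (f := fun z => g (x + z)), fderiv_comp_add_left]
  simp [pd, mul_assoc]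

theorem sc_mem {x y : V N} {r t : ℝ} (hr : 0 < r) : x + r • y ∈ ball x (t * r) ↔ y ∈ ball 0 t := by
  rw [mem_ball_iff_norm, add_sub_cancel_left, norm_smul, Real.norm_of_nonneg hr.le, mul_comm,
    mul_lt_mul_iff_left₀ hr, mem_ball_zero_iff]

/-- Bounds at scale `r` with weight `s`. -/
def Cs (M : ℕ) (x : V N) (r : ℝ) (s : ℕ) (K : ℝ) (g : V N → ℂ) : Prop :=
  ContDiffOn ℝ ∞ g (ball x (3 * r)) ∧
    ∀ i ≤ M, ∀ z ∈ ball x (3 * r), r ^ (i + s) * ‖iteratedFDeriv ℝ i g z‖ ≤ K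

theorem cs_of_bd {M s : ℕ} {x : V N} {r K : ℝ} {g : V N → ℂ} (hr : 0 < r) (h1 : r ≤ 1)
    (hg : ContDiffOn ℝ ∞ g (ball x (3 * r))) (h : Bd M g (ball x (3 * r)) K) :
    Cs M x r s (r ^ s * K) g :=
  ⟨hg, fun i hi z hz => mul_le_mul (pow_le_pow_of_le_one hr.le h1 (Nat.le_add_left _ _))
    (h i hi z hz) (norm_nonneg _) (by positivity)⟩

theorem cs_of_bd' {M s : ℕ} {x : V N} {r K : ℝ} {g : V N → ℂ} (hr : 0 < r) (h1 : r ≤ 1)
    (hg : ContDiffOn ℝ ∞ g (ball x (3 * r))) (h : Bd M g (ball x (3 * r)) K) : Cs M x r s K g :=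
  ⟨hg, fun i hi z hz =>
    (mul_le_of_le_one_left (norm_nonneg _) (pow_le_one₀ hr.le h1)).trans (h i hi z hz)⟩

theorem Cs.mono {M s : ℕ} {x : V N} {r K K' : ℝ} {g : V N → ℂ} (h : Cs M x r s K g)
    (hK : K ≤ K') : Cs M x r s K' g := ⟨h.1, fun i hi z hz => (h.2 i hi z hz).trans hK⟩

theorem Cs.cl {M s : ℕ} {x : V N} {r K : ℝ} {g : V N → ℂ} (h : Cs M x r s K g) (hr : 0 < r) :
    Cl M K fun y => (r : ℂ) ^ s * g (x + r • y) := by
  have h1 : ContDiffOn ℝ ∞ (fun y => g (x + r • y)) (ball 0 3) :=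
    h.1.comp (by fun_prop) fun y hy => (sc_mem hr).2 hy
  refine ⟨contDiffOn_const.mul h1, fun i hi y hy => ?_⟩
  have h2 := iteratedFDeriv_const_smul_apply' (a := (r : ℂ) ^ s) (BdC_at isOpen_ball h1 hy i)
  refine (congrArg norm h2).trans_le (le_trans ?_ (h.2 i hi _ ((sc_mem hr).2 hy)))
  rw [norm_smul, norm_pow, Complex.norm_real, Real.norm_of_nonneg hr.le, pow_add, mul_comm (r ^ i),
    mul_assoc]
  exact mul_le_mul_of_nonneg_left (BdC_scale x hr.le isOpen_ball h.1 ((sc_mem hr).2 hy) i)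
    (by positivity)

theorem l2l1 {X : Type} [MeasurableSpace X] {μ : Measure X} [IsFiniteMeasure μ] {u : X → ℂ}
    (hu : AEStronglyMeasurable u μ) (h2 : Integrable (fun x => ‖u x‖ ^ 2) μ) {A : ℝ} (hA : 0 ≤ A)
    (h : ∫ x, ‖u x‖ ^ 2 ∂μ ≤ A ^ 2) :
    Integrable u μ ∧ ∫ x, ‖u x‖ ∂μ ≤ (μ.real univ + 1) * A := by
  have h1 : Integrable u μ :=
    ((memLp_two_iff_integrable_sq_norm hu).2 h2).integrable one_le_two
  have h3 : ∀ t, A < t → ∫ x, ‖u x‖ ∂μ ≤ (μ.real univ + 1) * t := fun t ht => by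
    have h4 : 0 < t := hA.trans_lt ht
    refine (integral_mono h1.norm ((integrable_const t).add (h2.div_const t)) fun x => ?_).trans ?_
    · simp only [Pi.add_apply]
      rw [← sub_le_iff_le_add', le_div_iff₀ h4]
      nlinarith [sq_nonneg (‖u x‖ - t), norm_nonneg (u x)]
    · simp only [Pi.add_apply]
      rw [integral_add (integrable_const t) (h2.div_const t), integral_const, integral_div,
        add_mul, one_mul, smul_eq_mul]
      exact add_le_add le_rfl ((div_le_iff₀ h4).2 (h.trans (by nlinarith)))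
  refine ⟨h1, ?_⟩
  have h5 : 0 < μ.real univ + 1 := by positivity
  rw [← div_le_iff₀' h5]
  exact le_of_forall_gt_imp_ge_of_dense fun t ht => (div_le_iff₀' h5).2 (h3 t ht)

theorem sc_int {x : V N} {r : ℝ} (hr : 0 < r) {g : V N → ℝ} (hg : IntegrableOn g (ball x (3 * r))) :
    IntegrableOn (fun y => g (x + r • y)) (ball 0 3) ∧
      ∫ y in ball 0 3, g (x + r • y) = (r ^ N)⁻¹ * ∫ z in ball x (3 * r), g z := by
  have e : (ball (0 : V N) 3).indicator (fun y => g (x + r • y)) =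
      fun y => (ball x (3 * r)).indicator g (x + r • y) := funext fun y => by
    classical
    rw [indicator_apply, indicator_apply]
    exact if_congr (sc_mem hr).symm rfl rfl
  rw [← integrable_indicator_iff measurableSet_ball] at hg ⊢
  rw [← integral_indicator measurableSet_ball, ← integral_indicator measurableSet_ball, e]
  refine ⟨(hg.comp_add_left x).comp_smul hr.ne', ?_⟩
  rw [Measure.integral_comp_smul volume (fun z => (ball x (3 * r)).indicator g (x + z)) r,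
    integral_add_left_eq_self, finrank_euclideanSpace_fin, abs_of_pos (by positivity), smul_eq_mul]

/-- The interior estimate on the ball of radius `3 * r`. -/
theorem est_sys (N j : ℕ) (ι : Type) [Fintype ι] : ∃ M : ℕ, ∀ k : ℝ, 0 < k → ∃ ε : ℝ, 0 < ε ∧
    ∀ K : ℝ, ∃ C : ℝ, 0 ≤ C ∧ ∀ (a₀ : Fin N → Fin N → ℂ) (a : Fin N → Fin N → V N → ℂ)
      (b : Fin N → ι → ι → V N → ℂ) (c : ι → ι → V N → ℂ) (u f : ι → V N → ℂ) (x : V N)
      (r A B : ℝ), 0 < r → 0 ≤ A → 0 ≤ B → (∀ ξ, k * ‖ξ‖ ^ 2 ≤ symb a₀ ξ) →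
      (∀ p q, ‖a₀ p q‖ ≤ K) → (∀ p q, Cs M x r 0 ε fun z => a p q z - a₀ p q) →
      (∀ p I J, Cs M x r 1 ε (b p I J)) → (∀ I J, Cs M x r 2 K (c I J)) →
      (∀ I, Cs M x r 2 B (f I)) → (∀ I, ContDiffOn ℝ ∞ (u I) (ball x (3 * r))) →
      (∀ I, IntegrableOn (fun z => ‖u I z‖ ^ 2) (ball x (3 * r))) →
      (∀ I, ∫ z in ball x (3 * r), ‖u I z‖ ^ 2 ≤ r ^ N * A ^ 2) →
      (∀ I, ∀ z ∈ ball x (3 * r), Sy a b c u I z = f I z) →
      ∀ I, ∀ i ≤ j, ∀ z ∈ ball x (r / 2), r ^ i * ‖iteratedFDeriv ℝ i (u I) z‖ ≤ C * (A + B) := by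
  obtain ⟨e⟩ : Nonempty (Fin (Fintype.card ι) ≃ ι) := ⟨(Fintype.equivFin ι).symm⟩
  obtain ⟨M, hM⟩ := est_fin N (Fintype.card ι) j
  refine ⟨M, fun k hk => ?_⟩
  obtain ⟨ε, hε, h⟩ := hM k hk
  refine ⟨ε, hε, fun K => ?_⟩
  obtain ⟨C, hC⟩ := h K
  have : IsFiniteMeasure (volume.restrict (ball (0 : V N) 3)) :=
    isFiniteMeasure_restrict.2 measure_ball_lt_top.ne
  obtain ⟨v, hv⟩ : ∃ v, v = (volume.restrict (ball (0 : V N) 3)).real univ + 1 := ⟨_, rfl⟩
  have hv1 : 1 ≤ v := hv ▸ le_add_of_nonneg_left measureReal_nonneg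
  refine ⟨|C| * v, by positivity,
    fun a₀ a b c u f x r A B hr hA hB h1 h2 h3 h4 h5 h6 h7 h8 h9 h10 I i hi z hz => ?_⟩
  have s : ∀ I, ContDiffOn ℝ ∞ (fun y => 1 * u I (x + r • y)) (ball 0 3) := fun I =>
    contDiffOn_const.mul ((h7 I).comp (by fun_prop) fun y hy => (sc_mem hr).2 hy)
  have l : ∀ I, IntegrableOn (fun y => 1 * u I (x + r • y)) (ball 0 3) ∧
      ∫ y in ball 0 3, ‖1 * u I (x + r • y)‖ ≤ v * A := fun I => by
    obtain ⟨l1, l2⟩ := sc_int hr (h8 I)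
    rw [hv]
    refine l2l1 ((s I).continuousOn.aestronglyMeasurable measurableSet_ball)
      (by simpa only [one_mul, IntegrableOn] using l1) hA ?_
    simp only [one_mul]
    rw [l2, inv_mul_le_iff₀ (by positivity)]
    exact h9 I
  have k1 := hC a₀ (fun p q y => a p q (x + r • y))
    (fun p I J y => (r : ℂ) ^ 1 * b p (e I) (e J) (x + r • y))
    (fun I J y => (r : ℂ) ^ 2 * c (e I) (e J) (x + r • y)) (fun I y => 1 * u (e I) (x + r • y))
    (fun I y => (r : ℂ) ^ 2 * f (e I) (x + r • y)) (v * A) B (by positivity) hB h1 h2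
    (fun p q => by simpa using (h3 p q).cl hr) (fun p I J => (h4 p _ _).cl hr)
    (fun I J => (h5 _ _).cl hr) (fun I => (h6 _).cl hr) (fun I => s _) (fun I => (l _).1)
    (fun I => (l _).2) (fun I y hy => by
      rw [← h10 _ _ ((sc_mem hr).2 hy), Sy, ← e.sum_comp]
      simp only [pd_sc, ← e.sum_comp fun J => b _ (e I) J _ * _, mul_add, Finset.mul_sum]
      refine congrArg₂ (· + ·) (congrArg₂ (· + ·) ?_ ?_) ?_ <;>
        refine Finset.sum_congr rfl fun _ _ => ?_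
      · exact Finset.sum_congr rfl fun _ _ => by ring
      · exact Finset.sum_congr rfl fun _ _ => by ring
      · ring) (e.symm I)
  have hy : -(r⁻¹ • x) + r⁻¹ • z ∈ ball (0 : V N) (1 / 2) := by
    rw [← sc_mem (x := x) hr, smul_add, smul_neg, smul_inv_smul₀ hr.ne', smul_inv_smul₀ hr.ne',
      add_neg_cancel_left, one_div, inv_mul_eq_div]
    exact hz
  have k2 := BdC_scale _ (inv_pos.2 hr).le isOpen_ball (s I) (ball_subset_ball (by norm_num) hy) i
  simp only [smul_add, smul_neg, smul_inv_smul₀ hr.ne', add_neg_cancel_left, one_mul] at k2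
  have k3 := k1 i hi _ hy
  simp only [Equiv.apply_symm_apply, one_mul] at k3
  rw [inv_pow, ← div_eq_inv_mul, le_div_iff₀' (by positivity)] at k2
  refine k2.trans (k3.trans ((mul_le_mul_of_nonneg_right (le_abs_self C) (by positivity)).trans ?_))
  rw [mul_assoc]
  exact mul_le_mul_of_nonneg_left (by nlinarith) (abs_nonneg C)

end Vale.Agent.P088F
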