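import Vale.Agent.P088F.FMid

/-! P088F, part F: absorption. -/

open scoped ContDiff Topology ENNReal
open Set Filter MeasureTheory Metric

noncomputable section

namespace Vale.Agent.P088F.Fw

open Vale.Agent.P292E

variable {n : ℕ} {ι : Type} [Fintype ι] [DecidableEq ι] [NeZero n]

theorem fabs_int {P : Par} {E : Kr n ι} (hB : 0 < P.B) (hN : 0 < P.N) (h1 : P.B ≤ 1)
    (hE : SmK (P.new n) E) :
    ∫⁻ p in P.fZ n, ENNReal.ofReal (e1 E p) = ∫⁻ x in P.fX n, P.fI E x ∧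
      ∫⁻ p in P.fZ n, ENNReal.ofReal (e1 E p) < ⊤ := by
  obtain ⟨hK, hs⟩ := Z_compact (n := n) hB hN h1
  have hc := (hE.cont1 (new_open P)).mono hs
  refine ⟨?_, (hc.integrableOn_compact hK).lintegral_lt_top⟩
  rw [← lintegral_indicator hK.measurableSet, ← lintegral_indicator (X_compact P).measurableSet,
    Measure.volume_eq_prod, lintegral_prod _ ((aemeasurable_indicator_iff hK.measurableSet).2
      (hc.aemeasurable hK.measurableSet).ennreal_ofReal)]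
  refine lintegral_congr fun x => ?_
  by_cases hx : x ∈ P.fX n
  · have hn : Continuous fun y : V n => ‖y - x‖ := by fun_prop
    have hm : MeasurableSet (ann x (3 * P.b x) (9 * P.b x)) :=
      ((isClosed_le continuous_const hn).inter (isClosed_le hn continuous_const)).measurableSet
    rw [indicator_of_mem hx, Par.fI, ← lintegral_indicator hm]
    refine lintegral_congr fun y => ?_
    by_cases hy : y ∈ ann x (3 * P.b x) (9 * P.b x)
    · rw [indicator_of_mem hy, indicator_of_mem (show (x, y) ∈ P.fZ n from ⟨hx, hy⟩)]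
    · rw [indicator_of_notMem hy, indicator_of_notMem fun h : (x, y) ∈ P.fZ n => hy h.2]
  · rw [indicator_of_notMem hx, ← lintegral_zero (μ := (volume : Measure (V n)))]
    exact lintegral_congr fun y => indicator_of_notMem (fun h : (x, y) ∈ P.fZ n => hx h.1) _

theorem fabs_wq {P : Par} (hB : 0 < P.B) {q M : ℕ} (h : q ≤ M) {x : V n} (hx : P.b x ≤ P.B) :
    P.wq q x * P.b x ^ (2 * M) ≤ P.B ^ (2 * M) := by
  obtain ⟨k, rfl⟩ := Nat.exists_eq_add_of_le h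
  have h0 := Par.b_pos hB x
  rw [Par.wq, mul_add, pow_add, pow_add, ← mul_assoc, ← mul_pow, div_mul_cancel₀ _ h0.ne']
  gcongr

theorem fabs_real {σ i s t a b c d : ℝ} {q r k M : ℕ} (h0 : 0 < σ) (h1 : σ ≤ 1) (hi : 0 ≤ i)
    (hs : 0 ≤ s) (ht : t ≤ s) (ha : 0 ≤ a) (hb : 0 ≤ b) (hc : 0 ≤ c) (hd : 0 ≤ d)
    (h2 : a * c * σ ≤ 1 / 2) (hM : 2 * q + k + 1 ≤ 4 * M)
    (h : i ≤ a / (σ ^ 2) ^ q * (b * s / (σ ^ 2) ^ r + b * t +
      c / σ ^ k * ((σ ^ 2) ^ (2 * M) * i + d * s / (σ ^ 2) ^ 3))) :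
    i ≤ 2 * a * (2 * b + c * d) * s / (σ ^ 2) ^ (q + (r + k + 3)) := by
  have g : ∀ j, j ≤ 2 * (r + k + 3) → s / σ ^ j ≤ s / (σ ^ 2) ^ (r + k + 3) := fun j hj => by
    rw [← pow_mul]
    exact div_le_div_of_nonneg_left hs (by positivity) (pow_le_pow_of_le_one h0.le h1 hj)
  have g1 := g (2 * r) (by omega)
  have g2 := g 0 (by omega)
  have g3 := g (k + 2 * 3) (by omega)
  have g4 : (σ ^ 2) ^ (2 * M) / ((σ ^ 2) ^ q * σ ^ k) ≤ σ := by
    rw [div_le_iff₀ (by positivity), ← pow_mul, ← pow_mul, ← pow_add, ← pow_succ']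
    exact pow_le_pow_of_le_one h0.le h1 (by omega)
  rw [pow_zero, div_one] at g2
  rw [pow_mul] at g1
  rw [pow_add, pow_mul] at g3
  have e1 : a / (σ ^ 2) ^ q * (b * s / (σ ^ 2) ^ r + b * t +
      c / σ ^ k * ((σ ^ 2) ^ (2 * M) * i + d * s / (σ ^ 2) ^ 3)) =
      a * c * ((σ ^ 2) ^ (2 * M) / ((σ ^ 2) ^ q * σ ^ k)) * i + a / (σ ^ 2) ^ q *
        (b * (s / (σ ^ 2) ^ r) + b * t + c * d * (s / (σ ^ k * (σ ^ 2) ^ 3))) := by
    field_simp
    ring
  have e2 : 2 * a * (2 * b + c * d) * s / (σ ^ 2) ^ (q + (r + k + 3)) = 2 * (a / (σ ^ 2) ^ q *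
      (b * (s / (σ ^ 2) ^ (r + k + 3)) + b * (s / (σ ^ 2) ^ (r + k + 3)) +
        c * d * (s / (σ ^ 2) ^ (r + k + 3)))) := by
    rw [pow_add _ q]
    field_simp
    ring
  have k1 := mul_le_mul_of_nonneg_right ((mul_le_mul_of_nonneg_left g4 (mul_nonneg ha hc)).trans h2) hi
  have k2 := mul_le_mul_of_nonneg_left (add_le_add (add_le_add (mul_le_mul_of_nonneg_left g1 hb)
    (mul_le_mul_of_nonneg_left (ht.trans g2) hb)) (mul_le_mul_of_nonneg_left g3 (mul_nonneg hc hd)))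
    (by positivity : 0 ≤ a / (σ ^ 2) ^ q)
  rw [e1] at h
  rw [e2]
  linarith

theorem absorb (tb : TB n ι) (cu : CUT n ι) (tk : TAK n ι) (sr : SRC n ι) (fa : FAR n ι) :
    ABS n ι := by
  intro c₀
  obtain ⟨q, κc, hq, hκc, HC⟩ := cu
  obtain ⟨κf, hκf, HF⟩ := fa
  obtain ⟨M₀, HT⟩ := tk
  obtain ⟨M, m1, m2⟩ : ∃ M, M₀ ≤ M ∧ q + n + 11 ≤ M := ⟨M₀ + (q + n + 11), by omega, by omega⟩
  obtain ⟨KT, εT, CT, hεT, hCT, HT⟩ := HT M m1
  obtain ⟨KS, εS, cS, CS, hεS, hcS, hCS, HS⟩ := sr c₀ q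
  obtain ⟨Ct, hCt, Ht⟩ := tb.2.2.1 KT
  refine ⟨q + c₀ + 2, q + 2 + (2 * c₀ + 2 + (2 * M + n + 8) + 3), min (min κc κf) (1 / 20),
    by omega, by omega, lt_min (lt_min hκc hκf) (by norm_num), fun κ hκ hκ0 => ?_⟩
  obtain ⟨f1, f2, f3⟩ : κ ≤ κc ∧ κ ≤ κf ∧ κ ≤ 1 / 20 := by simpa only [le_min_iff, and_assoc] using hκ0
  obtain ⟨KC, εC, cC, NC, CC, hεC, hcC, hCC, HC⟩ := HC κ hκ f1
  obtain ⟨KF, εF, cF, NF, CF, hεF, hcF, hCF, HF⟩ := HF c₀ q hq κ hκ f2
  have hCt0 : 0 < Ct := by linarith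
  obtain ⟨ε, e0', e1', e2', e3, e4⟩ : ∃ ε, 0 < ε ∧ ε ≤ εC ∧ ε ≤ εF ∧ ε ≤ εS ∧ ε ≤ εT / Ct :=
    ⟨min (min εC εF) (min εS (εT / Ct)), by positivity, by simp, by simp, by simp, by simp⟩
  obtain ⟨c, c0, c1, c2, c3, c4, c5⟩ : ∃ c, 0 < c ∧ c ≤ cC ∧ c ≤ cF ∧ c ≤ cS ∧ c ≤ 1 / 10 ∧
      c ≤ 1 / (2 * (CC * CT) + 1) := ⟨min (min cC cF) (min cS (min (1 / 10) (1 / (2 * (CC * CT) + 1)))),
    by positivity, by simp, by simp, by simp, by simp, by simp⟩
  refine ⟨KC + KF + KS + (KT + 2), ε, c, max (max NC NF) 1, 2 * CC * (2 * CS + CT * CF), e0', c0,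
    by positivity, fun P d W Λ A hP st => ?_⟩
  have hN1 : (1 : ℝ) ≤ max (max NC NF) 1 := le_max_right _ _
  have hc1 : c ≤ 1 := c4.trans (by norm_num)
  have stC := st.mono (K' := KC) (p' := 3) (by omega) e1' c1
    ((le_max_left _ _).trans (le_max_left _ _)) (by omega) hN1 hc1
  have stF := st.mono (K' := KF) (by omega) e2' c2 ((le_max_right _ _).trans (le_max_left _ _))
    le_rfl hN1 hc1
  have stS := st.mono (K' := KS) (by omega) e3 c3 hN1 le_rfl hN1 hc1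
  have hB : 0 < P.B := st.ok.B0
  have hN : 0 < P.N := by linarith [st.ok.N0]
  have hσ := (ok_small (st.ok.mono hN1 le_rfl)).1
  have σ0 := Real.sqrt_pos.2 hB
  have σ2 := Real.sq_sqrt hB.le
  have hBσ : P.B ≤ √P.B / 10 := by nlinarith
  have hB1 : P.B ≤ 1 := by linarith
  obtain ⟨sm, sy, s1, s2, s3, -⟩ := HS P d W Λ A (hP ▸ hκ) (hP ▸ f3) stS
  have F2 := (HF P d W Λ A hP stF).2
  have nr : d.L2.t.Near KT εT := (Ht d.L2 _ st.dok.sm2 (st.dok.nr2.mono (by omega) e4)).mono le_rfl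
    (le_of_eq (by field_simp))
  have hb : ∀ x ∈ P.fX n, P.b x ≤ P.B := fun x hx => b_le hB hN.le (fmid_psi hN hx).le
  have key := HC P d (d.er W) _ _ (fun x => ENNReal.ofReal (CT / √P.B ^ (2 * M + n + 8)) *
    (ENNReal.ofReal (P.b x ^ (2 * M)) * P.fI (d.er W) x + If (d.er W) x)) hP stC.ok st.dok.sm1
    st.dok.sm2 stC.dok.nr1 stC.dok.nr2 stC.h sy s1 (by positivity) (by positivity)
    (fun p hp _ _ => s2 p hp) s3 fun p hp h1 h2 => by
      rw [norm_sub_rev] at h1 h2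
      exact (HT P d.L2.t (d.er W) hN hB (by linarith) sm nr sy p.1 hp p.2 (by linarith [hb _ hp])
        (by linarith)).trans (mul_le_mul' (ENNReal.ofReal_le_ofReal
          (div_le_div_of_nonneg_left hCT (by positivity) (pow_le_pow_left₀ σ0.le h1 _))) le_rfl)
  obtain ⟨i1, i2⟩ := fabs_int hB hN hB1 sy.sm
  rw [i1] at key i2
  have hw : Continuous fun x : V n => P.wq q x :=
    (continuous_const.div (b_sm P).continuous fun x => (Par.b_pos hB x).ne').pow _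
  have k1 : ∫⁻ x in P.fX n, ENNReal.ofReal (P.wq q x) * (ENNReal.ofReal (CT / √P.B ^ (2 * M + n + 8)) *
      (ENNReal.ofReal (P.b x ^ (2 * M)) * P.fI (d.er W) x + If (d.er W) x)) ≤
      ENNReal.ofReal (CT / √P.B ^ (2 * M + n + 8)) * (ENNReal.ofReal (P.B ^ (2 * M)) *
        (∫⁻ x in P.fX n, P.fI (d.er W) x) + ENNReal.ofReal (CF * (A + Λ) ^ 2 / P.B ^ 3)) := by
    refine le_trans ?_ (mul_le_mul' le_rfl (add_le_add le_rfl F2))
    have hm : AEMeasurable (fun x => ENNReal.ofReal (P.wq q x) * If (d.er W) x)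
        (volume.restrict (P.fX n)) :=
      hw.measurable.ennreal_ofReal.aemeasurable.mul (fmid_meas hB hN hB1 sy.sm)
    rw [← lintegral_const_mul' _ _ ENNReal.ofReal_ne_top, ← lintegral_add_right' _ hm,
      ← lintegral_const_mul' _ _ ENNReal.ofReal_ne_top]
    refine setLIntegral_mono' (X_compact P).measurableSet fun x hx => ?_
    rw [mul_left_comm, mul_add, ← mul_assoc,
      ← ENNReal.ofReal_mul (zero_le_one.trans (one_le_wq hB hN.le q (fmid_psi hN hx).le))]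
    exact mul_le_mul' le_rfl (add_le_add (mul_le_mul' (ENNReal.ofReal_le_ofReal
      (fabs_wq hB (by omega) (hb x hx))) le_rfl) le_rfl)
  replace key := key.trans (mul_le_mul' le_rfl (add_le_add le_rfl k1))
  obtain ⟨i, i0, hi⟩ : ∃ i, 0 ≤ i ∧ ∫⁻ x in P.fX n, P.fI (d.er W) x = ENNReal.ofReal i :=
    ⟨_, ENNReal.toReal_nonneg, (ENNReal.ofReal_toReal i2.ne).symm⟩
  rw [hi, ← ENNReal.ofReal_mul (by positivity), ← ENNReal.ofReal_add (by positivity) (by positivity),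
    ← ENNReal.ofReal_mul (by positivity), ← ENNReal.ofReal_add (by positivity) (by positivity),
    ← ENNReal.ofReal_mul (by positivity), ENNReal.ofReal_le_ofReal_iff (by positivity)] at key
  rw [hi]
  refine ENNReal.ofReal_le_ofReal ?_
  have h5 : CC * CT * √P.B ≤ 1 / 2 := by
    have h6 := (le_div_iff₀ (by positivity)).1 (hσ.trans c5)
    nlinarith
  have h7 := fabs_real (M := M) (q := q + 2) (r := 2 * c₀ + 2) (k := 2 * M + n + 8) σ0
    (hσ.trans hc1) i0 (sq_nonneg (A + Λ)) (t := Λ ^ 2)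
    (pow_le_pow_left₀ st.dok.nn (by linarith [st.A0]) 2) hCC hCS hCT hCF h5 (by omega)
  rw [σ2] at h7
  exact h7 key

end Vale.Agent.P088F.Fw
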