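import Vale.Agent.P088F.FRdA

/-! P088, part F: the radial estimate at a point. -/

open Set Filter Topology
open scoped ContDiff

noncomputable section

namespace Vale.Agent.P088F.Rad

open Vale.Agent.P292E Vale.Agent.P088 Vale.Agent.P088.Car

variable {n : ℕ} {Γ : Fin n → Fin n → ℝ} {x y : V n} {K ε δ : ℝ} {a : Mf n} {u : V n → ℝ}

theorem bil {m : Fin n → Fin n → ℝ} (h : ∀ i j, |m i j| ≤ δ) (ξ η : Fin n → ℝ) :
    (∑ i, ∑ j, m i j * ξ i * η j) ^ 2 ≤ (n * δ) ^ 2 * (sq2 ξ * sq2 η) := by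
  have k := Finset.sum_mul_sq_le_sq_mul_sq Finset.univ (fun q : Fin n × Fin n => m q.1 q.2)
    fun q => ξ q.1 * η q.2
  simp only [Fintype.sum_prod_type, ← mul_assoc] at k
  refine k.trans (mul_le_mul ?_ (le_of_eq ?_) (by positivity) (sq_nonneg _))
  · refine (Finset.sum_le_sum fun i _ => Finset.sum_le_sum fun j _ =>
      sq_le_sq' (neg_le_of_abs_le (h i j)) (le_of_abs_le (h i j))).trans (le_of_eq ?_)
    simp only [Finset.sum_const, Finset.card_univ, Fintype.card_fin, nsmul_eq_mul]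
    ring
  · simp only [sq2, Finset.sum_mul_sum, mul_pow]

theorem lin {m : Fin n → ℝ} (h : ∀ i, |m i| ≤ δ) (ξ : Fin n → ℝ) :
    (∑ i, m i * ξ i) ^ 2 ≤ n * δ ^ 2 * sq2 ξ := by
  refine (Finset.sum_mul_sq_le_sq_mul_sq Finset.univ m ξ).trans
    (mul_le_mul_of_nonneg_right ?_ (sq2_nonneg ξ))
  refine (Finset.sum_le_sum fun i _ =>
    sq_le_sq' (neg_le_of_abs_le (h i)) (le_of_abs_le (h i))).trans (le_of_eq ?_)
  simp only [Finset.sum_const, Finset.card_univ, Fintype.card_fin, nsmul_eq_mul]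

theorem near_id {m : Fin n → Fin n → ℝ} (h : ∀ i j, |m i j - if i = j then 1 else 0| ≤ δ)
    (h0 : 0 ≤ δ) (hδ : n * δ ≤ 1 / 2) (ξ : Fin n → ℝ) :
    |∑ i, ∑ j, m i j * ξ i * ξ j - sq2 ξ| ≤ sq2 ξ / 2 := by
  have k := bil h ξ ξ
  simp only [sub_mul, Finset.sum_sub_distrib, ite_mul, one_mul, zero_mul, Finset.sum_ite_eq,
    Finset.mem_univ, if_true, ← sq] at k
  refine abs_le_of_sq_le_sq' (k.trans ?_) (by linarith [sq2_nonneg ξ]) |> abs_le.2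
  have : (n * δ) ^ 2 ≤ (1 / 2) ^ 2 := by gcongr
  nlinarith [sq_nonneg (sq2 ξ)]

/-- The hypotheses at a point. -/
structure RO (a : Mf n) (Γ : Fin n → Fin n → ℝ) (x y : V n) (δ ε : ℝ) : Prop where
  n1 : (1 : ℝ) ≤ n
  sy : ∀ i j, Γ i j = Γ j i
  inv : ∀ j k, ∑ i, a j i x * Γ i k = if j = k then 1 else 0
  sx : ∀ i j, a i j x = a j i x
  d0 : 0 ≤ δ
  d1 : n * δ ≤ 1 / 2
  e0 : 0 ≤ ε
  nΓ : ∀ i j, |Γ i j - if i = j then 1 else 0| ≤ δ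
  na : ∀ i j, |a i j y - if i = j then 1 else 0| ≤ δ
  sa : ∀ i j, SA (a i j) y
  sa' : ∀ i j, a i j y = a j i y
  lip : ∀ i j, |a i j y - a i j x| ≤ ε * ‖y - x‖
  der : ∀ k i j, |dd (ee k) (a i j) y| ≤ ε
  ne : y ≠ x
  lt : ‖y - x‖ < 30

theorem sq2_zc : sq2 (fun k => zc x k y) = ‖y - x‖ ^ 2 := pa_sq2 (y - x)

theorem RO.r2 (h : RO a Γ x y δ ε) :
    ‖y - x‖ ^ 2 / 2 ≤ r2 Γ x y ∧ r2 Γ x y ≤ 2 * ‖y - x‖ ^ 2 := by
  have k := abs_le.1 (near_id h.nΓ h.d0 h.d1 fun k => zc x k y)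
  have e : ∑ i, ∑ j, Γ i j * zc x i y * zc x j y = Rad.r2 Γ x y := by
    simp only [Rad.r2, om, Finset.mul_sum]
    exact Finset.sum_congr rfl fun i _ => Finset.sum_congr rfl fun j _ => by ring
  rw [e, sq2_zc] at k
  constructor <;> linarith [k.1, k.2, sq_nonneg ‖y - x‖]

theorem RO.pos (h : RO a Γ x y δ ε) : 0 < Rad.r2 Γ x y :=
  lt_of_lt_of_le (half_pos (pow_pos (norm_pos_iff.2 (sub_ne_zero.2 h.ne)) 2)) h.r2.1

theorem RO.le (h : RO a Γ x y δ ε) : rr Γ x y ≤ 60 :=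
  abs_le_of_sq_le_sq' (a := rr Γ x y) (by
    rw [rr_sq h.pos]
    nlinarith [h.r2.2, h.lt, norm_nonneg (y - x)]) (by norm_num) |>.2

theorem rad_bds {n r z ε S O D1 D2 s3 s4 : ℝ} (n1 : 1 ≤ n) (hr : 0 < r) (e0 : 0 ≤ ε) (hS : 0 ≤ S)
    (z0 : 0 ≤ z) (hz : z ≤ 2 * r) (O0 : 0 ≤ O) (hO : O ≤ 8 * n ^ 2 * r ^ 2)
    (h1 : D1 ^ 2 ≤ (n * (ε * z)) ^ 2 * (O * S)) (h2 : D2 ^ 2 ≤ (n * (ε * z)) ^ 2 * (O * O))
    (h3 : s3 ^ 2 ≤ (n * (n * ε * z)) ^ 2 * (S * S)) (h4 : s4 ^ 2 ≤ (n * ε) ^ 2 * (n * O)) :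
    D1 ^ 2 ≤ (8 * n ^ 3 * ε * r ^ 2) ^ 2 * S ∧ |D2| ≤ 2 * (8 * n ^ 3 * ε) * r ^ 3 ∧
      |s3| ≤ 8 * n ^ 3 * ε * r * S ∧ |s4| ≤ 8 * n ^ 3 * ε * r := by
  have n0 : 0 < n := by linarith
  have n2 : 1 ≤ n ^ 2 := one_le_pow₀ n1
  refine ⟨h1.trans ?_, abs_le.2 (abs_le_of_sq_le_sq' (h2.trans ?_) (by positivity)),
    abs_le.2 (abs_le_of_sq_le_sq' (h3.trans ?_) (by positivity)),
    abs_le.2 (abs_le_of_sq_le_sq' (h4.trans ?_) (by positivity))⟩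
  · calc _ ≤ (n * (ε * (2 * r))) ^ 2 * (8 * n ^ 2 * r ^ 2 * S) := by gcongr
      _ = (32 * 1) * ((n ^ 2 * ε * r ^ 2) ^ 2 * S) := by ring
      _ ≤ (64 * n ^ 2) * ((n ^ 2 * ε * r ^ 2) ^ 2 * S) := by gcongr; norm_num
      _ = _ := by ring
  · calc _ ≤ (n * (ε * (2 * r))) ^ 2 * (8 * n ^ 2 * r ^ 2 * (8 * n ^ 2 * r ^ 2)) := by gcongr
      _ = _ := by ring
  · calc _ ≤ (n * (n * ε * (2 * r))) ^ 2 * (S * S) := by gcongr
      _ = (4 * 1) * ((n ^ 2 * ε * r * S) ^ 2) := by ring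
      _ ≤ (64 * n ^ 2) * ((n ^ 2 * ε * r * S) ^ 2) := by gcongr; norm_num
      _ = _ := by ring
  · calc _ ≤ (n * ε) ^ 2 * (n * (8 * n ^ 2 * r ^ 2)) := by gcongr
      _ = (8 * 1) * (n * (n ^ 2 * ε * r) ^ 2) := by ring
      _ ≤ (64 * n) * (n * (n ^ 2 * ε * r) ^ 2) := by gcongr; norm_num
      _ = _ := by ring

theorem RO.zz (h : RO a Γ x y δ ε) : ‖y - x‖ ^ 2 ≤ 2 * rr Γ x y ^ 2 := by
  rw [rr_sq h.pos]
  linarith [h.r2.1]

theorem RO.z1 (h : RO a Γ x y δ ε) : ‖y - x‖ ≤ 2 * rr Γ x y :=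
  (abs_le_of_sq_le_sq' (by nlinarith [sq_nonneg (rr Γ x y), h.zz])
    (by linarith [rr_pos h.pos])).2

theorem RO.g2 (h : RO a Γ x y δ ε) (i j : Fin n) : |Γ i j| ≤ 2 := by
  have k := abs_le.1 (h.nΓ i j)
  have : δ ≤ 1 / 2 := by nlinarith [h.d0, h.d1, h.n1]
  rw [abs_le]
  split_ifs at k <;> constructor <;> linarith [k.1, k.2]

theorem RO.o1 (h : RO a Γ x y δ ε) :
    sq2 (fun i => om Γ x i y) ≤ 8 * n ^ 2 * rr Γ x y ^ 2 := by
  refine (Finset.sum_le_sum fun i _ => lin (h.g2 i) fun k => zc x k y).trans ?_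
  rw [Finset.sum_const, Finset.card_univ, Fintype.card_fin, nsmul_eq_mul, sq2_zc]
  nlinarith [mul_le_mul_of_nonneg_left h.zz (sq_nonneg (n : ℝ))]

theorem RO.o3 (h : RO a Γ x y δ ε) (ξ : Fin n → ℝ) :
    ∑ i, ∑ j, (a i j y - a i j x) * om Γ x i y * ξ j =
      qf a y (fun i => om Γ x i y) ξ - ∑ k, zc x k y * ξ k := by
  have o2 : ∀ j, ∑ i, a i j x * om Γ x i y = zc x j y := fun j => by
    simp only [om, Finset.mul_sum, ← mul_assoc, fun i => h.sx i j]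
    rw [Finset.sum_comm]
    simp [← Finset.sum_mul, h.inv]
  simp only [sub_mul, Finset.sum_sub_distrib, qf, ← o2, Finset.sum_mul]
  rw [Finset.sum_comm (f := fun i j => a i j x * om Γ x i y * ξ j)]

theorem RO.b5 (h : RO a Γ x y δ ε) :
    |∑ i, ∑ j, a i j y * Γ i j - n| ≤ 8 * n ^ 3 * ε * rr Γ x y := by
  have n1 := h.n1
  have e0 := h.e0
  have z1 := h.z1
  have e : ∑ i, ∑ j, a i j y * Γ i j - n = ∑ i, ∑ j, (a i j y - a i j x) * Γ i j := by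
    simp only [sub_mul, Finset.sum_sub_distrib]
    congr 1
    simp [fun i => Finset.sum_congr rfl fun j (_ : j ∈ Finset.univ) =>
      congrArg (a i j x * ·) (h.sy i j), h.inv]
  rw [e]
  refine (Finset.abs_sum_le_sum_abs _ _).trans ((Finset.sum_le_sum fun i _ =>
    (Finset.abs_sum_le_sum_abs _ _).trans (Finset.sum_le_sum fun j _ =>
      (abs_mul _ _).trans_le (mul_le_mul (h.lip i j) (h.g2 i j) (abs_nonneg _)
        (by positivity)))).trans ?_)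
  simp only [Finset.sum_const, Finset.card_univ, Fintype.card_fin, nsmul_eq_mul]
  calc _ = (2 * 1) * (n ^ 2 * ε) * ‖y - x‖ := by ring
    _ ≤ (4 * n) * (n ^ 2 * ε) * (2 * rr Γ x y) := by gcongr; norm_num
    _ = _ := by ring

theorem RO.bds (h : RO a Γ x y δ ε) (ξ : Fin n → ℝ) :
    (qf a y (fun i => om Γ x i y) ξ - ∑ k, zc x k y * ξ k) ^ 2 ≤
        (8 * n ^ 3 * ε * rr Γ x y ^ 2) ^ 2 * sq2 ξ ∧
      |qf a y (fun i => om Γ x i y) (fun i => om Γ x i y) - rr Γ x y ^ 2| ≤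
        2 * (8 * n ^ 3 * ε) * rr Γ x y ^ 3 ∧
      |∑ i, ∑ j, (∑ k, zc x k y * dd (ee k) (a i j) y) * ξ i * ξ j| ≤
        8 * n ^ 3 * ε * rr Γ x y * sq2 ξ ∧
      |∑ i, ∑ j, dd (ee i) (a i j) y * om Γ x j y| ≤ 8 * n ^ 3 * ε * rr Γ x y := by
  have n1 := h.n1
  have e0 := h.e0
  have b1 := bil h.lip (fun i => om Γ x i y) ξ
  have b2 := bil h.lip (fun i => om Γ x i y) fun i => om Γ x i y
  have b3 := bil (m := fun i j => ∑ k, zc x k y * dd (ee k) (a i j) y) (δ := n * ε * ‖y - x‖)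
    (fun i j => abs_le.2 (abs_le_of_sq_le_sq' (by
      simp only [mul_comm (zc x _ y)]
      refine (lin (fun k => h.der k i j) _).trans ?_
      rw [sq2_zc, mul_pow, mul_pow]
      gcongr
      nlinarith) (by positivity))) ξ ξ
  have b4 := bil (fun i j => h.der i i j) (fun _ => 1) fun i => om Γ x i y
  have s1 : sq2 (fun _ : Fin n => (1 : ℝ)) = n := by simp [sq2]
  rw [h.o3] at b1 b2
  simp only [mul_one, s1] at b4
  rw [← Rad.r2, ← rr_sq h.pos] at b2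
  exact rad_bds n1 (rr_pos h.pos) e0 (sq2_nonneg ξ) (norm_nonneg _) h.z1 (sq2_nonneg _) h.o1
    b1 b2 b3 b4

theorem rad_fin {n K r β E S S' u W P G : ℝ} (n1 : 1 ≤ n) (K0 : 0 < K) (r0 : 0 < r) (hS : 0 ≤ S)
    (c2 : E ^ 2 * S' ≤ 2 * S + 2 * (E * u) ^ 2 * G) (f3 : G ≤ 8 * n ^ 2 * (β ^ 2 / r ^ 2))
    (k : K * r / 4 * S + K * β ^ 2 / (2 * r) * (E * u) ^ 2 + W ≤ r ^ 2 / 2 * (E * P) ^ 2) :
    E ^ 2 * (K * r / (64 * n ^ 2) * S' + K * β ^ 2 / (4 * r) * u ^ 2) + W ≤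
      E ^ 2 * (r ^ 2 / 2 * P ^ 2) := by
  have t1 := mul_le_mul_of_nonneg_left (c2.trans (add_le_add_right
    (mul_le_mul_of_nonneg_left f3 (by positivity)) _))
    (show 0 ≤ K * r / (64 * n ^ 2) by positivity)
  have t2 : K * r / (64 * n ^ 2) * (2 * S) ≤ K * r / 4 * S := by
    have n2 : (1 : ℝ) ≤ n ^ 2 := one_le_pow₀ n1
    rw [← mul_assoc, div_mul_eq_mul_div]
    refine mul_le_mul_of_nonneg_right ?_ hS
    rw [div_le_div_iff₀ (by positivity) (by positivity)]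
    nlinarith [mul_pos K0 r0]
  have t3 : K * r / (64 * n ^ 2) * (2 * (E * u) ^ 2 * (8 * n ^ 2 * (β ^ 2 / r ^ 2))) =
      K * β ^ 2 / (4 * r) * (E * u) ^ 2 := by
    field_simp
    ring
  have t4 : K * β ^ 2 / (2 * r) = 2 * (K * β ^ 2 / (4 * r)) := by
    field_simp
    ring
  rw [mul_add, t3] at t1
  rw [t4] at k
  linarith

theorem RO.pt (h : RO a Γ x y δ ε) (hu : SA u y) (hK : 300 ≤ K) (hKn : 13 * n ≤ K)
    (hε : 8 * n ^ 3 * ε * K ≤ 1 / 6100) :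
    Real.exp (ps Γ x K y) ^ 2 * (K * rr Γ x y / (64 * n ^ 2) * sq2 (Car.gr ee u y) +
        K * (K * (1 + rr Γ x y)) ^ 2 / (4 * rr Γ x y) * u y ^ 2) +
      ∑ i, dd (ee i) (gw ee a (XX Γ x K) (cc Γ x K) (gg Γ x K)
        (fun w => Real.exp (ps Γ x K w) * u w) i) y ≤
      Real.exp (ps Γ x K y) ^ 2 * (rr Γ x y ^ 2 / 2 * dv ee a u y ^ 2) := by
  have hp := h.pos
  have n1 := h.n1
  have e0 := h.e0
  have hψ := sa_ps (K := K) hp
  have hv : SA (fun w => Real.exp (ps Γ x K w) * u w) y := hψ.exp.mul hu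
  have c1 := conj_id (e := ee) h.sa h.sa' hψ hu
  have c2 := conj_gr (e := ee) hψ hu
  have c3 := rad_id (K := K) h.sy hp h.sa h.sa' hv rfl rfl rfl rfl rfl rfl
  have c4 := dv_ps (K := K) h.sy hp h.sa
  have r0 := rr_pos hp
  obtain ⟨ξ, hξ⟩ : ∃ ξ, ξ = Car.gr ee (fun w => Real.exp (ps Γ x K w) * u w) y := ⟨_, rfl⟩
  obtain ⟨k1, k2, k3, k4⟩ := h.bds ξ
  have q1 : sq2 ξ ≤ 2 * qf a y ξ ξ := by
    have := (abs_le.1 (near_id h.na h.d0 h.d1 ξ)).1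
    rw [qf]
    linarith
  have y1 : (∑ k, zc x k y * ξ k) ^ 2 ≤ 4 * rr Γ x y ^ 2 * sq2 ξ := by
    refine (Finset.sum_mul_sq_le_sq_mul_sq _ _ _).trans
      (mul_le_mul_of_nonneg_right (sq2_zc.le.trans (h.zz.trans ?_)) (sq2_nonneg ξ))
    gcongr
    norm_num
  have f1 : al ee (fx ee a (ps Γ x K)) (fun w => Real.exp (ps Γ x K w) * u w) y =
      K * (1 + rr Γ x y) / rr Γ x y ^ 2 * qf a y (fun i => om Γ x i y) ξ := by
    rw [qf_symm h.sa', hξ]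
    simp only [al, fx, dd_ps h.sy hp, qf, Car.gr, smul_eq_mul, Finset.mul_sum, Finset.sum_mul]
    exact Finset.sum_congr rfl fun i _ => Finset.sum_congr rfl fun j _ => by ring
  have f2 : Car.qq ee a (ps Γ x K) y = (K * (1 + rr Γ x y)) ^ 2 / rr Γ x y ^ 4 *
      qf a y (fun i => om Γ x i y) fun i => om Γ x i y := by
    simp only [Car.qq, al, fx, dd_ps h.sy hp, qf, smul_eq_mul, Finset.mul_sum, Finset.sum_mul]
    exact Finset.sum_congr rfl fun i _ => Finset.sum_congr rfl fun j _ => by ring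
  have f3 : sq2 (Car.gr ee (ps Γ x K) y) ≤
      8 * n ^ 2 * ((K * (1 + rr Γ x y)) ^ 2 / rr Γ x y ^ 2) := by
    have : sq2 (Car.gr ee (ps Γ x K) y) =
        (K * (1 + rr Γ x y) / rr Γ x y ^ 2) ^ 2 * sq2 fun i => om Γ x i y := by
      simp only [sq2, Car.gr, dd_ps h.sy hp, mul_pow, Finset.mul_sum]
    rw [this]
    refine (mul_le_mul_of_nonneg_left h.o1 (sq_nonneg _)).trans (le_of_eq ?_)
    field_simp
  rw [f1, f2, c4] at c1
  rw [← hξ] at c2 c3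
  refine rad_fin n1 (by linarith only [hK]) r0 (sq2_nonneg ξ) c2 f3
    (rad_num r0 h.le hK (zero_le_one.trans n1) hKn (by positivity) hε rfl (sq2_nonneg ξ)
      q1 y1 k1 k2 k3 k4 h.b5 (by rw [add_sub_cancel]; exact c3) ?_)
  rw [← c1]
  ring

end Vale.Agent.P088F.Rad
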