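import Vale.Agent.P088F.FMat
import Vale.Agent.P088F.FBas
import Vale.Agent.P088F.FRdB

/-! P088F, part F: the radial estimate. -/

open Set Filter Topology MeasureTheory Metric
open scoped ContDiff

namespace Vale.Agent.P088F

open Vale.Agent.P292E Vale.Agent.P088 Vale.Agent.P088.Car Rad

variable {n : ℕ} {ι : Type} [Fintype ι] [DecidableEq ι] [NeZero n]

theorem c7a_num {n K r E A B D N W c : ℝ} (n1 : 1 ≤ n) (hK : 300 ≤ K) (r0 : 0 < r) (r1 : r ≤ 60)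
    (hA : 0 ≤ A) (hB : 0 ≤ B) (hN : 0 ≤ N) (c0 : 0 ≤ c) (hc : 1920 * n ^ 2 * c ≤ 1)
    (hD : D ≤ c * (A + B) + 4 * N)
    (h : E ^ 2 * (K * r / (64 * n ^ 2) * A + K * (K * (1 + r)) ^ 2 / (4 * r) * B) + W ≤
      E ^ 2 * (r ^ 2 / 2 * D)) : E ^ 2 * B + W ≤ E ^ 2 * (7200 * N) := by
  have n2 : 1 ≤ n ^ 2 := one_le_pow₀ n1
  have r2 : r ^ 2 ≤ 60 ^ 2 := by gcongr
  have k1 : r ^ 2 / 2 * c ≤ K * r / (64 * n ^ 2) := by
    rw [le_div_iff₀ (by positivity)]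
    calc _ = r * (32 * r * (n ^ 2 * c)) := by ring
      _ ≤ r * (32 * 60 * (n ^ 2 * c)) := by gcongr
      _ ≤ r * K := by gcongr; linarith
      _ = _ := mul_comm _ _
  have k2 : r ^ 2 / 2 * c + 1 ≤ K * (K * (1 + r)) ^ 2 / (4 * r) := by
    have a1 : r ^ 2 / 2 * c ≤ 1 := by nlinarith [mul_le_mul_of_nonneg_right n2 c0]
    rw [le_div_iff₀ (by positivity)]
    calc _ ≤ 2 * 1 ^ 2 * (4 * r) := by gcongr; linarith
      _ ≤ K * K ^ 2 * (1 + r) ^ 2 := by gcongr <;> nlinarith [sq_nonneg (1 - r)]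
      _ = _ := by ring
  have k3 : B + r ^ 2 / 2 * D ≤
      K * r / (64 * n ^ 2) * A + K * (K * (1 + r)) ^ 2 / (4 * r) * B + 7200 * N := by
    nlinarith [mul_le_mul_of_nonneg_right k1 hA, mul_le_mul_of_nonneg_right k2 hB,
      mul_le_mul_of_nonneg_left hD (show 0 ≤ r ^ 2 / 2 by positivity),
      mul_le_mul_of_nonneg_right r2 hN]
  nlinarith [mul_le_mul_of_nonneg_left k3 (sq_nonneg E)]

omit [NeZero n] in
theorem c7a_wt {a : Mf n} {Γ : Fin n → Fin n → ℝ} {x y : V n} {δ ε : ℝ} (h : RO a Γ x y δ ε)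
    (M : ℕ) : (1 / 2) ^ M * ‖y - x‖ ^ (2 * M) ≤ Real.exp (ps Γ x M y) ^ 2 ∧
      Real.exp (ps Γ x M y) ^ 2 ≤ (2 * Real.exp 60 ^ 2) ^ M * ‖y - x‖ ^ (2 * M) := by
  have r0 := rr_pos h.pos
  have e : Real.exp (ps Γ x M y) ^ 2 = (r2 Γ x y * Real.exp (rr Γ x y) ^ 2) ^ M := by
    rw [ps, Real.exp_nat_mul, Real.exp_add, Real.exp_log r0, ← rr_sq h.pos, ← mul_pow, ← pow_mul,
      ← pow_mul, mul_comm M]
  have e1 : 1 ≤ Real.exp (rr Γ x y) ^ 2 := one_le_pow₀ (Real.one_le_exp r0.le)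
  have e2 : Real.exp (rr Γ x y) ^ 2 ≤ Real.exp 60 ^ 2 := by gcongr; exact h.le
  have p := h.pos
  rw [e, pow_mul, ← mul_pow, ← mul_pow]
  constructor <;> refine pow_le_pow_left₀ (by positivity) ?_ M
  · nlinarith [h.r2.1]
  · exact (mul_le_mul h.r2.2 e2 (by positivity) (by positivity)).trans_eq (by ring)

theorem c7a : C7A n ι := by
  obtain ⟨ε₀, C, h0, hC, hm⟩ := Fw.mat n
  refine ⟨300 + 13 * n, fun M hM => ?_⟩
  have hM' : (300 + 13 * n : ℝ) ≤ M := by exact_mod_cast hM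
  have n1 : (1 : ℝ) ≤ n := by exact_mod_cast NeZero.one_le
  have sm : ∀ c d : ℝ, 0 < d → ∀ᶠ ε in 𝓝[>] (0 : ℝ), c * ε ≤ d := fun c d hd =>
    nhdsWithin_le_nhds ((show ContinuousAt (fun ε : ℝ => c * ε) 0 by fun_prop).eventually
      (ge_mem_nhds (by simpa using hd)))
  obtain ⟨c1, hc1⟩ : ∃ c : ℝ, c = 4 * (Fintype.card ι) ^ 2 * (n + 1) + 2 * n ^ 3 := ⟨_, rfl⟩
  have c0 : 0 ≤ c1 := by rw [hc1]; positivity
  obtain ⟨ε, ⟨⟨⟨⟨a1, a2⟩, a3⟩, a4⟩, a5⟩, e0⟩ := ((((((sm 1 ε₀ h0).and (sm (n * (C + 1)) (1 / 2)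
    (by norm_num))).and (sm (8 * n ^ 3 * M) (1 / 6100) (by norm_num))).and
    (sm (1920 * n ^ 2 * c1) 1 one_pos)).and (sm 1 1 one_pos)).and self_mem_nhdsWithin).exists
  have e1 : 0 < ε := e0
  refine ⟨1, ε, 2 ^ M * ((2 * Real.exp 60 ^ 2) ^ M * 7200), e1, fun Q x v hQ hN hv => ?_⟩
  obtain ⟨m1, m2, m3, -⟩ := hm Q.g x ε (by linarith) (fun j k => hQ.symm j k x) (hN.g0 x)
  have hK : IsCompact (⋃ l, tsupport (v l)) := isCompact_iUnion fun l => (hv l).2.1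
  have hKs : ⋃ l, tsupport (v l) ⊆ ball x 30 \ {x} := iUnion_subset fun l => (hv l).2.2
  have ro : ∀ y ∈ ⋃ l, tsupport (v l), RO Q.g (fun i j => Fw.iv Q.g x i j) x y ((C + 1) * ε) ε :=
    fun y hy => ⟨n1, m1, m2, fun i j => hQ.symm i j x, by positivity, by linarith, e1.le,
      fun i j => (m3 i j).trans (by linarith), fun i j => (hN.g0 y i j).trans
        (by linarith [mul_nonneg hC e1.le]), fun i j => (hQ.g i j).contDiffAt,
      fun i j => hQ.symm i j y, fun i j => convex_univ.norm_image_sub_le_of_norm_fderiv_le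
        (𝕜 := ℝ) (fun w _ => (hQ.g i j).differentiable (by simp) w) (fun w _ => by
          simpa only [fderiv_sub_const] using (hN.g i j).fderiv.norm_le (mem_univ w))
        trivial trivial,
      fun k i j => hN.g1 y k i j, (hKs hy).2, mem_ball_iff_norm.1 (hKs hy).1⟩
  obtain ⟨Γ, hΓ⟩ : ∃ Γ : Fin n → Fin n → ℝ, Γ = fun i j => Fw.iv Q.g x i j := ⟨_, rfl⟩
  rw [← hΓ] at ro
  have v1 : ∀ l y, SA (v l) y := fun l y => (hv l).1.contDiffAt
  have v0 : ∀ l, ∀ y ∉ ⋃ l, tsupport (v l), v l y = 0 := fun l y hy =>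
    image_eq_zero_of_notMem_tsupport fun h' => hy (mem_iUnion.2 ⟨l, h'⟩)
  obtain ⟨lb, hl⟩ : ∃ lb : Fin 2 → ℂ →L[ℝ] ℝ, Sq lb := ⟨_, sq_complex⟩
  have u1 : ∀ (q : ι × Fin 2) y, SA (fun y => lb q.2 (v q.1 y)) y := fun q y =>
    (lb q.2).contDiff.contDiffAt.comp y (v1 q.1 y)
  have w1 : ∀ (q : ι × Fin 2) i, ∀ y ∈ ⋃ l, tsupport (v l), SA (gw ee Q.g (XX Γ x M) (cc Γ x M)
      (gg Γ x M) (fun w => Real.exp (ps Γ x M w) * lb q.2 (v q.1 w)) i) y := fun q i y hy =>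
    sa_gw (ro y hy).sa (sa_XX (ro y hy).pos) (sa_cc (ro y hy).pos) (sa_gg (ro y hy).pos)
      ((sa_ps (ro y hy).pos).exp.mul (u1 q y)) i
  have w0 : ∀ i, ∀ y ∉ ⋃ l, tsupport (v l), ∑ q : ι × Fin 2, gw ee Q.g (XX Γ x M) (cc Γ x M)
      (gg Γ x M) (fun w => Real.exp (ps Γ x M w) * lb q.2 (v q.1 w)) i y = 0 := fun i y hy =>
    Finset.sum_eq_zero fun q _ => by
      have z : ∀ y ∉ ⋃ l, tsupport (v l), Real.exp (ps Γ x M y) * lb q.2 (v q.1 y) = 0 :=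
        fun y hy => by simp [v0 _ y hy]
      simp [gw, fx, qf, Car.gr, dd_zero hK.isClosed z _ y hy, v0 _ y hy]
  have sw : ∀ y, SA (fun y : V n => ‖y - x‖ ^ (2 * M)) y := fun y => by
    simp only [pow_mul]
    exact ((contDiffAt_id.sub contDiffAt_const).norm_sq ℝ).pow M
  have z1 : ∀ y ∉ ⋃ l, tsupport (v l), n0 v y = 0 := fun y hy => by simp [n0, v0 _ y hy]
  have z2 : ∀ y ∉ ⋃ l, tsupport (v l), n0 (Q.ap v) y = 0 := fun y hy => by
    simp [n0, pa_zero hK.isClosed v0 _ y hy]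
  have k := int_le_of_div volume ee hK
    (f := fun y => (1 / 2) ^ M * (‖y - x‖ ^ (2 * M) * n0 v y))
    (g := fun y => (2 * Real.exp 60 ^ 2) ^ M * 7200 * (‖y - x‖ ^ (2 * M) * n0 (Q.ap v) y))
    (int_loc volume hK (fun y _ => contDiffAt_const.mul ((sw y).mul (hl.sa0 fun l => v1 l y)))
      fun y hy => by rw [z1 y hy, mul_zero, mul_zero])
    (int_loc volume hK (fun y _ => contDiffAt_const.mul ((sw y).mul
      (hl.sa0 (pa_sa hQ fun l => v1 l y)))) fun y hy => by rw [z2 y hy, mul_zero, mul_zero])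
    (fun i y hy => ContDiffAt.sum fun q _ => w1 q i y hy) w0 fun y => ?_
  · rw [integral_const_mul, integral_const_mul, one_div, inv_pow, inv_mul_le_iff₀ (by positivity),
      ← mul_assoc] at k
    exact k
  by_cases hy : y ∈ ⋃ l, tsupport (v l)
  swap
  · simp [z1 y hy, z2 y hy, dd_zero hK.isClosed (w0 _) _ y hy]
  have h := ro y hy
  have k1 := Finset.sum_le_sum fun (q : ι × Fin 2) (_ : q ∈ Finset.univ) =>
    h.pt (K := M) (u1 q y) (by linarith) (by linarith) (by linarith)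
  have k2 := n0_dv_le (e := ee) (u := v) h.sa (fun l => v1 l y) fun i j => h.der i i j
  have k3 := pa_low (L := Q) (u := v) (x := y) (B := ε)
    (fun j l m => (hN.a j l m).norm_le (mem_univ y)) fun l m => (hN.c l m).norm_le (mem_univ y)
  have p0 := n0_nonneg v y
  have p1 := n1_nonneg (e := ee) v y
  have p2 := n0_nonneg (Q.ap v) y
  have s1 : ∑ q : ι × Fin 2, sq2 (Car.gr ee (fun y => lb q.2 (v q.1 y)) y) = Car.n1 ee v y := by
    simp only [Fintype.sum_prod_type, Car.n1, sq2, Car.gr,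
      fun b k i => dd_clm (lb b) (v1 k y) (ee i), ← hl _]
    exact Finset.sum_congr rfl fun k _ => Finset.sum_comm
  have s2 : ∑ q : ι × Fin 2, lb q.2 (v q.1 y) ^ 2 = n0 v y := by
    simp only [Fintype.sum_prod_type, n0, ← hl _]
  have s3 : ∑ q : ι × Fin 2, dv ee Q.g (fun y => lb q.2 (v q.1 y)) y ^ 2 =
      n0 (fun k => dv ee Q.g (v k)) y := by
    simp only [Fintype.sum_prod_type, n0, fun b k => dv_clm (e := ee) (lb b) h.sa (v1 k y), ← hl _]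
  rw [Finset.sum_add_distrib, ← Finset.mul_sum, ← Finset.mul_sum, ← Finset.mul_sum,
    Finset.sum_add_distrib, ← Finset.mul_sum, ← Finset.mul_sum, s1, s2, s3, Finset.sum_comm] at k1
  have k4 := c7a_num n1 (by linarith only [hM', n1]) (rr_pos h.pos) h.le p1 p0 p2
    (c := c1 * ε ^ 2) (by positivity) (by
      have : ε ^ 2 ≤ ε := by nlinarith only [a5, e1]
      exact le_trans (by rw [← mul_assoc]; gcongr) a4) (by
      rw [Fintype.card_fin] at k2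
      have : 0 ≤ 2 * (n : ℝ) ^ 3 * ε ^ 2 * n0 v y := by positivity
      rw [hc1]
      linarith only [k2, k3, this]) k1
  obtain ⟨t1, t2⟩ := c7a_wt h M
  rw [Finset.sum_congr rfl fun i _ => dd_sum _ (fun q => w1 q i y hy) (ee i)]
  linarith only [k4, mul_le_mul_of_nonneg_right t1 p0,
    mul_le_mul_of_nonneg_right t2 (show 0 ≤ 7200 * n0 (Q.ap v) y by positivity)]

end Vale.Agent.P088F
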