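import Vale.Agent.P088F.FDefs
import Vale.Agent.P088F.FBas

/-! P088F, part F: the inner cutoff. -/

open scoped ContDiff Topology ENNReal
open Set Filter MeasureTheory Metric

noncomputable section

namespace Vale.Agent.P088F.Fw

open Vale.Agent.P292E

variable {n : ℕ} {E : Type} [NormedAddCommGroup E] [NormedSpace ℝ E]

theorem ci_aux {ζ : E → ℝ} {Z : ℝ} (T : V n →L[ℝ] E) (hT : ∀ j, ‖T (ee j)‖ ≤ 1) (c : E) (x : V n)
    (hζ : ContDiffAt ℝ 2 ζ (T x + c)) (h1 : ‖iteratedFDeriv ℝ 1 ζ (T x + c)‖ ≤ Z)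
    (h2 : ‖iteratedFDeriv ℝ 2 ζ (T x + c)‖ ≤ Z) :
    (∀ j, |pr j (fun y => ζ (T y + c)) x| ≤ Z) ∧
      ∀ j k, |pr j (pr k fun y => ζ (T y + c)) x| ≤ Z := by
  rw [← norm_iteratedFDeriv_fderiv, norm_iteratedFDeriv_zero] at h1
  rw [← norm_iteratedFDeriv_fderiv, ← norm_iteratedFDeriv_fderiv, norm_iteratedFDeriv_zero] at h2
  have hZ : 0 ≤ Z := (norm_nonneg _).trans h1
  have a : ∀ y, HasFDerivAt (fun y => T y + c) T y := fun y => T.hasFDerivAt.add_const c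
  have e : ∀ y, DifferentiableAt ℝ ζ (T y + c) → ∀ k,
      pr k (fun y => ζ (T y + c)) y = fderiv ℝ ζ (T y + c) (T (ee k)) := fun y hy k =>
    congrArg (fun S : V n →L[ℝ] ℝ => S (ee k)) (hy.hasFDerivAt.comp y (a y)).fderiv
  refine ⟨fun j => ?_, fun j k => ?_⟩
  · rw [e x (hζ.differentiableAt two_ne_zero)]
    exact ((fderiv ℝ ζ _).le_opNorm _).trans ((mul_le_mul h1 (hT j) (norm_nonneg _) hZ).trans_eq
      (mul_one _))
  have e1 : pr k (fun y => ζ (T y + c)) =ᶠ[𝓝 x] fun y => fderiv ℝ ζ (T y + c) (T (ee k)) :=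
    ((a x).continuousAt.eventually (hζ.eventually (by simp))).mono fun y hy =>
      e y (hy.differentiableAt two_ne_zero) k
  have d := ((hζ.fderiv_right (m := 1) le_rfl).differentiableAt one_ne_zero).hasFDerivAt.comp x (a x)
  have e2 := (d.clm_apply (hasFDerivAt_const (T (ee k)) x)).fderiv
  rw [pr, e1.fderiv_eq, show (fun y => fderiv ℝ ζ (T y + c) (T (ee k))) =
    fun y => (fderiv ℝ ζ ∘ fun y => T y + c) y (T (ee k)) from rfl, e2]
  simp only [ContinuousLinearMap.comp_zero, zero_add, ContinuousLinearMap.flip_apply,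
    ContinuousLinearMap.comp_apply]
  refine ((fderiv ℝ (fderiv ℝ ζ) _).le_opNorm₂ _ _).trans ?_
  calc _ ≤ Z * 1 * 1 := by
        gcongr
        exacts [hT j, hT k]
    _ = Z := by ring

theorem d2_of {ζ : V n × V n → ℝ} {p : V n × V n} {Z : ℝ} (hζ : ContDiffAt ℝ 2 ζ p)
    (h : ∀ i ≤ 2, ‖iteratedFDeriv ℝ i ζ p‖ ≤ Z) : D2 ζ p Z := by
  have e1 : ∀ x : V n, ContinuousLinearMap.inl ℝ (V n) (V n) x + (0, p.2) = (x, p.2) := by simp
  have e2 : ∀ y : V n, ContinuousLinearMap.inr ℝ (V n) (V n) y + (p.1, 0) = (p.1, y) := by simp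
  have a := ci_aux (ζ := ζ) (Z := Z) (ContinuousLinearMap.inl ℝ (V n) (V n)) (by simp [ee])
    (0, p.2) p.1 (by rwa [e1]) (by rw [e1]; exact h 1 one_le_two) (by rw [e1]; exact h 2 le_rfl)
  have b := ci_aux (ζ := ζ) (Z := Z) (ContinuousLinearMap.inr ℝ (V n) (V n)) (by simp [ee])
    (p.1, 0) p.2 (by rwa [e2]) (by rw [e2]; exact h 1 one_le_two) (by rw [e2]; exact h 2 le_rfl)
  simp only [e1, e2] at a b
  exact ⟨a.1, b.1, a.2, b.2⟩

theorem st_bd : ∃ G : ℝ, 1 ≤ G ∧ ∀ i ≤ 2, ∀ t, ‖iteratedFDeriv ℝ i Real.smoothTransition t‖ ≤ G := by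
  choose c hc using fun i : ℕ => (isCompact_Icc (a := (0 : ℝ)) (b := 1)).exists_bound_of_continuousOn
    ((Real.smoothTransition.contDiff (n := ⊤)).continuous_iteratedFDeriv (m := i)
      (BdC_le i)).continuousOn
  have h0 : ∀ i, 0 ≤ c i := fun i => (norm_nonneg _).trans (hc i 0 (by simp))
  refine ⟨1 + c 0 + c 1 + c 2, by linarith [h0 0, h0 1, h0 2], fun i hi t => ?_⟩
  have k : ∀ z : ℝ, ‖z‖ ≤ 1 → (Real.smoothTransition =ᶠ[𝓝 t] fun _ => z) →
      ‖iteratedFDeriv ℝ i Real.smoothTransition t‖ ≤ 1 + c 0 + c 1 + c 2 := fun z hz h => by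
    rw [(h.iteratedFDeriv ℝ i).eq_of_nhds]
    have : ‖iteratedFDeriv ℝ i (fun _ : ℝ => z) t‖ ≤ 1 := by
      rcases eq_or_ne i 0 with rfl | h
      · simpa using hz
      · simp [iteratedFDeriv_const_of_ne h]
    linarith [h0 0, h0 1, h0 2]
  rcases lt_or_ge t 0 with h | h
  · exact k 0 (by simp) (Filter.mem_of_superset (Iio_mem_nhds h) fun s (hs : s < 0) =>
      Real.smoothTransition.zero_of_nonpos hs.le)
  rcases lt_or_ge 1 t with h' | h'
  · exact k 1 (by simp) (Filter.mem_of_superset (Ioi_mem_nhds h') fun s (hs : 1 < s) =>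
      Real.smoothTransition.one_of_one_le hs.le)
  have := hc i t ⟨h, h'⟩
  interval_cases i <;> linarith [h0 0, h0 1, h0 2]

theorem it_comp {U : Set E} {f : E → ℝ} {x : E} {G D c a : ℝ} (hU : IsOpen U) (hx : x ∈ U)
    (hf : ContDiffOn ℝ ∞ f U)
    (hG : ∀ i ≤ 2, ∀ t, ‖iteratedFDeriv ℝ i Real.smoothTransition t‖ ≤ G) (hD : 1 ≤ D)
    (h : ∀ i, 1 ≤ i → i ≤ 2 → |c| * ‖iteratedFDeriv ℝ i f x‖ ≤ D) (i : ℕ) (hi : i ≤ 2) :
    ‖iteratedFDeriv ℝ i (fun y => Real.smoothTransition (c * f y - a)) x‖ ≤ 2 * G * D ^ i := by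
  have G0 : 0 ≤ G := (norm_nonneg _).trans (hG 0 zero_le_two 0)
  have at1 : ∀ j : ℕ, ContDiffAt ℝ j f x := fun j =>
    (hf.contDiffAt (hU.mem_nhds hx)).of_le (BdC_le j)
  rw [← iteratedFDerivWithin_of_isOpen i hU hx]
  refine (norm_iteratedFDerivWithin_comp_le (g := Real.smoothTransition)
    (f := fun y => c * f y - a) (t := univ) (Real.smoothTransition.contDiff (n := ⊤)).contDiffOn
    ((contDiffOn_const.mul hf).sub contDiffOn_const) (BdC_le i) uniqueDiffOn_univ hU.uniqueDiffOn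
    (mapsTo_univ _ _) hx (C := G) (D := D) (fun j hj => ?_) fun j h1 hj => ?_).trans ?_
  · rw [iteratedFDerivWithin_univ]
    exact hG j (hj.trans hi) _
  · have e : iteratedFDeriv ℝ j (fun y => c * f y - a) x = c • iteratedFDeriv ℝ j f x := by
      refine (iteratedFDeriv_sub_apply (contDiffAt_const.mul (at1 j)) contDiffAt_const).trans ?_
      rw [iteratedFDeriv_const_of_ne (by omega), Pi.zero_apply, sub_zero]
      exact iteratedFDeriv_const_smul_apply (a := c) (at1 j)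
    rw [iteratedFDerivWithin_of_isOpen j hU hx, e, norm_smul]
    exact (h j h1 (hj.trans hi)).trans (le_self_pow₀ hD (by omega))
  · have h2 : (i.factorial : ℝ) ≤ 2 := by exact_mod_cast Nat.factorial_le hi
    gcongr

theorem it_mul {U : Set E} {f g : E → ℝ} {x : E} {A B D : ℝ} (hU : IsOpen U) (hx : x ∈ U)
    (hf : ContDiffOn ℝ ∞ f U) (hg : ContDiffOn ℝ ∞ g U) (hD : 1 ≤ D)
    (h1 : ∀ i ≤ 2, ‖iteratedFDeriv ℝ i f x‖ ≤ A * D ^ i)
    (h2 : ∀ i ≤ 2, ‖iteratedFDeriv ℝ i g x‖ ≤ B * D ^ i) (i : ℕ) (hi : i ≤ 2) :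
    ‖iteratedFDeriv ℝ i (fun y => f y * g y) x‖ ≤ 4 * A * B * D ^ 2 := by
  have A0 : 0 ≤ A := by simpa using (norm_nonneg _).trans (h1 0 zero_le_two)
  have B0 : 0 ≤ B := by simpa using (norm_nonneg _).trans (h2 0 zero_le_two)
  rw [← iteratedFDerivWithin_of_isOpen i hU hx]
  refine (norm_iteratedFDerivWithin_mul_le hf hg hU.uniqueDiffOn hx (BdC_le i)).trans ?_
  calc _ ≤ ∑ j ∈ Finset.range (i + 1), (i.choose j : ℝ) * (A * B * D ^ 2) := by
        refine Finset.sum_le_sum fun j hj => ?_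
        have hj' : j ≤ i := Nat.lt_succ_iff.1 (Finset.mem_range.1 hj)
        rw [iteratedFDerivWithin_of_isOpen j hU hx, iteratedFDerivWithin_of_isOpen _ hU hx,
          mul_assoc]
        refine mul_le_mul_of_nonneg_left ((mul_le_mul (h1 j (hj'.trans hi))
          (h2 _ ((Nat.sub_le _ _).trans hi)) (norm_nonneg _) (by positivity)).trans ?_)
          (by positivity)
        rw [mul_mul_mul_comm, ← pow_add, Nat.add_sub_cancel' hj']
        exact mul_le_mul_of_nonneg_left (pow_le_pow_right₀ hD hi) (by positivity)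
    _ = 2 ^ i * (A * B * D ^ 2) := by
        rw [← Finset.sum_mul, ← Nat.cast_sum, Nat.sum_range_choose]
        push_cast
        rfl
    _ ≤ 2 ^ 2 * (A * B * D ^ 2) := by gcongr; norm_num
    _ = _ := by ring

theorem ci (n : ℕ) : CI n := by
  intro U K ζ Θ hU hK hKU hζ hΘ
  have b : ∀ {f : V n × V n → ℝ}, ContDiffOn ℝ ∞ f U →
      ∃ M, 1 ≤ M ∧ ∀ i ≤ 2, ∀ p ∈ K, ‖iteratedFDeriv ℝ i f p‖ ≤ M := fun {f} hf => by
    choose c hc using fun i : ℕ => hK.exists_bound_of_continuousOn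
      (f := iteratedFDeriv ℝ i f) fun x hx => (((hf.contDiffAt (hU.mem_nhds (hKU hx))).of_le
        (BdC_le i)).continuousAt_iteratedFDeriv le_rfl).continuousWithinAt
    have h0 := fun i => abs_nonneg (c i)
    refine ⟨1 + abs (c 0) + abs (c 1) + abs (c 2), by linarith [h0 0, h0 1, h0 2],
      fun i hi p hp => ((hc i p hp).trans (le_abs_self _)).trans ?_⟩
    interval_cases i <;> linarith [h0 0, h0 1, h0 2]
  obtain ⟨A, A1, hA⟩ := b hζ
  obtain ⟨M, M1, hM⟩ := b hΘ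
  obtain ⟨G, G1, hG⟩ := st_bd
  refine ⟨4 * A * (2 * G) * M ^ 2, by positivity, fun δ h0 h1 p hp => ?_⟩
  have D1 : 1 ≤ M / δ := (one_le_div h0).2 (h1.trans M1)
  have s : ContDiffOn ℝ ∞ (fun z => Real.smoothTransition (δ⁻¹ * Θ z - 1)) U :=
    Real.smoothTransition.contDiff.comp_contDiffOn ((contDiffOn_const.mul hΘ).sub contDiffOn_const)
  simp only [div_eq_inv_mul (Θ _)]
  refine d2_of (((hζ.mul s).contDiffAt (hU.mem_nhds (hKU hp))).of_le (BdC_le 2)) fun i hi =>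
    (it_mul hU (hKU hp) hζ s D1 (fun i hi => (hA i hi p hp).trans (le_mul_of_one_le_right
      (by linarith) (one_le_pow₀ D1))) (it_comp hU (hKU hp) hΘ hG D1 fun i _ hi => ?_) i hi).trans_eq
        (by ring)
  rw [abs_of_pos (inv_pos.2 h0), div_eq_inv_mul]
  exact mul_le_mul_of_nonneg_left (hM i hi p hp) (inv_pos.2 h0).le

end Vale.Agent.P088F.Fw
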