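import Vale.Agent.P088F.Mono

/-! P088F, part F: definitions and contracts. -/

open scoped ContDiff Topology ENNReal
open Set Filter MeasureTheory Metric

noncomputable section

namespace Vale.Agent.P088F.Fw

open Vale.Agent.P292E

variable {n : ℕ} {ι : Type} [Fintype ι] [DecidableEq ι]

/-- derivative in the first variable -/
def dx (j : Fin n) (E : Kr n ι) : Kr n ι := fun l m x y => pd j (fun x' => E l m x' y) x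

/-- derivative in the second variable -/
def dy (j : Fin n) (E : Kr n ι) : Kr n ι := fun l m x y => pd j (fun y' => E l m x y') y

/-- first order size of a family -/
def g1 (u : Fam n ι) (x : V n) : ℝ := ∑ l, (‖u l x‖ ^ 2 + ∑ j, ‖pd j (u l) x‖ ^ 2)

/-- size of a kernel -/
def e0 (E : Kr n ι) (p : V n × V n) : ℝ := ∑ l, ∑ m, ‖E l m p.1 p.2‖ ^ 2

/-- size of a kernel with derivatives in the first variable -/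
def e1 (E : Kr n ι) (p : V n × V n) : ℝ :=
  ∑ l, ∑ m, (‖E l m p.1 p.2‖ ^ 2 + ∑ j, ‖dx j E l m p.1 p.2‖ ^ 2)

/-- size of a kernel with all first derivatives -/
def e2 (E : Kr n ι) (p : V n × V n) : ℝ := e1 E p + ∑ l, ∑ m, ∑ j, ‖dy j E l m p.1 p.2‖ ^ 2

/-- smooth kernels -/
def SmK (Ω : Set (V n × V n)) (E : Kr n ι) : Prop :=
  ∀ l m, ContDiffOn ℝ ∞ (fun p : V n × V n => E l m p.1 p.2) Ω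

/-- smooth kernels solving the second equation -/
structure SolY (Q : Op n ι) (Ω : Set (V n × V n)) (E : Kr n ι) : Prop where
  sm : SmK Ω E
  ey : ∀ p ∈ Ω, ∀ l m, apy Q E l m p.1 p.2 = 0

/-- closed annulus -/
def ann (x : V n) (r R : ℝ) : Set (V n) := {y | r ≤ ‖y - x‖ ∧ ‖y - x‖ ≤ R}

/-- the far shell -/
def Yf (n : ℕ) : Set (V n) := {y | 8 ≤ ‖y‖ ∧ ‖y‖ ≤ 12}

/-- the inverse of the matrix at a point -/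
def iv (g : Mf n) (x : V n) : Matrix (Fin n) (Fin n) ℝ := (Matrix.of fun j k => g j k x)⁻¹

/-- product with a real function -/
def mk (ζ : V n × V n → ℝ) (E : Kr n ι) : Kr n ι := fun l m x y => (ζ (x, y) : ℂ) * E l m x y

/-- two derivatives of both slices are bounded at `p` -/
def D2 (ζ : V n × V n → ℝ) (p : V n × V n) (Z : ℝ) : Prop :=
  (∀ j, |pr j (fun x => ζ (x, p.2)) p.1| ≤ Z) ∧ (∀ j, |pr j (fun y => ζ (p.1, y)) p.2| ≤ Z) ∧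
    (∀ j k, |pr j (pr k fun x => ζ (x, p.2)) p.1| ≤ Z) ∧
    ∀ j k, |pr j (pr k fun y => ζ (p.1, y)) p.2| ≤ Z

variable [NeZero n]

/-- the cap -/
def _root_.Vale.Agent.P088F.Par.fX (P : Par) (n : ℕ) [NeZero n] : Set (V n) :=
  {x | 0 ≤ x 0 ∧ ‖x‖ ≤ 1 ∧ psi P.κ x ≤ P.a - 3 / (2 * P.N)}

/-- the transition zone -/
def _root_.Vale.Agent.P088F.Par.fT (P : Par) (n : ℕ) [NeZero n] : Set (V n) :=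
  {x | 0 ≤ x 0 ∧ ‖x‖ ≤ 1 ∧ P.a - 3 / (2 * P.N) ≤ psi P.κ x ∧ psi P.κ x ≤ P.a - 1 / P.N}

/-- the inner zone -/
def _root_.Vale.Agent.P088F.Par.fZ (P : Par) (n : ℕ) [NeZero n] : Set (V n × V n) :=
  {p | p.1 ∈ P.fX n ∧ p.2 ∈ ann p.1 (3 * P.b p.1) (9 * P.b p.1)}

/-- the weight in the first variable -/
def _root_.Vale.Agent.P088F.Par.wq (P : Par) (q : ℕ) (x : V n) : ℝ := (P.B / P.b x) ^ (2 * q)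

/-- the inner integral -/
def _root_.Vale.Agent.P088F.Par.fI (P : Par) (E : Kr n ι) (x : V n) : ℝ≥0∞ :=
  ∫⁻ y in ann x (3 * P.b x) (9 * P.b x), ENNReal.ofReal (e1 E (x, y))

/-- the far integral -/
def If (E : Kr n ι) (x : V n) : ℝ≥0∞ := ∫⁻ y in Yf n, ENNReal.ofReal (e1 E (x, y))

/-- the difference with the second kernel -/
def _root_.Vale.Agent.P088F.Dat.er (d : Dat n ι) (W : Kr n ι) : Kr n ι := fun l m x y => W l m x y - d.K2 l m x y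

/-- the setting of the step -/
structure St (P : Par) (d : Dat n ι) (W : Kr n ι) (K : ℕ) (ε c N₀ : ℝ) (c₀ p : ℕ) (Λ A : ℝ) :
    Prop where
  ok : P.Ok N₀ c
  dok : d.Ok K ε 30 c₀ Λ
  h : P.H d p
  ext : d.Ext (P.new n) W
  top : ∀ z ∈ P.new n, z ∈ P.top n → ∀ l m, ‖W l m z.1 z.2‖ ≤ A
  A0 : 0 ≤ A

variable (n ι)

/-- the inverse matrix of a matrix close to the identity -/
def MAT (n : ℕ) : Prop :=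
  ∃ ε₀ C : ℝ, 0 < ε₀ ∧ 0 ≤ C ∧ ∀ (g : Mf n) (x : V n) (ε : ℝ), ε ≤ ε₀ →
    (∀ j k, g j k x = g k j x) → (∀ j k, |g j k x - if j = k then 1 else 0| ≤ ε) →
    (∀ j k, iv g x j k = iv g x k j) ∧
    (∀ j k, ∑ i, g j i x * iv g x i k = if j = k then 1 else 0) ∧
    (∀ j k, |iv g x j k - if j = k then 1 else 0| ≤ C * ε) ∧
    (Matrix.of fun j k => g j k x).det ≠ 0

/-- the phase -/
def THS : Prop :=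
  ∃ ε c : ℝ, 0 < ε ∧ 0 < c ∧ ∀ (P : Par) (L : Op n ι), 0 < P.κ → P.κ ≤ 1 / 20 → P.Ok 1 c → L.Sm →
    L.Near 0 ε → ContDiffOn ℝ ∞ (P.Th L.g) {p | p.1 ≠ p.2} ∧
      ∀ x y : V n, ‖x‖ ≤ 1 → x ≠ y → ‖x - y‖ ≤ 3 * √P.B →
        Real.exp (P.Th L.g (x, y)) ≤ 2 * ‖x - y‖ ^ 2 / P.b x ^ 2 ∧
        ‖x - y‖ ^ 2 / (2 * P.b x ^ 2) ≤ Real.exp (P.Th L.g (x, y))

/-- interior estimate from the square norm -/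
def IEL : Prop :=
  ∃ (K : ℕ) (ε C : ℝ), 0 < ε ∧ 0 ≤ C ∧ ∀ (L : Op n ι) (x : V n) (r : ℝ) (u : Fam n ι), L.Sm →
    L.Near K ε → 0 < r → r ≤ 1 → SolOn L (ball x r) u →
    ENNReal.ofReal (g1 u x) ≤ ENNReal.ofReal (C / r ^ (n + 2)) * N2 (ball x r) u

/-- interior estimate from the sup norm -/
def IES : Prop :=
  ∃ (K : ℕ) (ε C : ℝ), 0 < ε ∧ 0 ≤ C ∧ ∀ (L : Op n ι) (x : V n) (r A : ℝ) (u : Fam n ι), L.Sm →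
    L.Near K ε → 0 < r → r ≤ 1 → SolOn L (ball x r) u → 0 ≤ A →
    (∀ l, ∀ z ∈ ball x r, ‖u l z‖ ≤ A) →
    g1 u x ≤ C * A ^ 2 / r ^ 2 ∧ ∀ l j k, ‖pd j (pd k (u l)) x‖ ≤ C * A / r ^ 2

/-- three annuli -/
def TA : Prop :=
  ∃ M₀ : ℕ, ∀ M : ℕ, M₀ ≤ M → ∃ (K : ℕ) (ε C : ℝ), 0 < ε ∧ 0 ≤ C ∧
    ∀ (Q : Op n ι) (x : V n) (β : ℝ) (u : Fam n ι), Q.Sm → Q.Near K ε → 0 < β → β ≤ 1 / 10 →
      SolOn Q {y | β < ‖y - x‖ ∧ ‖y - x‖ < 12} u → ∀ y, 7 / 2 * β ≤ ‖y - x‖ → ‖y - x‖ ≤ 9 →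
      ENNReal.ofReal (g1 u y) ≤ ENNReal.ofReal (C / ‖y - x‖ ^ (2 * M + n + 8)) *
        (ENNReal.ofReal (β ^ (2 * M)) * N2 (ann x (3 * β) (9 * β)) u + N2 (ann x 9 11) u)

/-- three annuli for kernels -/
def TAK : Prop :=
  ∃ M₀ : ℕ, ∀ M : ℕ, M₀ ≤ M → ∃ (K : ℕ) (ε C : ℝ), 0 < ε ∧ 0 ≤ C ∧
    ∀ (P : Par) (Q : Op n ι) (E : Kr n ι), 0 < P.N → 0 < P.B → P.B ≤ 1 / 10 → Q.Sm → Q.Near K ε →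
      SolY Q (P.new n) E → ∀ x ∈ P.fX n, ∀ y, 7 / 2 * P.b x ≤ ‖y - x‖ → ‖y - x‖ ≤ 9 →
      ENNReal.ofReal (e2 E (x, y)) ≤ ENNReal.ofReal (C / ‖y - x‖ ^ (2 * M + n + 8)) *
        (ENNReal.ofReal (P.b x ^ (2 * M)) * P.fI E x + If E x)

/-- the forward estimate -/
def FWD : Prop :=
  ∃ κ₀ : ℝ, 0 < κ₀ ∧ ∀ κ, 0 < κ → κ ≤ κ₀ → ∀ q : ℕ, 1 ≤ q → ∃ (K : ℕ) (ε N₀ C : ℝ), 0 < ε ∧ 0 ≤ C ∧
    ∀ (P : Par) (L : Op n ι) (u : Fam n ι) (A S : ℝ), P.κ = κ → P.a ≤ κ / 4 → N₀ ≤ P.N →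
      0 < P.B → L.Sm → L.Near K ε → 0 ≤ A → 0 ≤ S →
      (∀ l, ContDiffOn ℝ ∞ (u l) {x | ‖x‖ < 2 ∧ psi κ x < P.a}) →
      (∀ l x, ‖x‖ < 2 → psi κ x < P.a → x 0 < 0 → u l x = 0) →
      (∀ x : V n, 0 ≤ x 0 → ‖x‖ ≤ 1 → psi κ x ≤ P.a - 1 / P.N →
        P.wq q x * ∑ l, ‖L.ap u l x‖ ^ 2 ≤ S) →
      (∀ x ∈ P.fT n, g1 u x ≤ A) →
      ∫⁻ x in P.fX n, ENNReal.ofReal (P.wq q x * g1 u x) ≤ ENNReal.ofReal (C * P.N ^ 4 * (A + S))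

/-- commutators -/
def COM : Prop :=
  ∃ C : ℝ, 0 ≤ C ∧ ∀ (L Q : Op n ι) (ζ : V n × V n → ℝ) (E : Kr n ι) (p : V n × V n) (Z : ℝ),
    L.Near 0 1 → Q.Near 0 1 → ContDiffAt ℝ ∞ ζ p →
    (∀ l m, ContDiffAt ℝ ∞ (fun z : V n × V n => E l m z.1 z.2) p) → D2 ζ p Z →
    e0 (apx L (mk ζ E)) p + e0 (apy Q (mk ζ E)) p ≤
      2 * ζ p ^ 2 * (e0 (apx L E) p + e0 (apy Q E) p) + C * Z ^ 2 * e2 E p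

/-- the outer cutoff -/
def CO : Prop :=
  ∃ C : ℝ, 0 ≤ C ∧ ∀ P : Par, 0 < P.κ → P.κ ≤ 1 / 20 → P.Ok 1 1 → ∃ ζ : V n × V n → ℝ,
    ContDiff ℝ ∞ ζ ∧ (∀ p, 0 ≤ ζ p ∧ ζ p ≤ 1) ∧
    (∀ p, ζ p ≠ 0 → psi P.κ p.1 ≤ P.a - 1 / P.N ∧ ‖p.1 - p.2‖ ≤ 2 * √P.B) ∧
    (∀ p, psi P.κ p.1 ≤ P.a - 3 / (2 * P.N) → ‖p.1 - p.2‖ ≤ √P.B → ζ =ᶠ[𝓝 p] fun _ => 1) ∧
    ∀ p, ‖p.1‖ ≤ 1 → D2 ζ p (C / P.B)

/-- the inner cutoff -/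
def CI (n : ℕ) : Prop :=
  ∀ (U K : Set (V n × V n)) (ζ Θ : V n × V n → ℝ), IsOpen U → IsCompact K → K ⊆ U →
    ContDiffOn ℝ ∞ ζ U → ContDiffOn ℝ ∞ Θ U → ∃ C : ℝ, 0 ≤ C ∧ ∀ δ : ℝ, 0 < δ → δ ≤ 1 →
      ∀ p ∈ K, D2 (fun z => ζ z * Real.smoothTransition (Θ z / δ - 1)) p (C / δ ^ 2)

/-- the Carleman estimate on the product, after cutting off -/
def CUT : Prop :=
  ∃ (q : ℕ) (κ₀ : ℝ), 1 ≤ q ∧ 0 < κ₀ ∧ ∀ κ, 0 < κ → κ ≤ κ₀ →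
    ∃ (K : ℕ) (ε c N₀ C : ℝ), 0 < ε ∧ 0 < c ∧ 0 ≤ C ∧
    ∀ (P : Par) (d : Dat n ι) (E : Kr n ι) (A S : ℝ) (h : V n → ℝ≥0∞), P.κ = κ → P.Ok N₀ c →
      d.L1.Sm → d.L2.Sm → d.L1.Near K ε → d.L2.Near K ε → P.H d 3 → SolY d.L2.t (P.new n) E →
      (∀ p ∈ P.new n, p.1 0 < 0 → ∀ l m, E l m p.1 p.2 = 0) → 0 ≤ A → 0 ≤ S →
      (∀ p ∈ P.new n, 0 ≤ p.1 0 → ‖p.1 - p.2‖ ≤ 2 * √P.B →
        P.wq q p.1 * e0 (apx d.L1 E) p ≤ S) →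
      (∀ p : V n × V n, p.1 ∈ P.fT n → 7 / 10 * P.b p.1 ≤ ‖p.1 - p.2‖ → ‖p.1 - p.2‖ ≤ 2 * √P.B →
        e2 E p ≤ A) →
      (∀ p : V n × V n, p.1 ∈ P.fX n → √P.B ≤ ‖p.1 - p.2‖ → ‖p.1 - p.2‖ ≤ 2 * √P.B →
        ENNReal.ofReal (e2 E p) ≤ h p.1) →
      ∫⁻ p in P.fZ n, ENNReal.ofReal (e1 E p) ≤ ENNReal.ofReal (C / P.B ^ (q + 2)) *
        (ENNReal.ofReal (A + S) + ∫⁻ x in P.fX n, ENNReal.ofReal (P.wq q x) * h x)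

/-- bounds for the second kernel -/
def KB : Prop :=
  ∀ c₀ : ℕ, ∃ (K : ℕ) (ε C : ℝ), 0 < ε ∧ 0 ≤ C ∧ ∀ (d : Dat n ι) (Λ t δ : ℝ) (x y : V n),
    d.Ok K ε 30 c₀ Λ → ‖x‖ < 2 → ‖y‖ < 20 → 0 < t → t ≤ 1 → t ≤ ‖x - y‖ →
    e2 d.K2 (x, y) ≤ C * Λ ^ 2 / t ^ (2 * c₀ + 2) ∧
      (d.Df x δ → e0 (apx d.L1 d.K2) (x, y) ≤ C * δ ^ 2 * Λ ^ 2 / t ^ (2 * c₀ + 4))

/-- source and transition zone -/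
def SRC : Prop :=
  ∀ c₀ q : ℕ, ∃ (K : ℕ) (ε c C : ℝ), 0 < ε ∧ 0 < c ∧ 0 ≤ C ∧
    ∀ (P : Par) (d : Dat n ι) (W : Kr n ι) (Λ A : ℝ), 0 < P.κ → P.κ ≤ 1 / 20 →
      St P d W K ε c 1 c₀ (q + c₀ + 2) Λ A →
      d.L2.t.Sm ∧ SolY d.L2.t (P.new n) (d.er W) ∧
      (∀ p ∈ P.new n, p.1 0 < 0 → ∀ l m, d.er W l m p.1 p.2 = 0) ∧
      (∀ p ∈ P.new n, P.wq q p.1 * e0 (apx d.L1 (d.er W)) p ≤ C * Λ ^ 2) ∧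
      (∀ p : V n × V n, p.1 ∈ P.fT n → 7 / 10 * P.b p.1 ≤ ‖p.1 - p.2‖ → ‖p.1 - p.2‖ ≤ 2 * √P.B →
        e2 (d.er W) p ≤ C * (A + Λ) ^ 2 / P.B ^ (2 * c₀ + 2)) ∧
      ∀ p : V n × V n, p.1 ∈ P.fT n → p.2 ∈ Yf n → e1 (d.er W) p ≤ C * (A + Λ) ^ 2 / P.B ^ 2

/-- the far shell -/
def FAR : Prop :=
  ∃ κ₀ : ℝ, 0 < κ₀ ∧ ∀ c₀ q : ℕ, 1 ≤ q → ∀ κ, 0 < κ → κ ≤ κ₀ →
    ∃ (K : ℕ) (ε c N₀ C : ℝ), 0 < ε ∧ 0 < c ∧ 0 ≤ C ∧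
    ∀ (P : Par) (d : Dat n ι) (W : Kr n ι) (Λ A : ℝ), P.κ = κ →
      St P d W K ε c N₀ c₀ (q + c₀ + 2) Λ A →
      (∀ y ∈ Yf n, ∫⁻ x in P.fX n, ENNReal.ofReal (P.wq q x * e1 (d.er W) (x, y)) ≤
        ENNReal.ofReal (C * (A + Λ) ^ 2 / P.B ^ 3)) ∧
      ∫⁻ x in P.fX n, ENNReal.ofReal (P.wq q x) * If (d.er W) x ≤
        ENNReal.ofReal (C * (A + Λ) ^ 2 / P.B ^ 3)

/-- absorption -/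
def ABS : Prop :=
  ∀ c₀ : ℕ, ∃ (p e : ℕ) (κ₀ : ℝ), 3 ≤ p ∧ c₀ + 3 ≤ p ∧ 0 < κ₀ ∧ ∀ κ, 0 < κ → κ ≤ κ₀ →
    ∃ (K : ℕ) (ε c N₀ C : ℝ), 0 < ε ∧ 0 < c ∧ 0 ≤ C ∧
    ∀ (P : Par) (d : Dat n ι) (W : Kr n ι) (Λ A : ℝ), P.κ = κ → St P d W K ε c N₀ c₀ p Λ A →
      ∫⁻ x in P.fX n, P.fI (d.er W) x ≤ ENNReal.ofReal (C * (A + Λ) ^ 2 / P.B ^ e)

/-- bound in the mean in the first variable -/
def MID : Prop :=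
  ∀ c₀ : ℕ, ∃ (p e : ℕ) (κ₀ : ℝ), 3 ≤ p ∧ 0 < κ₀ ∧ ∀ κ, 0 < κ → κ ≤ κ₀ →
    ∃ (K : ℕ) (ε c N₀ C : ℝ), 0 < ε ∧ 0 < c ∧ 0 ≤ C ∧
    ∀ (P : Par) (d : Dat n ι) (W : Kr n ι) (Λ A : ℝ), P.κ = κ → St P d W K ε c N₀ c₀ p Λ A →
      ∀ (y : V n) (t : ℝ), ‖y‖ ≤ 12 → 0 < t → t ≤ 1 →
      ∫⁻ x in {x ∈ P.fX n | 7 / 2 * P.b x ≤ ‖y - x‖ ∧ t ≤ ‖y - x‖},
        ENNReal.ofReal (e0 (d.er W) (x, y)) ≤ ENNReal.ofReal (C * (A + Λ) ^ 2 / (P.B * t) ^ e)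

end Vale.Agent.P088F.Fw
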