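import Vale.Agent.P088F.FBas
import Vale.Agent.P088F.FDefs

/-! P088F, part F: the forward estimate. -/

open scoped ContDiff Topology ENNReal
open Set Filter MeasureTheory Metric

noncomputable section

namespace Vale.Agent.P088F

open Vale.Agent.P292E

variable {n : ℕ} {ι : Type} [Fintype ι]

/-- square of the first order jet -/
def j1 (u : Fam n ι) (x : V n) : ℝ := ∑ l, (‖u l x‖ ^ 2 + ∑ j, ‖pd j (u l) x‖ ^ 2)

theorem j1_nonneg (u : Fam n ι) (x : V n) : 0 ≤ j1 u x := by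
  unfold j1
  positivity

theorem j1_congr {u v : Fam n ι} {x : V n} (h : ∀ l, u l =ᶠ[𝓝 x] v l) : j1 u x = j1 v x := by
  simp only [j1, fun m j => (fb_pd_ev (h m) j).eq_of_nhds, fun m => (h m).eq_of_nhds]

theorem j1_cont {v : Fam n ι} (h : ∀ l, ContDiff ℝ ∞ (v l)) : Continuous (j1 v) :=
  continuous_finsetSum _ fun l _ => ((h l).continuous.norm.pow 2).add
    (continuous_finsetSum _ fun _ _ => ((((h l).continuous_fderiv (by simp)).clm_apply
      continuous_const).norm.pow 2))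

theorem j1_zero {v : Fam n ι} {x : V n} (h : ∀ l, v l =ᶠ[𝓝 x] fun _ => 0) : j1 v x = 0 := by
  rw [j1_congr (v := fun _ _ => 0) h]
  simp [j1, fb_pd_zero]

/-- the profile of the cut-off function -/
def chi (t : ℝ) : ℂ := Real.smoothTransition (-4 * t - 2)

theorem chi_smooth : ContDiff ℝ ∞ chi := Complex.ofRealCLM.contDiff.comp
  (Real.smoothTransition.contDiff.comp ((contDiff_const.mul contDiff_id).sub contDiff_const))

theorem chi_one {t : ℝ} (h : t ≤ -3 / 4) : chi t = 1 := by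
  rw [chi, Real.smoothTransition.one_of_one_le (by linarith), Complex.ofReal_one]

theorem chi_zero {t : ℝ} (h : -1 / 2 ≤ t) : chi t = 0 := by
  rw [chi, Real.smoothTransition.zero_of_nonpos (by linarith), Complex.ofReal_zero]

theorem chi_le (t : ℝ) : ‖chi t‖ ≤ 1 := by
  rw [chi, Complex.norm_real, Real.norm_of_nonneg (Real.smoothTransition.nonneg _)]
  exact Real.smoothTransition.le_one _

theorem chi_bd : ∃ G : ℝ, 1 ≤ G ∧ ∀ i ≤ 2, ∀ t, ‖iteratedFDeriv ℝ i chi t‖ ≤ G := by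
  choose c hc using fun i : ℕ => (isCompact_Icc (a := (-1 : ℝ)) (b := 0)).exists_bound_of_continuousOn
    (chi_smooth.continuous_iteratedFDeriv (m := i) (BdC_le i)).continuousOn
  have h0 : ∀ i, 0 ≤ c i := fun i => (norm_nonneg _).trans (hc i 0 (by simp))
  refine ⟨1 + c 0 + c 1 + c 2, by linarith [h0 0, h0 1, h0 2], fun i hi t => ?_⟩
  have k : ∀ z : ℂ, ‖z‖ ≤ 1 → (chi =ᶠ[𝓝 t] fun _ => z) →
      ‖iteratedFDeriv ℝ i chi t‖ ≤ 1 + c 0 + c 1 + c 2 := fun z hz h => by
    rw [(h.iteratedFDeriv ℝ i).eq_of_nhds]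
    have : ‖iteratedFDeriv ℝ i (fun _ : ℝ => z) t‖ ≤ 1 := by
      rcases eq_or_ne i 0 with rfl | h
      · simpa using hz
      · simp [iteratedFDeriv_const_of_ne h]
    linarith [h0 0, h0 1, h0 2]
  rcases lt_or_ge t (-1) with h | h
  · exact k 1 (by simp) (Filter.mem_of_superset (Iio_mem_nhds h) fun s (hs : s < -1) =>
      chi_one (by linarith))
  rcases lt_or_ge 0 t with h' | h'
  · exact k 0 (by simp) (Filter.mem_of_superset (Ioi_mem_nhds h') fun s (hs : 0 < s) =>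
      chi_zero (by linarith))
  have := hc i t ⟨h, h'⟩
  interval_cases i <;> linarith [h0 0, h0 1, h0 2]

variable [NeZero n]

theorem psi_der {κ : ℝ} (h0 : 0 ≤ κ) (h1 : κ ≤ 1 / 10) {x : V n} (hx : ‖x‖ ≤ 2) {i : ℕ}
    (hi : 1 ≤ i) : ‖iteratedFDeriv ℝ i (psi κ) x‖ ≤ 3 := by
  have b : ∀ x : V n, ‖fbL n κ x‖ ≤ 1 * ‖x‖ := fun x => by
    refine ContinuousLinearMap.opNorm_le_bound _ (by positivity) fun v => ?_
    have a1 := abs_le.1 (abs_real_inner_le_norm x v)
    have a2 := abs_le.1 ((abs_mul _ _).trans_le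
      (mul_le_mul (fb_co x 0) (fb_co v 0) (abs_nonneg _) (norm_nonneg _)))
    have a3 : |2 * inner ℝ x v - 8 * (x 0 * v 0)| ≤ 10 * (‖x‖ * ‖v‖) :=
      abs_le.2 ⟨by linarith, by linarith⟩
    rw [fbL_app, Real.norm_eq_abs, abs_mul, abs_of_nonneg h0]
    exact (mul_le_mul h1 a3 (abs_nonneg _) (by positivity)).trans_eq (by ring)
  have f2 : fderiv ℝ (fderiv ℝ (psi κ)) = fun _ : V n => fbL n κ := funext (psi_fd2 κ)
  obtain _ | _ | _ | i := i
  · omega
  · rw [← norm_iteratedFDeriv_fderiv, norm_iteratedFDeriv_zero, psi_fd]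
    have : ‖fbP n‖ ≤ 1 := ContinuousLinearMap.opNorm_le_bound _ zero_le_one fun v =>
      (fb_co v 0).trans_eq (one_mul _).symm
    linarith [norm_add_le (fbP n) (fbL n κ x), b x]
  · rw [← norm_iteratedFDeriv_fderiv, ← norm_iteratedFDeriv_fderiv, norm_iteratedFDeriv_zero, f2]
    exact (ContinuousLinearMap.opNorm_le_bound _ zero_le_one b).trans (by norm_num)
  · rw [← norm_iteratedFDeriv_fderiv, ← norm_iteratedFDeriv_fderiv, f2,
      iteratedFDeriv_succ_const, Pi.zero_apply, norm_zero]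
    norm_num

theorem psi_small {κ a : ℝ} (h0 : 0 < κ) (h1 : κ ≤ 1 / 10) (ha : a ≤ κ / 4) {x : V n}
    (hx : ‖x‖ ≤ 2) (x0 : 0 ≤ x 0) (hp : psi κ x < a) : ‖x‖ < 1 / 2 := by
  have h2 := (le_abs_self _).trans (fb_co x 0)
  have h3 : 0 ≤ x 0 * (1 - 4 * κ * x 0) := mul_nonneg x0 (by nlinarith)
  have h4 : κ * ‖x‖ ^ 2 < κ * (1 / 2) ^ 2 := by
    unfold psi at hp
    nlinarith
  exact lt_of_pow_lt_pow_left₀ 2 (by norm_num) (lt_of_mul_lt_mul_left h4 h0.le)

/-- the cut-off function at the top -/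
def zt (κ a N : ℝ) (x : V n) : ℂ := chi (N * (psi κ x - a))

theorem zt_smooth (κ a N : ℝ) : ContDiff ℝ ∞ (zt κ a N : V n → ℂ) :=
  chi_smooth.comp (contDiff_const.mul ((psi_smooth κ).sub contDiff_const))

theorem zt_bd : ∃ G : ℝ, 1 ≤ G ∧ ∀ (κ a N : ℝ) (x : V n), 0 ≤ κ → κ ≤ 1 / 10 → 1 ≤ N → ‖x‖ ≤ 2 →
    ∀ i ≤ 2, ‖iteratedFDeriv ℝ i (zt κ a N) x‖ ≤ G * N ^ 2 := by
  obtain ⟨G, hG, h⟩ := chi_bd
  refine ⟨18 * G, by linarith, fun κ a N x h0 h1 hN hx i hi => ?_⟩
  have s : ContDiff ℝ ∞ fun x : V n => psi κ x - a := (psi_smooth κ).sub contDiff_const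
  refine (norm_iteratedFDeriv_comp_le chi_smooth (contDiff_const.mul s) (BdC_le i) x (C := G)
    (D := 3 * N) (fun j hj => h j (hj.trans hi) _) fun j hj _ => ?_).trans ?_
  · have e : iteratedFDeriv ℝ j (fun x : V n => N * (psi κ x - a)) x =
        N • iteratedFDeriv ℝ j (fun x : V n => psi κ x - a) x :=
      iteratedFDeriv_const_smul_apply (a := N) (s.of_le (BdC_le j)).contDiffAt
    have e' : iteratedFDeriv ℝ j (fun x : V n => psi κ x - a) x = iteratedFDeriv ℝ j (psi κ) x := by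
      refine (iteratedFDeriv_sub_apply ((psi_smooth κ).of_le (BdC_le j)).contDiffAt
        contDiffAt_const).trans ?_
      simp [iteratedFDeriv_const_of_ne (show j ≠ 0 by omega)]
    rw [e, e', norm_smul, Real.norm_of_nonneg (by linarith)]
    exact ((mul_le_mul_of_nonneg_left (psi_der h0 h1 hx hj) (by linarith)).trans_eq
      (mul_comm _ _)).trans (le_self_pow₀ (by linarith) (by omega))
  · have h2 : (i.factorial : ℝ) ≤ 2 := by exact_mod_cast Nat.factorial_le hi
    have h3 : (3 * N) ^ i ≤ (3 * N) ^ 2 := pow_le_pow_right₀ (by linarith) hi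
    exact (mul_le_mul (mul_le_mul_of_nonneg_right h2 (by linarith)) h3 (by positivity)
      (by positivity)).trans_eq (by ring)

theorem fwd_alg {w x y E c N A Λ : ℝ} (hw : 0 ≤ w) (hx : 0 ≤ x) (hE : 0 ≤ E) (hN : 1 ≤ N)
    (h1 : w * y ^ 2 ≤ Λ ^ 2) (h2 : x = y ∨ w ≤ E ∧ x ≤ y + c * N ^ 2 * A) :
    w * x ^ 2 ≤ 2 * (1 + E * c ^ 2) * N ^ 4 * (A ^ 2 + Λ ^ 2) := by
  have N4 : 1 ≤ N ^ 4 := one_le_pow₀ hN
  have p1 : 0 ≤ E * c ^ 2 := by positivity
  have p2 := mul_le_mul_of_nonneg_right N4 (sq_nonneg Λ)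
  have p3 : 0 ≤ N ^ 4 * A ^ 2 := by positivity
  have p4 := mul_nonneg p1 (show 0 ≤ N ^ 4 * Λ ^ 2 by positivity)
  have p5 := mul_nonneg p1 p3
  rcases h2 with rfl | ⟨h2, h3⟩
  · nlinarith [sq_nonneg Λ]
  have b6 : x ^ 2 ≤ 2 * y ^ 2 + 2 * (c * N ^ 2 * A) ^ 2 := by
    nlinarith [pow_le_pow_left₀ hx h3 2, sq_nonneg (y - c * N ^ 2 * A)]
  nlinarith [mul_le_mul_of_nonneg_left b6 hw,
    mul_le_mul_of_nonneg_right h2 (sq_nonneg (c * N ^ 2 * A))]

variable [DecidableEq ι] (n ι)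

/-- the forward estimate -/
def FWD0 : Prop :=
  ∀ κ : ℝ, 0 < κ → κ ≤ 1 / 100 → ∀ q : ℝ, 1 / 2 ≤ q → ∃ N₀ ε C : ℝ, 0 < ε ∧ 0 ≤ C ∧
    ∀ (L : Op n ι) (a N Λ A : ℝ) (u : Fam n ι), L.Sm → L.Near 2 ε → a ≤ κ / 4 → N₀ ≤ N →
      (∀ l, ContDiffOn ℝ ∞ (u l) {x | ‖x‖ < 1 ∧ psi κ x < a}) →
      (∀ l x, ‖x‖ < 1 → psi κ x < a → x 0 < 0 → u l x = 0) →
      (∀ l x, ‖x‖ < 1 / 2 → 0 ≤ x 0 → psi κ x < a →
        ‖L.ap u l x‖ ≤ Λ * Real.exp (q * N * (psi κ x - a))) →
      (∀ l x, ‖x‖ < 1 / 2 → 0 ≤ x 0 → psi κ x < a → a - 1 / N ≤ psi κ x →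
        ‖u l x‖ ≤ A ∧ ∀ j, ‖pd j (u l) x‖ ≤ A) →
      IntegrableOn (fun x => Real.exp (-2 * q * N * (psi κ x - a)) * j1 u x)
        {x | ‖x‖ < 1 ∧ psi κ x ≤ a - 1 / N} ∧
      ∫ x in {x | ‖x‖ < 1 ∧ psi κ x ≤ a - 1 / N}, Real.exp (-2 * q * N * (psi κ x - a)) * j1 u x ≤
        C * N ^ 4 * (A ^ 2 + Λ ^ 2)

variable {n ι}

theorem fwd0 (hS : SC n ι) (hT : TB n ι) : FWD0 n ι := by
  intro κ k0 k1 q hq
  obtain ⟨ε₀, e0, hB⟩ := hT.2.2.2.2.1
  obtain ⟨M, -, hM⟩ := exists_Bd 4 isOpen_univ (psi_smooth (n := n) κ).contDiffOn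
    (isCompact_closedBall 0 1) (subset_univ _)
  obtain ⟨τ₀, C, hC⟩ := hS (max M 2) (κ / 2) (half_pos k0)
  obtain ⟨G, G1, hG⟩ := zt_bd (n := n)
  set c : ℝ := (3 * n ^ 2 + Fintype.card ι * n) * 2 * G with hc
  have n0 : (0 : ℝ) < n := Nat.cast_pos.2 (NeZero.pos n)
  refine ⟨2 * max τ₀ 1, min ε₀ (min (1 / 100 / n ^ 2) (κ / (33 * n ^ 3))),
    |C| * (volume.real (ball (0 : V n) 1) * (Fintype.card ι * (2 * (1 + Real.exp (2 * q) * c ^ 2)))),
    by positivity, by positivity, fun L a N Λ A u hL hN ha hN0 hu u0 uL uA => ?_⟩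
  have N1 : 1 ≤ N := by linarith [le_max_right τ₀ 1]
  have Np : 0 < N := by linarith
  obtain ⟨N0, t1⟩ := max_le_iff.1 (show max τ₀ 1 ≤ q * N by nlinarith)
  have bd := hB 2 L _ hL (min_le_left _ _) hN
  have cp := (psi_smooth (n := n) κ).continuous
  set D : Set (V n) := {x | ‖x‖ < 1 ∧ psi κ x < a}
  set K : Set (V n) := {x | ‖x‖ ≤ 1 / 2 ∧ 0 ≤ x 0 ∧ -1 / 2 ≥ N * (psi κ x - a)}
  have oD : IsOpen D := (isOpen_lt continuous_norm continuous_const).inter
    (isOpen_lt cp continuous_const)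
  have cK : IsCompact K := (isCompact_closedBall (0 : V n) (1 / 2)).of_isClosed_subset
    ((isClosed_le continuous_norm continuous_const).inter ((isClosed_le continuous_const
      (fbP n).continuous).inter (isClosed_le (continuous_const.mul
        (cp.sub continuous_const)) continuous_const)))
    fun x hx => mem_closedBall_zero_iff.2 hx.1
  have KD : K ⊆ D := fun x hx => ⟨by linarith [hx.1], by nlinarith [hx.2.2]⟩
  have sm : ∀ x ∈ D, 0 ≤ x 0 → ‖x‖ < 1 / 2 := fun x hx h =>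
    psi_small k0 (by linarith) ha (by linarith [hx.1]) h hx.2
  set v : Fam n ι := fun l => D.indicator fun x => zt κ a N x * u l x
  have hv := fun l => tst_ind oD cK KD ((zt_smooth κ a N).contDiffOn.mul (hu l)) fun x hx h => by
    rcases lt_or_ge (x 0) 0 with h1 | h1
    · exact mul_eq_zero_of_right _ (u0 l x hx.1 hx.2 h1)
    · exact mul_eq_zero_of_left (chi_zero (le_of_not_ge fun h2 => h ⟨(sm x hx h1).le, h1, h2⟩)) _
  have v0 : ∀ x ∉ K, ∀ l, v l =ᶠ[𝓝 x] fun _ => 0 := fun x hx l =>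
    notMem_tsupport_iff_eventuallyEq.1 fun h => hx ((hv l).2.2 h)
  have v1 : ∀ x ∈ D, ∀ l, v l =ᶠ[𝓝 x] fun y => zt κ a N y * u l y := fun x hx l =>
    Filter.mem_of_superset (oD.mem_nhds hx) fun y hy => indicator_of_mem hy _
  have v2 : ∀ x ∈ D, psi κ x ≤ a - 1 / N → ∀ l, v l =ᶠ[𝓝 x] u l := fun x hx h l => by
    have h1 : N * (psi κ x - a) < -3 / 4 := by
      have := mul_le_mul_of_nonneg_left h Np.le
      rw [mul_sub, mul_one_div_cancel Np.ne'] at this
      linarith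
    filter_upwards [v1 x hx l, (isOpen_lt (f := fun y : V n => N * (psi κ y - a)) (by fun_prop)
      continuous_const).mem_nhds h1] with y y1 y2
    rw [y1, zt, chi_one (le_of_lt y2), one_mul]
  have main := hC L (psi κ) (ball 0 1) hL (bd.mono le_rfl (le_max_right _ _) (by linarith))
    isOpen_ball (psi_smooth κ).contDiffOn
    (hM.mono le_rfl ball_subset_closedBall (le_max_left _ _))
    (fun x hx => psi_sup k0 k1 (by positivity)
      ((le_div_iff₀' (by positivity)).1 ((min_le_right _ _).trans (min_le_left _ _)))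
      ((le_div_iff₀' (by positivity)).1 ((min_le_right _ _).trans (min_le_right _ _)))
      (mem_ball_zero_iff.1 hx).le (hN.g0 x) (hN.g1 x)) (q * N) N0 v fun l => ⟨(hv l).1, (hv l).2.1,
      (hv l).2.2.trans fun x hx => mem_ball_zero_iff.2 (KD hx).1⟩
  have iv : ∀ {F : V n → ℝ}, Continuous F → (∀ x ∉ K, F x = 0) → Integrable F := fun hF h =>
    hF.integrable_of_hasCompactSupport (HasCompactSupport.intro cK h)
  have jc := j1_cont fun l => (hv l).1
  have i1 : Integrable fun x => Real.exp (-2 * q * N * (psi κ x - a)) * j1 v x :=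
    iv (by fun_prop) fun x hx => mul_eq_zero_of_right _ (j1_zero (v0 x hx))
  have mX : MeasurableSet {x : V n | ‖x‖ < 1 ∧ psi κ x ≤ a - 1 / N} :=
    (isOpen_lt continuous_norm continuous_const).measurableSet.inter
      (isClosed_le cp continuous_const).measurableSet
  have eX : EqOn (fun x => Real.exp (-2 * q * N * (psi κ x - a)) * j1 v x)
      (fun x => Real.exp (-2 * q * N * (psi κ x - a)) * j1 u x)
      {x : V n | ‖x‖ < 1 ∧ psi κ x ≤ a - 1 / N} := fun x hx => by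
    simp only [j1_congr (v2 x ⟨hx.1, hx.2.trans_lt (sub_lt_self _ (by positivity))⟩ hx.2)]
  refine ⟨i1.integrableOn.congr_fun eX mX, ?_⟩
  rw [← setIntegral_congr_fun mX eX]
  have ex : ∀ x : V n, Real.exp (-2 * q * N * (psi κ x - a)) =
      Real.exp (2 * q * N * a) * Real.exp (-2 * (q * N) * psi κ x) := fun x => by
    rw [← Real.exp_add]
    congr 1
    ring
  have s1 : ∫ x, Real.exp (-2 * q * N * (psi κ x - a)) * j1 v x ≤ Real.exp (2 * q * N * a) *
      ∫ x, Real.exp (-2 * (q * N) * psi κ x) *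
        ∑ l, ((q * N) ^ 3 * ‖v l x‖ ^ 2 + q * N * ∑ j, ‖pd j (v l) x‖ ^ 2) := by
    rw [← integral_const_mul]
    refine integral_mono i1 (iv (continuous_const.mul (Continuous.mul (by fun_prop)
      (continuous_finsetSum _ fun l _ => (continuous_const.mul ((hv l).1.continuous.norm.pow 2)).add
        (continuous_const.mul (continuous_finsetSum _ fun _ _ => ((((hv l).1.continuous_fderiv
          (by simp)).clm_apply continuous_const).norm.pow 2)))))) fun x hx => by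
        simp [fun l => (v0 x hx l).eq_of_nhds, fun l j => (fb_pd_ev (v0 x hx l) j).eq_of_nhds,
          fb_pd_zero]) fun x => ?_
    simp only [ex, mul_assoc (Real.exp _), j1]
    gcongr with l
    · exact le_mul_of_one_le_left (by positivity) (one_le_pow₀ t1)
    · exact le_mul_of_one_le_left (by positivity) t1
  have s2 : Real.exp (2 * q * N * a) * ∫ x, Real.exp (-2 * (q * N) * psi κ x) *
      ∑ l, ‖L.ap v l x‖ ^ 2 ≤ volume.real (ball (0 : V n) 1) *
        (Fintype.card ι * (2 * (1 + Real.exp (2 * q) * c ^ 2)) * N ^ 4 * (A ^ 2 + Λ ^ 2)) := by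
    rw [← integral_const_mul, ← smul_eq_mul (volume.real _),
      ← integral_indicator_const _ measurableSet_ball]
    refine integral_mono_of_nonneg (.of_forall fun x => by positivity)
      ((integrableOn_const measure_ball_lt_top.ne).integrable_indicator measurableSet_ball)
      (.of_forall fun x => ?_)
    by_cases hx : x ∈ K
    swap
    · simp only [ap_zero L (v0 x hx), norm_zero, sq, mul_zero, Finset.sum_const_zero]
      exact indicator_nonneg (fun _ _ => mul_nonneg (mul_nonneg (mul_nonneg (by positivity)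
        (mul_nonneg zero_le_two (add_nonneg zero_le_one (mul_nonneg (Real.exp_pos _).le
          (mul_self_nonneg _))))) (by positivity)) (add_nonneg (mul_self_nonneg _)
            (mul_self_nonneg _))) _
    have hD := KD hx
    have hs := sm x hD hx.2.1
    simp only [indicator_of_mem (mem_ball_zero_iff.2 hD.1), ← mul_assoc (Real.exp _), ← ex,
      Finset.mul_sum]
    refine (Finset.sum_le_card_nsmul _ _ (2 * (1 + Real.exp (2 * q) * c ^ 2) * N ^ 4 *
      (A ^ 2 + Λ ^ 2)) fun l _ => ?_).trans (le_of_eq (by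
        rw [Finset.card_univ, nsmul_eq_mul]
        ring))
    have b1 : Real.exp (-2 * q * N * (psi κ x - a)) * ‖L.ap u l x‖ ^ 2 ≤ Λ ^ 2 := by
      refine (mul_le_mul_of_nonneg_left (pow_le_pow_left₀ (norm_nonneg _)
        (uL l x hs hx.2.1 hD.2) 2) (by positivity)).trans (le_of_eq ?_)
      rw [mul_pow, mul_left_comm, sq (Real.exp _), ← Real.exp_add, ← Real.exp_add,
        show (_ + _ : ℝ) = 0 by ring, Real.exp_zero, mul_one]
    refine fwd_alg (Real.exp_pos _).le (norm_nonneg _) (Real.exp_pos _).le N1 b1 ?_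
    rcases le_or_gt (psi κ x) (a - 1 / N) with h | h
    · exact Or.inl (by rw [ap_congr L (v2 x hD h)])
    have ua := fun l => uA l x hs hx.2.1 hD.2 h.le
    have zs := ((zt_smooth (n := n) κ a N).of_le (BdC_le 2)).contDiffAt (x := x)
    have zb := hG κ a N x k0.le (by linarith) N1 (by linarith)
    have b2 := ap_cut (L := L) (fun l => BdC_at oD (hu l) hD 2) zs zero_le_two (by positivity)
      (fun j k => (bd.g j k).norm_le (mem_univ x)) (fun j l m => (bd.a j l m).norm_le (mem_univ x))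
      (fb_pd1 (zb 1 one_le_two)) (fb_pd2 zs (zb 2 le_rfl)) (fun l => (ua l).1) (fun l => (ua l).2) l
    have b3 : ‖zt κ a N x * L.ap u l x‖ ≤ ‖L.ap u l x‖ :=
      (norm_mul_le _ _).trans (mul_le_of_le_one_left (norm_nonneg _) (chi_le _))
    have b4 : ‖L.ap v l x‖ ≤ ‖L.ap u l x‖ + c * N ^ 2 * A := by
      rw [ap_congr L (v1 x hD)]
      refine (norm_le_insert' _ _).trans (add_le_add b3 (b2.trans_eq (by rw [hc]; ring)))
    have b5 : Real.exp (-2 * q * N * (psi κ x - a)) ≤ Real.exp (2 * q) := by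
      have := mul_lt_mul_of_pos_left h Np
      rw [mul_sub, mul_one_div_cancel Np.ne'] at this
      exact Real.exp_le_exp.2 (by nlinarith only [this, hq])
    exact Or.inr ⟨b5, b4⟩
  refine ((setIntegral_le_integral i1 (.of_forall fun x => mul_nonneg (Real.exp_pos _).le
    (j1_nonneg _ _))).trans (s1.trans (mul_le_mul_of_nonneg_left (main.trans
      (mul_le_mul_of_nonneg_right (le_abs_self C) (integral_nonneg fun x => by positivity)))
        (Real.exp_pos _).le))).trans ?_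
  rw [mul_left_comm]
  exact (mul_le_mul_of_nonneg_left s2 (abs_nonneg C)).trans_eq (by ring)

theorem Fw.fwd (hS : SC n ι) (hT : TB n ι) : Fw.FWD n ι := by
  refine ⟨1 / 100, by norm_num, fun κ k0 k1 q hq => ?_⟩
  have q1 : (1 : ℝ) ≤ q := by exact_mod_cast hq
  obtain ⟨N₀, ε, C, e0, C0, h⟩ := fwd0 hS hT κ k0 k1 (q / 2) (by linarith)
  refine ⟨2, ε, max N₀ 1, Real.exp (2 * q) * C * 16, e0, by positivity,
    fun P L u A S hκ ha hN hB hL hn A0 S0 hu u0 uL uA => ?_⟩
  obtain ⟨N0, N1⟩ := max_le_iff.1 hN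
  have Np : 0 < P.N := by linarith
  have i0 : 0 < 1 / P.N := by positivity
  have w : ∀ x : V n, P.wq q x = Real.exp (-2 * q * P.N * (psi κ x - P.a)) := fun x => by
    rw [Par.wq, Par.b, div_mul_cancel_left₀ hB.ne', ← Real.exp_neg, ← Real.exp_nat_mul, hκ]
    congr 1
    push_cast
    ring
  have e1 : P.a - 1 / P.N - 1 / (2 * P.N) = P.a - 3 / (2 * P.N) := by
    field_simp
    ring
  obtain ⟨h1, h2⟩ := h L (P.a - 1 / P.N) (2 * P.N) √S √A u hL hn (by linarith) (by linarith)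
    (fun l => (hu l).mono fun x hx => ⟨by linarith [hx.1], by linarith [hx.2]⟩)
    (fun l x x1 x2 => u0 l x (by linarith) (by linarith))
    (fun l x x1 x0 x2 => by
      have k1 := (mul_le_mul_of_nonneg_left (Finset.single_le_sum (f := fun l => ‖L.ap u l x‖ ^ 2)
        (fun _ _ => sq_nonneg _) (Finset.mem_univ l)) (w x ▸ (Real.exp_pos _).le)).trans
          (uL x x0 (by linarith) x2.le)
      refine abs_le_of_sq_le_sq' ?_ (by positivity) |>.2
      rw [mul_pow, Real.sq_sqrt S0, ← Real.exp_nat_mul]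
      rw [w, ← le_div_iff₀' (Real.exp_pos _), div_eq_mul_inv, ← Real.exp_neg] at k1
      refine k1.trans (mul_le_mul_of_nonneg_left (Real.exp_le_exp.2 ?_) S0)
      push_cast
      nlinarith [mul_pos (mul_pos (by linarith : (0 : ℝ) < q) Np) i0])
    (fun l x x1 x0 x2 x3 => by
      have k1 := (Finset.single_le_sum (f := fun l => ‖u l x‖ ^ 2 + ∑ j, ‖pd j (u l) x‖ ^ 2)
        (fun _ _ => by positivity) (Finset.mem_univ l)).trans
          (uA x ⟨x0, by linarith, hκ ▸ e1 ▸ x3, hκ ▸ x2.le⟩)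
      refine ⟨Real.le_sqrt_of_sq_le ((le_add_of_nonneg_right (by positivity)).trans k1),
        fun j => Real.le_sqrt_of_sq_le ((le_add_of_nonneg_of_le (sq_nonneg _)
          (Finset.single_le_sum (f := fun j => ‖pd j (u l) x‖ ^ 2) (fun _ _ => sq_nonneg _)
            (Finset.mem_univ j))).trans k1)⟩)
  have e2 : ∀ x : V n, P.wq q x * Fw.g1 u x = Real.exp (2 * q) *
      (Real.exp (-2 * (q / 2) * (2 * P.N) * (psi κ x - (P.a - 1 / P.N))) * j1 u x) := fun x => by
    rw [w, ← mul_assoc, ← Real.exp_add]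
    congr 2
    field_simp
    ring
  simp only [e2]
  refine (lintegral_mono_set (t := {x : V n | ‖x‖ < 1 ∧ psi κ x ≤ P.a - 1 / P.N - 1 / (2 * P.N)})
    fun x hx => ⟨(psi_small k0 (by linarith) ha (by linarith [hx.2.1]) hx.1
      (hκ ▸ hx.2.2.trans_lt (sub_lt_self _ (by positivity)))).trans (by norm_num),
        e1 ▸ hκ ▸ hx.2.2⟩).trans ?_
  rw [← ofReal_integral_eq_lintegral_ofReal (h1.const_mul _) (.of_forall fun x => mul_nonneg
    (Real.exp_pos _).le (mul_nonneg (Real.exp_pos _).le (j1_nonneg _ _))), integral_const_mul]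
  refine ENNReal.ofReal_le_ofReal ((mul_le_mul_of_nonneg_left h2 (Real.exp_pos _).le).trans_eq ?_)
  rw [Real.sq_sqrt A0, Real.sq_sqrt S0]
  ring

end Vale.Agent.P088F
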