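import Vale.Agent.P088F.FCi
import Vale.Agent.P088F.FFwd

/-! P088F, part F: the outer cutoff. -/

open scoped ContDiff Topology ENNReal
open Set Filter MeasureTheory Metric

noncomputable section

namespace Vale.Agent.P088F.Fw

open Vale.Agent.P292E

variable {n : ℕ} {ι : Type} [Fintype ι] [DecidableEq ι] [NeZero n]

theorem it_lin {E F : Type} [NormedAddCommGroup E] [NormedSpace ℝ E] [NormedAddCommGroup F]
    [NormedSpace ℝ F] {f : F → ℝ} (hf : ContDiff ℝ ∞ f) (T : E →L[ℝ] F) {D C : ℝ} (hT : ‖T‖ ≤ D)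
    (x : E) (i : ℕ) (h : ‖iteratedFDeriv ℝ i f (T x)‖ ≤ C) :
    ‖iteratedFDeriv ℝ i (fun y => f (T y)) x‖ ≤ C * D ^ i := by
  rw [show (fun y => f (T y)) = f ∘ T from rfl, T.iteratedFDeriv_comp_right hf x (BdC_le i)]
  refine (ContinuousMultilinearMap.norm_compContinuousLinearMap_le _ _).trans ?_
  rw [Finset.prod_const, Finset.card_univ, Fintype.card_fin]
  exact mul_le_mul h (pow_le_pow_left₀ (norm_nonneg _) hT i) (by positivity)
    ((norm_nonneg _).trans h)

theorem co : CO n := by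
  let φ : ContDiffBump (0 : V n) := ⟨3 / 2, 2, by norm_num, by norm_num⟩
  choose c hc using fun i : ℕ => (φ.hasCompactSupport.iteratedFDeriv (𝕜 := ℝ) i
    ).exists_bound_of_continuous ((φ.contDiff (n := ⊤)).continuous_iteratedFDeriv (BdC_le i))
  have c0 : ∀ i, 0 ≤ c i := fun i => (norm_nonneg _).trans (hc i 0)
  obtain ⟨G, G1, hG⟩ := st_bd
  have c1 : 0 ≤ c 0 + c 1 + c 2 := by linarith [c0 0, c0 1, c0 2]
  refine ⟨4 * (2 * G) * (c 0 + c 1 + c 2) * 144, by positivity, fun P k0 k1 hP => ?_⟩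
  have N1 := hP.N0
  have B0 := hP.B0
  have r0 : 0 < √P.B := Real.sqrt_pos.2 B0
  have r1 : √P.B * P.N ≤ 1 :=
    (mul_le_mul_of_nonneg_left (le_self_pow₀ N1 three_ne_zero) r0.le).trans hP.B1
  have r2 : √P.B ≤ 1 := (le_mul_of_one_le_right r0.le N1).trans r1
  have D1 : 1 ≤ 12 / √P.B := (one_le_div r0).2 (by linarith)
  let T : V n × V n →L[ℝ] V n :=
    (√P.B)⁻¹ • (ContinuousLinearMap.fst ℝ (V n) (V n) - ContinuousLinearMap.snd ℝ (V n) (V n))
  have nT : ∀ p, ‖T p‖ = ‖p.1 - p.2‖ / √P.B := fun p => by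
    rw [div_eq_inv_mul, ← abs_of_pos (inv_pos.2 r0), ← Real.norm_eq_abs, ← norm_smul]
    rfl
  have s0 : ContDiff ℝ ∞ fun p : V n × V n => psi P.κ p.1 := (psi_smooth P.κ).comp contDiff_fst
  have s1 : ContDiff ℝ ∞ fun p : V n × V n =>
      Real.smoothTransition (-4 * P.N * psi P.κ p.1 - (4 - 4 * P.N * P.a)) :=
    Real.smoothTransition.contDiff.comp ((contDiff_const.mul s0).sub contDiff_const)
  have s2 : ContDiff ℝ ∞ fun p : V n × V n => φ (T p) := φ.contDiff.comp T.contDiff
  refine ⟨_, s1.mul s2, fun p => ⟨mul_nonneg (Real.smoothTransition.nonneg _) φ.nonneg,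
    mul_le_one₀ (Real.smoothTransition.le_one _) φ.nonneg φ.le_one⟩, fun p hp => ⟨?_, ?_⟩,
    fun p h1 h2 => ?_, fun p hp => ?_⟩
  · have h := lt_of_not_ge fun h => left_ne_zero_of_mul hp (Real.smoothTransition.zero_of_nonpos h)
    rw [le_sub_comm, div_le_iff₀ (by linarith)]
    linarith
  · have h : T p ∈ Function.support φ := right_ne_zero_of_mul hp
    rw [φ.support_eq, mem_ball_zero_iff, nT, div_lt_iff₀ r0] at h
    exact h.le
  · have h3 : 1 < -4 * P.N * psi P.κ p.1 - (4 - 4 * P.N * P.a) := by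
      rw [le_sub_comm, div_le_iff₀ (by linarith)] at h1
      linarith
    have h4 : T p ∈ ball (0 : V n) φ.rIn := by
      rw [mem_ball_zero_iff, nT, div_lt_iff₀ r0]
      show _ < 3 / 2 * _
      linarith
    filter_upwards [(isOpen_lt continuous_const ((continuous_const.mul s0.continuous).sub
      continuous_const)).mem_nhds h3, T.continuous.continuousAt.eventually
        (φ.eventuallyEq_one_of_mem_ball h4)] with z z1 z2
    exact (congrArg₂ (· * ·) (Real.smoothTransition.one_of_one_le (le_of_lt z1)) z2).trans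
      (one_mul 1)
  refine d2_of ((s1.mul s2).of_le (BdC_le 2)).contDiffAt fun i hi =>
    (it_mul isOpen_univ (mem_univ p) s1.contDiffOn s2.contDiffOn D1
      (it_comp isOpen_univ (mem_univ p) s0.contDiffOn hG D1 fun i h1 _ => ?_)
      (fun i hi => it_lin (C := c 0 + c 1 + c 2) φ.contDiff T ?_ p i ((hc i _).trans ?_))
      i hi).trans_eq ?_
  · have h := it_lin (psi_smooth P.κ) (ContinuousLinearMap.fst ℝ (V n) (V n))
      (ContinuousLinearMap.norm_fst_le ..) p i
      (psi_der k0.le (by linarith) (show ‖p.1‖ ≤ 2 by linarith) h1)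
    rw [one_pow, mul_one] at h
    rw [abs_of_nonpos (by linarith), le_div_iff₀ r0]
    have h' := mul_le_mul_of_nonneg_left h (show 0 ≤ √P.B * P.N by positivity)
    change _ * ‖iteratedFDeriv ℝ i (fun p : V n × V n => psi P.κ p.1) p‖ ≤ _ at h'
    linarith
  · refine ContinuousLinearMap.opNorm_le_bound _ (by positivity) fun z => ?_
    rw [nT, div_mul_eq_mul_div]
    refine div_le_div_of_nonneg_right ?_ r0.le
    linarith [norm_sub_le z.1 z.2, norm_fst_le z, norm_snd_le z, norm_nonneg z]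
  · interval_cases i <;> linarith [c0 0, c0 1, c0 2]
  · rw [div_pow, Real.sq_sqrt B0.le]
    ring

end Vale.Agent.P088F.Fw
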