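import Vale.Agent.P088F.FDx
import Vale.Agent.P088F.FBas

/-! P088F, part F: commutators. -/

open scoped ContDiff Topology ENNReal
open Set Filter MeasureTheory Metric

noncomputable section

namespace Vale.Agent.P088F.Fw

open Vale.Agent.P292E

variable {n : ℕ} {ι : Type} [Fintype ι] [DecidableEq ι] [NeZero n]

omit [NeZero n] in
theorem com_pd {f : V n → ℝ} {x : V n} (hf : DifferentiableAt ℝ f x) (j : Fin n) :
    pd j (fun y => (f y : ℂ)) x = pr j f x :=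
  congrArg (fun T : V n →L[ℝ] ℂ => T (ee j))
    (Complex.ofRealCLM.hasFDerivAt.comp x hf.hasFDerivAt).fderiv

omit [NeZero n] in
theorem com_pd2 {f : V n → ℝ} {x : V n} (hf : ContDiffAt ℝ 2 f x) (j k : Fin n) :
    pd j (pd k fun y => (f y : ℂ)) x = pr j (pr k f) x := by
  have e : pd k (fun y => (f y : ℂ)) =ᶠ[𝓝 x] fun y => (pr k f y : ℂ) :=
    (hf.eventually (by simp)).mono fun y hy => com_pd (hy.differentiableAt two_ne_zero) k
  rw [(fb_pd_ev e j).eq_of_nhds]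
  exact com_pd (((hf.fderiv_right (m := 1) le_rfl).clm_apply contDiffAt_const).differentiableAt
    one_ne_zero) j

omit [DecidableEq ι] [NeZero n] in
theorem com_one {L : Op n ι} {u : Fam n ι} {ζ : V n → ℝ} {x : V n} {Z T : ℝ} (hL : L.Near 0 1)
    (hu : ∀ l, ContDiffAt ℝ 2 (u l) x) (hζ : ContDiffAt ℝ 2 ζ x) (z1 : ∀ j, |pr j ζ x| ≤ Z)
    (z2 : ∀ j k, |pr j (pr k ζ) x| ≤ Z) (hZ : 0 ≤ Z) (hT : 0 ≤ T) (u0 : ∀ l, ‖u l x‖ ^ 2 ≤ T)
    (u1 : ∀ l j, ‖pd j (u l) x‖ ^ 2 ≤ T) (l : ι) :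
    ‖L.ap (fun m y => ζ y * u m y) l x‖ ^ 2 ≤ 2 * ζ x ^ 2 * ‖L.ap u l x‖ ^ 2 +
      2 * ((3 * n ^ 2 + Fintype.card ι * n) * 2) ^ 2 * Z ^ 2 * T := by
  have h := ap_cut (L := L) (ζ := fun y => (ζ y : ℂ)) hu
    (Complex.ofRealCLM.contDiff.contDiffAt.comp x hζ) zero_le_two hZ
    (fun j k => by
      have := abs_le.1 (hL.g0 x j k)
      rw [abs_le]
      split_ifs at this <;> constructor <;> linarith [this.1, this.2])
    (fun j l m => ((hL.a j l m).norm_le (mem_univ x)).trans one_le_two)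
    (fun j => by simpa [com_pd (hζ.differentiableAt two_ne_zero)] using z1 j)
    (fun j k => by simpa [com_pd2 hζ] using z2 j k) (fun l => Real.le_sqrt_of_sq_le (u0 l))
    (fun l j => Real.le_sqrt_of_sq_le (u1 l j)) l
  have h1 := pow_le_pow_left₀ (norm_nonneg _) ((norm_le_insert' _ _).trans (add_le_add_right h _)) 2
  rw [norm_mul, Complex.norm_real, Real.norm_eq_abs] at h1
  generalize (3 * n ^ 2 + Fintype.card ι * n : ℝ) * 2 = c at h1 ⊢
  have h2 : (c * Z * √T) ^ 2 = c ^ 2 * Z ^ 2 * T := by rw [mul_pow, mul_pow, Real.sq_sqrt hT]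
  have h3 : (|ζ x| * ‖L.ap u l x‖) ^ 2 = ζ x ^ 2 * ‖L.ap u l x‖ ^ 2 := by rw [mul_pow, sq_abs]
  nlinarith [sq_nonneg (|ζ x| * ‖L.ap u l x‖ - c * Z * √T)]

theorem com : COM n ι := by
  refine ⟨2 * (Fintype.card ι * (Fintype.card ι *
    (2 * ((3 * n ^ 2 + Fintype.card ι * n) * 2) ^ 2))), by positivity,
    fun L Q ζ E p Z hL hQ hζ hE hD => ?_⟩
  have hZ : 0 ≤ Z := (abs_nonneg _).trans (hD.1 0)
  have cx : ContDiffAt ℝ ∞ (fun x : V n => (x, p.2)) p.1 := contDiffAt_id.prodMk contDiffAt_const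
  have cy : ContDiffAt ℝ ∞ (fun y : V n => (p.1, y)) p.2 := contDiffAt_const.prodMk contDiffAt_id
  have s : ∀ {F : ι → ι → ℝ}, (∀ l m, 0 ≤ F l m) → ∀ l m, F l m ≤ ∑ l, ∑ m, F l m := fun hF l m =>
    (Finset.single_le_sum (fun m _ => hF l m) (Finset.mem_univ m)).trans (Finset.single_le_sum
      (fun l _ => Finset.sum_nonneg fun m _ => hF l m) (Finset.mem_univ l))
  have k1 : ∀ l m, ‖E l m p.1 p.2‖ ^ 2 + ∑ j, ‖dx j E l m p.1 p.2‖ ^ 2 ≤ e1 E p :=
    s fun _ _ => by positivity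
  have k2 : ∀ l m, ∑ j, ‖dy j E l m p.1 p.2‖ ^ 2 ≤ ∑ l, ∑ m, ∑ j, ‖dy j E l m p.1 p.2‖ ^ 2 :=
    s fun _ _ => by positivity
  have k3 : 0 ≤ e1 E p := by
    unfold e1
    positivity
  have k4 : e1 E p ≤ e2 E p := le_add_of_nonneg_right (by positivity)
  have k5 : ∀ l m, ‖E l m p.1 p.2‖ ^ 2 ≤ e2 E p := fun l m =>
    ((le_add_of_nonneg_right (by positivity)).trans (k1 l m)).trans k4
  have hx := fun l m => com_one (u := fun l x => E l m x p.2) (ζ := fun x => ζ (x, p.2)) (x := p.1) hL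
    (fun l => (ContDiffAt.comp (g := fun z : V n × V n => E l m z.1 z.2) p.1 (hE l m) cx).of_le
      (BdC_le 2)) ((hζ.comp p.1 cx).of_le (BdC_le 2)) hD.1
    hD.2.2.1 hZ (k3.trans k4) (fun l => k5 l m) (fun l j => ((le_add_of_nonneg_of_le (sq_nonneg _)
      (Finset.single_le_sum (f := fun j => ‖dx j E l m p.1 p.2‖ ^ 2) (fun _ _ => sq_nonneg _)
        (Finset.mem_univ j))).trans (k1 l m)).trans k4) l
  have hy := fun l m => com_one (u := fun m y => E l m p.1 y) (ζ := fun y => ζ (p.1, y)) (x := p.2) hQ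
    (fun m => (ContDiffAt.comp (g := fun z : V n × V n => E l m z.1 z.2) p.2 (hE l m) cy).of_le
      (BdC_le 2)) ((hζ.comp p.2 cy).of_le (BdC_le 2)) hD.2.1
    hD.2.2.2 hZ (k3.trans k4) (fun m => k5 l m) (fun m j => ((Finset.single_le_sum
      (f := fun j => ‖dy j E l m p.1 p.2‖ ^ 2) (fun _ _ => sq_nonneg _)
        (Finset.mem_univ j)).trans (k2 l m)).trans (le_add_of_nonneg_left k3)) m
  refine (add_le_add (Finset.sum_le_sum fun l _ => Finset.sum_le_sum fun m _ => hx l m)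
    (Finset.sum_le_sum fun l _ => Finset.sum_le_sum fun m _ => hy l m)).trans (le_of_eq ?_)
  simp only [Finset.sum_add_distrib, Finset.sum_const, Finset.card_univ, nsmul_eq_mul,
    ← Finset.mul_sum, e0, apx, apy]
  ring

end Vale.Agent.P088F.Fw
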