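import Vale.Agent.P088F.FDefs

/-! P088F, part F: elementary geometry. -/

open scoped ContDiff Topology ENNReal
open Set Filter MeasureTheory Metric

noncomputable section

namespace Vale.Agent.P088F.Fw

open Vale.Agent.P292E

variable {n : ℕ} {ι : Type} [Fintype ι] [DecidableEq ι] [NeZero n]

theorem psi_lip {κ : ℝ} (h0 : 0 < κ) (h1 : κ ≤ 1 / 20) {x y : V n} (hx : ‖x‖ ≤ 2) (hy : ‖y‖ ≤ 2) :
    |psi κ x - psi κ y| ≤ 2 * ‖x - y‖ := by
  have a1 : |x 0 - y 0| ≤ ‖x - y‖ := by simpa using PiLp.norm_apply_le (x - y) 0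
  have a2 : |x 0 + y 0| ≤ 4 := by
    have b1 : |x 0| ≤ ‖x‖ := by simpa using PiLp.norm_apply_le x 0
    have b2 : |y 0| ≤ ‖y‖ := by simpa using PiLp.norm_apply_le y 0
    linarith [abs_add_le (x 0) (y 0)]
  have a3 := abs_norm_sub_norm_le x y
  have a4 : |‖x‖ + ‖y‖| ≤ 4 := by
    rw [abs_of_nonneg (by positivity)]
    linarith
  have a5 := abs_le.1 ((abs_mul _ _).trans_le (mul_le_mul a1 a2 (abs_nonneg _) (norm_nonneg _)))
  have a6 := abs_le.1 ((abs_mul _ _).trans_le (mul_le_mul a3 a4 (abs_nonneg _) (norm_nonneg _)))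
  have a7 : |κ * ((‖x‖ - ‖y‖) * (‖x‖ + ‖y‖) - 4 * ((x 0 - y 0) * (x 0 + y 0)))| ≤
      1 / 20 * (20 * ‖x - y‖) := by
    rw [abs_mul, abs_of_pos h0]
    exact mul_le_mul h1 (abs_le.2 ⟨by linarith [a5.2, a6.1], by linarith [a5.1, a6.2]⟩)
      (abs_nonneg _) (by norm_num)
  have e : psi κ x - psi κ y = (x 0 - y 0) +
      κ * ((‖x‖ - ‖y‖) * (‖x‖ + ‖y‖) - 4 * ((x 0 - y 0) * (x 0 + y 0))) := by
    unfold psi
    ring
  rw [e]
  linarith [abs_add_le (x 0 - y 0)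
    (κ * ((‖x‖ - ‖y‖) * (‖x‖ + ‖y‖) - 4 * ((x 0 - y 0) * (x 0 + y 0))))]

theorem psi_cap {κ a : ℝ} (h0 : 0 < κ) (h1 : κ ≤ 1 / 20) (ha : a ≤ κ / 4) {x : V n} (hx : ‖x‖ ≤ 2)
    (hx0 : 0 ≤ x 0) (hψ : psi κ x ≤ a) : ‖x‖ ≤ 3 / 5 := by
  have b1 : x 0 ≤ 2 := (le_abs_self _).trans
    ((by simpa using PiLp.norm_apply_le x 0 : |x 0| ≤ ‖x‖).trans hx)
  have b2 : κ * x 0 ≤ 1 / 20 * 2 := mul_le_mul h1 b1 hx0 (by norm_num)
  have b3 : κ * ‖x‖ ^ 2 ≤ κ * (1 / 4) := by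
    unfold psi at hψ
    nlinarith [mul_le_mul_of_nonneg_right b2 hx0]
  nlinarith [le_of_mul_le_mul_left b3 h0, norm_nonneg x]

theorem psi_sm (κ : ℝ) : ContDiff ℝ ∞ (psi κ : V n → ℝ) := by
  have h0 : ContDiff ℝ ∞ fun x : V n => x 0 := (EuclideanSpace.proj (0 : Fin n) : V n →L[ℝ] ℝ).contDiff
  exact h0.add (contDiff_const.mul ((contDiff_norm_sq ℝ).sub (contDiff_const.mul (h0.pow 2))))

theorem b_sm (P : Par) : ContDiff ℝ ∞ (P.b : V n → ℝ) := by
  exact contDiff_const.mul (contDiff_const.mul ((psi_sm P.κ).sub contDiff_const)).exp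

theorem b_le {P : Par} (hB : 0 < P.B) (hN : 0 ≤ P.N) {x : V n} (h : psi P.κ x ≤ P.a) :
    P.b x ≤ P.B := by
  exact mul_le_of_le_one_right hB.le
    (Real.exp_le_one_iff.2 (mul_nonpos_of_nonneg_of_nonpos hN (sub_nonpos.2 h)))

theorem le_b {P : Par} (hB : 0 < P.B) (hN : 0 < P.N) {x : V n}
    (h : P.a - 2 / P.N ≤ psi P.κ x) : P.B / 10 ≤ P.b x := by
  have h1 : -1 + -1 ≤ P.N * (psi P.κ x - P.a) := by
    have := mul_le_mul_of_nonneg_left h hN.le
    rw [mul_sub, mul_div_cancel₀ _ hN.ne'] at this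
    linarith
  have h2 := Real.exp_le_exp.2 h1
  rw [Real.exp_add] at h2
  have h3 : 1 / 10 ≤ Real.exp (P.N * (psi P.κ x - P.a)) := by
    nlinarith [Real.exp_neg_one_gt_d9]
  unfold Par.b
  nlinarith

theorem b_lip {P : Par} (h0 : 0 < P.κ) (h1 : P.κ ≤ 1 / 20) (hB : 0 < P.B) (hN : 0 ≤ P.N)
    {x y : V n} (hx : ‖x‖ ≤ 2) (hy : ‖y‖ ≤ 2) (h : P.N * ‖x - y‖ ≤ 1 / 50) :
    P.b y ≤ 11 / 10 * P.b x := by
  have h2 := mul_le_mul_of_nonneg_left ((neg_le_abs _).trans (psi_lip h0 h1 hx hy)) hN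
  have h3 : Real.exp (P.N * (psi P.κ y - P.a)) ≤
      Real.exp (1 / 25) * Real.exp (P.N * (psi P.κ x - P.a)) := by
    rw [← Real.exp_add]
    exact Real.exp_le_exp.2 (by linarith)
  have h4 : Real.exp (1 / 25) ≤ 11 / 10 := by
    have h5 := Real.add_one_le_exp (-(1 / 25))
    have h6 : Real.exp (1 / 25) * Real.exp (-(1 / 25)) = 1 := by rw [← Real.exp_add]; simp
    nlinarith [Real.exp_pos (1 / 25)]
  unfold Par.b
  rw [mul_left_comm]
  exact mul_le_mul_of_nonneg_left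
    (h3.trans (mul_le_mul_of_nonneg_right h4 (Real.exp_pos _).le)) hB.le

theorem ok_small {P : Par} {c : ℝ} (h : P.Ok 1 c) :
    √P.B ≤ c ∧ P.B ≤ c ^ 2 ∧ P.N * √P.B ≤ c ∧ P.N ^ 6 * P.B ≤ c ^ 2 ∧ P.N * P.B ≤ c ^ 2 := by
  have s0 := Real.sqrt_nonneg P.B
  have s1 := Real.sq_sqrt h.B0.le
  have n1 : P.N ≤ P.N ^ 3 := le_self_pow₀ h.N0 (by norm_num)
  have n2 : P.N ≤ P.N ^ 6 := le_self_pow₀ h.N0 (by norm_num)
  have a1 : P.N * √P.B ≤ c := by nlinarith [h.B1, mul_le_mul_of_nonneg_left n1 s0]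
  have a2 : √P.B ≤ c := (le_mul_of_one_le_left s0 h.N0).trans a1
  have a3 : P.N ^ 6 * P.B ≤ c ^ 2 := by
    have := pow_le_pow_left₀ (mul_nonneg s0 (pow_nonneg (zero_le_one.trans h.N0) 3)) h.B1 2
    rwa [mul_pow, s1, ← pow_mul, mul_comm] at this
  exact ⟨a2, s1.symm.trans_le (pow_le_pow_left₀ s0 a2 2), a1, a3,
    (mul_le_mul_of_nonneg_right n2 h.B0.le).trans a3⟩

theorem wq_eq {P : Par} (hB : 0 < P.B) (q : ℕ) (x : V n) :
    P.wq q x = Real.exp (-2 * (q * P.N) * (psi P.κ x - P.a)) := by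
  unfold Par.wq Par.b
  rw [div_mul_cancel_left₀ hB.ne', ← Real.exp_neg, ← Real.exp_nat_mul]
  congr 1
  push_cast
  ring

theorem one_le_wq {P : Par} (hB : 0 < P.B) (hN : 0 ≤ P.N) (q : ℕ) {x : V n}
    (h : psi P.κ x ≤ P.a) : 1 ≤ P.wq q x := by
  exact one_le_pow₀ ((one_le_div (Par.b_pos hB x)).2 (b_le hB hN h))

theorem wq_le {P : Par} (hB : 0 < P.B) (hN : 0 < P.N) (q : ℕ) {x : V n}
    (h : P.a - 2 / P.N ≤ psi P.κ x) : P.wq q x ≤ 10 ^ (2 * q) := by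
  exact pow_le_pow_left₀ (div_nonneg hB.le (Par.b_pos hB x).le)
    ((div_le_iff₀ (Par.b_pos hB x)).2 (by linarith [le_b hB hN h])) _

theorem new_open (P : Par) : IsOpen (P.new n) := by
  exact (isOpen_lt continuous_fst.norm continuous_const).inter
    ((isOpen_lt continuous_snd.norm continuous_const).inter
      ((isOpen_lt ((psi_sm P.κ).continuous.comp continuous_fst) continuous_const).inter
        (isOpen_lt (((b_sm P).continuous.comp continuous_fst).div_const 2)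
          (continuous_fst.sub continuous_snd).norm)))

theorem new_offd {P : Par} (hB : 0 < P.B) : P.new n ⊆ offd (ball (0 : V n) 30) := by
  rintro p ⟨h1, h2, -, h3⟩
  refine ⟨mem_ball_zero_iff.2 (by linarith), mem_ball_zero_iff.2 (by linarith), fun h => ?_⟩
  rw [h, sub_self, norm_zero] at h3
  linarith [Par.b_pos hB p.2]

theorem X_compact (P : Par) : IsCompact (P.fX n) := by
  exact (isCompact_closedBall (0 : V n) 1).of_isClosed_subset
    ((isClosed_le continuous_const (EuclideanSpace.proj (0 : Fin n) : V n →L[ℝ] ℝ).continuous).inter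
      ((isClosed_le continuous_norm continuous_const).inter
        (isClosed_le (psi_sm P.κ).continuous continuous_const)))
    fun x hx => mem_closedBall_zero_iff.2 hx.2.1

theorem Z_compact {P : Par} (hB : 0 < P.B) (hN : 0 < P.N) (h1 : P.B ≤ 1) :
    IsCompact (P.fZ n) ∧ P.fZ n ⊆ P.new n := by
  have k : ∀ p ∈ P.fZ n, psi P.κ p.1 < P.a ∧ ‖p.2‖ ≤ 10 := fun p hp => by
    have h2 : psi P.κ p.1 < P.a := hp.1.2.2.trans_lt (sub_lt_self _ (by positivity))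
    refine ⟨h2, ?_⟩
    linarith [b_le hB hN.le h2.le, hp.2.2, hp.1.2.1, norm_sub_norm_le p.2 p.1]
  have c := (b_sm (n := n) P).continuous.comp (continuous_fst (Y := V n))
  refine ⟨((X_compact P).prod (isCompact_closedBall (0 : V n) 10)).of_isClosed_subset
    (((X_compact P).isClosed.preimage continuous_fst).inter
      ((isClosed_le (continuous_const.mul c) (continuous_snd.sub continuous_fst).norm).inter
        (isClosed_le (continuous_snd.sub continuous_fst).norm (continuous_const.mul c))))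
    fun p hp => ⟨hp.1, mem_closedBall_zero_iff.2 (k p hp).2⟩, fun p hp =>
      ⟨hp.1.2.1.trans_lt one_lt_two, (k p hp).2.trans_lt (by norm_num), (k p hp).1, ?_⟩⟩
  rw [norm_sub_rev]
  linarith [hp.2.1, Par.b_pos hB p.1]

theorem Yf_compact : IsCompact (Yf n) := by
  exact (isCompact_closedBall (0 : V n) 12).of_isClosed_subset
    ((isClosed_le continuous_const continuous_norm).inter
      (isClosed_le continuous_norm continuous_const)) fun x hx => mem_closedBall_zero_iff.2 hx.2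

theorem far_new {P : Par} (hB : 0 < P.B) (hN : 0 ≤ P.N) (h1 : P.B ≤ 1) {x y : V n}
    (hx : ‖x‖ < 2) (hψ : psi P.κ x < P.a) (hy : y ∈ Yf n) : (x, y) ∈ P.new n := by
  refine ⟨hx, hy.2.trans_lt (by norm_num), hψ, ?_⟩
  show P.b x / 2 < ‖x - y‖
  rw [norm_sub_rev]
  linarith [b_le hB hN hψ.le, hy.1, norm_sub_norm_le y x]

theorem St.mono {P : Par} {d : Dat n ι} {W : Kr n ι} {K K' c₀ p p' : ℕ} {ε ε' c c' N₀ N₁ Λ A : ℝ}
    (h : St P d W K ε c N₀ c₀ p Λ A) (hK : K' ≤ K) (hε : ε ≤ ε') (hc : c ≤ c') (hN : N₁ ≤ N₀)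
    (hp : p' ≤ p) (h1 : 1 ≤ N₀) (h2 : c ≤ 1) : St P d W K' ε' c' N₁ c₀ p' Λ A := by
  have k := ok_small (h.ok.mono h1 le_rfl)
  have h3 : P.B ≤ 1 := k.2.1.trans (pow_le_one₀ ((Real.sqrt_nonneg _).trans k.1) h2)
  exact ⟨h.ok.mono hN hc, h.dok.mono hK hε le_rfl, fun x hx hψ => (h.h x hx hψ).mono
    (pow_le_pow_of_le_one (Par.b_pos h.ok.B0 x).le
      ((b_le h.ok.B0 (zero_le_one.trans (h1.trans h.ok.N0)) hψ.le).trans h3) hp), h.ext, h.top, h.A0⟩

end Vale.Agent.P088F.Fw
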