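import Vale.Agent.P088F.FDx
import Vale.Agent.P088F.FGeo
import Vale.Agent.P088F.FBas

/-! P088F, part F: the estimate after cutting off. -/

open scoped ContDiff Topology ENNReal
open Set Filter MeasureTheory Metric

noncomputable section

namespace Vale.Agent.P088F.Fw

open Vale.Agent.P292E

variable {n : ℕ} {ι : Type} [Fintype ι] [DecidableEq ι] [NeZero n]

theorem wt_nn (M : ℝ) (J : ℕ) (s : ℝ) : 0 ≤ wt M J s :=
  mul_nonneg (Real.exp_pos _).le (by rw [pow_mul]; positivity)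

theorem wt_low {M s : ℝ} (J : ℕ) (hM : 0 ≤ M) (hs : 1 ≤ s) : (1 / 2) ^ (2 * J) ≤ wt M J s := by
  have h1 : 1 ≤ Real.exp (2 * M * s) := Real.one_le_exp (by positivity)
  have h2 : (1 / 2 : ℝ) ≤ s / (1 + s) := by
    rw [le_div_iff₀ (by linarith)]
    linarith
  exact (pow_le_pow_left₀ (by norm_num) h2 _).trans (le_mul_of_one_le_left (by positivity) h1)

theorem wt_up {M s T : ℝ} (J : ℕ) {q : ℕ} (hq : 2 * M ≤ q) (hs : 0 ≤ s) (hT : Real.exp s ≤ T) :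
    wt M J s ≤ T ^ q := by
  have h1 : (s / (1 + s)) ^ (2 * J) ≤ 1 :=
    pow_le_one₀ (by positivity) (div_le_one_of_le₀ (by linarith) (by positivity))
  refine (mul_le_of_le_one_right (Real.exp_pos _).le h1).trans ?_
  refine (Real.exp_le_exp.2 (mul_le_mul_of_nonneg_right hq hs)).trans ?_
  rw [Real.exp_nat_mul]
  exact pow_le_pow_left₀ (Real.exp_pos _).le hT _

theorem wt_small {M s δ : ℝ} {J : ℕ} (hM : 0 ≤ M) (hJ : 3 ≤ J) (hs : 0 ≤ s) (h : s ≤ 2 * δ)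
    (hδ : δ ≤ 1 / 4) : wt M J s ≤ Real.exp M * (2 * δ) ^ 6 := by
  have h1 : s / (1 + s) ≤ 2 * δ := (div_le_self hs (by linarith)).trans h
  refine mul_le_mul (Real.exp_le_exp.2 (by nlinarith)) ?_ (by positivity) (Real.exp_pos _).le
  exact (pow_le_pow_left₀ (by positivity) h1 _).trans
    (pow_le_pow_of_le_one (by linarith) (by linarith) (by omega))

theorem wt_cont (M : ℝ) (J : ℕ) : ContinuousOn (wt M J) (Ioi 0) :=
  (by fun_prop : Continuous fun s => Real.exp (2 * M * s)).continuousOn.mul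
    ((continuousOn_id.div (by fun_prop) fun s hs => by
      have : (0 : ℝ) < s := hs
      positivity).pow _)

omit [NeZero n] in
theorem cut_meas {X : Set (V n)} (hX : MeasurableSet X) {g : V n × V n → ℝ} {a c : ℝ≥0∞}
    (hc : c ≠ ⊤) {H : V n → ℝ≥0∞} (h0 : ∀ p, 0 ≤ g p)
    (hg : ∀ p, ENNReal.ofReal (g p) ≤ (closedBall 0 2).indicator (fun _ => a) p +
      (X ×ˢ closedBall (0 : V n) 2).indicator (fun p => c * H p.1) p) :
    ENNReal.ofReal (∫ p, g p) ≤ a * volume (closedBall (0 : V n × V n) 2) +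
      c * volume (closedBall (0 : V n) 2) * ∫⁻ x in X, H x := by
  have h1 : ENNReal.ofReal (∫ p, g p) ≤ ∫⁻ p, ENNReal.ofReal (g p) := by
    by_cases hi : Integrable g
    · exact (ofReal_integral_eq_lintegral_ofReal hi (.of_forall h0)).le
    · simp [integral_undef hi]
  refine h1.trans ((lintegral_mono hg).trans ?_)
  rw [lintegral_add_left (measurable_const.indicator measurableSet_closedBall),
    lintegral_indicator measurableSet_closedBall, setLIntegral_const]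
  gcongr
  rw [Measure.volume_eq_prod]
  refine (lintegral_prod_le _).trans (le_of_eq ?_)
  have hv : volume (closedBall (0 : V n) 2) ≠ ⊤ := (isCompact_closedBall _ _).measure_lt_top.ne
  rw [← lintegral_const_mul' _ _ (ENNReal.mul_ne_top hc hv), ← lintegral_indicator hX]
  refine lintegral_congr fun x => ?_
  by_cases hx : x ∈ X
  · rw [indicator_of_mem hx, mul_right_comm, ← setLIntegral_const,
      ← lintegral_indicator measurableSet_closedBall]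
    refine lintegral_congr fun y => ?_
    by_cases hy : y ∈ closedBall (0 : V n) 2
    · rw [indicator_of_mem hy, indicator_of_mem (mk_mem_prod hx hy)]
    · rw [indicator_of_notMem hy, indicator_of_notMem fun h => hy h.2]
  · rw [indicator_of_notMem hx]
    exact (lintegral_congr fun y => indicator_of_notMem (fun h => hx h.1) _).trans lintegral_zero

/-- the support zone -/
def cK (P : Par) (n : ℕ) [NeZero n] : Set (V n × V n) :=
  {p | 0 ≤ p.1 0 ∧ ‖p.1‖ ≤ 1 ∧ psi P.κ p.1 ≤ P.a - 1 / P.N ∧ 7 / 10 * P.b p.1 ≤ ‖p.1 - p.2‖ ∧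
    ‖p.1 - p.2‖ ≤ 2 * √P.B}

theorem cK_ball {P : Par} (h : √P.B ≤ 1 / 10) : cK P n ⊆ closedBall 0 2 := fun p hp => by
  have h1 := norm_sub_norm_le p.2 p.1
  rw [norm_sub_rev] at h1
  rw [mem_closedBall_zero_iff, Prod.norm_def]
  exact max_le (by linarith [hp.2.1]) (by linarith [hp.2.1, hp.2.2.2.2])

theorem cK_compact {P : Par} (h : √P.B ≤ 1 / 10) : IsCompact (cK P n) := by
  have h1 := (psi_sm (n := n) P.κ).continuous
  have h2 := (b_sm (n := n) P).continuous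
  refine (isCompact_closedBall 0 2).of_isClosed_subset ?_ (cK_ball h)
  unfold cK
  simp only [setOf_and]
  refine IsClosed.inter ?_ (IsClosed.inter ?_ (IsClosed.inter ?_ (IsClosed.inter ?_ ?_))) <;>
    exact isClosed_le (by fun_prop) (by fun_prop)

theorem cK_new {P : Par} (hB : 0 < P.B) (hN : 0 < P.N) (h : √P.B ≤ 1 / 10) :
    cK P n ⊆ P.new n := fun p hp => by
  have h1 := cK_ball h hp
  rw [mem_closedBall_zero_iff, Prod.norm_def, max_le_iff] at h1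
  have h2 := Par.b_pos hB p.1
  have h3 : 0 < 1 / P.N := by positivity
  exact ⟨by linarith [hp.2.1], by linarith [h1.2], by linarith [hp.2.2.1],
    by linarith [hp.2.2.2.1]⟩

omit [DecidableEq ι] [NeZero n] in
theorem cut_zero (L : Op n ι) (p : V n × V n) : e1 (fun (_ _ : ι) (_ _ : V n) => (0 : ℂ)) p = 0 ∧
    e0 (apx L fun _ _ _ _ => 0) p = 0 ∧ e0 (apy L fun _ _ _ _ => 0) p = 0 := by
  simp [e1, e0, dx, apx, apy, Op.ap, fb_pd_zero]

theorem cut_pt {P : Par} {L Q : Op n ι} {E v : Kr n ι} {ζ Θ : V n × V n → ℝ} {p : V n × V n}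
    {M A S R C Z Z' δ u : ℝ} {J q : ℕ} (hB : 0 < P.B) (hN : 0 < P.N) (hM : 0 ≤ M) (hJ : 3 ≤ J)
    (h0 : 0 < δ) (h1 : δ ≤ 1 / 4) (C0 : 0 ≤ C) (A0 : 0 ≤ A) (S0 : 0 ≤ S) (u0 : 0 ≤ u)
    (hp : p ∈ cK P n) (hδ : δ ≤ Θ p) (hΘ : ContDiffAt ℝ ∞ Θ p) (hζ : ContDiff ℝ ∞ ζ)
    (z0 : 0 ≤ ζ p ∧ ζ p ≤ 1)
    (z1 : psi P.κ p.1 ≤ P.a - 3 / (2 * P.N) → ‖p.1 - p.2‖ ≤ √P.B → ζ =ᶠ[𝓝 p] fun _ => 1)
    (z2 : D2 ζ p Z) (z3 : D2 (fun z => ζ z * Real.smoothTransition (Θ z / δ - 1)) p Z')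
    (cm : ∀ (ξ : V n × V n → ℝ) (Z : ℝ), ContDiffAt ℝ ∞ ξ p → D2 ξ p Z →
      e0 (apx L (mk ξ E)) p + e0 (apy Q (mk ξ E)) p ≤
        2 * ξ p ^ 2 * (e0 (apx L E) p + e0 (apy Q E) p) + C * Z ^ 2 * e2 E p)
    (hv : ∀ l m, (fun z : V n × V n => v l m z.1 z.2) =ᶠ[𝓝 p] fun z =>
      mk (fun z => ζ z * Real.smoothTransition (Θ z / δ - 1)) E l m z.1 z.2)
    (hw : wt M J (Θ p) ≤ u * P.wq q p.1) (hy : e0 (apy Q E) p = 0)
    (hS : P.wq q p.1 * e0 (apx L E) p ≤ S) (hA : p.1 ∈ P.fT n → e2 E p ≤ A) (hR : e2 E p ≤ R) :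
    ∃ t, wt M J (Θ p) * (e0 (apx L v) p + e0 (apy Q v) p) ≤ 2 * u * S +
      u * 10 ^ (2 * q) * (C * Z ^ 2) * A + Real.exp M * (2 * δ) ^ 6 * (C * Z' ^ 2 * R) + t ∧
      (t = 0 ∨ p.1 ∈ P.fX n ∧ √P.B ≤ ‖p.1 - p.2‖ ∧ t = u * (C * Z ^ 2) * (P.wq q p.1 * e2 E p)) := by
  have w0 := wt_nn M J (Θ p)
  have x0 := (e_nonneg (apx L E) p).1
  have y0 : 0 ≤ e2 E p := ((e_nonneg E p).1.trans (e_nonneg E p).2.1).trans (e_nonneg E p).2.2
  have R0 := y0.trans hR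
  have k0 : wt M J (Θ p) * e0 (apx L E) p ≤ u * S := (mul_le_mul_of_nonneg_right hw x0).trans
    ((mul_assoc _ _ _).trans_le (mul_le_mul_of_nonneg_left hS u0))
  have k1 : ∀ (ξ : V n × V n → ℝ) (Z : ℝ), ContDiffAt ℝ ∞ ξ p → D2 ξ p Z → 0 ≤ ξ p → ξ p ≤ 1 →
      wt M J (Θ p) * (e0 (apx L (mk ξ E)) p + e0 (apy Q (mk ξ E)) p) ≤
        2 * u * S + wt M J (Θ p) * (C * Z ^ 2 * e2 E p) := fun ξ Z a1 a2 a3 a4 => by
    have a5 := cm ξ Z a1 a2
    rw [hy, add_zero] at a5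
    have a6 := mul_le_mul_of_nonneg_right (pow_le_one₀ (n := 2) a3 a4) x0
    nlinarith [mul_le_mul_of_nonneg_left a5 w0, mul_le_mul_of_nonneg_left a6 w0]
  have p1 : 0 ≤ u * 10 ^ (2 * q) * (C * Z ^ 2) * A := by positivity
  have p2 : 0 ≤ Real.exp M * (2 * δ) ^ 6 * (C * Z' ^ 2 * R) := by positivity
  have p3 : 0 ≤ u * S := by positivity
  rw [(e_congr L hv).2.1, (e_congr Q hv).2.2]
  rcases le_or_gt (Θ p) (2 * δ) with h2 | h2
  · refine ⟨0, (k1 _ _ (hζ.contDiffAt.mul (Real.smoothTransition.contDiff.contDiffAt.comp p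
      ((hΘ.div_const δ).sub contDiffAt_const))) z3 (mul_nonneg z0.1
        (Real.smoothTransition.nonneg _)) (mul_le_one₀ z0.2 (Real.smoothTransition.nonneg _)
          (Real.smoothTransition.le_one _))).trans ?_, Or.inl rfl⟩
    have := mul_le_mul (wt_small hM hJ (h0.le.trans hδ) h2 h1)
      (mul_le_mul_of_nonneg_left hR (show 0 ≤ C * Z' ^ 2 by positivity)) (by positivity)
      (by positivity)
    linarith
  have e : ∀ l m, (fun z : V n × V n => mk (fun z => ζ z * Real.smoothTransition (Θ z / δ - 1)) E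
      l m z.1 z.2) =ᶠ[𝓝 p] fun z => mk ζ E l m z.1 z.2 := fun l m => by
    filter_upwards [hΘ.continuousAt.eventually (lt_mem_nhds h2)] with z hz
    have : 1 ≤ Θ z / δ - 1 := by
      rw [le_sub_iff_add_le, le_div_iff₀ h0]
      linarith
    simp only [mk, Real.smoothTransition.one_of_one_le this, mul_one]
  rw [(e_congr L e).2.1, (e_congr Q e).2.2]
  have k2 := k1 ζ Z hζ.contDiffAt z2 z0.1 z0.2
  have k3 := mul_le_mul_of_nonneg_right hw (show 0 ≤ C * Z ^ 2 * e2 E p by positivity)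
  rcases le_or_gt (P.a - 3 / (2 * P.N)) (psi P.κ p.1) with h3 | h3
  · refine ⟨0, k2.trans ?_, Or.inl rfl⟩
    have h4 : 3 / (2 * P.N) ≤ 2 / P.N := by
      rw [div_le_div_iff₀ (by positivity) hN]
      linarith
    have := mul_le_mul (mul_le_mul_of_nonneg_left (wq_le hB hN q (x := p.1) (by linarith)) u0)
      (mul_le_mul_of_nonneg_left (hA ⟨hp.1, hp.2.1, h3, hp.2.2.1⟩)
        (show 0 ≤ C * Z ^ 2 by positivity)) (by positivity) (by positivity)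
    linarith
  rcases le_or_gt ‖p.1 - p.2‖ √P.B with h4 | h4
  · have e' : ∀ l m, (fun z : V n × V n => mk ζ E l m z.1 z.2) =ᶠ[𝓝 p] fun z => E l m z.1 z.2 :=
      fun l m => (z1 h3.le h4).mono fun z hz => by simp [mk, show ζ (z.1, z.2) = 1 from hz]
    rw [(e_congr L e').2.1, (e_congr Q e').2.2, hy, add_zero]
    exact ⟨0, by linarith, Or.inl rfl⟩
  exact ⟨_, by linarith, Or.inr ⟨⟨hp.1, hp.2.1, h3.le⟩, h4.le, rfl⟩⟩

theorem cut_lim {I X : ℝ≥0∞} {c : ℝ} (hc : 0 ≤ c)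
    (h : ∀ δ : ℝ, 0 < δ → δ ≤ 1 / 4 → I ≤ X + ENNReal.ofReal (c * δ ^ 2)) : I ≤ X := by
  refine ENNReal.le_of_forall_pos_le_add fun ε hε _ => ?_
  have e0 : (0 : ℝ) < ε := hε
  refine (h (min (1 / 4) (ε / (c + 1))) (by positivity) (min_le_left _ _)).trans
    (add_le_add_right (ENNReal.ofReal_le_coe.2 ?_) _)
  have h1 := (le_div_iff₀ (by positivity)).1 (min_le_right (1 / 4) (ε / (c + 1)))
  have h2 := min_le_left (1 / 4) (ε / (c + 1))
  have h3 : 0 < min (1 / 4) (ε / (c + 1)) := by positivity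
  generalize min (1 / 4) (ε / (c + 1)) = t at *
  nlinarith [mul_nonneg hc h3.le]

theorem cut_num {I H V₁ V₂ : ℝ≥0∞} {a b k c c' r T x y V d : ℝ} (a0 : 0 ≤ a) (b0 : 0 ≤ b)
    (k0 : 0 ≤ k) (T0 : 0 ≤ T) (V0 : 0 ≤ V) (d0 : 0 ≤ d) (v1 : V₁ ≤ ENNReal.ofReal V)
    (v2 : V₂ ≤ ENNReal.ofReal V) (h1 : I ≤ ENNReal.ofReal a * ENNReal.ofReal x) (h2 : x ≤ b * y)
    (h3 : ENNReal.ofReal y ≤ ENNReal.ofReal r * V₁ + ENNReal.ofReal c * V₂ * H)
    (hr : r ≤ k * T + d) (hc : c ≤ k) (hk : a * b * V * k ≤ c') :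
    I ≤ ENNReal.ofReal c' * (ENNReal.ofReal T + H) + ENNReal.ofReal (a * b * V * d) := by
  refine h1.trans ((mul_le_mul_right ((ENNReal.ofReal_le_ofReal h2).trans_eq
    (ENNReal.ofReal_mul b0)) _).trans ((mul_le_mul_right (mul_le_mul_right (h3.trans (add_le_add
      (mul_le_mul' (ENNReal.ofReal_le_ofReal hr) v1) (mul_le_mul_left (mul_le_mul'
        (ENNReal.ofReal_le_ofReal hc) v2) _))) _) _).trans (le_trans (le_of_eq ?_)
          (add_le_add_left (mul_le_mul_left (ENNReal.ofReal_le_ofReal hk) _) _))))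
  rw [ENNReal.ofReal_add (by positivity) d0, ENNReal.ofReal_mul k0,
    ENNReal.ofReal_mul (q := k) (by positivity), ENNReal.ofReal_mul (q := d) (by positivity),
    ENNReal.ofReal_mul (q := V) (by positivity), ENNReal.ofReal_mul a0]
  ring

theorem cut_w {P : Par} {M s r : ℝ} (J : ℕ) {q : ℕ} (hq : 2 * M ≤ q) (hB : 0 < P.B) {x : V n}
    (hs : 0 ≤ s) (h0 : 0 ≤ r) (hr : r ≤ 2 * √P.B) (h : Real.exp s ≤ 2 * r ^ 2 / P.b x ^ 2) :
    wt M J s ≤ 8 ^ q / P.B ^ q * P.wq q x := by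
  have := Par.b_pos hB x
  refine (wt_up J hq hs (h.trans (show _ ≤ 8 / P.B * (P.B / P.b x) ^ 2 from ?_))).trans_eq ?_
  · rw [show 8 / P.B * (P.B / P.b x) ^ 2 = 8 * P.B / P.b x ^ 2 by field_simp]
    exact div_le_div_of_nonneg_right
      (by nlinarith [pow_le_pow_left₀ h0 hr 2, Real.sq_sqrt hB.le]) (sq_nonneg _)
  · rw [mul_pow, div_pow, ← pow_mul, Par.wq]

theorem cut_alg {B C Co A S : ℝ} {q : ℕ} (B0 : 0 < B) (B1 : B ≤ 1) (C0 : 0 ≤ C) (A0 : 0 ≤ A)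
    (S0 : 0 ≤ S) : 2 * (8 ^ q / B ^ q) * S + 8 ^ q / B ^ q * 10 ^ (2 * q) * (C * (Co / B) ^ 2) * A ≤
      8 ^ q / B ^ (q + 2) * (2 + 10 ^ (2 * q) * (C * Co ^ 2)) * (A + S) ∧
      8 ^ q / B ^ q * (C * (Co / B) ^ 2) ≤
        8 ^ q / B ^ (q + 2) * (2 + 10 ^ (2 * q) * (C * Co ^ 2)) := by
  have u1 : 8 ^ q / B ^ q ≤ 8 ^ q / B ^ (q + 2) := div_le_div_of_nonneg_left (by positivity)
    (by positivity) (pow_le_pow_of_le_one B0.le B1 (by omega))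
  have u2 : 8 ^ q / B ^ q * (C * (Co / B) ^ 2) = 8 ^ q / B ^ (q + 2) * (C * Co ^ 2) := by
    rw [pow_add]
    field_simp
  have u3 : (1 : ℝ) ≤ 10 ^ (2 * q) := one_le_pow₀ (by norm_num)
  have u4 : 0 ≤ 8 ^ q / B ^ (q + 2) := by positivity
  have u5 : 0 ≤ C * Co ^ 2 := by positivity
  rw [mul_right_comm (8 ^ q / B ^ q), u2]
  constructor
  · nlinarith [mul_le_mul_of_nonneg_right u1 S0, mul_nonneg u4 A0,
      mul_nonneg (mul_nonneg (mul_nonneg u4 u5) (zero_le_one.trans u3)) S0]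
  · nlinarith [mul_le_mul_of_nonneg_left u3 (mul_nonneg u4 u5)]

/-- the comparison of the phase with the distance -/
def Cmp (P : Par) (Θ : V n × V n → ℝ) : Prop :=
  ∀ x y : V n, ‖x‖ ≤ 1 → x ≠ y → ‖x - y‖ ≤ 3 * √P.B →
    Real.exp (Θ (x, y)) ≤ 2 * ‖x - y‖ ^ 2 / P.b x ^ 2 ∧
      ‖x - y‖ ^ 2 / (2 * P.b x ^ 2) ≤ Real.exp (Θ (x, y))

theorem cut_in {P : Par} {Θ : V n × V n → ℝ} (κ0 : 0 < P.κ) (κ2 : P.κ ≤ 1 / 20) (B0 : 0 < P.B)
    (ha : P.a ≤ P.κ / 4) (t2 : Cmp P Θ) {z : V n × V n} (hz : z ∈ P.new n) (a2 : 0 ≤ z.1 0)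
    (a3 : psi P.κ z.1 ≤ P.a - 1 / P.N ∧ ‖z.1 - z.2‖ ≤ 2 * √P.B) (a5 : 0 ≤ Θ z) : z ∈ cK P n := by
  have a6 : ‖z.1‖ ≤ 1 := (psi_cap κ0 κ2 ha hz.1.le a2 hz.2.2.1.le).trans (by norm_num)
  have a7 := (Real.one_le_exp a5).trans (t2 z.1 z.2 a6 (new_offd B0 hz).2.2
    (by linarith [a3.2, Real.sqrt_nonneg P.B])).1
  rw [one_le_div (pow_pos (Par.b_pos B0 _) 2)] at a7
  exact ⟨a2, a6, a3.1, abs_le_of_sq_le_sq' (by nlinarith [sq_nonneg (P.b z.1)])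
    (norm_nonneg _) |>.2, a3.2⟩

theorem cut_Z {P : Par} {Θ : V n × V n → ℝ} (B0 : 0 < P.B) (N0 : 0 < P.N) (r1 : √P.B ≤ 1 / 10)
    (t2 : Cmp P Θ) {p : V n × V n} (hp : p ∈ P.fZ n) (hn : p ∈ P.new n) :
    ‖p.1 - p.2‖ ≤ √P.B ∧ 1 < Θ p := by
  have r0 := Real.sqrt_nonneg P.B
  have bp := Par.b_pos B0 p.1
  have a1 : ‖p.1 - p.2‖ ≤ √P.B := by
    have := b_le B0 N0.le (hp.1.2.2.trans (sub_le_self _ (by positivity)))
    rw [norm_sub_rev]
    nlinarith [hp.2.2, Real.sq_sqrt B0.le]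
  refine ⟨a1, Real.exp_lt_exp.1 ((Real.exp_one_lt_d9.trans_le ?_).trans_le
    (t2 p.1 p.2 hp.1.2.1 (new_offd B0 hn).2.2 (by linarith)).2)⟩
  rw [le_div_iff₀ (mul_pos two_pos (pow_pos bp 2)), norm_sub_rev]
  nlinarith [pow_le_pow_left₀ (mul_pos three_pos bp).le hp.2.1 2, sq_nonneg (P.b p.1)]

theorem cut_del {P : Par} {L Q : Op n ι} {E : Kr n ι} {ζ Θ : V n × V n → ℝ} {H : V n → ℝ≥0∞}
    {M A S R C C₀ Co Ci U δ : ℝ} {J q : ℕ} (κ0 : 0 < P.κ) (κ2 : P.κ ≤ 1 / 20) (B0 : 0 < P.B)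
    (ha : P.a ≤ P.κ / 4) (N0 : 0 < P.N) (r1 : √P.B ≤ 1 / 10) (M0 : 0 ≤ M) (J3 : 3 ≤ J)
    (hq : 2 * M ≤ q) (d0 : 0 < δ) (d1 : δ ≤ 1 / 4) (C0 : 0 ≤ C) (A0 : 0 ≤ A) (S0 : 0 ≤ S)
    (V0 : 0 ≤ U) (vo1 : volume (closedBall (0 : V n × V n) 2) ≤ .ofReal U)
    (vo2 : volume (closedBall (0 : V n) 2) ≤ .ofReal U) (t3 : ContDiffOn ℝ ∞ Θ (P.new n))
    (t2 : Cmp P Θ) (z1 : ContDiff ℝ ∞ ζ) (z2 : ∀ p, 0 ≤ ζ p ∧ ζ p ≤ 1)
    (z3 : ∀ p, ζ p ≠ 0 → psi P.κ p.1 ≤ P.a - 1 / P.N ∧ ‖p.1 - p.2‖ ≤ 2 * √P.B)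
    (z4 : ∀ p : V n × V n, psi P.κ p.1 ≤ P.a - 3 / (2 * P.N) → ‖p.1 - p.2‖ ≤ √P.B →
      ζ =ᶠ[𝓝 p] fun _ => 1) (z5 : ∀ p : V n × V n, ‖p.1‖ ≤ 1 → D2 ζ p (Co / P.B))
    (c2 : ∀ p ∈ cK P n, D2 (fun z => ζ z * Real.smoothTransition (Θ z / δ - 1)) p (Ci / δ ^ 2))
    (cm : ∀ p ∈ P.new n, ∀ (ξ : V n × V n → ℝ) (Z : ℝ), ContDiffAt ℝ ∞ ξ p → D2 ξ p Z →
      e0 (apx L (mk ξ E)) p + e0 (apy Q (mk ξ E)) p ≤
        2 * ξ p ^ 2 * (e0 (apx L E) p + e0 (apy Q E) p) + C * Z ^ 2 * e2 E p)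
    (hE : SolY Q (P.new n) E) (E0 : ∀ p ∈ P.new n, p.1 0 < 0 → ∀ l m, E l m p.1 p.2 = 0)
    (hS : ∀ p ∈ P.new n, 0 ≤ p.1 0 → ‖p.1 - p.2‖ ≤ 2 * √P.B → P.wq q p.1 * e0 (apx L E) p ≤ S)
    (hA : ∀ p : V n × V n, p.1 ∈ P.fT n → 7 / 10 * P.b p.1 ≤ ‖p.1 - p.2‖ →
      ‖p.1 - p.2‖ ≤ 2 * √P.B → e2 E p ≤ A)
    (hh : ∀ p : V n × V n, p.1 ∈ P.fX n → √P.B ≤ ‖p.1 - p.2‖ → ‖p.1 - p.2‖ ≤ 2 * √P.B →
      ENNReal.ofReal (e2 E p) ≤ H p.1) (R0 : 0 ≤ R) (hR : ∀ p ∈ cK P n, e2 E p ≤ R)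
    (h : ∀ v : Kr n ι, (∀ l m, ContDiff ℝ ∞ (fun p : V n × V n => v l m p.1 p.2) ∧
      HasCompactSupport (fun p : V n × V n => v l m p.1 p.2) ∧
      tsupport (fun p : V n × V n => v l m p.1 p.2) ⊆ cK P n ∩ Θ ⁻¹' Ici δ) →
      ∫ p, wt M J (Θ p) * e1 v p ≤ C₀ * ∫ p, wt M J (Θ p) * (e0 (apx L v) p + e0 (apy Q v) p)) :
    ∫⁻ p in P.fZ n, ENNReal.ofReal (e1 E p) ≤ ENNReal.ofReal
      (2 ^ (2 * J) * |C₀| * U * (8 ^ q * (2 + 10 ^ (2 * q) * (C * Co ^ 2))) / P.B ^ (q + 2)) *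
      (ENNReal.ofReal (A + S) + ∫⁻ x in P.fX n, ENNReal.ofReal (P.wq q x) * H x) + ENNReal.ofReal
        (2 ^ (2 * J) * |C₀| * U * (Real.exp M * 2 ^ 6 * (C * Ci ^ 2 * R)) * δ ^ 2) := by
  have B1 : P.B ≤ 1 := by nlinarith [Real.sq_sqrt B0.le, Real.sqrt_nonneg P.B]
  have oN := new_open (n := n) P
  have cc := cK_compact (n := n) r1
  have cn := cK_new (n := n) B0 N0 r1
  set Kd := cK P n ∩ Θ ⁻¹' Ici δ
  have cd : IsCompact Kd := cc.of_isClosed_subset ((t3.continuousOn.mono cn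
    ).preimage_isClosed_of_isClosed cc.isClosed isClosed_Ici) inter_subset_left
  set ξ : V n × V n → ℝ := fun z => ζ z * Real.smoothTransition (Θ z / δ - 1)
  have sξ : ContDiffOn ℝ ∞ ξ (P.new n) := z1.contDiffOn.mul
    (Real.smoothTransition.contDiff.comp_contDiffOn ((t3.div_const δ).sub contDiffOn_const))
  set v : Kr n ι := fun l m x y =>
    (P.new n).indicator (fun z : V n × V n => mk ξ E l m z.1 z.2) (x, y)
  have hv := fun l m => tst_ind (f := fun z : V n × V n => mk ξ E l m z.1 z.2) oN cd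
    (inter_subset_left.trans cn) ((Complex.ofRealCLM.contDiff.comp_contDiffOn sξ).mul (hE.sm l m))
    fun z hz hK => by
      by_contra h0
      have a1 : ξ z ≠ 0 := fun e => left_ne_zero_of_mul h0 (congrArg Complex.ofReal e)
      have a5 : δ < Θ z := by
        have := lt_of_not_ge fun e =>
          right_ne_zero_of_mul a1 (Real.smoothTransition.zero_of_nonpos e)
        rwa [sub_pos, one_lt_div d0] at this
      exact hK ⟨cut_in κ0 κ2 B0 ha t2 hz (le_of_not_gt fun e => right_ne_zero_of_mul h0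
        (E0 z hz e l m)) (z3 z (left_ne_zero_of_mul a1)) (d0.trans a5).le, a5.le⟩
  have v0 : ∀ p ∉ Kd, ∀ l m, (fun z : V n × V n => v l m z.1 z.2) =ᶠ[𝓝 p] fun _ => 0 :=
    fun p hp l m => notMem_tsupport_iff_eventuallyEq.1 fun h => hp ((hv l m).2.2 h)
  have v1 : ∀ p ∈ P.new n, ∀ l m, (fun z : V n × V n => v l m z.1 z.2) =ᶠ[𝓝 p]
      fun z => mk ξ E l m z.1 z.2 := fun p hp l m =>
    Filter.mem_of_superset (oN.mem_nhds hp) fun y hy => indicator_of_mem hy _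
  have main := h v hv
  have sv : SmK univ v := fun l m => (hv l m).1.contDiffOn
  clear_value v
  have g0 : ∀ p, 0 ≤ wt M J (Θ p) * (e0 (apx L v) p + e0 (apy Q v) p) := fun p =>
    mul_nonneg (wt_nn _ _ _) (add_nonneg (e_nonneg _ p).1 (e_nonneg _ p).1)
  have f0 : ∀ p, 0 ≤ e1 v p := fun p => (e_nonneg _ p).1.trans (e_nonneg _ p).2.1
  have i1 : Integrable fun p => wt M J (Θ p) * e1 v p :=
    ((((wt_cont M J).comp (t3.continuousOn.mono (inter_subset_left.trans cn)) fun p hp =>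
      d0.trans_le hp.2).mul ((sv.cont1 isOpen_univ).mono (subset_univ _))).integrableOn_compact cd
      ).integrable_of_forall_notMem_eq_zero fun p hp => mul_eq_zero_of_right _
        ((e_congr (E' := fun _ _ _ _ => 0) L (v0 p hp)).1.trans (cut_zero L p).1)
  obtain ⟨u1, u2⟩ := cut_alg (Co := Co) (q := q) B0 B1 C0 A0 S0
  refine (cut_num (a := 2 ^ (2 * J)) (V := U)
    (d := Real.exp M * (2 * δ) ^ 6 * (C * (Ci / δ ^ 2) ^ 2 * R)) (by positivity) (abs_nonneg C₀)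
    (by positivity) (add_nonneg A0 S0) V0 (by positivity) vo1 vo2 ?_
    (main.trans (mul_le_mul_of_nonneg_right (le_abs_self _) (integral_nonneg g0)))
    (cut_meas (H := fun x => ENNReal.ofReal (P.wq q x) * H x) (X_compact P).measurableSet
      ENNReal.ofReal_ne_top g0 fun p => ?_) (add_le_add_left u1 _) u2 le_rfl).trans_eq ?_
  · rw [ofReal_integral_eq_lintegral_ofReal i1 (.of_forall fun p => mul_nonneg (wt_nn _ _ _) (f0 p)),
      ← lintegral_const_mul' _ _ ENNReal.ofReal_ne_top]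
    obtain ⟨cZ, sZ⟩ := Z_compact (n := n) B0 N0 B1
    refine (setLIntegral_mono' cZ.measurableSet fun p hp => ?_).trans
      (setLIntegral_le_lintegral _ _)
    obtain ⟨a1, a2⟩ := cut_Z B0 N0 r1 t2 hp (sZ hp)
    have a3 : ∀ l m, (fun z : V n × V n => v l m z.1 z.2) =ᶠ[𝓝 p] fun z => E l m z.1 z.2 :=
      fun l m => by
      filter_upwards [v1 p (sZ hp) l m, z4 p hp.1.2.2 a1, (t3.continuousOn.continuousAt
        (oN.mem_nhds (sZ hp))).eventually (lt_mem_nhds a2)] with z y1 y2 y3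
      have : 1 ≤ Θ z / δ - 1 := by
        rw [le_sub_iff_add_le, le_div_iff₀ d0]
        linarith
      simp [y1, mk, ξ, y2, Real.smoothTransition.one_of_one_le this]
    rw [← (e_congr L a3).1, ← ENNReal.ofReal_mul (by positivity), ← mul_assoc]
    refine ENNReal.ofReal_le_ofReal (le_mul_of_one_le_left (f0 p) ?_)
    have := mul_le_mul_of_nonneg_left (wt_low J M0 a2.le) (show 0 ≤ (2 : ℝ) ^ (2 * J) by positivity)
    rwa [← mul_pow, mul_one_div_cancel two_ne_zero, one_pow] at this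
  · by_cases hp : p ∈ Kd
    swap
    · rw [(e_congr (E' := fun _ _ _ _ => 0) L (v0 p hp)).2.1,
        (e_congr (E' := fun _ _ _ _ => 0) Q (v0 p hp)).2.2, (cut_zero _ p).2.1, (cut_zero _ p).2.2,
        add_zero, mul_zero, ENNReal.ofReal_zero]
      exact zero_le
    have hn := cn hp.1
    have hb := cK_ball r1 hp.1
    have a4 := hp.1.2.2.2.2
    obtain ⟨t, a1, a2⟩ := cut_pt B0 N0 M0 J3 d0 d1 C0 A0 S0 (by positivity) hp.1 hp.2
      (t3.contDiffAt (oN.mem_nhds hn)) z1 (z2 p) (z4 p) (z5 p hp.1.2.1) (c2 p hp.1) (cm p hn)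
      (v1 p hn) (cut_w J hq B0 (d0.le.trans hp.2) (norm_nonneg _) a4 (t2 p.1 p.2 hp.1.2.1
        (new_offd B0 hn).2.2 (by linarith [Real.sqrt_nonneg P.B])).1)
      (by simp [e0, hE.ey p hn]) (hS p hn hp.1.1 a4) (fun h => hA p h hp.1.2.2.2.1 a4) (hR p hp.1)
    rw [indicator_of_mem hb]
    refine (ENNReal.ofReal_le_ofReal a1).trans (ENNReal.ofReal_add_le.trans (add_le_add_right ?_ _))
    rcases a2 with rfl | ⟨a2, a3, rfl⟩
    · exact ENNReal.ofReal_zero.trans_le zero_le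
    rw [indicator_of_mem (mk_mem_prod a2 (mem_closedBall_zero_iff.2 ((norm_snd_le p).trans
      (mem_closedBall_zero_iff.1 hb)))), ENNReal.ofReal_mul (by positivity),
      ENNReal.ofReal_mul ((zero_le_one.trans (one_le_wq B0 N0.le q hn.2.2.1.le)))]
    exact mul_le_mul_right (mul_le_mul_right (hh p a2 a3 a4) _) _
  · refine congrArg₂ (· + ·) (congrArg (fun t => ENNReal.ofReal t * _) (by ring))
      (congrArg _ (by field_simp))

theorem cut (h : C7B n ι) (tb : TB n ι) (th : THS n ι) (cm : COM n ι) (c1 : CO n) (c2 : CI n) :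
    CUT n ι := by
  obtain ⟨M, κ₀, J, M0, J3, k0, h⟩ := h
  obtain ⟨ε₁, c₁, e1', c1', th⟩ := th
  obtain ⟨C, C0, cm⟩ := cm
  obtain ⟨Co, Co0, c1⟩ := c1
  obtain ⟨C₅, C5, h5⟩ := tb.2.2.1 0
  obtain ⟨q, q1, hq⟩ : ∃ q : ℕ, 1 ≤ q ∧ 2 * M ≤ q :=
    ⟨⌈2 * M⌉₊ + 1, by omega, (Nat.le_ceil _).trans (by simp)⟩
  obtain ⟨U, V0, vo1, vo2⟩ : ∃ U : ℝ, 0 ≤ U ∧ volume (closedBall (0 : V n × V n) 2) ≤ .ofReal U ∧
      volume (closedBall (0 : V n) 2) ≤ .ofReal U := ⟨max _ _, le_max_of_le_left measureReal_nonneg,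
    (ofReal_measureReal (isCompact_closedBall _ _).measure_lt_top.ne).ge.trans
      (ENNReal.ofReal_le_ofReal (le_max_left _ _)),
    (ofReal_measureReal (isCompact_closedBall _ _).measure_lt_top.ne).ge.trans
      (ENNReal.ofReal_le_ofReal (le_max_right _ _))⟩
  refine ⟨q, min κ₀ (1 / 20), q1, by positivity, fun κ κ0 hκ => ?_⟩
  obtain ⟨κ1, κ2⟩ := le_min_iff.1 hκ
  obtain ⟨K, ε, c, N₀, C₀, e0', c0, h⟩ := h κ κ0 κ1
  refine ⟨K + 2, min (min ε ε₁) (1 / C₅), min (min c c₁) (1 / 10), max N₀ 1,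
    2 ^ (2 * J) * |C₀| * U * (8 ^ q * (2 + 10 ^ (2 * q) * (C * Co ^ 2))), by positivity,
    by positivity, by positivity,
    fun P d E A S H hP ok s1 s2 n1 n2 hH hE E0 A0 S0 hS hA hh => ?_⟩
  subst hP
  have b1 := (min_le_left (min ε ε₁) (1 / C₅)).trans (min_le_left _ _)
  have b2 := (min_le_left (min ε ε₁) (1 / C₅)).trans (min_le_right _ _)
  have b3 := min_le_right (min ε ε₁) (1 / C₅)
  have ok1 := ok.mono (le_max_right _ _) le_rfl
  have B0 := ok.B0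
  have N0 : 0 < P.N := by linarith [ok1.N0]
  have r1 : √P.B ≤ 1 / 10 := (ok_small ok1).1.trans (min_le_right _ _)
  obtain ⟨t1, t2⟩ := th P d.L2 κ0 κ2 (ok1.mono le_rfl ((min_le_left _ _).trans (min_le_right _ _)))
    s2 (n2.mono (by omega) b2)
  obtain ⟨ζ, z1, z2, z3, z4, z5⟩ := c1 P κ0 κ2
    (ok1.mono le_rfl ((min_le_right _ _).trans (by norm_num)))
  have oN := new_open (n := n) P
  have ne : ∀ p ∈ P.new n, p.1 ≠ p.2 := fun p hp => (new_offd B0 hp).2.2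
  have t3 := t1.mono ne
  have cc := cK_compact (n := n) r1
  have cn := cK_new (n := n) B0 N0 r1
  obtain ⟨Ci, Ci0, c2⟩ := c2 _ _ ζ _ oN cc cn z1.contDiffOn t3
  obtain ⟨R, hR⟩ := cc.exists_bound_of_continuousOn ((hE.sm.cont2 oN).mono cn)
  refine cut_lim (by positivity) fun δ d0 d1 => cut_del (C₀ := C₀) (Ci := Ci) κ0 κ2 B0 ok.a1 N0 r1
    M0.le J3 hq d0 d1 C0 A0 S0 V0 vo1 vo2 t3 t2 z1 z2 z3 z4 z5 (c2 δ d0 (by linarith))
    (fun p hp ξ Z a => cm d.L1 d.L2.t ξ E p Z (n1.mono (by omega) (b3.trans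
      ((div_le_one (by linarith)).2 C5))) ((h5 d.L2 _ s2 (n2.mono (by omega) le_rfl)).mono le_rfl
        ((le_div_iff₀' (by linarith)).1 b3)) a fun l m => (hE.sm l m).contDiffAt (oN.mem_nhds hp))
    hE E0 hS hA hh (abs_nonneg R)
    (fun p hp => (le_abs_self _).trans ((hR p hp).trans (le_abs_self _))) fun v hv => ?_
  have main := h P d v rfl (ok.mono (le_max_left _ _) ((min_le_left _ _).trans (min_le_left _ _)))
    s1 s2 (n1.mono (by omega) b1) (n2.mono (by omega) b1) hH fun l m => ⟨(hv l m).1, (hv l m).2.1,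
      (hv l m).2.2.trans fun p hp => ⟨(cn hp.1).1, (cn hp.1).2.2.1, ne p (cn hp.1),
        d0.trans_le hp.2, by linarith [hp.1.2.2.2.2, Real.sqrt_pos.2 B0]⟩⟩
  simpa only [e0, e1, dx, Finset.sum_add_distrib] using main

end Vale.Agent.P088F.Fw
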