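import Vale.Agent.P088F.FDefs
import Vale.Agent.P088F.ADd

/-! P088F, part F: calculus for kernels. -/

open scoped ContDiff Topology ENNReal
open Set Filter MeasureTheory Metric

noncomputable section

namespace Vale.Agent.P088F.Fw

open Vale.Agent.P292E Vale.Agent.P088.Car

variable {n : ℕ} {ι : Type} [Fintype ι] [DecidableEq ι] [NeZero n]

omit [NeZero n] in
theorem fdx_x {f : V n × V n → ℂ} {p : V n × V n} (h : SA f p) (j : Fin n) :
    pd j (fun x => f (x, p.2)) p.1 = dd (ee j, 0) f p :=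
  DFunLike.congr_fun (h.df.hasFDerivAt.comp p.1 (hasFDerivAt_prodMk_left (𝕜 := ℝ) p.1 p.2)).fderiv _

omit [NeZero n] in
theorem fdx_y {f : V n × V n → ℂ} {p : V n × V n} (h : SA f p) (j : Fin n) :
    pd j (fun y => f (p.1, y)) p.2 = dd (0, ee j) f p :=
  DFunLike.congr_fun (h.df.hasFDerivAt.comp p.2 (hasFDerivAt_prodMk_right (𝕜 := ℝ) p.1 p.2)).fderiv _

omit [NeZero n] in
theorem fdx_ev {f g : V n → ℂ} {x : V n} (h : f =ᶠ[𝓝 x] g) (j : Fin n) : pd j f =ᶠ[𝓝 x] pd j g :=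
  (h.fderiv (𝕜 := ℝ)).mono fun y hy => by simp only [pd, hy]

omit [NeZero n] in
theorem fdx_l {f g : V n × V n → ℂ} {p : V n × V n} (h : f =ᶠ[𝓝 p] g) :
    (fun x => f (x, p.2)) =ᶠ[𝓝 p.1] fun x => g (x, p.2) :=
  (Continuous.prodMk_left p.2).continuousAt.tendsto.eventually h

omit [NeZero n] in
theorem fdx_r {f g : V n × V n → ℂ} {p : V n × V n} (h : f =ᶠ[𝓝 p] g) :
    (fun y => f (p.1, y)) =ᶠ[𝓝 p.2] fun y => g (p.1, y) :=
  (Continuous.prodMk_right p.1).continuousAt.tendsto.eventually h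

omit [Fintype ι] [DecidableEq ι] [NeZero n] in
theorem SmK.sa {Ω : Set (V n × V n)} {E : Kr n ι} (h : SmK Ω E) (hΩ : IsOpen Ω) {p : V n × V n}
    (hp : p ∈ Ω) (l m : ι) : SA (fun p : V n × V n => E l m p.1 p.2) p :=
  (h l m).contDiffAt (hΩ.mem_nhds hp)

theorem SmK.dx {Ω : Set (V n × V n)} {E : Kr n ι} (h : SmK Ω E) (hΩ : IsOpen Ω) (j : Fin n) :
    SmK Ω (dx j E) := fun l m p hp =>
  ((h.sa hΩ hp l m).dd _).contDiffWithinAt.congr (fun _ hq => fdx_x (h.sa hΩ hq l m) j)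
    (fdx_x (h.sa hΩ hp l m) j)

theorem SmK.dy {Ω : Set (V n × V n)} {E : Kr n ι} (h : SmK Ω E) (hΩ : IsOpen Ω) (j : Fin n) :
    SmK Ω (dy j E) := fun l m p hp =>
  ((h.sa hΩ hp l m).dd _).contDiffWithinAt.congr (fun _ hq => fdx_y (h.sa hΩ hq l m) j)
    (fdx_y (h.sa hΩ hp l m) j)

theorem SmK.cont0 {Ω : Set (V n × V n)} {E : Kr n ι} (h : SmK Ω E) : ContinuousOn (e0 E) Ω :=
  continuousOn_finsetSum _ fun l _ => continuousOn_finsetSum _ fun m _ =>
    (h l m).continuousOn.norm.pow 2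

theorem SmK.cont1 {Ω : Set (V n × V n)} {E : Kr n ι} (h : SmK Ω E) (hΩ : IsOpen Ω) :
    ContinuousOn (e1 E) Ω :=
  continuousOn_finsetSum _ fun l _ => continuousOn_finsetSum _ fun m _ =>
    ((h l m).continuousOn.norm.pow 2).add
      (continuousOn_finsetSum _ fun j _ => (h.dx hΩ j l m).continuousOn.norm.pow 2)

theorem SmK.cont2 {Ω : Set (V n × V n)} {E : Kr n ι} (h : SmK Ω E) (hΩ : IsOpen Ω) :
    ContinuousOn (e2 E) Ω :=
  (h.cont1 hΩ).add (continuousOn_finsetSum _ fun l _ => continuousOn_finsetSum _ fun m _ =>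
    continuousOn_finsetSum _ fun j _ => (h.dy hΩ j l m).continuousOn.norm.pow 2)

theorem SmK.apx {Ω : Set (V n × V n)} {E : Kr n ι} {L : Op n ι} (h : SmK Ω E) (hΩ : IsOpen Ω)
    (hL : L.Sm) : SmK Ω (apx L E) := fun l m =>
  (ContDiffOn.sum fun j _ => .sum fun k _ =>
    ((Complex.ofRealCLM.contDiff.comp (hL.g j k)).comp contDiff_fst).contDiffOn.mul
      ((h.dx hΩ k).dx hΩ j l m)).add (.sum fun i _ => (ContDiffOn.sum fun j _ =>
        ((hL.a j l i).comp contDiff_fst).contDiffOn.mul (h.dx hΩ j i m)).add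
          (((hL.c l i).comp contDiff_fst).contDiffOn.mul (h i m)))

theorem SmK.apy {Ω : Set (V n × V n)} {E : Kr n ι} {L : Op n ι} (h : SmK Ω E) (hΩ : IsOpen Ω)
    (hL : L.Sm) : SmK Ω (apy L E) := fun l m =>
  (ContDiffOn.sum fun j _ => .sum fun k _ =>
    ((Complex.ofRealCLM.contDiff.comp (hL.g j k)).comp contDiff_snd).contDiffOn.mul
      ((h.dy hΩ k).dy hΩ j l m)).add (.sum fun i _ => (ContDiffOn.sum fun j _ =>
        ((hL.a j m i).comp contDiff_snd).contDiffOn.mul (h.dy hΩ j l i)).add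
          (((hL.c m i).comp contDiff_snd).contDiffOn.mul (h l i)))

theorem fdx_comm {Ω : Set (V n × V n)} {E : Kr n ι} (h : SmK Ω E) (hΩ : IsOpen Ω) (j k : Fin n)
    (l m : ι) {p : V n × V n} (hp : p ∈ Ω) :
    Fw.dy k (Fw.dx j E) l m p.1 p.2 = Fw.dx j (Fw.dy k E) l m p.1 p.2 :=
  (fdx_y ((h.dx hΩ j).sa hΩ hp l m) k).trans ((dd_congr (mem_of_superset (hΩ.mem_nhds hp)
    fun _ hq => fdx_x (h.sa hΩ hq l m) j) _).trans ((dd_comm (h.sa hΩ hp l m) _ _).trans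
      ((dd_congr (mem_of_superset (hΩ.mem_nhds hp) fun _ hq => fdx_y (h.sa hΩ hq l m) k)
        _).symm.trans (fdx_x ((h.dy hΩ k).sa hΩ hp l m) j).symm)))

theorem SolY.dx {Q : Op n ι} {Ω : Set (V n × V n)} {E : Kr n ι} (h : SolY Q Ω E) (hΩ : IsOpen Ω)
    (j : Fin n) : SolY Q Ω (dx j E) := by
  refine ⟨h.sm.dx hΩ j, fun p hp l m => ?_⟩
  have d : ∀ {E : Kr n ι}, SmK Ω E → ∀ m, HasFDerivAt (fun x => E l m x p.2)
      (fderiv ℝ (fun x => E l m x p.2) p.1) p.1 := fun {E} h m =>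
    (HasFDerivAt.comp (g := fun p : V n × V n => E l m p.1 p.2) p.1 (h.sa hΩ hp l m).df.hasFDerivAt
      (hasFDerivAt_prodMk_left (𝕜 := ℝ) p.1 p.2)).differentiableAt.hasFDerivAt
  have e := DFunLike.congr_fun ((HasFDerivAt.fun_sum (u := Finset.univ) fun i _ =>
    HasFDerivAt.fun_sum (u := Finset.univ) fun k _ =>
      (d ((h.sm.dy hΩ k).dy hΩ i) m).const_mul (Q.gc i k p.2)).fun_add
    (HasFDerivAt.fun_sum (u := Finset.univ) fun i _ => (HasFDerivAt.fun_sum (u := Finset.univ)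
      fun k _ => (d (h.sm.dy hΩ k) i).const_mul (Q.a k m i p.2)).fun_add
        ((d h.sm i).const_mul (Q.c m i p.2)))).fderiv (ee j)
  have e0 := (fdx_ev (fdx_l (f := fun p => apy Q E l m p.1 p.2) (g := fun _ => 0)
    (mem_of_superset (hΩ.mem_nhds hp) fun q hq => h.ey q hq l m)) j).eq_of_nhds
  have e1 : ∀ i k, Fw.dy i (Fw.dy k (Fw.dx j E)) l m p.1 p.2 =
      Fw.dx j (Fw.dy i (Fw.dy k E)) l m p.1 p.2 := fun i k =>
    (fdx_ev (fdx_r (f := fun p => Fw.dy k (Fw.dx j E) l m p.1 p.2)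
      (g := fun p => Fw.dx j (Fw.dy k E) l m p.1 p.2) (mem_of_superset (hΩ.mem_nhds hp)
        fun q hq => fdx_comm h.sm hΩ j k l m hq)) i).eq_of_nhds.trans
      (fdx_comm (h.sm.dy hΩ k) hΩ j i l m hp)
  refine .trans ?_ (e.symm.trans (e0.trans (by simp [pd])))
  change ∑ i, ∑ k, Q.gc i k p.2 * Fw.dy i (Fw.dy k (Fw.dx j E)) l m p.1 p.2 + ∑ i,
    (∑ k, Q.a k m i p.2 * Fw.dy k (Fw.dx j E) l i p.1 p.2 + Q.c m i p.2 * Fw.dx j E l i p.1 p.2) = _
  simp only [e1, fdx_comm h.sm hΩ j _ l _ hp, add_apply, sum_apply, smul_apply, smul_eq_mul]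
  rfl

theorem sol_solY {P Q : Op n ι} {Ω : Set (V n × V n)} {W : Kr n ι} (h : Sol P Q Ω W) :
    SolY Q Ω W := ⟨h.sm, h.ey⟩

theorem SolY.slice {Q : Op n ι} {Ω : Set (V n × V n)} {E : Kr n ι} (h : SolY Q Ω E) (l : ι)
    {x : V n} {s : Set (V n)} (hs : ∀ y ∈ s, (x, y) ∈ Ω) : SolOn Q s fun m y => E l m x y :=
  ⟨fun m => (h.sm l m).comp (contDiff_const.prodMk contDiff_id).contDiffOn hs,
    fun m y hy => h.ey (x, y) (hs y hy) l m⟩

theorem sol_slice {P Q : Op n ι} {Ω : Set (V n × V n)} {W : Kr n ι} (h : Sol P Q Ω W) (m : ι)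
    {y : V n} {s : Set (V n)} (hs : ∀ x ∈ s, (x, y) ∈ Ω) : SolOn P s fun l x => W l m x y :=
  ⟨fun l => (h.sm l m).comp (contDiff_id.prodMk contDiff_const).contDiffOn hs,
    fun l x hx => h.ex (x, y) (hs x hx) l m⟩

theorem ap_sub {L : Op n ι} {u v : Fam n ι} {x : V n} (hu : ∀ l, ContDiffAt ℝ ∞ (u l) x)
    (hv : ∀ l, ContDiffAt ℝ ∞ (v l) x) (l : ι) :
    L.ap (fun l x => u l x - v l x) l x = L.ap u l x - L.ap v l x := by
  have e1 : ∀ l j, pd j (fun x => u l x - v l x) x = pd j (u l) x - pd j (v l) x := fun l j =>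
    dd_sub (hu l) (hv l) _
  have e2 : ∀ j k, pd j (pd k fun x => u l x - v l x) x =
      pd j (pd k (u l)) x - pd j (pd k (v l)) x := fun j k => by
    refine (fdx_ev ?_ j).eq_of_nhds.trans (dd_sub (SA.dd (hu l) (ee k)) (SA.dd (hv l) (ee k)) _)
    filter_upwards [SA.ev (hu l) 1, SA.ev (hv l) 1] with y h1 h2
    exact DFunLike.congr_fun (fderiv_fun_sub (h1.differentiableAt (by simp))
      (h2.differentiableAt (by simp))) _
  simp only [Op.ap, e1, e2, mul_sub, Finset.sum_sub_distrib, Finset.sum_add_distrib]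
  ring

theorem ap_congr {L : Op n ι} {u v : Fam n ι} {x : V n} (h : ∀ l, u l =ᶠ[𝓝 x] v l) (l : ι) :
    L.ap u l x = L.ap v l x := by
  simp only [Op.ap, fun m j => (fdx_ev (h m) j).eq_of_nhds, fun m => (h m).eq_of_nhds,
    fun j k => (fdx_ev (fdx_ev (h l) k) j).eq_of_nhds]

theorem e_congr {E E' : Kr n ι} {p : V n × V n} (L : Op n ι)
    (h : ∀ l m, (fun z : V n × V n => E l m z.1 z.2) =ᶠ[𝓝 p] fun z => E' l m z.1 z.2) :
    e1 E p = e1 E' p ∧ e0 (apx L E) p = e0 (apx L E') p ∧ e0 (apy L E) p = e0 (apy L E') p := by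
  refine ⟨?_, ?_, ?_⟩ <;> refine Finset.sum_congr rfl fun l _ => Finset.sum_congr rfl fun m _ => ?_
  · simp only [Fw.dx, (h l m).eq_of_nhds, fun j => (fdx_ev (fdx_l (h l m)) j).eq_of_nhds]
  · rw [apx, apx, ap_congr fun l => fdx_l (h l m)]
  · rw [apy, apy, ap_congr fun m => fdx_r (h l m)]

theorem e1_eq (E : Kr n ι) (x y : V n) : e1 E (x, y) = ∑ m, g1 (fun l x => E l m x y) x :=
  Finset.sum_comm

theorem e2_le (E : Kr n ι) (x y : V n) : e2 E (x, y) ≤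
    ∑ m, g1 (fun l x => E l m x y) x + ∑ l, g1 (fun m y => E l m x y) y :=
  add_le_add (e1_eq E x y).le (Finset.sum_le_sum fun _ _ => Finset.sum_le_sum fun _ _ =>
    le_add_of_nonneg_left (sq_nonneg _))

theorem e_nonneg (E : Kr n ι) (p : V n × V n) :
    0 ≤ e0 E p ∧ e0 E p ≤ e1 E p ∧ e1 E p ≤ e2 E p :=
  ⟨by unfold e0; positivity, Finset.sum_le_sum fun _ _ => Finset.sum_le_sum fun _ _ =>
    le_add_of_nonneg_right (by positivity), le_add_of_nonneg_right (by positivity)⟩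

theorem e_sub {Ω : Set (V n × V n)} {E E' : Kr n ι} (h : SmK Ω E) (h' : SmK Ω E') (hΩ : IsOpen Ω)
    {p : V n × V n} (hp : p ∈ Ω) :
    e1 (fun l m x y => E l m x y - E' l m x y) p ≤ 2 * e1 E p + 2 * e1 E' p ∧
      e2 (fun l m x y => E l m x y - E' l m x y) p ≤ 2 * e2 E p + 2 * e2 E' p := by
  have k : ∀ a b : ℂ, ‖a - b‖ ^ 2 ≤ 2 * ‖a‖ ^ 2 + 2 * ‖b‖ ^ 2 := fun a b =>
    (pow_le_pow_left₀ (norm_nonneg _) (norm_sub_le a b) 2).trans
      (by nlinarith [sq_nonneg (‖a‖ - ‖b‖)])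
  have s := fun l m => h.sa hΩ hp l m
  have s' := fun l m => h'.sa hΩ hp l m
  have e1' : ∀ j l m, Fw.dx j (fun l m x y => E l m x y - E' l m x y) l m p.1 p.2 =
      Fw.dx j E l m p.1 p.2 - Fw.dx j E' l m p.1 p.2 := fun j l m =>
    (fdx_x ((s l m).sub (s' l m)) j).trans ((dd_sub (s l m) (s' l m) _).trans
      (congrArg₂ (· - ·) (fdx_x (s l m) j) (fdx_x (s' l m) j)).symm)
  have e2' : ∀ j l m, Fw.dy j (fun l m x y => E l m x y - E' l m x y) l m p.1 p.2 =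
      Fw.dy j E l m p.1 p.2 - Fw.dy j E' l m p.1 p.2 := fun j l m =>
    (fdx_y ((s l m).sub (s' l m)) j).trans ((dd_sub (s l m) (s' l m) _).trans
      (congrArg₂ (· - ·) (fdx_y (s l m) j) (fdx_y (s' l m) j)).symm)
  have k1 : e1 (fun l m x y => E l m x y - E' l m x y) p ≤ 2 * e1 E p + 2 * e1 E' p := by
    simp only [e1, e1', Finset.mul_sum, mul_add, ← Finset.sum_add_distrib]
    refine Finset.sum_le_sum fun l _ => Finset.sum_le_sum fun m _ => ?_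
    rw [add_add_add_comm, ← Finset.sum_add_distrib]
    exact add_le_add (k _ _) (Finset.sum_le_sum fun _ _ => k _ _)
  refine ⟨k1, ?_⟩
  rw [e2, e2, e2, mul_add, mul_add, add_add_add_comm]
  refine add_le_add k1 ?_
  simp only [e2', Finset.mul_sum, ← Finset.sum_add_distrib]
  exact Finset.sum_le_sum fun _ _ => Finset.sum_le_sum fun _ _ => Finset.sum_le_sum fun _ _ => k _ _

end Vale.Agent.P088F.Fw
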