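import Vale.Agent.P088F.FDx
import Vale.Agent.P088F.FGeo

/-! P088F, part F: the pointwise bound. -/

open scoped ContDiff Topology ENNReal
open Set Filter MeasureTheory Metric

noncomputable section

namespace Vale.Agent.P088F.Fw

open Vale.Agent.P292E

variable {n : ℕ} {ι : Type} [Fintype ι] [DecidableEq ι] [NeZero n]

theorem fend_pt {w k : ℂ} {E T : ℝ} (h1 : ‖w - k‖ ^ 2 ≤ E) (h2 : ‖k‖ ≤ T) :
    ‖w‖ₑ ^ 2 ≤ 2 * ENNReal.ofReal E + ENNReal.ofReal (2 * T ^ 2) := by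
  have hE : 0 ≤ E := le_trans (sq_nonneg _) h1
  have h3 : ‖w‖ ≤ ‖w - k‖ + ‖k‖ := by
    simpa using norm_add_le (w - k) k
  have h4 : ‖w‖ ^ 2 ≤ 2 * E + 2 * T ^ 2 := by
    have a1 := norm_nonneg w
    have a2 := norm_nonneg k
    have a3 := norm_nonneg (w - k)
    have a4 : ‖k‖ ^ 2 ≤ T ^ 2 := pow_le_pow_left₀ a2 h2 2
    have a5 : ‖w‖ ^ 2 ≤ (‖w - k‖ + ‖k‖) ^ 2 := pow_le_pow_left₀ a1 h3 2
    nlinarith [sq_nonneg (‖w - k‖ - ‖k‖)]
  calc ‖w‖ₑ ^ 2 = ENNReal.ofReal (‖w‖ ^ 2) := by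
        rw [ENNReal.ofReal_pow (norm_nonneg _), ofReal_norm]
    _ ≤ ENNReal.ofReal (2 * E + 2 * T ^ 2) := ENNReal.ofReal_le_ofReal h4
    _ = 2 * ENNReal.ofReal E + ENNReal.ofReal (2 * T ^ 2) := by
        rw [ENNReal.ofReal_add (by positivity) (by positivity),
          ENNReal.ofReal_mul (by norm_num : (0 : ℝ) ≤ 2) (q := E)]
        simp

omit [NeZero n] in
theorem fend_int {x : V n} {r X T : ℝ} (hr : r ≤ 1) {S : Set (V n)} {f g : V n → ℝ≥0∞}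
    (hX : 0 ≤ X) (hT : 0 ≤ T) (hS : ∫⁻ z in S, g z ≤ ENNReal.ofReal X)
    (h : ∀ z ∈ ball x r, f z ≤ 2 * S.indicator g z + ENNReal.ofReal T) :
    ∫⁻ z in ball x r, f z ≤
      ENNReal.ofReal (2 * X + T * (volume (ball (0 : V n) 1)).toReal) := by
  have hv : volume (ball x r) ≤ ENNReal.ofReal (volume (ball (0 : V n) 1)).toReal := by
    rw [ENNReal.ofReal_toReal measure_ball_lt_top.ne]
    calc volume (ball x r) ≤ volume (ball x 1) := measure_mono (ball_subset_ball hr)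
      _ = volume (ball (0 : V n) 1) := Measure.addHaar_ball_center _ _ _
  calc ∫⁻ z in ball x r, f z
      ≤ ∫⁻ z in ball x r, (2 * S.indicator g z + ENNReal.ofReal T) :=
        setLIntegral_mono' measurableSet_ball h
    _ = 2 * (∫⁻ z in ball x r, S.indicator g z) + ENNReal.ofReal T * volume (ball x r) := by
        rw [lintegral_add_right _ measurable_const, lintegral_const_mul' _ _ (by simp),
          setLIntegral_const]
    _ ≤ 2 * ENNReal.ofReal X +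
          ENNReal.ofReal T * ENNReal.ofReal (volume (ball (0 : V n) 1)).toReal := by
        gcongr
        exact ((setLIntegral_le_lintegral _ _).trans (lintegral_indicator_le _ _)).trans hS
    _ = ENNReal.ofReal (2 * X + T * (volume (ball (0 : V n) 1)).toReal) := by
        rw [ENNReal.ofReal_add (by positivity) (by positivity),
          ENNReal.ofReal_mul (by norm_num : (0 : ℝ) ≤ 2) (q := X), ENNReal.ofReal_mul hT]
        simp

theorem fend_geo {P : Par} (h0 : 0 < P.κ) (h1 : P.κ ≤ 1 / 20) (ok : P.Ok 1 (1 / 10)) {x y z : V n}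
    (hx0 : 0 ≤ x 0) (hx : ‖x‖ < 2) (hψ : psi P.κ x ≤ P.a - 2 / P.N) (hy : ‖y‖ ≤ 12)
    (hxy : 4 * P.b x ≤ ‖x - y‖) (hz : z ∈ ball x (P.b x / 100)) :
    (z, y) ∈ P.new n ∧ ‖z‖ ≤ 1 ∧ psi P.κ z ≤ P.a - 3 / (2 * P.N) ∧
      7 / 2 * P.b z ≤ ‖y - z‖ ∧ P.b x ≤ ‖y - z‖ := by
  have hN : 1 ≤ P.N := ok.N0
  have hN0 : 0 < P.N := by linarith
  obtain ⟨-, hB2, -, -, hNB⟩ := ok_small ok
  have hB := ok.B0
  have h2N : 0 < 2 / P.N := by positivity
  have hψa : psi P.κ x ≤ P.a := by linarith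
  have hx3 := psi_cap h0 h1 ok.a1 hx.le hx0 hψa
  have hb := b_le hB hN0.le hψa
  have hb0 := Par.b_pos hB x
  have hzx : ‖x - z‖ < P.b x / 100 := by
    rw [← dist_eq_norm, dist_comm]; exact hz
  have hz1 : ‖z‖ ≤ 1 := by
    have : ‖z‖ ≤ ‖x‖ + ‖x - z‖ := by
      simpa using norm_sub_le x (x - z)
    linarith
  have hNz : P.N * ‖x - z‖ ≤ 1 / 10000 := by
    have : P.N * ‖x - z‖ ≤ P.N * (P.B / 100) :=
      mul_le_mul_of_nonneg_left (by linarith) hN0.le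
    linarith
  have hbz := b_lip h0 h1 hB hN0.le hx.le (hz1.trans (by norm_num)) (hNz.trans (by norm_num))
  have hbz0 := Par.b_pos hB z
  have hψz : psi P.κ z ≤ P.a - 3 / (2 * P.N) := by
    have a1 := psi_lip h0 h1 hx.le (hz1.trans (by norm_num : (1 : ℝ) ≤ 2))
    have a2 := (abs_le.1 a1).1
    have a3 : 2 * ‖x - z‖ ≤ 1 / (2 * P.N) := by
      rw [le_div_iff₀ (by positivity)]; linarith
    have a4 : 2 / P.N = 3 / (2 * P.N) + 1 / (2 * P.N) := by field_simp; norm_num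
    linarith
  have hyz : ‖x - y‖ ≤ ‖x - z‖ + ‖y - z‖ := by
    have := norm_sub_le (x - z) (y - z)
    simpa using this
  have h3N : 0 < 3 / (2 * P.N) := by positivity
  refine ⟨⟨?_, ?_, ?_, ?_⟩, hz1, hψz, by linarith, by linarith⟩
  · show ‖z‖ < 2
    linarith
  · show ‖y‖ < 20
    linarith
  · show psi P.κ z < P.a
    linarith
  · show P.b z / 2 < ‖z - y‖
    rw [norm_sub_rev]; linarith

theorem fend_div {X s t : ℝ} {i j : ℕ} (hX : 0 ≤ X) (hs : 0 < s) (h1 : s ≤ 1) (hst : s ≤ t)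
    (hij : i ≤ j) : X / t ^ i ≤ X / s ^ j :=
  div_le_div_of_nonneg_left hX (pow_pos hs j)
    ((pow_le_pow_of_le_one hs.le h1 hij).trans (pow_le_pow_left₀ hs.le hst i))

omit [NeZero n] [DecidableEq ι] in
theorem fend_g1 (u : Fam n ι) (x : V n) (l : ι) : ‖u l x‖ ^ 2 ≤ g1 u x :=
  le_trans (le_add_of_nonneg_right (Finset.sum_nonneg fun _ _ => sq_nonneg _))
    (Finset.single_le_sum (f := fun l => ‖u l x‖ ^ 2 + ∑ j, ‖pd j (u l) x‖ ^ 2)
      (fun _ _ => by positivity) (Finset.mem_univ l))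

omit [NeZero n] [DecidableEq ι] in
theorem fend_e0 (E : Kr n ι) (p : V n × V n) (l m : ι) : ‖E l m p.1 p.2‖ ^ 2 ≤ e0 E p :=
  le_trans (Finset.single_le_sum (f := fun m => ‖E l m p.1 p.2‖ ^ 2)
      (fun _ _ => by positivity) (Finset.mem_univ m))
    (Finset.single_le_sum (f := fun l => ∑ m, ‖E l m p.1 p.2‖ ^ 2)
      (fun _ _ => by positivity) (Finset.mem_univ l))

theorem fend_N2 {P : Par} {d : Dat n ι} {W : Kr n ι} {K c₀ : ℕ} {ε Λ X : ℝ} (h0 : 0 < P.κ)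
    (h1 : P.κ ≤ 1 / 20) (ok : P.Ok 1 (1 / 10)) (dok : d.Ok K ε 30 c₀ Λ)
    (ext : d.Ext (P.new n) W) {x y : V n} (hx0 : 0 ≤ x 0) (hx : ‖x‖ < 2)
    (hψ : psi P.κ x ≤ P.a - 2 / P.N) (hy : ‖y‖ ≤ 12) (hxy : 4 * P.b x ≤ ‖x - y‖)
    (hb1 : P.b x ≤ 1) (hX : 0 ≤ X)
    (hS : ∫⁻ z in {z ∈ P.fX n | 7 / 2 * P.b z ≤ ‖y - z‖ ∧ P.b x ≤ ‖y - z‖},
        ENNReal.ofReal (e0 (d.er W) (z, y)) ≤ ENNReal.ofReal X) (m : ι) :
    N2 (ball x (P.b x / 100)) (fun l z => W l m z y) ≤ ENNReal.ofReal (Fintype.card ι *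
      (2 * X + 2 * (Λ / P.b x ^ c₀) ^ 2 * (volume (ball (0 : V n) 1)).toReal)) := by
  have hb0 := Par.b_pos ok.B0 x
  have key : ∀ l, ∫⁻ z in ball x (P.b x / 100), ‖W l m z y‖ₑ ^ 2 ≤ ENNReal.ofReal
      (2 * X + 2 * (Λ / P.b x ^ c₀) ^ 2 * (volume (ball (0 : V n) 1)).toReal) := by
    intro l
    refine fend_int (by linarith) hX (by positivity) hS fun z hz => ?_
    obtain ⟨g1, g2, g3, g4, g5⟩ := fend_geo h0 h1 ok hx0 hx hψ hy hxy hz
    have hk : ‖d.K2 l m z y‖ ≤ Λ / P.b x ^ c₀ := by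
      refine (dok.b2 (z, y) (new_offd ok.B0 g1) l m).trans ?_
      refine div_le_div_of_nonneg_left dok.nn (pow_pos hb0 _) (pow_le_pow_left₀ hb0.le ?_ _)
      show P.b x ≤ ‖z - y‖
      rwa [norm_sub_rev]
    by_cases hz0 : z 0 < 0
    · have e : W l m z y = d.K2 l m z y := ext.e2 (z, y) g1 hz0 l m
      have := fend_pt (w := W l m z y) (k := d.K2 l m z y) (E := 0) (by rw [e]; simp) hk
      refine this.trans ?_
      gcongr
      simp
    · have hm : z ∈ {z ∈ P.fX n | 7 / 2 * P.b z ≤ ‖y - z‖ ∧ P.b x ≤ ‖y - z‖} :=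
        ⟨⟨not_lt.1 hz0, g2, g3⟩, g4, g5⟩
      rw [indicator_of_mem hm]
      exact fend_pt (fend_e0 (d.er W) (z, y) l m) hk
  calc N2 (ball x (P.b x / 100)) (fun l z => W l m z y)
      ≤ ∑ _l : ι, ENNReal.ofReal
        (2 * X + 2 * (Λ / P.b x ^ c₀) ^ 2 * (volume (ball (0 : V n) 1)).toReal) :=
        Finset.sum_le_sum fun l _ => key l
    _ = _ := by
        rw [ENNReal.ofReal_mul (Nat.cast_nonneg _), ENNReal.ofReal_natCast, Finset.sum_const,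
          nsmul_eq_mul, Finset.card_univ]

theorem fend_num {w C₁ C₃ k v A Λ s t : ℝ} {e c₀ j : ℕ} (hw : 0 ≤ w) (h1 : 0 ≤ C₁) (h3 : 0 ≤ C₃)
    (hk : 0 ≤ k) (hv : 0 ≤ v) (hA : 0 ≤ A) (hΛ : 0 ≤ Λ) (hs : 0 < s) (hs1 : s ≤ 1) (hst : s ≤ t)
    (h : w ^ 2 ≤ C₃ / (t / 100) ^ j *
      (k * (2 * (C₁ * (A + Λ) ^ 2 / s ^ e) + 2 * (Λ / t ^ c₀) ^ 2 * v))) :
    w ≤ (C₃ * 100 ^ j * k * (2 * C₁ + 2 * v) + 1) * (A + Λ) / s ^ (e + 2 * c₀ + j) := by
  have ht : 0 < t := hs.trans_le hst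
  have a1 : C₃ / (t / 100) ^ j ≤ C₃ * 100 ^ j / s ^ j := by
    rw [div_pow, div_div_eq_mul_div]
    exact fend_div (by positivity) hs hs1 hst le_rfl
  have a2 : C₁ * (A + Λ) ^ 2 / s ^ e ≤ C₁ * (A + Λ) ^ 2 / s ^ (e + 2 * c₀) :=
    fend_div (by positivity) hs hs1 le_rfl (by omega)
  have a3 : (Λ / t ^ c₀) ^ 2 ≤ (A + Λ) ^ 2 / s ^ (e + 2 * c₀) := by
    rw [div_pow, ← pow_mul]
    refine (fend_div (by positivity) hs hs1 hst (by omega : c₀ * 2 ≤ e + 2 * c₀)).trans ?_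
    gcongr
    linarith
  set D := C₃ * 100 ^ j * k * (2 * C₁ + 2 * v) with hD
  have hD0 : 0 ≤ D := by positivity
  have a4 : w ^ 2 ≤ D * (A + Λ) ^ 2 / s ^ (e + 2 * c₀ + j) := by
    refine h.trans (le_of_le_of_eq (b := C₃ * 100 ^ j / s ^ j *
      (k * (2 * (C₁ * (A + Λ) ^ 2 / s ^ (e + 2 * c₀)) +
        2 * ((A + Λ) ^ 2 / s ^ (e + 2 * c₀)) * v))) (by gcongr) ?_)
    rw [hD, pow_add s (e + 2 * c₀) j]
    field_simp
  refine (pow_le_pow_iff_left₀ hw (by positivity) two_ne_zero).1 (a4.trans ?_)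
  rw [div_pow, ← pow_mul]
  refine (fend_div (by positivity) hs hs1 le_rfl
    (by omega : e + 2 * c₀ + j ≤ (e + 2 * c₀ + j) * 2)).trans ?_
  gcongr
  rw [mul_pow]
  gcongr
  nlinarith

theorem stepW_of (se : StepE n ι) (ie : IEL n ι) (mi : MID n ι) : StepW n ι := by
  intro c₀
  obtain ⟨p, e, κ₁, hp, hκ₁, mi⟩ := mi c₀
  obtain ⟨κ₂, hκ₂, se⟩ := se
  obtain ⟨K₃, ε₃, C₃, hε₃, hC₃, ie⟩ := ie
  refine ⟨p, e + 2 * c₀ + (n + 2), min κ₁ (min κ₂ (1 / 20)), by positivity, fun κ hκ hκ' => ?_⟩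
  obtain ⟨K₁, ε₁, c₁, N₁, C₁, hε₁, hc₁, hC₁, mi⟩ := mi κ hκ (hκ'.trans (min_le_left _ _))
  obtain ⟨K₂, ε₂, c₂, N₂, hε₂, hc₂, se⟩ :=
    se κ hκ (hκ'.trans ((min_le_right _ _).trans (min_le_left _ _)))
  have hκ20 : κ ≤ 1 / 20 := hκ'.trans ((min_le_right _ _).trans (min_le_right _ _))
  set v := (volume (ball (0 : V n) 1)).toReal with hv
  have hv0 : 0 ≤ v := ENNReal.toReal_nonneg
  set D := C₃ * 100 ^ (n + 2) * Fintype.card ι * (2 * C₁ + 2 * v) with hD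
  have hD0 : 0 ≤ D := by positivity
  refine ⟨max K₁ (max K₂ K₃), 0, min ε₁ (min ε₂ ε₃), min c₁ (min c₂ (1 / 10)),
    max N₁ (max N₂ 1), D + 1, by positivity, by positivity, ?_⟩
  intro P d Λ A W₀ hPκ ok dok hH ext₀ top₀ hA
  subst hPκ
  have ok' : P.Ok 1 (1 / 10) := ok.mono ((le_max_right _ _).trans (le_max_right _ _))
    ((min_le_right _ _).trans (min_le_right _ _))
  have hN : 1 ≤ P.N := ok'.N0
  have hN0 : 0 < P.N := by linarith
  have hB := ok'.B0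
  have hB1 : P.B ≤ 1 := (ok_small ok').2.1.trans (by norm_num)
  have hH3 : P.H d 3 := fun x hx hψ => (hH x hx hψ).mono
    (pow_le_pow_of_le_one (Par.b_pos hB x).le ((b_le hB hN0.le hψ.le).trans hB1) hp)
  obtain ⟨W, ext, hW⟩ := se P d c₀ Λ W₀ rfl
    (ok.mono ((le_max_left _ _).trans (le_max_right _ _))
      ((min_le_right _ _).trans (min_le_left _ _)))
    (dok.mono ((le_max_left _ _).trans (le_max_right _ _))
      ((min_le_right _ _).trans (min_le_left _ _)) le_rfl) hH3 ext₀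
  have htop : ∀ z ∈ P.new n, z ∈ P.top n → ∀ l m, ‖W l m z.1 z.2‖ ≤ A := fun z h1 h2 l m => by
    rw [hW z h1 h2.1]; exact top₀ z h2 l m
  have st : St P d W K₁ ε₁ c₁ N₁ c₀ p Λ A :=
    ⟨ok.mono (le_max_left _ _) (min_le_left _ _),
      dok.mono (le_max_left _ _) (min_le_left _ _) le_rfl, hH, ext, htop, hA⟩
  refine ⟨W, ext, fun x y hx hψ hy hxy l m => ?_⟩
  rw [pow_zero, mul_one]
  have hΛ := dok.nn
  have h1N : 0 < 1 / P.N := by positivity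
  have h2N : 0 < 2 / P.N := by positivity
  have hψa : psi P.κ x < P.a := by linarith
  have hb0 := Par.b_pos hB x
  have hb1 : P.b x ≤ 1 := (b_le hB hN0.le hψa.le).trans hB1
  have hs : 0 < P.B * P.b x := mul_pos hB hb0
  have hst : P.B * P.b x ≤ P.b x := mul_le_of_le_one_left hb0.le hB1
  have hs1 : P.B * P.b x ≤ 1 := hst.trans hb1
  have hnew : (x, y) ∈ P.new n := ⟨hx, by show ‖y‖ < 20; linarith, hψa,
    by show P.b x / 2 < ‖x - y‖; linarith⟩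
  have hAΛ : A + Λ ≤ (D + 1) * (A + Λ) := le_mul_of_one_le_left (by positivity) (by linarith)
  by_cases c1 : P.a - 2 / P.N < psi P.κ x
  · have hle := le_b hB hN0 c1.le
    have ht : (x, y) ∈ P.top n := ⟨⟨hx, by show ‖y‖ < 20; linarith,
      by show psi P.κ x < P.a + 2 / P.N; linarith,
      by show P.B / 100 < ‖x - y‖; linarith⟩, hy, c1⟩
    refine (htop (x, y) hnew ht l m).trans ?_
    rw [le_div_iff₀ (pow_pos hs _)]
    have := mul_le_of_le_one_right hA (pow_le_one₀ hs.le hs1 (n := e + 2 * c₀ + (n + 2)))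
    linarith
  by_cases c2 : x 0 < 0
  · have e1 : W l m x y = d.K2 l m x y := ext.e2 (x, y) hnew c2 l m
    rw [e1]
    refine (dok.b2 (x, y) (new_offd hB hnew) l m).trans ?_
    refine (fend_div hΛ hs hs1 (by show _ ≤ ‖x - y‖; linarith)
      (by omega : c₀ ≤ e + 2 * c₀ + (n + 2))).trans ?_
    gcongr
    linarith
  have c1' := not_lt.1 c1
  have c2' := not_lt.1 c2
  have hS := mi P d W Λ A rfl st y (P.b x) hy hb0 hb1
  have hN2 := fend_N2 hκ hκ20 ok' dok ext c2' hx c1' hy hxy hb1 (by positivity) hS m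
  have hsol : SolOn d.L1 (ball x (P.b x / 100)) fun l z => W l m z y :=
    sol_slice ext.sol m fun z hz => (fend_geo hκ hκ20 ok' c2' hx c1' hy hxy hz).1
  have hie := ie d.L1 x (P.b x / 100) _ dok.sm1
    (dok.nr1.mono ((le_max_right _ _).trans (le_max_right _ _))
      ((min_le_right _ _).trans (min_le_right _ _))) (by positivity) (by linarith) hsol
  have h5 := hie.trans (mul_le_mul_right hN2 _)
  rw [← ENNReal.ofReal_mul (by positivity), ENNReal.ofReal_le_ofReal_iff (by positivity)] at h5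
  exact fend_num (norm_nonneg _) hC₁ hC₃ (Nat.cast_nonneg _) hv0 hA hΛ hs hs1 hst
    ((fend_g1 (fun l z => W l m z y) x l).trans h5)

end Vale.Agent.P088F.Fw
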