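import Vale.Agent.P088F.FDx
import Vale.Agent.P088F.FGeo

/-! P088F, part F: the far shell. -/

open scoped ContDiff Topology ENNReal
open Set Filter MeasureTheory Metric

noncomputable section

namespace Vale.Agent.P088F.Fw

open Vale.Agent.P292E

variable {n : ℕ} {ι : Type} [Fintype ι] [DecidableEq ι] [NeZero n]

omit [DecidableEq ι] [NeZero n] in
theorem ffar_g0 (u : Fam n ι) (x : V n) : 0 ≤ g1 u x :=
  Finset.sum_nonneg fun _ _ => add_nonneg (sq_nonneg _) (Finset.sum_nonneg fun _ _ => sq_nonneg _)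

omit [DecidableEq ι] [NeZero n] in
theorem ffar_gc {u : Fam n ι} {s : Set (V n)} (hs : IsOpen s)
    (h : ∀ l, ContDiffOn ℝ ∞ (u l) s) : ContinuousOn (g1 u) s := by
  unfold g1
  refine continuousOn_finsetSum _ fun l _ => ((h l).continuousOn.norm.pow 2).add
    (continuousOn_finsetSum _ fun j _ => (ContinuousOn.norm ?_).pow 2)
  exact ((h l).continuousOn_fderiv_of_isOpen hs (by simp)).clm_apply continuousOn_const

theorem ffar_w0 (P : Par) (q : ℕ) (x : V n) : 0 ≤ P.wq q x := by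
  unfold Par.wq
  rw [pow_mul]
  positivity

theorem ffar_wc {P : Par} (hB : 0 < P.B) (q : ℕ) : Continuous (P.wq q : V n → ℝ) :=
  (continuous_const.div (b_sm P).continuous fun x => (Par.b_pos hB x).ne').pow _

theorem ffar_X {P : Par} (hN : 0 < P.N) {x : V n} (hx : x ∈ P.fX n) :
    ‖x‖ < 2 ∧ psi P.κ x < P.a := by
  have : 0 < 3 / (2 * P.N) := by positivity
  exact ⟨by linarith [hx.2.1], by linarith [hx.2.2]⟩

theorem ffar_num {N B C₁ C₂ A Λ : ℝ} (hN : 1 ≤ N) (hB : 0 < B) (h1 : B ≤ 1) (h6 : N ^ 6 * B ≤ 1)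
    (hC₁ : 0 ≤ C₁) (hC₂ : 0 ≤ C₂) (hA : 0 ≤ A) (hΛ : 0 ≤ Λ) :
    C₁ * N ^ 4 * (C₂ * (A + Λ) ^ 2 / B ^ 2 + C₂ * Λ ^ 2) ≤
      C₁ * (2 * C₂) * (A + Λ) ^ 2 / B ^ 3 := by
  have h4 : N ^ 4 ≤ 1 / B := by
    rw [le_div_iff₀ hB]
    exact (mul_le_mul_of_nonneg_right (pow_le_pow_right₀ hN (by norm_num)) hB.le).trans h6
  have h2 : Λ ^ 2 ≤ (A + Λ) ^ 2 / B ^ 2 := by
    rw [le_div_iff₀ (by positivity)]
    have : B ^ 2 ≤ 1 := pow_le_one₀ hB.le h1
    nlinarith [sq_nonneg Λ, mul_nonneg hA hΛ, sq_nonneg A]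
  calc C₁ * N ^ 4 * (C₂ * (A + Λ) ^ 2 / B ^ 2 + C₂ * Λ ^ 2)
      ≤ C₁ * (1 / B) * (C₂ * (A + Λ) ^ 2 / B ^ 2 + C₂ * ((A + Λ) ^ 2 / B ^ 2)) := by gcongr
    _ = C₁ * (2 * C₂) * (A + Λ) ^ 2 / B ^ 3 := by field_simp; ring

theorem ffar_swap {P : Par} {E : Kr n ι} {q : ℕ} {D : ℝ≥0∞} (hB : 0 < P.B) (hN : 0 < P.N)
    (h1 : P.B ≤ 1) (hE : SmK (P.new n) E)
    (h : ∀ y ∈ Yf n, ∫⁻ x in P.fX n, ENNReal.ofReal (P.wq q x * e1 E (x, y)) ≤ D) :
    ∫⁻ x in P.fX n, ENNReal.ofReal (P.wq q x) * If E x ≤ D * volume (Yf n) := by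
  have hm : AEMeasurable (Function.uncurry fun x y : V n =>
      ENNReal.ofReal (P.wq q x * e1 E (x, y)))
      ((volume.restrict (P.fX n)).prod (volume.restrict (Yf n))) := by
    rw [Measure.prod_restrict]
    refine ContinuousOn.aemeasurable ?_
      ((X_compact P).measurableSet.prod Yf_compact.measurableSet)
    refine ENNReal.continuous_ofReal.comp_continuousOn
      (((ffar_wc hB q).comp continuous_fst).continuousOn.mul
        ((hE.cont1 (new_open P)).mono fun p hp => ?_))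
    exact far_new hB hN.le h1 (ffar_X hN hp.1).1 (ffar_X hN hp.1).2 hp.2
  calc ∫⁻ x in P.fX n, ENNReal.ofReal (P.wq q x) * If E x
      = ∫⁻ x in P.fX n, ∫⁻ y in Yf n, ENNReal.ofReal (P.wq q x * e1 E (x, y)) := by
        refine lintegral_congr fun x => ?_
        unfold If
        rw [← lintegral_const_mul' _ _ ENNReal.ofReal_ne_top]
        exact lintegral_congr fun y => (ENNReal.ofReal_mul (ffar_w0 P q x)).symm
    _ = ∫⁻ y in Yf n, ∫⁻ x in P.fX n, ENNReal.ofReal (P.wq q x * e1 E (x, y)) :=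
        lintegral_lintegral_swap hm
    _ ≤ ∫⁻ _ in Yf n, D := setLIntegral_mono' Yf_compact.measurableSet h
    _ = D * volume (Yf n) := setLIntegral_const _ _

theorem far (fw : FWD n ι) (sr : SRC n ι) : FAR n ι := by
  obtain ⟨κ₀, hκ₀, H⟩ := fw
  refine ⟨min κ₀ (1 / 20), by positivity, fun c₀ q hq κ hκ hκ' => ?_⟩
  obtain ⟨K₁, ε₁, N₁, C₁, hε₁, hC₁, F⟩ := H κ hκ (hκ'.trans (min_le_left _ _)) q hq
  obtain ⟨K₂, ε₂, c₂, C₂, hε₂, hc₂, hC₂, S⟩ := sr c₀ q
  set v : ℝ := (volume (Yf n)).toReal with hv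
  have hv0 : 0 ≤ v := ENNReal.toReal_nonneg
  set C₃ : ℝ := Fintype.card ι * (C₁ * (2 * C₂)) with hC₃
  have hC₃0 : 0 ≤ C₃ := by positivity
  refine ⟨max K₁ K₂, min ε₁ ε₂, min c₂ 1, max N₁ 1, C₃ * (1 + v), by positivity, by positivity,
    by positivity, fun P d W Λ A hP h => ?_⟩
  subst hP
  have h' : St P d W K₂ ε₂ c₂ 1 c₀ (q + c₀ + 2) Λ A := h.mono (le_max_right _ _) (min_le_right _ _)
    (min_le_left _ _) (le_max_right _ _) le_rfl (le_max_right _ _) (min_le_right _ _)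
  obtain ⟨-, hsol, hvan, hsrc, -, hT⟩ := S P d W Λ A hκ (hκ'.trans (min_le_right _ _)) h'
  have hok : P.Ok 1 1 := h.ok.mono (le_max_right _ _) (min_le_right _ _)
  have hB := hok.B0
  have hN1 := hok.N0
  have hN : 0 < P.N := by linarith
  obtain ⟨-, hB1, -, h6, -⟩ := ok_small hok
  rw [one_pow] at hB1 h6
  have hΛ := h.dok.nn
  have hA := h.A0
  have hO : IsOpen {x : V n | ‖x‖ < 2 ∧ psi P.κ x < P.a} :=
    (isOpen_lt continuous_norm continuous_const).inter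
      (isOpen_lt (psi_sm P.κ).continuous continuous_const)
  have key : ∀ y ∈ Yf n, ∫⁻ x in P.fX n, ENNReal.ofReal (P.wq q x * e1 (d.er W) (x, y)) ≤
      ENNReal.ofReal (C₃ * (A + Λ) ^ 2 / P.B ^ 3) := by
    intro y hy
    have hsm : ∀ m l, ContDiffOn ℝ ∞ (fun x => d.er W l m x y)
        {x : V n | ‖x‖ < 2 ∧ psi P.κ x < P.a} := fun m l =>
      (hsol.sm l m).comp (contDiffOn_id.prodMk contDiffOn_const)
        fun x hx => far_new hB hN.le hB1 hx.1 hx.2 hy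
    have col : ∀ m, ∫⁻ x in P.fX n, ENNReal.ofReal (P.wq q x * g1 (fun l x => d.er W l m x y) x) ≤
        ENNReal.ofReal (C₁ * (2 * C₂) * (A + Λ) ^ 2 / P.B ^ 3) := by
      intro m
      refine (F P d.L1 (fun l x => d.er W l m x y) (C₂ * (A + Λ) ^ 2 / P.B ^ 2) (C₂ * Λ ^ 2) rfl
        hok.a1 ((le_max_left _ _).trans h.ok.N0) hB h.dok.sm1
        (h.dok.nr1.mono (le_max_left _ _) (min_le_left _ _)) (by positivity) (by positivity)
        (hsm m) (fun l x hx hψ h0 => hvan (x, y) (far_new hB hN.le hB1 hx hψ hy) h0 l m)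
        (fun x _ hx hψ => ?_) fun x hx => ?_).trans
        (ENNReal.ofReal_le_ofReal (ffar_num hN1 hB hB1 h6 hC₁ hC₂ hA hΛ))
      · have : 0 < 1 / P.N := by positivity
        refine le_trans (mul_le_mul_of_nonneg_left ?_ (ffar_w0 P q x))
          (hsrc (x, y) (far_new hB hN.le hB1 (by linarith) (by linarith) hy))
        exact Finset.sum_le_sum fun l _ => Finset.single_le_sum
          (f := fun m => ‖apx d.L1 (d.er W) l m x y‖ ^ 2) (fun _ _ => sq_nonneg _)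
          (Finset.mem_univ m)
      · refine le_trans ?_ (hT (x, y) hx hy)
        rw [e1_eq]
        exact Finset.single_le_sum (f := fun m => g1 (fun l x => d.er W l m x y) x)
          (fun _ _ => ffar_g0 _ _) (Finset.mem_univ m)
    calc ∫⁻ x in P.fX n, ENNReal.ofReal (P.wq q x * e1 (d.er W) (x, y))
        = ∫⁻ x in P.fX n, ∑ m, ENNReal.ofReal (P.wq q x * g1 (fun l x => d.er W l m x y) x) := by
          refine lintegral_congr fun x => ?_
          rw [e1_eq, Finset.mul_sum, ENNReal.ofReal_sum_of_nonneg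
            fun m _ => mul_nonneg (ffar_w0 P q x) (ffar_g0 _ _)]
      _ = ∑ m, ∫⁻ x in P.fX n, ENNReal.ofReal (P.wq q x * g1 (fun l x => d.er W l m x y) x) := by
          refine lintegral_finsetSum' _ fun m _ => ContinuousOn.aemeasurable ?_
            (X_compact P).measurableSet
          exact ENNReal.continuous_ofReal.comp_continuousOn ((ffar_wc hB q).continuousOn.mul
            ((ffar_gc hO (hsm m)).mono fun x hx => ffar_X hN hx))
      _ ≤ ∑ _m : ι, ENNReal.ofReal (C₁ * (2 * C₂) * (A + Λ) ^ 2 / P.B ^ 3) :=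
          Finset.sum_le_sum fun m _ => col m
      _ = ENNReal.ofReal (C₃ * (A + Λ) ^ 2 / P.B ^ 3) := by
          rw [← ENNReal.ofReal_sum_of_nonneg fun _ _ => by positivity]
          congr 1
          rw [Finset.sum_const, Finset.card_univ, nsmul_eq_mul, hC₃]
          ring
  have hD : 0 ≤ C₃ * (A + Λ) ^ 2 / P.B ^ 3 := by positivity
  have e : C₃ * (1 + v) * (A + Λ) ^ 2 / P.B ^ 3 =
      C₃ * (A + Λ) ^ 2 / P.B ^ 3 + C₃ * (A + Λ) ^ 2 / P.B ^ 3 * v := by ring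
  refine ⟨fun y hy => (key y hy).trans (ENNReal.ofReal_le_ofReal ?_),
    (ffar_swap hB hN hB1 hsol.sm key).trans ?_⟩
  · rw [e]
    linarith [mul_nonneg hD hv0]
  · rw [← ENNReal.ofReal_toReal (Yf_compact (n := n)).measure_lt_top.ne, ← hv,
      ← ENNReal.ofReal_mul hD]
    refine ENNReal.ofReal_le_ofReal ?_
    rw [e]
    linarith

end Vale.Agent.P088F.Fw
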