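import Vale.Agent.P088F.FDefs

/-! P088F, part F: interior estimates. -/

open scoped ContDiff Topology ENNReal
open Set Filter MeasureTheory Metric

noncomputable section

namespace Vale.Agent.P088F.Fw

open Vale.Agent.P292E

variable {n : ℕ} {ι : Type} [Fintype ι] [DecidableEq ι] [NeZero n]

omit [NeZero n] in
theorem fie_pd1 {f : V n → ℂ} {x : V n} {Z : ℝ} (h : ‖iteratedFDeriv ℝ 1 f x‖ ≤ Z) (j : Fin n) :
    ‖pd j f x‖ ≤ Z := by
  rw [← norm_iteratedFDeriv_fderiv, norm_iteratedFDeriv_zero] at h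
  refine ((fderiv ℝ f x).le_opNorm _).trans ?_
  simpa [ee] using h

omit [NeZero n] in
theorem fie_pd2 {f : V n → ℂ} {x : V n} {Z : ℝ} (hf : ContDiffAt ℝ 2 f x)
    (h : ‖iteratedFDeriv ℝ 2 f x‖ ≤ Z) (j k : Fin n) : ‖pd j (pd k f) x‖ ≤ Z := by
  rw [← norm_iteratedFDeriv_fderiv, ← norm_iteratedFDeriv_fderiv, norm_iteratedFDeriv_zero] at h
  have d := (hf.fderiv_right (m := 1) le_rfl).differentiableAt one_ne_zero
  have e : pd j (pd k f) x = fderiv ℝ (fderiv ℝ f) x (ee j) (ee k) := by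
    show fderiv ℝ (fun y => fderiv ℝ f y (ee k)) x (ee j) = _
    rw [fderiv_clm_apply d (differentiableAt_const _)]
    simp
  rw [e]
  refine ((fderiv ℝ (fderiv ℝ f) x).le_opNorm₂ _ _).trans ?_
  simpa [ee] using h

theorem fie_core (h : IE n ι) (tb : TB n ι) : ∃ (K : ℕ) (ε C : ℝ), 0 < ε ∧ 0 < C ∧
    ∀ (L : Op n ι) (x : V n) (r A : ℝ) (u : Fam n ι), L.Sm → L.Near K ε → 0 < r → r ≤ 1 →
      SolOn L (ball x r) u → 0 ≤ A → N2 (ball x r) u ≤ ENNReal.ofReal (A ^ 2 * r ^ n) →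
      g1 u x ≤ C * A ^ 2 / r ^ 2 ∧ ∀ l j k, ‖pd j (pd k (u l)) x‖ ≤ C * A / r ^ 2 := by
  obtain ⟨K, hK⟩ := h 2
  obtain ⟨C₀, hC⟩ := hK 2 (1 / 2) (by norm_num)
  obtain ⟨ε, hε, hb⟩ := tb.2.2.2.2.1
  set D := |C₀| + 1 with hD
  have D0 : 0 < D := by positivity
  have hE : 0 ≤ (Fintype.card ι : ℝ) * (1 + n) * D ^ 2 := by positivity
  refine ⟨K, ε, (Fintype.card ι : ℝ) * (1 + n) * D ^ 2 + D, hε, by positivity, ?_⟩
  intro L x r A u hL hN r0 r1 hu A0 hA
  have H := hC L hL (hb K L ε hL le_rfl hN) x r r0 r1 u hu A A0 hA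
  have hCD : C₀ * A ≤ D * A := mul_le_mul_of_nonneg_right
    ((le_abs_self C₀).trans (by rw [hD]; linarith)) A0
  have H' : ∀ l, ∀ i ≤ 2, ‖iteratedFDeriv ℝ i (u l) x‖ ≤ D * A / r ^ i := fun l i hi =>
    (H l i hi).trans (div_le_div_of_nonneg_right hCD (by positivity))
  have Z0 : 0 ≤ D * A / r := by positivity
  have h0 : ∀ l, ‖u l x‖ ≤ D * A / r := fun l => by
    have := H' l 0 (by norm_num)
    rw [norm_iteratedFDeriv_zero, pow_zero, div_one] at this
    refine this.trans ?_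
    rw [le_div_iff₀ r0]
    exact mul_le_of_le_one_right (by positivity) r1
  have h1 : ∀ l j, ‖pd j (u l) x‖ ≤ D * A / r := fun l j => by
    have := H' l 1 (by norm_num)
    rw [pow_one] at this
    exact fie_pd1 this j
  refine ⟨?_, fun l j k => ?_⟩
  · have b : g1 u x ≤ ∑ _l : ι, ((D * A / r) ^ 2 + ∑ _j : Fin n, (D * A / r) ^ 2) := by
      refine Finset.sum_le_sum fun l _ => add_le_add ?_ (Finset.sum_le_sum fun j _ => ?_)
      · exact pow_le_pow_left₀ (norm_nonneg _) (h0 l) 2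
      · exact pow_le_pow_left₀ (norm_nonneg _) (h1 l j) 2
    refine b.trans ?_
    simp only [Finset.sum_const, Finset.card_univ, Fintype.card_fin, nsmul_eq_mul]
    have e : (Fintype.card ι : ℝ) * ((D * A / r) ^ 2 + n * (D * A / r) ^ 2) =
        (Fintype.card ι : ℝ) * (1 + n) * D ^ 2 * A ^ 2 / r ^ 2 := by ring
    rw [e]
    refine div_le_div_of_nonneg_right (mul_le_mul_of_nonneg_right (by linarith) (by positivity))
      (by positivity)
  · have c2 : ContDiffAt ℝ 2 (u l) x :=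
      ((hu.1 l).contDiffAt (isOpen_ball.mem_nhds (mem_ball_self r0))).of_le (WithTop.coe_le_coe.2 le_top)
    refine (fie_pd2 c2 (H' l 2 le_rfl) j k).trans ?_
    exact div_le_div_of_nonneg_right (mul_le_mul_of_nonneg_right (by linarith) A0) (by positivity)

theorem iel (h : IE n ι) (tb : TB n ι) : IEL n ι := by
  obtain ⟨K, ε, C, hε, C0, H⟩ := fie_core h tb
  refine ⟨K, ε, C, hε, C0.le, fun L x r u hL hN r0 r1 hu => ?_⟩
  by_cases ht : N2 (ball x r) u = ⊤
  · rw [ht, ENNReal.mul_top (by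
      rw [Ne, ENNReal.ofReal_eq_zero, not_le]; positivity)]
    exact le_top
  have t0 : 0 ≤ (N2 (ball x r) u).toReal / r ^ n := by positivity
  have hs : √((N2 (ball x r) u).toReal / r ^ n) ^ 2 = (N2 (ball x r) u).toReal / r ^ n :=
    Real.sq_sqrt t0
  have := (H L x r (√((N2 (ball x r) u).toReal / r ^ n)) u hL hN r0 r1 hu (Real.sqrt_nonneg _) (by
    rw [hs, div_mul_cancel₀ _ (by positivity), ENNReal.ofReal_toReal ht])).1
  rw [hs] at this
  refine (ENNReal.ofReal_le_ofReal this).trans ?_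
  conv_rhs => rw [← ENNReal.ofReal_toReal ht]
  rw [← ENNReal.ofReal_mul (by positivity)]
  refine ENNReal.ofReal_le_ofReal (le_of_eq ?_)
  rw [pow_add]
  field_simp

theorem ies (h : IE n ι) (tb : TB n ι) : IES n ι := by
  obtain ⟨K, ε, C, hε, C0, H⟩ := fie_core h tb
  set v : ℝ := (volume (ball (0 : V n) 1)).toReal with hv
  have v0 : 0 ≤ v := ENNReal.toReal_nonneg
  have vt : volume (ball (0 : V n) 1) = ENNReal.ofReal v :=
    (ENNReal.ofReal_toReal measure_ball_lt_top.ne).symm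
  set B : ℝ := Fintype.card ι * v + 1 with hB
  have B1 : 1 ≤ B := by rw [hB]; have : 0 ≤ (Fintype.card ι : ℝ) * v := by positivity
                        linarith
  refine ⟨K, ε, C * B ^ 2, hε, by positivity, fun L x r A u hL hN r0 r1 hu A0 hA => ?_⟩
  have hn : N2 (ball x r) u ≤ ENNReal.ofReal ((B * A) ^ 2 * r ^ n) := by
    have b : ∀ l, ∫⁻ z in ball x r, ‖u l z‖ₑ ^ 2 ≤ ENNReal.ofReal (A ^ 2 * (r ^ n * v)) := fun l => by
      have : ∫⁻ z in ball x r, ‖u l z‖ₑ ^ 2 ≤ ∫⁻ _z in ball x r, ENNReal.ofReal (A ^ 2) := by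
        refine setLIntegral_mono' measurableSet_ball fun z hz => ?_
        rw [← ofReal_norm, ← ENNReal.ofReal_pow (norm_nonneg _)]
        exact ENNReal.ofReal_le_ofReal (pow_le_pow_left₀ (norm_nonneg _) (hA l z hz) 2)
      refine this.trans ?_
      rw [setLIntegral_const, Measure.addHaar_ball volume x r0.le, vt, finrank_euclideanSpace_fin,
        ← ENNReal.ofReal_mul (by positivity), ← ENNReal.ofReal_mul (by positivity)]
    refine (Finset.sum_le_sum fun l _ => b l).trans ?_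
    rw [Finset.sum_const, Finset.card_univ, nsmul_eq_mul, ← ENNReal.ofReal_natCast,
      ← ENNReal.ofReal_mul (by positivity)]
    refine ENNReal.ofReal_le_ofReal ?_
    have e1 : (Fintype.card ι : ℝ) * (A ^ 2 * (r ^ n * v)) = (Fintype.card ι * v) * (A ^ 2 * r ^ n) := by
      ring
    have e2 : (B * A) ^ 2 * r ^ n = B ^ 2 * (A ^ 2 * r ^ n) := by ring
    rw [e1, e2]
    refine mul_le_mul_of_nonneg_right ?_ (by positivity)
    nlinarith
  obtain ⟨h1, h2⟩ := H L x r (B * A) u hL hN r0 r1 hu (by positivity) hn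
  refine ⟨h1.trans (le_of_eq (by ring)), fun l j k => (h2 l j k).trans ?_⟩
  refine div_le_div_of_nonneg_right ?_ (by positivity)
  have : C * (B * A) = C * A * B := by ring
  have e : C * B ^ 2 * A = C * A * B ^ 2 := by ring
  rw [this, e]
  exact mul_le_mul_of_nonneg_left (by nlinarith) (by positivity)

end Vale.Agent.P088F.Fw
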