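import Vale.Agent.P088F.FDx

/-! P088F, part F: bounds for the second kernel. -/

open scoped ContDiff Topology ENNReal
open Set Filter MeasureTheory Metric

noncomputable section

namespace Vale.Agent.P088F.Fw

open Vale.Agent.P292E

variable {n : ℕ} {ι : Type} [Fintype ι] [DecidableEq ι] [NeZero n]

omit [DecidableEq ι] [NeZero n] in
theorem fkb_ap {L L' : Op n ι} {u : Fam n ι} {x : V n} {δ Z : ℝ} (l : ι) (hδ : 0 ≤ δ)
    (hg : ∀ j k, ‖L.g j k x - L'.g j k x‖ ≤ δ) (ha : ∀ j l m, ‖L.a j l m x - L'.a j l m x‖ ≤ δ)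
    (hc : ∀ l m, ‖L.c l m x - L'.c l m x‖ ≤ δ) (u2 : ∀ j k, ‖pd j (pd k (u l)) x‖ ≤ Z)
    (u1 : ∀ m j, ‖pd j (u m) x‖ ≤ Z) (u0 : ∀ m, ‖u m x‖ ≤ Z) :
    ‖L.ap u l x - L'.ap u l x‖ ≤ (n ^ 2 + Fintype.card ι * (n + 1)) * (δ * Z) := by
  have e : L.ap u l x - L'.ap u l x =
      ∑ j, ∑ k, (L.gc j k x - L'.gc j k x) * pd j (pd k (u l)) x +
        ∑ m, (∑ j, (L.a j l m x - L'.a j l m x) * pd j (u m) x +
          (L.c l m x - L'.c l m x) * u m x) := by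
    simp only [Op.ap, sub_mul, Finset.sum_sub_distrib, Finset.sum_add_distrib]
    ring
  have b : ∀ {p q : ℂ}, ‖p‖ ≤ δ → ‖q‖ ≤ Z → ‖p * q‖ ≤ δ * Z := fun h1 h2 =>
    (norm_mul_le _ _).trans (mul_le_mul h1 h2 (norm_nonneg _) hδ)
  have g : ∀ j k, ‖L.gc j k x - L'.gc j k x‖ ≤ δ := fun j k => by
    rw [Op.gc, Op.gc, ← Complex.ofReal_sub, Complex.norm_real]
    exact hg j k
  rw [e]
  refine (norm_add_le _ _).trans ((add_le_add ((norm_sum_le _ _).trans (Finset.sum_le_sum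
    fun j _ => (norm_sum_le _ _).trans (Finset.sum_le_sum fun k _ => b (g j k) (u2 j k))))
    ((norm_sum_le _ _).trans (Finset.sum_le_sum fun m _ => (norm_add_le _ _).trans (add_le_add
      ((norm_sum_le _ _).trans (Finset.sum_le_sum fun j _ => b (ha j l m) (u1 m j)))
      (b (hc l m) (u0 m)))))).trans (le_of_eq ?_))
  simp only [Finset.sum_const, Finset.card_univ, Fintype.card_fin, nsmul_eq_mul]
  ring

omit [DecidableEq ι] [NeZero n] in
theorem fkb_g1 (u : Fam n ι) (x : V n) (m : ι) (j : Fin n) : ‖pd j (u m) x‖ ^ 2 ≤ g1 u x :=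
  ((Finset.single_le_sum (f := fun j => ‖pd j (u m) x‖ ^ 2) (fun _ _ => sq_nonneg _)
    (Finset.mem_univ j)).trans (le_add_of_nonneg_left (sq_nonneg _))).trans
    (Finset.single_le_sum (f := fun l => ‖u l x‖ ^ 2 + ∑ j, ‖pd j (u l) x‖ ^ 2)
      (fun _ _ => by positivity) (Finset.mem_univ m))

omit [NeZero n] in
theorem fkb_geo {x y z : V n} {r : ℝ} (hx : ‖x‖ < 20) (hr : 0 < r) (h1 : r ≤ 1)
    (h : 2 * r ≤ ‖x - y‖) (hz : z ∈ ball x r) :
    z ∈ ball (0 : V n) 30 ∧ z ≠ y ∧ r ≤ ‖z - y‖ := by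
  rw [mem_ball_iff_norm] at hz
  have a1 := norm_sub_norm_le z x
  have a2 := norm_sub_le_norm_sub_add_norm_sub x z y
  rw [norm_sub_rev x z] at a2
  have a3 : r ≤ ‖z - y‖ := by linarith
  refine ⟨mem_ball_zero_iff.2 (by linarith), fun e => ?_, a3⟩
  rw [e, sub_self, norm_zero] at a3
  linarith

theorem kb (ie : IES n ι) (tb : TB n ι) : KB n ι := by
  intro c₀
  obtain ⟨K, ε, C, hε, hC, ie⟩ := ie
  obtain ⟨T, hT, ht⟩ := tb.2.2.1 K
  have hT0 : 0 < T := by linarith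
  obtain ⟨N, hN⟩ : ∃ N : ℝ, N = Fintype.card ι := ⟨_, rfl⟩
  have hN0 : 0 ≤ N := hN ▸ Nat.cast_nonneg _
  obtain ⟨D, hD⟩ : ∃ D : ℝ, D = n ^ 2 + N * (n + 1) := ⟨_, rfl⟩
  refine ⟨K + 2, ε / T, 2 * N * C * 2 ^ (2 * c₀ + 2) + (N * D * (C + 1)) ^ 2 * 2 ^ (2 * c₀ + 4),
    by positivity, by positivity, fun d Λ t δ x y ok hx hy t0 t1 hxy => ?_⟩
  obtain ⟨r, rfl⟩ : ∃ r, t = 2 * r := ⟨t / 2, by ring⟩
  have r0 : 0 < r := by linarith
  have r1 : r ≤ 1 := by linarith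
  have Λ0 := ok.nn
  obtain ⟨A, hA⟩ : ∃ A, A = Λ / r ^ c₀ := ⟨_, rfl⟩
  have A0 : 0 ≤ A := hA ▸ by positivity
  have x30 : x ∈ ball (0 : V n) 30 := mem_ball_zero_iff.2 (by linarith)
  have y30 : y ∈ ball (0 : V n) 30 := mem_ball_zero_iff.2 (by linarith)
  have gx := fun z => fkb_geo (z := z) (show ‖x‖ < 20 by linarith) r0 r1 hxy
  have gy := fun z => fkb_geo (z := z) hy r0 r1 (hxy.trans_eq (norm_sub_rev x y))
  have ox : ∀ z ∈ ball x r, (z, y) ∈ offd (ball (0 : V n) 30) := fun z hz =>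
    ⟨(gx z hz).1, y30, (gx z hz).2.1⟩
  have oy : ∀ z ∈ ball y r, (x, z) ∈ offd (ball (0 : V n) 30) := fun z hz =>
    ⟨x30, (gy z hz).1, (gy z hz).2.1.symm⟩
  have bx : ∀ l m, ∀ z ∈ ball x r, ‖d.K2 l m z y‖ ≤ A := fun l m z hz =>
    (ok.b2 _ (ox z hz) l m).trans (hA ▸ div_le_div_of_nonneg_left Λ0 (pow_pos r0 _)
      (pow_le_pow_left₀ r0.le (gx z hz).2.2 _))
  have bY : ∀ l m, ∀ z ∈ ball y r, ‖d.K2 l m x z‖ ≤ A := fun l m z hz =>
    (ok.b2 _ (oy z hz) l m).trans (hA ▸ div_le_div_of_nonneg_left Λ0 (pow_pos r0 _)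
      (pow_le_pow_left₀ r0.le ((gy z hz).2.2.trans_eq (norm_sub_rev z x)) _))
  have n2 : d.L2.Near K ε := ok.nr2.mono (by omega) (div_le_self hε.le hT)
  have nt : d.L2.t.Near K ε := (ht _ _ ok.sm2 ok.nr2).mono le_rfl
    (le_of_eq (mul_div_cancel₀ _ hT0.ne'))
  have ix := fun m => ie _ x r A _ ok.sm2 n2 r0 r1 (sol_slice ok.k2.sol m ox) A0 fun l => bx l m
  have iy := fun l => ie _ y r A _ (tb.1 _ ok.sm2) nt r0 r1 ((sol_solY ok.k2.sol).slice l oy) A0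
    (bY l)
  refine ⟨(e2_le _ x y).trans ((add_le_add (Finset.sum_le_sum fun m _ => (ix m).1)
    (Finset.sum_le_sum fun l _ => (iy l).1)).trans ?_), fun df => ?_⟩
  · simp only [Finset.sum_const, Finset.card_univ, nsmul_eq_mul, ← hN]
    refine (le_of_eq ?_).trans (div_le_div_of_nonneg_right (mul_le_mul_of_nonneg_right
      (le_add_of_nonneg_right (by positivity)) (sq_nonneg _)) (by positivity))
    rw [hA]
    field_simp
    ring
  · have d0 := df 0 (by norm_num)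
    simp only [norm_iteratedFDeriv_zero] at d0
    have δ0 : 0 ≤ δ := (norm_nonneg _).trans (d0.1 0 0)
    obtain ⟨Z, hZ⟩ : ∃ Z, Z = (C + 1) * A / r ^ 2 := ⟨_, rfl⟩
    have rr : r ^ 2 ≤ 1 := pow_le_one₀ r0.le r1
    have r2 : 0 < r ^ 2 := by positivity
    have Z0 : 0 ≤ Z := hZ ▸ by positivity
    have Z1 : A ≤ Z := by
      rw [hZ, le_div_iff₀ r2]
      nlinarith
    have Z2 : C * A / r ^ 2 ≤ Z := hZ ▸ div_le_div_of_nonneg_right (by nlinarith) r2.le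
    have Z3 : C * A ^ 2 / r ^ 2 ≤ Z ^ 2 := by
      rw [show C * A ^ 2 / r ^ 2 = C * A / r ^ 2 * A by ring, sq Z]
      exact mul_le_mul Z2 Z1 A0 Z0
    have b : ∀ l m, ‖apx d.L1 d.K2 l m x y‖ ^ 2 ≤ (D * (δ * Z)) ^ 2 := fun l m => by
      refine pow_le_pow_left₀ (norm_nonneg _) ?_ 2
      have := fkb_ap (u := fun l x => d.K2 l m x y) l δ0 d0.1 d0.2.1 d0.2.2
        (fun j k => ((ix m).2 l j k).trans Z2)
        (fun m' j => (pow_le_pow_iff_left₀ (norm_nonneg _) Z0 two_ne_zero).1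
          ((fkb_g1 (fun l x => d.K2 l m x y) x m' j).trans ((ix m).1.trans Z3)))
        (fun m' => (bx m' m x (mem_ball_self r0)).trans Z1)
      rw [show d.L2.ap (fun l x => d.K2 l m x y) l x = 0 from
        ok.k2.sol.ex _ (ox x (mem_ball_self r0)) l m, sub_zero, ← hN, ← hD] at this
      exact this
    refine (Finset.sum_le_sum fun l _ => Finset.sum_le_sum fun m _ => b l m).trans ?_
    simp only [Finset.sum_const, Finset.card_univ, nsmul_eq_mul, ← hN]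
    refine (le_of_eq ?_).trans (div_le_div_of_nonneg_right (mul_le_mul_of_nonneg_right
      (mul_le_mul_of_nonneg_right (le_add_of_nonneg_left (by positivity)) (sq_nonneg _))
      (sq_nonneg _)) (by positivity))
    rw [hZ, hA]
    field_simp
    ring

end Vale.Agent.P088F.Fw
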