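import Vale.Agent.P088F.FDefs

/-! P088F, part F: inverse matrices. -/

open scoped ContDiff Topology ENNReal
open Set Filter MeasureTheory Metric

noncomputable section

namespace Vale.Agent.P088F.Fw

open Vale.Agent.P292E

variable {n : ℕ} {ι : Type} [Fintype ι] [DecidableEq ι] [NeZero n]

theorem fmat_key {n : ℕ} {A : Matrix (Fin n) (Fin n) ℝ} {ε : ℝ} (h0 : 0 ≤ ε)
    (h : ∀ j k, |A j k - if j = k then 1 else 0| ≤ ε) (v : Fin n → ℝ) (j : Fin n) :
    |A.mulVec v j - v j| ≤ n * ε * ‖v‖ := by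
  have e : A.mulVec v j - v j = ∑ k, (A j k - if j = k then 1 else 0) * v k := by
    simp [Matrix.mulVec, dotProduct, sub_mul, Finset.sum_sub_distrib]
  rw [e]
  refine (Finset.abs_sum_le_sum_abs _ _).trans ((Finset.sum_le_sum (g := fun _ => ε * ‖v‖)
    fun k _ => ?_).trans (le_of_eq (by simp [mul_assoc])))
  rw [abs_mul]
  exact mul_le_mul (h j k) (norm_le_pi_norm v k) (abs_nonneg _) h0

theorem fmat_norm {n : ℕ} {A : Matrix (Fin n) (Fin n) ℝ} {ε : ℝ} (h0 : 0 ≤ ε) (h1 : n * ε ≤ 1 / 2)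
    (h : ∀ j k, |A j k - if j = k then 1 else 0| ≤ ε) (v : Fin n → ℝ) :
    ‖v‖ ≤ 2 * ‖A.mulVec v‖ := by
  have h2 : ‖v‖ ≤ ‖A.mulVec v‖ + n * ε * ‖v‖ := by
    refine (pi_norm_le_iff_of_nonneg (by positivity)).2 fun j => ?_
    have h3 := abs_le.1 (fmat_key h0 h v j)
    have h4 := abs_le.1 (norm_le_pi_norm (A.mulVec v) j)
    rw [Real.norm_eq_abs, abs_le]
    constructor <;> linarith [h3.1, h3.2, h4.1, h4.2]
  nlinarith [norm_nonneg v]

theorem mat (n : ℕ) : MAT n := by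
  refine ⟨1 / (2 * n + 2), 2 * n, by positivity, by positivity, fun g x ε hε hs h => ?_⟩
  rcases isEmpty_or_nonempty (Fin n) with hn | ⟨⟨i⟩⟩
  · exact ⟨fun j => isEmptyElim j, fun j => isEmptyElim j, fun j => isEmptyElim j, by simp⟩
  have h0 : 0 ≤ ε := (abs_nonneg _).trans (h i i)
  have h1 : n * ε ≤ 1 / 2 := by
    rw [le_div_iff₀ (by positivity)] at hε
    nlinarith
  set A : Matrix (Fin n) (Fin n) ℝ := Matrix.of fun j k => g j k x with hA
  have hd : A.det ≠ 0 := fun e => by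
    obtain ⟨v, h2, h3⟩ := Matrix.exists_mulVec_eq_zero_iff.2 e
    have h4 := fmat_norm (A := A) h0 h1 h v
    rw [h3, norm_zero, mul_zero] at h4
    exact h2 (norm_le_zero_iff.1 h4)
  have hm := A.mul_nonsing_inv (isUnit_iff_ne_zero.2 hd)
  have ht : A.transpose = A := Matrix.ext fun j k => hs k j
  have hc : ∀ j k, A.mulVec (fun i => A⁻¹ i k) j = if j = k then 1 else 0 := fun j k => by
    rw [← Matrix.one_apply, ← hm]; rfl
  refine ⟨fun j k => ?_, hc, fun j k => ?_, hd⟩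
  · have h2 := congrFun (congrFun A.transpose_nonsing_inv k) j
    rwa [ht] at h2
  · have h2 := fmat_key (A := A) h0 h (fun i => A⁻¹ i k) j
    have h3 := fmat_norm (A := A) h0 h1 h fun i => A⁻¹ i k
    have h4 : ‖A.mulVec fun i => A⁻¹ i k‖ ≤ 1 := (pi_norm_le_iff_of_nonneg zero_le_one).2 fun l => by
      rw [hc]; split_ifs <;> simp
    rw [hc, abs_sub_comm] at h2
    refine h2.trans ?_
    nlinarith [mul_nonneg (Nat.cast_nonneg (α := ℝ) n) h0]

end Vale.Agent.P088F.Fw
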