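import Vale.Agent.P088F.FDx
import Vale.Agent.P088F.FGeo

/-! P088F, part F: the bound in the mean. -/

open scoped ContDiff Topology ENNReal
open Set Filter MeasureTheory Metric

noncomputable section

namespace Vale.Agent.P088F.Fw

open Vale.Agent.P292E

variable {n : ℕ} {ι : Type} [Fintype ι] [DecidableEq ι] [NeZero n]

theorem fmid_pow {B t s : ℝ} {i j e : ℕ} (hB : 0 < B) (hB1 : B ≤ 1) (ht : 0 < t) (ht1 : t ≤ 1)
    (hs : 0 ≤ s) (hi : i ≤ e) (hj : j ≤ e) : s / B ^ i / t ^ j ≤ s / (B * t) ^ e := by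
  rw [div_div, mul_pow]
  refine div_le_div_of_nonneg_left hs (by positivity) ?_
  exact mul_le_mul (pow_le_pow_of_le_one hB.le hB1 hi) (pow_le_pow_of_le_one ht.le ht1 hj)
    (by positivity) (by positivity)

theorem fmid_psi {P : Par} (hN : 0 < P.N) {x : V n} (hx : x ∈ P.fX n) : psi P.κ x < P.a := by
  have h1 : 0 < 3 / (2 * P.N) := by positivity
  linarith [hx.2.2]

theorem fmid_meas {P : Par} {E : Kr n ι} (hB : 0 < P.B) (hN : 0 < P.N) (h1 : P.B ≤ 1)
    (hE : SmK (P.new n) E) : AEMeasurable (If E) (volume.restrict (P.fX n)) := by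
  have hc : ContinuousOn (e1 E) (P.fX n ×ˢ Yf n) :=
    (hE.cont1 (new_open P)).mono fun p hp =>
      far_new hB hN.le h1 (hp.1.2.1.trans_lt (by norm_num)) (fmid_psi hN hp.1) hp.2
  have hm : MeasurableSet (P.fX n ×ˢ Yf n) :=
    (X_compact P).measurableSet.prod Yf_compact.measurableSet
  have h2 : AEMeasurable (fun p : V n × V n => ENNReal.ofReal (e1 E p))
      ((volume.restrict (P.fX n)).prod (volume.restrict (Yf n))) := by
    rw [Measure.prod_restrict]
    exact (hc.aemeasurable hm).ennreal_ofReal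
  exact h2.lintegral_prod_right'

theorem fmid_set (P : Par) (y : V n) (t : ℝ) :
    MeasurableSet {x ∈ P.fX n | 7 / 2 * P.b x ≤ ‖y - x‖ ∧ t ≤ ‖y - x‖} := by
  have hb : Continuous (P.b : V n → ℝ) := (b_sm P).continuous
  have h1 : IsClosed {x : V n | 7 / 2 * P.b x ≤ ‖y - x‖} := isClosed_le (by fun_prop) (by fun_prop)
  have h2 : IsClosed {x : V n | t ≤ ‖y - x‖} := isClosed_le (by fun_prop) (by fun_prop)
  exact ((X_compact P).isClosed.inter (h1.inter h2)).measurableSet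

theorem mid (tb : TB n ι) (tk : TAK n ι) (sr : SRC n ι) (fa : FAR n ι) (ab : ABS n ι) :
    MID n ι := by
  intro c₀
  obtain ⟨p, ea, κa, h3, hpc, hκa, HA⟩ := ab c₀
  obtain ⟨κf, hκf, HF⟩ := fa
  obtain ⟨M, HT⟩ := tk
  obtain ⟨KT, εT, CT, hεT, hCT, HT⟩ := HT M le_rfl
  obtain ⟨KS, εS, cS, CS, hεS, hcS, -, HS⟩ := sr c₀ 1
  obtain ⟨Ct, hCt, Ht⟩ := tb.2.2.1 KT
  refine ⟨p, 2 * M + n + 8 + ea + 3, min (min κa κf) (1 / 20), h3,
    lt_min (lt_min hκa hκf) (by norm_num), fun κ hκ hκ0 => ?_⟩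
  obtain ⟨KA, εA, cA, NA, CA, hεA, hcA, hCA, HA⟩ :=
    HA κ hκ (hκ0.trans ((min_le_left _ _).trans (min_le_left _ _)))
  obtain ⟨KF, εF, cF, NF, CF, hεF, hcF, hCF, HF⟩ :=
    HF c₀ 1 le_rfl κ hκ (hκ0.trans ((min_le_left _ _).trans (min_le_right _ _)))
  have hκ1 : κ ≤ 1 / 20 := hκ0.trans (min_le_right _ _)
  have hCt0 : 0 < Ct := by linarith
  refine ⟨KA + KF + KS + (KT + 2), min (min εA εF) (min εS (εT / Ct)),
    min (min cA cF) (min cS (1 / 10)), max (max NA NF) 1, CF + CT * (CA + CF),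
    lt_min (lt_min hεA hεF) (lt_min hεS (by positivity)),
    lt_min (lt_min hcA hcF) (lt_min hcS (by norm_num)), by positivity, ?_⟩
  intro P d W Λ A hP st y t hy ht ht1
  have hN1 : (1 : ℝ) ≤ max (max NA NF) 1 := le_max_right _ _
  have hc10 : min (min cA cF) (min cS (1 / 10)) ≤ 1 / 10 :=
    (min_le_right _ _).trans (min_le_right _ _)
  have hc1 : min (min cA cF) (min cS (1 / 10)) ≤ 1 := hc10.trans (by norm_num)
  have stA := st.mono (K' := KA) (by omega) ((min_le_left _ _).trans (min_le_left _ _))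
    ((min_le_left _ _).trans (min_le_left _ _)) ((le_max_left _ _).trans (le_max_left _ _))
    le_rfl hN1 hc1
  have stF := st.mono (K' := KF) (p' := 1 + c₀ + 2) (by omega)
    ((min_le_left _ _).trans (min_le_right _ _)) ((min_le_left _ _).trans (min_le_right _ _))
    ((le_max_right _ _).trans (le_max_left _ _)) (by omega) hN1 hc1
  have stS := st.mono (K' := KS) (p' := 1 + c₀ + 2) (by omega)
    ((min_le_right _ _).trans (min_le_left _ _)) ((min_le_right _ _).trans (min_le_left _ _))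
    hN1 (by omega) hN1 hc1
  have hB : 0 < P.B := st.ok.B0
  have hN : 0 < P.N := by linarith [st.ok.N0]
  have hB10 : P.B ≤ 1 / 10 := by
    have h1 := (ok_small (st.ok.mono hN1 hc10)).2.1
    linarith
  have hB1 : P.B ≤ 1 := by linarith
  obtain ⟨sm, sy, -⟩ := HS P d W Λ A (hP ▸ hκ) (hP ▸ hκ1) stS
  obtain ⟨F1, F2⟩ := HF P d W Λ A hP stF
  have IA := HA P d W Λ A hP stA
  have nr : d.L2.t.Near KT εT := by
    refine (Ht d.L2 _ st.dok.sm2 (st.dok.nr2.mono (by omega)
      ((min_le_right _ _).trans (min_le_right _ _)))).mono le_rfl (le_of_eq ?_)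
    field_simp
  have hXm : MeasurableSet (P.fX n) := (X_compact P).measurableSet
  have hwq : ∀ x ∈ P.fX n, 1 ≤ P.wq 1 x := fun x hx =>
    one_le_wq hB hN.le 1 (fmid_psi hN hx).le
  have hs0 : 0 ≤ (A + Λ) ^ 2 := sq_nonneg _
  generalize (A + Λ) ^ 2 = s at F1 F2 IA hs0 ⊢
  have q1 := fmid_pow (i := 3) (j := 0) (e := 2 * M + n + 8 + ea + 3) hB hB1 ht ht1 hs0
    (by omega) (by omega)
  have q2 := fmid_pow (i := 3) (j := 2 * M + n + 8) (e := 2 * M + n + 8 + ea + 3) hB hB1 ht ht1 hs0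
    (by omega) (by omega)
  have q3 := fmid_pow (i := ea) (j := 2 * M + n + 8) (e := 2 * M + n + 8 + ea + 3) hB hB1 ht ht1 hs0
    (by omega) (by omega)
  have q0 : 0 ≤ s / (P.B * t) ^ (2 * M + n + 8 + ea + 3) := by positivity
  rw [pow_zero, div_one] at q1
  rw [mul_div_assoc] at F1 F2 IA ⊢
  generalize s / (P.B * t) ^ (2 * M + n + 8 + ea + 3) = u at q0 q1 q2 q3 ⊢
  rcases le_or_gt 8 ‖y‖ with h8 | h8
  · refine (lintegral_mono_set fun x hx => hx.1).trans ?_
    refine (setLIntegral_mono' hXm fun x hx => ?_).trans ((F1 y ⟨h8, hy⟩).trans ?_)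
    · have h0 := e_nonneg (d.er W) (x, y)
      exact ENNReal.ofReal_le_ofReal
        (h0.2.1.trans (le_mul_of_one_le_left (h0.1.trans h0.2.1) (hwq x hx)))
    · refine ENNReal.ofReal_le_ofReal ((mul_le_mul_of_nonneg_left q1 hCF).trans ?_)
      exact mul_le_mul_of_nonneg_right (le_add_of_nonneg_right (by positivity)) q0
  · have key : ∀ x ∈ {x ∈ P.fX n | 7 / 2 * P.b x ≤ ‖y - x‖ ∧ t ≤ ‖y - x‖},
        ENNReal.ofReal (e0 (d.er W) (x, y)) ≤ ENNReal.ofReal (CT / t ^ (2 * M + n + 8)) *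
          (P.fI (d.er W) x + If (d.er W) x) := by
      intro x hx
      have h0 := e_nonneg (d.er W) (x, y)
      have h9 : ‖y - x‖ ≤ 9 := by linarith [norm_sub_le y x, hx.1.2.1]
      refine (ENNReal.ofReal_le_ofReal (h0.2.1.trans h0.2.2)).trans
        ((HT P d.L2.t (d.er W) hN hB hB10 sm nr sy x hx.1 y hx.2.1 h9).trans ?_)
      refine mul_le_mul' (ENNReal.ofReal_le_ofReal ?_) (add_le_add ?_ le_rfl)
      · exact div_le_div_of_nonneg_left hCT (by positivity) (pow_le_pow_left₀ ht.le hx.2.2 _)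
      · refine mul_le_of_le_one_left' (ENNReal.ofReal_le_one.2 ?_)
        exact pow_le_one₀ (Par.b_pos hB x).le ((b_le hB hN.le (fmid_psi hN hx.1).le).trans hB1)
    have F3 : ∫⁻ x in P.fX n, If (d.er W) x ≤ ENNReal.ofReal (CF * (s / P.B ^ 3)) :=
      (setLIntegral_mono' hXm fun x hx =>
        le_mul_of_one_le_left' (ENNReal.one_le_ofReal.2 (hwq x hx))).trans F2
    refine (setLIntegral_mono' (fmid_set P y t) key).trans
      ((lintegral_mono_set fun x hx => hx.1).trans ?_)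
    rw [lintegral_const_mul' _ _ ENNReal.ofReal_ne_top,
      lintegral_add_right' _ (fmid_meas hB hN hB1 sy.sm)]
    refine (mul_le_mul' le_rfl (add_le_add IA F3)).trans ?_
    rw [← ENNReal.ofReal_add (by positivity) (by positivity),
      ← ENNReal.ofReal_mul (by positivity)]
    refine ENNReal.ofReal_le_ofReal ?_
    have e1 : CT / t ^ (2 * M + n + 8) * (CA * (s / P.B ^ ea) + CF * (s / P.B ^ 3)) =
        CT * CA * (s / P.B ^ ea / t ^ (2 * M + n + 8)) +
          CT * CF * (s / P.B ^ 3 / t ^ (2 * M + n + 8)) := by ring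
    have k1 := mul_le_mul_of_nonneg_left q3 (mul_nonneg hCT hCA)
    have k2 := mul_le_mul_of_nonneg_left q2 (mul_nonneg hCT hCF)
    have k3 := mul_nonneg hCF q0
    have e2 : (CF + CT * (CA + CF)) * u = CF * u + CT * CA * u + CT * CF * u := by ring
    rw [e1, e2]
    linarith

end Vale.Agent.P088F.Fw
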