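import Vale.Agent.P088F.ACore

/-! P088, part F: a multiplier inequality with a free vector field. -/

open MeasureTheory Set Filter Topology
open scoped ContDiff

noncomputable section

namespace Vale.Agent.P088.Car

variable {E : Type} [NormedAddCommGroup E] [NormedSpace ℝ E] {ι : Type} [Fintype ι]

/-- The vector field of the identity. -/
def gw (e : ι → E) (a : ι → ι → E → ℝ) (X : ι → E → ℝ) (c g v : E → ℝ) (i : ι) (y : E) : ℝ :=
  (2 * (al e X v y * fx e a v i y) - X i y * qf a y (gr e v y) (gr e v y)) +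
    (g y * v y * fx e a v i y + X i y * (c y * (v y * v y)))

variable {e : ι → E} {a : ι → ι → E → ℝ} {X : ι → E → ℝ} {c g v u φ : E → ℝ} {x : E}

theorem sa_gw (ha : ∀ i j, SA (a i j) x) (hX : ∀ k, SA (X k) x) (hc : SA c x) (hg : SA g x)
    (hv : SA v x) (i : ι) : SA (gw e a X c g v i) x :=
  ((contDiffAt_const.mul ((sa_al hX hv).mul (sa_fx ha hv i))).sub
    ((hX i).mul (sa_qf ha hv hv))).add
    (((hg.mul hv).mul (sa_fx ha hv i)).add ((hX i).mul (hc.mul (hv.mul hv))))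

theorem gen_id (ha : ∀ i j, SA (a i j) x) (hs : ∀ i j, a i j x = a j i x) (hX : ∀ k, SA (X k) x)
    (hc : SA c x) (hg : SA g x) (hv : SA v x) :
    -LL e a X x (gr e v x) + (dg e X x - g x) * qf a x (gr e v x) (gr e v x) -
        v x * qf a x (gr e g x) (gr e v x) + ((g x - dg e X x) * c x - al e X c x) * v x ^ 2 +
        ∑ i, dd (e i) (gw e a X c g v i) x =
      (dv e a v x + c x * v x) * (2 * al e X v x + g x * v x) := by
  have hF := sa_fx (e := e) ha hv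
  have s1 := fun i => ((contDiffAt_const (c := (2 : ℝ))).mul ((sa_al (e := e) hX hv).mul
    (hF i))).sub ((hX i).mul (sa_qf (e := e) ha hv hv))
  have s2 := fun i => (hg.mul hv).mul (hF i)
  have s3 := fun i => (hX i).mul (hc.mul (hv.mul hv))
  have e1 := rellich_pt (e := e) ha hs hX hv
  have e2 := green_pt (e := e) ha hv (hg.mul hv)
  have e3 := div_pt (e := e) hX (hc.mul (hv.mul hv))
  rw [qf_gr_mul hg hv] at e2
  rw [al_mul hc (hv.mul hv), al_mul hv hv] at e3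
  have e4 : ∀ i, dd (e i) (gw e a X c g v i) x = _ := fun i =>
    (dd_add (s1 i) ((s2 i).add (s3 i)) (e i)).trans (by rw [dd_add (s2 i) (s3 i)])
  simp only [e4, Finset.sum_add_distrib]
  rw [e1, e2, e3]
  ring

theorem conj_id (ha : ∀ i j, SA (a i j) x) (hs : ∀ i j, a i j x = a j i x) (hφ : SA φ x)
    (hu : SA u x) :
    dv e a (fun y => Real.exp (φ y) * u y) x -
        2 * al e (fx e a φ) (fun y => Real.exp (φ y) * u y) x -
        dv e a φ x * (Real.exp (φ x) * u x) + qq e a φ x * (Real.exp (φ x) * u x) =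
      Real.exp (φ x) * dv e a u x := by
  have hE : SA (fun y => Real.exp (φ y)) x := hφ.exp
  have d1 : ∀ i, dd (e i) (fun y => Real.exp (φ y)) =ᶠ[𝓝 x]
      fun y => Real.exp (φ y) * dd (e i) φ y := fun i => by
    filter_upwards [hφ.ev 1] with y hy
    simp only [dd, (hy.differentiableAt one_ne_zero).hasFDerivAt.exp.fderiv,
      smul_apply, smul_eq_mul]
  have d2 : ∀ i, fx e a (fun y => Real.exp (φ y)) i =ᶠ[𝓝 x]
      fun y => Real.exp (φ y) * fx e a φ i y := fun i => by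
    filter_upwards [eventually_all.2 d1] with y hy
    simp only [fx, hy, Finset.mul_sum, smul_eq_mul]
    exact Finset.sum_congr rfl fun j _ => by ring
  have d3 : dv e a (fun y => Real.exp (φ y)) x =
      Real.exp (φ x) * (qq e a φ x + dv e a φ x) := by
    simp only [dv, fun i => dd_congr (d2 i) (e i),
      fun i => dd_mul hE (sa_fx (e := e) ha hφ i) (e i), fun i => (d1 i).self_of_nhds, qq, al,
      Finset.mul_sum, mul_add, ← Finset.sum_add_distrib]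
    exact Finset.sum_congr rfl fun j _ => by ring
  have d4 : al e (fx e a fun y => Real.exp (φ y)) u x =
      Real.exp (φ x) * al e (fx e a φ) u x := by
    simp only [al, fun i => (d2 i).self_of_nhds, Finset.mul_sum]
    exact Finset.sum_congr rfl fun j _ => by ring
  have d5 : al e (fx e a φ) (fun y => Real.exp (φ y)) x = Real.exp (φ x) * qq e a φ x := by
    simp only [qq, al, fun i => (d1 i).self_of_nhds, Finset.mul_sum]
    exact Finset.sum_congr rfl fun j _ => by ring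
  rw [dv_mul ha hs hE hu, al_mul hE hu, d3, d4, d5]
  ring

theorem conj_gr (hφ : SA φ x) (hu : SA u x) :
    Real.exp (φ x) ^ 2 * sq2 (gr e u x) ≤
      2 * sq2 (gr e (fun y => Real.exp (φ y) * u y) x) +
        2 * (Real.exp (φ x) * u x) ^ 2 * sq2 (gr e φ x) := by
  have hE : SA (fun y => Real.exp (φ y)) x := hφ.exp
  simp only [sq2, gr, fun i => dd_mul hE hu (e i), fun i => dd_exp hφ (e i), Finset.mul_sum,
    ← Finset.sum_add_distrib]
  refine Finset.sum_le_sum fun i _ => ?_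
  nlinarith [sq_nonneg (Real.exp (φ x) * dd (e i) u x +
    2 * (Real.exp (φ x) * dd (e i) φ x * u x))]

theorem rn_T {K r ε β D2 s4 s5 : ℝ} (hr : 0 < r) (hK : 300 ≤ K) (hβ : β = K * (1 + r))
    (hε : 0 ≤ ε) (hεβ : ε * β ≤ 1 / 100) (h2' : |D2| ≤ 2 * ε * r ^ 3) (h4 : |s4| ≤ ε * r)
    (h5 : |s5| ≤ ε * r) :
    |K - β * (s4 + s5) / r + D2 * (K * (2 + r)) / r ^ 3 + β ^ 2 * D2 / r ^ 3| ≤ 11 / 10 * β := by
  have hK0 : 0 < K := by linarith
  have hKr := mul_pos hK0 hr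
  have hβK : K ≤ β := by rw [hβ]; linarith
  have hβ0 : 0 < β := by linarith
  have t1 : |β * (s4 + s5) / r| ≤ 2 * (ε * β) := by
    rw [abs_div, abs_mul, abs_of_pos hβ0, abs_of_pos hr, div_le_iff₀ hr]
    calc β * |s4 + s5| ≤ β * (ε * r + ε * r) := by
          gcongr
          exact (abs_add_le s4 s5).trans (add_le_add h4 h5)
      _ = _ := by ring
  have t2 : |D2 * (K * (2 + r)) / r ^ 3| ≤ 4 * (ε * β) := by
    rw [abs_div, abs_mul, abs_of_pos (by positivity : 0 < K * (2 + r)),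
      abs_of_pos (by positivity : 0 < r ^ 3), div_le_iff₀ (by positivity)]
    have : K * (2 + r) ≤ 2 * β := by rw [hβ]; linarith
    calc |D2| * (K * (2 + r)) ≤ 2 * ε * r ^ 3 * (2 * β) := by gcongr
      _ = _ := by ring
  have t3 : |β ^ 2 * D2 / r ^ 3| ≤ 2 * (ε * β) * β := by
    rw [abs_div, abs_mul, abs_of_pos (by positivity : 0 < β ^ 2),
      abs_of_pos (by positivity : 0 < r ^ 3), div_le_iff₀ (by positivity)]
    calc β ^ 2 * |D2| ≤ β ^ 2 * (2 * ε * r ^ 3) := by gcongr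
      _ = _ := by ring
  have t4 : 2 * (ε * β) * β ≤ 2 * (1 / 100) * β := by gcongr
  rw [abs_le] at t1 t2 t3 ⊢
  constructor <;> linarith [t1.1, t1.2, t2.1, t2.2, t3.1, t3.2]

theorem rn_R {K r ε β S D1 T v : ℝ} (hr : 0 < r) (hr' : r ≤ 60) (hK : 300 ≤ K) (hβ : 0 < β)
    (hε : 0 ≤ ε) (hεβ : ε * β ≤ 1 / 100) (hS : 0 ≤ S) (h2 : D1 ^ 2 ≤ (ε * r ^ 2) ^ 2 * S)
    (b1 : |T| ≤ 11 / 10 * β) :
    (-2 * β * D1 / r + T * v) ^ 2 / 2 ≤ K * r / 16 * S + K * β ^ 2 / (4 * r) * v ^ 2 := by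
  have b2 : T ^ 2 ≤ (11 / 10 * β) ^ 2 := by rw [← sq_abs]; gcongr
  have b3 : (β * D1 / r) ^ 2 ≤ (1 / 100) ^ 2 * r ^ 2 * S := by
    rw [div_pow, div_le_iff₀ (by positivity), mul_pow]
    calc β ^ 2 * D1 ^ 2 ≤ β ^ 2 * ((ε * r ^ 2) ^ 2 * S) := by gcongr
      _ = (ε * β) ^ 2 * (r ^ 4 * S) := by ring
      _ ≤ (1 / 100) ^ 2 * (r ^ 4 * S) := by gcongr
      _ = _ := by ring
  have t1 : (-2 * β * D1 / r + T * v) ^ 2 ≤ 8 * (β * D1 / r) ^ 2 + 2 * (T ^ 2 * v ^ 2) := by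
    have : 8 * (β * D1 / r) ^ 2 + 2 * (T ^ 2 * v ^ 2) - (-2 * β * D1 / r + T * v) ^ 2 =
        (2 * (β * D1 / r) + T * v) ^ 2 := by ring
    linarith [sq_nonneg (2 * (β * D1 / r) + T * v)]
  have t2 : T ^ 2 * v ^ 2 ≤ K * β ^ 2 / (4 * r) * v ^ 2 := by
    gcongr
    refine b2.trans ?_
    rw [le_div_iff₀ (by positivity)]
    have : 0 ≤ (K - 121 / 25 * r) * β ^ 2 := mul_nonneg (by linarith) (sq_nonneg _)
    linarith
  have t3 : 4 * ((1 / 100) ^ 2 * r ^ 2 * S) ≤ K * r / 16 * S := by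
    have : 0 ≤ (K / 16 - r / 2500) * (r * S) := mul_nonneg (by linarith) (by positivity)
    linarith
  linarith

theorem rn_G {K r ε n β S q y D1 s3 v : ℝ} (hr : 0 < r) (hK : 300 ≤ K) (hn : 0 ≤ n)
    (hKn : 13 * n ≤ β) (hε : 0 ≤ ε) (hεβ : ε * β ≤ 1 / 100) (hεr : ε * r ≤ 1 / 100) (hS : 0 ≤ S)
    (h1 : S ≤ 2 * q) (hy : y ^ 2 ≤ 4 * r ^ 2 * S) (h2 : D1 ^ 2 ≤ (ε * r ^ 2) ^ 2 * S)
    (h3 : |s3| ≤ ε * r * S) :
    5 / 16 * (K * r * S) - K * β ^ 2 / (4 * r) * v ^ 2 ≤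
      2 * K / r * ((y + D1) * y) - β * s3 + K * r * q + K * n / r * v * (y + D1) := by
  have hK0 : 0 < K := by linarith
  have hβ0 : 0 ≤ β := by linarith
  have hrS : 0 ≤ r ^ 2 * S := by positivity
  have b6 : D1 ^ 2 ≤ r ^ 2 / 16 * S := by
    have : (ε * r) ^ 2 ≤ (1 / 100) ^ 2 := by gcongr
    have := mul_le_mul_of_nonneg_right this hrS
    linarith
  have c1 : -(K * r / 32 * S) ≤ 2 * K / r * ((y + D1) * y) := by
    have t1 : -(r ^ 2 / 64 * S) ≤ (y + D1) * y := by linarith [sq_nonneg (y + D1 / 2)]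
    have t2 := mul_le_mul_of_nonneg_left t1 (by positivity : 0 ≤ 2 * K / r)
    have t3 : 2 * K / r * -(r ^ 2 / 64 * S) = -(K * r / 32 * S) := by field_simp; ring
    linarith
  have c2 : β * s3 ≤ K * r / 100 * S := by
    have t1 : β * s3 ≤ β * (ε * r * S) := by gcongr; exact (abs_le.1 h3).2
    have t2 : ε * β * (r * S) ≤ 1 / 100 * (r * S) := by gcongr
    have t3 : 0 ≤ (K - 1) * (r * S) := mul_nonneg (by linarith) (by positivity)
    linarith
  have c3 : K * r * S ≤ K * r * (2 * q) := by gcongr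
  have c4 : -(K * r / 16 * S) - K * β ^ 2 / (4 * r) * v ^ 2 ≤ K * n / r * v * (y + D1) := by
    have t1 : (y + D1) ^ 2 ≤ 10 * r ^ 2 * S := by linarith [sq_nonneg (y - D1)]
    have t2 : (13 * n) ^ 2 ≤ β ^ 2 := by gcongr
    have t3 : -((y + D1) ^ 2 / 160) - 40 * n ^ 2 * v ^ 2 ≤ n * v * (y + D1) := by
      linarith [sq_nonneg ((y + D1) / 80 + n * v)]
    have t4 : -(r ^ 2 / 16 * S) - β ^ 2 / 4 * v ^ 2 ≤ n * v * (y + D1) := by
      linarith [mul_le_mul_of_nonneg_right t2 (sq_nonneg v), sq_nonneg (n * v)]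
    have t5 := mul_le_mul_of_nonneg_left t4 (by positivity : 0 ≤ K / r)
    have t6 : K / r * (-(r ^ 2 / 16 * S) - β ^ 2 / 4 * v ^ 2) =
        -(K * r / 16 * S) - K * β ^ 2 / (4 * r) * v ^ 2 := by field_simp
    have t7 : K / r * (n * v * (y + D1)) = K * n / r * v * (y + D1) := by ring
    linarith
  have e4 : 0 ≤ K * r * S := by positivity
  linarith

/-- The numerical heart of the radial estimate. -/
theorem rad_num {K r ε n β S q y D1 D2 s3 s4 s5 v P W f : ℝ} (hr : 0 < r) (hr' : r ≤ 60)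
    (hK : 300 ≤ K) (hn : 0 ≤ n) (hKn : 13 * n ≤ K) (hε : 0 ≤ ε) (hεK : ε * K ≤ 1 / 6100)
    (hβ : β = K * (1 + r))
    (hS : 0 ≤ S) (h1 : S ≤ 2 * q) (hy : y ^ 2 ≤ 4 * r ^ 2 * S)
    (h2 : D1 ^ 2 ≤ (ε * r ^ 2) ^ 2 * S) (h2' : |D2| ≤ 2 * ε * r ^ 3) (h3 : |s3| ≤ ε * r * S)
    (h4 : |s4| ≤ ε * r) (h5 : |s5| ≤ ε * r)
    (hid : 2 * K / r * ((y + D1) * y) - β * s3 + K * r * q + K * n / r * v * (y + D1) +
      K * β ^ 2 / r * v ^ 2 + W = (P + β ^ 2 / r ^ 2 * v) *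
        (-2 * β * y + (-K * (n - 2) - K * n * r) * v))
    (hf : f = P - 2 * (β / r ^ 2 * (y + D1)) -
      (β / r ^ 2 * (s4 + n + s5) + (r ^ 2 + D2) * (K / r ^ 3 - 2 * β / r ^ 4)) * v +
      β ^ 2 / r ^ 4 * (r ^ 2 + D2) * v) :
    K * r / 4 * S + K * β ^ 2 / (2 * r) * v ^ 2 + W ≤ r ^ 2 / 2 * f ^ 2 := by
  have hK0 : 0 < K := by linarith
  have hKr := mul_pos hK0 hr
  have hβK : K ≤ β := by rw [hβ]; linarith
  have hβ0 : 0 < β := by linarith
  have hεβ : ε * β ≤ 1 / 100 := by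
    have h : ε * K * (1 + r) ≤ 1 / 6100 * 61 :=
      mul_le_mul hεK (by linarith) (by linarith) (by norm_num)
    rw [hβ]
    linarith
  have hεr : ε * r ≤ 1 / 100 := (mul_le_mul_of_nonneg_left (by linarith) hε).trans hεβ
  have b4 := rn_R (v := v) hr hr' hK hβ0 hε hεβ hS h2 (rn_T hr hK hβ hε hεβ h2' h4 h5)
  have b7 := rn_G (v := v) hr hK hn (hKn.trans hβK) hε hεβ hεr hS h1 hy h2 h3
  generalize hMu : -2 * β * y + (-K * (n - 2) - K * n * r) * v = Mu at hid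
  generalize hR : -2 * β * D1 / r + (K - β * (s4 + s5) / r + D2 * (K * (2 + r)) / r ^ 3 +
    β ^ 2 * D2 / r ^ 3) * v = R at b4
  have e1 : P + β ^ 2 / r ^ 2 * v = f - R / r - Mu / r ^ 2 := by
    rw [hf, ← hR, ← hMu, hβ]; field_simp; ring
  have b5 : r ^ 2 / 2 * f ^ 2 + R ^ 2 / 2 - (f - R / r - Mu / r ^ 2) * Mu =
      (r * f + R) ^ 2 / 4 + ((r * f - R) / 2 - Mu / r) ^ 2 := by field_simp; ring
  rw [e1] at hid
  have e2 : K * β ^ 2 / r * v ^ 2 = 4 * (K * β ^ 2 / (4 * r) * v ^ 2) := by field_simp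
  have e3 : K * β ^ 2 / (2 * r) * v ^ 2 = 2 * (K * β ^ 2 / (4 * r) * v ^ 2) := by
    field_simp; ring
  clear hf hR hMu e1 hβ
  linarith [sq_nonneg (r * f + R), sq_nonneg ((r * f - R) / 2 - Mu / r)]

end Vale.Agent.P088.Car
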