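import Vale.Agent.P088F.APer
import Vale.Agent.P088F.Defs

/-! P088, part A: the Carleman estimate and unique continuation for systems. -/

open scoped ContDiff Topology
open Set Filter MeasureTheory Metric

noncomputable section

namespace Vale.Agent.P088F

open Vale.Agent.P292E Vale.Agent.P088

variable {n : ℕ} {ι : Type} [Fintype ι] {L : Op n ι} {g : Mf n} {α : V n → ℝ} {x : V n}
  {u : Fam n ι}

theorem pa_sq2 (ξ : V n) : Car.sq2 ξ.ofLp = ‖ξ‖ ^ 2 := (EuclideanSpace.real_norm_sq_eq ξ).symm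

theorem pa_exp (T : V n →L[ℝ] ℝ) (v : V n) : T v = ∑ i, v i * T (ee i) := by
  have h : v = ∑ i, v i • ee i := by
    simpa [ee] using ((EuclideanSpace.basisFun (Fin n) ℝ).sum_repr v).symm
  conv_lhs => rw [h]
  simp only [map_sum, map_smul, smul_eq_mul]

theorem pa_LL (hg : ∀ i j, Car.SA (g i j) x) (hs' : ∀ i j, g i j x = g j i x) (hα : Car.SA α x)
    (ξ : V n) : Car.LL ee g (Car.fx ee g α) x ξ.ofLp = 2 * hs g α x ξ := by
  have h1 : DifferentiableAt ℝ (fderiv ℝ α) x :=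
    (hα.fderiv_right (m := ∞) le_rfl).differentiableAt (by simp)
  have h2 : ∀ i l, Car.dd (ee i) (Car.dd (ee l) α) x = fderiv ℝ (fderiv ℝ α) x (ee i) (ee l) :=
    fun i l => by
      show fderiv ℝ (fun y => fderiv ℝ α y (ee l)) x (ee i) = _
      rw [fderiv_clm_apply h1 (differentiableAt_const _)]
      simp
  have h3 : fderiv ℝ (fderiv ℝ α) x (gv g x ξ) (gv g x ξ) =
      ∑ i, ∑ k, ∑ l, (∑ j, g i j x * ξ j) * (g k l x * fderiv ℝ (fderiv ℝ α) x (ee i) (ee l)) *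
        ξ k := by
    refine (pa_exp ((fderiv ℝ (fderiv ℝ α) x).flip (gv g x ξ)) _).trans
      (Finset.sum_congr rfl fun i _ => ?_)
    rw [ContinuousLinearMap.flip_apply, pa_exp (fderiv ℝ (fderiv ℝ α) x (ee i)), Finset.sum_comm,
      Finset.mul_sum]
    refine Finset.sum_congr rfl fun l _ => ?_
    show (∑ j, g i j x * ξ j) * ((∑ k, g l k x * ξ k) * _) = _
    rw [Finset.sum_mul Finset.univ fun k => g l k x * ξ k, Finset.mul_sum]
    exact Finset.sum_congr rfl fun k _ => by rw [hs' l k]; ring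
  have h4 : ∀ i k, (∑ j, g i j x * ξ j) * Car.dd (ee i) (Car.fx ee g α k) x * ξ k =
      ∑ l, (∑ j, g i j x * ξ j) * (g k l x * fderiv ℝ (fderiv ℝ α) x (ee i) (ee l)) * ξ k +
        ∑ l, gv g x ξ i * pr i (g k l) x * gr α x l * ξ k := fun i k => by
    rw [Car.dd_fx hg hα, Finset.mul_sum, Finset.sum_mul, ← Finset.sum_add_distrib]
    refine Finset.sum_congr rfl fun l _ => ?_
    rw [h2]
    show _ = _ + (∑ j, g i j x * ξ j) * Car.dd (ee i) (g k l) x * Car.dd (ee l) α x * ξ k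
    ring
  have h5 : ∀ l, Car.fx ee g α l x * ∑ i, ∑ j, Car.dd (ee l) (g i j) x * ξ i * ξ j =
      ∑ j, ∑ k, gv g x (gr α x) l * pr l (g j k) x * ξ j * ξ k := fun l => by
    simp only [Finset.mul_sum, mul_assoc]
    rfl
  simp only [Car.LL, hs, hsT, h3, h4, h5, Finset.sum_add_distrib]
  ring

theorem pa_X (hs' : ∀ i j, g i j x = g j i x) (ξ : V n) :
    ∑ k, Car.fx ee g α k x * ξ k = ip g x (gr α x) ξ := by
  refine Eq.trans ?_ (Car.qf_symm (a := g) hs' ξ.ofLp (Car.gr ee α x))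
  rw [Car.qf_eq]
  exact Finset.sum_congr rfl fun _ _ => mul_comm _ _

theorem pa_low {B : ℝ} (ha : ∀ j l m, ‖L.a j l m x‖ ≤ B) (hc : ∀ l m, ‖L.c l m x‖ ≤ B) :
    Car.n0 (fun l => Car.nd ee L.g (u l)) x ≤
      2 * (Fintype.card ι) ^ 2 * (n + 1) * B ^ 2 * (Car.n1 ee u x + Car.n0 u x) +
        2 * Car.n0 (L.ap u) x := by
  have h : ∀ l, ‖Car.nd ee L.g (u l) x‖ ^ 2 ≤
      2 * (Fintype.card ι * (n + 1) * B ^ 2 * (Car.n1 ee u x + Car.n0 u x)) +
        2 * ‖L.ap u l x‖ ^ 2 := fun l => by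
    have h1 : ‖∑ m, (∑ j, L.a j l m x * pd j (u m) x + L.c l m x * u m x)‖ ≤
        ∑ q : ι × Option (Fin n), B * q.2.elim ‖u q.1 x‖ fun j => ‖pd j (u q.1) x‖ := by
      rw [Fintype.sum_prod_type]
      refine (norm_sum_le _ _).trans (Finset.sum_le_sum fun m _ => ?_)
      rw [Fintype.sum_option, add_comm]
      refine (norm_add_le _ _).trans (add_le_add ?_ ((norm_sum_le _ _).trans
        (Finset.sum_le_sum fun j _ => ?_))) <;> rw [norm_mul]
      exacts [mul_le_mul_of_nonneg_right (hc l m) (norm_nonneg _),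
        mul_le_mul_of_nonneg_right (ha j l m) (norm_nonneg _)]
    have h2 := (pow_le_pow_left₀ (norm_nonneg _) h1 2).trans sq_sum_le_card_mul_sum_sq
    simp only [mul_pow, ← Finset.mul_sum, Finset.card_univ, Fintype.card_prod, Fintype.card_option,
      Fintype.card_fin, Fintype.sum_prod_type, Fintype.sum_option, Option.elim,
      Finset.sum_add_distrib] at h2
    push_cast at h2
    have h3 : Car.nd ee L.g (u l) x =
        L.ap u l x - ∑ m, (∑ j, L.a j l m x * pd j (u m) x + L.c l m x * u m x) := by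
      rw [Op.ap, add_sub_cancel_right]
      rfl
    rw [h3]
    refine (pow_le_pow_left₀ (norm_nonneg _) (norm_sub_le _ _) 2).trans ?_
    simp only [Finset.sum_add_distrib]
    change _ ≤ _ * (_ * (Car.n0 u x + Car.n1 ee u x)) at h2
    nlinarith [sq_nonneg (‖L.ap u l x‖ -
      ‖∑ m, ∑ j, L.a j l m x * pd j (u m) x + ∑ m, L.c l m x * u m x‖)]
  refine (Finset.sum_le_sum fun l _ => h l).trans (le_of_eq ?_)
  simp only [Finset.sum_add_distrib, Finset.sum_const, Finset.card_univ, nsmul_eq_mul,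
    ← Finset.mul_sum, Car.n0]
  ring

theorem pa_sa (hL : L.Sm) (hu : ∀ l, Car.SA (u l) x) (l : ι) : Car.SA (L.ap u l) x :=
  (ContDiffAt.sum fun j _ => ContDiffAt.sum fun k _ =>
    (Complex.ofRealCLM.contDiff.comp (hL.g j k)).contDiffAt.mul (((hu l).dd _).dd _)).add
    (ContDiffAt.sum fun m _ => (ContDiffAt.sum fun j _ =>
      (hL.a j l m).contDiffAt.mul ((hu m).dd _)).add ((hL.c l m).contDiffAt.mul (hu m)))

theorem pa_zero {K : Set (V n)} (hK : IsClosed K) (h0 : ∀ l, ∀ x ∉ K, u l x = 0) (l : ι) (x : V n)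
    (hx : x ∉ K) : L.ap u l x = 0 := by
  have h1 : ∀ l j, ∀ x ∉ K, pd j (u l) x = 0 := fun l j => Car.dd_zero hK (h0 l) (ee j)
  have h2 : ∀ j k, pd j (pd k (u l)) x = 0 := fun j k => Car.dd_zero hK (h1 l k) (ee j) x hx
  simp [Op.ap, h1 _ _ x hx, h2, h0 _ x hx]

/-- The data of a weight at a point. -/
def PaS (n : ℕ) (M c : ℝ) : Type :=
  {q : Mf n × (V n → ℝ) × V n // (∀ i j, Car.SA (q.1 i j) q.2.2) ∧
    (∀ i j, q.1 i j q.2.2 = q.1 j i q.2.2) ∧
    (∀ j k, ∀ i ≤ 2, ‖iteratedFDeriv ℝ i (q.1 j k) q.2.2‖ ≤ M) ∧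
    (∀ ξ, c * ‖ξ‖ ^ 2 ≤ ip q.1 q.2.2 ξ ξ) ∧ Car.SA q.2.1 q.2.2 ∧
    (∀ i ≤ 3, ‖iteratedFDeriv ℝ i q.2.1 q.2.2‖ ≤ M) ∧ Sup q.1 q.2.1 q.2.2 c}

theorem pa_adm (n : ℕ) (M : ℝ) {c : ℝ} (hc : 0 < c) : ∃ c' m M' B : ℝ, 0 < m ∧ 0 < M' ∧
    ∀ s : PaS n M c, (∀ i j, |Car.dd (ee i) (s.1.1 i j) s.1.2.2| ≤ B) ∧
      Car.Adm ee s.1.1 (fun y => -s.1.2.1 y) (fun y => Car.zz ee s.1.1 (fun y => -s.1.2.1 y) y *
        (Car.qq ee s.1.1 (fun y => -s.1.2.1 y) y)⁻¹ - c') m M' s.1.2.2 := by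
  have ua : ∀ i j, Car.UB ee (fun s : PaS n M c => s.1.2.2) 2 fun s => s.1.1 i j := fun i j =>
    Car.ub_of_bd (fun s => s.2.1 i j) fun s => s.2.2.2.1 i j
  have uφ : Car.UB ee (fun s : PaS n M c => s.1.2.2) 3 fun s y => -s.1.2.1 y :=
    ((Car.ub_c (-1)).mul (Car.ub_of_bd (fun s => s.2.2.2.2.2.1) fun s => s.2.2.2.2.2.2.1)).congr
      fun _ => .of_forall fun _ => neg_one_mul _
  have hq : ∀ s : PaS n M c, c * c ^ 2 ≤ Car.qq ee s.1.1 (fun y => -s.1.2.1 y) s.1.2.2 := fun s => by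
    rw [Car.qq_neg, Car.qq_eq]
    refine le_trans ?_ (s.2.2.2.2.1 (gr s.1.2.1 s.1.2.2))
    gcongr
    exact s.2.2.2.2.2.2.2.1
  obtain ⟨Λ, h1⟩ := Car.psc_of_perp (fun i j => (ua i j).pred) uφ.pred hc (by positivity) hq
    fun s => by
      obtain ⟨⟨g, α, x⟩, a1, a2, -, -, a3, -, -, a4⟩ := s
      intro ξ hξ
      simp only [Car.fx_neg, neg_mul, Finset.sum_neg_distrib, neg_eq_zero] at hξ
      have h2 := a4 (WithLp.toLp 2 ξ) ((pa_X a2 _).symm.trans hξ)
      have h3 := pa_LL a1 a2 a3 (WithLp.toLp 2 ξ)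
      have h4 : Car.zz ee g α x = 2 * hs g α x (gr α x) :=
        (Car.zz_eq a1 a2 a3).trans (pa_LL a1 a2 a3 (gr α x))
      have h5 : Car.qq ee g α x = ip g x (gr α x) (gr α x) := Car.qq_eq _ _ _
      have h6 : Car.qf g x ξ ξ = ip g x (WithLp.toLp 2 ξ) (WithLp.toLp 2 ξ) := rfl
      rw [← pa_sq2] at h2
      simp only [Car.hh, Car.LL_neg, Car.zz_neg, Car.qq_neg, h4, h5, h6, zero_mul, add_zero]
      dsimp only at h2 h3
      rw [h3]
      rw [mul_div_right_comm] at h2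
      rw [neg_div, mul_div_assoc]
      linarith
  obtain ⟨c', m, M', hm, hM, h2⟩ := Car.adm_of_psc ua (fun s => s.2.2.1) uφ (half_pos hc)
    (by positivity) hq h1
  choose B hB h3 using fun q : Fin n × Fin n => ((ua q.1 q.2).dd q.1).bd
  exact ⟨c', m, M', ∑ q, B q, hm, hM, fun s => ⟨fun i j => (h3 (i, j) s).trans
    (Finset.single_le_sum (fun q _ => (hB q).le) (Finset.mem_univ (i, j))), h2 s⟩⟩

theorem sc : SC n ι := by
  intro M c hc
  obtain ⟨c', m, M', B, hm, hM, h⟩ := pa_adm n M hc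
  set C : ℝ := 2 * (Fintype.card ι) ^ 2 * (n + 1) * M ^ 2 with hC
  refine ⟨max (max 1 M') (max ((M' + M' / m) / m)
    ((2 * C + 2 * (Fintype.card (Fin n)) ^ 3 * B ^ 2) * (8 * M' + 8) / m)), (16 * M' + 16) / m * 2,
    fun L α s hL hb hs hα hα' hsup τ hτ v hv => ?_⟩
  simp only [max_le_iff, div_le_iff₀ hm] at hτ
  have hK : IsCompact (⋃ l, tsupport (v l)) := isCompact_iUnion fun l => (hv l).2.1
  have hKs : ⋃ l, tsupport (v l) ⊆ s := iUnion_subset fun l => (hv l).2.2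
  have sα : ∀ x ∈ s, Car.SA α x := fun x hx => hα.contDiffAt (hs.mem_nhds hx)
  have h1 := fun x (hx : x ∈ ⋃ l, tsupport (v l)) => h ⟨(L.g, α, x),
    fun i j => (hL.g i j).contDiffAt, fun i j => hL.symm i j x,
    fun j k i hi => hb.g j k i hi x trivial, hb.ell x, sα x (hKs hx),
    fun i hi => hα' i (by omega) x (hKs hx), hsup x (hKs hx)⟩
  have v1 : ∀ l x, Car.SA (v l) x := fun l x => (hv l).1.contDiffAt
  have v0 : ∀ l, ∀ x ∉ ⋃ l, tsupport (v l), v l x = 0 := fun l x hx =>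
    image_eq_zero_of_notMem_tsupport fun h' => hx (mem_iUnion.2 ⟨l, h'⟩)
  have z : ∀ x ∉ ⋃ l, tsupport (v l), Real.exp (2 * τ * -α x) * (2 * Car.n0 (L.ap v) x) = 0 :=
    fun x hx => by simp [Car.n0, pa_zero hK.isClosed v0 _ x hx]
  have k := Car.carl_nd (g := fun y => Car.zz ee L.g (fun y => -α y) y *
      (Car.qq ee L.g (fun y => -α y) y)⁻¹ - c') (a := L.g) (φ := fun y => -α y)
    volume Car.sq_complex hK (fun x hx => (h1 x hx).2) (fun l x _ => v1 l x) v0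
    hm hM.le (C := C) (by positivity) (fun x hx => (h1 x hx).1) hτ.1.1 hτ.1.2 hτ.2.1 hτ.2.2
    (r := fun x => 2 * Car.n0 (L.ap v) x)
    (Car.int_loc volume hK (fun x hx => (contDiffAt_const.mul (sα x (hKs hx)).neg).exp.mul
      (contDiffAt_const.mul (Car.sq_complex.sa0 (pa_sa hL fun l => v1 l x)))) z).integrableOn
    fun x _ => pa_low (fun j l m => by simpa using hb.a j l m 0 (by omega) x trivial)
      fun l m => by simpa using hb.c l m 0 (by omega) x trivial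
  rw [setIntegral_eq_integral_of_forall_compl_eq_zero z] at k
  refine (le_of_eq ?_).trans (k.trans (le_of_eq ?_))
  · refine integral_congr_ae (.of_forall fun x => ?_)
    simp only [Finset.sum_add_distrib, ← Finset.mul_sum, mul_neg, neg_mul]
    rw [add_comm]
    rfl
  · rw [mul_assoc, ← integral_const_mul 2]
    congr 2
    funext x
    simp only [mul_neg, neg_mul, Car.n0]
    ring

theorem ucp : UCP n ι := by
  intro L s u hL hs hc hu x₀ hx₀ h0
  have su : ∀ l, ∀ x ∈ s, Car.SA (u l) x := fun l x hx => (hu.1 l).contDiffAt (hs.mem_nhds hx)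
  obtain ⟨O, h1, h2, h3⟩ := _root_.mem_nhds_iff.1 (inter_mem h0 (hs.mem_nhds hx₀))
  refine Car.ucp (a := L.g) Car.sq_complex hs hc (fun i j x _ => (hL.g i j).contDiffAt)
    (fun x _ i j => hL.symm i j x)
    (fun x _ ξ hξ => hL.pos x (WithLp.toLp 2 ξ) fun h => hξ (congrArg WithLp.ofLp h)) su
    (fun K hK hK' => ?_) h2 ⟨x₀, h3⟩ (fun x hx => (h1 hx).2) fun l x hx => (h1 hx).1 l
  have hf : Continuous fun x => ∑ j, ∑ l, ∑ m, ‖L.a j l m x‖ + ∑ l, ∑ m, ‖L.c l m x‖ +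
      ∑ i, ∑ j, |Car.dd (ee i) (L.g i j) x| := by
    have a1 := fun j l m => (hL.a j l m).continuous
    have a2 := fun l m => (hL.c l m).continuous
    have a3 : ∀ i j, Continuous (Car.dd (ee i) (L.g i j)) := fun i j =>
      continuous_iff_continuousAt.2 fun x => (Car.SA.dd (hL.g i j).contDiffAt _).continuousAt
    fun_prop
  obtain ⟨B, hB⟩ := hK'.exists_bound_of_continuousOn hf.continuousOn
  refine ⟨2 * (2 * (Fintype.card ι) ^ 2 * (n + 1) * B ^ 2) + 2 * (Fintype.card (Fin n)) ^ 3 * B ^ 2,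
    fun x hx => ?_⟩
  have b0 := (le_abs_self _).trans (hB x hx)
  have p1 : 0 ≤ ∑ j, ∑ l, ∑ m, ‖L.a j l m x‖ := by positivity
  have p2 : 0 ≤ ∑ l, ∑ m, ‖L.c l m x‖ := by positivity
  have p3 : 0 ≤ ∑ i, ∑ j, |Car.dd (ee i) (L.g i j) x| := by positivity
  have t2 : ∀ {σ σ' : Type} [Fintype σ] [Fintype σ'] (f : σ → σ' → ℝ), (∀ i j, 0 ≤ f i j) →
      ∀ i j, f i j ≤ ∑ i, ∑ j, f i j := fun f hf i j =>
    (Finset.single_le_sum (fun j _ => hf i j) (Finset.mem_univ j)).trans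
      (Finset.single_le_sum (fun i _ => Finset.sum_nonneg fun j _ => hf i j) (Finset.mem_univ i))
  have k1 := pa_low (L := L) (u := u) (x := x) (B := B) (fun j l m => by
    have := (t2 (fun l m => ‖L.a j l m x‖) (fun _ _ => norm_nonneg _) l m).trans
      (Finset.single_le_sum (f := fun j => ∑ l, ∑ m, ‖L.a j l m x‖) (fun _ _ => by positivity)
        (Finset.mem_univ j))
    linarith) fun l m => by linarith [t2 (fun l m => ‖L.c l m x‖) (fun _ _ => norm_nonneg _) l m]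
  have k2 := Car.n0_dv_le (e := ee) (B := B) (fun i j => (hL.g i j).contDiffAt)
    (fun l => su l x (hK hx)) fun i j => by
      linarith [t2 (fun i j => |Car.dd (ee i) (L.g i j) x|) (fun _ _ => abs_nonneg _) i j]
  have k3 : Car.n0 (L.ap u) x = 0 := by simp [Car.n0, hu.2 _ x (hK hx)]
  have k4 : 0 ≤ 2 * (Fintype.card (Fin n) : ℝ) ^ 3 * B ^ 2 * Car.n0 u x := by
    have := Car.n0_nonneg u x
    positivity
  change Car.n0 (fun l => Car.dv ee L.g (u l)) x ≤ _ * (Car.n1 ee u x + _)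
  nlinarith

end Vale.Agent.P088F
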