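import Vale.Agent.P088F.FRad0
import Vale.Agent.P088F.PA

/-! P088, part F: the radial weight. -/

open Set Filter Topology
open scoped ContDiff

noncomputable section

namespace Vale.Agent.P088F.Rad

open Vale.Agent.P292E Vale.Agent.P088 Vale.Agent.P088.Car

variable {n : ℕ} (Γ : Fin n → Fin n → ℝ) (x : V n) (K : ℝ)

/-- the position -/
def zc (k : Fin n) (y : V n) : ℝ := y k - x k

/-- the covector -/
def om (k : Fin n) (y : V n) : ℝ := ∑ j, Γ k j * zc x j y

/-- the square of the radius -/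
def r2 (y : V n) : ℝ := ∑ k, zc x k y * om Γ x k y

/-- the radius -/
def rr (y : V n) : ℝ := √(r2 Γ x y)

/-- the weight -/
def ps (y : V n) : ℝ := K * (Real.log (rr Γ x y) + rr Γ x y)

/-- the vector field -/
def XX (k : Fin n) (y : V n) : ℝ := -K * (1 + rr Γ x y) * zc x k y

/-- the potential -/
def cc (y : V n) : ℝ := (K * (1 + rr Γ x y)) ^ 2 / rr Γ x y ^ 2

/-- the multiplier -/
def gg (y : V n) : ℝ := -K * (n - 2) - K * n * rr Γ x y

variable {Γ x K} {y : V n} {a : Mf n} {v : V n → ℝ}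

theorem sa_zc (k : Fin n) : SA (zc x k) y := by
  unfold zc SA
  fun_prop

theorem dd_zc (i k : Fin n) : dd (ee i) (zc x k) y = if i = k then 1 else 0 := by
  have h : HasFDerivAt (zc x k) (EuclideanSpace.proj k : V n →L[ℝ] ℝ) y :=
    (EuclideanSpace.proj k : V n →L[ℝ] ℝ).hasFDerivAt.sub_const _
  rw [dd, h.fderiv]
  simp [ee, eq_comm]

theorem sa_om (k : Fin n) : SA (om Γ x k) y :=
  ContDiffAt.sum fun j _ => contDiffAt_const.mul (sa_zc j)

theorem dd_om (i k : Fin n) : dd (ee i) (om Γ x k) y = Γ k i := by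
  show dd (ee i) (fun y => ∑ j, Γ k j * zc x j y) y = _
  rw [dd_sum _ fun j => contDiffAt_const.mul (sa_zc j)]
  simp [fun j => dd_cmul (Γ k j) (sa_zc (x := x) (y := y) j) (ee i), dd_zc]

theorem sa_r2 : SA (r2 Γ x) y := ContDiffAt.sum fun k _ => (sa_zc k).mul (sa_om k)

theorem dd_r2 (hs : ∀ i j, Γ i j = Γ j i) (i : Fin n) :
    dd (ee i) (r2 Γ x) y = 2 * om Γ x i y := by
  show dd (ee i) (fun y => ∑ k, zc x k y * om Γ x k y) y = _
  rw [dd_sum _ fun k => (sa_zc k).mul (sa_om k)]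
  simp only [fun k => dd_mul (sa_zc (x := x) (y := y) k) (sa_om (Γ := Γ) (x := x) k) (ee i), dd_zc,
    dd_om, Finset.sum_add_distrib, ite_mul, one_mul, zero_mul, Finset.sum_ite_eq, Finset.mem_univ,
    if_true]
  rw [two_mul, om]
  congr 1
  exact Finset.sum_congr rfl fun k _ => by rw [hs, mul_comm]

theorem rr_pos (h : 0 < r2 Γ x y) : 0 < rr Γ x y := Real.sqrt_pos.2 h

theorem rr_sq (h : 0 < r2 Γ x y) : rr Γ x y ^ 2 = r2 Γ x y := Real.sq_sqrt h.le

theorem sa_rr (h : 0 < r2 Γ x y) : SA (rr Γ x) y := sa_r2.sqrt h.ne'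

theorem dd_rad (hs : ∀ i j, Γ i j = Γ j i) (h : 0 < r2 Γ x y) {F : ℝ → ℝ} {F' : ℝ}
    (hF : HasDerivAt F F' (rr Γ x y)) (i : Fin n) :
    dd (ee i) (fun w => F (rr Γ x w)) y = F' / rr Γ x y * om Γ x i y := by
  have h1 := (hF.comp_hasFDerivAt y ((sa_r2 (Γ := Γ) (x := x)).df.hasFDerivAt.sqrt h.ne')).fderiv
  have h2 := dd_r2 (x := x) (y := y) hs i
  have h3 := (rr_pos h).ne'
  rw [dd] at h2 ⊢
  rw [show (fun w => F (rr Γ x w)) = F ∘ rr Γ x from rfl, h1, smul_apply, smul_apply,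
    h2, smul_eq_mul, smul_eq_mul]
  change F' * (1 / (2 * rr Γ x y) * _) = _
  field_simp

theorem sa_ps (h : 0 < r2 Γ x y) : SA (ps Γ x K) y :=
  contDiffAt_const.mul (((sa_rr h).log (rr_pos h).ne').add (sa_rr h))

theorem sa_be (h : 0 < r2 Γ x y) (K : ℝ) : SA (fun w => K * (1 + rr Γ x w)) y :=
  contDiffAt_const.mul (contDiffAt_const.add (sa_rr h))

theorem sa_XX (h : 0 < r2 Γ x y) (k : Fin n) : SA (XX Γ x K k) y := (sa_be h _).mul (sa_zc k)

theorem sa_cc (h : 0 < r2 Γ x y) : SA (cc Γ x K) y :=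
  ((sa_be h _).pow 2).div ((sa_rr h).pow 2) (pow_pos (rr_pos h) 2).ne'

theorem sa_gg (h : 0 < r2 Γ x y) : SA (gg Γ x K) y :=
  contDiffAt_const.sub (contDiffAt_const.mul (sa_rr h))

theorem dd_ps (hs : ∀ i j, Γ i j = Γ j i) (h : 0 < r2 Γ x y) (i : Fin n) :
    dd (ee i) (ps Γ x K) y = K * (1 + rr Γ x y) / rr Γ x y ^ 2 * om Γ x i y := by
  have h3 := (rr_pos h).ne'
  refine (dd_rad hs h (((Real.hasDerivAt_log h3).add (hasDerivAt_id _)).const_mul K) i).trans ?_
  field_simp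

theorem dd_XX (hs : ∀ i j, Γ i j = Γ j i) (h : 0 < r2 Γ x y) (i k : Fin n) :
    dd (ee i) (XX Γ x K k) y = -K / rr Γ x y * om Γ x i y * zc x k y -
      if i = k then K * (1 + rr Γ x y) else 0 := by
  refine (dd_mul (sa_be h _) (sa_zc k) _).trans ?_
  rw [dd_rad hs h (((hasDerivAt_id' _).const_add 1).const_mul (-K)) i, dd_zc]
  split_ifs <;> ring

theorem dd_cc (hs : ∀ i j, Γ i j = Γ j i) (h : 0 < r2 Γ x y) (i : Fin n) :
    dd (ee i) (cc Γ x K) y = -2 * K * (K * (1 + rr Γ x y)) / rr Γ x y ^ 4 * om Γ x i y := by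
  have h3 := (rr_pos h).ne'
  refine (dd_rad hs h (((((hasDerivAt_id _).const_add 1).const_mul K).pow 2).div
    ((hasDerivAt_id _).pow 2) (pow_ne_zero 2 h3)) i).trans ?_
  simp only [id, Pi.pow_apply]
  field_simp
  ring

theorem dd_gg (hs : ∀ i j, Γ i j = Γ j i) (h : 0 < r2 Γ x y) (i : Fin n) :
    dd (ee i) (gg Γ x K) y = -(K * n) / rr Γ x y * om Γ x i y := by
  refine (dd_rad hs h (((hasDerivAt_id _).const_mul (K * n)).const_sub (-K * (n - 2))) i).trans ?_
  rw [mul_one]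

theorem dv_ps (hs : ∀ i j, Γ i j = Γ j i) (h : 0 < r2 Γ x y) (ha : ∀ i j, SA (a i j) y) :
    dv ee a (ps Γ x K) y = K * (1 + rr Γ x y) / rr Γ x y ^ 2 *
      (∑ i, ∑ j, dd (ee i) (a i j) y * om Γ x j y + ∑ i, ∑ j, a i j y * Γ i j) +
      qf a y (fun i => om Γ x i y) (fun i => om Γ x i y) *
        (K / rr Γ x y ^ 3 - 2 * (K * (1 + rr Γ x y)) / rr Γ x y ^ 4) := by
  have h3 := (rr_pos h).ne'
  have h4 : SA (fun w => K * (1 + rr Γ x w) / rr Γ x w ^ 2) y :=
    (sa_be h _).div ((sa_rr h).pow 2) (pow_ne_zero 2 h3)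
  have h5 : ∀ i, dd (ee i) (fun w => K * (1 + rr Γ x w) / rr Γ x w ^ 2) y =
      (K / rr Γ x y ^ 3 - 2 * (K * (1 + rr Γ x y)) / rr Γ x y ^ 4) * om Γ x i y := fun i => by
    refine (dd_rad hs h ((((hasDerivAt_id _).const_add 1).const_mul K).div
      ((hasDerivAt_id _).pow 2) (pow_ne_zero 2 h3)) i).trans ?_
    simp only [id, Pi.pow_apply]
    field_simp
    ring
  have h6 : ∀ i, fx ee a (ps Γ x K) i =ᶠ[𝓝 y]
      fun w => ∑ j, a i j w * (K * (1 + rr Γ x w) / rr Γ x w ^ 2 * om Γ x j w) := fun i => by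
    filter_upwards [(sa_r2 (Γ := Γ) (x := x) (y := y)).continuousAt.eventually (lt_mem_nhds h)]
      with w hw
    simp only [fx, dd_ps hs hw, smul_eq_mul]
  have h7 : ∀ i, dd (ee i) (fx ee a (ps Γ x K) i) y = ∑ j, (dd (ee i) (a i j) y *
      (K * (1 + rr Γ x y) / rr Γ x y ^ 2 * om Γ x j y) + a i j y *
        ((K / rr Γ x y ^ 3 - 2 * (K * (1 + rr Γ x y)) / rr Γ x y ^ 4) * om Γ x i y * om Γ x j y +
          K * (1 + rr Γ x y) / rr Γ x y ^ 2 * Γ i j)) := fun i => by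
    rw [dd_congr (h6 i), dd_sum _ fun j => (ha i j).mul (h4.mul (sa_om j))]
    refine Finset.sum_congr rfl fun j _ => ?_
    rw [dd_mul (ha i j) (h4.mul (sa_om j)), dd_mul h4 (sa_om j), h5, dd_om, hs j i]
  rw [dv, Finset.sum_congr rfl fun i _ => h7 i, mul_add]
  simp only [qf, Finset.mul_sum, Finset.sum_mul, ← Finset.sum_add_distrib]
  exact Finset.sum_congr rfl fun i _ => Finset.sum_congr rfl fun j _ => by ring

/-- The identity for the radial multiplier. -/
theorem rad_id (hs : ∀ i j, Γ i j = Γ j i) (h : 0 < r2 Γ x y) (ha : ∀ i j, SA (a i j) y)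
    (hs' : ∀ i j, a i j y = a j i y) (hv : SA v y) {r Y D s q β : ℝ} (hr : r = rr Γ x y)
    (hβ : β = K * (1 + r)) (hY : Y = ∑ k, zc x k y * Car.gr ee v y k)
    (hD : D = qf a y (fun i => om Γ x i y) (Car.gr ee v y))
    (h3 : s = ∑ i, ∑ j, (∑ k, zc x k y * dd (ee k) (a i j) y) * Car.gr ee v y i * Car.gr ee v y j)
    (hq : q = qf a y (Car.gr ee v y) (Car.gr ee v y)) :
    2 * K / r * (D * Y) - β * s + K * r * q + K * n / r * v y * D + K * β ^ 2 / r * v y ^ 2 +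
        ∑ i, dd (ee i) (gw ee a (XX Γ x K) (cc Γ x K) (gg Γ x K) v i) y =
      (dv ee a v y + β ^ 2 / r ^ 2 * v y) * (-2 * β * Y + (-K * (n - 2) - K * n * r) * v y) := by
  have h0 : r ≠ 0 := hr ▸ (rr_pos h).ne'
  have k := gen_id (e := ee) ha hs' (sa_XX (K := K) h) (sa_cc (K := K) h) (sa_gg (K := K) h) hv
  have z : ∑ k, zc x k y * om Γ x k y = r ^ 2 := by rw [hr, rr_sq h, r2]
  have e1 : LL ee a (XX Γ x K) y (Car.gr ee v y) = 2 * (-K / r * (D * Y) - β * q) + β * s := by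
    have a1 : ∑ i, ∑ k, (∑ j, a i j y * Car.gr ee v y j) * dd (ee i) (XX Γ x K k) y *
        Car.gr ee v y k = -K / r * (D * Y) - β * q := by
      simp only [dd_XX hs h, mul_sub, sub_mul, Finset.sum_sub_distrib, mul_ite, ite_mul, mul_zero,
        zero_mul, Finset.sum_ite_eq, Finset.mem_univ, if_true, ← hr, ← hβ]
      rw [hD, hY, hq, qf, qf, Finset.sum_mul_sum]
      simp only [Finset.mul_sum, Finset.sum_mul]
      congr 1
      · exact Finset.sum_congr rfl fun i _ => Finset.sum_congr rfl fun k _ =>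
          Finset.sum_congr rfl fun j _ => by ring
      · exact Finset.sum_congr rfl fun i _ => Finset.sum_congr rfl fun j _ => by ring
    have a2 : ∑ k, XX Γ x K k y * ∑ i, ∑ j, dd (ee k) (a i j) y * Car.gr ee v y i *
        Car.gr ee v y j = -(β * s) := by
      simp only [h3, XX, ← hr, hβ, Finset.mul_sum, Finset.sum_mul, ← Finset.sum_neg_distrib]
      refine Finset.sum_comm.trans (Finset.sum_congr rfl fun i _ => Finset.sum_comm.trans ?_)
      exact Finset.sum_congr rfl fun j _ => Finset.sum_congr rfl fun k _ => by ring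
    rw [LL, a1, a2, sub_neg_eq_add]
  have e2 : dg ee (XX Γ x K) y = -K * r - n * β := by
    simp only [dg, dd_XX hs h, if_true, Finset.sum_sub_distrib, Finset.sum_const, Finset.card_univ,
      Fintype.card_fin, nsmul_eq_mul, ← hr, ← hβ, mul_assoc, ← Finset.mul_sum,
      mul_comm (om Γ x _ y), z]
    field_simp
  have e3 : qf a y (Car.gr ee (gg Γ x K) y) (Car.gr ee v y) = -(K * n) / r * D := by
    simp only [hD, qf, Car.gr, dd_gg hs h, ← hr, Finset.mul_sum]
    exact Finset.sum_congr rfl fun i _ => Finset.sum_congr rfl fun j _ => by ring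
  have e4 : al ee (XX Γ x K) (cc Γ x K) y = 2 * K * β ^ 2 / r ^ 2 := by
    have : al ee (XX Γ x K) (cc Γ x K) y = 2 * K * β ^ 2 / r ^ 4 * ∑ k, zc x k y * om Γ x k y := by
      simp only [al, dd_cc hs h, XX, ← hr, hβ, Finset.mul_sum]
      exact Finset.sum_congr rfl fun i _ => by ring
    rw [this, z]
    field_simp
  have e5 : al ee (XX Γ x K) v y = -β * Y := by
    simp only [al, XX, ← hr, hβ, hY, Car.gr, Finset.mul_sum]
    exact Finset.sum_congr rfl fun i _ => by ring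
  rw [e1, e2, e3, e4, e5, ← hq, cc, gg, ← hr, ← hβ] at k
  rw [show -2 * β * Y = 2 * (-β * Y) by ring, ← k, hβ]
  field_simp
  ring

end Vale.Agent.P088F.Rad
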