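import Vale.Agent.P088F.FDx
import Vale.Agent.P088F.FGeo

/-! P088F, part F: source and transition zone. -/

open scoped ContDiff Topology ENNReal
open Set Filter MeasureTheory Metric

noncomputable section

namespace Vale.Agent.P088F.Fw

open Vale.Agent.P292E

variable {n : ℕ} {ι : Type} [Fintype ι] [DecidableEq ι] [NeZero n]

omit [Fintype ι] [DecidableEq ι] in
theorem fsrc_b {P : Par} (ok : P.Ok 1 (1 / 100)) {x : V n} (hx : x ∈ P.fT n) :
    P.B / 10 ≤ P.b x ∧ P.b x ≤ P.B := by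
  have hN : 0 < P.N := lt_of_lt_of_le one_pos ok.N0
  have h1 : 0 < 1 / P.N := by positivity
  have h2 : 3 / (2 * P.N) = 3 / 2 * (1 / P.N) := by field_simp
  have h3 : 2 / P.N = 2 * (1 / P.N) := by field_simp
  exact ⟨le_b ok.B0 hN (by linarith [hx.2.2.1]), b_le ok.B0 hN.le (by linarith [hx.2.2.2])⟩

omit [Fintype ι] [DecidableEq ι] in
theorem fsrc_geo {P : Par} (h0 : 0 < P.κ) (h1 : P.κ ≤ 1 / 20) (ok : P.Ok 1 (1 / 100))
    {x y x' y' : V n} (hx : x ∈ P.fT n) (h7 : 7 / 10 * P.b x ≤ ‖x - y‖)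
    (hx' : ‖x' - x‖ ≤ P.b x / 100) (hy' : ‖y' - y‖ ≤ P.b x / 100) (h12 : ‖y'‖ ≤ 12) :
    (x', y') ∈ P.new n ∧ (x', y') ∈ P.top n := by
  have hN : 0 < P.N := lt_of_lt_of_le one_pos ok.N0
  have hB := ok.B0
  obtain ⟨b1, b2⟩ := fsrc_b ok hx
  obtain ⟨-, s1, -, -, s2⟩ := ok_small ok
  have n1 : ‖x'‖ < 2 := by linarith [norm_sub_norm_le x' x, hx.2.1]
  have n2 : ‖x‖ ≤ 2 := by linarith [hx.2.1]
  have i0 : 0 < 1 / P.N := by positivity
  have i1 : 3 / (2 * P.N) = 3 / 2 * (1 / P.N) := by field_simp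
  have i2 : 2 / P.N = 2 * (1 / P.N) := by field_simp
  have i3 : P.B ≤ 1 / P.N := by
    rw [le_div_iff₀ hN]
    linarith
  have l1 := abs_le.1 (psi_lip h0 h1 n1.le n2)
  have l2 : P.b x' ≤ 11 / 10 * P.b x := b_lip h0 h1 hB hN.le n2 n1.le (by
    rw [norm_sub_rev]
    have := mul_le_mul_of_nonneg_left (hx'.trans (by linarith : P.b x / 100 ≤ P.B)) hN.le
    linarith)
  have l3 : ‖x - y‖ ≤ ‖x' - y'‖ + ‖x' - x‖ + ‖y' - y‖ := by
    have e : x - y = x' - y' - (x' - x) + (y' - y) := by abel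
    rw [e]
    exact (norm_add_le _ _).trans (add_le_add_left (norm_sub_le _ _) _)
  have p1 := hx.2.2.1
  have p2 := hx.2.2.2
  refine ⟨⟨n1, ?_, ?_, ?_⟩, ⟨n1, ?_, ?_, ?_⟩, h12, ?_⟩ <;> dsimp only <;> linarith

omit [DecidableEq ι] [NeZero n] in
theorem fsrc_neg {E E' : Kr n ι} {p : V n × V n} (h : ∀ l m, E l m p.1 p.2 = -E' l m p.1 p.2) :
    e0 E p = e0 E' p := by
  simp only [e0, h, norm_neg]

theorem fsrc_num {b B C Λ : ℝ} (q c : ℕ) (hb : 0 < b) (hB : 0 < B) (h1 : B ≤ 1) (hC : 0 ≤ C) :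
    (B / b) ^ (2 * q) * (C * (b ^ (q + c + 2)) ^ 2 * Λ ^ 2 / (b / 2) ^ (2 * c + 4)) ≤
      C * 20 ^ (2 * c + 4) * Λ ^ 2 := by
  have e : (B / b) ^ (2 * q) * (C * (b ^ (q + c + 2)) ^ 2 * Λ ^ 2 / (b / 2) ^ (2 * c + 4)) =
      B ^ (2 * q) * (C * 2 ^ (2 * c + 4) * Λ ^ 2) := by
    simp only [div_pow]
    field_simp
    ring
  rw [e]
  refine (mul_le_of_le_one_left (by positivity) (pow_le_one₀ hB.le h1)).trans ?_
  gcongr
  norm_num

theorem src (ie : IES n ι) (tb : TB n ι) (kb : KB n ι) : SRC n ι := by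
  intro c₀ q
  obtain ⟨K₁, ε₁, C₁, hε₁, hC₁, I⟩ := ie
  obtain ⟨Ct, hCt, T⟩ := tb.2.2.1 K₁
  obtain ⟨K₂, ε₂, C₂, hε₂, hC₂, KK⟩ := kb c₀
  set D₁ : ℝ := Fintype.card ι * (C₁ * 1000 ^ 2) with hD₁
  set D₂ : ℝ := C₂ * 20 ^ (2 * c₀ + 4) with hD₂
  have d1 : 0 ≤ D₁ := by positivity
  have d2 : 0 ≤ D₂ := by positivity
  have t0 : 0 < Ct := by linarith
  refine ⟨max (K₁ + 2) K₂, min (ε₁ / Ct) ε₂, 1 / 100, 4 * D₁ + 2 * D₂, by positivity, by norm_num,
    by positivity, fun P d W Λ A h0 h1 h => ?_⟩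
  have ok := h.ok
  have hB := ok.B0
  have hN : 0 < P.N := lt_of_lt_of_le one_pos ok.N0
  obtain ⟨s0, s1, -, -, -⟩ := ok_small ok
  have hΛ := h.dok.nn
  have hA := h.A0
  have dk : d.Ok K₂ ε₂ 30 c₀ Λ := h.dok.mono (le_max_right _ _) (min_le_right _ _) le_rfl
  have n1 : d.L1.Near K₁ ε₁ := h.dok.nr1.mono ((Nat.le_add_right _ _).trans (le_max_left _ _))
    ((min_le_left _ _).trans (div_le_self hε₁.le hCt))
  have n2 : d.L2.t.Near K₁ ε₁ := (T _ _ h.dok.sm2 (h.dok.nr2.mono (le_max_left _ _)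
    (min_le_left _ _))).mono le_rfl (le_of_eq (by field_simp))
  have ts := tb.1 _ h.dok.sm2
  have ho := new_open (n := n) P
  have sW := h.ext.sol
  have sK := h.dok.k2.sol.mono (new_offd hB)
  have ax : ∀ {E : Kr n ι}, SmK (P.new n) E → ∀ p ∈ P.new n, ∀ m l,
      ContDiffAt ℝ ∞ (fun x => E l m x p.2) p.1 := fun hE p hp m l =>
    ((hE l m).contDiffAt (ho.mem_nhds hp)).comp p.1 (contDiffAt_id.prodMk contDiffAt_const)
  have ay : ∀ {E : Kr n ι}, SmK (P.new n) E → ∀ p ∈ P.new n, ∀ l m,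
      ContDiffAt ℝ ∞ (fun y => E l m p.1 y) p.2 := fun hE p hp l m =>
    ((hE l m).contDiffAt (ho.mem_nhds hp)).comp (f := fun y => (p.1, y)) p.2
      (contDiffAt_const.prodMk contDiffAt_id)
  have r1 : ∀ x ∈ P.fT n, 0 < P.b x / 100 ∧ P.b x / 100 ≤ 1 ∧
      C₁ * A ^ 2 / (P.b x / 100) ^ 2 ≤ C₁ * 1000 ^ 2 * ((A + Λ) ^ 2 / P.B ^ 2) := fun x hx => by
    obtain ⟨b1, b2⟩ := fsrc_b ok hx
    refine ⟨by linarith, by linarith, ?_⟩
    calc C₁ * A ^ 2 / (P.b x / 100) ^ 2 ≤ C₁ * (A + Λ) ^ 2 / (P.B / 1000) ^ 2 := by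
          have k1 : P.B / 1000 ≤ P.b x / 100 := by linarith
          have k2 : A ≤ A + Λ := by linarith
          exact div_le_div₀ (by positivity)
            (mul_le_mul_of_nonneg_left (pow_le_pow_left₀ hA k2 2) hC₁) (by positivity)
            (pow_le_pow_left₀ (by positivity) k1 2)
      _ = _ := by field_simp
  have gx : ∀ x ∈ P.fT n, ∀ y : V n, 7 / 10 * P.b x ≤ ‖x - y‖ → ‖y‖ ≤ 12 →
      ∑ m, g1 (fun l x => W l m x y) x ≤ D₁ * ((A + Λ) ^ 2 / P.B ^ 2) := fun x hx y h7 hy => by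
    obtain ⟨a1, a2, a3⟩ := r1 x hx
    have g := fun z (hz : z ∈ ball x (P.b x / 100)) => fsrc_geo h0 h1 ok hx h7
      (mem_ball_iff_norm.1 hz).le (by rw [sub_self, norm_zero]; exact a1.le) hy
    refine (Finset.sum_le_card_nsmul _ _ _ fun m _ => (I _ x _ A _ h.dok.sm1 n1 a1 a2
      (sol_slice sW m fun z hz => (g z hz).1) hA
      fun l z hz => h.top _ (g z hz).1 (g z hz).2 l m).1.trans a3).trans (le_of_eq ?_)
    rw [Finset.card_univ, nsmul_eq_mul, hD₁]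
    ring
  have gy : ∀ x ∈ P.fT n, ∀ y : V n, 7 / 10 * P.b x ≤ ‖x - y‖ → ‖y‖ ≤ 11 →
      ∑ l, g1 (fun m y => W l m x y) y ≤ D₁ * ((A + Λ) ^ 2 / P.B ^ 2) := fun x hx y h7 hy => by
    obtain ⟨a1, a2, a3⟩ := r1 x hx
    have g := fun z (hz : z ∈ ball y (P.b x / 100)) => fsrc_geo h0 h1 ok hx h7
      (by rw [sub_self, norm_zero]; exact a1.le) (mem_ball_iff_norm.1 hz).le
      (by linarith [norm_sub_norm_le z y, mem_ball_iff_norm.1 hz])
    refine (Finset.sum_le_card_nsmul _ _ _ fun l _ => (I _ y _ A _ ts n2 a1 a2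
      ((sol_solY sW).slice l fun z hz => (g z hz).1) hA
      fun m z hz => h.top _ (g z hz).1 (g z hz).2 l m).1.trans a3).trans (le_of_eq ?_)
    rw [Finset.card_univ, nsmul_eq_mul, hD₁]
    ring
  have pn : ∀ x ∈ P.fT n, ∀ y : V n, 7 / 10 * P.b x ≤ ‖x - y‖ → ‖y‖ ≤ 12 → (x, y) ∈ P.new n :=
    fun x hx y h7 hy => (fsrc_geo h0 h1 ok hx h7 (by rw [sub_self, norm_zero]; exact (r1 x hx).1.le)
      (by rw [sub_self, norm_zero]; exact (r1 x hx).1.le) hy).1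
  have hAΛ : Λ ^ 2 ≤ (A + Λ) ^ 2 := pow_le_pow_left₀ hΛ (by linarith) 2
  refine ⟨ts, ⟨fun l m => (sW.sm l m).sub (sK.sm l m), fun p hp l m => ?_⟩,
    fun p hp hp' l m => sub_eq_zero.2 (h.ext.e2 p hp hp' l m), fun p hp => ?_,
    fun p hx h7 h2 => ?_, fun p hx hy => ?_⟩
  · refine (ap_sub (ay sW.sm p hp l) (ay sK.sm p hp l) m).trans ?_
    exact sub_eq_zero.2 ((sW.ey p hp l m).trans (sK.ey p hp l m).symm)
  · have e : e0 (apx d.L1 (d.er W)) p = e0 (apx d.L1 d.K2) p := fsrc_neg fun l m => by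
      refine (ap_sub (ax sW.sm p hp m) (ax sK.sm p hp m) l).trans ?_
      exact (congrArg (· - _) (sW.ex p hp l m)).trans (zero_sub _)
    have b0 := Par.b_pos hB p.1
    have b1 := b_le hB hN.le hp.2.2.1.le
    have k := (KK d Λ (P.b p.1 / 2) _ p.1 p.2 dk hp.1 hp.2.1 (by linarith) (by linarith)
      hp.2.2.2.le).2 (h.h p.1 hp.1 hp.2.2.1)
    rw [e]
    refine (mul_le_mul_of_nonneg_left k (by unfold Par.wq; positivity)).trans
      ((fsrc_num q c₀ b0 hB (by linarith) hC₂).trans ?_)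
    exact mul_le_mul_of_nonneg_right (by linarith) (sq_nonneg _)
  · obtain ⟨x, y⟩ := p
    have hy : ‖y‖ ≤ 11 := by
      have := norm_sub_norm_le y x
      rw [norm_sub_rev] at this
      linarith [hx.2.1]
    have hp := pn x hx y h7 (by linarith)
    obtain ⟨b1, b2⟩ := fsrc_b ok hx
    have k := (KK d Λ (P.B / 20) 0 x y dk hp.1 hp.2.1 (by linarith) (by linarith)
      (by linarith)).1
    have k1 : C₂ * Λ ^ 2 / (P.B / 20) ^ (2 * c₀ + 2) ≤
        D₂ * ((A + Λ) ^ 2 / P.B ^ (2 * c₀ + 2)) := by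
      calc C₂ * Λ ^ 2 / (P.B / 20) ^ (2 * c₀ + 2)
          = C₂ * 20 ^ (2 * c₀ + 2) * (Λ ^ 2 / P.B ^ (2 * c₀ + 2)) := by
            rw [div_pow]
            field_simp
        _ ≤ _ := by
            rw [hD₂]
            gcongr <;> norm_num
    have k2 : (A + Λ) ^ 2 / P.B ^ 2 ≤ (A + Λ) ^ 2 / P.B ^ (2 * c₀ + 2) :=
      div_le_div_of_nonneg_left (sq_nonneg _) (by positivity)
        (pow_le_pow_of_le_one hB.le (by linarith) (by omega))
    have k3 := mul_le_mul_of_nonneg_left k2 d1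
    have k4 := (e_sub sW.sm sK.sm ho hp).2
    have k5 := e2_le W x y
    have k6 := gx x hx y h7 (by linarith)
    have k7 := gy x hx y h7 hy
    rw [mul_div_assoc]
    refine k4.trans ?_
    linarith
  · obtain ⟨x, y⟩ := p
    obtain ⟨b1, b2⟩ := fsrc_b ok hx
    have h6 : 7 ≤ ‖x - y‖ := by
      have := norm_sub_norm_le y x
      rw [norm_sub_rev] at this
      linarith [hx.2.1, hy.1]
    have h7 : 7 / 10 * P.b x ≤ ‖x - y‖ := by linarith
    have hp := pn x hx y h7 hy.2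
    have k := (KK d Λ 1 0 x y dk hp.1 hp.2.1 one_pos le_rfl (by linarith)).1
    have k1 : C₂ * Λ ^ 2 / 1 ^ (2 * c₀ + 2) ≤ D₂ * ((A + Λ) ^ 2 / P.B ^ 2) := by
      rw [one_pow, div_one, hD₂]
      refine mul_le_mul (le_mul_of_one_le_right hC₂ (one_le_pow₀ (by norm_num)))
        (hAΛ.trans (le_div_self (sq_nonneg _) (by positivity) (pow_le_one₀ hB.le (by linarith))))
        (sq_nonneg _) d2
    have k4 := (e_sub sW.sm sK.sm ho hp).1
    have k5 := e1_eq W x y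
    have k6 := gx x hx y h7 hy.2
    have k7 := (e_nonneg d.K2 (x, y)).2.2
    have k8 : 0 ≤ D₁ * ((A + Λ) ^ 2 / P.B ^ 2) := by positivity
    rw [mul_div_assoc]
    refine k4.trans ?_
    linarith

end Vale.Agent.P088F.Fw
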