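import Vale.Agent.P088F.FDx
import Vale.Agent.P088F.FBas

/-! P088F, part F: three annuli. -/

open scoped ContDiff Topology ENNReal
open Set Filter MeasureTheory Metric

noncomputable section

namespace Vale.Agent.P088F.Fw

open Vale.Agent.P292E

variable {n : ℕ} {ι : Type} [Fintype ι] [DecidableEq ι] [NeZero n]

omit [NeZero n] in
theorem fta_pd_sm {f : V n → ℂ} (hf : ContDiff ℝ ∞ f) (j : Fin n) : ContDiff ℝ ∞ (pd j f) :=
  (hf.fderiv_right (m := ∞) (by simp)).clm_apply contDiff_const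

omit [NeZero n] in
theorem fta_pd_scale {f : V n → ℂ} (hf : ContDiff ℝ ∞ f) (c : ℂ) (r : ℝ) (x : V n) (j : Fin n) :
    pd j (fun z => c * f (r • (z - x))) = fun z => c * r * pd j f (r • (z - x)) := by
  funext z
  have h1 : HasFDerivAt (fun z : V n => r • (z - x)) (r • ContinuousLinearMap.id ℝ (V n)) z :=
    ((hasFDerivAt_id z).sub_const x).const_smul r
  have h2 := (((hf.differentiable (by simp)) (r • (z - x))).hasFDerivAt.comp z h1).const_mul c
  have h3 := h2.fderiv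
  simp only [Function.comp_def] at h3
  simp only [pd, h3]
  simp [mul_assoc]

/-- the rescaled bump function -/
def ftaZ (φ : ContDiffBump (0 : V n)) (x : V n) (r : ℝ) (z : V n) : ℂ := φ (r⁻¹ • (z - x))

omit [NeZero n] in
theorem ftaZ_sm (φ : ContDiffBump (0 : V n)) (x : V n) (r : ℝ) : ContDiff ℝ ∞ (ftaZ φ x r) :=
  Complex.ofRealCLM.contDiff.comp
    (φ.contDiff.comp ((contDiff_id.sub contDiff_const).const_smul r⁻¹))

omit [NeZero n] in
theorem ftaZ_one (φ : ContDiffBump (0 : V n)) {x z : V n} {r : ℝ} (hr : 0 < r)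
    (h : ‖z - x‖ ≤ φ.rIn * r) : ftaZ φ x r z = 1 := by
  rw [ftaZ, φ.one_of_mem_closedBall, Complex.ofReal_one]
  rw [mem_closedBall_zero_iff, norm_smul, norm_inv, Real.norm_of_nonneg hr.le, inv_mul_le_iff₀' hr]
  exact h

omit [NeZero n] in
theorem ftaZ_zero (φ : ContDiffBump (0 : V n)) {x z : V n} {r : ℝ} (hr : 0 < r)
    (h : φ.rOut * r ≤ ‖z - x‖) : ftaZ φ x r z = 0 := by
  rw [ftaZ, φ.zero_of_le_dist, Complex.ofReal_zero]
  rw [dist_zero_right, norm_smul, norm_inv, Real.norm_of_nonneg hr.le, le_inv_mul_iff₀' hr]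
  exact h

omit [NeZero n] in
theorem ftaZ_bd (φ : ContDiffBump (0 : V n)) : ∃ G : ℝ, 0 ≤ G ∧ ∀ (x : V n) (r : ℝ), 0 < r → r ≤ 1 →
    ∀ z j, ‖pd j (ftaZ φ x r) z‖ ≤ G / r ^ 2 ∧ ∀ k, ‖pd j (pd k (ftaZ φ x r)) z‖ ≤ G / r ^ 2 := by
  set f : V n → ℂ := fun z => φ z with hf
  have fs : ContDiff ℝ ∞ f := Complex.ofRealCLM.contDiff.comp φ.contDiff
  have fc : HasCompactSupport f := φ.hasCompactSupport.comp_left (g := Complex.ofReal) rfl
  obtain ⟨G, G0, hG⟩ : ∃ G : ℝ, 0 ≤ G ∧ ∀ i ≤ 2, ∀ z, ‖iteratedFDeriv ℝ i f z‖ ≤ G := by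
    have hb : ∀ i : ℕ, ∃ G : ℝ, ∀ z, ‖iteratedFDeriv ℝ i f z‖ ≤ G := fun i =>
      (fs.continuous_iteratedFDeriv (by norm_cast; exact le_top)).bounded_above_of_compact_support
        (fc.iteratedFDeriv i)
    choose G hG using hb
    have G0 : ∀ i, 0 ≤ G i := fun i => (norm_nonneg _).trans (hG i 0)
    exact ⟨∑ i ∈ Finset.range 3, G i, Finset.sum_nonneg fun i _ => G0 i, fun i hi z =>
      (hG i z).trans (Finset.single_le_sum (fun i _ => G0 i) (Finset.mem_range.2 (by omega)))⟩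
  refine ⟨G, G0, fun x r h0 h1 z j => ?_⟩
  have e0 : ftaZ φ x r = fun z => 1 * f (r⁻¹ • (z - x)) := funext fun z => (one_mul _).symm
  have r2 : r⁻¹ * r⁻¹ * G = G / r ^ 2 := by field_simp
  have r1 : 1 ≤ r⁻¹ := one_le_inv_iff₀.2 ⟨h0, h1⟩
  refine ⟨?_, fun k => ?_⟩
  · rw [e0, fta_pd_scale fs, ← r2]
    simp only [one_mul, norm_mul, Complex.norm_real, Real.norm_of_nonneg (inv_pos.2 h0).le]
    exact mul_le_mul (le_mul_of_one_le_right (by positivity) r1) (fb_pd1 (hG 1 (by simp) _) j)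
      (norm_nonneg _) (by positivity)
  · rw [e0, fta_pd_scale fs, fta_pd_scale (fta_pd_sm fs k), ← r2]
    simp only [one_mul, norm_mul, Complex.norm_real, Real.norm_of_nonneg (inv_pos.2 h0).le]
    exact mul_le_mul_of_nonneg_left
      (fb_pd2 (fs.contDiffAt.of_le (by norm_cast)) (hG 2 le_rfl _) j k) (by positivity)

omit [DecidableEq ι] [NeZero n] in
theorem fta_g1 (u : Fam n ι) (y : V n) :
    0 ≤ g1 u y ∧ ∀ l, ‖u l y‖ ≤ √(g1 u y) ∧ ∀ j, ‖pd j (u l) y‖ ≤ √(g1 u y) := by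
  refine ⟨by unfold g1; positivity, fun l => ?_⟩
  have h1 : ‖u l y‖ ^ 2 + ∑ j, ‖pd j (u l) y‖ ^ 2 ≤ g1 u y :=
    Finset.single_le_sum (f := fun l => ‖u l y‖ ^ 2 + ∑ j, ‖pd j (u l) y‖ ^ 2)
      (fun l _ => by positivity) (Finset.mem_univ l)
  refine ⟨Real.le_sqrt_of_sq_le (le_trans (le_add_of_nonneg_right (by positivity)) h1),
    fun j => Real.le_sqrt_of_sq_le (le_trans ?_ h1)⟩
  exact le_add_of_nonneg_of_le (by positivity) (Finset.single_le_sum
    (f := fun j => ‖pd j (u l) y‖ ^ 2) (fun j _ => by positivity) (Finset.mem_univ j))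

omit [DecidableEq ι] [NeZero n] in
theorem fta_cut (φ : ContDiffBump (0 : V n)) : ∃ G : ℝ, 0 ≤ G ∧ ∀ (Q : Op n ι) (x y : V n) (r T : ℝ)
    (u : Fam n ι), Q.Near 0 1 → 0 < r → r ≤ 1 → (∀ l, ContDiffAt ℝ ∞ (u l) y) →
    (∀ l, Q.ap u l y = 0) → (y ∈ ann x (φ.rIn * r) (φ.rOut * r) → g1 u y ≤ T) → ∀ l,
      ‖Q.ap (fun m z => ftaZ φ x r z * u m z) l y‖ ^ 2 ≤
        (ann x (φ.rIn * r) (φ.rOut * r)).indicator (fun _ => G / r ^ 4 * T) y := by
  obtain ⟨G, G0, hG⟩ := ftaZ_bd φ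
  refine ⟨((3 * n ^ 2 + Fintype.card ι * n) * 2 * G) ^ 2, by positivity,
    fun Q x y r T u hQ h0 h1 hu hs hT l => ?_⟩
  have hc : Continuous fun z : V n => ‖z - x‖ := by fun_prop
  by_cases hy : y ∈ ann x (φ.rIn * r) (φ.rOut * r)
  · rw [indicator_of_mem hy]
    have h2 := ap_cut (L := Q) (u := u) (ζ := ftaZ φ x r) (x := y) (M := 2) (Z := G / r ^ 2)
      (A := √(g1 u y)) (fun l => (hu l).of_le (by norm_cast))
      ((ftaZ_sm φ x r).contDiffAt.of_le (by norm_cast)) (by norm_num) (by positivity)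
      (fun j k => by
        have := abs_le.1 (hQ.g0 y j k)
        split_ifs at this <;> exact abs_le.2 ⟨by linarith, by linarith⟩)
      (fun j l m => ((hQ.a j l m).norm_le (mem_univ y)).trans one_le_two)
      (fun j => (hG x r h0 h1 y j).1) (fun j => (hG x r h0 h1 y j).2)
      (fun l => ((fta_g1 u y).2 l).1) (fun l => ((fta_g1 u y).2 l).2) l
    rw [hs, mul_zero, sub_zero] at h2
    refine (pow_le_pow_left₀ (norm_nonneg _) h2 2).trans ?_
    rw [mul_pow, Real.sq_sqrt (fta_g1 u y).1]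
    refine le_trans (le_of_eq ?_) (mul_le_mul_of_nonneg_left (hT hy) (by positivity))
    field_simp
  · rw [indicator_of_notMem hy]
    rcases not_and_or.1 hy with h | h
    · rw [_root_.Vale.Agent.P088F.ap_congr Q (v := u) fun m =>
        (hc.continuousAt.eventually_lt continuousAt_const (not_le.1 h)).mono fun z hz => by
          simp only [ftaZ_one φ h0 hz.le, one_mul], hs]
      simp
    · rw [ap_zero Q fun m =>
        (continuousAt_const.eventually_lt hc.continuousAt (not_le.1 h)).mono fun z hz => by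
          simp only [ftaZ_zero φ h0 hz.le, zero_mul]]
      simp

omit [NeZero n] in
theorem fta_vol {x : V n} {a R c : ℝ} (hR : 0 ≤ R) (hc : 0 ≤ c) :
    Integrable ((ann x a R).indicator fun _ => c) ∧
      ∫ y, (ann x a R).indicator (fun _ => c) y ≤ R ^ n * volume.real (ball (0 : V n) 1) * c := by
  have hc' : Continuous fun z : V n => ‖z - x‖ := by fun_prop
  have hm : MeasurableSet (ann x a R) :=
    ((isClosed_le continuous_const hc').inter (isClosed_le hc' continuous_const)).measurableSet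
  have hs : ann x a R ⊆ closedBall x R := fun y hy => mem_closedBall_iff_norm.2 hy.2
  refine ⟨(integrable_indicator_iff hm).2 (integrableOn_const
    (ne_top_of_le_ne_top measure_closedBall_lt_top.ne (measure_mono hs))), ?_⟩
  rw [integral_indicator_const _ hm, smul_eq_mul]
  refine mul_le_mul_of_nonneg_right ((measureReal_mono hs measure_closedBall_lt_top.ne).trans ?_) hc
  rw [Measure.addHaar_real_closedBall _ _ hR, finrank_euclideanSpace_fin]

omit [DecidableEq ι] [NeZero n] in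
theorem fta_n2 {s B : Set (V n)} {u v : Fam n ι} (hv : TstF s v) (hB : MeasurableSet B) {x : V n}
    {k : ℕ} {c : ℝ} (hc : 0 < c) (h : ∀ y ∈ B, c ≤ ‖y - x‖ ^ k ∧ ∀ l, u l y = v l y) :
    N2 B u ≤ ENNReal.ofReal (c⁻¹ * ∫ y, ‖y - x‖ ^ k * ∑ l, ‖v l y‖ ^ 2) := by
  have cv : ∀ l, Continuous (v l) := fun l => (hv l).1.continuous
  have hi : Integrable fun y => c⁻¹ * (‖y - x‖ ^ k * ∑ l, ‖v l y‖ ^ 2) := by
    simp only [Finset.mul_sum]
    refine integrable_finsetSum _ fun l _ => Continuous.integrable_of_hasCompactSupport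
      (by have := cv l; fun_prop) ((hv l).2.1.mono fun y hy h0 => hy ?_)
    simp [h0]
  rw [← integral_const_mul, ofReal_integral_eq_lintegral_ofReal hi
    (Eventually.of_forall fun y => by positivity)]
  have e : N2 B u = ∫⁻ y in B, ∑ l, ‖v l y‖ₑ ^ 2 := by
    rw [N2, lintegral_finsetSum _ fun l _ => (cv l).enorm.measurable.pow_const 2]
    exact Finset.sum_congr rfl fun l _ => setLIntegral_congr_fun hB fun y hy => by
      simp only [(h y hy).2 l]
  rw [e]
  refine le_trans (setLIntegral_mono' hB fun y hy => ?_) (setLIntegral_le_lintegral B _)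
  have e2 : ∑ l, ‖v l y‖ₑ ^ 2 = ENNReal.ofReal (∑ l, ‖v l y‖ ^ 2) := by
    rw [ENNReal.ofReal_sum_of_nonneg fun l _ => by positivity]
    exact Finset.sum_congr rfl fun l _ => by
      rw [ENNReal.ofReal_pow (norm_nonneg _), ofReal_norm]
  rw [e2]
  refine ENNReal.ofReal_le_ofReal ?_
  rw [← mul_assoc]
  exact le_mul_of_one_le_left (by positivity) ((one_le_inv_mul₀ hc).2 (h y hy).1)

/-- the weighted integral after cutting off -/
theorem fta_int (k : ℕ) : ∃ C : ℝ, 0 ≤ C ∧ ∀ (Q : Op n ι) (x : V n) (β T₁ T₂ : ℝ) (u : Fam n ι),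
    Q.Near 0 1 → 0 < β → β ≤ 1 / 10 → SolOn Q {y | β < ‖y - x‖ ∧ ‖y - x‖ < 12} u → 0 ≤ T₁ → 0 ≤ T₂ →
    (∀ y ∈ ann x (5 * β) (7 * β), g1 u y ≤ T₁) → (∀ y ∈ ann x (19 / 2) (21 / 2), g1 u y ≤ T₂) →
    ∃ v : Fam n ι, TstF (ball x 30 \ {x}) v ∧
      (∀ y, 7 * β ≤ ‖y - x‖ → ‖y - x‖ ≤ 19 / 2 → ∀ l, u l y = v l y) ∧
      ∫ y, ‖y - x‖ ^ k * ∑ l, ‖Q.ap v l y‖ ^ 2 ≤ C * (β ^ k * β ^ n / β ^ 4 * T₁ + T₂) := by
  let φ : ContDiffBump (0 : V n) := ⟨5, 7, by norm_num, by norm_num⟩
  let ψ : ContDiffBump (0 : V n) := ⟨19 / 2, 21 / 2, by norm_num, by norm_num⟩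
  obtain ⟨G, G0, hG⟩ := fta_cut (ι := ι) φ
  obtain ⟨G', G0', hG'⟩ := fta_cut (ι := ι) ψ
  set w := volume.real (ball (0 : V n) 1) with hw
  have w0 : 0 ≤ w := measureReal_nonneg
  refine ⟨11 ^ n * w * (11 ^ k * Fintype.card ι * 2 * (G + G')), by positivity,
    fun Q x β T₁ T₂ u hQ h0 h1 hu t1 t2 hT₁ hT₂ => ?_⟩
  set D : Set (V n) := {y | β < ‖y - x‖ ∧ ‖y - x‖ < 12} with hD
  have hc : Continuous fun z : V n => ‖z - x‖ := by fun_prop
  have Do : IsOpen D := (isOpen_lt continuous_const hc).inter (isOpen_lt hc continuous_const)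
  have Kc : IsCompact (ann x (5 * β) (21 / 2)) :=
    (isCompact_closedBall x (21 / 2)).of_isClosed_subset
      ((isClosed_le continuous_const hc).inter (isClosed_le hc continuous_const))
      fun y hy => mem_closedBall_iff_norm.2 hy.2
  have hv := fun l => tst_ind (f := fun z => ftaZ ψ x 1 z * u l z - ftaZ φ x β z * u l z) Do Kc
    (fun y hy => ⟨by linarith [hy.1], by linarith [hy.2]⟩)
    (((ftaZ_sm ψ x 1).contDiffOn.mul (hu.1 l)).sub ((ftaZ_sm φ x β).contDiffOn.mul (hu.1 l)))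
    fun y _ hy => by
      rcases not_and_or.1 hy with h | h
      · simp only [ftaZ_one ψ one_pos (show ‖y - x‖ ≤ 19 / 2 * 1 by linarith [not_le.1 h]),
          ftaZ_one φ h0 (not_le.1 h).le, sub_self]
      · simp only [ftaZ_zero ψ one_pos (show 21 / 2 * 1 ≤ ‖y - x‖ by linarith [not_le.1 h]),
          ftaZ_zero φ h0 (show 7 * β ≤ ‖y - x‖ by linarith [not_le.1 h]), sub_self]
  refine ⟨fun l => D.indicator fun z => ftaZ ψ x 1 z * u l z - ftaZ φ x β z * u l z,
    fun l => ⟨(hv l).1, (hv l).2.1, (hv l).2.2.trans fun y hy => ⟨mem_ball_iff_norm.2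
      (by linarith [hy.2]), fun e => ?_⟩⟩, fun y a b l => ?_, ?_⟩
  · have := hy.1
    rw [show y = x from e, sub_self, norm_zero] at this
    linarith
  · beta_reduce
    rw [indicator_of_mem (show y ∈ D from ⟨by linarith, by linarith⟩),
      ftaZ_one ψ one_pos (show ‖y - x‖ ≤ 19 / 2 * 1 by linarith), ftaZ_zero φ h0 a]
    ring
  obtain ⟨i1, j1⟩ := fta_vol (x := x) (a := 5 * β) (R := 7 * β)
    (c := (7 * β) ^ k * (Fintype.card ι * 2 * (G / β ^ 4 * T₁))) (by positivity) (by positivity)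
  obtain ⟨i2, j2⟩ := fta_vol (x := x) (a := 19 / 2 * 1) (R := 21 / 2 * 1)
    (c := (21 / 2 * 1) ^ k * (Fintype.card ι * 2 * (G' / 1 ^ 4 * T₂))) (by positivity) (by positivity)
  refine (integral_mono_of_nonneg (Eventually.of_forall fun y => by positivity) (i1.add i2)
    (Eventually.of_forall fun y => ?_)).trans ?_
  · by_cases hy : y ∈ D
    · have us : ∀ l, ContDiffAt ℝ ∞ (u l) y := fun l => (hu.1 l).contDiffAt (Do.mem_nhds hy)
      have a1 := hG Q x y β T₁ u hQ h0 (by linarith) us (fun l => hu.2 l y hy) (hT₁ y)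
      have a2 := hG' Q x y 1 T₂ u hQ one_pos le_rfl us (fun l => hu.2 l y hy)
        fun h => hT₂ y ⟨(mul_one (19 / 2 : ℝ)).ge.trans h.1, h.2.trans (mul_one (21 / 2 : ℝ)).le⟩
      have a3 : ∑ l, ‖Q.ap (fun l => D.indicator fun z => ftaZ ψ x 1 z * u l z -
          ftaZ φ x β z * u l z) l y‖ ^ 2 ≤ Fintype.card ι *
          (2 * (ann x (5 * β) (7 * β)).indicator (fun _ => G / β ^ 4 * T₁) y +
            2 * (ann x (19 / 2 * 1) (21 / 2 * 1)).indicator (fun _ => G' / 1 ^ 4 * T₂) y) := by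
        rw [← nsmul_eq_mul, ← Finset.card_univ]
        refine Finset.sum_le_card_nsmul _ _ _ fun l _ => ?_
        have ev : ∀ l, (D.indicator fun z => ftaZ ψ x 1 z * u l z - ftaZ φ x β z * u l z) =ᶠ[𝓝 y]
            fun z => ftaZ ψ x 1 z * u l z - ftaZ φ x β z * u l z := fun l =>
          (Do.eventually_mem hy).mono fun z hz => indicator_of_mem hz _
        rw [ap_congr (v := fun l z => ftaZ ψ x 1 z * u l z - ftaZ φ x β z * u l z) ev,
          ap_sub (fun l => (ftaZ_sm ψ x 1).contDiffAt.mul (us l))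
            fun l => (ftaZ_sm φ x β).contDiffAt.mul (us l)]
        refine (pow_le_pow_left₀ (norm_nonneg _) (norm_sub_le _ _) 2).trans (add_sq_le.trans ?_)
        linarith [a1 l, a2 l]
      refine (mul_le_mul_of_nonneg_left a3 (by positivity)).trans ?_
      rw [mul_add, mul_add]
      refine add_le_add ?_ ?_ <;> unfold indicator <;> split_ifs with h
      · rw [← mul_assoc (Fintype.card ι : ℝ)]
        exact mul_le_mul_of_nonneg_right (pow_le_pow_left₀ (norm_nonneg _) h.2 k) (by positivity)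
      · simp
      · rw [← mul_assoc (Fintype.card ι : ℝ)]
        exact mul_le_mul_of_nonneg_right (pow_le_pow_left₀ (norm_nonneg _) h.2 k) (by positivity)
      · simp
    · have a : ∀ l, Q.ap (fun l => D.indicator fun z => ftaZ ψ x 1 z * u l z -
          ftaZ φ x β z * u l z) l y = 0 := ap_zero Q fun l => notMem_tsupport_iff_eventuallyEq.1
        fun h => hy ⟨by linarith [((hv l).2.2 h).1], by linarith [((hv l).2.2 h).2]⟩
      simp only [a, norm_zero, ne_eq, OfNat.ofNat_ne_zero, not_false_eq_true, zero_pow,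
        Finset.sum_const_zero, mul_zero]
      exact add_nonneg (indicator_nonneg (fun _ _ => by positivity) _)
        (indicator_nonneg (fun _ _ => by positivity) _)
  · rw [integral_add' i1 i2, mul_add]
    refine add_le_add (j1.trans ?_) (j2.trans ?_)
    · calc _ = 7 ^ n * w * (7 ^ k * Fintype.card ι * 2 * G) * (β ^ k * β ^ n / β ^ 4 * T₁) := by
            rw [mul_pow, mul_pow]
            ring
        _ ≤ _ := by gcongr <;> linarith
    · calc _ = (21 / 2) ^ n * w * ((21 / 2) ^ k * Fintype.card ι * 2 * G') * T₂ := by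
            rw [mul_one, one_pow]
            ring
        _ ≤ _ := by gcongr <;> linarith

theorem three_ann (h : C7A n ι) (ie : IEL n ι) : TA n ι := by
  obtain ⟨M₀, h⟩ := h
  obtain ⟨K', ε', C', e0', C0', ie⟩ := ie
  refine ⟨M₀, fun M hM => ?_⟩
  obtain ⟨K, ε, C, e0, h⟩ := h (M + 3) (by omega)
  obtain ⟨C₁, C1, hint⟩ := fta_int (n := n) (ι := ι) (2 * (M + 3))
  set C₂ := C' * 20 ^ (n + 2) * 2 ^ (2 * (M + 3)) * (max C 0 * C₁ * (C' * 2 ^ (n + 2))) with hC₂
  set C₃ := C' * 2 ^ (n + 2) * 8 ^ (2 * M + n + 8) with hC₃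
  have c2 : 0 ≤ C₂ := by positivity
  have c3 : 0 ≤ C₃ := by positivity
  refine ⟨max K K', min (min ε ε') 1, C₂ + C₃ + 1, by positivity, by positivity,
    fun Q x β u hQ hN h0 h1 hu y y1 y2 => ?_⟩
  have ρ0 : 0 < ‖y - x‖ := by linarith
  by_cases hS : ENNReal.ofReal (β ^ (2 * M)) * N2 (ann x (3 * β) (9 * β)) u +
      N2 (ann x 9 11) u = ⊤
  · rw [hS, ENNReal.mul_top (by simp; positivity)]
    exact le_top
  obtain ⟨hI, hF⟩ := ENNReal.add_ne_top.1 hS
  replace hI : N2 (ann x (3 * β) (9 * β)) u ≠ ⊤ := fun e =>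
    hI (by rw [e, ENNReal.mul_top (by simp; positivity)])
  set I := (N2 (ann x (3 * β) (9 * β)) u).toReal with hId
  set F := (N2 (ann x 9 11) u).toReal with hFd
  have I0 : 0 ≤ I := ENNReal.toReal_nonneg
  have F0 : 0 ≤ F := ENNReal.toReal_nonneg
  rw [← ENNReal.ofReal_toReal hI, ← ENNReal.ofReal_toReal hF, ← hId, ← hFd,
    ← ENNReal.ofReal_mul (by positivity), ← ENNReal.ofReal_add (by positivity) F0,
    ← ENNReal.ofReal_mul (by positivity)]
  refine ENNReal.ofReal_le_ofReal ?_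
  have tri : ∀ {z z' : V n} {r : ℝ}, z' ∈ ball z r →
      ‖z - x‖ - r < ‖z' - x‖ ∧ ‖z' - x‖ < ‖z - x‖ + r := fun {z z' r} hz => by
    have a := abs_le.1 (abs_norm_sub_norm_le (z' - x) (z - x))
    rw [sub_sub_sub_cancel_right] at a
    have b := mem_ball_iff_norm.1 hz
    constructor <;> linarith [a.1, a.2]
  have key : ∀ (z : V n) (r T : ℝ), 0 < r → r ≤ 1 → β + r ≤ ‖z - x‖ → ‖z - x‖ + r ≤ 12 → 0 ≤ T →
      N2 (ball z r) u ≤ ENNReal.ofReal T → g1 u z ≤ C' / r ^ (n + 2) * T := by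
    intro z r T r0 r1 a b T0 hT
    have := (ie Q z r u hQ (hN.mono (le_max_right _ _) ((min_le_left _ _).trans (min_le_right _ _)))
      r0 r1 (hu.mono fun w hw => ⟨by linarith [(tri hw).1], by linarith [(tri hw).2]⟩)).trans
      (mul_le_mul_right hT _)
    rwa [← ENNReal.ofReal_mul (by positivity), ENNReal.ofReal_le_ofReal_iff (by positivity)] at this
  have inn : ∀ (z : V n) (r : ℝ), 3 * β + r ≤ ‖z - x‖ → ‖z - x‖ + r ≤ 9 * β →
      N2 (ball z r) u ≤ ENNReal.ofReal I := fun z r a b =>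
    (N2.mono (s' := ann x (3 * β) (9 * β)) u fun w hw =>
      ⟨by linarith [(tri hw).1], by linarith [(tri hw).2]⟩).trans (ENNReal.ofReal_toReal hI).ge
  rw [div_mul_eq_mul_div, le_div_iff₀ (by positivity)]
  rcases le_total ‖y - x‖ (8 * β) with hy | hy
  · have a := key y (β / 2) I (by positivity) (by linarith) (by linarith) (by linarith) I0
      (inn y _ (by linarith) (by linarith))
    have b : β ^ 6 ≤ 1 := pow_le_one₀ h0.le (by linarith)
    calc _ ≤ C' / (β / 2) ^ (n + 2) * I * (8 * β) ^ (2 * M + n + 8) := by gcongr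
      _ = C₃ * (β ^ (2 * M) * I) * β ^ 6 := by
          rw [hC₃, div_pow, mul_pow]
          field_simp
          ring
      _ ≤ C₃ * (β ^ (2 * M) * I) := mul_le_of_le_one_right (by positivity) b
      _ ≤ _ := by gcongr <;> linarith
  · obtain ⟨v, hv, huv, hi⟩ := hint Q x β (C' / β ^ (n + 2) * I) (C' / (1 / 2) ^ (n + 2) * F) u
      (hN.mono (Nat.zero_le _) (min_le_right _ _)) h0 h1 hu (by positivity) (by positivity)
      (fun z hz => key z β I h0 (by linarith) (by linarith [hz.1]) (by linarith [hz.2]) I0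
        (inn z _ (by linarith [hz.1]) (by linarith [hz.2])))
      fun z hz => key z (1 / 2) F (by norm_num) (by norm_num) (by linarith [hz.1])
        (by linarith [hz.2]) F0 ((N2.mono (s' := ann x 9 11) u fun w hw => ⟨by linarith [(tri hw).1, hz.1],
          by linarith [(tri hw).2, hz.2]⟩).trans (ENNReal.ofReal_toReal hF).ge)
    have h7 := h Q x v hQ (hN.mono (le_max_left _ _) ((min_le_left _ _).trans (min_le_left _ _))) hv
    have h8 : ∫ z, ‖z - x‖ ^ (2 * (M + 3)) * ∑ l, ‖v l z‖ ^ 2 ≤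
        max C 0 * C₁ * (C' * 2 ^ (n + 2)) * (β ^ (2 * M) * I + F) := by
      refine h7.trans ((mul_le_mul_of_nonneg_right (le_max_left C 0)
        (integral_nonneg fun z => by positivity)).trans ?_)
      rw [mul_assoc, mul_assoc]
      refine mul_le_mul_of_nonneg_left (hi.trans (mul_le_mul_of_nonneg_left ?_ C1)) (le_max_right _ _)
      have b : (1 : ℝ) ≤ 2 ^ (n + 2) := one_le_pow₀ one_le_two
      calc _ = C' * 1 * (β ^ (2 * M) * I) + C' * 2 ^ (n + 2) * F := by
            rw [one_div, inv_pow, div_inv_eq_mul]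
            field_simp
            ring
        _ ≤ C' * 2 ^ (n + 2) * (β ^ (2 * M) * I) + C' * 2 ^ (n + 2) * F := by gcongr
        _ = _ := by ring
    have a := key y (‖y - x‖ / 20) _ (by positivity) (by linarith) (by linarith) (by linarith)
      (by positivity) ((fta_n2 (u := u) hv measurableSet_ball (x := x) (k := 2 * (M + 3))
        (c := (‖y - x‖ / 2) ^ (2 * (M + 3))) (by positivity) fun z hz =>
          ⟨pow_le_pow_left₀ (by positivity) (by linarith [(tri hz).1]) _,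
            huv z (by linarith [(tri hz).1]) (by linarith [(tri hz).2])⟩).trans
        (ENNReal.ofReal_le_ofReal (mul_le_mul_of_nonneg_left h8 (by positivity))))
    calc _ ≤ _ := mul_le_mul_of_nonneg_right a (by positivity)
      _ = C₂ * (β ^ (2 * M) * I + F) := by
          rw [hC₂, div_pow, div_pow]
          field_simp
          ring
      _ ≤ _ := by gcongr; linarith

end Vale.Agent.P088F.Fw
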