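import Vale.Agent.P088F.FDx
import Vale.Agent.P088F.FGeo

/-! P088F, part F: three annuli for kernels. -/

open scoped ContDiff Topology ENNReal
open Set Filter MeasureTheory Metric

noncomputable section

namespace Vale.Agent.P088F.Fw

open Vale.Agent.P292E

variable {n : ℕ} {ι : Type} [Fintype ι] [DecidableEq ι] [NeZero n]

omit [NeZero n] in
theorem ftak_le {α : Type} (t : Finset α) (μ : Measure (V n)) (f : α → V n → ℝ≥0∞) :
    ∑ a ∈ t, ∫⁻ y, f a y ∂μ ≤ ∫⁻ y, ∑ a ∈ t, f a y ∂μ := by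
  classical
  induction t using Finset.induction_on with
  | empty => simp
  | insert a t ha ih =>
    simp only [Finset.sum_insert ha]
    exact (add_le_add le_rfl ih).trans (le_lintegral_add _ _)

theorem ftak_sq (z : ℂ) : ENNReal.ofReal (‖z‖ ^ 2) = ‖z‖ₑ ^ 2 := by
  rw [ENNReal.ofReal_pow (norm_nonneg _), ofReal_norm]

omit [NeZero n] [DecidableEq ι] in
theorem ftak_sum (E : Kr n ι) (x : V n) (s : Set (V n)) :
    ∑ l, (N2 s (fun m y => E l m x y) + ∑ j, N2 s fun m y => dx j E l m x y) ≤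
      ∫⁻ y in s, ENNReal.ofReal (e1 E (x, y)) := by
  have e : ∀ y, ENNReal.ofReal (e1 E (x, y)) =
      ∑ l, (∑ m, ‖E l m x y‖ₑ ^ 2 + ∑ j, ∑ m, ‖dx j E l m x y‖ₑ ^ 2) := fun y => by
    unfold e1
    rw [ENNReal.ofReal_sum_of_nonneg fun l _ => by positivity]
    refine Finset.sum_congr rfl fun l _ => ?_
    rw [ENNReal.ofReal_sum_of_nonneg fun l _ => by positivity, Finset.sum_comm,
      ← Finset.sum_add_distrib]
    refine Finset.sum_congr rfl fun m _ => ?_
    rw [ENNReal.ofReal_add (by positivity) (by positivity),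
      ENNReal.ofReal_sum_of_nonneg fun l _ => by positivity]
    simp only [ftak_sq]
  simp only [e]
  refine le_trans (Finset.sum_le_sum fun l _ => ?_) (ftak_le _ _ _)
  refine le_trans (add_le_add (ftak_le _ _ _) ?_) (le_lintegral_add _ _)
  exact le_trans (Finset.sum_le_sum fun j _ => ftak_le _ _ _) (ftak_le _ _ _)

omit [NeZero n] [DecidableEq ι] in
theorem ftak_e2 (E : Kr n ι) (x y : V n) :
    e2 E (x, y) ≤ ∑ l, (g1 (fun m y => E l m x y) y + ∑ j, g1 (fun m y => dx j E l m x y) y) := by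
  unfold e2 e1 g1
  rw [← Finset.sum_add_distrib]
  refine Finset.sum_le_sum fun l _ => ?_
  rw [Finset.sum_comm (f := fun j m => ‖dx j E l m x y‖ ^ 2 +
    ∑ k, ‖pd k (fun y => dx j E l m x y) y‖ ^ 2), ← Finset.sum_add_distrib,
    ← Finset.sum_add_distrib]
  refine Finset.sum_le_sum fun m _ => ?_
  have : ∑ j, ‖dx j E l m x y‖ ^ 2 ≤
      ∑ j, (‖dx j E l m x y‖ ^ 2 + ∑ k, ‖pd k (fun y => dx j E l m x y) y‖ ^ 2) :=
    Finset.sum_le_sum fun j _ => le_add_of_nonneg_right (by positivity)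
  unfold dy
  dsimp only
  linarith

theorem tak (h : TA n ι) : TAK n ι := by
  obtain ⟨M₀, h⟩ := h
  refine ⟨M₀, fun M hM => ?_⟩
  obtain ⟨K, ε, C, hε, hC, h⟩ := h M hM
  refine ⟨K, ε, C, hε, hC, fun P Q E hN hB hB1 hQ hQn hE x hx y hy1 hy2 => ?_⟩
  have hψ : psi P.κ x < P.a := lt_of_le_of_lt hx.2.2 (sub_lt_self _ (by positivity))
  have hb0 : 0 < P.b x := by unfold Par.b; positivity
  have hb : P.b x ≤ 1 / 10 := (b_le hB hN.le hψ.le).trans hB1
  have hs : ∀ y ∈ {y | P.b x < ‖y - x‖ ∧ ‖y - x‖ < 12}, (x, y) ∈ P.new n := fun y hy => by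
    have h1 := norm_add_le (y - x) x
    rw [sub_add_cancel] at h1
    refine ⟨by linarith [hx.2.1], by linarith [hx.2.1, hy.2], hψ, ?_⟩
    rw [norm_sub_rev]
    linarith [hy.1]
  have g0 : ∀ u : Fam n ι, 0 ≤ g1 u y := fun u => by unfold g1; positivity
  have h1 := fun l => h Q x _ _ hQ hQn hb0 hb (hE.slice l hs) y hy1 hy2
  have h2 := fun l j => h Q x _ _ hQ hQn hb0 hb ((hE.dx (new_open P) j).slice l hs) y hy1 hy2
  have hY : ann x 9 11 ⊆ Yf n := fun y hy => by
    have h1 := norm_add_le (y - x) x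
    have h2 := norm_sub_le y x
    rw [sub_add_cancel] at h1
    exact ⟨by linarith [hx.2.1, hy.1], by linarith [hx.2.1, hy.2]⟩
  refine (ENNReal.ofReal_le_ofReal (ftak_e2 E x y)).trans ?_
  rw [ENNReal.ofReal_sum_of_nonneg fun l _ =>
    add_nonneg (g0 _) (Finset.sum_nonneg fun _ _ => g0 _)]
  refine le_trans (Finset.sum_le_sum fun l _ => (le_of_eq (by
    rw [ENNReal.ofReal_add (g0 _) (Finset.sum_nonneg fun _ _ => g0 _),
      ENNReal.ofReal_sum_of_nonneg fun _ _ => g0 _])).trans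
      (add_le_add (h1 l) (Finset.sum_le_sum (s := Finset.univ) fun j _ => h2 l j)))
    (le_trans ?_ (mul_le_mul_right (add_le_add (mul_le_mul_right (ftak_sum E x _) _)
      ((ftak_sum E x _).trans (lintegral_mono_set hY))) _))
  simp only [mul_add, Finset.mul_sum, Finset.sum_add_distrib]
  exact le_of_eq (by ring)

end Vale.Agent.P088F.Fw
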