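import Vale.Agent.P088F.FGeo
import Vale.Agent.P088F.FMat
import Vale.Agent.P088F.DQq

/-! P088F, part F: the phase. -/

open scoped ContDiff Topology ENNReal
open Set Filter MeasureTheory Metric

noncomputable section

namespace Vale.Agent.P088F.Fw

open Vale.Agent.P292E

variable {n : ℕ} {ι : Type} [Fintype ι] [DecidableEq ι] [NeZero n]

theorem ths : THS n ι := by
  obtain ⟨ε₀, C, hε₀, hC, hm⟩ := mat n
  have hp : (0 : ℝ) < 10 * (n * C + 1) := by positivity
  refine ⟨min ε₀ (1 / (10 * (n * C + 1))), 1 / 200, lt_min hε₀ (by positivity), by norm_num,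
    fun P L h0 h1 hP hL hN => ?_⟩
  generalize he : min ε₀ (1 / (10 * (n * C + 1))) = ε at hN
  have e1 : ε ≤ ε₀ := he ▸ min_le_left _ _
  have e2 : ε ≤ 1 / (10 * (n * C + 1)) := he ▸ min_le_right _ _
  have e0 : 0 ≤ ε := he ▸ (lt_min hε₀ (by positivity)).le
  have e3 : n * (C * ε) ≤ 1 / 10 := by
    rw [le_div_iff₀ hp] at e2
    nlinarith
  have hq : ∀ x y : V n, |qq L.g (x, y) - ‖x - y‖ ^ 2| ≤ 1 / 10 * ‖x - y‖ ^ 2 := fun x y => by
    have a1 := (hm L.g ((1 / 2 : ℝ) • (x + y)) ε e1 (fun j k => hL.symm j k _) fun j k => by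
      have := hN.g j k 0 le_rfl ((1 / 2 : ℝ) • (x + y)) (mem_univ _)
      rwa [norm_iteratedFDeriv_zero] at this).2.2.1
    have a2 := Dd.dqq_ip (g := fun j k z => iv L.g z j k) a1 (y - x)
    rw [norm_sub_rev y x] at a2
    exact a2.trans (mul_le_mul_of_nonneg_right e3 (sq_nonneg _))
  have hb : ∀ x : V n, 0 < P.b x := fun x => mul_pos hP.B0 (Real.exp_pos _)
  have hq0 : ∀ x y : V n, x ≠ y → 0 < qq L.g (x, y) := fun x y h => by
    have a1 : 0 < ‖x - y‖ ^ 2 := pow_pos (norm_pos_iff.2 (sub_ne_zero.2 h)) 2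
    linarith [(abs_le.1 (hq x y)).1]
  refine ⟨((((Dd.dqq_sm hL).contDiffOn.log fun p hp => (hq0 p.1 p.2 hp).ne').sub
    (((b_sm P).comp contDiff_fst).contDiffOn.log fun p _ => (hb _).ne')).sub
    (((b_sm P).comp contDiff_snd).contDiffOn.log fun p _ => (hb _).ne')),
    fun x y hx hxy hd => ?_⟩
  obtain ⟨s1, -, s2, -⟩ := ok_small hP
  have hN0 : 0 ≤ P.N := zero_le_one.trans hP.N0
  have hy : ‖y‖ ≤ 2 := by
    have := norm_sub_norm_le y x
    rw [norm_sub_rev] at this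
    linarith
  have hs : P.N * ‖x - y‖ ≤ 1 / 50 := by nlinarith [mul_le_mul_of_nonneg_left hd hN0]
  have b1 := b_lip h0 h1 hP.B0 hN0 (hx.trans one_le_two) hy hs
  have b2 := b_lip h0 h1 hP.B0 hN0 hy (hx.trans one_le_two) (by rwa [norm_sub_rev])
  have bx := hb x
  have bz := hb y
  have e : Real.exp (P.Th L.g (x, y)) = qq L.g (x, y) / P.b x / P.b y := by
    rw [Par.Th, Real.exp_sub, Real.exp_sub, Real.exp_log (hq0 x y hxy), Real.exp_log bx,
      Real.exp_log bz]
  obtain ⟨q1, q2⟩ := abs_le.1 (hq x y)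
  have q0 := sq_nonneg ‖x - y‖
  rw [e, div_div, div_le_div_iff₀ (by positivity) (by positivity),
    div_le_div_iff₀ (by positivity) (by positivity)]
  generalize ‖x - y‖ ^ 2 = r at *
  generalize qq L.g (x, y) = w at *
  have c1 := mul_le_mul_of_nonneg_left b1 (mul_nonneg q0 bx.le)
  have c2 := mul_le_mul_of_nonneg_left b2 (mul_nonneg q0 bx.le)
  have c3 := mul_nonneg q0 (mul_pos bx bz).le
  have c4 := mul_nonneg q0 (sq_nonneg (P.b x))
  have c5 := mul_le_mul_of_nonneg_right q1 (sq_nonneg (P.b x))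
  have c6 := mul_le_mul_of_nonneg_right q2 (sq_nonneg (P.b x))
  constructor <;> nlinarith

end Vale.Agent.P088F.Fw
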