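import Vale.Agent.P088F.TDefs

/-! P088, extension to the boundary: identities on the boundary. -/

open MeasureTheory Set Filter Bundle Metric Topology Matrix
open scoped Manifold ContDiff

noncomputable section

namespace Vale.Agent.P088.Gl

variable {n N : ℕ} {H : Type} [TopologicalSpace H] {I : ModelWithCorners ℝ (Ec n) H}
  {M : Type} [TopologicalSpace M] [ChartedSpace H M] [IsManifold I ∞ M]
  {g₁ g₂ : Met I M} {A₁ A₂ : Conn I M N} {Φ : M → M} {U : M → Op N}

theorem FinE_dense : Dense {q : TangentBundle I M | q.1 ∈ I.interior M} :=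
  (dense_interior (I := I) (M := M)).preimage
    (FiberBundle.isOpenMap_proj (Ec n) (TangentSpace I (M := M)))

theorem FinE_sq (g : Met I M) : Continuous fun q : TangentBundle I M => g.inner q.1 q.2 q.2 := by
  let _ : RiemannianBundle fun x : M => TangentSpace I x := ⟨g.toRiemannianMetric⟩
  exact (ContMDiff.inner_bundle (F := Ec n) (IB := I) (E := fun x : M => TangentSpace I x)
    (IM := I.tangent) (n := ∞) (b := fun q : TangentBundle I M => q.1) (v := fun q => q.2)
    (w := fun q => q.2) contMDiff_id contMDiff_id).continuous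

theorem FinE_pol (g : Met I M) (x : M) (v w : TangentSpace I x) :
    2 * g.inner x v w = g.inner x (v + w) (v + w) - g.inner x v v - g.inner x w w := by
  simp only [map_add, _root_.add_apply]
  rw [g.symm x w v]
  ring

/-- The identities extend by density. -/
theorem Iso.dens (h : Iso g₁ A₁ g₂ A₂ (I.interior M) Φ U) {Φ' : M → M} {U' : M → Op N}
    (sΦ : ContMDiff I I ∞ Φ') (sU : ContMDiff I 𝓘(ℝ, Op N) ∞ U') (eΦ : EqOn Φ Φ' (I.interior M))
    (eU : EqOn U U' (I.interior M)) :
    (∀ x, U' x ∈ unitary (Op N)) ∧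
      (∀ x v w, g₂.inner x v w = g₁.inner (Φ' x) (mfderiv I I Φ' x v) (mfderiv I I Φ' x w)) ∧
      ∀ x v, U' x * A₂.A x v = A₁.A (Φ' x) (mfderiv I I Φ' x v) * U' x + dif I U' x v := by
  have ev : ∀ x ∈ I.interior M, Φ =ᶠ[𝓝 x] Φ' ∧ U =ᶠ[𝓝 x] U' := fun x hx =>
    ⟨eΦ.eventuallyEq_of_mem (h.op.mem_nhds hx), eU.eventuallyEq_of_mem (h.op.mem_nhds hx)⟩
  have cT : Continuous (tangentMap I I Φ') := sΦ.continuous_tangentMap (by simp)
  have cU : Continuous fun q : TangentBundle I M => U' q.1 :=
    sU.continuous.comp (FiberBundle.continuous_proj _ _)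
  have eT : ∀ q : TangentBundle I M, q.1 ∈ I.interior M →
      tangentMap I I Φ q = tangentMap I I Φ' q := fun q hq => by
    rw [tangentMap, tangentMap, (ev _ hq).1.mfderiv_eq]
    exact TotalSpace.ext (eΦ hq) HEq.rfl
  refine ⟨fun x => ?_, fun x v w => ?_, fun x v => ?_⟩
  · have cs : Continuous fun y => star (U' y) :=
      (ContinuousLinearMap.adjoint : Op N ≃ₗᵢ⋆[ℂ] Op N).continuous.comp sU.continuous
    have c1 := congrFun ((cs.mul sU.continuous).ext_on dense_interior
      continuous_const fun y hy => (eU hy ▸ h.uni y hy).1) x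
    have c2 := congrFun ((sU.continuous.mul cs).ext_on dense_interior
      continuous_const fun y hy => (eU hy ▸ h.uni y hy).2) x
    exact ⟨c1, c2⟩
  · have c : ∀ v : TangentSpace I x,
        g₂.inner x v v = g₁.inner (Φ' x) (mfderiv I I Φ' x v) (mfderiv I I Φ' x v) := fun v =>
      congrFun ((FinE_sq g₂).ext_on FinE_dense ((FinE_sq g₁).comp cT) fun q hq =>
        (h.met q.1 hq q.2 q.2).trans (congrArg (fun q : TangentBundle I M => g₁.inner q.1 q.2 q.2)
          (eT q hq))) ⟨x, v⟩
    refine mul_left_cancel₀ two_ne_zero ?_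
    rw [FinE_pol, FinE_pol, c, c, c, map_add]
  · refine congrFun ((cU.mul A₂.smooth.continuous).ext_on FinE_dense
      (((A₁.smooth.continuous.comp cT).mul cU).add (dif_smooth sU).continuous) fun q hq => ?_)
      (⟨x, v⟩ : TangentBundle I M)
    have e1 := h.con q.1 hq q.2
    have e2 : A₁.A (Φ q.1) (mfderiv I I Φ q.1 q.2) = A₁.A (Φ' q.1) (mfderiv I I Φ' q.1 q.2) :=
      congrArg (fun q : TangentBundle I M => A₁.A q.1 q.2) (eT q hq)
    have e3 : dif I U q.1 = dif I U' q.1 := (ev _ hq).2.mfderiv_eq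
    rw [e2, e3, eU hq] at e1
    exact e1

end Vale.Agent.P088.Gl
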