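import Vale.Agent.P088F.TDefs

/-! P088, extension to the boundary: the values on the patch. -/

open MeasureTheory Set Filter Bundle Metric Topology Matrix
open scoped Manifold ContDiff

noncomputable section

namespace Vale.Agent.P088.Gl

variable {n N : ℕ} {H : Type} [TopologicalSpace H] {I : ModelWithCorners ℝ (Ec n) H}
  {M : Type} [TopologicalSpace M] [ChartedSpace H M] [IsManifold I ∞ M] [T2Space M]
  [CompactSpace M]

/-- A test section with a given value at `x`, vanishing outside `O'`. -/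
theorem finG_test {Γ O O' : Set M} (hΓ : Γ = O ∩ I.boundary M) (hO' : IsOpen O') (hs : O' ⊆ O)
    {x : M} (hx : x ∈ O') (ξ : Fb N) :
    ∃ f : M → Fb N, IsTest I Γ f ∧ f x = ξ ∧ ∀ y ∉ O', f y = 0 := by
  obtain ⟨V, hV, hxV, hVO⟩ := normal_exists_closure_subset (isClosed_singleton (x := x)) hO'
    (singleton_subset_iff.2 hx)
  obtain ⟨χ, h0, h1, -⟩ := exists_contMDiffMap_zero_one_of_isClosed (n := ⊤) I hV.isClosed_compl
    (isClosed_singleton (x := x)) (disjoint_left.2 fun y hy e => hy (hxV e))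
  refine ⟨fun y => χ y • ξ, ⟨χ.contMDiff.smul contMDiff_const, ?_⟩, ?_, fun y hy => ?_⟩
  · rw [hΓ]
    refine subset_inter ((closure_mono fun y hy => ?_).trans (hVO.trans hs))
      (closure_minimal (fun y hy => hy.1) (I.isClosed_boundary (n := ∞) (by simp)))
    by_contra h
    exact hy.2 (by simp [h0 h])
  · simp [h1 rfl]
  · have : y ∈ Vᶜ := fun h => hy (hVO (subset_closure h))
    simp [h0 this]

/-- On the patch the extension is the identity. -/
theorem patch_id (hN : 1 ≤ N) {Γ O : Set M} (hO : IsOpen O) (hΓ : Γ = O ∩ I.boundary M)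
    {S₁ S₂ : (M → Fb N) → M → Fb N}
    (h₁ : ∀ f, IsTest I Γ f → Continuous (S₁ f) ∧ EqOn (S₁ f) f (I.boundary M))
    (h₂ : ∀ f, IsTest I Γ f → Continuous (S₂ f) ∧ EqOn (S₂ f) f (I.boundary M))
    {Φ : M → M} {U : M → Op N} (cΦ : Continuous Φ) (cU : Continuous U)
    (hb : MapsTo Φ (I.boundary M) (I.boundary M)) (hU : ∀ x, U x ∈ unitary (Op N))
    (hs : ∀ x ∈ I.interior M, SRel I Γ S₁ S₂ x (Φ x) (U x)) : ∀ x ∈ Γ, Φ x = x ∧ U x = 1 := by
  have key : ∀ f, IsTest I Γ f → ∀ x ∈ Γ, f (Φ x) = U x (f x) := fun f hf x hx => by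
    have hxb : x ∈ I.boundary M := (hΓ ▸ hx).2
    have e : (fun x => S₁ f (Φ x)) = fun x => U x (S₂ f x) :=
      Continuous.ext_on (dense_interior (I := I)) ((h₁ f hf).1.comp cΦ)
        (cU.clm_apply (h₂ f hf).1) fun y hy => hs y hy f hf
    have := congrFun e x
    rwa [(h₁ f hf).2 (hb hxb), (h₂ f hf).2 hxb] at this
  intro x hx
  have hxO : x ∈ O := (hΓ ▸ hx).1
  have e1 : Φ x = x := by
    by_contra hne
    obtain ⟨f, hf, f1, f0⟩ := finG_test (I := I) hΓ (hO.sdiff (isClosed_singleton (x := Φ x)))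
      sdiff_subset ⟨hxO, fun e => hne (mem_singleton_iff.1 e).symm⟩
      (EuclideanSpace.single (⟨0, hN⟩ : Fin N) (1 : ℂ))
    have h := key f hf x hx
    rw [f0 _ fun h => h.2 rfl, f1] at h
    have h2 := congrArg (fun T : Op N => T (EuclideanSpace.single (⟨0, hN⟩ : Fin N) (1 : ℂ)))
      (Unitary.star_mul_self_of_mem (hU x))
    simp only [mul_apply_eq_comp, ← h, map_zero, one_apply_eq_self] at h2
    have h3 := congrArg (fun v : Fb N => v ⟨0, hN⟩) h2
    simp at h3
  refine ⟨e1, ContinuousLinearMap.ext fun ξ => ?_⟩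
  obtain ⟨f, hf, f1, -⟩ := finG_test (I := I) hΓ hO subset_rfl hxO ξ
  have h := key f hf x hx
  rw [e1, f1] at h
  exact h.symm

end Vale.Agent.P088.Gl
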