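import Vale.Agent.P088F.FinD
import Vale.Agent.P088F.FinE
import Vale.Agent.P088F.FinG
import Vale.Agent.P088F.Dir

/-! P088, extension to the boundary: conclusion. -/

open MeasureTheory Set Filter Bundle Metric Topology Matrix
open scoped Manifold ContDiff

noncomputable section

namespace Vale.Agent.P088.Gl

variable {n N : ℕ} [NeZero n] {M : Type} [TopologicalSpace M]
  [ChartedSpace (EuclideanHalfSpace n) M] [IsManifold (𝓡∂ n) ∞ M] [T2Space M] [CompactSpace M]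
  [MeasurableSpace M]

theorem fin (hN : 1 ≤ N) {Γ : Set M} (hΓ : Patch (n := n) Γ) {g₁ g₂ : Met (𝓡∂ n) M}
    {μ₁ μ₂ : Measure M} {A₁ A₂ : Conn (𝓡∂ n) M N} {S₁ S₂ : (M → Fb N) → M → Fb N}
    (d₁ : Dat Γ g₁ μ₁ A₁ S₁) (d₂ : Dat Γ g₂ μ₂ A₂ S₂) {Φ Ψ : M → M} {U U' : M → Op N}
    (h : Iso g₁ A₁ g₂ A₂ ((𝓡∂ n).interior M) Φ U) (h' : Iso g₂ A₂ g₁ A₁ ((𝓡∂ n).interior M) Ψ U')
    (hl : ∀ x ∈ (𝓡∂ n).interior M, Ψ (Φ x) = x) (hr : ∀ y ∈ (𝓡∂ n).interior M, Φ (Ψ y) = y)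
    (hs : ∀ x ∈ (𝓡∂ n).interior M, SRel (𝓡∂ n) Γ S₁ S₂ x (Φ x) (U x)) : Concl Γ g₁ g₂ A₁ A₂ := by
  obtain ⟨Φ', V, s1, s2, e1, e2⟩ := h.ext_smooth
  obtain ⟨Ψ', -, s3, -, e3, -⟩ := h'.ext_smooth
  obtain ⟨k1, k2, k3⟩ := h.dens s1 s2 e1 e2
  have hd := dense_interior (I := 𝓡∂ n) (M := M)
  have i1 : ∀ x, Ψ' (Φ' x) = x := congrFun ((s3.continuous.comp s1.continuous).ext_on hd
    continuous_id fun x hx => by
      change Ψ' (Φ' x) = x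
      rw [← e1 hx, ← e3 (h.mp hx), hl x hx])
  have i2 : ∀ x, Φ' (Ψ' x) = x := congrFun ((s1.continuous.comp s3.continuous).ext_on hd
    continuous_id fun x hx => by
      change Φ' (Ψ' x) = x
      rw [← e3 hx, ← e1 (h'.mp hx), hr x hx])
  have hb : MapsTo Φ' ((𝓡∂ n).boundary M) ((𝓡∂ n).boundary M) := fun x hx => by
    rw [← ModelWithCorners.compl_interior] at hx ⊢
    intro hi
    apply hx
    rw [← i1 x, ← e3 hi]
    exact h'.mp hi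
  obtain ⟨O, hO, hO'⟩ := hΓ.op
  have hs' : ∀ x ∈ (𝓡∂ n).interior M, SRel (𝓡∂ n) Γ S₁ S₂ x (Φ' x) (V x) := fun x hx => by
    rw [← e1 hx, ← e2 hx]
    exact hs x hx
  refine ⟨⟨⟨Φ', Ψ', i1, i2⟩, s1, s3⟩, V, s2, k1, patch_id hN hO hO'
    (fun f hf => ⟨(d₁.sol f hf).smooth.continuous, (d₁.sol f hf).bd⟩)
    (fun f hf => ⟨(d₂.sol f hf).smooth.continuous, (d₂.sol f hf).bd⟩) s1.continuous s2.continuous
    hb k1 hs', k2, fun x v => ?_⟩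
  have h1 := congrArg (star (V x) * ·) (k3 x v)
  simp only [← mul_assoc, mul_add, (k1 x).1, one_mul] at h1
  exact h1

end Vale.Agent.P088.Gl
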