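import Vale.Agent.P088F.TDefs

/-! P088, extension to the boundary: first order systems. -/

open MeasureTheory Set Filter Bundle Metric Topology Matrix
open scoped Manifold ContDiff

noncomputable section

namespace Vale.Agent.P088.Gl

variable {n : ℕ}

/-- Solutions of a first order system with values in a compact set extend smoothly. -/
theorem ext_ode {F : Type} [NormedAddCommGroup F] [NormedSpace ℝ F] [FiniteDimensional ℝ F]
    {C : Set (Ec n)} (hC : Convex ℝ C) (hd : C ⊆ closure (interior C))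
    (hu : UniqueDiffOn ℝ C) {c : Ec n} {r : ℝ} {K : Set (Ec n × F)} (hK : IsCompact K)
    {B : Ec n × F → Ec n →L[ℝ] F} (hB : ContDiffOn ℝ ∞ B K) {σ : Ec n → F}
    (hm : ∀ z ∈ ball c r ∩ interior C, (z, σ z) ∈ K)
    (hσ : ∀ z ∈ ball c r ∩ interior C, HasFDerivAt σ (B (z, σ z)) z) :
    ∃ τ : Ec n → F, Continuous τ ∧ EqOn σ τ (ball c r ∩ interior C) ∧
      ContDiffOn ℝ ∞ τ (C ∩ ball c r) := by
  have s1 : Convex ℝ (ball c r ∩ interior C) := (convex_ball c r).inter hC.interior
  have s2 : IsOpen (ball c r ∩ interior C) := isOpen_ball.inter isOpen_interior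
  have s4 : C ∩ ball c r ⊆ closure (ball c r ∩ interior C) := fun z hz =>
    isOpen_ball.inter_closure ⟨hz.2, hd hz.1⟩
  obtain ⟨b, hb⟩ := hK.exists_bound_of_continuousOn hB.continuousOn
  obtain ⟨τ, h1, h2⟩ := (s1.lipschitzOnWith_of_nnnorm_hasFDerivWithin_le (C := b.toNNReal)
    (fun z hz => (hσ z hz).hasFDerivWithinAt) fun z hz => by
      rw [← NNReal.coe_le_coe, coe_nnnorm]
      exact (hb _ (hm z hz)).trans (Real.le_coe_toNNReal _)).extend_finite_dimension
  have c1 : Continuous fun z => (z, τ z) := continuous_id.prodMk h1.continuous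
  have m1 : MapsTo (fun z => (z, τ z)) (C ∩ ball c r) K := fun z hz =>
    closure_minimal (fun y hy => by
      rw [mem_preimage, ← h2 hy]
      exact hm y hy) (hK.isClosed.preimage c1) (s4 hz)
  have m2 : MapsTo (fun z => (z, τ z)) (ball c r ∩ interior C) K := fun z hz =>
    m1 ⟨interior_subset hz.2, hz.1⟩
  have d1 : ∀ z ∈ ball c r ∩ interior C, HasFDerivAt τ (B (z, τ z)) z := fun z hz => by
    rw [← h2 hz]
    exact (hσ z hz).congr_of_eventuallyEq
      (mem_of_superset (s2.mem_nhds hz) fun y hy => (h2 hy).symm)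
  have d2 : ∀ z ∈ C ∩ ball c r, HasFDerivWithinAt τ (B (z, τ z)) (C ∩ ball c r) z := fun z hz =>
    (hasFDerivWithinAt_closure_of_tendsto_fderiv
      (fun y hy => (d1 y hy).differentiableAt.differentiableWithinAt) s1 s2
      (fun y _ => h1.continuous.continuousWithinAt)
      (((hB.continuousOn _ (m1 hz)).comp (f := fun z => (z, τ z)) c1.continuousWithinAt
        m2).tendsto.congr'
        (mem_of_superset self_mem_nhdsWithin fun y hy => (d1 y hy).fderiv.symm))).mono s4
  refine ⟨τ, h1.continuous, h2, contDiffOn_infty.2 fun m => ?_⟩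
  induction m with
  | zero => exact contDiffOn_zero.2 h1.continuous.continuousOn
  | succ m ih =>
    refine contDiffOn_succ_of_fderivWithin (fun z hz => (d2 z hz).differentiableWithinAt)
      (fun h => absurd h (by simp)) (((hB.of_le (by exact_mod_cast le_top)).comp
        (contDiffOn_id.prodMk ih) m1).congr fun z hz =>
          (d2 z hz).fderivWithin (hu.inter isOpen_ball z hz))

/-- Uniform positivity on a compact set. -/
theorem coercive_cpt {X : Type} [TopologicalSpace X] {K : Set X} (hK : IsCompact K)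
    {a : X → Matrix (Fin n) (Fin n) ℝ} (ha : ∀ i j, ContinuousOn (fun x => a x i j) K)
    (hp : ∀ x ∈ K, (a x).PosDef) :
    ∃ c > 0, ∀ x ∈ K, ∀ v : Fin n → ℝ, c * (v ⬝ᵥ v) ≤ v ⬝ᵥ a x *ᵥ v := by
  have hS : IsCompact (K ×ˢ sphere (0 : Fin n → ℝ) 1) := hK.prod (isCompact_sphere 0 1)
  have hc : ContinuousOn (fun p : X × (Fin n → ℝ) => p.2 ⬝ᵥ a p.1 *ᵥ p.2 / p.2 ⬝ᵥ p.2)
      (K ×ˢ sphere (0 : Fin n → ℝ) 1) := by
    refine ContinuousOn.div ?_ (Continuous.continuousOn (by fun_prop)) fun p hp h0 => ?_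
    · simp only [dotProduct, mulVec]
      exact continuousOn_finsetSum _ fun i _ => (Continuous.continuousOn (by fun_prop)).mul
        (continuousOn_finsetSum _ fun j _ => ((ha i j).comp continuousOn_fst fun p hp => hp.1).mul
          (Continuous.continuousOn (by fun_prop)))
    · have h1 := hp.2
      rw [dotProduct_self_eq_zero.1 h0] at h1
      simp at h1
  have pos : ∀ v : Fin n → ℝ, v ≠ 0 → 0 < v ⬝ᵥ v := fun v hv =>
    lt_of_le_of_ne (Finset.sum_nonneg fun i _ => mul_self_nonneg _)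
      fun h => hv (dotProduct_self_eq_zero.1 h.symm)
  obtain ⟨c, hc0, h1⟩ := hS.exists_forall_le' hc (a := 0) fun p hp' => by
    have h0 : p.2 ≠ 0 := ne_zero_of_mem_unit_sphere ⟨p.2, hp'.2⟩
    exact div_pos (by simpa using (hp p.1 hp'.1).dotProduct_mulVec_pos h0) (pos _ h0)
  refine ⟨c, hc0, fun x hx v => ?_⟩
  rcases eq_or_ne v 0 with rfl | hv
  · simp
  have h2 := h1 (x, ‖v‖⁻¹ • v) ⟨hx, mem_sphere_zero_iff_norm.2 (norm_smul_inv_norm hv)⟩
  have h3 : ‖v‖⁻¹ ≠ 0 := inv_ne_zero (norm_ne_zero_iff.2 hv)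
  simp only [mulVec_smul, dotProduct_smul, smul_dotProduct, smul_eq_mul] at h2
  rw [mul_div_mul_left _ _ h3, mul_div_mul_left _ _ h3] at h2
  exact (le_div_iff₀ (pos v hv)).1 h2

end Vale.Agent.P088.Gl
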