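import Vale.Agent.P088F.TDefs

/-! P088, extension to the boundary: the Christoffel formula. -/

open MeasureTheory Set Filter Bundle Metric Topology Matrix
open scoped Manifold ContDiff

noncomputable section

namespace Vale.Agent.P088.Gl

variable {n : ℕ}

/-- The terms of the derivative of the pulled back metric which do not contain second
derivatives; `d c a b` is the derivative of the target metric. -/
def chQ (d : Fin n → Fin n → Fin n → ℝ) (J : Fin n → Fin n → ℝ) (i j k : Fin n) : ℝ :=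
  ∑ a, ∑ b, J a j * (∑ c, d c a b * J c i) * J b k

/-- The second derivatives of an isometry; `h` is the inverse of the source metric and `e` its
derivative. -/
def chH (h : Matrix (Fin n) (Fin n) ℝ) (e d : Fin n → Fin n → Fin n → ℝ) (J : Fin n → Fin n → ℝ)
    (i j l : Fin n) : ℝ :=
  ∑ m, ∑ k, J l m * h m k * ((e i j k + e j i k - e k i j -
    (chQ d J i j k + chQ d J j i k - chQ d J k i j)) / 2)

/-- The algebra: `D i a j` are the second derivatives. -/
theorem ch_alg {g₁ g₂ J : Matrix (Fin n) (Fin n) ℝ} (s₁ : g₁.IsSymm) (h₂ : g₂.det ≠ 0)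
    (hm : g₂ = Jᵀ * g₁ * J) {e d D : Fin n → Fin n → Fin n → ℝ} (hD : ∀ i j a, D i a j = D j a i)
    (he : ∀ i j k, e i j k = ∑ a, ∑ b, D i a j * g₁ a b * J b k + chQ d J i j k +
      ∑ a, ∑ b, J a j * g₁ a b * D i b k) (i j l : Fin n) :
    D i l j = chH g₂⁻¹ e d J i j l := by
  obtain ⟨P, hP⟩ : ∃ P : Fin n → Fin n → Fin n → ℝ,
      ∀ i j k, P i j k = ∑ a, ∑ b, D i a j * g₁ a b * J b k := ⟨_, fun _ _ _ => rfl⟩
  have h1 : ∀ i j k, e i j k = P i j k + chQ d J i j k + P i k j := fun i j k => by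
    rw [he, hP, hP i k j, Finset.sum_comm (f := fun a b => J a j * g₁ a b * D i b k)]
    congr 1
    exact Finset.sum_congr rfl fun a _ => Finset.sum_congr rfl fun b _ => by
      rw [s₁.apply a b]; ring
  have h2 : ∀ i j k, P i j k = P j i k := fun i j k => by
    simp only [hP, hD i j]
  have h3 : J * (g₂⁻¹ * (Jᵀ * g₁)) = 1 := by
    rw [mul_eq_one_comm, Matrix.mul_assoc, ← hm]
    exact nonsing_inv_mul _ (Ne.isUnit h₂)
  have h4 := congrFun (congrArg (· *ᵥ fun a => D i a j) h3) l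
  have h5 : (Jᵀ * g₁) *ᵥ (fun a => D i a j) = P i j := by
    funext k
    rw [hP]
    simp only [mulVec, dotProduct, mul_apply, transpose_apply, Finset.sum_mul]
    exact Finset.sum_congr rfl fun a _ => Finset.sum_congr rfl fun b _ => by
      rw [s₁.apply a b]; ring
  simp only [one_mulVec, ← mulVec_mulVec _ J, ← mulVec_mulVec _ g₂⁻¹, h5] at h4
  rw [← h4]
  simp only [chH, mulVec, dotProduct, Finset.mul_sum]
  refine Finset.sum_congr rfl fun m _ => Finset.sum_congr rfl fun k _ => ?_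
  rw [h1, h1, h1, h2 j i k, h2 k i j, h2 k j i]
  ring

/-- The second derivatives of an isometry. -/
theorem ch_deriv {g₁ g₂ : Ec n → Matrix (Fin n) (Fin n) ℝ} {Ψ : Ec n → Ec n} {z : Ec n}
    (hΨ : ContDiffAt ℝ ∞ Ψ z) (h₁ : ∀ a b, DifferentiableAt ℝ (fun y => g₁ y a b) (Ψ z))
    (s₁ : (g₁ (Ψ z)).IsSymm) (h₂ : (g₂ z).det ≠ 0)
    (hm : ∀ᶠ y in 𝓝 z, g₂ y = (jac Ψ y)ᵀ * g₁ (Ψ y) * jac Ψ y) (i j l : Fin n) :
    fderiv ℝ (fun y => jac Ψ y l j) z (bv i) =
      chH (g₂ z)⁻¹ (fun i j k => fderiv ℝ (fun y => g₂ y j k) z (bv i))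
        (fun c a b => fderiv ℝ (fun y => g₁ y a b) (Ψ z) (bv c)) (jac Ψ z) i j l := by
  have hA : HasFDerivAt (fderiv ℝ Ψ) (fderiv ℝ (fderiv ℝ Ψ) z) z :=
    ((hΨ.fderiv_right (m := 1) (by norm_cast)).differentiableAt one_ne_zero).hasFDerivAt
  have hJ : ∀ a j, HasFDerivAt (fun y => jac Ψ y a j)
      (((EuclideanSpace.proj a : Ec n →L[ℝ] ℝ).comp
        (ContinuousLinearMap.apply ℝ (Ec n) (bv j))).comp (fderiv ℝ (fderiv ℝ Ψ) z)) z :=
    fun a j => ((EuclideanSpace.proj a : Ec n →L[ℝ] ℝ).comp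
      (ContinuousLinearMap.apply ℝ (Ec n) (bv j))).hasFDerivAt.comp z hA
  have hs := hΨ.isSymmSndFDerivAt (by simp only [minSmoothness_of_isRCLikeNormedField]; norm_cast)
  have h0 := (hΨ.differentiableAt (by simp)).hasFDerivAt
  refine ch_alg (D := fun i a j => fderiv ℝ (fun y => jac Ψ y a j) z (bv i)) s₁ h₂
    hm.self_of_nhds (fun i j a => ?_) (fun i j k => ?_) i j l
  · rw [(hJ a j).fderiv, (hJ a i).fderiv]
    exact congrArg (fun v : Ec n => v a) (hs.eq _ _)
  · have e1 : (fun y => g₂ y j k) =ᶠ[𝓝 z]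
        fun y => ∑ a, ∑ b, jac Ψ y a j * g₁ (Ψ y) a b * jac Ψ y b k := by
      filter_upwards [hm] with y hy
      rw [hy, Finset.sum_comm]
      simp only [mul_apply, transpose_apply, Finset.sum_mul]
    have e2 := HasFDerivAt.fun_sum (u := Finset.univ) fun a _ =>
      HasFDerivAt.fun_sum (u := Finset.univ) fun b _ =>
        ((hJ a j).differentiableAt.hasFDerivAt.fun_mul
          ((h₁ a b).hasFDerivAt.comp z h0)).fun_mul (hJ b k).differentiableAt.hasFDerivAt
    have e3 : ∀ a b, fderiv ℝ (fun y => g₁ y a b) (Ψ z) (fderiv ℝ Ψ z (bv i)) =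
        ∑ c, fderiv ℝ (fun y => g₁ y a b) (Ψ z) (bv c) * jac Ψ z c i := fun a b => by
      rw [bv_sum (fderiv ℝ Ψ z (bv i)), map_sum]
      exact Finset.sum_congr rfl fun c _ => by rw [map_smul, smul_eq_mul, mul_comm]; rfl
    rw [e1.fderiv_eq, show fderiv ℝ (fun y => ∑ a, ∑ b, jac Ψ y a j * g₁ (Ψ y) a b * jac Ψ y b k) z
      = _ from e2.fderiv]
    simp only [chQ, _root_.sum_apply, _root_.add_apply, _root_.smul_apply, smul_eq_mul,
      ContinuousLinearMap.comp_apply, e3, Function.comp_apply, ← Finset.sum_add_distrib]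
    exact Finset.sum_congr rfl fun a _ => Finset.sum_congr rfl fun b _ => by ring

end Vale.Agent.P088.Gl
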