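import Vale.Agent.P088F.FinA
import Vale.Agent.P088F.FinH

/-! P088, extension to the boundary: isometries in coordinates. -/

open MeasureTheory Set Filter Bundle Metric Topology Matrix
open scoped Manifold ContDiff

noncomputable section

namespace Vale.Agent.P088.Gl

variable {n N : ℕ}

theorem FinB_ext {F : Type} [NormedAddCommGroup F] [NormedSpace ℝ F] (L : Ec n →L[ℝ] F)
    (b : Fin n → F) (h : ∀ i, L (bv i) = b i) :
    L = ∑ i, (EuclideanSpace.proj i : Ec n →L[ℝ] ℝ).smulRight (b i) := by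
  ext v
  conv_lhs => rw [bv_sum v]
  simp [h]

theorem FinB_inv {T : Set (Ec n)} {g : Ec n → Matrix (Fin n) (Fin n) ℝ}
    (h : ∀ i j, ContDiffOn ℝ ∞ (fun z => g z i j) T) (hp : ∀ z ∈ T, (g z).PosDef) (i j : Fin n) :
    ContDiffOn ℝ ∞ (fun z => (g z)⁻¹ i j) T := by
  simp only [Matrix.inv_def, Ring.inverse_eq_inv', Matrix.smul_apply, smul_eq_mul,
    Matrix.adjugate_apply]
  refine ((contDiffOn_det h).inv fun z hz => (hp z hz).det_pos.ne').mul
    (contDiffOn_det fun k l => ?_)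
  simp only [Matrix.updateRow_apply]
  split_ifs
  exacts [contDiffOn_const, h k l]

theorem FinB_chH {X : Type} [NormedAddCommGroup X] [NormedSpace ℝ X] {S : Set X}
    {h : X → Matrix (Fin n) (Fin n) ℝ} {e d : X → Fin n → Fin n → Fin n → ℝ}
    {J : X → Fin n → Fin n → ℝ} (h1 : ∀ i j, ContDiffOn ℝ ∞ (fun x => h x i j) S)
    (h2 : ∀ i j k, ContDiffOn ℝ ∞ (fun x => e x i j k) S)
    (h3 : ∀ i j k, ContDiffOn ℝ ∞ (fun x => d x i j k) S)
    (h4 : ∀ i j, ContDiffOn ℝ ∞ (fun x => J x i j) S) (i j l : Fin n) :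
    ContDiffOn ℝ ∞ (fun x => chH (h x) (e x) (d x) (J x) i j l) S := by
  have q : ∀ i j k, ContDiffOn ℝ ∞ (fun x => chQ (d x) (J x) i j k) S := fun i j k =>
    ContDiffOn.sum fun a _ => ContDiffOn.sum fun b _ =>
      ((h4 a j).mul (ContDiffOn.sum fun c _ => (h3 c a b).mul (h4 c i))).mul (h4 b k)
  exact ContDiffOn.sum fun m _ => ContDiffOn.sum fun k _ => ((h4 l m).mul (h1 m k)).mul
    (((((h2 i j k).add (h2 j i k)).sub (h2 k i j)).sub
      (((q i j k).add (q j i k)).sub (q k i j))).div_const 2)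

theorem FinB_bd {K₁ K₂ : Set (Ec n)} {g₁ g₂ : Ec n → Matrix (Fin n) (Fin n) ℝ}
    (h₁ : ∀ i j, ContinuousOn (fun z => g₁ z i j) K₁) (p₁ : ∀ z ∈ K₁, (g₁ z).PosDef)
    (h₂ : ∀ i j, ContinuousOn (fun z => g₂ z i j) K₂) (c₁ : IsCompact K₁) (c₂ : IsCompact K₂) :
    ∃ R : ℝ, 0 ≤ R ∧ ∀ y ∈ K₁, ∀ z ∈ K₂, ∀ J : Matrix (Fin n) (Fin n) ℝ, g₂ z = Jᵀ * g₁ y * J →
      ∀ l j, |J l j| ≤ R := by
  obtain ⟨c, hc, hb⟩ := coercive_cpt c₁ h₁ p₁
  obtain ⟨a, ha⟩ := c₂.exists_bound_of_continuousOn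
    (f := fun z j => g₂ z j j) (continuousOn_pi.2 fun j => h₂ j j)
  refine ⟨√(a / c), Real.sqrt_nonneg _, fun y hy z hz J hJ l j => Real.abs_le_sqrt ?_⟩
  have h3 := hb y hy fun i => J i j
  have h4 : (fun i => J i j) ⬝ᵥ g₁ y *ᵥ (fun i => J i j) = g₂ z j j := by
    rw [hJ, Matrix.mul_assoc]
    rfl
  have h5 : g₂ z j j ≤ a := (le_abs_self _).trans ((norm_le_pi_norm (fun j => g₂ z j j) j).trans
    (ha z hz))
  have h6 : J l j * J l j ≤ (fun i => J i j) ⬝ᵥ fun i => J i j :=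
    Finset.single_le_sum (f := fun i => J i j * J i j) (fun i _ => mul_self_nonneg _)
      (Finset.mem_univ l)
  rw [le_div_iff₀ hc, sq]
  nlinarith

/-- Isometries and gauges of a half ball extend smoothly to the flat part of the boundary. -/
theorem ext_eiso {C T₁ T₂ K₁ : Set (Ec n)} (hC : Convex ℝ C) (hcl : IsClosed C)
    (hd : C ⊆ closure (interior C)) (hu : UniqueDiffOn ℝ C) (u₁ : UniqueDiffOn ℝ T₁)
    (u₂ : UniqueDiffOn ℝ T₂) {γ₁ γ₂ : Geo n N} (s₁ : γ₁.Sm T₁) (s₂ : γ₂.Sm T₂) {c : Ec n} {r : ℝ}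
    (hT : closedBall c r ∩ C ⊆ T₂) (hK : IsCompact K₁) (hK' : K₁ ⊆ T₁) {Ψ : Ec n → Ec n}
    {V : Ec n → Op N} (h : EIso (ball c r ∩ interior C) γ₁ γ₂ Ψ V)
    (hm : ∀ z ∈ ball c r ∩ interior C, Ψ z ∈ K₁ ∧ T₁ ∈ 𝓝 (Ψ z)) :
    ∃ (Ψ' : Ec n → Ec n) (V' : Ec n → Op N), Continuous Ψ' ∧ Continuous V' ∧
      EqOn Ψ Ψ' (ball c r ∩ interior C) ∧ EqOn V V' (ball c r ∩ interior C) ∧
      ContDiffOn ℝ ∞ Ψ' (C ∩ ball c r) ∧ ContDiffOn ℝ ∞ V' (C ∩ ball c r) :=
  by
  have : FiniteDimensional ℝ (Op N) := Module.Finite.trans ℂ (Op N)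
  have c₂ : IsCompact (closedBall c r ∩ C) := (isCompact_closedBall c r).inter_right hcl
  obtain ⟨R, hR, hb⟩ := FinB_bd (fun i j => (s₁.g i j).continuousOn.mono hK')
    (fun z hz => s₁.pos z (hK' hz)) (fun i j => (s₂.g i j).continuousOn.mono hT) hK c₂
  let F := Ec n × (Fin n → Fin n → ℝ) × Op N
  let b : Fin n → Ec n × F → F := fun i w => (∑ k, w.2.2.1 k i • bv k,
    fun l j => chH (γ₂.g w.1)⁻¹ (fun i j k => fderivWithin ℝ (fun y => γ₂.g y j k) T₂ w.1 (bv i))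
      (fun c a b => fderivWithin ℝ (fun y => γ₁.g y a b) T₁ w.2.1 (bv c)) w.2.2.1 i j l,
    w.2.2.2 * γ₂.a i w.1 - (∑ k, w.2.2.1 k i • γ₁.a k w.2.1) * w.2.2.2)
  let K : Set (Ec n × F) := (closedBall c r ∩ C) ×ˢ K₁ ×ˢ closedBall 0 R ×ˢ closedBall 0 1
  have m1 : MapsTo (fun w : Ec n × F => w.1) K T₂ := fun w hw => hT hw.1
  have m2 : MapsTo (fun w : Ec n × F => w.2.1) K T₁ := fun w hw => hK' hw.2.1
  have f1 : ContDiffOn ℝ ∞ (fun w : Ec n × F => w.1) K := contDiff_fst.contDiffOn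
  have f2 : ContDiffOn ℝ ∞ (fun w : Ec n × F => w.2.1) K := contDiff_snd.fst.contDiffOn
  have f3 : ∀ i j, ContDiffOn ℝ ∞ (fun w : Ec n × F => w.2.2.1 i j) K := fun i j =>
    (contDiff_pi.1 (contDiff_pi.1 contDiff_snd.snd.fst i) j).contDiffOn
  have f4 : ContDiffOn ℝ ∞ (fun w : Ec n × F => w.2.2.2) K := contDiff_snd.snd.snd.contDiffOn
  have sb : ∀ i, ContDiffOn ℝ ∞ (b i) K := fun i =>
    (ContDiffOn.sum fun k _ => (f3 k i).smul contDiffOn_const).prodMk
      ((contDiffOn_pi.2 fun l => contDiffOn_pi.2 fun j => FinB_chH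
        (fun i j => (FinB_inv s₂.g s₂.pos i j).comp f1 m1)
        (fun i j k => (((s₂.g j k).fderivWithin u₂ le_rfl).clm_apply contDiffOn_const).comp f1 m1)
        (fun c a b => (((s₁.g a b).fderivWithin u₁ le_rfl).clm_apply contDiffOn_const).comp f2 m2)
        f3 i j l).prodMk ((f4.mul ((s₂.a i).comp f1 m1)).sub
        ((ContDiffOn.sum fun k _ => (f3 k i).smul ((s₁.a k).comp f2 m2)).mul f4)))
  have s3 : ball c r ∩ interior C ⊆ closedBall c r ∩ C :=
    inter_subset_inter ball_subset_closedBall interior_subset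
  obtain ⟨τ, h1, h2, h3⟩ := ext_ode (F := F) hC hd hu (c := c) (r := r) (K := K)
    (c₂.prod (hK.prod ((isCompact_closedBall _ _).prod (isCompact_closedBall _ _))))
    (B := fun w => ∑ i, (EuclideanSpace.proj i : Ec n →L[ℝ] ℝ).smulRight (b i w))
    (ContDiffOn.sum fun i _ => contDiffOn_const.smulRight (sb i))
    (σ := fun z => (Ψ z, fun l j => jac Ψ z l j, V z))
    (fun z hz => ⟨s3 hz, (hm z hz).1, mem_closedBall_zero_iff.2
      ((pi_norm_le_iff_of_nonneg hR).2 fun l => (pi_norm_le_iff_of_nonneg hR).2 fun j =>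
        hb _ (hm z hz).1 z (s3 hz) _ (h.met z hz) l j), mem_closedBall_zero_iff.2 (by
      have h4 := CStarRing.norm_star_mul_self (x := V z)
      rw [(h.uni z hz).1] at h4
      have h5 : ‖(1 : Op N)‖ ≤ 1 := ContinuousLinearMap.norm_id_le
      nlinarith [norm_nonneg (V z)])⟩)
    (fun z hz => by
      have hn := h.op.mem_nhds hz
      have a1 : ContDiffAt ℝ ∞ Ψ z := h.sΨ.contDiffAt hn
      have a2 : ∀ l j, DifferentiableAt ℝ (fun y => jac Ψ y l j) z := fun l j =>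
        (EuclideanSpace.proj l : Ec n →L[ℝ] ℝ).differentiableAt.comp z
          (((a1.fderiv_right (m := ∞) le_rfl).differentiableAt
            (by simp)).clm_apply (differentiableAt_const _))
      have n2 : T₂ ∈ 𝓝 z := mem_of_superset hn (s3.trans hT)
      have n1 := (hm z hz).2
      have a3 := (a1.differentiableAt (by simp)).hasFDerivAt.prodMk
        ((hasFDerivAt_pi.2 fun l => hasFDerivAt_pi.2 fun j => (a2 l j).hasFDerivAt).prodMk
          ((h.sV.contDiffAt hn).differentiableAt (by simp)).hasFDerivAt)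
      refine a3.congr_fderiv (FinB_ext _ _ fun i => Prod.ext (bv_sum _) (Prod.ext ?_ ?_))
      · funext l j
        simp only [b, fderivWithin_of_mem_nhds n1, fderivWithin_of_mem_nhds n2]
        exact ch_deriv a1 (fun a b => ((s₁.g a b).contDiffAt n1).differentiableAt (by simp))
          ((conjTranspose_eq_transpose_of_trivial _).symm.trans
            (s₁.pos _ (mem_of_mem_nhds n1)).isHermitian)
          (s₂.pos _ (mem_of_mem_nhds n2)).det_pos.ne' (mem_of_superset hn h.met) i j l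
      · exact eq_sub_of_add_eq' (h.con z hz i).symm)
  exact ⟨fun z => (τ z).1, fun z => (τ z).2.2, h1.fst, h1.snd.snd,
    fun z hz => congrArg Prod.fst (h2 hz), fun z hz => congrArg (fun w : F => w.2.2) (h2 hz),
    h3.fst, h3.snd.snd⟩

end Vale.Agent.P088.Gl
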