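import Vale.Agent.P088F.TDefs
import Vale.Agent.P088.Calc

/-! P088, extension to the boundary: continuous extension. -/

open MeasureTheory Set Filter Bundle Metric Topology Matrix
open scoped Manifold ContDiff

noncomputable section

namespace Vale.Agent.P088.Gl

variable {n N : ℕ} {H : Type} [TopologicalSpace H] {I : ModelWithCorners ℝ (Ec n) H}
  {M : Type} [TopologicalSpace M] [ChartedSpace H M] [IsManifold I ∞ M]
  {g₁ g₂ : Met I M} {A₁ A₂ : Conn I M N} {Φ : M → M} {U : M → Op N}

theorem finC_quad (b : Ec n →L[ℝ] Ec n →L[ℝ] ℝ) (w : Ec n) :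
    b w w = ∑ j, w j * ∑ i, w i * gram (fun v v' => b v v') i j := by
  conv_lhs => rw [bv_sum w]
  simp only [map_sum, map_smul, _root_.sum_apply, _root_.smul_apply,
    smul_eq_mul, gram, of_apply]

theorem finC_up {W : Type} [AddCommGroup W] [Module ℝ W] (b : W →ₗ[ℝ] W →ₗ[ℝ] ℝ)
    (D : Ec n →ₗ[ℝ] W) (v : Ec n) :
    b (D v) (D v) ≤ (∑ j, ∑ i, |gram (fun v w => b (D v) (D w)) i j|) * ‖v‖ ^ 2 := by
  conv_lhs => rw [bv_sum v]
  simp only [map_sum, map_smul, LinearMap.sum_apply, LinearMap.smul_apply, smul_eq_mul, gram,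
    of_apply, Finset.mul_sum, Finset.sum_mul]
  refine Finset.sum_le_sum fun j _ => Finset.sum_le_sum fun i _ => (le_abs_self _).trans ?_
  rw [abs_mul, abs_mul, ← mul_assoc, mul_comm, sq]
  exact mul_le_mul_of_nonneg_left (mul_le_mul (PiLp.norm_apply_le v j)
    (PiLp.norm_apply_le v i) (abs_nonneg _) (norm_nonneg _)) (abs_nonneg _)

theorem finC_pt {V : Type} [NormedAddCommGroup V] [InnerProductSpace ℝ V] [FiniteDimensional ℝ V]
    (b : Ec n →L[ℝ] Ec n →L[ℝ] ℝ) (hb : (gram fun v v' => b v v').PosDef)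
    (hp : ∀ v, v ≠ 0 → 0 < b v v) (L : Ec n →L[ℝ] V) (w : Ec n) :
    ‖L w‖ ^ 2 ≤ ipm (gram fun v v' => b v v')⁻¹ (fun i => L (bv i)) (fun i => L (bv i)) * b w w := by
  by_cases h0 : w = 0
  · simp [h0]
  set G := gram fun v v' => b v v'
  have h1 : ∀ φ : Fin n → ℝ, ipm G⁻¹ (w.ofLp ᵥ* G) φ = ∑ j, w j * φ j := fun φ => by
    have : ipm G⁻¹ (w.ofLp ᵥ* G) φ = (w.ofLp ᵥ* G) ⬝ᵥ G⁻¹ *ᵥ φ := by
      simp only [ipm_real, dotProduct, mulVec, Finset.mul_sum]
      exact Finset.sum_congr rfl fun i _ => Finset.sum_congr rfl fun j _ => by ring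
    rw [this, dotProduct_mulVec, vecMul_vecMul,
      mul_nonsing_inv _ (isUnit_iff_ne_zero.2 hb.det_pos.ne'), vecMul_one]
    rfl
  have h2 := ipm_nonneg hb.inv fun i => b w w • L (bv i) - (w.ofLp ᵥ* G) i • L w
  have h3 : ∑ j, w j * (2 * inner ℝ (L (bv j)) (L w)) = 2 * ‖L w‖ ^ 2 := by
    rw [← real_inner_self_eq_norm_sq]
    conv_rhs => enter [2, 2]; rw [bv_sum w]
    simp only [map_sum, map_smul, sum_inner, real_inner_smul_left, Finset.mul_sum]
    exact Finset.sum_congr rfl fun j _ => by ring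
  have h4 : ∑ j, w j * (w.ofLp ᵥ* G) j = b w w := (finC_quad b w).symm
  rw [ipm_pic hb.inv, h1, h1, h3, h4, real_inner_self_eq_norm_sq] at h2
  refine le_of_mul_le_mul_left ?_ (hp w h0)
  linarith

/-- The differential of a smooth map is bounded by the metric. -/
theorem dif_bound [CompactSpace M] {V : Type} [NormedAddCommGroup V] [InnerProductSpace ℝ V]
    [FiniteDimensional ℝ V] (g : Met I M) {e : M → V} (he : ContMDiff I 𝓘(ℝ, V) ∞ e) :
    ∃ C : ℝ, 0 ≤ C ∧ ∀ y w, ‖dif I e y w‖ ^ 2 ≤ C * g.inner y w w := by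
  obtain ⟨C, hC⟩ := isCompact_univ.exists_bound_of_continuousOn
    (en_cont g (Fld.dif he) (Fld.dif he)).continuousOn
  refine ⟨max C 0, le_max_right _ _, fun y w => (finC_pt (g.inner y) (gram_posDef
    (g.inner y).toLinearMap₁₂ (g.symm _) (g.pos _) LinearMap.id fun _ _ h => h) (g.pos y)
    (dif I e y) w).trans (mul_le_mul_of_nonneg_right
      ((le_abs_self _).trans ((hC y (mem_univ y)).trans (le_max_left _ _))) ?_)⟩
  by_cases h0 : w = 0
  · rw [h0]
    exact (map_zero (g.inner y 0)).ge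
  · exact (g.pos y w h0).le

/-- An isometry of the interior extends continuously. -/
theorem Iso.ext_cont [T2Space M] [CompactSpace M] (h : Iso g₁ A₁ g₂ A₂ (I.interior M) Φ U) :
    ∃ Φ' : M → M, Continuous Φ' ∧ EqOn Φ Φ' (I.interior M) := by
  obtain ⟨m, e, he, hc, -⟩ := exists_embedding_euclidean_of_compact (I := I) (M := M)
  obtain ⟨C, C0, hC⟩ := dif_bound g₁ he
  have key : ∀ p : M, ∃ y, Tendsto Φ (𝓝[I.interior M] p) (𝓝 y) := fun p => by
    obtain ⟨r, hr, hs⟩ := exists_ball (I := I) p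
    obtain ⟨K, hK⟩ := ((isCompact_closedBall (extChartAt I p p) r).inter_right
      I.isClosed_range).exists_bound_of_continuousOn
      (f := fun z => ∑ j, ∑ i, |gm g₂ p z i j|) (continuousOn_finsetSum _ fun j _ =>
        continuousOn_finsetSum _ fun i _ => ((gm_smooth g₂ p i j).continuousOn.mono hs).abs)
    have s0 : ∀ L : Ec n →L[ℝ] EuclideanSpace ℝ (Fin m), (∀ v, ‖L v‖ ≤ √(C * K) * ‖v‖) →
        ‖L‖₊ ≤ (√(C * K)).toNNReal := fun L hL => by
      rw [← NNReal.coe_le_coe, coe_nnnorm, Real.coe_toNNReal _ (Real.sqrt_nonneg _)]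
      exact L.opNorm_le_bound (Real.sqrt_nonneg _) hL
    have d1 : ∀ z ∈ ball (extChartAt I p p) r ∩ interior (range I), ∃ L : Ec n →L[ℝ] _,
        HasFDerivWithinAt (fun z => e (Φ ((extChartAt I p).symm z))) L
          (ball (extChartAt I p p) r ∩ interior (range I)) z ∧ ‖L‖₊ ≤ (√(C * K)).toNNReal := by
      intro z hz
      have s1 : z ∈ closedBall (extChartAt I p p) r ∩ range I :=
        ⟨ball_subset_closedBall hz.1, interior_subset hz.2⟩
      have s2 := hs s1
      have s3 : (extChartAt I p).symm z ∈ I.interior M :=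
        (interior_iff ((extChartAt I p).map_target s2)).2 (by
          rw [(extChartAt I p).right_inv s2]
          exact hz.2)
      have s4 := (((he.mdifferentiableAt (by simp)).hasMFDerivAt.comp _
        ((h.sΦ.contMDiffAt (h.op.mem_nhds s3)).mdifferentiableAt
          (by simp)).hasMFDerivAt).comp_hasMFDerivWithinAt z
        (mdifferentiableWithinAt_extChartAt_symm s2).hasMFDerivWithinAt).hasFDerivWithinAt
      refine ⟨_, s4.mono fun y hy => interior_subset hy.2, ?_⟩
      refine s0 _ fun v => ?_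
      have s5 := hC (Φ ((extChartAt I p).symm z))
        (mfderiv I I Φ ((extChartAt I p).symm z) (fr I p z v))
      rw [← h.met _ s3] at s5
      have s6 : g₂.inner ((extChartAt I p).symm z) (fr I p z v) (fr I p z v) ≤ K * ‖v‖ ^ 2 := by
        exact (finC_up (g₂.inner _).toLinearMap₁₂ (fr I p z).toLinearMap v).trans
          (mul_le_mul_of_nonneg_right ((le_abs_self _).trans (hK z s1)) (sq_nonneg _))
      refine (Real.le_sqrt_of_sq_le (s5.trans (mul_le_mul_of_nonneg_left s6 C0))).trans_eq ?_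
      rw [← mul_assoc, Real.sqrt_mul' _ (sq_nonneg _), Real.sqrt_sq (norm_nonneg v)]
    choose! L d2 d3 using d1
    obtain ⟨τ, h1, h2⟩ := (((convex_ball _ r).inter
      I.convex_range.interior).lipschitzOnWith_of_nnnorm_hasFDerivWithin_le d2 d3).extend_finite_dimension
    have t1 : Tendsto (fun x => e (Φ x)) (𝓝[I.interior M] p) (𝓝 (τ (extChartAt I p p))) :=
      ((h1.continuous.continuousAt.comp (continuousAt_extChartAt p)).tendsto.mono_left
        nhdsWithin_le_nhds).congr' (by
          filter_upwards [self_mem_nhdsWithin, mem_nhdsWithin_of_mem_nhds (ball_nhds (I := I) p hr)]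
            with y b1 b2
          have := h2 (x := extChartAt I p y) ⟨b2.2, (interior_iff b2.1).1 b1⟩
          simp only [(extChartAt I p).left_inv b2.1] at this
          exact this.symm)
    have := mem_closure_iff_nhdsWithin_neBot.1 (dense_interior (I := I) (M := M) p)
    obtain ⟨y, hy⟩ := hc.isClosed_range.mem_of_tendsto t1
      (Eventually.of_forall fun x => mem_range_self (Φ x))
    exact ⟨y, hc.isEmbedding.tendsto_nhds_iff.2 (hy ▸ t1)⟩
  have : RegularSpace M := inferInstance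
  exact ⟨extendFrom (I.interior M) Φ, continuous_extendFrom (dense_interior (I := I)) key,
    fun x hx => (extendFrom_extends h.sΦ.continuousOn x hx).symm⟩

end Vale.Agent.P088.Gl
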