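import Vale.Agent.P088F.TDefs

/-! P088, extension to the boundary: transfer to charts. -/

open MeasureTheory Set Filter Bundle Metric Topology Matrix
open scoped Manifold ContDiff

noncomputable section

namespace Vale.Agent.P088.Gl

variable {n N : ℕ} {H : Type} [TopologicalSpace H] {I : ModelWithCorners ℝ (Ec n) H}
  {M : Type} [TopologicalSpace M] [ChartedSpace H M] [IsManifold I ∞ M]
  {g₁ g₂ : Met I M} {A₁ A₂ : Conn I M N} {Φ : M → M} {U : M → Op N}

theorem cg_sm_target (g : Met I M) (A : Conn I M N) (p : M) :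
    (cg g A p).Sm (extChartAt I p).target :=
  ⟨gm_smooth g p, fun _ hz => gm_pos g hz,
    fun i => (A.smooth.comp_contMDiffOn (sec_smooth p (bv i))).contDiffOn,
    fun _ _ _ => A.skew _ _⟩

theorem FinT_gram {W : Type} [AddCommGroup W] [Module ℝ W] (b : W →ₗ[ℝ] W →ₗ[ℝ] ℝ)
    (T : Ec n →ₗ[ℝ] W) (D : Ec n →L[ℝ] Ec n) :
    (gram fun v w => b (T (D v)) (T (D w))) = (Matrix.of fun k i => D (bv i) k)ᵀ *
      (gram fun v w => b (T v) (T w)) * Matrix.of fun k i => D (bv i) k := by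
  obtain ⟨P, hP⟩ : ∃ P : Matrix (Fin n) (Fin n) ℝ, P = Matrix.of fun k i => D (bv i) k := ⟨_, rfl⟩
  have e : ∀ i, D (bv i) = ∑ k, P k i • bv k := fun i => by
    simp only [hP, of_apply]
    exact bv_sum _
  rw [← hP]
  ext i j
  simp only [gram, of_apply, e, map_sum, map_smul, LinearMap.sum_apply, LinearMap.smul_apply,
    smul_eq_mul, Matrix.mul_apply, transpose_apply, Finset.mul_sum, Finset.sum_mul]
  refine Finset.sum_congr rfl fun k _ => Finset.sum_congr rfl fun l _ => ?_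
  ring

theorem FinT_lin {W : Type} [NormedAddCommGroup W] [NormedSpace ℝ W] (a : Ec n →L[ℝ] W)
    (v : Ec n) : a v = ∑ k, v k • a (bv k) := by
  conv_lhs => rw [bv_sum v]
  simp only [map_sum, map_smul]

theorem FinT_key {O : Set M} (hO : IsOpen O) (hΦ : ContMDiffOn I I ∞ Φ O) {p q : M}
    {Ω : Set (Ec n)} (hΩ : IsOpen Ω) (h1 : Ω ⊆ (extChartAt I p).target)
    (h2 : ∀ z ∈ Ω, (extChartAt I p).symm z ∈ O ∧
      Φ ((extChartAt I p).symm z) ∈ (extChartAt I q).source) {Ψ : Ec n → Ec n}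
    (hΨ : Ψ = fun z => extChartAt I q (Φ ((extChartAt I p).symm z))) (sΨ : ContDiffOn ℝ ∞ Ψ Ω)
    {z : Ec n} (hz : z ∈ Ω) (v : Ec n) :
    (mfderiv I I Φ ((extChartAt I p).symm z) (fr I p z v) : Ec n) =
      fr I q (Ψ z) (fderiv ℝ Ψ z v) := by
  have m1 : ∀ y ∈ Ω, Ψ y ∈ (extChartAt I q).target := fun y hy => by
    rw [hΨ]
    exact (extChartAt I q).map_source (h2 y hy).2
  have m2 : ∀ y ∈ Ω, (Φ ∘ (extChartAt I p).symm) y = ((extChartAt I q).symm ∘ Ψ) y :=
    fun y hy => by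
      rw [hΨ]
      exact ((extChartAt I q).left_inv (h2 y hy).2).symm
  have d1 := (((hΦ.contMDiffAt (hO.mem_nhds (h2 z hz).1)).mdifferentiableAt
    (by simp)).hasMFDerivAt.comp_hasMFDerivWithinAt z
      (mdifferentiableWithinAt_extChartAt_symm (h1 hz)).hasMFDerivWithinAt).mono
        (h1.trans (extChartAt_target_subset_range p))
  have d2 : HasMFDerivWithinAt 𝓘(ℝ, Ec n) 𝓘(ℝ, Ec n) Ψ Ω z (fderiv ℝ Ψ z) :=
    ((sΨ.contDiffAt (hΩ.mem_nhds hz)).differentiableAt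
      (by simp)).hasFDerivAt.hasMFDerivAt.hasMFDerivWithinAt
  have d3 := ((mdifferentiableWithinAt_extChartAt_symm (m1 z hz)).hasMFDerivWithinAt.comp z d2
    fun y hy => extChartAt_target_subset_range q (m1 y hy)).congr_mono m2 (m2 z hz) Subset.rfl
  exact congrArg (fun L : Ec n →L[ℝ] Ec n => L v) ((hΩ.uniqueMDiffWithinAt hz).eq d1 d3)

/-- An isometry with gauge read in two charts. -/
theorem Iso.eiso {O : Set M} (h : Iso g₁ A₁ g₂ A₂ O Φ U) (p q : M) {Ω : Set (Ec n)}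
    (hΩ : IsOpen Ω) (h1 : Ω ⊆ (extChartAt I p).target)
    (h2 : ∀ z ∈ Ω, (extChartAt I p).symm z ∈ O ∧
      Φ ((extChartAt I p).symm z) ∈ (extChartAt I q).source) :
    EIso Ω (cg g₁ A₁ q) (cg g₂ A₂ p) (fun z => extChartAt I q (Φ ((extChartAt I p).symm z)))
      fun z => U ((extChartAt I p).symm z) := by
  obtain ⟨Ψ, hΨ⟩ : ∃ Ψ : Ec n → Ec n,
    Ψ = fun z => extChartAt I q (Φ ((extChartAt I p).symm z)) := ⟨_, rfl⟩
  have s0 : ContMDiffOn 𝓘(ℝ, Ec n) I ∞ (extChartAt I p).symm Ω :=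
    (contMDiffOn_extChartAt_symm p).mono h1
  have sΨ : ContDiffOn ℝ ∞ Ψ Ω := by
    rw [hΨ]
    exact ((contMDiffOn_extChartAt (I := I) (x := q)).comp (h.sΦ.comp s0 fun z hz => (h2 z hz).1)
      fun z hz => by simpa using (h2 z hz).2).contDiffOn
  have sV : ContDiffOn ℝ ∞ (fun z => U ((extChartAt I p).symm z)) Ω :=
    (h.sU.comp s0 fun z hz => (h2 z hz).1).contDiffOn
  have m2 : ∀ y ∈ Ω, Φ ((extChartAt I p).symm y) = (extChartAt I q).symm (Ψ y) := fun y hy => by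
    rw [hΨ]
    exact ((extChartAt I q).left_inv (h2 y hy).2).symm
  have e1 : ∀ x y : M, x = y → ∀ v w : Ec n, g₁.inner x v w = g₁.inner y v w := by
    rintro _ _ rfl _ _
    rfl
  have e2 : ∀ x y : M, x = y → ∀ v : Ec n, A₁.A x v = A₁.A y v := by
    rintro _ _ rfl _
    rfl
  have k := fun z hz => FinT_key h.op h.sΦ hΩ h1 h2 hΨ sΨ (z := z) hz
  rw [← hΨ]
  refine ⟨hΩ, sΨ, fun a ha b hb hab => ?_, sV, fun z hz => h.uni _ (h2 z hz).1,
    fun z hz => ?_, fun z hz i => ?_⟩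
  · have e := h.inj (h2 a ha).1 (h2 b hb).1 (by rw [m2 a ha, m2 b hb, hab])
    rw [← (extChartAt I p).right_inv (h1 ha), e, (extChartAt I p).right_inv (h1 hb)]
  · refine Eq.trans ?_ (FinT_gram (g₁.inner ((extChartAt I q).symm (Ψ z))).toLinearMap₁₂
      (fr I q (Ψ z)).toLinearMap (fderiv ℝ Ψ z))
    ext i j
    refine (h.met _ (h2 z hz).1 _ _).trans ((e1 _ _ (m2 z hz) _ _).trans ?_)
    exact congrArg₂ (fun v w : Ec n => g₁.inner ((extChartAt I q).symm (Ψ z)) v w)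
      (k z hz _) (k z hz _)
  · refine (h.con _ (h2 z hz).1 _).trans (congrArg₂ (· + ·) (congrArg (· * _) ?_) ?_)
    · refine (e2 _ _ (m2 z hz) _).trans ((congrArg
        (fun v : Ec n => A₁.A ((extChartAt I q).symm (Ψ z)) v) (k z hz _)).trans ?_)
      exact FinT_lin ((A₁.A ((extChartAt I q).symm (Ψ z))).comp (fr I q (Ψ z))) _
    · have d : HasFDerivWithinAt (fun z => U ((extChartAt I p).symm z))
          ((dif I U ((extChartAt I p).symm z)).comp (fr I p z)) (range I) z :=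
        (((h.sU.contMDiffAt (h.op.mem_nhds (h2 z hz).1)).mdifferentiableAt
          (by simp)).hasMFDerivAt.comp_hasMFDerivWithinAt z
            (mdifferentiableWithinAt_extChartAt_symm (h1 hz)).hasMFDerivWithinAt).hasFDerivWithinAt
      rw [(d.hasFDerivAt (mem_of_superset (hΩ.mem_nhds hz)
        (h1.trans (extChartAt_target_subset_range p)))).fderiv]
      rfl

end Vale.Agent.P088.Gl
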