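import Vale.Agent.P088F.FinB
import Vale.Agent.P088F.FinC
import Vale.Agent.P088F.FinT

/-! P088, extension to the boundary: smooth extension. -/

open MeasureTheory Set Filter Bundle Metric Topology Matrix
open scoped Manifold ContDiff

noncomputable section

namespace Vale.Agent.P088.Gl

variable {n N : ℕ} {H : Type} [TopologicalSpace H] {I : ModelWithCorners ℝ (Ec n) H}
  {M : Type} [TopologicalSpace M] [ChartedSpace H M] [IsManifold I ∞ M]
  {g₁ g₂ : Met I M} {A₁ A₂ : Conn I M N} {Φ : M → M} {U : M → Op N}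

theorem FinD_loc (h : Iso g₁ A₁ g₂ A₂ (I.interior M) Φ U) {Φ' : M → M} (hc : Continuous Φ')
    (he : EqOn Φ Φ' (I.interior M)) (p : M) : ∃ r > 0, ∃ (Ψ : Ec n → Ec n) (V : Ec n → Op N),
      Continuous Ψ ∧ Continuous V ∧ ContDiffOn ℝ ∞ Ψ (range I ∩ ball (extChartAt I p p) r) ∧
      ContDiffOn ℝ ∞ V (range I ∩ ball (extChartAt I p p) r) ∧
      ∀ x ∈ (extChartAt I p).source ∩ extChartAt I p ⁻¹' ball (extChartAt I p p) r,
        Φ' x ∈ (extChartAt I (Φ' p)).source ∧ (x ∈ I.interior M →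
          extChartAt I (Φ' p) (Φ' x) = Ψ (extChartAt I p x) ∧ U x = V (extChartAt I p x)) := by
  obtain ⟨r', hr', hs'⟩ := exists_ball (I := I) (Φ' p)
  obtain ⟨r₀, hr₀, hs₀⟩ := exists_ball (I := I) p
  have h1 : ContinuousAt (fun z => Φ' ((extChartAt I p).symm z)) (extChartAt I p p) :=
    hc.continuousAt.comp (continuousAt_extChartAt_symm p)
  have h2 := h1.preimage_mem_nhds (t := (extChartAt I (Φ' p)).source ∩
    extChartAt I (Φ' p) ⁻¹' ball (extChartAt I (Φ' p) (Φ' p)) r') (by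
      rw [extChartAt_to_inv]; exact ball_nhds _ hr')
  obtain ⟨r, hr, hs⟩ := nhds_basis_closedBall.mem_iff.1 (inter_mem h2 (closedBall_mem_nhds _ hr₀))
  have hT : closedBall (extChartAt I p p) r ∩ range I ⊆ (extChartAt I p).target := fun z hz =>
    hs₀ ⟨(hs hz.1).2, hz.2⟩
  have s3 : ball (extChartAt I p p) r ∩ interior (range I) ⊆ (extChartAt I p).target :=
    (inter_subset_inter ball_subset_closedBall interior_subset).trans hT
  have hi : ∀ z ∈ ball (extChartAt I p p) r ∩ interior (range I),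
      (extChartAt I p).symm z ∈ I.interior M := fun z hz => by
    rw [interior_iff ((extChartAt I p).map_target (s3 hz)), (extChartAt I p).right_inv (s3 hz)]
    exact hz.2
  have hq : ∀ z ∈ ball (extChartAt I p p) r ∩ interior (range I),
      Φ ((extChartAt I p).symm z) ∈ (extChartAt I (Φ' p)).source ∩
        extChartAt I (Φ' p) ⁻¹' ball (extChartAt I (Φ' p) (Φ' p)) r' := fun z hz => by
    rw [he (hi z hz)]
    exact (hs (ball_subset_closedBall hz.1)).1
  obtain ⟨Ψ, V, c1, c2, e1, e2, s1, s2⟩ := ext_eiso I.convex_range I.isClosed_range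
    I.range_subset_closure_interior I.uniqueDiffOn (uniqueDiffOn_extChartAt_target (Φ' p))
    (uniqueDiffOn_extChartAt_target p) (cg_sm_target g₁ A₁ (Φ' p)) (cg_sm_target g₂ A₂ p) hT
    ((isCompact_closedBall _ r').inter_right I.isClosed_range) hs'
    (h.eiso p (Φ' p) (isOpen_ball.inter isOpen_interior) s3 fun z hz => ⟨hi z hz, (hq z hz).1⟩)
    fun z hz => ⟨⟨ball_subset_closedBall (hq z hz).2, mem_range_self _⟩, by
      have h3 := extChartAt_target_mem_nhdsWithin' (hq z hz).1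
      rwa [nhdsWithin_eq_nhds.2 (mem_interior_iff_mem_nhds.1
        ((interior_iff (hq z hz).1).1 (h.mp (hi z hz))))] at h3⟩
  refine ⟨r, hr, Ψ, V, c1, c2, s1, s2, fun x hx => ⟨?_, fun hx' => ?_⟩⟩
  · have h3 := (hs (ball_subset_closedBall hx.2)).1.1
    simpa only [(extChartAt I p).left_inv hx.1] using h3
  · have h3 : extChartAt I p x ∈ ball (extChartAt I p p) r ∩ interior (range I) :=
      ⟨hx.2, (interior_iff hx.1).1 hx'⟩
    have h4 := e1 h3
    have h5 := e2 h3
    simp only [(extChartAt I p).left_inv hx.1] at h4 h5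
    exact ⟨he hx' ▸ h4, h5⟩

theorem Iso.ext_smooth [T2Space M] [CompactSpace M] (h : Iso g₁ A₁ g₂ A₂ (I.interior M) Φ U) :
    ∃ (Φ' : M → M) (U' : M → Op N), ContMDiff I I ∞ Φ' ∧ ContMDiff I 𝓘(ℝ, Op N) ∞ U' ∧
      EqOn Φ Φ' (I.interior M) ∧ EqOn U U' (I.interior M) :=
  by
  obtain ⟨Φ', hc, he⟩ := h.ext_cont
  choose r hr Ψ V c1 c2 s1 s2 k using FinD_loc h hc he
  have nb : ∀ x : M, (𝓝[I.interior M] x).NeBot := fun x =>
    mem_closure_iff_nhdsWithin_neBot.1 (dense_interior (I := I) x)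
  have ev : ∀ p, ∀ x ∈ (extChartAt I p).source ∩ extChartAt I p ⁻¹' ball (extChartAt I p p) (r p),
      ∀ᶠ y in 𝓝[I.interior M] x, extChartAt I (Φ' p) (Φ' y) = Ψ p (extChartAt I p y) ∧
        U y = V p (extChartAt I p y) := fun p x hx => by
    filter_upwards [self_mem_nhdsWithin, mem_nhdsWithin_of_mem_nhds
      ((isOpen_extChartAt_preimage' p isOpen_ball).mem_nhds hx)] with y h1 h2
    exact (k p y h2).2 h1
  have e2 : ∀ p, ∀ x ∈ (extChartAt I p).source ∩ extChartAt I p ⁻¹' ball (extChartAt I p p) (r p),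
      Tendsto U (𝓝[I.interior M] x) (𝓝 (V p (extChartAt I p x))) := fun p x hx =>
    (((c2 p).continuousAt.comp (continuousAt_extChartAt' hx.1)).tendsto.mono_left
      nhdsWithin_le_nhds).congr' ((ev p x hx).mono fun y hy => hy.2.symm)
  have m0 : ∀ p, p ∈ (extChartAt I p).source ∩ extChartAt I p ⁻¹' ball (extChartAt I p p) (r p) :=
    fun p => ⟨mem_extChartAt_source p, mem_ball_self (hr p)⟩
  have e3 : ∀ p, ∀ x ∈ (extChartAt I p).source ∩ extChartAt I p ⁻¹' ball (extChartAt I p p) (r p),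
      V x (extChartAt I x x) = V p (extChartAt I p x) := fun p x hx =>
    have := nb x
    tendsto_nhds_unique (e2 x x (m0 x)) (e2 p x hx)
  have e4 : ∀ p, ∀ x ∈ (extChartAt I p).source ∩ extChartAt I p ⁻¹' ball (extChartAt I p p) (r p),
      extChartAt I (Φ' p) (Φ' x) = Ψ p (extChartAt I p x) := fun p x hx =>
    have := nb x
    tendsto_nhds_unique_of_eventuallyEq
      (((continuousAt_extChartAt' (k p x hx).1).comp hc.continuousAt).tendsto.mono_left
        nhdsWithin_le_nhds)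
      (((c1 p).continuousAt.comp (continuousAt_extChartAt' hx.1)).tendsto.mono_left
        nhdsWithin_le_nhds) ((ev p x hx).mono fun y hy => hy.1)
  have sc : ∀ p : M, ContMDiffOn I 𝓘(ℝ, Ec n) ∞ (extChartAt I p)
      ((extChartAt I p).source ∩ extChartAt I p ⁻¹' ball (extChartAt I p p) (r p)) := fun p =>
    contMDiffOn_extChartAt.mono fun x hx => by simpa using hx.1
  refine ⟨Φ', fun x => V x (extChartAt I x x), fun p => ?_, fun p =>
    (((s2 p).contMDiffOn.comp (sc p) fun x hx => ⟨mem_range_self _, hx.2⟩).congr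
      (e3 p)).contMDiffAt (ball_nhds p (hr p)), he, fun x hx => ((k x x (m0 x)).2 hx).2⟩
  refine (((contMDiffOn_extChartAt_symm (Φ' p)).comp ((s1 p).contMDiffOn.comp (sc p)
    fun x hx => ⟨mem_range_self _, hx.2⟩) fun x hx => ?_).congr fun x hx => ?_).contMDiffAt
      (ball_nhds p (hr p))
  · change Ψ p (extChartAt I p x) ∈ (extChartAt I (Φ' p)).target
    rw [← e4 p x hx]
    exact (extChartAt I (Φ' p)).map_source (k p x hx).1
  · change _ = (extChartAt I (Φ' p)).symm (Ψ p (extChartAt I p x))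
    rw [← e4 p x hx, (extChartAt I (Φ' p)).left_inv (k p x hx).1]

end Vale.Agent.P088.Gl
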