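import Vale.Agent.P088F.TDefs

/-! P088: the contract of part G. -/

open MeasureTheory Set Filter Bundle Metric Topology Matrix
open scoped Manifold ContDiff ENNReal

noncomputable section

namespace Vale.Agent.P088.Gl

/-- Green operators of the extensions, on a smaller ball. -/
def GX2 (n N : ℕ) [NeZero n] : Prop :=
  ∀ (M : Type) [TopologicalSpace M] [ChartedSpace (EuclideanHalfSpace n) M]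
    [IsManifold (𝓡∂ n) ∞ M] [T2Space M] [CompactSpace M] [ConnectedSpace M] [MeasurableSpace M]
    [BorelSpace M] (Γ : Set M) (g₁ g₂ : Met (𝓡∂ n) M) (μ₁ μ₂ : Measure M)
    (A₁ A₂ : Conn (𝓡∂ n) M N) (S₁ S₂ : (M → Fb N) → M → Fb N),
    Patch (n := n) Γ → Dat Γ g₁ μ₁ A₁ S₁ → Dat Γ g₂ μ₂ A₂ S₂ → Eqd Γ g₁ μ₁ A₁ S₁ g₂ μ₂ A₂ S₂ →
    ∀ (p : M) (r : ℝ) (τ₁ θ₁ τ₂ θ₂ : Ec n → Ec n) (W₁ W₂ : Ec n → Op N) (γ₁ γ₂ : Geo n N),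
      XP Γ g₁ A₁ p r τ₁ θ₁ W₁ γ₁ → XP Γ g₂ A₂ p r τ₂ θ₂ W₂ γ₂ →
      (∀ z ∈ hp n r, z 0 = 0 → τ₁ z = τ₂ z) →
      (∀ z ∈ lo n r, γ₁.g z = γ₂.g z ∧ ∀ i, γ₁.a i z = γ₂.a i z) →
      ∃ r', 0 < r' ∧ r' ≤ r ∧ XP Γ g₁ A₁ p r' τ₁ θ₁ W₁ γ₁ ∧ XP Γ g₂ A₂ p r' τ₂ θ₂ W₂ γ₂ ∧
        ∃ G₁ GB₁ GM₁ G₂ GB₂ GM₂, XG Γ g₁ μ₁ A₁ S₁ p r' τ₁ θ₁ W₁ γ₁ G₁ GB₁ GM₁ ∧
          XG Γ g₂ μ₂ A₂ S₂ p r' τ₂ θ₂ W₂ γ₂ G₂ GB₂ GM₂ ∧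
          ∀ F, ET (lo n r') F → EqOn (GB₁ F) (GB₂ F) (lo n r')

end Vale.Agent.P088.Gl
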