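import Vale.Agent.P088F.Grn

/-! P088, part G, file GXa. Abstract lemmas. `GXa_close`: apply `IsG.lub` to `f + t • h`; the quadratic polynomial
`dfc + 2 re (t ⟪G f - j φ, h⟫) + |t|^2 re ⟪G h, h⟫` is nonnegative; take `h = G f - j φ`, real `t`, and `GXa_quad`
(`IsG.diag` and Cauchy-Schwarz). `GXa_approx`: `re (Q φ φ) = dfc - re ⟪G f, f⟫ + 2 re ⟪j φ, f⟫`. -/

open MeasureTheory Set Filter Bundle Metric Topology Matrix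
open scoped Manifold ContDiff ENNReal NNReal ComplexConjugate

noncomputable section

namespace Vale.Agent.P088.Gl

open Vale.Agent.P088F
open scoped InnerProductSpace

variable {D H : Type} [NormedAddCommGroup H] [InnerProductSpace ℂ H] [AddCommGroup D] [Module ℂ D]
  {Q : D → D → ℂ} {j : D →ₗ[ℂ] H} {G : H →L[ℂ] H} {Λ : ℝ}

/-- The defect of `φ` in the variational formula. -/
def dfc (Q : D → D → ℂ) (j : D →ₗ[ℂ] H) (G : H →L[ℂ] H) (f : H) (φ : D) : ℝ :=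
  (⟪G f, f⟫_ℂ).re - 2 * (⟪j φ, f⟫_ℂ).re + (Q φ φ).re

theorem GXa_am {x a b : ℝ} (h : x ^ 2 ≤ a * b) (ha : 0 ≤ a) (hb : 0 ≤ b) : 2 * x ≤ a + b := by
  by_contra c
  nlinarith [sq_nonneg (a - b), not_le.1 c]

theorem GXa_re (x y : H) : (⟪x, y⟫_ℂ).re ≤ ‖x‖ * ‖y‖ :=
  (Complex.re_le_norm _).trans (norm_inner_le_norm x y)

theorem GXa_self (x : H) : (⟪x, x⟫_ℂ).re = ‖x‖ ^ 2 := inner_self_eq_norm_sq (𝕜 := ℂ) x

theorem GXa_add (hs : ∀ f h, ⟪G f, h⟫_ℂ = ⟪f, G h⟫_ℂ) (f h : H) :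
    (⟪G (f + h), f + h⟫_ℂ).re = (⟪G f, f⟫_ℂ).re + 2 * (⟪G f, h⟫_ℂ).re + (⟪G h, h⟫_ℂ).re := by
  have e : (⟪G h, f⟫_ℂ).re = (⟪G f, h⟫_ℂ).re := by
    rw [hs, ← inner_conj_symm, Complex.conj_re]
  rw [map_add, inner_add_left, inner_add_right, inner_add_right, Complex.add_re, Complex.add_re,
    Complex.add_re, e]
  ring

theorem GXa_nonneg (h : IsG Q j G) (f : H) (φ : D) : 0 ≤ dfc Q j G f φ := by
  have := (h.lub f).1 ⟨φ, rfl⟩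
  rw [dfc]
  linarith

theorem GXa_small (h : IsG Q j G) (f : H) {ε : ℝ} (hε : 0 < ε) : ∃ φ, dfc Q j G f φ ≤ ε := by
  obtain ⟨_, ⟨φ, rfl⟩, h1, -⟩ := (h.lub f).exists_between (sub_lt_self _ hε)
  refine ⟨φ, ?_⟩
  rw [dfc]
  linarith

theorem GXa_quad (h : IsG Q j G) (h2 : ∀ φ, 0 ≤ (Q φ φ).re)
    (hj : ∀ φ, ‖j φ‖ ^ 2 ≤ Λ ^ 2 * (Q φ φ).re) (f : H) : (⟪G f, f⟫_ℂ).re ≤ Λ ^ 2 * ‖f‖ ^ 2 := by
  refine (h.lub f).2 ?_
  rintro _ ⟨φ, rfl⟩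
  have h1 := GXa_am (x := ‖j φ‖ * ‖f‖) (a := (Q φ φ).re) (b := Λ ^ 2 * ‖f‖ ^ 2)
    (by rw [mul_pow]; nlinarith [mul_le_mul_of_nonneg_right (hj φ) (sq_nonneg ‖f‖)]) (h2 φ)
    (by positivity)
  have := GXa_re (j φ) f
  show 2 * (⟪j φ, f⟫_ℂ).re - (Q φ φ).re ≤ _
  linarith

theorem GXa_norm (h : IsG Q j G) (h2 : ∀ φ, 0 ≤ (Q φ φ).re)
    (hj : ∀ φ, ‖j φ‖ ^ 2 ≤ Λ ^ 2 * (Q φ φ).re) (f : H) :
    ‖G f‖ ^ 2 ≤ Λ ^ 2 * (⟪G f, f⟫_ℂ).re := by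
  have h1 := (h.cs (G f) f).trans
    (mul_le_mul_of_nonneg_right (GXa_quad h h2 hj (G f)) (h.nn f))
  rw [inner_self_eq_norm_sq_to_K, norm_pow, RCLike.norm_ofReal, abs_norm] at h1
  rcases (sq_nonneg ‖G f‖).eq_or_lt with c | c
  · rw [← c]
    exact mul_nonneg (sq_nonneg _) (h.nn f)
  · exact le_of_mul_le_mul_left (by nlinarith) c

theorem GXa_close (h : IsG Q j G) (h2 : ∀ φ, 0 ≤ (Q φ φ).re)
    (hj : ∀ φ, ‖j φ‖ ^ 2 ≤ Λ ^ 2 * (Q φ φ).re) (f : H) (φ : D) :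
    ‖j φ - G f‖ ^ 2 ≤ Λ ^ 2 * dfc Q j G f φ := by
  rw [norm_sub_rev]
  set u := G f - j φ with hu
  have key : ∀ t : ℝ, 0 ≤ Λ ^ 2 * ‖u‖ ^ 2 * (t * t) + 2 * ‖u‖ ^ 2 * t + dfc Q j G f φ := fun t => by
    have h1 := GXa_nonneg h (f + (t : ℂ) • u) φ
    have h3 := GXa_quad h h2 hj ((t : ℂ) • u)
    have h4 : (⟪G f, u⟫_ℂ).re - (⟪j φ, u⟫_ℂ).re = ‖u‖ ^ 2 := by
      rw [← Complex.sub_re, ← inner_sub_left, GXa_self]
    rw [norm_smul, mul_pow, Complex.norm_real, Real.norm_eq_abs, sq_abs] at h3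
    rw [dfc, GXa_add h.sym, inner_add_right, inner_smul_right (G f), inner_smul_right (j φ),
      Complex.add_re, Complex.re_ofReal_mul, Complex.re_ofReal_mul] at h1
    rw [dfc, ← h4]
    rw [← h4] at h3
    linarith
  have h5 := discrim_le_zero key
  rw [discrim] at h5
  rcases (sq_nonneg ‖u‖).eq_or_lt with c | c
  · rw [← c]
    exact mul_nonneg (sq_nonneg _) (GXa_nonneg h f φ)
  · exact le_of_mul_le_mul_left (by nlinarith) c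

theorem GXa_approx (h : IsG Q j G) (h2 : ∀ φ, 0 ≤ (Q φ φ).re)
    (hj : ∀ φ, ‖j φ‖ ^ 2 ≤ Λ ^ 2 * (Q φ φ).re) (f : H) {ε : ℝ} (hε : 0 < ε) :
    ∃ φ, ‖j φ - G f‖ ^ 2 ≤ ε ∧ (Q φ φ).re ≤ (⟪G f, f⟫_ℂ).re + ε := by
  have c1 : ContinuousAt (fun δ : ℝ => Λ ^ 2 * δ) 0 := by fun_prop
  have c2 : ContinuousAt (fun δ : ℝ => δ + 2 * (√(Λ ^ 2 * δ) * ‖f‖)) 0 := by fun_prop
  obtain ⟨δ, ⟨h3, h4⟩, h5⟩ := ((mem_nhdsWithin_of_mem_nhds (t := Ioi 0)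
    ((c1.eventually_lt continuousAt_const (by simpa using hε)).and
      (c2.eventually_lt continuousAt_const (by simpa using hε)))) |> Eventually.and <|
        self_mem_nhdsWithin).exists
  obtain ⟨φ, hφ⟩ := GXa_small h f h5
  have h6 := (GXa_close h h2 hj f φ).trans (mul_le_mul_of_nonneg_left hφ (sq_nonneg Λ))
  refine ⟨φ, h6.trans h3.le, ?_⟩
  have h7 := (GXa_re (j φ - G f) f).trans
    (mul_le_mul_of_nonneg_right (Real.le_sqrt_of_sq_le h6) (norm_nonneg f))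
  rw [inner_sub_left, Complex.sub_re] at h7
  rw [dfc] at hφ
  linarith

theorem GXa_polar {E H' : Type} [AddCommGroup E] [Module ℂ E] [NormedAddCommGroup H']
    [InnerProductSpace ℂ H'] {G' : H' →L[ℂ] H'} (i : E →ₗ[ℂ] H) (i' : E →ₗ[ℂ] H')
    (hs : ∀ f h, ⟪G f, h⟫_ℂ = ⟪f, G h⟫_ℂ) (hs' : ∀ f h, ⟪G' f, h⟫_ℂ = ⟪f, G' h⟫_ℂ)
    (h : ∀ e, (⟪G (i e), i e⟫_ℂ).re = (⟪G' (i' e), i' e⟫_ℂ).re) (e e' : E) :
    ⟪G (i e), i e'⟫_ℂ = ⟪G' (i' e), i' e'⟫_ℂ := by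
  have k : ∀ e e', (⟪G (i e), i e'⟫_ℂ).re = (⟪G' (i' e), i' e'⟫_ℂ).re := fun e e' => by
    have := h (e + e')
    rw [map_add i, map_add i', GXa_add hs, GXa_add hs', h e, h e'] at this
    linarith
  refine Complex.ext (k e e') ?_
  have := k e (Complex.I • e')
  rwa [map_smul, map_smul, inner_smul_right, inner_smul_right, Complex.I_mul_re, Complex.I_mul_re,
    neg_inj] at this

end Vale.Agent.P088.Gl
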