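import Mathlib

/-! The abstract Green operator of an energy form. -/

open Set UniformSpace
open scoped InnerProductSpace

noncomputable section

namespace Vale.Agent.P088F

variable {D H : Type} [NormedAddCommGroup H] [InnerProductSpace ℂ H] [CompleteSpace H]

/-- The properties of the Green operator of the form `Q`. -/
structure IsG [AddCommGroup D] [Module ℂ D] (Q : D → D → ℂ) (j : D →ₗ[ℂ] H) (G : H →L[ℂ] H) :
    Prop where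
  sym : ∀ f h, ⟪G f, h⟫_ℂ = ⟪f, G h⟫_ℂ
  nn : ∀ f, 0 ≤ (⟪G f, f⟫_ℂ).re
  cs : ∀ f h, ‖⟪f, G h⟫_ℂ‖ ^ 2 ≤ (⟪G f, f⟫_ℂ).re * (⟪G h, h⟫_ℂ).re
  inv : ∀ φ f, (∀ ψ, Q ψ φ = ⟪j ψ, f⟫_ℂ) → G f = j φ
  lub : ∀ f, IsLUB (range fun φ => 2 * (⟪j φ, f⟫_ℂ).re - (Q φ φ).re) (⟪G f, f⟫_ℂ).re

theorem green_aux [SeminormedAddCommGroup D] [InnerProductSpace ℂ D] (j : D →ₗ[ℂ] H) {Λ : ℝ}
    (hj : ∀ φ, ‖j φ‖ ≤ Λ * ‖φ‖) : ∃ G, IsG (fun φ ψ => ⟪φ, ψ⟫_ℂ) j G := by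
  obtain ⟨J, hJ⟩ : ∃ J : Completion D →L[ℂ] H, ∀ φ : D, J φ = j φ :=
    ⟨j.extendOfNorm (Completion.toComplL : D →L[ℂ] Completion D).toLinearMap, fun φ =>
      LinearMap.extendOfNorm_eq Completion.denseRange_coe ⟨Λ, fun φ => by simpa using hj φ⟩ φ⟩
  have e : ∀ f h, ⟪J (J.adjoint f), h⟫_ℂ = ⟪J.adjoint f, J.adjoint h⟫_ℂ := fun f h =>
    (J.adjoint_inner_right _ _).symm
  have e' : ∀ f, (⟪J (J.adjoint f), f⟫_ℂ).re = ‖J.adjoint f‖ ^ 2 := fun f => by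
    rw [e]
    exact inner_self_eq_norm_sq (𝕜 := ℂ) _
  have e2 : ∀ (φ : D) f, 2 * (⟪j φ, f⟫_ℂ).re - (⟪φ, φ⟫_ℂ).re =
      ‖J.adjoint f‖ ^ 2 - ‖(φ : Completion D) - J.adjoint f‖ ^ 2 := fun φ f => by
    rw [← hJ, ← J.adjoint_inner_right, norm_sub_sq (𝕜 := ℂ), Completion.norm_coe,
      ← inner_self_eq_norm_sq (𝕜 := ℂ) φ]
    simp only [RCLike.re_to_complex]
    ring
  refine ⟨J.comp J.adjoint, fun f h => (e f h).trans (J.adjoint_inner_left _ _),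
    fun f => (sq_nonneg _).trans_eq (e' f).symm, fun f h => ?_,
    fun φ f h => ?_, fun f => ⟨?_, fun c hc => ?_⟩⟩
  · simp only [ContinuousLinearMap.comp_apply, e', ← J.adjoint_inner_left, ← mul_pow]
    exact pow_le_pow_left₀ (norm_nonneg _) (norm_inner_le_norm _ _) 2
  · rw [ContinuousLinearMap.comp_apply, ← hJ]
    refine congrArg J (ext_inner_left ℂ fun w => ?_)
    refine Completion.induction_on w (isClosed_eq (by fun_prop) (by fun_prop)) fun ψ => ?_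
    rw [J.adjoint_inner_right, hJ, Completion.inner_coe, h]
  · rintro _ ⟨φ, rfl⟩
    simp only [ContinuousLinearMap.comp_apply, e', e2]
    exact sub_le_self _ (sq_nonneg _)
  · have h1 : ∀ w : Completion D, ‖J.adjoint f‖ ^ 2 - ‖w - J.adjoint f‖ ^ 2 ≤ c := fun w =>
      Completion.induction_on w (isClosed_le (by fun_prop) continuous_const) fun φ =>
        (e2 φ f).symm.trans_le (hc ⟨φ, rfl⟩)
    simpa [e'] using h1 (J.adjoint f)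

theorem green [AddCommGroup D] [Module ℂ D] (Q : D → D → ℂ)
    (h1 : ∀ φ ψ, (starRingEnd ℂ) (Q ψ φ) = Q φ ψ) (h2 : ∀ φ, 0 ≤ (Q φ φ).re)
    (h3 : ∀ φ ψ χ, Q (φ + ψ) χ = Q φ χ + Q ψ χ)
    (h4 : ∀ φ ψ (r : ℂ), Q (r • φ) ψ = (starRingEnd ℂ) r * Q φ ψ) (j : D →ₗ[ℂ] H) {Λ : ℝ}
    (hj : ∀ φ, ‖j φ‖ ^ 2 ≤ Λ ^ 2 * (Q φ φ).re) : ∃ G, IsG Q j G := by
  let c : PreInnerProductSpace.Core ℂ D := ⟨⟨Q⟩, h1, h2, h3, h4⟩
  let _ := InnerProductSpace.Core.toSeminormedAddCommGroup (c := c)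
  let _ : InnerProductSpace ℂ D := .ofCore c
  refine green_aux j (Λ := |Λ|) fun φ => le_of_sq_le_sq ((hj φ).trans_eq ?_) (by positivity)
  rw [mul_pow, sq_abs, ← inner_self_eq_norm_sq (𝕜 := ℂ) φ]
  rfl

variable [AddCommGroup D] [Module ℂ D] {Q : D → D → ℂ} {j : D →ₗ[ℂ] H} {G : H →L[ℂ] H}

omit [CompleteSpace H] in
theorem IsG.diag (h : IsG Q j G) (h2 : ∀ φ, 0 ≤ (Q φ φ).re) {f : H} {c : ℝ} (hc : 0 ≤ c)
    (hf : ∀ φ, ‖⟪j φ, f⟫_ℂ‖ ^ 2 ≤ c * (Q φ φ).re) : (⟪G f, f⟫_ℂ).re ≤ c := by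
  refine (h.lub f).2 ?_
  rintro _ ⟨φ, rfl⟩
  have h3 := abs_le_of_sq_le_sq' (b := (c + (Q φ φ).re) / 2)
    ((sq_abs _).symm.trans_le ((pow_le_pow_left₀ (abs_nonneg _) (Complex.abs_re_le_norm _) 2).trans
      ((hf φ).trans (by nlinarith [sq_nonneg (c - (Q φ φ).re)])))) (by linarith [h2 φ])
  simp only
  linarith [h3.2]

omit [CompleteSpace H] in
/-- Bounds for the compression of `G` by a self-adjoint `P`. -/
theorem IsG.comp (h : IsG Q j G) (h2 : ∀ φ, 0 ≤ (Q φ φ).re) (P : H → H)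
    (hP : ∀ f g, ⟪f, P g⟫_ℂ = ⟪P f, g⟫_ℂ) {c : ℝ} (hc : 0 ≤ c)
    (hj : ∀ φ, ‖P (j φ)‖ ^ 2 ≤ c * (Q φ φ).re) (f : H) : ‖P (G (P f))‖ ≤ c * ‖f‖ := by
  have k : ∀ f, (⟪G (P f), P f⟫_ℂ).re ≤ c * ‖f‖ ^ 2 := fun f =>
    h.diag h2 (by positivity) fun φ => by
      rw [hP, mul_right_comm, ← mul_comm (‖f‖ ^ 2)]
      refine (pow_le_pow_left₀ (norm_nonneg _) (norm_inner_le_norm _ _) 2).trans ?_
      rw [mul_pow, mul_comm]
      exact mul_le_mul_of_nonneg_left (hj φ) (sq_nonneg _)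
  have h3 := (h.cs (P (P (G (P f)))) (P f)).trans (mul_le_mul (k _) (k f) (h.nn _) (by positivity))
  rw [← hP, inner_self_eq_norm_sq_to_K, norm_pow, RCLike.norm_ofReal, abs_norm] at h3
  rcases (norm_nonneg (P (G (P f)))).eq_or_lt with h4 | h4
  · rw [← h4]
    positivity
  · refine le_of_sq_le_sq (le_of_mul_le_mul_left (a := ‖P (G (P f))‖ ^ 2) ?_ (pow_pos h4 2))
      (by positivity)
    nlinarith

end Vale.Agent.P088F
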