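import Vale.Agent.P088F.HDefs

/-! P088, part H: normal monomials are independent on the null cone. -/

open MeasureTheory Set Filter Topology Metric
open scoped ContDiff FourierTransform

noncomputable section

namespace Vale.Agent.P088.Mo

open Vale.Agent.P292E

variable {n : ℕ}

theorem mon_zero (θ : Fin n → ℂ) : mon 0 θ = 1 := by
  simp [mon]

theorem mon_cons (j : Fin n) (α : Mi n) (θ : Fin n → ℂ) : mon (j ::ₘ α) θ = θ j * mon α θ := by
  simp [mon]

theorem mon_smul (t : ℂ) (α : Mi n) (θ : Fin n → ℂ) : mon α (t • θ) = t ^ α.card * mon α θ := by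
  induction α using Multiset.induction_on with
  | empty => simp [mon]
  | cons j α ih =>
    rw [mon_cons, mon_cons, ih, Multiset.card_cons, Pi.smul_apply, smul_eq_mul]
    ring

/-- monomials are independent: the `MvPolynomial` with monomials `Multiset.toFinsupp α` vanishes
(`MvPolynomial.funext`), compare coefficients -/
theorem mon_indep (t : Finset (Mi n)) (p : Mi n → ℂ) (h : ∀ θ, ∑ α ∈ t, p α * mon α θ = 0) :
    ∀ α ∈ t, p α = 0 := by
  intro α hα
  have h1 : ∑ β ∈ t, MvPolynomial.monomial (Multiset.toFinsupp β) (p β) = 0 := by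
    refine MvPolynomial.funext fun θ => ?_
    rw [map_sum, map_zero, ← h θ]
    refine Finset.sum_congr rfl fun β _ => ?_
    rw [MvPolynomial.eval_monomial, mon, Finset.prod_multiset_map_count, Finsupp.prod,
      Multiset.toFinsupp_support]
    simp
  have h2 := congrArg (MvPolynomial.coeff (Multiset.toFinsupp α)) h1
  rw [MvPolynomial.coeff_sum, Finset.sum_eq_single α (fun β _ hβ => by
    rw [MvPolynomial.coeff_monomial, if_neg fun e => hβ (Multiset.toFinsupp.injective e)])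
    (fun e => absurd hα e)] at h2
  simpa using h2

theorem halg0_upd {o : Fin n} {α : Mi n} (h : o ∉ α) (θ : Fin n → ℂ) (ρ : ℂ) :
    mon α (Function.update θ o ρ) = mon α θ :=
  congrArg Multiset.prod (Multiset.map_congr rfl fun _ hj =>
    Function.update_of_ne (ne_of_mem_of_not_mem hj h) _ _)

theorem halg0_eval (α : Mi n) (θ : Fin n → ℂ) :
    MvPolynomial.eval θ (α.map MvPolynomial.X).prod = mon α θ := by
  rw [map_multiset_prod, Multiset.map_map]
  simp [mon]

theorem halg0_null (o : Fin n) (θ : Fin n → ℂ) :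
    Null θ ↔ θ o ^ 2 = -∑ j ∈ Finset.univ.erase o, θ j ^ 2 := by
  rw [Null, ← Finset.add_sum_erase _ _ (Finset.mem_univ o), eq_neg_iff_add_eq_zero]

/-- For any `θ` take `ρ ^ 2 = -q θ`, `q θ = ∑ j ≠ o, θ j ^ 2`; both `update θ o (± ρ)` are null. The sum is
`P0 θ + ρ * P1 θ` (`P0`: indices without `o`; `P1`: indices `o ::ₘ β`, monomial `mon β`). So `P0 = 0`,
and `q * P1 = 0`; `q ≠ 0` since `2 ≤ n`, hence `P1 = 0` (polynomials form a domain, or
`t ↦ P1 (θ + t e)` is continuous and `q (θ + t e)` has finitely many zeros). Then `mon_indep`. -/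
theorem null_indep (hn : 2 ≤ n) (o : Fin n) (M : ℕ) (p : Nm o M → ℂ)
    (h : ∀ θ, Null θ → ∑ β, p β * mon β.1 θ = 0) : p = 0 := by
  obtain ⟨P, hP⟩ : ∃ P : (Fin n → ℂ) → ℂ,
    P = fun θ => ∑ β : Nm o M, if o ∈ β.1 then 0 else p β * mon β.1 θ := ⟨_, rfl⟩
  obtain ⟨Q, hQ⟩ : ∃ Q : MvPolynomial (Fin n) ℂ, Q = ∑ β : Nm o M, if o ∈ β.1 then
    MvPolynomial.C (p β) * ((β.1.erase o).map MvPolynomial.X).prod else 0 := ⟨_, rfl⟩
  obtain ⟨q, hq⟩ : ∃ q : MvPolynomial (Fin n) ℂ,
    q = ∑ j ∈ Finset.univ.erase o, MvPolynomial.X j ^ 2 := ⟨_, rfl⟩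
  have e1 : ∀ θ, MvPolynomial.eval θ q = ∑ j ∈ Finset.univ.erase o, θ j ^ 2 := fun θ => by
    rw [hq, map_sum]
    simp only [map_pow, MvPolynomial.eval_X]
  have e2 : ∀ θ ρ, ∑ β, p β * mon β.1 (Function.update θ o ρ) =
      P θ + ρ * MvPolynomial.eval θ Q := fun θ ρ => by
    rw [hP, hQ, map_sum, Finset.mul_sum, ← Finset.sum_add_distrib]
    refine Finset.sum_congr rfl fun β _ => ?_
    by_cases hβ : o ∈ β.1
    · have h1 : o ∉ β.1.erase o := by
        rw [← Multiset.count_eq_zero, Multiset.count_erase_self]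
        have := (mem_NS.1 β.2).2
        omega
      rw [if_pos hβ, if_pos hβ, map_mul, MvPolynomial.eval_C, halg0_eval, zero_add]
      conv_lhs => rw [← Multiset.cons_erase hβ, mon_cons, halg0_upd h1, Function.update_self]
      ring
    · rw [if_neg hβ, if_neg hβ, map_zero, mul_zero, add_zero, halg0_upd hβ]
  have e3 : ∀ θ ρ, ρ ^ 2 = -MvPolynomial.eval θ q → P θ + ρ * MvPolynomial.eval θ Q = 0 :=
    fun θ ρ hρ => by
      rw [← e2]
      refine h _ ((halg0_null o _).2 ?_)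
      rw [Function.update_self, hρ, e1]
      exact congrArg Neg.neg (Finset.sum_congr rfl fun j hj => by
        rw [Function.update_of_ne (Finset.ne_of_mem_erase hj)])
  have e4 : ∀ θ, P θ = 0 ∧ MvPolynomial.eval θ (q * Q) = 0 := fun θ => by
    obtain ⟨ρ, hρ⟩ := IsAlgClosed.exists_pow_nat_eq (-MvPolynomial.eval θ q) two_pos
    have a1 := e3 θ ρ hρ
    have a2 := e3 θ (-ρ) (by rw [neg_sq, hρ])
    refine ⟨by linear_combination (a1 + a2) / 2, ?_⟩
    rw [map_mul]
    linear_combination MvPolynomial.eval θ Q * hρ - ρ * (a1 - a2) / 2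
  have e5 : q ≠ 0 := fun h0 => by
    have : Nontrivial (Fin n) := Fin.nontrivial_iff_two_le.2 hn
    obtain ⟨j, hj⟩ := exists_ne o
    have h1 := e1 (Pi.single j 1)
    rw [h0, map_zero, Finset.sum_eq_single j (fun k _ hk => by rw [Pi.single_eq_of_ne hk]; simp)
      (fun hk => absurd (Finset.mem_erase.2 ⟨hj, Finset.mem_univ _⟩) hk)] at h1
    simp at h1
  have e6 : Q = 0 := (mul_eq_zero.1
    (MvPolynomial.funext fun θ => ((e4 θ).2.trans (map_zero _).symm))).resolve_left e5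
  have e7 := mon_indep (NS o M) (fun α => if hα : α ∈ NS o M then p ⟨α, hα⟩ else 0) fun θ => by
    have h1 := e2 θ (θ o)
    rw [Function.update_eq_self, e6, (e4 θ).1, map_zero, mul_zero, add_zero] at h1
    rw [← Finset.sum_coe_sort, ← h1]
    exact Finset.sum_congr rfl fun β _ => by rw [dif_pos β.2]
  funext β
  exact (dif_pos β.2).symm.trans (e7 β.1 β.2)

/-- induction on the count of `o`: `θ o ^ 2 = -∑ j ≠ o, θ j ^ 2` on the cone -/
theorem null_red (o : Fin n) (M : ℕ) (α : Mi n) (hα : α.card ≤ M) : ∃ r : Nm o M → ℂ,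
    (∀ β, r β ≠ 0 → β.1.card = α.card) ∧ ∀ θ, Null θ → mon α θ = ∑ β, r β * mon β.1 θ := by
  induction hk : α.count o using Nat.strong_induction_on generalizing α with
  | _ k ih =>
  by_cases h1 : α.count o ≤ 1
  · refine ⟨fun β => if β = ⟨α, mem_NS.2 ⟨hα, h1⟩⟩ then 1 else 0, fun β hβ => ?_, fun θ _ => ?_⟩
    · rw [of_not_not fun e => hβ (if_neg e)]
    · simp
  obtain ⟨β, rfl⟩ := Multiset.exists_cons_of_mem (Multiset.count_pos.1 (by omega : 0 < α.count o))
  rw [Multiset.count_cons_self] at h1 hk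
  obtain ⟨γ, rfl⟩ := Multiset.exists_cons_of_mem (Multiset.count_pos.1 (by omega : 0 < β.count o))
  rw [Multiset.count_cons_self] at hk
  have h2 : ∀ j, ∃ r : Nm o M → ℂ, j ≠ o → (∀ β, r β ≠ 0 → β.1.card = (j ::ₘ j ::ₘ γ).card) ∧
      ∀ θ, Null θ → mon (j ::ₘ j ::ₘ γ) θ = ∑ β, r β * mon β.1 θ := fun j => by
    by_cases hj : j = o
    · exact ⟨0, fun e => absurd hj e⟩
    obtain ⟨r, hr⟩ := ih (γ.count o) (by omega) (j ::ₘ j ::ₘ γ) (by simpa using hα)
      (by rw [Multiset.count_cons_of_ne (Ne.symm hj), Multiset.count_cons_of_ne (Ne.symm hj)])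
    exact ⟨r, fun _ => hr⟩
  choose r hr using h2
  refine ⟨fun β => -∑ j ∈ Finset.univ.erase o, r j β, fun β hβ => ?_, fun θ hθ => ?_⟩
  · obtain ⟨j, j1, j2⟩ := Finset.exists_ne_zero_of_sum_ne_zero (neg_ne_zero.1 hβ)
    simpa using (hr j (Finset.ne_of_mem_erase j1)).1 β j2
  · simp only [neg_mul, Finset.sum_mul, Finset.sum_neg_distrib]
    rw [Finset.sum_comm, mon_cons, mon_cons, ← mul_assoc, ← sq, (halg0_null o θ).1 hθ, neg_mul,
      Finset.sum_mul]
    refine congrArg Neg.neg (Finset.sum_congr rfl fun j hj => ?_)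
    rw [← (hr j (Finset.ne_of_mem_erase hj)).2 θ hθ, mon_cons, mon_cons, sq, mul_assoc]

end Vale.Agent.P088.Mo
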