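import Vale.Agent.P088F.HAlg0

/-! P088, part H: the detecting null vectors and the injectivity of the symbol. -/

open MeasureTheory Set Filter Topology Metric
open scoped ContDiff FourierTransform

noncomputable section

namespace Vale.Agent.P088.Mo

open Vale.Agent.P292E

variable {n : ℕ}

theorem halg1_span (hn : 2 ≤ n) (o : Fin n) (M : ℕ) :
    Submodule.span ℂ {v : Nm o M → ℂ | ∃ θ, Null θ ∧ v = fun β => mon β.1 θ} = ⊤ := by
  by_contra h
  obtain ⟨f, f0, f1⟩ := Submodule.exists_le_ker_of_lt_top _ (lt_top_iff_ne_top.2 h)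
  have h1 := null_indep hn o M (fun β => f fun j => if β = j then 1 else 0) fun θ hθ => by
    have := f1 (Submodule.subset_span ⟨θ, hθ, rfl⟩)
    rw [LinearMap.mem_ker, f.pi_apply_eq_sum_univ] at this
    simpa only [smul_eq_mul, mul_comm] using this
  refine f0 (LinearMap.ext fun x => ?_)
  rw [f.pi_apply_eq_sum_univ]
  exact Finset.sum_eq_zero fun i _ => smul_eq_zero_of_right _ (congrFun h1 i)

/-- The vectors `fun β => mon β θ`, `θ` null, span `Nm o M → ℂ` (otherwise a nonzero functional,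
which is `v ↦ ∑ p β * v β`, kills them: `null_indep`). Extract a basis (`exists_linearIndependent`,
cardinality = dimension), reindex it by `Nm o M`, so `det ≠ 0`. Scale all vectors by a small `t > 0`
(`mon_smul`; the matrix is multiplied by the diagonal matrix `t ^ card`). -/
theorem exists_pts (hn : 2 ≤ n) (o : Fin n) (M : ℕ) : ∃ θ : Nm o M → Fin n → ℂ,
    (∀ i, Null (θ i)) ∧ (∀ i j, ‖θ i j‖ ≤ 1) ∧
      (Matrix.of fun β i : Nm o M => mon β.1 (θ i)).det ≠ 0 := by
  obtain ⟨f, f1, -, f2⟩ := Submodule.exists_fun_fin_finrank_span_eq ℂ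
    {v : Nm o M → ℂ | ∃ θ, Null θ ∧ v = fun β => mon β.1 θ}
  have e := Fintype.equivFinOfCardEq (α := Nm o M) (n := Module.finrank ℂ (Submodule.span ℂ
    {v : Nm o M → ℂ | ∃ θ, Null θ ∧ v = fun β => mon β.1 θ}))
      (by rw [halg1_span hn, finrank_top, Module.finrank_fintype_fun_eq_card])
  choose θ h1 h2 using fun i => f1 (e i)
  have h3 : (Matrix.of fun β i : Nm o M => mon β.1 (θ i)).det ≠ 0 := by
    refine ((Matrix.isUnit_iff_isUnit_det _).1
      (Matrix.linearIndependent_cols_iff_isUnit.1 ?_)).ne_zero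
    have h4 : (Matrix.of fun β i : Nm o M => mon β.1 (θ i)).col = f ∘ e :=
      funext fun i => (h2 i).symm
    rw [h4]
    exact f2.comp _ e.injective
  have h0 : 0 < ‖θ‖ + 1 := by positivity
  refine ⟨fun i => (((‖θ‖ + 1)⁻¹ : ℝ) : ℂ) • θ i, fun i => ?_, fun i j => ?_, ?_⟩
  · have := h1 i
    unfold Null at this ⊢
    simp only [Pi.smul_apply, smul_eq_mul, mul_pow, ← Finset.mul_sum, this, mul_zero]
  · beta_reduce
    rw [Pi.smul_apply, norm_smul, Complex.norm_real, Real.norm_of_nonneg (inv_nonneg.2 h0.le),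
      inv_mul_le_iff₀ h0]
    linarith [norm_le_pi_norm (θ i) j, norm_le_pi_norm θ i]
  · simp only [mon_smul]
    have h5 := Matrix.det_mul_column (fun β : Nm o M => (((‖θ‖ + 1)⁻¹ : ℝ) : ℂ) ^ β.1.card)
      (Matrix.of fun β i : Nm o M => mon β.1 (θ i))
    simp only [Matrix.of_apply] at h5
    rw [h5]
    exact mul_ne_zero (Finset.prod_ne_zero_iff.2 fun β _ =>
      pow_ne_zero _ (Complex.ofReal_ne_zero.2 (inv_ne_zero h0.ne'))) h3

/-- `R α = (fun i => mon α (θ i)) ᵥ* V⁻¹`; by uniqueness (`V` invertible) it is the `r` of `null_red`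
when `α.card ≤ M`; `tr` since `∑ j, mon (j ::ₘ j ::ₘ α) (θ i) = 0`. -/
theorem exists_bas (hn : 2 ≤ n) (o : Fin n) (M : ℕ) : ∃ θ R, Bas o M θ R := by
  obtain ⟨θ, h1, h2, h3⟩ := exists_pts hn o M
  obtain ⟨A, hA⟩ : ∃ A, A = Matrix.of fun β i : Nm o M => mon β.1 (θ i) := ⟨_, rfl⟩
  have hu : IsUnit A.det := hA ▸ h3.isUnit
  have k : ∀ (r : Nm o M → ℂ) i, Matrix.vecMul r A i = ∑ β, r β * mon β.1 (θ i) := fun r i => by
    rw [hA]
    rfl
  have uq : ∀ α : Mi n, α.card ≤ M → ∃ r : Nm o M → ℂ,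
      Matrix.vecMul (fun i => mon α (θ i)) A⁻¹ = r ∧ (∀ β, r β ≠ 0 → β.1.card = α.card) ∧
        ∀ θ, Null θ → mon α θ = ∑ β, r β * mon β.1 θ := fun α hα => by
    obtain ⟨r, r1, r2⟩ := null_red o M α hα
    refine ⟨r, ?_, r1, r2⟩
    have e : (fun i => mon α (θ i)) = Matrix.vecMul r A := funext fun i => by
      rw [k, r2 _ (h1 i)]
    rw [e, Matrix.vecMul_vecMul, Matrix.mul_nonsing_inv _ hu, Matrix.vecMul_one]
  refine ⟨θ, fun α => Matrix.vecMul (fun i => mon α (θ i)) A⁻¹, h1, h2, h3, fun α i => ?_,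
    fun α β hα => ?_, fun α hα => ?_, fun α β => ?_⟩
  · rw [← k, Matrix.vecMul_vecMul, Matrix.nonsing_inv_mul _ hu, Matrix.vecMul_one]
  · obtain ⟨r, e, r1, -⟩ := uq α hα
    rw [e]
    exact r1 β
  · obtain ⟨r, e, -, r2⟩ := uq α hα
    rw [e]
    exact r2
  · simp only [Matrix.vecMul, dotProduct, mon_cons]
    rw [Finset.sum_comm]
    refine Finset.sum_eq_zero fun i _ => ?_
    have := h1 i
    unfold Null at this
    simp only [← mul_assoc, ← sq, ← Finset.sum_mul, this, zero_mul]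

end Vale.Agent.P088.Mo
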