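import Vale.Agent.P088F.HAlg0

/-! P088, part H: the injectivity of the symbol. -/

open MeasureTheory Set Filter Topology Metric
open scoped ContDiff FourierTransform

noncomputable section

namespace Vale.Agent.P088.Mo

open Vale.Agent.P292E

variable {n : ℕ}

/-- the bilinear product -/
def halg2Dot (u v : Fin n → ℂ) : ℂ := ∑ j, u j * v j

/-- the parametrisation of the null cone -/
def halg2Phi (e v : Fin n → ℂ) (j : Fin n) : ℂ := halg2Dot v v * e j - 2 * halg2Dot v e * v j

theorem halg2_null {e : Fin n → ℂ} (he : Null e) (v : Fin n → ℂ) : Null (halg2Phi e v) := by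
  have h : ∀ j, halg2Phi e v j ^ 2 = halg2Dot v v ^ 2 * e j ^ 2 -
      4 * halg2Dot v v * halg2Dot v e * (v j * e j) + 4 * halg2Dot v e ^ 2 * (v j * v j) :=
    fun j => by
      rw [halg2Phi]
      ring
  rw [Null] at he ⊢
  simp only [h, Finset.sum_add_distrib, Finset.sum_sub_distrib, ← Finset.mul_sum, he]
  change _ - _ * halg2Dot v e + _ * halg2Dot v v = 0
  ring

theorem halg2_dot (w e v : Fin n → ℂ) : ∑ j, w j * halg2Phi e v j =
    halg2Dot v v * halg2Dot w e - 2 * halg2Dot v e * halg2Dot v w := by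
  have h : ∀ j, w j * halg2Phi e v j =
      halg2Dot v v * (w j * e j) - 2 * halg2Dot v e * (v j * w j) := fun j => by
    rw [halg2Phi]
    ring
  simp only [h, Finset.sum_sub_distrib, ← Finset.mul_sum]
  rfl

theorem halg2_single (i : Fin n) (u : Fin n → ℂ) : halg2Dot (Pi.single i 1) u = u i := by
  simp [halg2Dot, Pi.single_apply]

theorem halg2_add (a b u : Fin n → ℂ) : halg2Dot (a + b) u = halg2Dot a u + halg2Dot b u := by
  simp [halg2Dot, add_mul, Finset.sum_add_distrib]

theorem halg2_ex (hn : 3 ≤ n) {w e : Fin n → ℂ} (hw : w ≠ 0) (he : e ≠ 0) :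
    ∃ v, ∑ j, w j * halg2Phi e v j ≠ 0 := by
  by_contra hc
  simp only [not_exists, not_not, halg2_dot] at hc
  have h1 : ∀ j, halg2Dot w e = 2 * (w j * e j) := fun j => by
    have := hc (Pi.single j 1)
    simp only [halg2_single, Pi.single_eq_same] at this
    linear_combination this
  have h2 : (n : ℂ) * halg2Dot w e = 2 * halg2Dot w e := by
    have := Finset.sum_congr (s₁ := Finset.univ) rfl fun j _ => h1 j
    rw [← Finset.mul_sum] at this
    simpa [halg2Dot] using this
  have h3 : halg2Dot w e = 0 := by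
    have h4 : (n : ℂ) - 2 ≠ 0 := by
      rw [sub_ne_zero]
      exact_mod_cast (by omega : n ≠ 2)
    exact (mul_eq_zero.1 (by linear_combination h2)).resolve_left h4
  obtain ⟨i, hi⟩ := Function.ne_iff.1 he
  obtain ⟨j, hj⟩ := Function.ne_iff.1 hw
  have hi' : e i ≠ 0 := hi
  have hj' : w j ≠ 0 := hj
  have h5 : w i = 0 := by
    have := h1 i
    rw [h3] at this
    exact (mul_eq_zero.1 (by linear_combination -this / 2)).resolve_right hi'
  have h6 : e j = 0 := by
    have := h1 j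
    rw [h3] at this
    exact (mul_eq_zero.1 (by linear_combination -this / 2)).resolve_left hj'
  have h7 := hc (Pi.single i 1 + Pi.single j 1)
  rw [h3, halg2_add _ _ e, halg2_add _ _ w] at h7
  simp only [halg2_single, h5, h6] at h7
  exact mul_ne_zero hi' hj' (by linear_combination -h7 / 2)

theorem halg2_mon {f : ℂ → Fin n → ℂ} (hf : ∀ j, Differentiable ℂ fun t => f t j) (s : Mi n) :
    Differentiable ℂ fun t => mon s (f t) := by
  induction s using Multiset.induction_on with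
  | empty => simp [mon]
  | cons j s ih =>
    have : (fun t => mon (j ::ₘ s) (f t)) = fun t => f t j * mon s (f t) := by
      funext t
      simp [mon]
    rw [this]
    exact (hf j).mul ih

theorem halg2_onto (hn : 3 ≤ n) {ϑ : Fin n → ℂ} (h : Null ϑ) :
    ∃ e v, Null e ∧ e ≠ 0 ∧ halg2Phi e v = ϑ := by
  rcases eq_or_ne ϑ 0 with rfl | h0
  · have h01 : (⟨0, by omega⟩ : Fin n) ≠ ⟨1, by omega⟩ := by simp
    refine ⟨Pi.single ⟨0, by omega⟩ 1 + Pi.single ⟨1, by omega⟩ Complex.I, 0, ?_, ?_, ?_⟩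
    · have e : ∀ j, (Pi.single (⟨0, by omega⟩ : Fin n) (1 : ℂ) +
          Pi.single (⟨1, by omega⟩ : Fin n) Complex.I : Fin n → ℂ) j ^ 2 =
          (Pi.single (⟨0, by omega⟩ : Fin n) (1 : ℂ) : Fin n → ℂ) j -
            (Pi.single (⟨1, by omega⟩ : Fin n) (1 : ℂ) : Fin n → ℂ) j := fun j => by
        simp only [Pi.add_apply, Pi.single_apply]
        split_ifs with h1 h2 h2
        · exact absurd (h1.symm.trans h2) h01
        · simp
        · simp
        · simp
      simp only [Null, e, Finset.sum_sub_distrib]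
      simp
    · intro h1
      have := congrFun h1 ⟨0, by omega⟩
      simp at this
    · funext j
      simp [halg2Phi, halg2Dot]
  · set e : Fin n → ℂ := fun j => (starRingEnd ℂ) (ϑ j) with he
    have h1 : halg2Dot ϑ e ≠ 0 := by
      have h2 : halg2Dot ϑ e = ((∑ j, Complex.normSq (ϑ j) : ℝ) : ℂ) := by
        simp [halg2Dot, he, Complex.mul_conj]
      rw [h2, Complex.ofReal_ne_zero]
      intro h3
      refine h0 (funext fun j => Complex.normSq_eq_zero.1 ?_)
      exact (Finset.sum_eq_zero_iff_of_nonneg fun j _ => Complex.normSq_nonneg _).1 h3 j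
        (Finset.mem_univ j)
    obtain ⟨c, hc⟩ := IsAlgClosed.exists_pow_nat_eq (-1 / (2 * halg2Dot ϑ e)) two_pos
    refine ⟨e, fun j => c * ϑ j, ?_, ?_, ?_⟩
    · have := congrArg (starRingEnd ℂ) h
      simpa [Null, he] using this
    · intro h2
      simp [h2, halg2Dot] at h1
    · have h2 : halg2Dot (fun j => c * ϑ j) (fun j => c * ϑ j) = 0 := by
        have h3 : ∀ j, c * ϑ j * (c * ϑ j) = c ^ 2 * ϑ j ^ 2 := fun j => by ring
        rw [Null] at h
        simp only [halg2Dot, h3, ← Finset.mul_sum, h, mul_zero]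
      have h3 : halg2Dot (fun j => c * ϑ j) e = c * halg2Dot ϑ e := by
        simp only [halg2Dot, mul_assoc, ← Finset.mul_sum]
      funext j
      rw [halg2Phi, h2, h3]
      have h4 : c ^ 2 * (2 * halg2Dot ϑ e) = -1 := by
        rw [hc]
        field_simp
      linear_combination (-ϑ j) * h4

/-- The null cone is irreducible. Let `P ϑ ≠ 0`, `ϑ` null. If `ϑ ≠ 0` put `e = conj ϑ` (null,
`e·ϑ ≠ 0`), `Φ v = (v·v) e - 2 (v·e) v` is null for every `v`, `Φ (c ϑ) = ϑ` for `c ^ 2 = -1 / (2 ϑ·e)`.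
There is `v₂` with `w·Φ v₂ ≠ 0`: if `w·e ≠ 0` take a real `v₂ ≠ 0` orthogonal to `re e`, `im e` (`3 ≤ n`);
otherwise one of `conj e`, `conj w`, their sum. On the line through `c ϑ` and `v₂` the product of two
entire functions vanishes (`AnalyticOnNhd.eq_zero_or_eq_zero_of_mul_eq_zero`): contradiction. The case
`ϑ = 0` follows by continuity along `t ↦ t ϑ₀`, `ϑ₀ ≠ 0` null. -/
theorem null_dom (hn : 3 ≤ n) {Y : Type} [Fintype Y] (α : Y → Mi n) (p : Y → ℂ) {w : Fin n → ℂ}
    (hw : w ≠ 0) (h : ∀ ϑ, Null ϑ → (∑ j, w j * ϑ j) * ∑ y, p y * mon (α y) ϑ = 0) :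
    ∀ ϑ, Null ϑ → ∑ y, p y * mon (α y) ϑ = 0 := by
  intro ϑ hϑ
  obtain ⟨e, v₁, he, he0, rfl⟩ := halg2_onto hn hϑ
  obtain ⟨v₂, hv⟩ := halg2_ex hn hw he0
  set f : ℂ → Fin n → ℂ := fun t => halg2Phi e fun j => v₁ j + t * (v₂ j - v₁ j) with hf
  have hd : ∀ j, Differentiable ℂ fun t => f t j := fun j => by
    simp only [hf, halg2Phi, halg2Dot]
    fun_prop
  have d1 : Differentiable ℂ fun t => ∑ j, w j * f t j :=
    Differentiable.fun_sum fun j _ => (hd j).const_mul _
  have d2 : Differentiable ℂ fun t => ∑ y, p y * mon (α y) (f t) :=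
    Differentiable.fun_sum fun y _ => (halg2_mon hd (α y)).const_mul _
  rcases AnalyticOnNhd.eq_zero_or_eq_zero_of_mul_eq_zero (U := univ)
    (fun t _ => d1.analyticAt t) (fun t _ => d2.analyticAt t)
    (fun t _ => h (f t) (halg2_null he _)) isPreconnected_univ with h1 | h1
  · refine absurd ?_ hv
    simpa [hf] using h1 1 (mem_univ _)
  · simpa [hf] using h1 0 (mem_univ _)

/-- If the right side vanishes then `(w·ϑ) P ϑ = 0` on the cone (`red`, `mon_cons`), so `P = 0` on the
cone (`null_dom`), so `p = 0` (`det`). The constant: minimum of a continuous positive function on the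
compact set `sphere × (sphere ∩ closed subspace)` (if empty, `p = 0` always), and homogeneity. -/
theorem sym_inj (hn : 3 ≤ n) {o : Fin n} {M : ℕ} {θ : Nm o M → Fin n → ℂ} {R : Mi n → Nm o M → ℂ}
    (hB : Bas o M θ R) : ∃ c : ℝ, 0 < c ∧ ∀ (w : Fin n → ℂ) (p : Nm o M → ℂ),
      (∀ β, p β ≠ 0 → β.1.card < M) →
      c * ‖w‖ * ‖p‖ ≤ ‖fun β' : Nm o M => ∑ β, ∑ j, R (j ::ₘ β.1) β' * w j * p β‖ := by
  set B : (Fin n → ℂ) × (Nm o M → ℂ) → Nm o M → ℂ :=
    fun x β' => ∑ β, ∑ j, R (j ::ₘ β.1) β' * x.1 j * x.2 β with hBd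
  have inj : ∀ (w : Fin n → ℂ) (p : Nm o M → ℂ), w ≠ 0 → (∀ β, p β ≠ 0 → β.1.card < M) →
      B (w, p) = 0 → p = 0 := fun w p hw hp h0 => by
    have h1 := null_dom hn (fun β : Nm o M => β.1) p hw fun ϑ hϑ => by
      have h2 : ∀ (β : Nm o M) (j : Fin n), w j * ϑ j * (p β * mon β.1 ϑ) =
          ∑ β' : Nm o M, R (j ::ₘ β.1) β' * w j * p β * mon β'.1 ϑ := fun β j => by
        rcases eq_or_ne (p β) 0 with h3 | h3
        · simp [h3]
        · have h4 := hB.red (j ::ₘ β.1) (by simpa using hp β h3) ϑ hϑ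
          have h5 : mon (j ::ₘ β.1) ϑ = ϑ j * mon β.1 ϑ := by simp [mon]
          rw [h5] at h4
          calc _ = w j * p β * (ϑ j * mon β.1 ϑ) := by ring
            _ = _ := by
              rw [h4, Finset.mul_sum]
              exact Finset.sum_congr rfl fun _ _ => by ring
      rw [Finset.sum_mul_sum, Finset.sum_comm]
      simp only [h2]
      calc _ = ∑ β' : Nm o M, B (w, p) β' * mon β'.1 ϑ := by
            simp only [hBd, Finset.sum_mul]
            exact (Finset.sum_congr rfl fun _ _ => Finset.sum_comm).trans Finset.sum_comm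
        _ = 0 := by simp [h0]
    refine Matrix.eq_zero_of_vecMul_eq_zero hB.det (funext fun i => ?_)
    simpa [Matrix.vecMul, dotProduct] using h1 (θ i) (hB.null i)
  have hBc : Continuous B := by
    simp only [hBd]
    fun_prop
  have hK : IsCompact ((sphere (0 : Fin n → ℂ) 1 ×ˢ sphere (0 : Nm o M → ℂ) 1) ∩
      {x | ∀ β, ¬β.1.card < M → x.2 β = 0}) := by
    refine ((isCompact_sphere _ _).prod (isCompact_sphere _ _)).inter_right ?_
    simp only [ofPred_forall]
    exact isClosed_iInter fun β => isClosed_iInter fun _ =>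
      isClosed_eq (by fun_prop) continuous_const
  obtain ⟨c, hc, hmin⟩ := hK.exists_forall_le' (f := fun x => ‖B x‖) (a := 0)
    hBc.norm.continuousOn fun x hx => by
      refine norm_pos_iff.2 fun h0 => ?_
      have h1 : ‖x.1‖ = 1 := by simpa using hx.1.1
      have h2 : ‖x.2‖ = 1 := by simpa using hx.1.2
      have h3 := inj x.1 x.2 (fun h => by simp [h] at h1)
        (fun β hβ => by_contra fun h => hβ (hx.2 β h)) h0
      simp [h3] at h2
  refine ⟨c, hc, fun w p hp => ?_⟩
  rcases eq_or_ne w 0 with rfl | hw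
  · simp
  rcases eq_or_ne p 0 with rfl | hp0
  · simp
  have hw' := norm_pos_iff.2 hw
  have hp' := norm_pos_iff.2 hp0
  have h1 := hmin (((‖w‖⁻¹ : ℝ) : ℂ) • w, ((‖p‖⁻¹ : ℝ) : ℂ) • p)
    ⟨⟨by simp [norm_smul, hw'.ne'], by simp [norm_smul, hp'.ne']⟩, fun β hβ => by
      have : p β = 0 := by_contra fun h => hβ (hp β h)
      simp [this]⟩
  have h2 : B (((‖w‖⁻¹ : ℝ) : ℂ) • w, ((‖p‖⁻¹ : ℝ) : ℂ) • p) =
      ((‖w‖⁻¹ * ‖p‖⁻¹ : ℝ) : ℂ) • B (w, p) := by
    funext β'
    simp only [hBd, Pi.smul_apply, smul_eq_mul, Finset.mul_sum]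
    refine Finset.sum_congr rfl fun _ _ => Finset.sum_congr rfl fun _ _ => ?_
    push_cast
    ring
  rw [h2, norm_smul, Complex.norm_real, Real.norm_of_nonneg (by positivity)] at h1
  have h3 := mul_le_mul_of_nonneg_left h1 (mul_pos hw' hp').le
  have h4 : ‖w‖ * ‖p‖ * (‖w‖⁻¹ * ‖p‖⁻¹ * ‖B (w, p)‖) = ‖B (w, p)‖ := by field_simp
  rw [h4] at h3
  linarith

end Vale.Agent.P088.Mo
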