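import Vale.Agent.P088F.HNrm2
import Vale.Agent.P088F.HAlg0

/-! P088, part H: conjugation and the principal part. -/

open MeasureTheory Set Filter Topology Metric
open scoped ContDiff FourierTransform ComplexConjugate

noncomputable section

namespace Vale.Agent.P088.Mo

open Vale.Agent.P292E

variable {n : ℕ} {τ : ℝ} {U : Set (V n)} {f : V n → ℂ} {o : Fin n} {M : ℕ}
  {θ : Nm o M → Fin n → ℂ} {R : Mi n → Nm o M → ℂ} {g g' : Nm o M → V n → ℂ}

theorem tst_conj (hf : Tst U f) : Tst U fun x => conj (f x) := by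
  refine ⟨Complex.conjCLE.contDiff.comp hf.1, hf.2.1.comp_left (g := fun z : ℂ => conj z) (map_zero _),
    (tsupport_comp_subset (g := fun z : ℂ => conj z) (map_zero _) f).trans hf.2.2⟩

theorem hcj_four (f : V n → ℂ) (ξ : V n) : 𝓕 (fun x => conj (f x)) ξ = conj (𝓕 f (-ξ)) := by
  rw [FEq_four, FEq_four, ← integral_conj]
  refine integral_congr_ae (Eventually.of_forall fun x => ?_)
  simp [FEq_e, ← Complex.exp_conj, Complex.conj_ofReal, map_ofNat]

/-- `𝓕 (conj f) ξ = conj (𝓕 f (-ξ))` (`FEq_four`, `integral_conj`) -/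
theorem nrm_conj (hτ : 1 ≤ τ) (hf : Integrable f) (s : ℕ) :
    nrm τ s (fun x => conj (f x)) ≤ nrm τ s f := by
  refine nrm_le hτ fun ξ => ?_
  rw [hcj_four, Complex.norm_conj, ← norm_neg ξ]
  exact nrm_ge hτ hf s (-ξ)

theorem pd_conj (f : V n → ℂ) (j : Fin n) (x : V n) :
    pd j (fun y => conj (f y)) x = conj (pd j f x) := by
  have h := Complex.conjCLE.comp_fderiv (f := f) (x := x)
  exact congrArg (fun L : V n →L[ℝ] ℂ => L (ee j)) h

theorem hcj_mon (α : Mi n) (ϑ : Fin n → ℂ) : conj (mon α fun j => conj (ϑ j)) = mon α ϑ := by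
  induction α using Multiset.induction_on with
  | empty => rw [mon_zero, mon_zero, map_one]
  | cons j α ih => rw [mon_cons, mon_cons, map_mul, ih, Complex.conj_conj]

/-- `red` at `conj (θ i)`, conjugate, compare with `rep` using `det` -/
theorem Bas.real (hB : Bas o M θ R) {α : Mi n} (hα : α.card ≤ M) (β : Nm o M) :
    conj (R α β) = R α β := by
  have h : Matrix.vecMul (fun β => conj (R α β) - R α β)
      (Matrix.of fun β i : Nm o M => mon β.1 (θ i)) = 0 := by
    funext i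
    have h0 : Null fun j => conj (θ i j) := by
      have h1 := congrArg conj (hB.null i)
      simpa [Null] using h1
    have h1 := congrArg conj (hB.red α hα _ h0)
    simp only [map_sum, map_mul, hcj_mon] at h1
    simp only [Matrix.vecMul, dotProduct, Matrix.of_apply, sub_mul, Finset.sum_sub_distrib,
      Pi.zero_apply]
    rw [← h1, ← hB.rep, sub_self]
  exact sub_eq_zero.1 (congrFun (Matrix.eq_zero_of_vecMul_eq_zero hB.det h) β)

theorem pr_conj (hB : Bas o M θ R) (τ : ℝ) (g : Nm o M → V n → ℂ) (β' : Nm o M) (x : V n) :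
    pr τ R (fun β y => conj (g β y)) β' x = conj (pr τ R g β' x) := by
  rw [pr, pr, map_sum]
  refine Finset.sum_congr rfl fun β _ => ?_
  split_ifs with h
  · rw [map_sum]
    refine Finset.sum_congr rfl fun j _ => ?_
    rw [map_mul, hB.real (by rw [Multiset.card_cons, h]; exact (mem_NS.1 β'.2).1), cd, cd, pd_conj,
      map_add, map_mul]
    congr 3
    split_ifs
    · exact (Complex.conj_ofReal τ).symm
    · exact (map_zero _).symm
  · exact (map_zero _).symm

theorem pr_sub (hg : ∀ β, Tst U (g β)) (hg' : ∀ β, Tst U (g' β)) (τ : ℝ) (R : Mi n → Nm o M → ℂ)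
    (β' : Nm o M) (x : V n) :
    pr τ R (fun β y => g β y - g' β y) β' x = pr τ R g β' x - pr τ R g' β' x := by
  rw [pr, pr, pr, ← Finset.sum_sub_distrib]
  refine Finset.sum_congr rfl fun β _ => ?_
  split_ifs with h
  · rw [← Finset.sum_sub_distrib]
    refine Finset.sum_congr rfl fun j _ => ?_
    have e : pd j (fun y => g β y - g' β y) x = pd j (g β) x - pd j (g' β) x := by
      rw [pd, pd, pd, fderiv_fun_sub ((hg β).1.differentiable (by simp) x)
        ((hg' β).1.differentiable (by simp) x), sub_apply]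
    rw [cd, cd, cd, e]
    ring
  · exact (sub_self _).symm

/-- `nrm_sum'`, `nrm_cmul`, `nrm_cd`; `‖R (j ::ₘ β) β'‖` is bounded by the sum of all of them -/
theorem pr_le (R : Mi n → Nm o M → ℂ) : ∃ C : ℝ, 0 ≤ C ∧ ∀ (τ X : ℝ) (s : ℕ)
    (g : Nm o M → V n → ℂ) (β' : Nm o M), 1 ≤ τ → 0 ≤ X → (∀ β, Tst (ball 0 1) (g β)) →
    (∀ β : Nm o M, β.1.card + 1 = β'.1.card → nrm τ s (g β) ≤ X) →
    nrm τ (s + 1) (pr τ R g β') ≤ C * X := by
  obtain ⟨B, hB0, hB⟩ : ∃ B : ℝ, 0 ≤ B ∧ ∀ (j : Fin n) (β β' : Nm o M), ‖R (j ::ₘ β.1) β'‖ ≤ B :=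
    ⟨∑ w : Fin n × Nm o M × Nm o M, ‖R (w.1 ::ₘ w.2.1.1) w.2.2‖,
      Finset.sum_nonneg fun _ _ => norm_nonneg _, fun j β β' =>
      Finset.single_le_sum (f := fun w : Fin n × Nm o M × Nm o M => ‖R (w.1 ::ₘ w.2.1.1) w.2.2‖)
        (fun _ _ => norm_nonneg _) (Finset.mem_univ (j, β, β'))⟩
  refine ⟨Fintype.card (Nm o M) * (Fintype.card (Fin n) * (B * 7)), by positivity,
    fun τ X s g β' hτ hX hg h => ?_⟩
  have t1 : ∀ (β : Nm o M) (j : Fin n),
      Tst (ball 0 1) fun x => R (j ::ₘ β.1) β' * cd o τ j (g β) x :=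
    fun β j => tst_cmul (cd_tst (hg β) o τ j) _
  refine (nrm_sum' (D := Fintype.card (Fin n) * (B * (7 * X))) hτ
    (F := fun (β : Nm o M) x => if β.1.card + 1 = β'.1.card then
      ∑ j, R (j ::ₘ β.1) β' * cd o τ j (g β) x else 0) (fun β => ?_) fun β => ?_).trans
    (le_of_eq (by ring))
  · split_ifs
    · exact FEq_int (FEq_sum _ (t1 β))
    · exact integrable_zero _ _ _
  · split_ifs with hc
    · refine nrm_sum' hτ (fun j => FEq_int (t1 β j)) fun j => ?_
      refine (nrm_cmul hτ (FEq_int (cd_tst (hg β) o τ j)) _ _).trans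
        (mul_le_mul (hB j β β') ((nrm_cd hτ (hg β) s o j).trans ?_) (nrm_nonneg hτ _ _) hB0)
      exact mul_le_mul_of_nonneg_left (h β hc) (by norm_num)
    · rw [nrm_zero]
      positivity

end Vale.Agent.P088.Mo
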