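import Vale.Agent.P088F.HNrm2
import Vale.Agent.P088F.HAlg2

/-! P088, part H: the symbol estimate. -/

open MeasureTheory Set Filter Topology Metric
open scoped ContDiff FourierTransform

noncomputable section

namespace Vale.Agent.P088.Mo

open Vale.Agent.P292E

variable {n : ℕ}

theorem hsym_sum {Y : Type} (t : Finset Y) {F : Y → V n → ℂ} (hF : ∀ y, Integrable (F y))
    (ξ : V n) : 𝓕 (fun x => ∑ y ∈ t, F y x) ξ = ∑ y ∈ t, 𝓕 (F y) ξ := by
  simp only [Real.fourier_eq, Finset.smul_sum]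
  exact integral_finsetSum _ fun y _ => (Real.fourierIntegral_convergent_iff ξ).2 (hF y)

theorem hsym_cmul (c : ℂ) (f : V n → ℂ) (ξ : V n) : 𝓕 (fun x => c * f x) ξ = c * 𝓕 f ξ := by
  simp only [Real.fourier_eq, Circle.smul_def, smul_eq_mul]
  rw [← integral_const_mul]
  congr 1
  funext v
  ring

theorem hsym_pr {o : Fin n} {M : ℕ} (τ : ℝ) (R : Mi n → Nm o M → ℂ) {g : Nm o M → V n → ℂ}
    (hg : ∀ β, Tst (ball 0 1) (g β)) (β' : Nm o M) (ξ : V n) :
    𝓕 (pr τ R g β') ξ = ∑ β : Nm o M, if β.1.card + 1 = β'.1.card then ∑ j, R (j ::ₘ β.1) β' *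
      ((2 * Real.pi * Complex.I * ξ j + if j = o then (τ : ℂ) else 0) * 𝓕 (g β) ξ) else 0 := by
  have h1 : ∀ (β : Nm o M) (j : Fin n), Integrable fun x => R (j ::ₘ β.1) β' * cd o τ j (g β) x :=
    fun β j => (FEq_int (cd_tst (hg β) o τ j)).const_mul _
  unfold pr
  rw [hsym_sum]
  · refine Finset.sum_congr rfl fun β _ => ?_
    split_ifs
    · rw [hsym_sum _ (h1 β)]
      refine Finset.sum_congr rfl fun j _ => ?_
      rw [hsym_cmul, four_cd (hg β)]
    · simp [Real.fourier_eq]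
  · intro β
    split_ifs
    · exact integrable_finsetSum _ fun j _ => h1 β j
    · exact integrable_zero _ _ _

theorem hsym_w (o : Fin n) {τ : ℝ} (ξ : V n) : τ + ‖ξ‖ ≤ (1 + n) *
    ‖fun j => 2 * Real.pi * Complex.I * ξ j + if j = o then (τ : ℂ) else 0‖ := by
  set w : Fin n → ℂ := fun j => 2 * Real.pi * Complex.I * ξ j + if j = o then (τ : ℂ) else 0
    with hw
  have h1 : τ ≤ ‖w‖ := by
    refine le_trans ?_ ((Complex.re_le_norm _).trans (norm_le_pi_norm w o))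
    simp [hw]
  have h2 : ∀ j, |ξ j| ≤ ‖w‖ := fun j => by
    refine le_trans ?_ ((Complex.abs_im_le_norm _).trans (norm_le_pi_norm w j))
    have e : (w j).im = 2 * Real.pi * ξ j := by
      simp only [hw]
      split_ifs <;> simp
    rw [e, abs_mul, abs_of_pos Real.two_pi_pos]
    exact le_mul_of_one_le_left (abs_nonneg _) (by linarith [Real.pi_gt_three])
  have h3 : ‖ξ‖ ≤ n * ‖w‖ := by
    have h4 : ‖ξ‖ ^ 2 ≤ n * ‖w‖ ^ 2 := by
      rw [EuclideanSpace.real_norm_sq_eq]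
      refine (Finset.sum_le_card_nsmul _ _ (‖w‖ ^ 2) fun j _ => ?_).trans_eq (by simp)
      rw [← sq_abs]
      exact pow_le_pow_left₀ (abs_nonneg _) (h2 j) 2
    have h5 : (n : ℝ) ≤ n ^ 2 := by exact_mod_cast Nat.le_self_pow two_ne_zero n
    refine (pow_le_pow_iff_left₀ (norm_nonneg _) (by positivity) two_ne_zero).1 ?_
    rw [mul_pow]
    exact h4.trans (mul_le_mul_of_nonneg_right h5 (sq_nonneg _))
  linarith

/-- Fix `ξ`; `w j = 2 π i ξ j + if j = o then τ else 0`, `τ + ‖ξ‖ ≤ (1 + n) * ‖w‖`;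
`p β = if β.1.card + 1 = k then 𝓕 (g β) ξ else 0`. The component `β'` in `sym_inj` is
`𝓕 (pr τ R g β') ξ` if `β'.1.card = k` (`four_cd`, linearity of `𝓕`) and zero otherwise (`hom`). -/
theorem sym_est (hn : 3 ≤ n) {o : Fin n} {M : ℕ} {θ : Nm o M → Fin n → ℂ} {R : Mi n → Nm o M → ℂ}
    (hB : Bas o M θ R) : ∃ C : ℝ, 0 ≤ C ∧ ∀ (τ : ℝ) (s k : ℕ) (g : Nm o M → V n → ℂ) (D : ℝ),
      1 ≤ τ → k ≤ M → 0 ≤ D → (∀ β, Tst (ball 0 1) (g β)) →
      (∀ β' : Nm o M, β'.1.card = k → nrm τ (s + 1) (pr τ R g β') ≤ D) →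
      ∀ β : Nm o M, β.1.card + 1 = k → nrm τ s (g β) ≤ C * D := by
  obtain ⟨c, hc, h⟩ := sym_inj hn hB
  refine ⟨(1 + n) / c, by positivity, fun τ s k g D hτ hk hD hg hb β hβ => nrm_le hτ fun ξ => ?_⟩
  have h0 : 0 < τ + ‖ξ‖ := by linarith [norm_nonneg ξ]
  have h1 := hsym_w o (τ := τ) ξ
  set w : Fin n → ℂ := fun j => 2 * Real.pi * Complex.I * ξ j + if j = o then (τ : ℂ) else 0
    with hw
  set p : Nm o M → ℂ := fun β => if β.1.card + 1 = k then 𝓕 (g β) ξ else 0 with hp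
  have h2 := h w p fun β hβ => by
    have : β.1.card + 1 = k := by
      by_contra h3
      exact hβ (if_neg h3)
    omega
  have h3 : ‖fun β' : Nm o M => ∑ β, ∑ j, R (j ::ₘ β.1) β' * w j * p β‖ ≤
      D * (τ + ‖ξ‖) ^ (s + 1) := by
    refine (pi_norm_le_iff_of_nonneg (by positivity)).2 fun β' => ?_
    by_cases h4 : β'.1.card = k
    · refine le_of_eq_of_le (congrArg _ ?_) ((nrm_ge hτ (FEq_int (pr_tst τ R hg β')) (s + 1) ξ).trans
        (mul_le_mul_of_nonneg_right (hb β' h4) (by positivity)))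
      rw [hsym_pr τ R hg, h4]
      refine Finset.sum_congr rfl fun β _ => ?_
      simp only [hp, hw, mul_assoc]
      split_ifs <;> simp
    · refine le_of_eq_of_le (norm_eq_zero.2 (Finset.sum_eq_zero fun β _ =>
        Finset.sum_eq_zero fun j _ => ?_)) (by positivity)
      by_cases h5 : β.1.card + 1 = k
      · have h6 : R (j ::ₘ β.1) β' = 0 := by
          by_contra h7
          have := hB.hom _ β' (by rw [Multiset.card_cons]; omega) h7
          rw [Multiset.card_cons] at this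
          omega
        rw [h6, zero_mul, zero_mul]
      · simp only [hp]
        rw [if_neg h5, mul_zero]
  have h4 : ‖𝓕 (g β) ξ‖ ≤ ‖p‖ := le_of_eq_of_le (by simp only [hp]; rw [if_pos hβ])
    (norm_le_pi_norm p β)
  refine h4.trans (le_of_mul_le_mul_left ?_ (mul_pos hc h0))
  have e : c * (τ + ‖ξ‖) * ((1 + n) / c * D * (τ + ‖ξ‖) ^ s) =
      (1 + n) * (D * (τ + ‖ξ‖) ^ (s + 1)) := by
    field_simp
    ring
  rw [e]
  calc c * (τ + ‖ξ‖) * ‖p‖ ≤ c * ((1 + n) * ‖w‖) * ‖p‖ := by gcongr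
    _ = (1 + n) * (c * ‖w‖ * ‖p‖) := by ring
    _ ≤ _ := mul_le_mul_of_nonneg_left (h2.trans h3) (by positivity)

end Vale.Agent.P088.Mo
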