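import Vale.Agent.P088F.HLev
import Vale.Agent.P088F.HSym
import Vale.Agent.P088F.HCj

/-! P088, part H: the chain of estimates. -/

open MeasureTheory Set Filter Topology Metric
open scoped ContDiff FourierTransform ComplexConjugate

noncomputable section

namespace Vale.Agent.P088.Mo

open Vale.Agent.P292E

theorem hch_half {n : ℕ} {τ : ℝ} (hτ : 1 ≤ τ) {f g : V n → ℂ} (hg : Integrable g) (s : ℕ)
    (h : ∀ x, 2 * f x = g x) : nrm τ s f ≤ nrm τ s g := by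
  have e : f = fun x => (1 / 2 : ℂ) * g x := funext fun x => by rw [← h x]; ring
  have h1 := nrm_cmul hτ hg (1 / 2 : ℂ) s
  have h2 := nrm_nonneg hτ s g
  have h3 : ‖(1 / 2 : ℂ)‖ = 1 / 2 := by simp
  rw [h3] at h1
  rw [e]
  linarith

theorem chain {n : ℕ} (hn : 3 ≤ n) (ι : Type) [Fintype ι] [DecidableEq ι] {o : Fin n} {M : ℕ}
    (hM : 2 ≤ M) (m : ℕ) (hm : 1 ≤ m) {θ : Nm o M → Fin n → ℂ} {R : Mi n → Nm o M → ℂ}
    (hB : Bas o M θ R) (C₁ : ℝ) (hC₁ : 0 ≤ C₁) : ∃ (K : ℕ) (η C : ℝ), 0 < η ∧ η ≤ 1 ∧ 0 ≤ C ∧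
    ∀ (p : Pm) (δ E : ℝ) (γ : Fin n → Fin n → V n → ℂ) (a : Fin n → ι → ι → V n → ℂ)
      (c1 : Fin n → Ji o M ι → Ji o M ι → V n → ℂ) (c0 : ι → ι → Ji o M ι → Ji o M ι → V n → ℂ)
      (z r : ι → Ji o M ι → V n → ℂ) (l₀ : ι), Ok p → p.κ ≤ η → 0 ≤ δ → δ ≤ η → 0 ≤ E →
      DN p K δ R γ a c1 c0 z r → (∀ l y, Top o p (z l y) E) →
      (∀ l y, ContDiffOn ℝ ∞ (r l y) (Om o p)) →
      (∀ l y, y.1.1.card = 0 ∨ y.1.1.card = M → nrm (m * p.N) 0 (wz o p m (z l y)) ≤ E) →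
      (∀ l y x, 3 ≤ y.1.1.card → r l y x = 0) →
      (∀ l y x, y.1.1.card = 2 → y.2 ≠ l → r l y x = 0) →
      (∀ l β x, β.1.card = 2 → r l (β, l) x = r l₀ (β, l₀) x) →
      (∀ β x, β.1.card = 2 → conj (r l₀ (β, l₀) x) = r l₀ (β, l₀) x) →
      (∀ (β : Nm o M) (X : ℝ), β.1.card = 1 →
        (∀ y, nrm (m * p.N) (M - y.1.1.card) (wz o p m (z l₀ y)) ≤ X) →
        nrm (m * p.N) (M - 1) (fun x => wz o p m (z l₀ (β, l₀)) x +
          conj (wz o p m (z l₀ (β, l₀)) x)) ≤ C₁ * (δ * X + E)) →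
      ∀ l y, nrm (m * p.N) (M - y.1.1.card + 2) (wz o p m (r l y)) ≤ C * p.N ^ 2 * E := by
  obtain ⟨K, Cl, hCl, hl⟩ := lev_est ι m hm R
  obtain ⟨Cs, hCs, hs⟩ := sym_est hn hB
  obtain ⟨Cp, hCp, hp⟩ := pr_le R
  obtain ⟨G, hG⟩ : ∃ G, G = 1 + 2 * Cs * Cl := ⟨_, rfl⟩
  have hG1 : 1 ≤ G := by rw [hG]; exact le_add_of_nonneg_right (by positivity)
  obtain ⟨H, hH⟩ : ∃ H, H = G ^ M := ⟨_, rfl⟩
  have hH1 : 1 ≤ H := by rw [hH]; exact one_le_pow₀ hG1
  obtain ⟨T, hT⟩ : ∃ T, T = H + C₁ + 4 * (Cs * (2 * Cl * H)) := ⟨_, rfl⟩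
  have hq : 0 ≤ Cs * (2 * Cl * H) := by positivity
  have hT1 : 1 ≤ T := by rw [hT]; linarith
  refine ⟨K, 1 / (4 * T), Cl * (6 * T + 1) + 2 * (Cp * (2 * T)), by positivity, ?_, by positivity, ?_⟩
  · rw [div_le_one (by positivity)]
    linarith
  intro p δ E γ a c1 c0 z r l₀ hO hκ hδ hδη hE hD hTop hr h0 r3 r2a r2b r2c hsc l y
  have hη : 1 / (4 * T) ≤ 1 := by
    rw [div_le_one (by positivity)]
    linarith
  have hτ : 1 ≤ (m : ℝ) * p.N := one_le_mul_of_one_le_of_one_le (by exact_mod_cast hm) hO.N1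
  have hN2 : 1 ≤ p.N ^ 2 := one_le_pow₀ hO.N1
  have tz : ∀ l y, Tst (ball 0 1) (wz o p m (z l y)) := fun l y => wz_tst (hD.zv l y).1 m
  have tr : ∀ l y, Tst (ball 0 1) (wz o p m (r l y)) := fun l y => wz_tst (hr l y) m
  have cM : ∀ β : Nm o M, β.1.card ≤ M := fun β => (mem_NS.1 β.2).1
  obtain ⟨w, hw⟩ := @Finite.exists_max (ι × Ji o M ι) ℝ _ ⟨(l, y)⟩ _ fun w =>
    nrm (m * p.N) (M - w.2.1.1.card) (wz o p m (z w.1 w.2))
  obtain ⟨X, hX⟩ : ∃ X, X = nrm (m * p.N) (M - w.2.1.1.card) (wz o p m (z w.1 w.2)) := ⟨_, rfl⟩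
  have hX0 : 0 ≤ X := hX ▸ nrm_nonneg hτ _ _
  have hXa : ∀ l y, nrm (m * p.N) (M - y.1.1.card) (wz o p m (z l y)) ≤ X := fun l y =>
    hX ▸ hw (l, y)
  obtain ⟨Z, hZ⟩ : ∃ Z, Z = (δ + p.κ) * X + p.N ^ 2 * E := ⟨_, rfl⟩
  have hκX : 0 ≤ p.κ * X := mul_nonneg hO.k0.le hX0
  have hδX : 0 ≤ δ * X := mul_nonneg hδ hX0
  have hEN : E ≤ p.N ^ 2 * E := le_mul_of_one_le_left hE hN2
  have hEZ : δ * X + E ≤ Z := by rw [hZ, add_mul]; linarith
  have hZ0 : 0 ≤ Z := by linarith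
  have tp : ∀ l l' β', Tst (ball 0 1) fun x => 2 * pr (m * p.N) R
      (fun β => wz o p m (z l (β, l'))) β' x + wz o p m (r l (β', l')) x := fun l l' β' =>
    FEq_add (tst_cmul (pr_tst _ R (fun β => tz l (β, l')) β') 2) (tr l (β', l'))
  have lev : ∀ (c : ℝ) (k : ℕ), 1 ≤ c → (∀ l y, k ≤ y.1.1.card →
      nrm (m * p.N) (M - y.1.1.card) (wz o p m (z l y)) ≤ c * Z) → ∀ l l' (β' : Nm o M),
      β'.1.card = k → nrm (m * p.N) (M - k + 2) (fun x => 2 * pr (m * p.N) R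
        (fun β => wz o p m (z l (β, l'))) β' x + wz o p m (r l (β', l')) x) ≤ 2 * Cl * c * Z := by
    intro c k hc h l l' β' hk
    have h1 := hl p δ E X (c * Z) γ a c1 c0 z r l (β', l') hO hδ (hδη.trans hη) hE hD hTop hXa
      fun l y hy => h l y (hk ▸ hy)
    simp only [hk] at h1
    refine h1.trans ?_
    have h2 : Z ≤ c * Z := le_mul_of_one_le_left hZ0 hc
    rw [add_assoc, ← hZ, show 2 * Cl * c * Z = Cl * (c * Z + c * Z) by ring]
    exact mul_le_mul_of_nonneg_left (by linarith) hCl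
  have ind : ∀ d, d + 2 ≤ M → ∀ l y, M - d ≤ y.1.1.card →
      nrm (m * p.N) (M - y.1.1.card) (wz o p m (z l y)) ≤ G ^ d * Z := by
    intro d
    induction d with
    | zero =>
      intro _ l y hy
      have e : y.1.1.card = M := le_antisymm (cM _) hy
      rw [e, Nat.sub_self, pow_zero, one_mul]
      linarith [h0 l y (Or.inr e)]
    | succ d ih =>
      intro hd l y hy
      have ih' := ih (by omega)
      have hGd : 1 ≤ G ^ d := one_le_pow₀ hG1
      have hz : 0 ≤ G ^ d * Z := by positivity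
      rw [pow_succ, mul_right_comm]
      by_cases h : M - d ≤ y.1.1.card
      · exact (ih' l y h).trans (le_mul_of_one_le_right hz hG1)
      have h1 := hs (m * p.N) (M - y.1.1.card) (M - d) (fun β => wz o p m (z l (β, y.2)))
        (2 * Cl * G ^ d * Z) hτ (Nat.sub_le _ _) (by positivity) (fun β => tz _ _)
        (fun β' hβ' => ?_) y.1 (by omega)
      · refine h1.trans ?_
        have e : G ^ d * Z * G = G ^ d * Z + Cs * (2 * Cl * G ^ d * Z) := by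
          rw [show G ^ d * Z * G = G ^ d * Z * (1 + 2 * Cs * Cl) by rw [← hG]]
          ring
        linarith
      · have h2 := lev _ _ hGd ih' l y.2 β' hβ'
        rw [show M - (M - d) + 2 = M - y.1.1.card + 1 by omega] at h2
        refine (hch_half hτ (FEq_int (tp l y.2 β')) _ fun x => ?_).trans h2
        rw [wz, r3 l (β', y.2) x (by simp only [hβ']; omega), mul_zero, add_zero]
  have up : ∀ l y, 2 ≤ y.1.1.card →
      nrm (m * p.N) (M - y.1.1.card) (wz o p m (z l y)) ≤ H * Z := fun l y hy =>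
    (ind (M - 2) (by omega) l y (by omega)).trans (mul_le_mul_of_nonneg_right
      (hH ▸ pow_le_pow_right₀ hG1 (Nat.sub_le _ _)) hZ0)
  have two := lev H 2 hH1 up
  rw [show M - 2 + 2 = M - 1 + 1 by omega] at two
  have hD0 : 0 ≤ 2 * Cl * H * Z := by positivity
  have s2 : ∀ (g : Nm o M → V n → ℂ) (D : ℝ), 0 ≤ D → (∀ β, Tst (ball 0 1) (g β)) →
      (∀ β' : Nm o M, β'.1.card = 2 → nrm (m * p.N) (M - 1 + 1) (pr (m * p.N) R g β') ≤ D) →
      ∀ β : Nm o M, β.1.card = 1 → nrm (m * p.N) (M - 1) (g β) ≤ Cs * D :=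
    fun g D h1 h2 h3 β hβ => hs _ _ 2 g D hτ hM h1 h2 h3 β (by omega)
  have off : ∀ l l' (β : Nm o M), l' ≠ l → β.1.card = 1 →
      nrm (m * p.N) (M - 1) (wz o p m (z l (β, l'))) ≤ Cs * (2 * Cl * H * Z) := by
    intro l l' β hne hβ
    refine s2 (fun β => wz o p m (z l (β, l'))) _ hD0 (fun β => tz _ _) (fun β' hβ' => ?_) β hβ
    refine (hch_half hτ (FEq_int (tp l l' β')) _ fun x => ?_).trans (two l l' β' hβ')
    rw [wz, r2a l (β', l') x hβ' hne, mul_zero, add_zero]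
  have dif : ∀ l (β : Nm o M), β.1.card = 1 → nrm (m * p.N) (M - 1)
      (fun x => wz o p m (z l (β, l)) x - wz o p m (z l₀ (β, l₀)) x) ≤
      Cs * (2 * Cl * H * Z + 2 * Cl * H * Z) := by
    intro l β hβ
    refine s2 (fun β x => wz o p m (z l (β, l)) x - wz o p m (z l₀ (β, l₀)) x) _ (by positivity)
      (fun β => tst_sub (tz _ _) (tz _ _)) (fun β' hβ' => ?_) β hβ
    refine (hch_half hτ (FEq_int (tst_sub (tp l l β') (tp l₀ l₀ β'))) _ fun x => ?_).trans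
      ((nrm_sub hτ (FEq_int (tp l l β')) (FEq_int (tp l₀ l₀ β')) _).trans
        (add_le_add (two l l β' hβ') (two l₀ l₀ β' hβ')))
    rw [pr_sub (fun β => tz l (β, l)) (fun β => tz l₀ (β, l₀)), wz, wz, r2b l β' x hβ']
    ring
  have ima : ∀ β : Nm o M, β.1.card = 1 → nrm (m * p.N) (M - 1)
      (fun x => wz o p m (z l₀ (β, l₀)) x - conj (wz o p m (z l₀ (β, l₀)) x)) ≤
      Cs * (2 * Cl * H * Z + 2 * Cl * H * Z) := by
    intro β hβ
    refine s2 (fun β x => wz o p m (z l₀ (β, l₀)) x - conj (wz o p m (z l₀ (β, l₀)) x)) _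
      (by positivity) (fun β => tst_sub (tz _ _) (tst_conj (tz _ _))) (fun β' hβ' => ?_) β hβ
    have t := tp l₀ l₀ β'
    refine (hch_half hτ (FEq_int (tst_sub t (tst_conj t))) _ fun x => ?_).trans
      ((nrm_sub hτ (FEq_int t) (FEq_int (tst_conj t)) _).trans (add_le_add (two l₀ l₀ β' hβ')
        ((nrm_conj hτ (FEq_int t) _).trans (two l₀ l₀ β' hβ'))))
    rw [pr_sub (fun β => tz l₀ (β, l₀)) (fun β => tst_conj (tz l₀ (β, l₀))),
      pr_conj hB _ (fun β => wz o p m (z l₀ (β, l₀))), map_add, map_mul, wz, map_mul,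
      r2c β' x hβ', om, Complex.conj_ofReal, map_ofNat]
    ring
  have hC : C₁ * (δ * X + E) ≤ C₁ * Z := mul_le_mul_of_nonneg_left hEZ hC₁
  obtain ⟨Q, hQ⟩ : ∃ Q, Q = Cs * (2 * Cl * H * Z) := ⟨_, rfl⟩
  have hqZ : 0 ≤ Q := hQ ▸ mul_nonneg hCs hD0
  simp only [mul_add Cs, ← hQ] at off dif ima
  have hCZ : 0 ≤ C₁ * Z := mul_nonneg hC₁ hZ0
  have hHZ : Z ≤ H * Z := le_mul_of_one_le_left hZ0 hH1
  have dia : ∀ β : Nm o M, β.1.card = 1 → nrm (m * p.N) (M - 1) (wz o p m (z l₀ (β, l₀))) ≤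
      C₁ * Z + 2 * Q := by
    intro β hβ
    have t := tz l₀ (β, l₀)
    have t1 := FEq_add t (tst_conj t)
    have t2 := tst_sub t (tst_conj t)
    have h1 := (hch_half (f := wz o p m (z l₀ (β, l₀))) hτ (FEq_int (FEq_add t1 t2)) (M - 1)
      fun x => by ring).trans (nrm_add hτ (FEq_int t1) (FEq_int t2) _)
    have h2 := hsc β X hβ (hXa l₀)
    have h3 := ima β hβ
    linarith
  have all : X ≤ T * Z := by
    rw [show T * Z = H * Z + C₁ * Z + 4 * Q by rw [hT, hQ]; ring]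
    obtain ⟨l, β, l'⟩ := w
    simp only at hX
    rcases (by omega : β.1.card = 0 ∨ β.1.card = 1 ∨ 2 ≤ β.1.card) with h | h | h
    · have h1 := (nrm_mono hτ (FEq_int (tz l (β, l'))) (Nat.zero_le (M - β.1.card))).trans
        (h0 l (β, l') (Or.inl h))
      linarith
    · rw [h] at hX
      by_cases e : l' = l
      · subst e
        have t := tz l₀ (β, l₀)
        have t1 := tst_sub (tz l' (β, l')) t
        have h1 := nrm_add hτ (FEq_int t1) (FEq_int t) (M - 1)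
        simp only [sub_add_cancel] at h1
        have h2 := dif l' β h
        have h3 := dia β h
        have h4 : X ≤ _ := hX.le.trans h1
        linarith
      · have h1 := off l l' β e h
        linarith
    · have h1 : X ≤ _ := hX.le.trans (up l (β, l') h)
      linarith
  have hX2 : X ≤ 2 * T * (p.N ^ 2 * E) := by
    have h1 : T * (δ + p.κ) ≤ 1 / 2 := by
      have h2 : T * (1 / (4 * T)) = 1 / 4 := by field_simp
      have h3 := mul_le_mul_of_nonneg_left (add_le_add hδη hκ) (zero_le_one.trans hT1)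
      rw [mul_add T (1 / (4 * T)), h2] at h3
      linarith
    have h2 := mul_le_mul_of_nonneg_right h1 hX0
    rw [hZ, mul_add, ← mul_assoc] at all
    linarith
  have h1 := hl p δ E X X γ a c1 c0 z r l y hO hδ (hδη.trans hη) hE hD hTop hXa
    fun l y _ => hXa l y
  have h2 := hp (m * p.N) X (M - y.1.1.card + 1) (fun β => wz o p m (z l (β, y.2))) y.1 hτ hX0
    (fun β => tz _ _) fun β hβ => by
      have := hXa l (β, y.2)
      have := cM y.1
      rwa [show M - y.1.1.card + 1 = M - β.1.card by omega]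
  have t := pr_tst (m * p.N) R (fun β => tz l (β, y.2)) y.1
  have h3 := nrm_sub hτ (FEq_int (tp l y.2 y.1)) (FEq_int (tst_cmul t 2)) (M - y.1.1.card + 2)
  have h4 := nrm_cmul hτ (FEq_int t) 2 (M - y.1.1.card + 2)
  simp only [add_sub_cancel_left] at h3
  have h5 : (δ + p.κ) * X ≤ 2 * X :=
    mul_le_mul_of_nonneg_right (by linarith [hδη.trans hη, hκ.trans hη]) hX0
  have h6 : Cl * (X + (δ + p.κ) * X + p.N ^ 2 * E) ≤ Cl * ((6 * T + 1) * (p.N ^ 2 * E)) :=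
    mul_le_mul_of_nonneg_left (by linarith) hCl
  have h7 : Cp * X ≤ Cp * (2 * T * (p.N ^ 2 * E)) := mul_le_mul_of_nonneg_left hX2 hCp
  rw [Complex.norm_ofNat] at h4
  have h8 : nrm (m * p.N) (M - y.1.1.card + 2) (wz o p m (r l y)) ≤ _ := h3
  have h9 : (Cl * (6 * T + 1) + 2 * (Cp * (2 * T))) * p.N ^ 2 * E =
      Cl * ((6 * T + 1) * (p.N ^ 2 * E)) + 2 * (Cp * (2 * T * (p.N ^ 2 * E))) := by ring
  linarith

end Vale.Agent.P088.Mo
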