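import Vale.Agent.P088F.HW0

/-! P088, part H: the domain is connected. -/

open MeasureTheory Set Filter Topology Metric
open scoped ContDiff FourierTransform

noncomputable section

namespace Vale.Agent.P088.Mo

open Vale.Agent.P292E

variable {n : ℕ} {o : Fin n} {p : Pm} {m : ℕ} {x : V n} {z : V n → ℂ}

theorem hconn_mem {w : V n} (hw : w o = 0) (r : ℝ) : w + r • ee o ∈ Om o p ↔
    ‖w‖ ^ 2 + r ^ 2 < 1 ∧ 1 < p.N * (p.a - (r + p.κ * (‖w‖ ^ 2 - 3 * r ^ 2))) := by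
  have h1 : ‖w + r • ee o‖ ^ 2 = ‖w‖ ^ 2 + r ^ 2 := by
    simp [norm_add_sq_real, ee, inner_smul_right, EuclideanSpace.inner_single_right, hw, norm_smul]
  have h2 : (w + r • ee o) o = r := by simp [ee, hw]
  rw [Om, mem_ofPred_eq, tt, psi, h2, ← sq_lt_one_iff₀ (norm_nonneg _), h1]
  refine and_congr_right fun _ => ?_
  ring_nf

theorem hconn_ax (r : ℝ) : r • ee o ∈ Om o p ↔
    r ^ 2 < 1 ∧ 1 < p.N * (p.a - (r - 3 * p.κ * r ^ 2)) := by
  have h := hconn_mem (o := o) (p := p) (w := 0) rfl r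
  rw [zero_add, norm_zero] at h
  rw [h]
  ring_nf

theorem hconn_le (hp : Ok p) {r r' : ℝ} (h : r ≤ r') (h1 : -1 < r) (h2 : r' • ee o ∈ Om o p) :
    r • ee o ∈ Om o p := by
  rw [hconn_ax, sq_lt_one_iff_abs_lt_one, abs_lt] at h2 ⊢
  refine ⟨⟨h1, h.trans_lt h2.1.2⟩, h2.2.trans_le (mul_le_mul_of_nonneg_left ?_
    (zero_le_one.trans hp.N1))⟩
  have h3 : p.κ * (r + r') ≤ p.κ * 2 := mul_le_mul_of_nonneg_left (by linarith [h2.1.2]) hp.k0.le
  nlinarith [mul_nonneg (sub_nonneg.2 h) (show 0 ≤ 1 - 3 * (p.κ * (r + r')) by linarith [hp.k1])]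

/-- every point is joined inside `Om` to `-(1/2) • ee o`: first shrink the horizontal part (the norm and
`psi` decrease), then move along the axis, where `s ↦ s - 3 κ s ^ 2` is increasing on `[-1, 1]` and the
point `-(1/2) • ee o` has `psi < -1/2` (`isPreconnected_of_forall`, union of two segments). -/
theorem Om_conn (hp : Ok p) (hN : 2 ≤ p.N) :
    IsPreconnected (Om o p) ∧ (-(1 / 2 : ℝ)) • ee o ∈ Om o p := by
  have h0 : (-(1 / 2 : ℝ)) • ee o ∈ Om o p := by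
    rw [hconn_ax]
    exact ⟨by norm_num, by nlinarith [hp.k0, hp.a0]⟩
  refine ⟨isPreconnected_of_forall ((-(1 / 2 : ℝ)) • ee o) fun x hx => ?_, h0⟩
  obtain ⟨w, hw⟩ : ∃ w, w = x - x o • ee o := ⟨_, rfl⟩
  have h1 : w o = 0 := by simp [hw, ee]
  have e : w + x o • ee o = x := by rw [hw, sub_add_cancel]
  have h2 := (hconn_mem h1 _).1 (e ▸ hx)
  have h3 : ∀ t ∈ Icc (0 : ℝ) 1, t • w + x o • ee o ∈ Om o p := fun t ht => by
    have h4 : ‖t • w‖ ^ 2 ≤ ‖w‖ ^ 2 := by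
      rw [norm_smul, Real.norm_of_nonneg ht.1]
      exact pow_le_pow_left₀ (mul_nonneg ht.1 (norm_nonneg _))
        (mul_le_of_le_one_left (norm_nonneg _) ht.2) 2
    rw [hconn_mem (by simp [h1])]
    exact ⟨by linarith [h2.1], h2.2.trans_le (mul_le_mul_of_nonneg_left
      (by linarith [mul_le_mul_of_nonneg_left h4 hp.k0.le]) (zero_le_one.trans hp.N1))⟩
  have h5 : x o • ee o ∈ Om o p := by simpa using h3 0 ⟨le_rfl, zero_le_one⟩
  refine ⟨(fun t : ℝ => t • w + x o • ee o) '' Icc 0 1 ∪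
    (fun r : ℝ => r • ee o) '' uIcc (x o) (-(1 / 2)), ?_, Or.inr ⟨_, right_mem_uIcc, rfl⟩,
    Or.inl ⟨1, ⟨zero_le_one, le_rfl⟩, by simpa using e⟩, IsPreconnected.union (x o • ee o)
      ⟨0, ⟨le_rfl, zero_le_one⟩, by simp⟩ ⟨_, left_mem_uIcc, rfl⟩
      (isPreconnected_Icc.image _ (by fun_prop)) (isPreconnected_uIcc.image _ (by fun_prop))⟩
  rintro _ (⟨t, ht, rfl⟩ | ⟨r, hr, rfl⟩)
  · exact h3 t ht
  · have h6 := (abs_lt.1 ((sq_lt_one_iff_abs_lt_one _).1 ((hconn_ax _).1 h5).1)).1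
    rcases mem_uIcc.1 hr with h | h
    · exact hconn_le hp h.2 (h6.trans_le h.1) h0
    · exact hconn_le hp h.2 (by linarith [h.1]) h5

end Vale.Agent.P088.Mo
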