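import Vale.Agent.P088F.HDefs
import Vale.Agent.P292E.Sys

/-! P088, part H: calculus of iterated derivatives. -/

open MeasureTheory Set Filter Topology Metric
open scoped ContDiff FourierTransform

noncomputable section

namespace Vale.Agent.P088.Mo

open Vale.Agent.P292E

variable {n : ℕ} {ι : Type} {s : Set (V n)} {f g : V n → ℂ}

theorem dl_smooth (hs : IsOpen s) (hf : ContDiffOn ℝ ∞ f s) (l : List (Fin n)) :
    ContDiffOn ℝ ∞ (dl l f) s := by
  induction l with
  | nil => exact hf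
  | cons j l ih => exact contDiffOn_pd hs ih j

theorem pd_congr (hs : IsOpen s) (h : EqOn f g s) (j : Fin n) : EqOn (pd j f) (pd j g) s := by
  intro x hx
  unfold pd
  rw [(h.eventuallyEq_of_mem (hs.mem_nhds hx)).fderiv_eq]

theorem dl_congr (hs : IsOpen s) (h : EqOn f g s) (l : List (Fin n)) :
    EqOn (dl l f) (dl l g) s := by
  induction l with
  | nil => exact h
  | cons j l ih => exact pd_congr hs ih j

theorem hd_diff {F : Type} [NormedAddCommGroup F] [NormedSpace ℝ F] {f : V n → F} (hs : IsOpen s)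
    (hf : ContDiffOn ℝ ∞ f s) {x : V n} (hx : x ∈ s) : DifferentiableAt ℝ f x :=
  (hf.contDiffAt (hs.mem_nhds hx)).differentiableAt (by simp)

/-- `ContDiffAt.isSymmSndFDerivAt` -/
theorem pd_swap (hs : IsOpen s) (hf : ContDiffOn ℝ ∞ f s) (j k : Fin n) :
    EqOn (pd j (pd k f)) (pd k (pd j f)) s := by
  intro x hx
  have h1 : ∀ p q, pd p (pd q f) x = fderiv ℝ (fderiv ℝ f) x (ee p) (ee q) := fun p q => by
    have h2 := (hd_diff hs (BdC_fderiv hs hf) hx).hasFDerivAt.clm_apply
      (hasFDerivAt_const (ee q) x)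
    rw [pd, show pd q f = fun y => fderiv ℝ f y (ee q) from rfl, h2.fderiv]
    simp
  rw [h1, h1]
  exact ((BdC_at hs hf hx 2).isSymmSndFDerivAt (by simp)).eq _ _

/-- induction on the permutation -/
theorem dl_perm (hs : IsOpen s) (hf : ContDiffOn ℝ ∞ f s) {l l' : List (Fin n)} (h : l.Perm l') :
    EqOn (dl l f) (dl l' f) s := by
  induction h with
  | nil => exact fun _ _ => rfl
  | cons j _ ih => exact pd_congr hs ih j
  | swap j k l => exact pd_swap hs (dl_smooth hs hf l) k j
  | trans _ _ ih ih' => exact ih.trans ih'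

theorem dM_zero (f : V n → ℂ) : dM 0 f = f := by
  rw [dM, Multiset.toList_zero]
  rfl

theorem dM_smooth (hs : IsOpen s) (hf : ContDiffOn ℝ ∞ f s) (α : Mi n) :
    ContDiffOn ℝ ∞ (dM α f) s := by
  exact dl_smooth hs hf _

theorem dM_congr (hs : IsOpen s) (h : EqOn f g s) (α : Mi n) : EqOn (dM α f) (dM α g) s := by
  exact dl_congr hs h _

theorem dM_coe (hs : IsOpen s) (hf : ContDiffOn ℝ ∞ f s) (l : List (Fin n)) :
    EqOn (dM (l : Mi n) f) (dl l f) s := by
  exact dl_perm hs hf (Multiset.coe_eq_coe.1 (Multiset.coe_toList _))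

theorem dM_cons (hs : IsOpen s) (hf : ContDiffOn ℝ ∞ f s) (j : Fin n) (α : Mi n) :
    EqOn (dM (j ::ₘ α) f) (pd j (dM α f)) s := by
  have h : (j ::ₘ α).toList.Perm (j :: α.toList) := Multiset.coe_eq_coe.1 (by
    rw [Multiset.coe_toList, ← Multiset.cons_coe, Multiset.coe_toList])
  exact dl_perm hs hf h

theorem hd_append (l : List (Fin n)) (j : Fin n) (f : V n → ℂ) :
    dl (l ++ [j]) f = dl l (pd j f) := by
  induction l with
  | nil => rfl
  | cons k l ih => exact congrArg (pd k) ih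

/-- `dl (l ++ [j]) f = dl l (pd j f)` -/
theorem dM_cons' (hs : IsOpen s) (hf : ContDiffOn ℝ ∞ f s) (j : Fin n) (α : Mi n) :
    EqOn (dM (j ::ₘ α) f) (dM α (pd j f)) s := by
  have h : (j ::ₘ α).toList.Perm (j :: α.toList) := Multiset.coe_eq_coe.1 (by
    rw [Multiset.coe_toList, ← Multiset.cons_coe, Multiset.coe_toList])
  have h1 := dl_perm hs hf (h.trans (List.perm_append_singleton j _).symm)
  rwa [hd_append] at h1

theorem hd_Bd (hs : IsOpen s) (hf : ContDiffOn ℝ ∞ f s) {B : ℝ} (l : List (Fin n)) :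
    ∀ K, Bd (K + l.length) f s B → Bd K (dl l f) s B := by
  induction l with
  | nil => exact fun K h => h
  | cons j l ih =>
    intro K h
    refine Bd.pd hs (dl_smooth hs hf l) (ih (K + 1) ?_) j
    rwa [List.length_cons, add_comm l.length, ← add_assoc] at h

theorem dM_Bd (hs : IsOpen s) (hf : ContDiffOn ℝ ∞ f s) {K : ℕ} {B : ℝ} (α : Mi n)
    (h : Bd (K + α.card) f s B) : Bd K (dM α f) s B := by
  exact hd_Bd hs hf _ K (by rwa [Multiset.length_toList])

theorem hd_add (hs : IsOpen s) (hf : ContDiffOn ℝ ∞ f s) (hg : ContDiffOn ℝ ∞ g s)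
    (l : List (Fin n)) : EqOn (dl l fun x => f x + g x) (fun x => dl l f x + dl l g x) s := by
  induction l with
  | nil => exact fun _ _ => rfl
  | cons j l ih =>
    refine (pd_congr hs ih j).trans fun x hx => ?_
    rw [pd, fderiv_fun_add (hd_diff hs (dl_smooth hs hf l) hx) (hd_diff hs (dl_smooth hs hg l) hx)]
    rfl

theorem hd_cmul (hs : IsOpen s) (hf : ContDiffOn ℝ ∞ f s) (c : ℂ) (l : List (Fin n)) :
    EqOn (dl l fun x => c * f x) (fun x => c * dl l f x) s := by
  induction l with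
  | nil => exact fun _ _ => rfl
  | cons j l ih =>
    refine (pd_congr hs ih j).trans fun x hx => ?_
    rw [pd, fderiv_const_mul (hd_diff hs (dl_smooth hs hf l) hx)]
    rfl

theorem dM_add (hs : IsOpen s) (hf : ContDiffOn ℝ ∞ f s) (hg : ContDiffOn ℝ ∞ g s) (α : Mi n) :
    EqOn (dM α fun x => f x + g x) (fun x => dM α f x + dM α g x) s := by
  exact hd_add hs hf hg _

theorem dM_cmul (hs : IsOpen s) (hf : ContDiffOn ℝ ∞ f s) (c : ℂ) (α : Mi n) :
    EqOn (dM α fun x => c * f x) (fun x => c * dM α f x) s := by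
  exact hd_cmul hs hf c _

theorem dM_sub (hs : IsOpen s) (hf : ContDiffOn ℝ ∞ f s) (hg : ContDiffOn ℝ ∞ g s) (α : Mi n) :
    EqOn (dM α fun x => f x - g x) (fun x => dM α f x - dM α g x) s := by
  intro x hx
  have e : (fun x => f x - g x) = fun x => f x + -1 * g x := funext fun x => by ring
  rw [e, dM_add hs hf (contDiffOn_const.mul hg) α hx]
  simp only [dM_cmul hs hg (-1) α hx]
  ring

theorem hd_const (l : List (Fin n)) (c : ℂ) :
    dl l (fun _ => c) = fun _ => if l = [] then c else 0 := by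
  induction l with
  | nil => rfl
  | cons j l ih =>
    funext x
    rw [dl, ih, if_neg (List.cons_ne_nil j l), pd]
    simp

theorem dM_sum {Y : Type} (t : Finset Y) {F : Y → V n → ℂ} (hs : IsOpen s)
    (hF : ∀ y, ContDiffOn ℝ ∞ (F y) s) (α : Mi n) :
    EqOn (dM α fun x => ∑ y ∈ t, F y x) (fun x => ∑ y ∈ t, dM α (F y) x) s := by
  classical
  induction t using Finset.induction_on with
  | empty =>
    intro x _
    simp only [Finset.sum_empty, dM, hd_const, ite_self]
  | insert y t hy ih =>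
    intro x hx
    simp only [Finset.sum_insert hy]
    rw [dM_add hs (hF y) (ContDiffOn.sum fun y _ => hF y) α hx]
    simp only [ih hx]

theorem dM_const (c : ℂ) (α : Mi n) (x : V n) :
    dM α (fun _ => c) x = if α = 0 then c else 0 := by
  simp only [dM, hd_const, Multiset.toList_eq_nil]

/-- the exponent -/
def hd_L (θ : Fin n → ℂ) : V n →L[ℝ] ℂ :=
  ∑ j, (EuclideanSpace.proj j : V n →L[ℝ] ℝ).smulRight (θ j)

theorem hd_L_apply (θ : Fin n → ℂ) (x : V n) : hd_L θ x = ∑ j, θ j * x j := by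
  simp [hd_L, mul_comm]

theorem hd_ex (θ : Fin n → ℂ) : ex θ = fun x => Complex.exp (hd_L θ x) :=
  funext fun x => by rw [hd_L_apply, ex]

theorem ex_smooth (θ : Fin n → ℂ) : ContDiff ℝ ∞ (ex θ) := by
  rw [hd_ex]
  exact (hd_L θ).contDiff.cexp

theorem pd_ex (θ : Fin n → ℂ) (j : Fin n) : pd j (ex θ) = fun x => θ j * ex θ x := by
  funext x
  have h : hd_L θ (ee j) = θ j := by
    rw [hd_L_apply, Finset.sum_eq_single j (fun k _ hk => by simp [ee, hk]) (by simp)]
    simp [ee]
  rw [hd_ex, pd, ((hd_L θ).hasFDerivAt (x := x)).cexp.fderiv]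
  simp [h, mul_comm]

theorem dM_ex (θ : Fin n → ℂ) (α : Mi n) : dM α (ex θ) = fun x => mon α θ * ex θ x := by
  have h : ∀ l : List (Fin n), dl l (ex θ) = fun x => (l.map θ).prod * ex θ x := by
    intro l
    induction l with
    | nil => funext x; simp [dl]
    | cons j l ih =>
      funext x
      rw [dl, ih, pd, fderiv_const_mul ((ex_smooth θ).differentiable (by simp) x)]
      have h1 : fderiv ℝ (ex θ) x (ee j) = θ j * ex θ x := congrFun (pd_ex θ j) x
      simp only [smul_apply, h1, smul_eq_mul, List.map_cons, List.prod_cons]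
      ring
  have e : mon α θ = (α.toList.map θ).prod := by
    rw [mon, ← Multiset.prod_coe, ← Multiset.map_coe, Multiset.coe_toList]
  rw [dM, h, e]

/-- `ex θ = exp ∘ L`, `‖L‖ ≤ n`; `ContinuousLinearMap.iteratedFDeriv_comp_right`, or induction on
`K` with `fderiv (ex θ) x = ex θ x • L` and `Bd.clm` -/
theorem ex_Bd (n K : ℕ) : ∃ C : ℝ, 0 ≤ C ∧ ∀ θ : Fin n → ℂ, (∀ j, ‖θ j‖ ≤ 1) →
    Bd K (ex θ) (ball 0 3) C := by
  have hc : ContDiff ℝ ∞ Complex.exp := Complex.contDiff_exp
  have h : ∀ i : ℕ, ∃ C, ∀ z ∈ closedBall (0 : ℂ) (n * 3), ‖iteratedFDeriv ℝ i Complex.exp z‖ ≤ C :=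
    fun i => (isCompact_closedBall _ _).exists_bound_of_continuousOn
      (hc.continuous_iteratedFDeriv (BdC_le i)).continuousOn
  choose C hC using h
  refine ⟨∑ i ∈ Finset.range (K + 1), |C i| * n ^ i,
    Finset.sum_nonneg fun i _ => by positivity, fun θ hθ i hi x hx => ?_⟩
  have hL : ‖hd_L θ‖ ≤ n := by
    refine ContinuousLinearMap.opNorm_le_bound _ (Nat.cast_nonneg n) fun y => ?_
    rw [hd_L_apply]
    refine (norm_sum_le _ _).trans ((Finset.sum_le_card_nsmul _ _ ‖y‖ fun j _ => ?_).trans ?_)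
    · rw [norm_mul, Complex.norm_real]
      exact (mul_le_of_le_one_left (norm_nonneg _) (hθ j)).trans (PiLp.norm_apply_le y j)
    · simp
  have hx' : hd_L θ x ∈ closedBall (0 : ℂ) (n * 3) := by
    rw [mem_closedBall_zero_iff]
    exact ((hd_L θ).le_opNorm x).trans
      (mul_le_mul hL (mem_ball_zero_iff.1 hx).le (norm_nonneg _) (Nat.cast_nonneg n))
  rw [hd_ex, show (fun x => Complex.exp (hd_L θ x)) = Complex.exp ∘ hd_L θ from rfl,
    (hd_L θ).iteratedFDeriv_comp_right hc x (BdC_le i)]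
  refine (ContinuousMultilinearMap.norm_compContinuousLinearMap_le _ _).trans (le_trans ?_
    (Finset.single_le_sum (f := fun i => |C i| * (n : ℝ) ^ i) (fun i _ => by positivity)
      (Finset.mem_range.2 (Nat.lt_succ_of_le hi))))
  rw [Finset.prod_const, Finset.card_univ, Fintype.card_fin]
  exact mul_le_mul ((hC i _ hx').trans (le_abs_self _)) (pow_le_pow_left₀ (norm_nonneg _) hL i)
    (by positivity) (abs_nonneg _)

variable [Fintype ι] {γ : Fin n → Fin n → V n → ℂ} {a : Fin n → ι → ι → V n → ℂ} {u v : Fa ι n}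

theorem So.add (hu : So γ a u) (hv : So γ a v) : So γ a (u + v) := by
  refine ⟨fun l => (hu.1 l).add (hv.1 l), fun l x hx => ?_⟩
  have h1 : ∀ j k, pd j (pd k ((u + v) l)) x = pd j (pd k (u l)) x + pd j (pd k (v l)) x :=
    fun j k => hd_add isOpen_ball (hu.1 l) (hv.1 l) [j, k] hx
  have h2 : ∀ j m, pd j ((u + v) m) x = pd j (u m) x + pd j (v m) x :=
    fun j m => hd_add isOpen_ball (hu.1 m) (hv.1 m) [j] hx
  have h3 := hu.2 l x hx
  have h4 := hv.2 l x hx
  simp only [Lo, h1, h2, mul_add, Finset.sum_add_distrib] at h3 h4 ⊢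
  linear_combination h3 + h4

theorem So.smul (c : ℂ) (hu : So γ a u) : So γ a (c • u) := by
  refine ⟨fun l => contDiffOn_const.mul (hu.1 l), fun l x hx => ?_⟩
  have h1 : ∀ j k, pd j (pd k ((c • u) l)) x = c * pd j (pd k (u l)) x :=
    fun j k => hd_cmul isOpen_ball (hu.1 l) c [j, k] hx
  have h2 : ∀ j m, pd j ((c • u) m) x = c * pd j (u m) x :=
    fun j m => hd_cmul isOpen_ball (hu.1 m) c [j] hx
  have h3 := hu.2 l x hx
  simp only [Lo, h1, h2, mul_left_comm _ c, ← Finset.mul_sum] at h3 ⊢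
  linear_combination c * h3

theorem so_const (c : ι → ℂ) : So γ a fun l _ => c l := by
  refine ⟨fun l => contDiffOn_const, fun l x _ => ?_⟩
  have h : ∀ (j : Fin n) (d : ℂ), pd j (fun _ => d) = fun _ => 0 := fun j d =>
    funext fun x => by simp [pd]
  simp only [Lo, h, mul_zero, Finset.sum_const_zero, add_zero]

theorem so_sum {Y : Type} (t : Finset Y) {F : Y → Fa ι n} (hF : ∀ y, So γ a (F y)) :
    So γ a (∑ y ∈ t, F y) := by
  classical
  induction t using Finset.induction_on with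
  | empty => exact so_const fun _ => 0
  | insert y t hy ih =>
    rw [Finset.sum_insert hy]
    exact (hF y).add ih

end Vale.Agent.P088.Mo
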