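import Vale.Agent.P088F.HDefs

/-! P088, part H: bounds for inverse matrices. -/

open MeasureTheory Set Filter Topology Metric
open scoped ContDiff FourierTransform

noncomputable section

namespace Vale.Agent.P088.Mo

open Vale.Agent.P292E

variable {n : ℕ}


theorem hinv_smul (n : ℕ) (G : Type) [NormedAddCommGroup G] [NormedSpace ℝ G] [NormedSpace ℂ G]
    [IsScalarTower ℝ ℂ G] : ∃ L : ℝ, ∀ {M : ℕ} {s : Set (V n)} {B B' : ℝ} {f : V n → ℂ}
    {g : V n → G}, IsOpen s → ContDiffOn ℝ ∞ f s → ContDiffOn ℝ ∞ g s → Bd M f s B → Bd M g s B' →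
    Bd M (fun x => f x • g x) s (L * 2 ^ M * B * B') :=
  ⟨_, fun hs hf hg h h' =>
    Bd.bilin (ContinuousLinearMap.lsmul ℝ ℂ : ℂ →L[ℝ] G →L[ℝ] G) hs hf hg h h'⟩

/-- induction on `K`: `fderiv d⁻¹ = -(d⁻¹ * d⁻¹) • fderiv d`, `Bd.mul`, `Bd.bilin`, `Bd.fderiv`,
`norm_iteratedFDeriv_fderiv` -/
theorem inv_Bd0 (n K : ℕ) (D c : ℝ) (hc : 0 < c) : ∃ C : ℝ, 0 ≤ C ∧ ∀ (s : Set (V n)) (d : V n → ℂ),
    IsOpen s → ContDiffOn ℝ ∞ d s → Bd K d s D → (∀ x ∈ s, c ≤ ‖d x‖) →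
    Bd K (fun x => (d x)⁻¹) s C := by

  have h0 : ∀ (s : Set (V n)) (d : V n → ℂ), (∀ x ∈ s, c ≤ ‖d x‖) → ∀ x ∈ s,
      ‖iteratedFDeriv ℝ 0 (fun x => (d x)⁻¹) x‖ ≤ c⁻¹ := by
    intro s d hd x hx
    rw [norm_iteratedFDeriv_zero, norm_inv]
    exact inv_anti₀ hc (hd x hx)
  obtain ⟨L, hL⟩ := hinv_smul n (V n →L[ℝ] ℂ)
  induction K with
  | zero =>
    refine ⟨c⁻¹, by positivity, fun s d _ _ _ hd i hi x hx => ?_⟩
    obtain rfl : i = 0 := by omega
    exact h0 s d hd x hx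
  | succ K ih =>
    obtain ⟨C, hC, ih⟩ := ih
    refine ⟨max c⁻¹ (L * 2 ^ K * (2 ^ K * C * C) * D), le_max_of_le_left (by positivity),
      fun s d hs hd hB hlow => ?_⟩
    have hne : ∀ x ∈ s, d x ≠ 0 := fun x hx h => by
      have := hlow x hx
      rw [h, norm_zero] at this
      linarith
    have hi : ContDiffOn ℝ ∞ (fun x => (d x)⁻¹) s := hd.inv hne
    have b1 := ih s d hs hd (hB.mono (Nat.le_succ K) Subset.rfl le_rfl) hlow
    have b2 := (Bd.mul hs hi hi b1 b1).neg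
    have b3 := hL hs (hi.mul hi).neg (BdC_fderiv hs hd) b2 hB.fderiv
    have b4 : Bd K (fderiv ℝ fun x => (d x)⁻¹) s (L * 2 ^ K * (2 ^ K * C * C) * D) := by
      refine b3.congr hs fun x hx => ?_
      have h1 : HasFDerivAt d (fderiv ℝ d x) x :=
        ((BdC_at hs hd hx 1).differentiableAt (by norm_num)).hasFDerivAt
      have h2 := (hasDerivAt_inv (hne x hx)).comp_hasFDerivAt x h1
      have h3 : fderiv ℝ (fun x => (d x)⁻¹) x = (-(d x ^ 2)⁻¹) • fderiv ℝ d x := h2.fderiv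
      rw [h3, sq, mul_inv]
    intro i hi x hx
    cases i with
    | zero => exact le_max_of_le_left (h0 s d hlow x hx)
    | succ i =>
      rw [← norm_iteratedFDeriv_fderiv]
      exact le_max_of_le_right (b4 i (by omega) x hx)


theorem hinv_prod (n K : ℕ) (Y : Type) [DecidableEq Y] (D : ℝ) (t : Finset Y) : ∃ C : ℝ, 0 ≤ C ∧
    ∀ (s : Set (V n)) (f : Y → V n → ℂ), IsOpen s → (∀ i, ContDiffOn ℝ ∞ (f i) s) →
    (∀ i, Bd K (f i) s D) →
    ContDiffOn ℝ ∞ (fun x => ∏ i ∈ t, f i x) s ∧ Bd K (fun x => ∏ i ∈ t, f i x) s C := by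
  induction t using Finset.induction_on with
  | empty =>
    refine ⟨1, zero_le_one, fun s f _ _ _ => ?_⟩
    simp only [Finset.prod_empty]
    exact ⟨contDiffOn_const, by simpa using Bd_const K (1 : ℂ) s⟩
  | insert a t ha ih =>
    obtain ⟨C, hC, ih⟩ := ih
    refine ⟨max 0 (2 ^ K * D * C), le_max_left _ _, fun s f hs hf hb => ?_⟩
    obtain ⟨h1, h2⟩ := ih s f hs hf hb
    simp only [Finset.prod_insert ha]
    exact ⟨(hf a).mul h1,
      (Bd.mul hs (hf a) h1 (hb a) h2).mono le_rfl Subset.rfl (le_max_right _ _)⟩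

/-- `Matrix.det_apply`, products by `Finset` induction with `Bd.mul` -/
theorem det_Bd (n K : ℕ) (Y : Type) [Fintype Y] [DecidableEq Y] (D : ℝ) : ∃ C : ℝ, 0 ≤ C ∧
    ∀ (s : Set (V n)) (T : V n → Matrix Y Y ℂ), IsOpen s →
    (∀ i j, ContDiffOn ℝ ∞ (fun x => T x i j) s) → (∀ i j, Bd K (fun x => T x i j) s D) →
    ContDiffOn ℝ ∞ (fun x => (T x).det) s ∧ Bd K (fun x => (T x).det) s C := by

  obtain ⟨C, hC, h⟩ := hinv_prod n K Y D Finset.univ
  refine ⟨Fintype.card (Equiv.Perm Y) * (2 ^ K * 1 * C), by positivity, fun s T hs hT hB => ?_⟩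
  simp only [Matrix.det_apply']
  have h1 := fun σ : Equiv.Perm Y => h s (fun i x => T x (σ i) i) hs (fun i => hT _ _)
    (fun i => hB _ _)
  have h2 : ∀ σ : Equiv.Perm Y, ContDiffOn ℝ ∞
      (fun x => (((Equiv.Perm.sign σ : ℤˣ) : ℤ) : ℂ) * ∏ i, T x (σ i) i) s :=
    fun σ => contDiffOn_const.mul (h1 σ).1
  refine ⟨ContDiffOn.sum fun σ _ => h2 σ, Bd.sum hs h2 fun σ => ?_⟩
  refine Bd.mul hs contDiffOn_const (h1 σ).1
    ((Bd_const K _ s).mono le_rfl Subset.rfl ?_) (h1 σ).2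
  rcases Int.units_eq_one_or (Equiv.Perm.sign σ) with e | e <;> simp [e]

/-- `Matrix.inv_def`, `Matrix.adjugate_apply` (a determinant with entries bounded by `max D 1`) -/
theorem inv_Bd (n K : ℕ) (Y : Type) [Fintype Y] [DecidableEq Y] (D c : ℝ) (hc : 0 < c) :
    ∃ C : ℝ, 0 ≤ C ∧ ∀ (s : Set (V n)) (T : V n → Matrix Y Y ℂ), IsOpen s →
    (∀ i j, ContDiffOn ℝ ∞ (fun x => T x i j) s) → (∀ i j, Bd K (fun x => T x i j) s D) →
    (∀ x ∈ s, c ≤ ‖(T x).det‖) →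
    ∀ i j, ContDiffOn ℝ ∞ (fun x => (T x)⁻¹ i j) s ∧ Bd K (fun x => (T x)⁻¹ i j) s C := by

  obtain ⟨C₁, hC₁, h₁⟩ := det_Bd n K Y D
  obtain ⟨C₂, hC₂, h₂⟩ := det_Bd n K Y (max D 1)
  obtain ⟨C₃, hC₃, h₃⟩ := inv_Bd0 n K C₁ c hc
  refine ⟨2 ^ K * C₃ * C₂, by positivity, fun s T hs hT hB hlow i j => ?_⟩
  obtain ⟨a1, a2⟩ := h₁ s T hs hT hB
  have a3 := h₃ s _ hs a1 a2 hlow
  have hne : ∀ x ∈ s, (T x).det ≠ 0 := fun x hx h => by
    have := hlow x hx
    rw [h, norm_zero] at this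
    linarith
  have a4 : ContDiffOn ℝ ∞ (fun x => ((T x).det)⁻¹) s := a1.inv hne
  obtain ⟨a5, a6⟩ := h₂ s (fun x => (T x).updateRow j (Pi.single i 1)) hs
    (fun k l => by
      simp only [Matrix.updateRow_apply]
      split_ifs
      · exact contDiffOn_const
      · exact hT k l)
    (fun k l => by
      simp only [Matrix.updateRow_apply]
      split_ifs
      · refine (Bd_const K _ s).mono le_rfl Subset.rfl (le_max_of_le_right ?_)
        rw [Pi.single_apply]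
        split_ifs <;> simp
      · exact (hB k l).mono le_rfl Subset.rfl (le_max_left _ _))
  have e : (fun x => (T x)⁻¹ i j) =
      fun x => ((T x).det)⁻¹ * ((T x).updateRow j (Pi.single i 1)).det := by
    funext x
    rw [Matrix.inv_def, Matrix.smul_apply, Matrix.adjugate_apply, Ring.inverse_eq_inv', smul_eq_mul]
  rw [e]
  exact ⟨a4.mul a5, Bd.mul hs a4 a5 a3 a6⟩

/-- uniform continuity of `det` on a closed ball of `Y → Y → ℂ` -/
theorem det_near (Y : Type) [Fintype Y] [DecidableEq Y] (D c : ℝ) (hc : 0 < c) :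
    ∃ δ : ℝ, 0 < δ ∧ ∀ A A' : Matrix Y Y ℂ, (∀ i j, ‖A' i j‖ ≤ D) → (∀ i j, ‖A i j - A' i j‖ ≤ δ) →
      c ≤ ‖A'.det‖ → c / 2 ≤ ‖A.det‖ := by

  have hcont : Continuous fun A : Y → Y → ℂ => (Matrix.of A).det :=
    Continuous.matrix_det (A := fun A : Y → Y → ℂ => Matrix.of A) continuous_id
  have hu := (isCompact_closedBall (0 : Y → Y → ℂ) (max D 0 + 1)).uniformContinuousOn_of_continuous
    hcont.continuousOn
  obtain ⟨δ, hδ, h⟩ := Metric.uniformContinuousOn_iff.1 hu (c / 2) (by positivity)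
  refine ⟨min 1 (δ / 2), lt_min one_pos (by positivity), fun A A' h1 h2 h3 => ?_⟩
  have hD : 0 ≤ max D 0 + 1 := by positivity
  have m1 : (fun i j => A' i j) ∈ closedBall (0 : Y → Y → ℂ) (max D 0 + 1) := by
    rw [mem_closedBall_zero_iff, pi_norm_le_iff_of_nonneg hD]
    intro i
    rw [pi_norm_le_iff_of_nonneg hD]
    intro j
    linarith [h1 i j, le_max_left D 0]
  have m2 : (fun i j => A i j) ∈ closedBall (0 : Y → Y → ℂ) (max D 0 + 1) := by
    rw [mem_closedBall_zero_iff, pi_norm_le_iff_of_nonneg hD]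
    intro i
    rw [pi_norm_le_iff_of_nonneg hD]
    intro j
    have := norm_add_le (A i j - A' i j) (A' i j)
    rw [sub_add_cancel] at this
    linarith [h1 i j, h2 i j, le_max_left D 0, min_le_left 1 (δ / 2)]
  have m3 : dist (fun i j => A' i j : Y → Y → ℂ) (fun i j => A i j) < δ := by
    rw [dist_pi_lt_iff hδ]
    intro i
    rw [dist_pi_lt_iff hδ]
    intro j
    rw [dist_comm, dist_eq_norm]
    linarith [h2 i j, min_le_right 1 (δ / 2)]
  have m4 : dist A'.det A.det < c / 2 := h _ m1 _ m2 m3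
  rw [dist_eq_norm] at m4
  linarith [norm_sub_norm_le A'.det A.det]

end Vale.Agent.P088.Mo
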