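import Vale.Agent.P088F.HD
import Vale.Agent.P088F.HInv

/-! P088, part H: the jet matrix is close to the flat one. -/

open MeasureTheory Set Filter Topology Metric
open scoped ContDiff FourierTransform ComplexConjugate

noncomputable section

namespace Vale.Agent.P088.Mo

open Vale.Agent.P292E

variable {n : ℕ} {ι : Type} [Fintype ι] [DecidableEq ι] {o : Fin n} {M : ℕ}
  {θ : Nm o M → Fin n → ℂ} {R : Mi n → Nm o M → ℂ}

/-- The flat solutions. -/
def ht1e (θ : Nm o M → Fin n → ℂ) (i : Ji o M ι) (l : ι) (x : V n) : ℂ :=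
  if l = i.2 then ex (θ i.1) x else 0

omit [Fintype ι] in
theorem ht1_sm (i : Ji o M ι) (l : ι) : ContDiff ℝ ∞ (ht1e θ i l) := by
  unfold ht1e
  split_ifs
  exacts [ex_smooth _, contDiff_const]

omit [Fintype ι] in
theorem ht1_dM (α : Mi n) (i : Ji o M ι) (l : ι) (x : V n) :
    dM α (ht1e θ i l) x = if l = i.2 then mon α (θ i.1) * ex (θ i.1) x else 0 := by
  unfold ht1e
  split_ifs
  · exact congrFun (dM_ex _ _) x
  · rw [dM_const, ite_self]

theorem ht1_det (ι : Type) [Fintype ι] [DecidableEq ι] (hB : Bas o M θ R) : ∃ c : ℝ, 0 < c ∧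
    ∀ x ∈ closedBall (0 : V n) 2, c ≤ ‖(Tm (ht1e (ι := ι) θ) x).det‖ := by
  have e : ∀ x, (Tm (ht1e (ι := ι) θ) x).det =
      (∏ _k : ι, (Matrix.of fun β i : Nm o M => mon β.1 (θ i)).det) *
        ∏ i : Ji o M ι, ex (θ i.1) x := fun x => by
    rw [← Matrix.det_blockDiagonal, ← Matrix.det_diagonal, ← Matrix.det_mul]
    congr 1
    ext y i
    simp only [Tm, Matrix.of_apply, ht1_dM, Matrix.mul_diagonal, Matrix.blockDiagonal_apply,
      ite_mul, zero_mul]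
  simp only [e]
  exact (isCompact_closedBall _ _).exists_forall_le' (continuous_const.mul
    (continuous_finsetProd _ fun i _ => (ex_smooth _).continuous)).norm.continuousOn fun x _ =>
      norm_pos_iff.2 (mul_ne_zero (Finset.prod_ne_zero_iff.2 fun _ _ => hB.det)
        (Finset.prod_ne_zero_iff.2 fun _ _ => Complex.exp_ne_zero _))

theorem ht1_rep (hB : Bas o M θ R) (α : Mi n) (i : Ji o M ι) (l : ι) (x : V n) :
    dM α (ht1e θ i l) x =
      ∑ y : Ji o M ι, (if l = y.2 then R α y.1 else 0) * dM y.1.1 (ht1e θ i y.2) x := by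
  simp only [Fintype.sum_prod_type, ite_mul, zero_mul, Finset.sum_ite_eq, Finset.mem_univ, if_true]
  simp only [ht1_dM, hB.rep α, Finset.sum_mul, mul_ite, mul_zero, mul_assoc, Finset.sum_ite_irrel,
    Finset.sum_const_zero]

theorem ht1_alg {Y : Type} [Fintype Y] [DecidableEq Y] {T : Matrix Y Y ℂ} (hT : T.det ≠ 0)
    (r F : Y → ℂ) (y : Y) :
    ∑ i, F i * T⁻¹ i y - r y = ∑ i, (F i - ∑ y', r y' * T y' i) * T⁻¹ i y := by
  have h := T.mul_nonsing_inv (isUnit_iff_ne_zero.2 hT)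
  have k : ∑ i, (∑ y', r y' * T y' i) * T⁻¹ i y = r y := by
    simp only [Finset.sum_mul, mul_assoc]
    rw [Finset.sum_comm]
    simp only [← Finset.mul_sum, ← Matrix.mul_apply, h, Matrix.one_apply, mul_ite, mul_one,
      mul_zero, Finset.sum_ite_eq', Finset.mem_univ, if_true]
  simp only [sub_mul, Finset.sum_sub_distrib, k]

/-- Flat matrix `T0 x y i = if y.2 = i.2 then mon y.1 (θ i.1) * ex (θ i.1) x else 0` (`dM_ex`, `dM_const`):
its determinant is continuous in `x` and nonzero (`T0 x = blockDiagonal V * diagonal`, or: `T0 x *ᵥ v = 0`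
forces `v = 0`), so at least `c > 0` on `closedBall 0 2`. `Tm u x - T0 x` is `O(δ)` (`dM_sub`, `dM_Bd`), so
`det_near`, `inv_Bd` apply. Put `F α l i = dM α (u i l)`, `F0` its flat value; `F0 α l i =
∑ y, (if l = y.2 then R α y.1 else 0) * T0 y i` (`rep`), and `Cm - R δ = ∑ i, ((F - F0) i -
∑ y', R δ y' * (T - T0) y' i) * T⁻¹ i y`. The finitely many `‖R α β‖`, `α ∈ MS n (M + 2)`, are bounded. -/
theorem tm_est {n : ℕ} (ι : Type) [Fintype ι] [DecidableEq ι] {o : Fin n} {M : ℕ}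
    {θ : Nm o M → Fin n → ℂ} {R : Mi n → Nm o M → ℂ} (hB : Bas o M θ R) (K : ℕ) :
    ∃ δ₀ C : ℝ, 0 < δ₀ ∧ 0 ≤ C ∧ ∀ (δ : ℝ) (γ : Fin n → Fin n → V n → ℂ)
      (a : Fin n → ι → ι → V n → ℂ) (u : Ji o M ι → Fa ι n), δ ≤ δ₀ → Cl (K + M + 2) δ θ γ a u →
      (∀ x ∈ ball (0 : V n) 2, (Tm u x).det ≠ 0) ∧
      (∀ i y, ContDiffOn ℝ ∞ (fun x => (Tm u x)⁻¹ i y) (ball 0 2) ∧
        Bd K (fun x => (Tm u x)⁻¹ i y) (ball 0 2) C) ∧
      (∀ i l, Bd (K + M + 2) (u i l) (ball 0 2) C) ∧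
      ∀ α : Mi n, α.card ≤ M + 2 → ∀ l y, ContDiffOn ℝ ∞ (Cm u α l y) (ball 0 2) ∧
        Bd K (Cm u α l y) (ball 0 2) C ∧
        Bd K (fun x => Cm u α l y x - if l = y.2 then R α y.1 else 0) (ball 0 2) (C * δ) := by
  obtain ⟨E, hE, hE'⟩ := ex_Bd n (K + M + 2)
  obtain ⟨c, hc, hc'⟩ := ht1_det ι hB
  obtain ⟨δ₁, h1, h1'⟩ := det_near (Ji o M ι) E c hc
  obtain ⟨C₁, h2, h2'⟩ := inv_Bd n K (Ji o M ι) (1 + E) (c / 2) (half_pos hc)
  obtain ⟨ρ, h3, h3'⟩ : ∃ ρ : ℝ, 0 ≤ ρ ∧ ∀ α : Mi n, α.card ≤ M + 2 → ∀ β, ‖R α β‖ ≤ ρ :=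
    ⟨∑ α ∈ MS n (M + 2), ∑ β, ‖R α β‖, by positivity, fun α hα β =>
      (Finset.single_le_sum (fun β _ => norm_nonneg (R α β)) (Finset.mem_univ β)).trans
        (Finset.single_le_sum (f := fun α => ∑ β, ‖R α β‖) (fun _ _ => by positivity)
          (mem_MS.2 hα))⟩
  obtain ⟨N, hN⟩ : ∃ N : ℝ, N = Fintype.card (Ji o M ι) := ⟨_, rfl⟩
  have hN0 : 0 ≤ N := hN ▸ Nat.cast_nonneg _
  obtain ⟨C₂, h4⟩ : ∃ C₂, C₂ = N * (2 ^ K * (1 + N * (2 ^ K * ρ)) * C₁) := ⟨_, rfl⟩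
  obtain ⟨C₃, h5⟩ : ∃ C₃, C₃ = N * (2 ^ K * (1 + E) * C₁) := ⟨_, rfl⟩
  have h4' : 0 ≤ C₂ := h4 ▸ by positivity
  have h5' : 0 ≤ C₃ := h5 ▸ by positivity
  refine ⟨min δ₁ 1, C₁ + (1 + E) + C₂ + C₃, lt_min h1 one_pos, by positivity,
    fun δ γ a u hδ hu => ?_⟩
  have hs : IsOpen (ball (0 : V n) 2) := isOpen_ball
  have su := fun i => (hu i).1.1
  have se := fun (i : Ji o M ι) l => (ht1_sm (θ := θ) i l).contDiffOn (s := ball 0 2)
  have sw := fun i l => (su i l).sub (se i l)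
  have bw : ∀ i l, Bd (K + M + 2) (fun x => u i l x - ht1e θ i l x) (ball 0 2) δ :=
    fun i => (hu i).2
  have be : ∀ (i : Ji o M ι) l, Bd (K + M + 2) (ht1e θ i l) (ball 0 2) E := fun i l => by
    unfold ht1e
    split_ifs
    · exact (hE' _ (hB.le _)).mono le_rfl (ball_subset_ball (by norm_num)) le_rfl
    · exact (Bd_const _ _ _).mono le_rfl Subset.rfl (norm_zero.trans_le hE)
  have bu : ∀ i l, Bd (K + M + 2) (u i l) (ball 0 2) (1 + E) := fun i l =>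
    (((bw i l).add hs (sw i l) (se i l) (be i l)).congr hs fun x _ =>
      (sub_add_cancel _ _).symm).mono le_rfl Subset.rfl
        (add_le_add_left (hδ.trans (min_le_right _ _)) E)
  have bd : ∀ {f : V n → ℂ} {B : ℝ}, ContDiffOn ℝ ∞ f (ball 0 2) → Bd (K + M + 2) f (ball 0 2) B →
      ∀ α : Mi n, α.card ≤ M + 2 → Bd K (dM α f) (ball 0 2) B := fun hf hb α hα =>
    dM_Bd hs hf α (hb.mono (by omega) Subset.rfl le_rfl)
  have cy : ∀ y : Ji o M ι, y.1.1.card ≤ M + 2 := fun y =>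
    (mem_NS.1 y.1.2).1.trans (Nat.le_add_right _ _)
  have dt : ∀ x ∈ ball (0 : V n) 2, c / 2 ≤ ‖(Tm u x).det‖ := fun x hx =>
    h1' _ _ (fun y i => (bd (se i y.2) (be i y.2) _ (cy y)).norm_le hx) (fun y i =>
      (congrArg norm (dM_sub hs (su i y.2) (se i y.2) y.1.1 hx)).symm.trans_le
        (((bd (sw i y.2) (bw i y.2) _ (cy y)).norm_le hx).trans (hδ.trans (min_le_left _ _))))
      (hc' x (ball_subset_closedBall hx))
  have d0 : ∀ x ∈ ball (0 : V n) 2, (Tm u x).det ≠ 0 := fun x hx =>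
    norm_pos_iff.1 ((half_pos hc).trans_le (dt x hx))
  have hI := h2' _ (Tm u) hs (fun y i => dM_smooth hs (su i y.2) _)
    (fun y i => bd (su i y.2) (bu i y.2) _ (cy y)) dt
  refine ⟨d0, fun i y => ⟨(hI i y).1, (hI i y).2.mono le_rfl Subset.rfl (by linarith)⟩,
    fun i l => (bu i l).mono le_rfl Subset.rfl (by linarith), fun α hα l y => ?_⟩
  have s1 := fun i => (dM_smooth hs (su i l) α).mul (hI i y).1
  have δ0 : 0 ≤ δ := (norm_nonneg _).trans ((bw y l).norm_le (mem_ball_self two_pos))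
  refine ⟨ContDiffOn.sum fun i _ => s1 i, (Bd.sum hs s1 fun i =>
    (bd (su i l) (bu i l) α hα).mul hs (dM_smooth hs (su i l) α) (hI i y).1 (hI i y).2).mono le_rfl
      Subset.rfl (by rw [← hN, ← h5]; linarith), ?_⟩
  have s2 := fun i (y' : Ji o M ι) =>
    (contDiffOn_const (c := if l = y'.2 then R α y'.1 else 0)).mul
      (dM_smooth hs (sw i y'.2) y'.1.1)
  have s3 := fun i => ContDiffOn.sum (s := Finset.univ) fun y' _ => s2 i y'
  have s4 := fun i => (dM_smooth hs (sw i l) α).add (s3 i).neg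
  have b2 := fun i => Bd.sum (B := 2 ^ K * ρ * δ) hs (s2 i) fun y' =>
    ((Bd_const K _ _).mul hs contDiffOn_const (dM_smooth hs (sw i y'.2) y'.1.1)
      (bd (sw i y'.2) (bw i y'.2) _ (cy y'))).mono le_rfl Subset.rfl (by
        gcongr
        split_ifs
        exacts [h3' α hα _, norm_zero.trans_le h3])
  have b4 := fun i => (bd (sw i l) (bw i l) α hα).add hs (dM_smooth hs (sw i l) α) (s3 i).neg
    (b2 i).neg
  refine ((Bd.sum hs (fun i => (s4 i).mul (hI i y).1) fun i =>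
    (b4 i).mul hs (s4 i) (hI i y).1 (hI i y).2).congr hs fun x hx => ?_).mono le_rfl Subset.rfl ?_
  · refine (ht1_alg (d0 x hx) (fun y' => if l = y'.2 then R α y'.1 else 0) _ y).trans
      (Finset.sum_congr rfl fun i _ => congrArg (· * _) ?_)
    simp only [fun l α => dM_sub hs (su i l) (se i l) α hx, ht1_rep hB α i l x, Tm, Matrix.of_apply,
      mul_sub, Finset.sum_sub_distrib]
    ring
  · rw [← hN]
    calc _ = C₂ * δ := by rw [h4]; ring
      _ ≤ _ := mul_le_mul_of_nonneg_right (by linarith) δ0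

end Vale.Agent.P088.Mo
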