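import Vale.Agent.P088F.HEq
import Vale.Agent.P088F.HT1

/-! P088, part H: the jet coefficients solve the system. -/

open MeasureTheory Set Filter Topology Metric
open scoped ContDiff FourierTransform ComplexConjugate

noncomputable section

namespace Vale.Agent.P088.Mo

open Vale.Agent.P292E

theorem hdn_sum {n K : ℕ} {δ C : ℝ} {g F : Fin n → V n → ℂ}
    (hg : ∀ k, ContDiffOn ℝ ∞ (g k) (ball 0 2)) (hF : ∀ k, ContDiffOn ℝ ∞ (F k) (ball 0 2))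
    (bg : ∀ k, Bd K (g k) (ball 0 2) δ) (bF : ∀ k, Bd K (F k) (ball 0 2) C) :
    Bd K (fun x => ∑ k, g k x * F k x) (ball 0 2) (n * (2 ^ K * C) * δ) := by
  have h := Bd.sum isOpen_ball (fun k => (hg k).mul (hF k))
    fun k => Bd.mul isOpen_ball (hg k) (hF k) (bg k) (bF k)
  rw [Fintype.card_fin] at h
  exact h.mono le_rfl subset_rfl (le_of_eq (by ring))

theorem hdn_row {n K : ℕ} {δ C : ℝ} {g F : Fin n → V n → ℂ} {j : Fin n} {r : ℂ}
    (hg : ∀ k, ContDiffOn ℝ ∞ (g k) (ball 0 2)) (hF : ∀ k, ContDiffOn ℝ ∞ (F k) (ball 0 2))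
    (bg : ∀ k, Bd K (fun x => g k x - if j = k then 1 else 0) (ball 0 2) δ)
    (bF : ∀ k, Bd K (F k) (ball 0 2) C) (br : Bd K (fun x => F j x - r) (ball 0 2) (C * δ)) :
    Bd K (fun x => ∑ k, g k x * F k x - r) (ball 0 2) ((n * (2 ^ K * C) + C) * δ) := by
  have hg' : ∀ k, ContDiffOn ℝ ∞ (fun x => g k x - if j = k then 1 else 0) (ball 0 2) :=
    fun k => (hg k).sub contDiffOn_const
  have h := Bd.add isOpen_ball (ContDiffOn.sum fun k _ => (hg' k).mul (hF k))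
    ((hF j).sub contDiffOn_const) (hdn_sum hg' hF bg bF) br
  refine (h.congr isOpen_ball fun x _ => ?_).mono le_rfl subset_rfl (le_of_eq (by ring))
  simp only [sub_mul, Finset.sum_sub_distrib, ite_mul, one_mul, zero_mul, Finset.sum_ite_eq,
    Finset.mem_univ, if_true]
  ring

/-- `tm_est`, `zz_eq`, `zz_vz`, `cm_tri`. `k1 - 2 R δ = 2 ∑ k, (γ j k - δ j k) * Cm + 2 (Cm (j ::ₘ y) - R δ)`;
`∑ j k, γ j k * Cm = ∑ j k, (γ j k - δ j k) * Cm + ∑ j, (Cm (j ::ₘ j ::ₘ y) - R δ)` by `tr`;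
`Bd.mul`, `Bd.sum`, `Bd.add`, `Bd.congr`, `Bd_const`. -/
theorem dn_sys {n : ℕ} (ι : Type) [Fintype ι] [DecidableEq ι] {o : Fin n} {M : ℕ} (hM : 2 ≤ M)
    {θ : Nm o M → Fin n → ℂ} {R : Mi n → Nm o M → ℂ} (hB : Bas o M θ R) (K : ℕ) :
    ∃ δ₀ C : ℝ, 0 < δ₀ ∧ 1 ≤ C ∧ ∀ (δ B A : ℝ) (c : ℕ) (p : Pm) (γ₁ γ₂ : Fin n → Fin n → V n → ℂ)
      (a₁ a₂ : Fin n → ι → ι → V n → ℂ) (u : Ji o M ι → Fa ι n) (J : Fa ι n → Fa ι n), δ ≤ δ₀ →
      Nr o K δ γ₁ a₁ → Nr o K δ γ₂ a₂ → JO o p B A c γ₁ a₁ γ₂ a₂ J → Cl (K + M + 2) δ θ γ₂ a₂ u →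
      DN p K (C * δ) R γ₁ a₁ (k1 γ₁ u) (k0 γ₁ a₁ u) (zz J u)
        (rr (fun j k x => γ₁ j k x - γ₂ j k x) fun k l m x => a₁ k l m x - a₂ k l m x) := by
  obtain ⟨δ₀, C, h0, hC, H⟩ := tm_est ι hB K
  obtain ⟨E, hE⟩ : ∃ E : ℝ, E = n * (2 ^ K * C) + C := ⟨_, rfl⟩
  have hE0 : 0 ≤ E := by rw [hE]; positivity
  have hE1 : n * (2 ^ K * C) ≤ E := by rw [hE]; linarith
  have hnE : 0 ≤ n * E := by positivity
  refine ⟨δ₀, 1 + 2 * E + n * E, h0, by linarith,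
    fun δ B A c p γ₁ γ₂ a₁ a₂ u J hδ h₁ h₂ hJ hu => ?_⟩
  obtain ⟨hd, hi, -, hc⟩ := H δ γ₂ a₂ u hδ hu
  have hp : 0 ≤ δ :=
    (norm_nonneg _).trans ((h₁.gb o o).norm_le (mem_ball_self (by norm_num : (0 : ℝ) < 2)))
  have hs : ∀ i, So γ₂ a₂ (u i) := fun i => (hu i).1
  have hle : δ ≤ (1 + 2 * E + n * E) * δ := le_mul_of_one_le_left hp (by linarith)
  have c1 : ∀ (k : Fin n) (y : Ji o M ι), (k ::ₘ y.1.1).card ≤ M + 2 := fun k y => by
    have := (mem_NS.1 y.1.2).1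
    rw [Multiset.card_cons]
    omega
  have c2 : ∀ (j k : Fin n) (y : Ji o M ι), (j ::ₘ k ::ₘ y.1.1).card ≤ M + 2 := fun j k y => by
    have := (mem_NS.1 y.1.2).1
    rw [Multiset.card_cons, Multiset.card_cons]
    omega
  have s1 : ∀ j (y y' : Ji o M ι), ContDiffOn ℝ ∞
      (fun x => ∑ k, γ₁ j k x * Cm u (k ::ₘ y.1.1) y.2 y' x) (ball 0 2) := fun j y y' =>
    ContDiffOn.sum fun k _ => (h₁.gs j k).mul (hc _ (c1 k y) _ _).1
  have s2 : ∀ j (y y' : Ji o M ι), ContDiffOn ℝ ∞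
      (fun x => ∑ k, γ₁ j k x * Cm u (j ::ₘ k ::ₘ y.1.1) y.2 y' x) (ball 0 2) := fun j y y' =>
    ContDiffOn.sum fun k _ => (h₁.gs j k).mul (hc _ (c2 j k y) _ _).1
  have s3 : ∀ l m (y y' : Ji o M ι), ContDiffOn ℝ ∞
      (fun x => ∑ k, a₁ k l m x * Cm u (k ::ₘ y.1.1) y.2 y' x) (ball 0 2) := fun l m y y' =>
    ContDiffOn.sum fun k _ => (h₁.as k l m).mul (hc _ (c1 k y) _ _).1
  have s4 : ∀ (l m : ι) (y y' : Ji o M ι), ContDiffOn ℝ ∞ (fun x => if l = m then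
      ∑ j, ∑ k, γ₁ j k x * Cm u (j ::ₘ k ::ₘ y.1.1) y.2 y' x else 0) (ball 0 2) := by
    intro l m y y'
    split_ifs
    · exact ContDiffOn.sum fun j _ => s2 j y y'
    · exact contDiffOn_const
  refine ⟨⟨h₁.gs, h₁.as, fun j k => (h₁.gb j k).mono le_rfl subset_rfl hle,
    fun j l m => (h₁.ab j l m).mono le_rfl subset_rfl hle, h₁.sy, h₁.oo⟩,
    fun j y y' => contDiffOn_const.mul (s1 j y y'), fun j y y' => ?_, fun j y y' h x hx => ?_,
    fun l m y y' => (s4 l m y y').add (s3 l m y y'), fun l m y y' => ?_,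
    fun l m y y' h x hx => ?_, zz_vz hJ hs hd fun i y => (hi i y).1,
    fun l y' x hx => zz_eq hM h₁ h₂ hJ hs hd (fun i y => (hi i y).1) l y' hx⟩
  · have h := hdn_row (h₁.gs j) (fun k => (hc _ (c1 k y) y.2 y').1) (h₁.gb j)
      (fun k => (hc _ (c1 k y) y.2 y').2.1) (hc _ (c1 j y) y.2 y').2.2
    rw [← hE] at h
    have h3 := (s1 j y y').sub
      (contDiffOn_const (c := if y.2 = y'.2 then R (j ::ₘ y.1.1) y'.1 else 0))
    refine ((h.add isOpen_ball h3 h3 h).congr isOpen_ball fun x _ => ?_).mono le_rfl subset_rfl ?_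
    · simp only [k1]
      split_ifs <;> ring
    · nlinarith [mul_nonneg hnE hp]
  · rw [k1, Finset.sum_eq_zero, mul_zero]
    intro k _
    rw [cm_tri h₂ hs hx (hd x hx) _ (by rwa [Multiset.card_cons]), mul_zero]
  · have b3 := hdn_sum (fun k => h₁.as k l m) (fun k => (hc _ (c1 k y) y.2 y').1)
      (fun k => h₁.ab k l m) fun k => (hc _ (c1 k y) y.2 y').2.1
    have b4 : Bd K (fun x => if l = m then
        ∑ j, ∑ k, γ₁ j k x * Cm u (j ::ₘ k ::ₘ y.1.1) y.2 y' x else 0) (ball 0 2)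
        (n * (E * δ)) := by
      split_ifs
      · have h := Bd.sum isOpen_ball (fun j => (s2 j y y').sub (contDiffOn_const
          (c := if y.2 = y'.2 then R (j ::ₘ j ::ₘ y.1.1) y'.1 else 0))) fun j =>
            hdn_row (h₁.gs j) (fun k => (hc _ (c2 j k y) y.2 y').1) (h₁.gb j)
              (fun k => (hc _ (c2 j k y) y.2 y').2.1) (hc _ (c2 j j y) y.2 y').2.2
        rw [← hE, Fintype.card_fin] at h
        refine h.congr isOpen_ball fun x _ => ?_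
        have h3 : ∑ j, (if y.2 = y'.2 then R (j ::ₘ j ::ₘ y.1.1) y'.1 else 0) = 0 := by
          split_ifs
          · exact hB.tr _ _
          · exact Finset.sum_const_zero
        simp only [Finset.sum_sub_distrib, h3, sub_zero]
      · exact (Bd_const K (0 : ℂ) _).mono le_rfl subset_rfl (by rw [norm_zero]; positivity)
    refine (b4.add isOpen_ball (s4 l m y y') (s3 l m y y') b3).mono le_rfl subset_rfl ?_
    nlinarith [mul_le_mul_of_nonneg_right hE1 hp, mul_nonneg hE0 hp]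
  · have e1 : ∀ k, Cm u (k ::ₘ y.1.1) y.2 y' x = 0 := fun k =>
      cm_tri h₂ hs hx (hd x hx) _ (by rw [Multiset.card_cons]; omega)
    have e2 : ∀ j k, Cm u (j ::ₘ k ::ₘ y.1.1) y.2 y' x = 0 := fun j k =>
      cm_tri h₂ hs hx (hd x hx) _ (by rw [Multiset.card_cons, Multiset.card_cons]; omega)
    simp only [k0, e1, e2, mul_zero, Finset.sum_const_zero, ite_self, add_zero]

end Vale.Agent.P088.Mo
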