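import Vale.Agent.P292E.FMul
import Vale.Agent.P292E.FEq

/-! P088, part H: definitions for the moment argument. -/

open MeasureTheory Set Filter Topology Metric
open scoped ContDiff FourierTransform

noncomputable section

namespace Vale.Agent.P088.Mo

open Vale.Agent.P292E

variable {n : ℕ} {ι : Type}

/-- families of functions -/
abbrev Fa (ι : Type) (n : ℕ) : Type := ι → V n → ℂ

/-- multi-indices -/
abbrev Mi (n : ℕ) : Type := Multiset (Fin n)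

/-- iterated derivative along a list -/
def dl : List (Fin n) → (V n → ℂ) → V n → ℂ
  | [], f => f
  | j :: l, f => pd j (dl l f)

/-- iterated derivative along a multi-index -/
def dM (s : Mi n) (f : V n → ℂ) : V n → ℂ := dl s.toList f

/-- monomials -/
def mon (s : Mi n) (θ : Fin n → ℂ) : ℂ := (s.map θ).prod

/-- null vectors -/
def Null (θ : Fin n → ℂ) : Prop := ∑ j, θ j ^ 2 = 0

/-- exponentials -/
def ex (θ : Fin n → ℂ) (x : V n) : ℂ := Complex.exp (∑ j, θ j * x j)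

/-- multi-indices of order at most `M` -/
def MS (n M : ℕ) : Finset (Mi n) :=
  (M • (Finset.univ : Finset (Fin n)).val).powerset.toFinset.filter fun s => s.card ≤ M

theorem mem_MS {M : ℕ} {s : Mi n} : s ∈ MS n M ↔ s.card ≤ M := by
  rw [MS, Finset.mem_filter, Multiset.mem_toFinset, Multiset.mem_powerset, and_iff_right_iff_imp]
  intro h
  rw [Multiset.le_iff_count]
  intro j
  rw [Multiset.count_nsmul, Multiset.count_univ, mul_one]
  exact (Multiset.count_le_card j s).trans h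

/-- normal multi-indices of order at most `M` -/
def NS (o : Fin n) (M : ℕ) : Finset (Mi n) := (MS n M).filter fun s => s.count o ≤ 1

theorem mem_NS {o : Fin n} {M : ℕ} {s : Mi n} : s ∈ NS o M ↔ s.card ≤ M ∧ s.count o ≤ 1 := by
  rw [NS, Finset.mem_filter, mem_MS]

/-- the type of normal multi-indices -/
abbrev Nm (o : Fin n) (M : ℕ) : Type := ↥(NS o M)

/-- jet indices -/
abbrev Ji (o : Fin n) (M : ℕ) (ι : Type) : Type := Nm o M × ι

/-- null vectors that detect normal polynomials, and the reduction coefficients -/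
structure Bas (o : Fin n) (M : ℕ) (θ : Nm o M → Fin n → ℂ) (R : Mi n → Nm o M → ℂ) : Prop where
  null : ∀ i, Null (θ i)
  le : ∀ i j, ‖θ i j‖ ≤ 1
  det : (Matrix.of fun β i : Nm o M => mon β.1 (θ i)).det ≠ 0
  rep : ∀ α i, mon α (θ i) = ∑ β, R α β * mon β.1 (θ i)
  hom : ∀ α β, α.card ≤ M → R α β ≠ 0 → β.1.card = α.card
  red : ∀ α, α.card ≤ M → ∀ ϑ, Null ϑ → mon α ϑ = ∑ β, R α β * mon β.1 ϑ
  tr : ∀ α β, ∑ j, R (j ::ₘ j ::ₘ α) β = 0

/-- second order systems without zero order term -/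
def Lo [Fintype ι] (γ : Fin n → Fin n → V n → ℂ) (a : Fin n → ι → ι → V n → ℂ) (u : Fa ι n)
    (l : ι) (x : V n) : ℂ :=
  ∑ j, ∑ k, γ j k x * pd j (pd k (u l)) x + ∑ j, ∑ m, a j l m x * pd j (u m) x

/-- solutions on the ball of radius two -/
def So [Fintype ι] (γ : Fin n → Fin n → V n → ℂ) (a : Fin n → ι → ι → V n → ℂ) (u : Fa ι n) :
    Prop :=
  (∀ l, ContDiffOn ℝ ∞ (u l) (ball 0 2)) ∧ ∀ l, ∀ x ∈ ball (0 : V n) 2, Lo γ a u l x = 0

/-- normalised coefficients close to the Laplacian -/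
structure Nr (o : Fin n) (K : ℕ) (δ : ℝ) (γ : Fin n → Fin n → V n → ℂ)
    (a : Fin n → ι → ι → V n → ℂ) : Prop where
  gs : ∀ j k, ContDiffOn ℝ ∞ (γ j k) (ball 0 2)
  as : ∀ j l m, ContDiffOn ℝ ∞ (a j l m) (ball 0 2)
  gb : ∀ j k, Bd K (fun x => γ j k x - if j = k then 1 else 0) (ball 0 2) δ
  ab : ∀ j l m, Bd K (a j l m) (ball 0 2) δ
  sy : ∀ j k, ∀ x ∈ ball (0 : V n) 2, γ j k x = γ k j x
  oo : ∀ x ∈ ball (0 : V n) 2, γ o o x = 1

/-- the parameters of the weight -/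
structure Pm where
  κ : ℝ
  a : ℝ
  N : ℝ

/-- admissible parameters -/
structure Ok (p : Pm) : Prop where
  k0 : 0 < p.κ
  k1 : p.κ ≤ 1 / 10
  a0 : 0 < p.a
  a1 : p.a ≤ p.κ / 4
  N1 : 1 ≤ p.N

/-- the height function -/
def psi (o : Fin n) (κ : ℝ) (x : V n) : ℝ := x o + κ * (‖x‖ ^ 2 - 4 * x o ^ 2)

/-- the scaled depth -/
def tt (o : Fin n) (p : Pm) (x : V n) : ℝ := p.N * (p.a - psi o p.κ x)

/-- the domain -/
def Om (o : Fin n) (p : Pm) : Set (V n) := {x | ‖x‖ < 1 ∧ 1 < tt o p x}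

/-- the fixed bump -/
def bu (n : ℕ) : ContDiffBump (0 : V n) := ⟨3 / 4, 7 / 8, by norm_num, by norm_num⟩

/-- the profile of the weight -/
def hh (m : ℕ) (t : ℝ) : ℝ := Real.smoothTransition (2 * t - 3) * Real.exp (m * t)

/-- the weight -/
def om (o : Fin n) (p : Pm) (m : ℕ) (x : V n) : ℂ := (bu n x * hh m (tt o p x) : ℝ)

/-- weighted functions -/
def wz (o : Fin n) (p : Pm) (m : ℕ) (z : V n → ℂ) (x : V n) : ℂ := om o p m x * z x

/-- smooth functions that vanish in the lower half space -/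
def Vz (o : Fin n) (p : Pm) (z : V n → ℂ) : Prop :=
  ContDiffOn ℝ ∞ z (Om o p) ∧ ∀ x ∈ Om o p, x o < 0 → z x = 0

/-- bound in the top zone -/
def Top (o : Fin n) (p : Pm) (z : V n → ℂ) (E : ℝ) : Prop :=
  ∀ x ∈ Om o p, tt o p x ≤ 2 → ‖z x‖ ≤ E

/-- the norm of order `-s` -/
def nrm (τ : ℝ) (s : ℕ) (f : V n → ℂ) : ℝ := ⨆ ξ, ‖𝓕 f ξ‖ / (τ + ‖ξ‖) ^ s

/-- the conjugated derivative -/
def cd (o : Fin n) (τ : ℝ) (j : Fin n) (f : V n → ℂ) (x : V n) : ℂ :=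
  pd j f x + (if j = o then (τ : ℂ) else 0) * f x

/-- the principal part of the equation with index `β'` -/
def pr {o : Fin n} {M : ℕ} (τ : ℝ) (R : Mi n → Nm o M → ℂ) (g : Nm o M → V n → ℂ) (β' : Nm o M)
    (x : V n) : ℂ :=
  ∑ β : Nm o M, if β.1.card + 1 = β'.1.card then ∑ j, R (j ::ₘ β.1) β' * cd o τ j (g β) x else 0

/-- the system for the jet coefficients -/
structure DN [Fintype ι] [DecidableEq ι] {o : Fin n} {M : ℕ} (p : Pm) (K : ℕ) (δ : ℝ)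
    (R : Mi n → Nm o M → ℂ) (γ : Fin n → Fin n → V n → ℂ) (a : Fin n → ι → ι → V n → ℂ)
    (c1 : Fin n → Ji o M ι → Ji o M ι → V n → ℂ) (c0 : ι → ι → Ji o M ι → Ji o M ι → V n → ℂ)
    (z r : ι → Ji o M ι → V n → ℂ) : Prop where
  nr : Nr o K δ γ a
  s1 : ∀ j y y', ContDiffOn ℝ ∞ (c1 j y y') (ball 0 2)
  b1 : ∀ j y y', Bd K (fun x => c1 j y y' x - if y.2 = y'.2 then 2 * R (j ::ₘ y.1.1) y'.1 else 0)
    (ball 0 2) δ
  z1 : ∀ j y y', y.1.1.card + 1 < y'.1.1.card → ∀ x ∈ ball (0 : V n) 2, c1 j y y' x = 0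
  s0 : ∀ l m y y', ContDiffOn ℝ ∞ (c0 l m y y') (ball 0 2)
  b0 : ∀ l m y y', Bd K (c0 l m y y') (ball 0 2) δ
  z0 : ∀ l m y y', y.1.1.card + 2 < y'.1.1.card → ∀ x ∈ ball (0 : V n) 2, c0 l m y y' x = 0
  zv : ∀ l y, Vz o p (z l y)
  eq : ∀ l y', ∀ x ∈ Om o p, Lo γ a (fun m => z m y') l x + ∑ y, ∑ j, c1 j y y' x * pd j (z l y) x +
    ∑ m, ∑ y, c0 l m y y' x * z m y x + r l y' x = 0

/-- the scale -/
def bb (o : Fin n) (p : Pm) (B : ℝ) (x : V n) : ℝ := B * Real.exp (-tt o p x)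

/-- the intertwining operator -/
structure JO [Fintype ι] (o : Fin n) (p : Pm) (B A : ℝ) (c : ℕ) (γ₁ : Fin n → Fin n → V n → ℂ)
    (a₁ : Fin n → ι → ι → V n → ℂ) (γ₂ : Fin n → Fin n → V n → ℂ) (a₂ : Fin n → ι → ι → V n → ℂ)
    (J : Fa ι n → Fa ι n) : Prop where
  add : ∀ u v, So γ₂ a₂ u → So γ₂ a₂ v → ∀ l, ∀ x ∈ Om o p, J (u + v) l x = J u l x + J v l x
  smul : ∀ (t : ℂ) u, So γ₂ a₂ u → ∀ l, ∀ x ∈ Om o p, J (t • u) l x = t * J u l x
  sm : ∀ u, So γ₂ a₂ u → ∀ l, ContDiffOn ℝ ∞ (J u l) (Om o p)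
  eq : ∀ u, So γ₂ a₂ u → ∀ l, ∀ x ∈ Om o p, Lo γ₁ a₁ (J u) l x = 0
  ext : ∀ u, So γ₂ a₂ u → ∀ l, ∀ x ∈ Om o p, x o < 0 → J u l x = u l x
  bd : ∀ u, So γ₂ a₂ u → ∀ l, ∀ x ∈ Om o p, ∀ D : ℝ,
    (∀ m, ∀ y ∈ closedBall x (8 * bb o p B x), ‖u m y‖ ≤ D) → ‖J u l x‖ * bb o p B x ^ c ≤ A * D

variable [Fintype ι] [DecidableEq ι] {o : Fin n} {M : ℕ}

/-- solutions close to the exponentials -/
def Cl (K : ℕ) (δ : ℝ) (θ : Nm o M → Fin n → ℂ) (γ : Fin n → Fin n → V n → ℂ)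
    (a : Fin n → ι → ι → V n → ℂ) (u : Ji o M ι → Fa ι n) : Prop :=
  ∀ i, So γ a (u i) ∧ ∀ l, Bd K (fun x => u i l x - if l = i.2 then ex (θ i.1) x else 0) (ball 0 2) δ

/-- the matrix of normal jets -/
def Tm (u : Ji o M ι → Fa ι n) (x : V n) : Matrix (Ji o M ι) (Ji o M ι) ℂ :=
  Matrix.of fun y i => dM y.1.1 (u i y.2) x

/-- the reduction coefficients of the variable operator -/
def Cm (u : Ji o M ι → Fa ι n) (α : Mi n) (l : ι) (y : Ji o M ι) (x : V n) : ℂ :=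
  ∑ i, dM α (u i l) x * (Tm u x)⁻¹ i y

/-- the jet coefficients of `J`, minus those of the identity -/
def zz (J : Fa ι n → Fa ι n) (u : Ji o M ι → Fa ι n) (l : ι) (y : Ji o M ι) (x : V n) : ℂ :=
  ∑ i, J (u i) l x * (Tm u x)⁻¹ i y - if y.1.1 = 0 ∧ y.2 = l then 1 else 0

/-- first order coefficients -/
def k1 (γ : Fin n → Fin n → V n → ℂ) (u : Ji o M ι → Fa ι n) (j : Fin n) (y y' : Ji o M ι)
    (x : V n) : ℂ := 2 * ∑ k, γ j k x * Cm u (k ::ₘ y.1.1) y.2 y' x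

/-- zero order coefficients -/
def k0 (γ : Fin n → Fin n → V n → ℂ) (a : Fin n → ι → ι → V n → ℂ) (u : Ji o M ι → Fa ι n)
    (l m : ι) (y y' : Ji o M ι) (x : V n) : ℂ :=
  (if l = m then ∑ j, ∑ k, γ j k x * Cm u (j ::ₘ k ::ₘ y.1.1) y.2 y' x else 0) +
    ∑ k, a k l m x * Cm u (k ::ₘ y.1.1) y.2 y' x

/-- the source terms -/
def rr (S : Fin n → Fin n → V n → ℂ) (d : Fin n → ι → ι → V n → ℂ) (l : ι) (y : Ji o M ι)
    (x : V n) : ℂ :=
  (∑ j, ∑ k, if y.1.1 = j ::ₘ k ::ₘ 0 ∧ y.2 = l then S j k x else 0) +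
    ∑ k, if y.1.1 = k ::ₘ 0 then d k l y.2 x else 0

end Vale.Agent.P088.Mo
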