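import Vale.Agent.P088F.HT2

/-! P088, part H: the equations for the jet coefficients. -/

open MeasureTheory Set Filter Topology Metric
open scoped ContDiff FourierTransform ComplexConjugate

noncomputable section

namespace Vale.Agent.P088.Mo

open Vale.Agent.P292E

variable {n : ℕ} {ι : Type} [Fintype ι] [DecidableEq ι] {o : Fin n} {M K : ℕ} {δ B A : ℝ} {c : ℕ}
  {p : Pm} {γ₁ γ₂ : Fin n → Fin n → V n → ℂ} {a₁ a₂ : Fin n → ι → ι → V n → ℂ}
  {u : Ji o M ι → Fa ι n} {J : Fa ι n → Fa ι n} {x : V n}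

theorem heq_pd {Y : Type} [Fintype Y] {s : Set (V n)} (hs : IsOpen s) {v : V n → ℂ}
    {z T : Y → V n → ℂ} (hv : ContDiffOn ℝ ∞ v s) (hz : ∀ y, ContDiffOn ℝ ∞ (z y) s)
    (hT : ∀ y, ContDiffOn ℝ ∞ (T y) s) (k : Fin n) :
    EqOn (pd k fun x => v x + ∑ y, z y x * T y x)
      (fun x => pd k v x + ∑ y, pd k (z y) x * T y x + ∑ y, z y x * pd k (T y) x) s := by
  intro x hx
  have h1 : ∀ y, DifferentiableAt ℝ (fun x => z y x * T y x) x := fun y =>
    (hd_diff hs (hz y) hx).mul (hd_diff hs (hT y) hx)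
  have h2 : ∀ y, fderiv ℝ (fun x => z y x * T y x) x (ee k) = _ := fun y =>
    sys_pd_mul (hd_diff hs (hz y) hx) (hd_diff hs (hT y) hx) k
  rw [pd, fderiv_fun_add (hd_diff hs hv hx) (DifferentiableAt.fun_sum fun y _ => h1 y),
    fderiv_fun_sum fun y _ => h1 y, ContinuousLinearMap.add_apply, ContinuousLinearMap.sum_apply,
    Finset.sum_congr rfl fun y _ => h2 y, Finset.sum_add_distrib, ← add_assoc]
  rfl

theorem heq_sw {P Q Y : Type} [Fintype P] [Fintype Q] [Fintype Y] (g f : P → Q → ℂ)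
    (F : P → Q → Y → ℂ) : ∑ a, ∑ b, g a b * (f a b + ∑ y, F a b y) =
      ∑ a, ∑ b, g a b * f a b + ∑ y, ∑ a, ∑ b, g a b * F a b y := by
  simp only [mul_add, Finset.sum_add_distrib, Finset.mul_sum]
  rw [Finset.sum_comm (γ := Y)]
  congr 1
  exact Finset.sum_congr rfl fun a _ => Finset.sum_comm

theorem heq_alg {P Q : Type} [Fintype P] [Fintype Q] {g z2 T2 : P → P → ℂ} {a w1 : P → Q → ℂ}
    {z1 T1 : P → ℂ} {w : Q → ℂ} {z T : ℂ} (h : ∀ j k, g j k = g k j) :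
    ∑ j, ∑ k, g j k * (z2 j k * T + z1 k * T1 j + z1 j * T1 k + z * T2 j k) +
      ∑ j, ∑ m, a j m * (w1 j m * T + w m * T1 j) =
      (∑ j, ∑ k, g j k * z2 j k + ∑ j, ∑ m, a j m * w1 j m) * T +
        ∑ j, z1 j * (2 * ∑ k, g j k * T1 k) + z * ∑ j, ∑ k, g j k * T2 j k +
        ∑ m, w m * ∑ k, a k m * T1 k := by
  have h1 : ∑ j, ∑ k, g j k * (z1 k * T1 j) = ∑ j, ∑ k, g j k * (z1 j * T1 k) := by
    rw [Finset.sum_comm]
    exact Finset.sum_congr rfl fun j _ => Finset.sum_congr rfl fun k _ => by rw [h]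
  have h2 : ∑ j, ∑ m, a j m * (w m * T1 j) = ∑ m, ∑ j, a j m * (w m * T1 j) := Finset.sum_comm
  simp only [mul_add, add_mul, two_mul, Finset.sum_add_distrib, Finset.mul_sum, Finset.sum_mul,
    h1, h2, mul_assoc, mul_left_comm z, mul_left_comm (z1 _), mul_left_comm (w _)]
  ring

/-- Leibniz rule for `Lo`, with `sy` for the cross terms (`sys_pd_mul`, `pd_congr`) -/
theorem lo_mul {Y : Type} [Fintype Y] {s : Set (V n)} (hs : IsOpen s) (hx : x ∈ s)
    (hsy : ∀ j k, γ₁ j k x = γ₁ k j x) {v : Fa ι n} {z : ι → Y → V n → ℂ} {T : Y → V n → ℂ}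
    (hv : ∀ l, ContDiffOn ℝ ∞ (v l) s) (hz : ∀ l y, ContDiffOn ℝ ∞ (z l y) s)
    (hT : ∀ y, ContDiffOn ℝ ∞ (T y) s) (l : ι) :
    Lo γ₁ a₁ (fun m x => v m x + ∑ y, z m y x * T y x) l x = Lo γ₁ a₁ v l x +
      ∑ y, (Lo γ₁ a₁ (fun m => z m y) l x * T y x +
        ∑ j, pd j (z l y) x * (2 * ∑ k, γ₁ j k x * pd k (T y) x) +
        z l y x * ∑ j, ∑ k, γ₁ j k x * pd j (pd k (T y)) x +
        ∑ m, z m y x * ∑ k, a₁ k l m x * pd k (T y) x) := by
  have h1 := fun m k => heq_pd hs (hv m) (hz m) hT k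
  have h2 : ∀ j k, pd j (pd k fun x => v l x + ∑ y, z l y x * T y x) x = pd j (pd k (v l)) x +
      ∑ y, (pd j (pd k (z l y)) x * T y x + pd k (z l y) x * pd j (T y) x +
        pd j (z l y) x * pd k (T y) x + z l y x * pd j (pd k (T y)) x) := by
    intro j k
    have h3 := fun y => contDiffOn_pd hs (hz l y) k
    rw [pd_congr hs (h1 l k) j hx, heq_pd hs ((contDiffOn_pd hs (hv l) k).add
      (ContDiffOn.sum fun y _ => (h3 y).mul (hT y))) (hz l)
      (fun y => contDiffOn_pd hs (hT y) k) j hx]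
    simp only [heq_pd hs (contDiffOn_pd hs (hv l) k) h3 hT j hx, Finset.sum_add_distrib, add_assoc]
  have h3 : ∀ j m, pd j (fun x => v m x + ∑ y, z m y x * T y x) x = pd j (v m) x +
      ∑ y, (pd j (z m y) x * T y x + z m y x * pd j (T y) x) := fun j m => by
    rw [h1 m j hx, Finset.sum_add_distrib, ← add_assoc]
  simp only [Lo, h2, h3, heq_sw]
  rw [add_add_add_comm, ← Finset.sum_add_distrib (ι := Y)]
  congr 1
  exact Finset.sum_congr rfl fun y _ => heq_alg hsy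

omit [DecidableEq ι] in
theorem heq_congr {s : Set (V n)} (hs : IsOpen s) (hx : x ∈ s) {v w : Fa ι n}
    (h : ∀ m, EqOn (v m) (w m) s) (l : ι) : Lo γ₁ a₁ v l x = Lo γ₁ a₁ w l x := by
  simp only [Lo, fun j k => pd_congr hs (pd_congr hs (h l) k) j hx,
    fun j m => pd_congr hs (h m) j hx]

theorem heq_cm (hd : (Tm u x).det ≠ 0) {α : Mi n} (h : α ∈ NS o M) (l : ι) (y : Ji o M ι) :
    Cm u α l y x = if y.1.1 = α ∧ y.2 = l then 1 else 0 := by
  refine (cm_nm hd (⟨α, h⟩, l) y).trans (if_congr ⟨?_, fun h1 => ?_⟩ rfl rfl)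
  · rintro rfl
    exact ⟨rfl, rfl⟩
  · exact Prod.ext (Subtype.ext h1.1.symm) h1.2.symm

theorem heq_rr (hM : 2 ≤ M) (hd : (Tm u x).det ≠ 0) {S : Fin n → Fin n → V n → ℂ}
    (d : Fin n → ι → ι → V n → ℂ) (hS : S o o x = 0) (l : ι) (y : Ji o M ι) :
    rr S d l y x = ∑ j, ∑ k, S j k x * Cm u (j ::ₘ k ::ₘ 0) l y x +
      ∑ j, ∑ m, d j l m x * Cm u (j ::ₘ 0) m y x := by
  unfold rr
  congr 1
  · refine Finset.sum_congr rfl fun j _ => Finset.sum_congr rfl fun k _ => ?_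
    by_cases h : j = o ∧ k = o
    · rw [h.1, h.2, hS, ite_self, zero_mul]
    · rw [heq_cm hd (mem_NS.2 ⟨by simpa using hM, ?_⟩), mul_ite, mul_one, mul_zero]
      simp only [Multiset.count_cons, Multiset.count_zero]
      split_ifs with h1 h2
      · exact absurd ⟨h2.symm, h1.symm⟩ h
      all_goals omega
  · refine Finset.sum_congr rfl fun j _ => ?_
    have h : j ::ₘ 0 ∈ NS o M := mem_NS.2 ⟨by simpa using one_le_two.trans hM,
      (Multiset.count_le_card _ _).trans (by simp)⟩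
    simp only [heq_cm hd h]
    by_cases h1 : y.1.1 = j ::ₘ 0
    · simp [h1]
    · simp only [h1, false_and, if_false, mul_zero, Finset.sum_const_zero]

/-- On `Om`: `J (u i) m = u i m + ∑ y, zz m y * dM y.1.1 (u i y.2)` (`zz_mul`), so `Lo γ₁ a₁` of the right side
vanishes (`pd_congr`). Expand (`lo_mul`, `dM_cons`), use `Lo γ₁ a₁ (u i) = Lo γ₁ a₁ (u i) - Lo γ₂ a₂ (u i)`,
multiply by `(Tm u x)⁻¹ i y'` and sum over `i`. In the source term `j ::ₘ k ::ₘ 0` is normal unless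
`j = k = o`, where `γ₁ o o - γ₂ o o = 0`; use `cm_nm`. -/
theorem zz_eq (hM : 2 ≤ M) (h₁ : Nr o K δ γ₁ a₁) (h₂ : Nr o K δ γ₂ a₂)
    (hJ : JO o p B A c γ₁ a₁ γ₂ a₂ J) (hu : ∀ i, So γ₂ a₂ (u i))
    (hd : ∀ x ∈ ball (0 : V n) 2, (Tm u x).det ≠ 0)
    (hi : ∀ i y, ContDiffOn ℝ ∞ (fun x => (Tm u x)⁻¹ i y) (ball 0 2)) (l : ι) (y' : Ji o M ι)
    (hx : x ∈ Om o p) :
    Lo γ₁ a₁ (fun m => zz J u m y') l x + ∑ y, ∑ j, k1 γ₁ u j y y' x * pd j (zz J u l y) x +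
      ∑ m, ∑ y, k0 γ₁ a₁ u l m y y' x * zz J u m y x +
      rr (fun j k x => γ₁ j k x - γ₂ j k x) (fun k l m x => a₁ k l m x - a₂ k l m x) l y' x = 0 := by
  have hs := Om_open o p
  have hb := Om_sub2 o p
  have hx' := hb hx
  have su : ∀ i m, ContDiffOn ℝ ∞ (u i m) (Om o p) := fun i m => ((hu i).1 m).mono hb
  have d1 : ∀ i m k α, pd k (dM α (u i m)) x = dM (k ::ₘ α) (u i m) x := fun i m k α =>
    (dM_cons hs (su i m) k α hx).symm
  have d2 : ∀ i m j k α, pd j (pd k (dM α (u i m))) x = dM (j ::ₘ k ::ₘ α) (u i m) x :=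
    fun i m j k α => ((dM_cons hs (su i m) j _ hx).trans
      (pd_congr hs (dM_cons hs (su i m) k α) j hx)).symm
  obtain ⟨D, hD⟩ : ∃ D : Mi n → ι → Ji o M ι → ℂ, D = fun α m i => dM α (u i m) x := ⟨_, rfl⟩
  have key : (∑ j, ∑ k, (γ₁ j k x - γ₂ j k x) • D (j ::ₘ k ::ₘ 0) l +
      ∑ j, ∑ m, (a₁ j l m x - a₂ j l m x) • D (j ::ₘ 0) m) +
      ∑ y : Ji o M ι, (Lo γ₁ a₁ (fun m => zz J u m y) l x • D y.1.1 y.2 +
        ∑ j, pd j (zz J u l y) x • ((2 : ℂ) • ∑ k, γ₁ j k x • D (k ::ₘ y.1.1) y.2) +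
        zz J u l y x • ∑ j, ∑ k, γ₁ j k x • D (j ::ₘ k ::ₘ y.1.1) y.2 +
        ∑ m, zz J u m y x • ∑ k, a₁ k l m x • D (k ::ₘ y.1.1) y.2) = 0 := by
    funext i
    have e1 := hJ.eq (u i) (hu i) l x hx
    rw [heq_congr hs hx (w := fun m x => u i m x + ∑ y, zz J u m y x * dM y.1.1 (u i y.2) x)
      (fun m x hx => zz_mul (hd x (hb hx)) m i), lo_mul hs hx (fun j k => h₁.sy j k x hx') (su i)
      (fun m y => (zz_vz hJ hu hd hi m y).1) fun y => dM_smooth hs (su i _) _,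
      ← sub_zero (Lo γ₁ a₁ (u i) l x), ← (hu i).2 l x hx'] at e1
    simp only [d1, d2] at e1
    simp only [Finset.sum_apply, Pi.add_apply, Pi.smul_apply, smul_eq_mul, hD, Pi.zero_apply]
    refine Eq.trans ?_ (e1.trans ((hu i).2 l x hx'))
    congr 1
    simp only [Lo, ← d1 _ _ _ 0, ← d2 _ _ _ _ 0, dM_zero, sub_mul, Finset.sum_sub_distrib]
    ring
  let Λ : (Ji o M ι → ℂ) →ₗ[ℂ] ℂ := ∑ i, (Tm u x)⁻¹ i y' • LinearMap.proj i
  have hΛ : ∀ α m, Λ (D α m) = Cm u α m y' x := fun α m => by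
    simp only [Λ, LinearMap.sum_apply, LinearMap.smul_apply, LinearMap.proj_apply, hD, Cm,
      smul_eq_mul, mul_comm]
  have e := congrArg Λ key
  simp only [map_add, map_sum, map_smul, map_zero, hΛ, smul_eq_mul, Finset.sum_add_distrib,
    cm_nm (hd x hx'), mul_ite, mul_one, mul_zero, Finset.sum_ite_eq', Finset.mem_univ,
    if_true] at e
  rw [heq_rr hM (hd x hx') _ (by rw [h₁.oo x hx', h₂.oo x hx', sub_self]), Finset.sum_comm (γ := ι)]
  simp only [k1, k0, add_mul, Finset.sum_add_distrib, ite_mul, zero_mul, Finset.sum_ite_eq,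
    Finset.mem_univ, if_true]
  simp only [mul_comm _ (pd _ _ x), mul_comm _ (zz J u _ _ x)]
  linear_combination e

end Vale.Agent.P088.Mo
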