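import Vale.Agent.P088F.HD

/-! P088, part H: solutions with vanishing normal jets are flat. -/

open MeasureTheory Set Filter Topology Metric
open scoped ContDiff FourierTransform

noncomputable section

namespace Vale.Agent.P088.Mo

open Vale.Agent.P292E

variable {n : ℕ} {ι : Type} {s : Set (V n)} {f c : V n → ℂ} {x : V n}

theorem hflat_it (hs : IsOpen s) (hf : ContDiffOn ℝ ∞ f s) (i : ℕ) (v : Fin i → Fin n) :
    EqOn (fun y => iteratedFDeriv ℝ i f y fun j => ee (v j)) (dl (List.ofFn v) f) s := by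
  induction i with
  | zero => exact fun y _ => by simp [dl]
  | succ i ih =>
    intro y hy
    have h1 : DifferentiableAt ℝ (iteratedFDeriv ℝ i f) y :=
      (BdC_at hs hf hy (i + 1)).differentiableAt_iteratedFDeriv (by exact_mod_cast i.lt_succ_self)
    rw [List.ofFn_succ, dl, ← pd_congr hs (ih fun j => v j.succ) (v 0) hy]
    exact h1.iteratedFDeriv_succ_apply_left'

theorem hflat_pd (hs : IsOpen s) (hc : ContDiffOn ℝ ∞ c s) (hf : ContDiffOn ℝ ∞ f s) (j : Fin n) :
    EqOn (pd j fun y => c y * f y) (fun y => pd j c y * f y + c y * pd j f y) s := fun y hy => by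
  simp only [pd]
  rw [fderiv_fun_mul ((BdC_at hs hc hy 1).differentiableAt (by simp))
    ((BdC_at hs hf hy 1).differentiableAt (by simp))]
  simp only [ContinuousLinearMap.add_apply, ContinuousLinearMap.smul_apply, smul_eq_mul]
  ring

/-- `iteratedFDeriv i f x (ee ∘ v) = dl (List.ofFn v) f x` on `s` (induction on `i`,
`iteratedFDeriv_succ_apply_left`); a multilinear map that vanishes on basis tuples is zero
(`Module.Basis.ext_multilinear`); use `dM_coe`. -/
theorem flat_iter (hs : IsOpen s) (hf : ContDiffOn ℝ ∞ f s) (hx : x ∈ s) {k : ℕ}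
    (h : ∀ α : Mi n, α.card < k → dM α f x = 0) : ∀ i < k, iteratedFDeriv ℝ i f x = 0 := by
  intro i hi
  refine ContinuousMultilinearMap.toMultilinearMap_injective (Module.Basis.ext_multilinear
    (fun _ => (EuclideanSpace.basisFun (Fin n) ℝ).toBasis) fun v => ?_)
  have h1 := hflat_it hs hf i v hx
  rw [← dM_coe hs hf _ hx, h _ (by simpa using hi)] at h1
  simpa [ee] using h1

/-- Leibniz rule at a flat point. Induction on `α` generalising `c f k`, with `dM_cons'` and
`pd j (c f) = pd j c * f + c * pd j f` on `s`; the first summand is handled by the induction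
hypothesis too: `dM α (pd j c * f) x = pd j c x * dM α f x = 0`. -/
theorem flat_mul (hs : IsOpen s) (hc : ContDiffOn ℝ ∞ c s) (hf : ContDiffOn ℝ ∞ f s) (hx : x ∈ s)
    (α : Mi n) (h : ∀ β : Mi n, β.card < α.card → dM β f x = 0) :
    dM α (fun y => c y * f y) x = c x * dM α f x := by
  induction α using Multiset.induction_on generalizing c f with
  | empty => simp only [dM_zero]
  | cons j α ih =>
    rw [Multiset.card_cons] at h
    have hc' := contDiffOn_pd hs hc j
    have hf' := contDiffOn_pd hs hf j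
    rw [dM_cons' hs (hc.mul hf) j α hx, dM_congr hs (hflat_pd hs hc hf j) α hx,
      dM_add hs (hc'.mul hf) (hc.mul hf') α hx]
    simp only
    rw [ih hc' hf fun β hβ => h β (Nat.lt_succ_of_lt hβ), h α (Nat.lt_succ_self _), mul_zero,
      zero_add, dM_cons' hs hf j α hx]
    refine ih hc hf' fun β hβ => ?_
    rw [← dM_cons' hs hf j β hx]
    exact h _ (by simpa using hβ)

variable [Fintype ι] {o : Fin n} {K : ℕ} {δ : ℝ} {γ : Fin n → Fin n → V n → ℂ}
  {a : Fin n → ι → ι → V n → ℂ} {u : Fa ι n}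

/-- Strong induction on `α.card`, then on `α.count o`. If the count is at least two then
`α = o ::ₘ o ::ₘ β`; apply `dM β` to the equation (`dM_congr`, `dM_sum`, `flat_mul`): the first order
terms vanish by the outer hypothesis, the terms `γ j k x * dM (j ::ₘ k ::ₘ β)` with
`(j, k) ≠ (o, o)` by the inner one, and `γ o o x = 1`. -/
theorem flat_sol (hN : Nr o K δ γ a) (hu : So γ a u) (hx : x ∈ ball (0 : V n) 2) {k : ℕ}
    (h : ∀ l (α : Mi n), α.card < k → α.count o ≤ 1 → dM α (u l) x = 0) :
    ∀ l (α : Mi n), α.card < k → dM α (u l) x = 0 := by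
  intro l α hk
  have ho : IsOpen (ball (0 : V n) 2) := isOpen_ball
  have s1 := fun j m => contDiffOn_pd ho (hu.1 m) j
  have e1 : ∀ β j m, dM β (pd j (u m)) x = dM (j ::ₘ β) (u m) x := fun β j m =>
    (dM_cons' ho (hu.1 m) j β hx).symm
  have e2 : ∀ β j i m, dM β (pd j (pd i (u m))) x = dM (i ::ₘ j ::ₘ β) (u m) x := fun β j i m =>
    (dM_cons' ho (s1 i m) j β hx).symm.trans (e1 _ i m)
  induction hm : α.card using Nat.strong_induction_on generalizing α l with
  | _ m ih =>
  induction hc : α.count o using Nat.strong_induction_on generalizing α l with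
  | _ c ih' =>
  rcases le_or_gt (α.count o) 1 with h1 | h1
  · exact h l α hk h1
  obtain ⟨α', rfl⟩ := Multiset.exists_cons_of_mem (Multiset.count_pos.1 (zero_lt_one.trans h1))
  rw [Multiset.count_cons_self] at h1
  obtain ⟨β, rfl⟩ := Multiset.exists_cons_of_mem
    (Multiset.count_pos.1 (Nat.lt_of_succ_lt_succ h1))
  simp only [Multiset.card_cons, Multiset.count_cons_self] at hm hc hk
  have out : ∀ m' (β' : Mi n), β'.card < β.card + 1 + 1 → dM β' (u m') x = 0 := fun m' β' hβ =>
    ih _ (hm ▸ hβ) m' β' (hβ.trans hk) rfl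
  have g1 := fun j i => (hN.gs j i).mul (contDiffOn_pd ho (s1 i l) j)
  have g2 := fun j m' => (hN.as j l m').mul (s1 j m')
  have G1 := fun j => ContDiffOn.sum fun i (_ : i ∈ Finset.univ) => g1 j i
  have G2 := fun j => ContDiffOn.sum fun i (_ : i ∈ Finset.univ) => g2 j i
  have h2 := dM_congr ho (g := fun _ => 0) (hu.2 l) β hx
  unfold Lo at h2
  rw [dM_const, ite_self, dM_add ho (ContDiffOn.sum fun j _ => G1 j)
    (ContDiffOn.sum fun j _ => G2 j) β hx] at h2
  simp only [dM_sum _ ho G1 β hx, dM_sum _ ho G2 β hx, dM_sum _ ho (g1 _) β hx,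
    dM_sum _ ho (g2 _) β hx] at h2
  have t1 : ∀ j i, dM β (fun y => γ j i y * pd j (pd i (u l)) y) x =
      γ j i x * dM (i ::ₘ j ::ₘ β) (u l) x := fun j i => by
    rw [flat_mul ho (hN.gs j i) (contDiffOn_pd ho (s1 i l) j) hx β fun β' hβ => by
      rw [e2]
      exact out _ _ (by simpa using hβ), e2]
  have t2 : ∀ j m', dM β (fun y => a j l m' y * pd j (u m') y) x = 0 := fun j m' => by
    rw [flat_mul ho (hN.as j l m') (s1 j m') hx β fun β' hβ => by
      rw [e1]
      exact out _ _ (by simpa using Nat.lt_succ_of_lt hβ), e1, out _ _ (by simp), mul_zero]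
  have t3 : ∀ j i, j ≠ o ∨ i ≠ o → γ j i x * dM (i ::ₘ j ::ₘ β) (u l) x = 0 := fun j i hji => by
    refine mul_eq_zero_of_right _ (ih' _ ?_ l _ (by simpa using hk) (by simpa using hm) rfl)
    rw [← hc, Multiset.count_cons, Multiset.count_cons]
    split_ifs with c1 c2 c2
    · exact (hji.elim (fun h => h c1.symm) fun h => h c2.symm).elim
    all_goals omega
  simp only [t1, t2, Finset.sum_const_zero, add_zero] at h2
  rw [Finset.sum_eq_single o (fun j _ hj => Finset.sum_eq_zero fun i _ => t3 j i (Or.inl hj))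
    (by simp), Finset.sum_eq_single o (fun i _ hi => t3 o i (Or.inr hi)) (by simp), hN.oo x hx,
    one_mul] at h2
  exact h2

/-- `flat_sol`, `flat_iter`, `BdC_flat` -/
theorem flat_bd (hN : Nr o K δ γ a) (hu : So γ a u) {r D : ℝ} (hr : 0 ≤ r)
    (hx : closedBall x r ⊆ ball (0 : V n) 2) {k : ℕ} (hD : ∀ l, Bd k (u l) (ball 0 2) D)
    (h : ∀ l (α : Mi n), α.card < k → α.count o ≤ 1 → dM α (u l) x = 0) :
    ∀ l, ∀ y ∈ closedBall x r, ‖u l y‖ ≤ D * r ^ k := by
  intro l y hy
  have hx0 := hx (mem_closedBall_self hr)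
  have h1 := BdC_flat isOpen_ball (hu.1 l) hx
    (flat_iter isOpen_ball (hu.1 l) hx0 (flat_sol hN hu hx0 h l))
    (fun z hz => hD l k le_rfl z (hx hz)) k 0 (zero_add k) y hy
  rw [norm_iteratedFDeriv_zero] at h1
  exact h1.trans (mul_le_mul_of_nonneg_left (pow_le_pow_left₀ (norm_nonneg _)
    (mem_closedBall_iff_norm.1 hy) k) ((norm_nonneg _).trans ((hD l).norm_le hx0)))

end Vale.Agent.P088.Mo
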