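import Vale.Agent.P088F.HNrm
import Vale.Agent.P292E.Ell
import Vale.Agent.P292E.Sys

/-! P088, part H: Fourier estimates for the norms of negative order. -/

open MeasureTheory Set Filter Topology Metric
open scoped ContDiff FourierTransform

noncomputable section

namespace Vale.Agent.P088.Mo

open Vale.Agent.P292E

variable {n : ℕ} {τ : ℝ} {s : ℕ} {f g : V n → ℂ} {U : Set (V n)}

/-- `FEq_four`, `FEq_pd`, `sys_ibp` (or `Real.fourier_fderiv`) -/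
theorem four_pd (hf : Tst U f) (j : Fin n) (ξ : V n) :
    𝓕 (pd j f) ξ = 2 * Real.pi * Complex.I * ξ j * 𝓕 f ξ := by
  have h1 := sys_ibp (cut_contDiff isOpen_univ (⟨hf.1, hf.2.1, subset_univ _⟩ : Tst univ f)
    (FEq_smooth ξ).contDiffOn) j
  have e : ∀ x, (pd j f x + -(2 * Real.pi * Complex.I) * ξ j * f x) * FEq_e ξ x =
      FEq_e ξ x * pd j f x - 2 * Real.pi * Complex.I * ξ j * (FEq_e ξ x * f x) := fun x => by ring
  rw [FEq_pd ξ hf.1] at h1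
  simp only [e] at h1
  rw [integral_sub (FEq_ie ξ (FEq_int (hf.pd j).1)) ((FEq_ie ξ (FEq_int hf)).const_mul _),
    integral_const_mul, sub_eq_zero] at h1
  rw [FEq_four, FEq_four, h1]

theorem four_cd (hf : Tst U f) (o : Fin n) (τ : ℝ) (j : Fin n) (ξ : V n) :
    𝓕 (cd o τ j f) ξ =
      (2 * Real.pi * Complex.I * ξ j + if j = o then (τ : ℂ) else 0) * 𝓕 f ξ := by
  have e : ∀ x, FEq_e ξ x * cd o τ j f x =
      FEq_e ξ x * pd j f x + (if j = o then (τ : ℂ) else 0) * (FEq_e ξ x * f x) := fun x => by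
    rw [cd]; ring
  rw [add_mul, ← four_pd hf, FEq_four, FEq_four, FEq_four]
  simp only [e]
  rw [integral_add (FEq_ie ξ (FEq_int (hf.pd j).1)) ((FEq_ie ξ (FEq_int hf)).const_mul _),
    integral_const_mul]

theorem hnrm2_le (ξ : V n) (j : Fin n) : ‖2 * Real.pi * Complex.I * ξ j‖ ≤ 7 * ‖ξ‖ := by
  have h1 : ‖2 * Real.pi * Complex.I‖ = 2 * Real.pi := by
    simp [abs_of_pos Real.pi_pos]
  rw [norm_mul, h1, Complex.norm_real]
  exact mul_le_mul (by linarith [Real.pi_lt_d2]) (PiLp.norm_apply_le ξ j) (norm_nonneg _)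
    (by norm_num)

theorem hnrm2_sym (hτ : 1 ≤ τ) (hf : Integrable f) {m : V n → ℂ} (h : ∀ ξ, 𝓕 g ξ = m ξ * 𝓕 f ξ)
    (hm : ∀ ξ, ‖m ξ‖ ≤ 7 * (τ + ‖ξ‖)) : nrm τ (s + 1) g ≤ 7 * nrm τ s f := by
  refine nrm_le hτ fun ξ => ?_
  rw [h, norm_mul]
  refine (mul_le_mul (hm ξ) (nrm_ge hτ hf s ξ) (norm_nonneg _)
    ((norm_nonneg _).trans (hm ξ))).trans_eq ?_
  ring

theorem nrm_pd (hτ : 1 ≤ τ) (hf : Tst U f) (s : ℕ) (j : Fin n) :
    nrm τ (s + 1) (pd j f) ≤ 7 * nrm τ s f := by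
  refine hnrm2_sym hτ (FEq_int hf) (four_pd hf j) fun ξ => (hnrm2_le ξ j).trans ?_
  linarith

theorem nrm_cd (hτ : 1 ≤ τ) (hf : Tst U f) (s : ℕ) (o j : Fin n) :
    nrm τ (s + 1) (cd o τ j f) ≤ 7 * nrm τ s f := by
  refine hnrm2_sym hτ (FEq_int hf) (four_cd hf o τ j) fun ξ => (norm_add_le _ _).trans ?_
  have h1 : ‖if j = o then (τ : ℂ) else 0‖ ≤ τ := by
    split_ifs
    · rw [Complex.norm_real, Real.norm_of_nonneg (by linarith)]
    · rw [norm_zero]; linarith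
  linarith [hnrm2_le ξ j]

/-- `C` is the volume of the unit ball -/
theorem nrm_sup (n : ℕ) : ∃ C : ℝ, 0 ≤ C ∧ ∀ (τ : ℝ) (s : ℕ) (f : V n → ℂ) (E : ℝ), 1 ≤ τ →
    Tst (ball 0 1) f → (∀ x, ‖f x‖ ≤ E) → nrm τ s f ≤ C * E := by
  refine ⟨volume.real (ball (0 : V n) 1), measureReal_nonneg, fun τ s f E hτ hf hE =>
    nrm_le hτ fun ξ => ?_⟩
  have h0 : 0 ≤ volume.real (ball (0 : V n) 1) * E :=
    mul_nonneg measureReal_nonneg ((norm_nonneg _).trans (hE 0))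
  refine le_trans ?_ (le_mul_of_one_le_right h0 (one_le_pow₀ (by linarith [norm_nonneg ξ])))
  refine (VectorFourier.norm_fourierIntegral_le_integral_norm _ _ _ _ _).trans ?_
  rw [← setIntegral_eq_integral_of_forall_compl_eq_zero (s := ball 0 1)]
  · refine (Real.le_norm_self _).trans ((norm_setIntegral_le_of_norm_le_const
      measure_ball_lt_top fun x _ => (norm_norm _).trans_le (hE x)).trans_eq (mul_comm _ _))
  · intro x hx
    rw [image_eq_zero_of_notMem_tsupport fun h => hx (hf.2.2 h), norm_zero]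

/-- `four_mul n S` with the weight `((τ + ‖ξ‖) ^ s)⁻¹`; `τ + ‖ξ - η‖ ≤ (1 + ‖η‖) * (τ + ‖ξ‖)` -/
theorem nrm_mul' (n S : ℕ) : ∃ (K : ℕ) (C : ℝ), 0 ≤ C ∧ ∀ (τ : ℝ) (s : ℕ) (c f : V n → ℂ) (D : ℝ),
    1 ≤ τ → s ≤ S → Tst (ball 0 3) c → Bd K c univ D → Integrable f →
    nrm τ s (fun x => c x * f x) ≤ C * D * nrm τ s f := by
  obtain ⟨K, C, hC, h⟩ := four_mul n S
  refine ⟨K, C, hC, fun τ s c f D hτ hs hc hD hf => nrm_le hτ fun ξ => ?_⟩
  have hp : ∀ η : V n, 0 < (τ + ‖η‖) ^ s := fun η => pow_pos (by linarith [norm_nonneg η]) _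
  rw [← mul_inv_le_iff₀ (hp ξ)]
  refine h c f (fun η => ((τ + ‖η‖) ^ s)⁻¹) D _ hc hD hf (fun η => (inv_pos.2 (hp η)).le)
    (fun ζ η => ?_) (fun η => (mul_inv_le_iff₀ (hp η)).2 (nrm_ge hτ hf s η)) ξ
  have h0 := norm_nonneg η
  have h1 := norm_nonneg ζ
  rw [le_mul_inv_iff₀ (hp _), inv_mul_le_iff₀ (hp _)]
  refine le_trans ?_ (mul_le_mul_of_nonneg_left (pow_le_pow_right₀ (by linarith) hs) (hp ζ).le)
  rw [← mul_pow]
  refine pow_le_pow_left₀ (by linarith [norm_nonneg (ζ - η)]) ?_ _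
  nlinarith [norm_sub_le ζ η, mul_nonneg h0 h1]

/-- cut `c` with `ellC n 1` (one on `closedBall 0 (5 / 4)`, support in `closedBall 0 (4 / 3)`, so a test
function in `ball 0 2`), `cut_Bd`, `nrm_mul'` -/
theorem nrm_mul (n S : ℕ) : ∃ (K : ℕ) (C : ℝ), 0 ≤ C ∧ ∀ (τ : ℝ) (s : ℕ) (c f : V n → ℂ) (D : ℝ),
    1 ≤ τ → s ≤ S → ContDiffOn ℝ ∞ c (ball 0 2) → Bd K c (ball 0 2) D → Tst (ball 0 1) f →
    nrm τ s (fun x => c x * f x) ≤ C * D * nrm τ s f := by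
  obtain ⟨K, C, hC, h⟩ := nrm_mul' n S
  have hχ : Tst (ball 0 2) (ellC n 1) := ⟨(ell_tst n 1).1, (ell_tst n 1).2.1,
    (ell_supp n 1).trans (closedBall_subset_ball (by norm_num))⟩
  obtain ⟨C', hC', h'⟩ := cut_Bd K isOpen_ball hχ
  refine ⟨K, C * C', mul_nonneg hC hC', fun τ s c f D hτ hs hc hD hf => ?_⟩
  have h1 := cut_contDiff isOpen_ball hχ hc
  have h2 := h τ s _ f _ hτ hs ⟨h1.1, h1.2.1, h1.2.2.trans (ball_subset_ball (by norm_num))⟩
    (h' c D ((norm_nonneg _).trans (hD.norm_le (mem_ball_self two_pos))) hc hD) (FEq_int hf)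
  have e : (fun x => ellC n 1 x * c x * f x) = fun x => c x * f x := funext fun x => by
    by_cases hx : x ∈ tsupport f
    · rw [ell_one n 1 (ball_subset_closedBall (ball_subset_ball (by norm_num) (hf.2.2 hx))),
        one_mul]
    · rw [image_eq_zero_of_notMem_tsupport hx, mul_zero, mul_zero]
  rw [e] at h2
  exact h2.trans_eq (by ring)

end Vale.Agent.P088.Mo
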