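import Vale.Agent.P088F.HW1
import Vale.Agent.P088F.HNrm2

/-! P088, part H: local interpolation. -/

open MeasureTheory Set Filter Topology Metric
open scoped ContDiff FourierTransform ComplexConjugate

noncomputable section

namespace Vale.Agent.P088.Mo

open Vale.Agent.P292E

theorem hint_cut {n M : ℕ} {s : Set (V n)} {χ a : V n → ℂ} {A B : ℝ} (hs : IsOpen s)
    (hχ : Tst s χ) (h1 : Bd M χ univ A) (hA : 0 ≤ A) (hB : 0 ≤ B) (ha : ContDiffOn ℝ ∞ a s)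
    (h : Bd M a s B) : Bd M (fun x => χ x * a x) univ (2 ^ M * A * B) := by
  intro i hi x _
  by_cases hx : x ∈ tsupport χ
  · exact Bd.mul hs hχ.1.contDiffOn ha (h1.mono le_rfl (subset_univ _) le_rfl) h i hi x
      (hχ.2.2 hx)
  · rw [((BdC_zero a hx).iteratedFDeriv ℝ i).eq_of_nhds]
    refine (Bd_const M (0 : ℂ) univ i hi x (mem_univ x)).trans ?_
    rw [norm_zero]
    positivity

/-- the small neighbourhood -/
def hintS {n : ℕ} (N : ℝ) (x : V n) : Set (V n) := {y | N * ‖y - x‖ < 1 / 9}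

theorem hint_open {n : ℕ} (N : ℝ) (x : V n) : IsOpen (hintS N x) :=
  isOpen_lt (by fun_prop) continuous_const

theorem hint_bump (n K : ℕ) : ∃ C : ℝ, 0 ≤ C ∧ ∀ N : ℝ, 1 ≤ N → ∀ x : V n, ∃ φ : V n → ℂ,
    Tst (hintS N x) φ ∧ Bd K φ univ (C * N ^ K) ∧ ∀ᶠ y in 𝓝 x, φ y = 1 := by
  let b : ContDiffBump (0 : V n) := ⟨1 / 20, 1 / 10, by norm_num, by norm_num⟩
  have hb : Tst univ fun y : V n => ((b y : ℝ) : ℂ) :=
    ⟨Complex.ofRealCLM.contDiff.comp b.contDiff,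
      b.hasCompactSupport.comp_left (g := fun r : ℝ => (r : ℂ)) Complex.ofReal_zero, subset_univ _⟩
  obtain ⟨C, hC, h1⟩ := cut_Bd K isOpen_univ hb
  have h2 := h1 (fun _ => 1) _ (norm_nonneg _) contDiffOn_const (Bd_const K 1 univ)
  simp only [mul_one, norm_one] at h2
  refine ⟨C, hC, fun N hN x => ⟨fun y => (b (-(N • x) + N • y) : ℝ), ?_, ?_, ?_⟩⟩
  all_goals
    have hN0 : 0 ≤ N := zero_le_one.trans hN
    have hn : ∀ y : V n, ‖-(N • x) + N • y‖ = N * ‖y - x‖ := fun y => by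
      rw [neg_add_eq_sub, ← smul_sub, norm_smul, Real.norm_of_nonneg hN0]
  · have hT : tsupport (fun y : V n => ((b (-(N • x) + N • y) : ℝ) : ℂ)) ⊆
        {y | N * ‖y - x‖ ≤ 1 / 10} := by
      refine closure_minimal (fun y hy => ?_) (isClosed_le (by fun_prop) continuous_const)
      have h3 : -(N • x) + N • y ∈ Function.support b := fun h => hy (by
        simp only [h, Complex.ofReal_zero])
      rw [b.support_eq, mem_ball_zero_iff, hn] at h3
      exact le_of_lt h3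
    refine ⟨hb.1.comp (contDiff_const.add (contDiff_const_smul N)), ?_, fun y hy => ?_⟩
    · refine (isCompact_closedBall x 1).of_isClosed_subset (isClosed_tsupport _) fun y hy => ?_
      have h3 : N * ‖y - x‖ ≤ 1 / 10 := hT hy
      have h4 := mul_le_mul_of_nonneg_right hN (norm_nonneg (y - x))
      rw [mem_closedBall_iff_norm]
      linarith
    · have h3 : N * ‖y - x‖ ≤ 1 / 10 := hT hy
      exact lt_of_le_of_lt h3 (by norm_num)
  · intro i hi y _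
    refine (BdC_scale (f := fun y : V n => ((b y : ℝ) : ℂ)) (-(N • x)) hN0 isOpen_univ
      hb.1.contDiffOn (mem_univ _) i).trans ?_
    rw [mul_comm C]
    exact mul_le_mul (pow_le_pow_right₀ hN hi) (h2 i hi _ (mem_univ _)) (norm_nonneg _)
      (by positivity)
  · have ho : IsOpen {y : V n | N * ‖y - x‖ < 1 / 20} := isOpen_lt (by fun_prop) continuous_const
    filter_upwards [ho.mem_nhds (show x ∈ {y : V n | N * ‖y - x‖ < 1 / 20} by simp)] with y hy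
    rw [b.one_of_mem_closedBall (by
      rw [mem_closedBall_zero_iff, hn]
      exact le_of_lt hy), Complex.ofReal_one]

theorem hint_exp (c : ℝ) (i : ℕ) : iteratedDeriv i (fun t : ℝ => ((Real.exp (c * t) : ℝ) : ℂ)) =
    fun t => ((c ^ i * Real.exp (c * t) : ℝ) : ℂ) := by
  induction i with
  | zero => simp only [iteratedDeriv_zero, pow_zero, one_mul]
  | succ i ih =>
    rw [iteratedDeriv_succ, ih]
    funext t
    have h := ((((hasDerivAt_id t).const_mul c).exp.const_mul (c ^ i)).ofReal_comp).deriv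
    simp only [id] at h
    rw [h]
    refine congrArg _ ?_
    ring

theorem hint_near {n : ℕ} {o : Fin n} {p : Pm} (hp : Ok p) {x y : V n} (hx : ‖x‖ ≤ 1 / 2)
    (hy : y ∈ hintS p.N x) : ‖y‖ ≤ 3 / 4 ∧ |tt o p y - tt o p x| ≤ 1 := by
  have h1 : p.N * ‖y - x‖ < 1 / 9 := hy
  have h2 := mul_le_mul_of_nonneg_right hp.N1 (norm_nonneg (y - x))
  have h3 : ‖y‖ ≤ ‖x‖ + ‖y - x‖ := norm_le_insert' y x
  have h4 : ‖y‖ ≤ 3 / 4 := by linarith
  have h5 := tt_lip (o := o) hp (x := y) (y := x) (mem_ball_zero_iff.2 (by linarith))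
    (mem_ball_zero_iff.2 (by linarith))
  exact ⟨h4, by linarith⟩

theorem hint_E {n : ℕ} {o : Fin n} {p : Pm} (hp : Ok p) {m : ℕ} (hm : 1 ≤ m) (K : ℕ) {x : V n}
    (hx : ‖x‖ ≤ 1 / 2) :
    ContDiff ℝ ∞ (fun y => ((Real.exp (-m * tt o p y) : ℝ) : ℂ)) ∧
      Bd K (fun y => ((Real.exp (-m * tt o p y) : ℝ) : ℂ)) (hintS p.N x)
        (K.factorial * (m ^ K * (Real.exp m * Real.exp (-m * tt o p x))) * (3 * p.N) ^ K) := by
  have hg : ContDiff ℝ ∞ fun t : ℝ => ((Real.exp (-m * t) : ℝ) : ℂ) :=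
    Complex.ofRealCLM.contDiff.comp (Real.contDiff_exp.comp (contDiff_const.mul contDiff_id))
  refine ⟨hg.comp (tt_smooth o p), fun i hi y hy => ?_⟩
  obtain ⟨h1, h2⟩ := hint_near (o := o) hp hx hy
  have hm' : (1 : ℝ) ≤ m := by exact_mod_cast hm
  refine tt_comp hp (mem_ball_zero_iff.2 (by linarith)) hg (fun j hj => ?_) i hi
  rw [norm_iteratedFDeriv_eq_norm_iteratedDeriv, hint_exp, Complex.norm_real, norm_mul, norm_pow,
    norm_neg, Real.norm_of_nonneg (by linarith), Real.norm_of_nonneg (Real.exp_pos _).le,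
    ← Real.exp_add]
  refine mul_le_mul (pow_le_pow_right₀ hm' hj) (Real.exp_le_exp.2 ?_) (Real.exp_pos _).le
    (by positivity)
  have h3 := mul_le_mul_of_nonneg_left (abs_le.1 h2).1 (show (0 : ℝ) ≤ m by linarith)
  linarith

theorem hint_alg {a w e₁ e₂ P Q N D : ℝ} {S s j l : ℕ} (ha : 0 ≤ a) (hw : 1 ≤ w)
    (h1 : a ≤ P * N ^ j * D * e₁ * w ^ S) (h2 : a * w ^ (S + 2 * s) ≤ Q * N ^ l) (hP : 0 ≤ P)
    (hQ : 0 ≤ Q) (hN : 1 ≤ N) (hD : 0 ≤ D) (he1 : 0 ≤ e₁) (he2 : 0 ≤ e₂) (he : e₁ ≤ e₂ ^ 2) :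
    a * w ^ s ≤ (P * Q + 1) * N ^ (j + l) * (D + 1) * e₂ := by
  have hw0 : 0 < w := by linarith
  have hN0 : 0 < N := by linarith
  have h4 := mul_le_mul h1 h2 (by positivity) (by positivity)
  have h5 : (a * w ^ s) ^ 2 ≤ P * Q * N ^ (j + l) * D * e₁ := by
    refine le_of_mul_le_mul_right ?_ (pow_pos hw0 S)
    calc _ = a * (a * w ^ (S + 2 * s)) := by ring
      _ ≤ _ := h4
      _ = _ := by ring
  have hPQ : 0 ≤ P * Q := mul_nonneg hP hQ
  have g1 : P * Q ≤ (P * Q + 1) ^ 2 := by nlinarith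
  have g2 : N ^ (j + l) ≤ (N ^ (j + l)) ^ 2 := le_self_pow₀ (one_le_pow₀ hN) two_ne_zero
  have g3 : D ≤ (D + 1) ^ 2 := by nlinarith
  refine (pow_le_pow_iff_left₀ (by positivity) (by positivity) two_ne_zero).1 (h5.trans ?_)
  rw [mul_pow, mul_pow, mul_pow]
  exact mul_le_mul (mul_le_mul (mul_le_mul g1 g2 (by positivity) (by positivity)) g3 hD
    (by positivity)) he he1 (by positivity)

/-- If `x o < 0` then `σ` vanishes near `x`. Otherwise `‖x‖ ≤ 1 / 2` (`half_le`). Let `φ y = φ₀ (N • (y - x))`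
with a fixed bump `φ₀` (radii `1/20`, `1/10`): `‖D^i φ‖ ≤ C N ^ i`. On its support `|tt y - tt x| ≤ 3/10`
(`tt_lip`), so `om = exp (m tt)` (`om_eq`) and `φ σ = (φ * exp (-m tt)) * wz σ`, with
`Bd K (φ * exp (-m tt)) univ (C N ^ (2K) exp (-m tt x))` (`tt_comp`, `norm_iteratedFDeriv_mul_le`). `nrm_mul'`,
`nrm_ge`: `‖𝓕 (φ σ) ξ‖ ≤ C N^(2K) exp (-m tt x) D (m N)^S (1 + ‖ξ‖)^S`. `four_dec n (S + 2 s₀)`:
`‖𝓕 (φ σ) ξ‖ (1 + ‖ξ‖)^(S + 2 s₀) ≤ C N^K`. Multiply the two: `(‖𝓕 (φ σ) ξ‖ (1 + ‖ξ‖)^s₀)^2 ≤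
(C N^f (D + 1) exp (-q tt x))^2`; `abs_le_of_sq_le`, `four_inv n k` (the smooth representative equals
`φ σ` by continuity, and `φ σ = σ` near `x`). -/
theorem interp (n m q S k : ℕ) (hm : 1 ≤ m) (hq : 2 * q ≤ m) : ∃ (K f : ℕ) (C : ℝ), 0 ≤ C ∧
    ∀ (o : Fin n) (p : Pm) (σ : V n → ℂ) (D : ℝ) (s : ℕ), Ok p → s ≤ S → 0 ≤ D →
      ContDiffOn ℝ ∞ σ (ball 0 2) → Bd K σ (ball 0 2) 1 →
      (∀ x ∈ ball (0 : V n) 2, x o < 0 → σ x = 0) → nrm (m * p.N) s (wz o p m σ) ≤ D →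
      ∀ x : V n, ‖x‖ < 1 → 3 < tt o p x → ∀ i ≤ k,
        ‖iteratedFDeriv ℝ i σ x‖ ≤ C * p.N ^ f * (D + 1) * Real.exp (-(q * tt o p x)) := by
  obtain ⟨s₀, C₃, hC₃, h₃⟩ := four_inv n k
  obtain ⟨K₂, C₂, hC₂, h₂⟩ := four_dec n (S + 2 * s₀)
  obtain ⟨K₁, C₁, hC₁, h₁⟩ := nrm_mul' n S
  obtain ⟨Cb, hCb, hb⟩ := hint_bump n (K₁ + K₂)
  set K := K₁ + K₂
  refine ⟨K, K + K + S + K, C₃ * (C₁ * (2 ^ K * Cb * (K.factorial * (m ^ K * Real.exp m) * 3 ^ K)) *
    m ^ S * (C₂ * (2 ^ K * Cb)) + 1), by positivity,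
    fun o p σ D s hp hs hD hσ hB h0 hn x hx ht i hi => ?_⟩
  have hN : 0 < p.N := zero_lt_one.trans_le hp.N1
  rcases lt_or_ge (x o) 0 with hxo | hxo
  · have ho : IsOpen (ball (0 : V n) 2 ∩ {y : V n | y o < 0}) :=
      isOpen_ball.inter (isOpen_lt (by fun_prop) continuous_const)
    have he : σ =ᶠ[𝓝 x] fun _ => 0 := by
      filter_upwards [ho.mem_nhds ⟨mem_ball_zero_iff.2 (by linarith), hxo⟩] with y hy
      exact h0 y hy.1 hy.2
    rw [(he.iteratedFDeriv ℝ i).eq_of_nhds]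
    refine (Bd_const k (0 : ℂ) univ i hi x (mem_univ x)).trans ?_
    rw [norm_zero]
    positivity
  have hx2 : ‖x‖ ≤ 1 / 2 := half_le hp hx hxo (by linarith)
  obtain ⟨φ, hφ, hφB, hφ1⟩ := hb p.N hp.N1 x
  obtain ⟨hE, hEB⟩ := hint_E (o := o) hp hm K hx2
  have hso := hint_open p.N x
  have hs2 : hintS p.N x ⊆ ball 0 2 := fun y hy =>
    mem_ball_zero_iff.2 (by linarith [(hint_near (o := o) hp hx2 hy).1])
  have hs3 : hintS p.N x ⊆ ball 0 3 := hs2.trans (ball_subset_ball (by norm_num))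
  have hc := cut_contDiff hso hφ hE.contDiffOn
  have hcB := hint_cut hso hφ hφB (by positivity) (by positivity) hE.contDiffOn hEB
  have hψ := cut_contDiff hso hφ (hσ.mono hs2)
  have hψB := hint_cut hso hφ hφB (by positivity) zero_le_one (hσ.mono hs2)
    (hB.mono le_rfl hs2 le_rfl)
  have hm' : (1 : ℝ) ≤ m := by exact_mod_cast hm
  have hτ : 1 ≤ m * p.N := one_le_mul_of_one_le_of_one_le hm' hp.N1
  have hwz : Integrable (wz o p m σ) := FEq_int (wz_tst (hσ.mono (Om_sub2 o p)) m)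
  have heq : (fun y => φ y * σ y) =
      fun y => φ y * ((Real.exp (-m * tt o p y) : ℝ) : ℂ) * wz o p m σ y := by
    funext y
    by_cases hy : φ y = 0
    · rw [hy, zero_mul, zero_mul, zero_mul]
    · obtain ⟨g1, g2⟩ := hint_near (o := o) hp hx2 (hφ.2.2 (subset_tsupport _ hy))
      have g3 : ((Real.exp (-m * tt o p y) : ℝ) : ℂ) * ((Real.exp (m * tt o p y) : ℝ) : ℂ) = 1 := by
        rw [← Complex.ofReal_mul, ← Real.exp_add, neg_mul, neg_add_cancel, Real.exp_zero,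
          Complex.ofReal_one]
      unfold wz
      rw [om_eq g1 (by linarith [(abs_le.1 g2).1]), mul_assoc, ← mul_assoc _ _ (σ y), g3, one_mul]
  have g1 := h₁ _ s _ _ _ hτ hs ⟨hc.1, hc.2.1, hc.2.2.trans hs3⟩
    (hcB.mono (Nat.le_add_right K₁ K₂) Subset.rfl le_rfl) hwz
  rw [← heq] at g1
  have g2 := g1.trans (mul_le_mul_of_nonneg_left hn (by positivity))
  have g3 := h₂ _ _ ⟨hψ.1, hψ.2.1, hψ.2.2.trans hs3⟩
    (hψB.mono (Nat.le_add_left K₂ K₁) Subset.rfl le_rfl)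
  have g4 : ∀ ξ, ‖𝓕 (fun y => φ y * σ y) ξ‖ * (1 + ‖ξ‖) ^ s₀ ≤
      (C₁ * (2 ^ K * Cb * (K.factorial * (m ^ K * Real.exp m) * 3 ^ K)) * m ^ S *
        (C₂ * (2 ^ K * Cb)) + 1) * p.N ^ (K + K + S + K) * (D + 1) *
          Real.exp (-(q * tt o p x)) := by
    intro ξ
    have hξ := norm_nonneg ξ
    refine hint_alg (S := S) (e₁ := Real.exp (-m * tt o p x)) (norm_nonneg _) (by linarith) ?_
      ((g3 ξ).trans (le_of_eq (by ring))) (by positivity) (by positivity) hp.N1 hD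
      (Real.exp_pos _).le (Real.exp_pos _).le ?_
    · have e1 : (m * p.N + ‖ξ‖) ^ s ≤ (m * p.N * (1 + ‖ξ‖)) ^ S :=
        (pow_le_pow_right₀ (by linarith) hs).trans
          (pow_le_pow_left₀ (by linarith) (by nlinarith) S)
      refine (nrm_ge hτ (FEq_int hψ) s ξ).trans
        ((mul_le_mul g2 e1 (by positivity) (by positivity)).trans (le_of_eq ?_))
      simp only [mul_pow, pow_add]
      ring
    · rw [← Real.exp_nat_mul]
      refine Real.exp_le_exp.2 ?_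
      have e1 : (2 : ℝ) * q ≤ m := by exact_mod_cast hq
      have e2 := mul_le_mul_of_nonneg_right e1 (show 0 ≤ tt o p x by linarith)
      push_cast
      linarith
  obtain ⟨w, hw1, hw2, hw3⟩ := h₃ _ _ (FEq_int hψ) g4
  have hw4 := (hψ.1.continuous.ae_eq_iff_eq volume hw1.continuous).1 hw2
  have he : σ =ᶠ[𝓝 x] w := by
    filter_upwards [hφ1] with y hy
    rw [← hw4]
    simp only [hy, one_mul]
  rw [(he.iteratedFDeriv ℝ i).eq_of_nhds]
  exact (hw3 i hi x (mem_univ x)).trans (le_of_eq (by ring))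

end Vale.Agent.P088.Mo
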