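import Vale.Agent.P088F.HW

/-! P088, part H: the estimate for one equation of the system. -/

open MeasureTheory Set Filter Topology Metric
open scoped ContDiff FourierTransform

noncomputable section

namespace Vale.Agent.P088.Mo

open Vale.Agent.P292E

theorem hlev_bd {n K : ℕ} {c : V n → ℂ} {c₀ : ℂ} {δ D : ℝ} (hc : ContDiffOn ℝ ∞ c (ball 0 2))
    (h : Bd K (fun x => c x - c₀) (ball 0 2) δ) (hD : δ + ‖c₀‖ ≤ D) : Bd K c (ball 0 2) D :=
  ((Bd.add isOpen_ball (hc.sub contDiffOn_const) contDiffOn_const h (Bd_const K c₀ _)).congr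
    isOpen_ball fun x _ => (sub_add_cancel _ _).symm).mono le_rfl Subset.rfl hD

theorem hlev_zero {n : ℕ} {o : Fin n} {p : Pm} {m : ℕ} {c : V n → ℂ} (f : V n → ℂ)
    (h : ∀ x ∈ ball (0 : V n) 2, c x = 0) (x : V n) : c x * wz o p m f x = 0 := by
  by_cases hx : x ∈ Om o p
  · rw [h x (Om_sub2 o p hx), zero_mul]
  · rw [wz, om_out hx, zero_mul, mul_zero]

theorem hlev_sum {n s : ℕ} {τ D : ℝ} (hτ : 1 ≤ τ) {A B : Type} [Fintype A] [Fintype B]
    {F : A → B → V n → ℂ} (hF : ∀ a b, Tst (ball 0 1) (F a b)) (h : ∀ a b, nrm τ s (F a b) ≤ D) :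
    Integrable (fun x => ∑ a, ∑ b, F a b x) ∧
      nrm τ s (fun x => ∑ a, ∑ b, F a b x) ≤ Fintype.card A * (Fintype.card B * D) :=
  ⟨FEq_int (FEq_sum Finset.univ fun a => FEq_sum Finset.univ (hF a)),
    nrm_sum' hτ (F := fun a x => ∑ b, F a b x) (fun a => FEq_int (FEq_sum Finset.univ (hF a)))
      fun a => nrm_sum' hτ (fun b => FEq_int (hF a b)) (h a)⟩

theorem hlev_pr {n : ℕ} {ι : Type} [Fintype ι] [DecidableEq ι] {o : Fin n} {M : ℕ} (τ : ℝ)
    (R : Mi n → Nm o M → ℂ) (g : Ji o M ι → V n → ℂ) (y' : Ji o M ι) (x : V n) :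
    2 * pr τ R (fun β => g (β, y'.2)) y'.1 x = ∑ y : Ji o M ι, ∑ j,
      if y.1.1.card + 1 = y'.1.1.card ∧ y.2 = y'.2 then
        2 * R (j ::ₘ y.1.1) y'.1 * cd o τ j (g y) x else 0 := by
  rw [pr, Fintype.sum_prod_type, Finset.mul_sum]
  refine Finset.sum_congr rfl fun β _ => ?_
  rw [Finset.sum_eq_single y'.2 (fun i _ hi => by simp [hi]) (by simp)]
  by_cases h : β.1.card + 1 = y'.1.1.card
  · simp only [h, and_self, if_true, Finset.mul_sum, mul_assoc]
  · simp [h]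

/-- Multiply the equation by `om` (`om_out` outside `Om`). With `k = y'.1.1.card`, `s = M - k + 2`, the
function is minus the sum of: `γ j k * wz (pd j (pd k (z l y')))` (`nrm_mul`, bound `δ + 1 ≤ 2`, `w_two`);
`a * wz (pd j (z m y'))` (`w_one'`, `nrm_mono`); for each `y, j` the term
`c1 j y y' * wz (pd j (z l y)) - (if card y + 1 = k ∧ y.2 = y'.2 then 2 R * cd j (wz (z l y)) else 0)`:
zero if `card y + 1 < k` (`z1`; a test function in the unit ball times a function vanishing on `ball 0 2`),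
`(c1 - c) * wz (pd ..) + c * (wz (pd ..) - cd ..)` if `card y + 1 = k` (`w_one'`, `w_one`), and bounded by `Y`
if `k ≤ card y`; `c0 * wz (z m y)`: zero or at most `C δ X` (`nrm_mono`). -/
theorem lev_est {n : ℕ} (ι : Type) [Fintype ι] [DecidableEq ι] {o : Fin n} {M : ℕ} (m : ℕ)
    (hm : 1 ≤ m) (R : Mi n → Nm o M → ℂ) : ∃ (K : ℕ) (C : ℝ), 0 ≤ C ∧ ∀ (p : Pm) (δ E X Y : ℝ)
      (γ : Fin n → Fin n → V n → ℂ) (a : Fin n → ι → ι → V n → ℂ)
      (c1 : Fin n → Ji o M ι → Ji o M ι → V n → ℂ) (c0 : ι → ι → Ji o M ι → Ji o M ι → V n → ℂ)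
      (z r : ι → Ji o M ι → V n → ℂ) (l : ι) (y' : Ji o M ι), Ok p → 0 ≤ δ → δ ≤ 1 → 0 ≤ E →
      DN p K δ R γ a c1 c0 z r → (∀ l y, Top o p (z l y) E) →
      (∀ l y, nrm (m * p.N) (M - y.1.1.card) (wz o p m (z l y)) ≤ X) →
      (∀ l y, y'.1.1.card ≤ y.1.1.card → nrm (m * p.N) (M - y.1.1.card) (wz o p m (z l y)) ≤ Y) →
      nrm (m * p.N) (M - y'.1.1.card + 2) (fun x =>
        2 * pr (m * p.N) R (fun β => wz o p m (z l (β, y'.2))) y'.1 x + wz o p m (r l y') x) ≤
        C * (Y + (δ + p.κ) * X + p.N ^ 2 * E) := by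
  obtain ⟨K, Cm, hCm, Hm⟩ := nrm_mul n (M + 2)
  obtain ⟨C1, hC1, H1⟩ := w_one n m (M + 1) hm
  obtain ⟨C1', hC1', H1'⟩ := w_one' n m (M + 1) hm
  obtain ⟨C2, hC2, H2⟩ := w_two n m M hm
  obtain ⟨ρ, hρ0, hρ⟩ : ∃ ρ : ℝ, 0 ≤ ρ ∧ ∀ (j : Fin n) (β β' : Nm o M), ‖2 * R (j ::ₘ β.1) β'‖ ≤ ρ := by
    obtain ⟨ρ, h⟩ := (Set.finite_range fun q : Fin n × Nm o M × Nm o M =>
      ‖2 * R (q.1 ::ₘ q.2.1.1) q.2.2‖).bddAbove
    exact ⟨max ρ 0, le_max_right _ _, fun j β β' => (h ⟨(j, β, β'), rfl⟩).trans (le_max_left _ _)⟩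
  set B : ℝ := Cm * C1' + ρ * C1 + Cm * (1 + ρ) * C1' with hB
  have hB0 : 0 ≤ B := by positivity
  refine ⟨K, Fintype.card (Fin n) * (Fintype.card (Fin n) * (Cm * 2 * C2)) +
    Fintype.card (Fin n) * (Fintype.card ι * (Cm * C1')) +
    Fintype.card (Ji o M ι) * (Fintype.card (Fin n) * B) +
    Fintype.card ι * (Fintype.card (Ji o M ι) * Cm), by positivity, ?_⟩
  intro p δ E X Y γ a c1 c0 z r l y' hp hδ hδ1 hE D hT hX hY
  have hN := hp.N1
  have hκ := hp.k0
  have hτ : 1 ≤ (m : ℝ) * p.N := one_le_mul_of_one_le_of_one_le (by exact_mod_cast hm) hN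
  have hX0 : 0 ≤ X := (nrm_nonneg hτ _ _).trans (hX l y')
  have hY0 : 0 ≤ Y := (nrm_nonneg hτ _ _).trans (hY l y' le_rfl)
  have hk : ∀ y : Ji o M ι, y.1.1.card ≤ M := fun y => (mem_NS.1 y.1.2).1
  have hNE : p.N * E ≤ p.N ^ 2 * E := mul_le_mul_of_nonneg_right (by nlinarith) hE
  have hNE0 : 0 ≤ p.N * E := by positivity
  set Z : ℝ := Y + (δ + p.κ) * X + p.N ^ 2 * E with hZ
  have hδX : 0 ≤ δ * X := by positivity
  have hκX : 0 ≤ p.κ * X := by positivity
  have z1 : Y + p.N * E ≤ Z := by rw [hZ]; nlinarith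
  have z2 : Y + p.N ^ 2 * E ≤ Z := by rw [hZ]; nlinarith
  have z3 : δ * (X + p.N * E) ≤ Z := by rw [hZ]; nlinarith
  have z4 : p.κ * X + p.N * E ≤ Z := by rw [hZ]; nlinarith
  have z5 : δ * X ≤ Z := by rw [hZ]; nlinarith
  have z0 : 0 ≤ Z := hδX.trans z5
  have t0 : ∀ l y, Tst (ball 0 1) (wz o p m (z l y)) := fun l y => wz_tst (D.zv l y).1 m
  have t1 : ∀ l y j, Tst (ball 0 1) (wz o p m (pd j (z l y))) := fun l y j =>
    wz_tst ((D.zv l y).pd j).1 m
  have t2 : ∀ l y j k, Tst (ball 0 1) (wz o p m (pd j (pd k (z l y)))) := fun l y j k =>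
    wz_tst (((D.zv l y).pd k).pd j).1 m
  have hs : M - y'.1.1.card + 2 ≤ M + 2 := by omega
  have n1 : ∀ l y j {U : ℝ}, nrm (m * p.N) (M - y.1.1.card) (wz o p m (z l y)) ≤ U →
      y'.1.1.card ≤ y.1.1.card + 1 →
      nrm (m * p.N) (M - y'.1.1.card + 2) (wz o p m (pd j (z l y))) ≤ C1' * (U + p.N * E) := by
    intro l y j U hU h
    have := hk y'
    refine (nrm_mono hτ (FEq_int (t1 l y j)) (s := M - y.1.1.card + 1) (by omega)).trans ?_
    refine (H1' o p _ E _ j hp (by omega) hE (D.zv l y) (hT l y)).trans ?_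
    gcongr
  obtain ⟨i1, b1⟩ := hlev_sum (s := M - y'.1.1.card + 2) (D := Cm * 2 * C2 * Z) hτ
    (F := fun j k x => γ j k x * wz o p m (pd j (pd k (z l y'))) x)
    (fun j k => tst_mul (D.nr.gs j k) (t2 l y' j k)) fun j k => by
      refine (Hm _ _ _ _ 2 hτ hs (D.nr.gs j k) (hlev_bd (D.nr.gs j k) (D.nr.gb j k) ?_)
        (t2 l y' j k)).trans ?_
      · split_ifs <;> simp <;> linarith
      · rw [mul_assoc (Cm * 2)]
        refine mul_le_mul_of_nonneg_left ?_ (by positivity)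
        refine (H2 o p _ E _ j k hp (by omega) hE (D.zv l y') (hT l y')).trans ?_
        exact mul_le_mul_of_nonneg_left ((add_le_add_left (hY l y' le_rfl) _).trans z2) hC2
  obtain ⟨i2, b2⟩ := hlev_sum (s := M - y'.1.1.card + 2) (D := Cm * C1' * Z) hτ
    (F := fun j i x => a j l i x * wz o p m (pd j (z i y')) x)
    (fun j i => tst_mul (D.nr.as j l i) (t1 i y' j)) fun j i => by
      refine (Hm _ _ _ _ 1 hτ hs (D.nr.as j l i) ((D.nr.ab j l i).mono le_rfl Subset.rfl hδ1)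
        (t1 i y' j)).trans ?_
      rw [mul_one, mul_assoc]
      refine mul_le_mul_of_nonneg_left ?_ hCm
      exact (n1 i y' j (hY i y' le_rfl) (by omega)).trans (mul_le_mul_of_nonneg_left z1 hC1')
  have hc : ∀ (j : Fin n) (y : Ji o M ι),
      ‖(if y.2 = y'.2 then 2 * R (j ::ₘ y.1.1) y'.1 else 0 : ℂ)‖ ≤ ρ := by
    intro j y
    split_ifs
    · exact hρ j y.1 y'.1
    · simpa using hρ0
  obtain ⟨i3, b3⟩ := hlev_sum (s := M - y'.1.1.card + 2) (D := B * Z) hτ
    (F := fun (y : Ji o M ι) j x => c1 j y y' x * wz o p m (pd j (z l y)) x -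
      if y.1.1.card + 1 = y'.1.1.card ∧ y.2 = y'.2 then
        2 * R (j ::ₘ y.1.1) y'.1 * cd o (m * p.N) j (wz o p m (z l y)) x else 0)
    (fun y j => tst_sub (tst_mul (D.s1 j y y') (t1 l y j)) (by
      split_ifs
      · exact tst_cmul (cd_tst (t0 l y) o _ j) _
      · exact tst_nil _)) fun y j => by
      rcases lt_trichotomy (y.1.1.card + 1) y'.1.1.card with h | h | h
      · simp only [hlev_zero _ (D.z1 j y y' h), h.ne, false_and, if_false, sub_zero, nrm_zero]
        positivity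
      · have e : (fun x => c1 j y y' x * wz o p m (pd j (z l y)) x -
            if y.1.1.card + 1 = y'.1.1.card ∧ y.2 = y'.2 then
              2 * R (j ::ₘ y.1.1) y'.1 * cd o (m * p.N) j (wz o p m (z l y)) x else 0) =
            fun x => (c1 j y y' x - if y.2 = y'.2 then 2 * R (j ::ₘ y.1.1) y'.1 else 0) *
              wz o p m (pd j (z l y)) x + (if y.2 = y'.2 then 2 * R (j ::ₘ y.1.1) y'.1 else 0) *
              (wz o p m (pd j (z l y)) x - cd o (m * p.N) j (wz o p m (z l y)) x) := by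
          funext x
          simp only [h, true_and]
          split_ifs <;> ring
        have s1 := (D.s1 j y y').sub (contDiffOn_const
          (c := (if y.2 = y'.2 then 2 * R (j ::ₘ y.1.1) y'.1 else 0 : ℂ)))
        have t3 := tst_sub (t1 l y j) (cd_tst (t0 l y) o (m * p.N) j)
        rw [e]
        refine (nrm_add hτ (FEq_int (tst_mul s1 (t1 l y j))) (FEq_int (tst_cmul t3 _)) _).trans ?_
        have a1 := (Hm _ _ _ _ δ hτ hs s1 (D.b1 j y y') (t1 l y j)).trans
          (mul_le_mul_of_nonneg_left (n1 l y j (hX l y) h.ge) (by positivity))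
        have a2 := nrm_cmul hτ (FEq_int t3)
          (if y.2 = y'.2 then 2 * R (j ::ₘ y.1.1) y'.1 else 0) (M - y'.1.1.card + 2)
        have a3 := H1 o p _ E (M - y.1.1.card) j hp (by omega) hE (D.zv l y) (hT l y)
        have a4 : M - y.1.1.card + 1 = M - y'.1.1.card + 2 := by
          have := hk y'
          omega
        rw [a4] at a3
        have a5 := a3.trans (mul_le_mul_of_nonneg_left ((add_le_add_left
          (mul_le_mul_of_nonneg_left (hX l y) hκ.le) _).trans z4) hC1)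
        have a6 := a2.trans (mul_le_mul (hc j y) a5 (nrm_nonneg hτ _ _) hρ0)
        have a7 : Cm * δ * (C1' * (X + p.N * E)) ≤ Cm * C1' * Z := by
          calc _ = Cm * C1' * (δ * (X + p.N * E)) := by ring
            _ ≤ _ := mul_le_mul_of_nonneg_left z3 (by positivity)
        have a8 : 0 ≤ Cm * (1 + ρ) * C1' * Z := by positivity
        rw [hB]
        linarith
      · simp only [h.ne', false_and, if_false, sub_zero]
        refine (Hm _ _ _ _ (1 + ρ) hτ hs (D.s1 j y y') (hlev_bd (D.s1 j y y') (D.b1 j y y')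
          (add_le_add hδ1 (hc j y))) (t1 l y j)).trans ?_
        have a1 := (n1 l y j (hY l y (by omega)) h.le).trans (mul_le_mul_of_nonneg_left z1 hC1')
        have a2 := mul_le_mul_of_nonneg_left a1 (by positivity : 0 ≤ Cm * (1 + ρ))
        have a3 : 0 ≤ (Cm * C1' + ρ * C1) * Z := by positivity
        rw [hB]
        linarith
  obtain ⟨i4, b4⟩ := hlev_sum (s := M - y'.1.1.card + 2) (D := Cm * Z) hτ
    (F := fun i (y : Ji o M ι) x => c0 l i y y' x * wz o p m (z i y) x)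
    (fun i y => tst_mul (D.s0 l i y y') (t0 i y)) fun i y => by
      by_cases h : y.1.1.card + 2 < y'.1.1.card
      · simp only [hlev_zero _ (D.z0 l i y y' h), nrm_zero]
        positivity
      · refine (Hm _ _ _ _ δ hτ hs (D.s0 l i y y') (D.b0 l i y y') (t0 i y)).trans ?_
        rw [mul_assoc]
        refine mul_le_mul_of_nonneg_left (le_trans (mul_le_mul_of_nonneg_left ?_ hδ) z5) hCm
        exact (nrm_mono hτ (FEq_int (t0 i y)) (by omega)).trans (hX i y)
  have e : (fun x => 2 * pr (m * p.N) R (fun β => wz o p m (z l (β, y'.2))) y'.1 x +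
      wz o p m (r l y') x) = fun x => -(∑ j, ∑ k, γ j k x * wz o p m (pd j (pd k (z l y'))) x +
        ∑ j, ∑ i, a j l i x * wz o p m (pd j (z i y')) x +
        ∑ y : Ji o M ι, ∑ j, (c1 j y y' x * wz o p m (pd j (z l y)) x -
          if y.1.1.card + 1 = y'.1.1.card ∧ y.2 = y'.2 then
            2 * R (j ::ₘ y.1.1) y'.1 * cd o (m * p.N) j (wz o p m (z l y)) x else 0) +
        ∑ i, ∑ y : Ji o M ι, c0 l i y y' x * wz o p m (z i y) x) := by
    funext x
    have e1 : ∑ j, ∑ k, γ j k x * wz o p m (pd j (pd k (z l y'))) x +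
        ∑ j, ∑ i, a j l i x * wz o p m (pd j (z i y')) x +
        ∑ y : Ji o M ι, ∑ j, c1 j y y' x * wz o p m (pd j (z l y)) x +
        ∑ i, ∑ y : Ji o M ι, c0 l i y y' x * wz o p m (z i y) x + wz o p m (r l y') x = 0 := by
      have e2 : ∀ c f : ℂ, c * (om o p m x * f) = om o p m x * (c * f) := fun c f =>
        mul_left_comm _ _ _
      simp only [wz, e2, ← Finset.mul_sum, ← mul_add]
      by_cases hx : x ∈ Om o p
      · exact mul_eq_zero_of_right _ (D.eq l y' x hx)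
      · exact mul_eq_zero_of_left (om_out hx) _
    rw [hlev_pr (m * p.N) R (fun y => wz o p m (z l y)) y' x]
    simp only [Finset.sum_sub_distrib]
    linear_combination e1
  rw [e, nrm_neg]
  have a1 := nrm_add hτ ((i1.add i2).add i3) i4 (M - y'.1.1.card + 2)
  have a2 := nrm_add hτ (i1.add i2) i3 (M - y'.1.1.card + 2)
  have a3 := nrm_add hτ i1 i2 (M - y'.1.1.card + 2)
  refine (a1.trans (add_le_add (a2.trans (add_le_add (a3.trans (add_le_add b1 b2)) b3)) b4)).trans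
    (le_of_eq ?_)
  ring

end Vale.Agent.P088.Mo
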