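import Vale.Agent.P088F.HDefs
import Vale.Agent.P292E.Ell
import Vale.Agent.P292E.Sys

/-! P088, part H: the norms of negative order. -/

open MeasureTheory Set Filter Topology Metric
open scoped ContDiff FourierTransform

noncomputable section

namespace Vale.Agent.P088.Mo

open Vale.Agent.P292E

variable {n : ℕ} {τ : ℝ} {s : ℕ} {f g : V n → ℂ} {U : Set (V n)}

theorem hnrm_one (hτ : 1 ≤ τ) (ξ : V n) : 1 ≤ τ + ‖ξ‖ := le_add_of_le_of_nonneg hτ (norm_nonneg _)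

theorem hnrm_pos (hτ : 1 ≤ τ) (s : ℕ) (ξ : V n) : 0 < (τ + ‖ξ‖) ^ s :=
  pow_pos (one_pos.trans_le (hnrm_one hτ ξ)) s

theorem hnrm_add (hf : Integrable f) (hg : Integrable g) (ξ : V n) :
    𝓕 (fun x => f x + g x) ξ = 𝓕 f ξ + 𝓕 g ξ := by
  simp only [FEq_four, mul_add]
  exact integral_add (FEq_ie ξ hf) (FEq_ie ξ hg)

theorem hnrm_cmul (c : ℂ) (f : V n → ℂ) (ξ : V n) : 𝓕 (fun x => c * f x) ξ = c * 𝓕 f ξ := by
  simp only [FEq_four, mul_left_comm _ c]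
  exact integral_const_mul _ _

theorem nrm_nonneg (hτ : 1 ≤ τ) (s : ℕ) (f : V n → ℂ) : 0 ≤ nrm τ s f := by
  exact Real.iSup_nonneg fun ξ => div_nonneg (norm_nonneg _) (hnrm_pos hτ s ξ).le

/-- the family is bounded by `∫ ‖f‖` -/
theorem nrm_ge (hτ : 1 ≤ τ) (hf : Integrable f) (s : ℕ) (ξ : V n) :
    ‖𝓕 f ξ‖ ≤ nrm τ s f * (τ + ‖ξ‖) ^ s := by
  have _ := hf
  rw [← div_le_iff₀ (hnrm_pos hτ s ξ)]
  refine le_ciSup (f := fun ξ : V n => ‖𝓕 f ξ‖ / (τ + ‖ξ‖) ^ s) ⟨∫ x, ‖f x‖, ?_⟩ ξ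
  rintro _ ⟨η, rfl⟩
  exact (div_le_self (norm_nonneg _) (one_le_pow₀ (hnrm_one hτ η))).trans (fstep_bdd f η)

theorem nrm_le (hτ : 1 ≤ τ) {D : ℝ} (h : ∀ ξ, ‖𝓕 f ξ‖ ≤ D * (τ + ‖ξ‖) ^ s) : nrm τ s f ≤ D := by
  exact ciSup_le fun ξ => (div_le_iff₀ (hnrm_pos hτ s ξ)).2 (h ξ)

theorem nrm_zero (τ : ℝ) (s : ℕ) : nrm τ s (fun _ : V n => (0 : ℂ)) = 0 := by
  simp only [nrm, FEq_four, mul_zero, integral_zero, norm_zero, zero_div, ciSup_const]

theorem nrm_mono (hτ : 1 ≤ τ) (hf : Integrable f) {s' : ℕ} (h : s ≤ s') :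
    nrm τ s' f ≤ nrm τ s f := by
  exact nrm_le hτ fun ξ => (nrm_ge hτ hf s ξ).trans (mul_le_mul_of_nonneg_left
    (pow_le_pow_right₀ (hnrm_one hτ ξ) h) (nrm_nonneg hτ s f))

theorem nrm_succ (hτ : 1 ≤ τ) (hf : Integrable f) (s : ℕ) : τ * nrm τ (s + 1) f ≤ nrm τ s f := by
  have h0 : 0 < τ := one_pos.trans_le hτ
  rw [← le_div_iff₀' h0]
  refine nrm_le hτ fun ξ => (nrm_ge hτ hf s ξ).trans ?_
  rw [div_mul_eq_mul_div, le_div_iff₀ h0, pow_succ, ← mul_assoc]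
  exact mul_le_mul_of_nonneg_left (le_add_of_nonneg_right (norm_nonneg _))
    (mul_nonneg (nrm_nonneg hτ s f) (hnrm_pos hτ s ξ).le)

theorem nrm_add (hτ : 1 ≤ τ) (hf : Integrable f) (hg : Integrable g) (s : ℕ) :
    nrm τ s (fun x => f x + g x) ≤ nrm τ s f + nrm τ s g := by
  refine nrm_le hτ fun ξ => ?_
  rw [hnrm_add hf hg, add_mul]
  exact (norm_add_le _ _).trans (add_le_add (nrm_ge hτ hf s ξ) (nrm_ge hτ hg s ξ))

theorem nrm_cmul (hτ : 1 ≤ τ) (hf : Integrable f) (c : ℂ) (s : ℕ) :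
    nrm τ s (fun x => c * f x) ≤ ‖c‖ * nrm τ s f := by
  refine nrm_le hτ fun ξ => ?_
  rw [hnrm_cmul, norm_mul, mul_assoc]
  exact mul_le_mul_of_nonneg_left (nrm_ge hτ hf s ξ) (norm_nonneg _)

theorem nrm_neg (τ : ℝ) (s : ℕ) (f : V n → ℂ) : nrm τ s (fun x => -f x) = nrm τ s f := by
  simp only [nrm, FEq_four, mul_neg, integral_neg, norm_neg]

theorem nrm_sub (hτ : 1 ≤ τ) (hf : Integrable f) (hg : Integrable g) (s : ℕ) :
    nrm τ s (fun x => f x - g x) ≤ nrm τ s f + nrm τ s g := by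
  simp only [sub_eq_add_neg]
  exact (nrm_add hτ hf hg.neg s).trans_eq (congrArg _ (nrm_neg τ s g))

theorem nrm_sum (hτ : 1 ≤ τ) {Y : Type} (t : Finset Y) {F : Y → V n → ℂ}
    (hF : ∀ y, Integrable (F y)) (s : ℕ) :
    nrm τ s (fun x => ∑ y ∈ t, F y x) ≤ ∑ y ∈ t, nrm τ s (F y) := by
  classical
  induction t using Finset.induction_on with
  | empty => simp only [Finset.sum_empty, nrm_zero, le_refl]
  | insert y t hy ih =>
    simp only [Finset.sum_insert hy]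
    exact (nrm_add hτ (hF y) (integrable_finsetSum t fun y _ => hF y) s).trans
      (add_le_add le_rfl ih)

theorem nrm_sum' (hτ : 1 ≤ τ) {Y : Type} [Fintype Y] {F : Y → V n → ℂ}
    (hF : ∀ y, Integrable (F y)) {D : ℝ} (h : ∀ y, nrm τ s (F y) ≤ D) :
    nrm τ s (fun x => ∑ y, F y x) ≤ Fintype.card Y * D := by
  refine (nrm_sum hτ _ hF s).trans ((Finset.sum_le_card_nsmul _ _ D fun y _ => h y).trans_eq ?_)
  rw [Finset.card_univ, nsmul_eq_mul]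

theorem tst_cmul (hf : Tst U f) (c : ℂ) : Tst U fun x => c * f x := by
  exact ⟨contDiff_const.mul hf.1, hf.2.1.mul_left, (tsupport_mul_subset_right).trans hf.2.2⟩

theorem tst_sub (hf : Tst U f) (hg : Tst U g) : Tst U fun x => f x - g x := by
  have h := FEq_add hf (tst_cmul hg (-1))
  simpa only [neg_one_mul, ← sub_eq_add_neg] using h

theorem tst_nil (U : Set (V n)) : Tst U fun _ => 0 := by
  exact FEq_sum (∅ : Finset Empty) (φ := fun i => i.elim) fun i => i.elim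

theorem tst_mul {c : V n → ℂ} (hc : ContDiffOn ℝ ∞ c (ball 0 2)) (hf : Tst (ball 0 1) f) :
    Tst (ball 0 1) fun x => c x * f x := by
  exact FEq_cut isOpen_ball hf (hc.mono (ball_subset_ball one_le_two))

theorem cd_tst (hf : Tst U f) (o : Fin n) (τ : ℝ) (j : Fin n) : Tst U (cd o τ j f) := by
  exact FEq_add (hf.pd j).1 (tst_cmul hf _)

theorem pr_tst {o : Fin n} {M : ℕ} (τ : ℝ) (R : Mi n → Nm o M → ℂ) {G : Nm o M → V n → ℂ}
    (hG : ∀ β, Tst U (G β)) (β' : Nm o M) : Tst U (pr τ R G β') := by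
  refine FEq_sum Finset.univ (φ := fun β x => if β.1.card + 1 = β'.1.card then
    ∑ j, R (j ::ₘ β.1) β' * cd o τ j (G β) x else 0) fun β => ?_
  split_ifs
  · exact FEq_sum Finset.univ fun j => tst_cmul (cd_tst (hG β) o τ j) _
  · exact tst_nil U

end Vale.Agent.P088.Mo
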