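import Vale.Agent.P088F.HDefs

/-! P088, part H: geometry of the weight. -/

open MeasureTheory Set Filter Topology Metric
open scoped ContDiff FourierTransform

noncomputable section

namespace Vale.Agent.P088.Mo

open Vale.Agent.P292E

variable {n : ℕ} {o : Fin n} {p : Pm} {m : ℕ} {x : V n} {z : V n → ℂ}

theorem tt_smooth (o : Fin n) (p : Pm) : ContDiff ℝ ∞ (tt o p) := by
  have h1 : ContDiff ℝ ∞ fun x : V n => x o := (EuclideanSpace.proj (𝕜 := ℝ) o).contDiff
  have h2 : ContDiff ℝ ∞ fun x : V n => ‖x‖ ^ 2 := contDiff_norm_sq ℝ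
  exact contDiff_const.mul (contDiff_const.sub (h1.add (contDiff_const.mul
    (h2.sub (contDiff_const.mul (h1.pow 2))))))

theorem Om_open (o : Fin n) (p : Pm) : IsOpen (Om o p) :=
  (isOpen_lt continuous_norm continuous_const).inter
    (isOpen_lt continuous_const (tt_smooth o p).continuous)

theorem Om_sub (o : Fin n) (p : Pm) : Om o p ⊆ ball 0 1 :=
  fun _ hx => mem_ball_zero_iff.2 hx.1

theorem Om_sub2 (o : Fin n) (p : Pm) : Om o p ⊆ ball 0 2 :=
  (Om_sub o p).trans (ball_subset_ball one_le_two)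

/-- `psi ≥ κ ‖x‖ ^ 2` since `0 ≤ x o ≤ 1`, `4 κ ≤ 1` -/
theorem half_le (hp : Ok p) (hx : ‖x‖ < 1) (h0 : 0 ≤ x o) (ht : 0 ≤ tt o p x) : ‖x‖ ≤ 1 / 2 := by
  have h1 : x o ≤ ‖x‖ := (le_abs_self _).trans (PiLp.norm_apply_le x o)
  have h2 : 0 ≤ p.a - psi o p.κ x :=
    nonneg_of_mul_nonneg_right ht (one_pos.trans_le hp.N1) |>.trans_eq rfl
  have h3 : 0 ≤ x o * (1 - 4 * p.κ * x o) :=
    mul_nonneg h0 (by nlinarith [hp.k0, hp.k1])
  have h4 : p.κ * ‖x‖ ^ 2 ≤ p.κ * (1 / 2) ^ 2 := by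
    rw [psi] at h2
    nlinarith [hp.a1]
  exact (pow_le_pow_iff_left₀ (norm_nonneg _) (by norm_num) two_ne_zero).1
    (le_of_mul_le_mul_left h4 hp.k0)

theorem hh_smooth (m : ℕ) : ContDiff ℝ ∞ (hh m) :=
  (Real.smoothTransition.contDiff.comp ((contDiff_const.mul contDiff_id).sub contDiff_const)).mul
    (contDiff_const.mul contDiff_id).exp

theorem om_smooth (o : Fin n) (p : Pm) (m : ℕ) : ContDiff ℝ ∞ (om o p m) :=
  Complex.ofRealCLM.contDiff.comp ((bu n).contDiff.mul ((hh_smooth m).comp (tt_smooth o p)))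

theorem om_supp (o : Fin n) (p : Pm) (m : ℕ) :
    tsupport (om o p m) ⊆ closedBall 0 (7 / 8) ∩ {x | 3 / 2 ≤ tt o p x} := by
  refine closure_minimal (fun x hx => ?_) (isClosed_closedBall.inter
    (isClosed_le continuous_const (tt_smooth o p).continuous))
  have h : bu n x * hh m (tt o p x) ≠ 0 := fun h => hx (by rw [om, h, Complex.ofReal_zero])
  refine ⟨ball_subset_closedBall ?_, ?_⟩
  · have h1 : x ∈ Function.support (bu n) := left_ne_zero_of_mul h
    rwa [ContDiffBump.support_eq] at h1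
  · by_contra h1
    have h2 : tt o p x < 3 / 2 := not_le.1 h1
    exact right_ne_zero_of_mul h (by
      rw [hh, Real.smoothTransition.zero_of_nonpos (by linarith), zero_mul])

theorem om_tst (o : Fin n) (p : Pm) (m : ℕ) : Tst (Om o p) (om o p m) := by
  refine ⟨om_smooth o p m, (isCompact_closedBall (0 : V n) (7 / 8)).of_isClosed_subset
    (isClosed_tsupport _) ((om_supp o p m).trans inter_subset_left), fun x hx => ?_⟩
  have h1 : ‖x‖ ≤ 7 / 8 := mem_closedBall_zero_iff.1 (om_supp o p m hx).1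
  have h2 : 3 / 2 ≤ tt o p x := (om_supp o p m hx).2
  exact ⟨by linarith, by linarith⟩

theorem om_out (hx : x ∉ Om o p) : om o p m x = 0 :=
  image_eq_zero_of_notMem_tsupport fun h => hx ((om_tst o p m).2.2 h)

theorem om_le (o : Fin n) (p : Pm) (m : ℕ) (x : V n) :
    ‖om o p m x‖ ≤ Real.exp (m * tt o p x) := by
  have h1 := (bu n).nonneg (x := x)
  have h2 := (bu n).le_one (x := x)
  have h3 := Real.smoothTransition.nonneg (2 * tt o p x - 3)
  have h4 := Real.smoothTransition.le_one (2 * tt o p x - 3)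
  have h5 := Real.exp_pos (m * tt o p x)
  rw [om, Complex.norm_real, hh, Real.norm_of_nonneg (by positivity), ← mul_assoc]
  exact mul_le_of_le_one_left h5.le (mul_le_one₀ h2 h3 h4)

theorem om_eq (hx : ‖x‖ ≤ 3 / 4) (ht : 2 ≤ tt o p x) :
    om o p m x = (Real.exp (m * tt o p x) : ℝ) := by
  rw [om, hh, (bu n).one_of_mem_closedBall (mem_closedBall_zero_iff.2 hx),
    Real.smoothTransition.one_of_one_le (by linarith), one_mul, one_mul]

theorem wz_tst (hz : ContDiffOn ℝ ∞ z (Om o p)) (m : ℕ) : Tst (ball 0 1) (wz o p m z) := by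
  have h := cut_contDiff (Om_open o p) (om_tst o p m) hz
  exact ⟨h.1, h.2.1, h.2.2.trans (Om_sub o p)⟩

theorem wz_sup {E : ℝ} (hE : 0 ≤ E) (h : ∀ x ∈ Om o p, ‖z x‖ * Real.exp (m * tt o p x) ≤ E)
    (x : V n) : ‖wz o p m z x‖ ≤ E := by
  by_cases hx : x ∈ Om o p
  · rw [wz, norm_mul, mul_comm]
    exact (mul_le_mul_of_nonneg_left (om_le o p m x) (norm_nonneg _)).trans (h x hx)
  · rwa [wz, om_out hx, zero_mul, norm_zero]

theorem Vz.pd (hz : Vz o p z) (j : Fin n) : Vz o p (pd j z) := by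
  refine ⟨contDiffOn_pd (Om_open o p) hz.1 j, fun x hx h0 => ?_⟩
  have h1 : IsOpen {y : V n | y o < 0} :=
    isOpen_lt (EuclideanSpace.proj (𝕜 := ℝ) o).continuous continuous_const
  have h : z =ᶠ[𝓝 x] fun _ => 0 := by
    filter_upwards [(Om_open o p).mem_nhds hx, h1.mem_nhds h0] with y hy hy0 using hz.2 y hy hy0
  rw [Vale.Agent.P292E.pd, h.fderiv_eq]
  simp

end Vale.Agent.P088.Mo
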