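import Vale.Agent.P088F.HCj
import Vale.Agent.P088F.HD
import Vale.Agent.P088F.HW0

/-! P088, part H: the scalar part of the first level. -/

open MeasureTheory Set Filter Topology Metric
open scoped ContDiff FourierTransform ComplexConjugate

noncomputable section

namespace Vale.Agent.P088.Mo

open Vale.Agent.P292E

/-- the coordinate functions -/
def hsc_L {n : ℕ} (j : Fin n) : V n →L[ℝ] ℂ := Complex.ofRealCLM.comp (EuclideanSpace.proj j)

theorem hsc_norm {n : ℕ} (j : Fin n) : ‖hsc_L j‖ ≤ 1 :=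
  ContinuousLinearMap.opNorm_le_bound _ zero_le_one fun x => by
    rw [one_mul]
    exact (Complex.norm_real _).trans_le (PiLp.norm_apply_le x j)

theorem dM_lin {n : ℕ} (j : Fin n) (α : Mi n) (hα : α ≠ 0) (x : V n) :
    dM α (fun y => ((y j : ℝ) : ℂ)) x = if α = j ::ₘ 0 then 1 else 0 := by
  obtain ⟨k, hk⟩ := Multiset.exists_mem_of_ne_zero hα
  obtain ⟨β, rfl⟩ := Multiset.exists_cons_of_mem hk
  have e : pd k (hsc_L j) = fun _ => if j = k then 1 else 0 := funext fun y => by
    rw [pd, ContinuousLinearMap.fderiv]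
    by_cases h : j = k <;> simp [hsc_L, ee, h]
  refine (dM_cons' isOpen_univ (hsc_L j).contDiff.contDiffOn k β (mem_univ x)).trans ?_
  rw [e, dM_const, Multiset.cons_zero]
  simp only [eq_comm (b := ({j} : Mi n)), Multiset.singleton_eq_cons_iff, ← ite_and, and_comm]

/-- Let `e y = dM y.1.1 (s y.2) - if y = (β, l₀) then 1 else 0`: it is bounded (`Bd K'` on `ball 0 2`) by `δ` if
`y.1.1 ≠ 0` (`dM_sub`, `dM_lin`, `dM_const`, `dM_Bd`) and by `4` otherwise (`Bd_lin`). With
`F = wz w + ∑ y, e y * wz (z y)` and `G = wz (z (β, l₀))`: `G + conj G = -(F + conj F)` everywhere (`om` is real,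
`om_out`). `nrm_mul`, `nrm_mono`, `nrm_conj`. -/
theorem sc_est {n : ℕ} (ι : Type) [Fintype ι] [DecidableEq ι] (o : Fin n) (M m : ℕ) (hm : 1 ≤ m) :
    ∃ (K : ℕ) (C : ℝ), 0 ≤ C ∧ ∀ (p : Pm) (δ E X : ℝ) (z : Ji o M ι → V n → ℂ) (s : Fa ι n)
      (w : V n → ℂ) (l₀ : ι) (j : Fin n) (β : Nm o M), Ok p → 0 ≤ δ → δ ≤ 1 → β.1 = j ::ₘ 0 →
      (∀ y, ContDiffOn ℝ ∞ (z y) (Om o p)) → ContDiffOn ℝ ∞ w (Om o p) →
      (∀ l, ContDiffOn ℝ ∞ (s l) (ball 0 2)) →
      (∀ l, Bd K (fun x => s l x - if l = l₀ then ((x j : ℝ) : ℂ) else 0) (ball 0 2) δ) →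
      (∀ x ∈ Om o p, (w x + ∑ y, z y x * dM y.1.1 (s y.2) x).re = 0) →
      nrm (m * p.N) 0 (wz o p m w) ≤ E →
      (∀ y, y.1.1.card = 0 → nrm (m * p.N) 0 (wz o p m (z y)) ≤ E) →
      (∀ y, nrm (m * p.N) (M - y.1.1.card) (wz o p m (z y)) ≤ X) →
      nrm (m * p.N) (M - 1) (fun x => wz o p m (z (β, l₀)) x + conj (wz o p m (z (β, l₀)) x)) ≤
        C * (δ * X + E) := by
  obtain ⟨K, C, hC, hK⟩ := nrm_mul n M
  refine ⟨K + M, 2 * (1 + Fintype.card (Ji o M ι) * (4 * C)), by positivity,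
    fun p δ E X z s w l₀ j β hp h0 h1 hβ hz hw hs hb hre hE hE' hX => ?_⟩
  have hτ : (1 : ℝ) ≤ m * p.N := one_le_mul_of_one_le_of_one_le (by exact_mod_cast hm) hp.N1
  have tz := fun y => wz_tst (hz y) m
  have tw := wz_tst hw m
  have E0 : 0 ≤ E := (nrm_nonneg hτ _ _).trans hE
  have X0 : 0 ≤ δ * X := mul_nonneg h0 ((nrm_nonneg hτ _ _).trans (hX (β, l₀)))
  have sl : ∀ l, ContDiffOn ℝ ∞ (fun x : V n => if l = l₀ then ((x j : ℝ) : ℂ) else 0) (ball 0 2) :=
    fun l => by
      split_ifs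
      exacts [(hsc_L j).contDiff.contDiffOn, contDiffOn_const]
  have bl : ∀ l, Bd K (fun x : V n => if l = l₀ then ((x j : ℝ) : ℂ) else 0) (ball 0 2) 3 :=
    fun l => by
      split_ifs
      · exact (Bd_lin K (hsc_L j)).mono le_rfl (ball_subset_ball (by norm_num))
          (by linarith [hsc_norm j])
      · exact (Bd_const K (0 : ℂ) _).mono le_rfl subset_rfl (by simp)
  obtain ⟨e, he⟩ : ∃ e : Ji o M ι → V n → ℂ,
      e = fun y x => dM y.1.1 (s y.2) x - if y = (β, l₀) then 1 else 0 := ⟨_, rfl⟩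
  have es : ∀ y, ContDiffOn ℝ ∞ (e y) (ball 0 2) := fun y =>
    he ▸ (dM_smooth isOpen_ball (hs _) _).sub contDiffOn_const
  have te := fun y => tst_mul (es y) (tz y)
  have eb : ∀ y, nrm (m * p.N) (M - 1) (fun x => e y x * wz o p m (z y) x) ≤
      4 * C * (δ * X + E) := fun y => by
    have hc := (mem_NS.1 y.1.2).1
    by_cases hy : y.1.1 = 0
    · have b : Bd K (e y) (ball 0 2) 4 := by
        refine (((hb y.2).mono le_self_add subset_rfl h1).add isOpen_ball ((hs _).sub (sl _)) (sl _)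
          (bl y.2)).congr isOpen_ball (fun x _ => ?_) |>.mono le_rfl subset_rfl (by norm_num)
        have : y ≠ (β, l₀) := fun h => Multiset.cons_ne_zero (hβ.symm.trans (by rw [← hy, h]))
        simp only [he, hy, dM_zero, if_neg this, sub_zero, sub_add_cancel]
      refine (hK _ _ _ _ _ hτ (Nat.sub_le _ _) (es y) b (tz y)).trans ?_
      have := (nrm_mono hτ (sys_int (tz y)) (Nat.zero_le (M - 1))).trans
        (hE' y (Multiset.card_eq_zero.2 hy))
      rw [mul_comm C]
      exact mul_le_mul_of_nonneg_left (by linarith) (by positivity)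
    · have b : Bd K (e y) (ball 0 2) δ := by
        refine (dM_Bd isOpen_ball ((hs _).sub (sl _)) y.1.1 ((hb y.2).mono
          (Nat.add_le_add_left hc K) subset_rfl le_rfl)).congr isOpen_ball fun x hx => ?_
        rw [dM_sub isOpen_ball (hs _) (sl _) _ hx, he]
        refine congrArg (dM y.1.1 (s y.2) x - ·) ?_
        by_cases hl : y.2 = l₀
        · simp only [if_true, dM_lin j _ hy, ← hβ, Prod.ext_iff, Subtype.ext_iff, hl, and_true]
        · simp only [dM_const, Prod.ext_iff, hl, and_false, if_false, ite_self]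
      refine (hK _ _ _ _ _ hτ (Nat.sub_le _ _) (es y) b (tz y)).trans ?_
      have := mul_le_mul_of_nonneg_left ((nrm_mono hτ (sys_int (tz y))
        (Nat.sub_le_sub_left (Multiset.card_pos.2 hy) M)).trans (hX y)) (mul_nonneg hC h0)
      nlinarith [mul_nonneg hC X0, mul_nonneg hC E0]
  obtain ⟨F, hF⟩ : ∃ F : V n → ℂ,
      F = fun x => wz o p m w x + ∑ y, e y x * wz o p m (z y) x := ⟨_, rfl⟩
  have iS := integrable_finsetSum Finset.univ fun y _ => sys_int (te y)
  have iF : Integrable F := hF ▸ (sys_int tw).add iS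
  have bF : nrm (m * p.N) (M - 1) F ≤ E + Fintype.card (Ji o M ι) * (4 * C * (δ * X + E)) :=
    hF ▸ (nrm_add hτ (sys_int tw) iS _).trans (add_le_add
      ((nrm_mono hτ (sys_int tw) (Nat.zero_le _)).trans hE)
      (nrm_sum' hτ (fun y => sys_int (te y)) eb))
  have id : (fun x => wz o p m (z (β, l₀)) x + conj (wz o p m (z (β, l₀)) x)) =
      fun x => -(F x + conj (F x)) := funext fun x => by
    have a1 : F x = om o p m x * (w x + ∑ y, z y x * dM y.1.1 (s y.2) x) -
        wz o p m (z (β, l₀)) x := by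
      simp only [hF, he, sub_mul, Finset.sum_sub_distrib, ite_mul, one_mul, zero_mul,
        Finset.sum_ite_eq', Finset.mem_univ, if_true, wz, mul_add, Finset.mul_sum]
      rw [add_sub_assoc]
      exact congrArg (fun t => _ + (t - _)) (Finset.sum_congr rfl fun y _ => by ring)
    have a2 : (om o p m x * (w x + ∑ y, z y x * dM y.1.1 (s y.2) x)).re = 0 := by
      by_cases hx : x ∈ Om o p
      · rw [om, Complex.re_ofReal_mul, hre x hx, mul_zero]
      · rw [om_out hx, zero_mul, Complex.zero_re]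
    rw [Complex.add_conj, Complex.add_conj, a1, Complex.sub_re, a2]
    push_cast
    ring
  rw [id, nrm_neg]
  refine (nrm_add hτ iF (g := fun x => conj (F x))
    (Complex.conjCLE.integrable_comp_iff.2 iF) _).trans ?_
  have := nrm_conj hτ iF (M - 1)
  linarith

end Vale.Agent.P088.Mo
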