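import Vale.Agent.P088F.HDN
import Vale.Agent.P088F.HCh
import Vale.Agent.P088F.HSc
import Vale.Agent.P088F.HInt
import Vale.Agent.P088F.HAlg1

/-! P088, part H: the main estimate. -/

open MeasureTheory Set Filter Topology Metric
open scoped ContDiff FourierTransform ComplexConjugate

noncomputable section

namespace Vale.Agent.P088.Mo

open Vale.Agent.P292E

theorem Nr.mono {n : ℕ} {ι : Type} {o : Fin n} {K K' : ℕ} {δ δ' : ℝ}
    {γ : Fin n → Fin n → V n → ℂ} {a : Fin n → ι → ι → V n → ℂ} (h : Nr o K δ γ a) (hK : K' ≤ K)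
    (hδ : δ ≤ δ') : Nr o K' δ' γ a :=
  ⟨h.gs, h.as, fun j k => (h.gb j k).mono hK subset_rfl hδ,
    fun j l m => (h.ab j l m).mono hK subset_rfl hδ, h.sy, h.oo⟩

section

variable {n : ℕ} {o : Fin n} {p : Pm} {B D t : ℝ} {c j m : ℕ} {x : V n}

theorem hs_bb (hB : 0 < B) (hB1 : B ≤ 1) (hx : x ∈ Om o p) :
    0 < bb o p B x ∧ bb o p B x ≤ 1 ∧ bb o p B x * Real.exp (tt o p x) = B := by
  have h : Real.exp (-tt o p x) ≤ 1 := Real.exp_le_one_iff.2 (by linarith [hx.2])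
  refine ⟨mul_pos hB (Real.exp_pos _), mul_le_one₀ hB1 (Real.exp_pos _).le h, ?_⟩
  rw [bb, mul_assoc, ← Real.exp_add, neg_add_cancel, Real.exp_zero, mul_one]

theorem hs_sm (hB : 0 < B) (hB1 : B ≤ 1) (hD : 0 ≤ D) (h : c + m ≤ j) (hx : x ∈ Om o p)
    (ht : t * bb o p B x ^ c ≤ D * bb o p B x ^ j) : t * Real.exp (m * tt o p x) ≤ D := by
  obtain ⟨h1, h2, h3⟩ := hs_bb hB hB1 hx
  have h4 : t * bb o p B x ^ c ≤ D * bb o p B x ^ m * bb o p B x ^ c := by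
    rw [mul_assoc, ← pow_add, add_comm]
    exact ht.trans (mul_le_mul_of_nonneg_left (pow_le_pow_of_le_one h1.le h2 h) hD)
  refine (mul_le_mul_of_nonneg_right (le_of_mul_le_mul_right h4 (pow_pos h1 c))
    (Real.exp_pos _).le).trans ?_
  rw [Real.exp_nat_mul, mul_assoc, ← mul_pow, h3]
  exact mul_le_of_le_one_right hD (pow_le_one₀ hB.le hB1)

theorem hs_top (hB : 0 < B) (hB1 : B ≤ 1) (hD : 0 ≤ D) (hx : x ∈ Om o p) (h2 : tt o p x ≤ 2)
    (h0 : 0 ≤ t) (ht : t * bb o p B x ^ c ≤ D * bb o p B x ^ j) :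
    t ≤ Real.exp 2 ^ c * (D / B ^ c) := by
  obtain ⟨h1, h3, h4⟩ := hs_bb hB hB1 hx
  have h5 : t * bb o p B x ^ c ≤ D := ht.trans (mul_le_of_le_one_right hD (pow_le_one₀ h1.le h3))
  have h6 : B ^ c ≤ bb o p B x ^ c * Real.exp 2 ^ c := by
    rw [← mul_pow]
    exact pow_le_pow_left₀ hB.le (h4.ge.trans
      (mul_le_mul_of_nonneg_left (Real.exp_le_exp.2 h2) h1.le)) c
  rw [← mul_div_assoc, le_div_iff₀ (pow_pos hB c)]
  refine (mul_le_mul_of_nonneg_left h6 h0).trans ?_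
  rw [← mul_assoc, mul_comm]
  exact mul_le_mul_of_nonneg_left h5 (by positivity)

theorem hs_lin (k : ℕ) (P : Prop) [Decidable P] (i : Fin n) :
    ContDiff ℝ ∞ (fun x : V n => if P then ((x i : ℝ) : ℂ) else 0) ∧
      Bd k (fun x : V n => if P then ((x i : ℝ) : ℂ) else 0) (ball 0 2) 3 := by
  by_cases h : P
  · simp only [if_pos h]
    let L : V n →L[ℝ] ℂ := Complex.ofRealCLM.comp (EuclideanSpace.proj i)
    have hL : ‖L‖ ≤ 1 := L.opNorm_le_bound zero_le_one fun x => by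
      simpa [L] using PiLp.norm_apply_le x i
    exact ⟨L.contDiff, (Bd_lin k L).mono le_rfl (ball_subset_ball (by norm_num)) (by linarith)⟩
  · simp only [if_neg h]
    exact ⟨contDiff_const, (Bd_const k 0 _).mono le_rfl subset_rfl (by simp)⟩

end

section

variable {n : ℕ} {ι : Type} [DecidableEq ι] {o : Fin n} {M : ℕ}
  {S : Fin n → Fin n → V n → ℂ} {d : Fin n → ι → ι → V n → ℂ} {x : V n}

theorem rr_sm {U : Set (V n)} (hS : ∀ j k, ContDiffOn ℝ ∞ (S j k) U)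
    (hd : ∀ j l m, ContDiffOn ℝ ∞ (d j l m) U) (l : ι) (y : Ji o M ι) :
    ContDiffOn ℝ ∞ (rr S d l y) U := by
  refine (ContDiffOn.sum fun j _ => ContDiffOn.sum fun k _ => ?_).add (ContDiffOn.sum fun k _ => ?_)
  · split_ifs
    exacts [hS j k, contDiffOn_const]
  · split_ifs
    exacts [hd _ _ _, contDiffOn_const]

theorem rr_two (l : ι) (y : Ji o M ι) (h : y.1.1.card ≠ 1) : rr S d l y x =
    ∑ j, ∑ k, if y.1.1 = j ::ₘ k ::ₘ 0 ∧ y.2 = l then S j k x else 0 := by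
  rw [rr, Finset.sum_eq_zero (s := Finset.univ) (f := fun k =>
    if y.1.1 = k ::ₘ 0 then d k l y.2 x else 0) fun k _ => if_neg fun e => h (by rw [e]; rfl),
    add_zero]

theorem rr_one (l : ι) (y : Ji o M ι) {j : Fin n} (h : y.1.1 = j ::ₘ 0) :
    rr S d l y x = d j l y.2 x := by
  rw [rr, Finset.sum_eq_zero fun i _ => Finset.sum_eq_zero fun k _ => if_neg fun e => by
    simpa using congrArg Multiset.card (h.symm.trans e.1), zero_add, Finset.sum_eq_single j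
      (fun k _ hk => if_neg fun e => hk (by simpa using (h.symm.trans e).symm)) (by simp), if_pos h]

theorem rr_sym (l : ι) (β : Nm o M) {j k : Fin n} (h : β.1 = j ::ₘ k ::ₘ 0) : ∃ t : ℕ, 1 ≤ t ∧
    ∀ x, S k j x = S j k x → rr S d l (β, l) x = t * S j k x := by
  refine ⟨∑ j', ∑ k', if β.1 = j' ::ₘ k' ::ₘ 0 then 1 else 0, ?_, fun x hx => ?_⟩
  · refine le_trans ?_ (Finset.single_le_sum (fun _ _ => Nat.zero_le _) (Finset.mem_univ j))
    exact le_trans (if_pos h).ge (Finset.single_le_sum (f := fun k' =>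
      if β.1 = j ::ₘ k' ::ₘ 0 then 1 else 0) (fun _ _ => Nat.zero_le _) (Finset.mem_univ k))
  · rw [rr_two l (β, l) (by simp [h])]
    push_cast
    simp only [Finset.sum_mul, and_true, ite_mul, one_mul, zero_mul]
    refine Finset.sum_congr rfl fun j' _ => Finset.sum_congr rfl fun k' _ => ?_
    split_ifs with e
    · rcases Multiset.cons_eq_cons.1 (h.symm.trans e) with ⟨rfl, e1⟩ | ⟨-, cs, e1, e2⟩
      · rw [show k' = k by simpa using e1.symm]
      · have e3 : cs = 0 := by simpa using congrArg Multiset.card e1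
        subst e3
        rw [show j' = k by simpa using e1.symm, show k' = j by simpa using e2, hx]
    · rfl

end

theorem hs_main {n : ℕ} (hn : 3 ≤ n) (ι : Type) [Fintype ι] [DecidableEq ι] (o : Fin n) (c q : ℕ) :
    ∃ κ₀ : ℝ, 0 < κ₀ ∧ ∃ (K f : ℕ) (δ C : ℝ), 0 < δ ∧ 0 ≤ C ∧ ∀ (p : Pm) (B A : ℝ)
      (γ₁ γ₂ : Fin n → Fin n → V n → ℂ) (a₁ a₂ : Fin n → ι → ι → V n → ℂ) (J : Fa ι n → Fa ι n)
      (l₀ : ι) (s : Fin n → Fa ι n), Ok p → p.κ ≤ κ₀ → 0 < B → B ≤ 1 / 100 → 0 ≤ A →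
      Nr o K δ γ₁ a₁ → Nr o K δ γ₂ a₂ → (∀ j k x, conj (γ₁ j k x) = γ₁ j k x) →
      (∀ j k x, conj (γ₂ j k x) = γ₂ j k x) →
      (∀ x : V n, x o < 0 → (∀ j k, γ₁ j k x = γ₂ j k x) ∧ ∀ j l m, a₁ j l m x = a₂ j l m x) →
      JO o p B A c γ₁ a₁ γ₂ a₂ J →
      (∀ θ, Null θ → (∀ j, ‖θ j‖ ≤ 1) → ∀ m, ∃ u, So γ₂ a₂ u ∧
        ∀ l, Bd K (fun x => u l x - if l = m then ex θ x else 0) (ball 0 2) δ) →
      (∀ (e : ι → ℂ) l, ∀ x ∈ Om o p, J (fun l _ => e l) l x = e l) → (∀ j, So γ₂ a₂ (s j)) →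
      (∀ j l, Bd K (fun x => s j l x - if l = l₀ then ((x j : ℝ) : ℂ) else 0) (ball 0 2) δ) →
      (∀ j, ∀ x ∈ Om o p, (J (s j) l₀ x).re = (s j l₀ x).re) →
      ∀ x : V n, ‖x‖ < 1 → 3 < tt o p x → ∀ i ≤ 3,
        (∀ j k, ‖iteratedFDeriv ℝ i (fun y => γ₁ j k y - γ₂ j k y) x‖ ≤
          C * p.N ^ f * (A / B ^ c + 1) * Real.exp (-(q * tt o p x))) ∧
        ∀ j l m, ‖iteratedFDeriv ℝ i (fun y => a₁ j l m y - a₂ j l m y) x‖ ≤
          C * p.N ^ f * (A / B ^ c + 1) * Real.exp (-(q * tt o p x)) := by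
  obtain ⟨m, hm⟩ : ∃ m, m = 2 * q + 1 := ⟨_, rfl⟩
  obtain ⟨M, hM⟩ : ∃ M, M = m + c + 2 := ⟨_, rfl⟩
  have hm1 : 1 ≤ m := by omega
  have hM2 : 2 ≤ M := by omega
  obtain ⟨θ, R, hB⟩ := exists_bas (by omega) o M
  obtain ⟨K₂, C₂, hC₂, hsc⟩ := sc_est ι o M m hm1
  obtain ⟨K₁, η, C₁, hη, hη1, hC₁, hch⟩ := chain hn ι hM2 m hm1 hB C₂ hC₂
  obtain ⟨δd, Cd, hδd, hCd, hdn⟩ := dn_sys ι hM2 hB K₁
  obtain ⟨δt, Ct, hδt, hCt, htm⟩ := tm_est ι hB 0
  obtain ⟨Cz, hCz, hzz⟩ := zz_bd ι o M Ct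
  obtain ⟨Cv, hCv, hv⟩ := nrm_sup n
  obtain ⟨K₃, f, C₃, hC₃, hi⟩ := interp n m q (M + 2) 3 hm1 (by omega)
  obtain ⟨δ, hδ, d1, d2, d3, d4⟩ : ∃ δ : ℝ, 0 < δ ∧ δ ≤ δd ∧ δ ≤ δt ∧ Cd * δ ≤ η ∧ δ ≤ 1 / 2 :=
    ⟨min (min δd δt) (min (η / Cd) (1 / 2)), by positivity, (min_le_left _ _).trans (min_le_left _ _),
      (min_le_left _ _).trans (min_le_right _ _), (le_div_iff₀' (by positivity)).1
        ((min_le_right _ _).trans (min_le_left _ _)), (min_le_right _ _).trans (min_le_right _ _)⟩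
  obtain ⟨Ce, hCe⟩ : ∃ Ce, Ce = 1 + Real.exp 2 ^ c * Cz + Cv * (Cz * 4) := ⟨_, rfl⟩
  have e0 : 0 ≤ Real.exp 2 ^ c * Cz := by positivity
  have e1 : 0 ≤ Cv * (Cz * 4) := by positivity
  have hCe0 : 0 ≤ Ce := by linarith
  refine ⟨η, hη, K₁ + K₂ + K₃ + M + 2, f + 2, δ, C₃ * (C₁ * Ce + 1), hδ, by positivity, ?_⟩
  intro p B A γ₁ γ₂ a₁ a₂ J l₀ s hO hκ hB0 hB1 hA h₁ h₂ g₁ g₂ hU hJ hsol hJc hs hsl hre
  have hB2 : B ≤ 1 := by linarith
  have hτ : 1 ≤ (m : ℝ) * p.N := one_le_mul_of_one_le_of_one_le (by exact_mod_cast hm1) hO.N1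
  have hN2 : 1 ≤ p.N ^ 2 := one_le_pow₀ hO.N1
  have hd' : δ ≤ Cd * δ := le_mul_of_one_le_left hδ.le hCd
  choose u hu hu' using fun i : Ji o M ι => hsol (θ i.1) (hB.null _) (hB.le _) i.2
  have hcl : ∀ K, K ≤ K₁ + K₂ + K₃ → Cl (K + M + 2) δ θ γ₂ a₂ u := fun K hK i =>
    ⟨hu i, fun l => (hu' i l).mono (by omega) subset_rfl le_rfl⟩
  have hD := hdn δ B A c p γ₁ γ₂ a₁ a₂ u J d1 (h₁.mono (by omega) le_rfl)
    (h₂.mono (by omega) le_rfl) hJ (hcl K₁ (by omega))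
  obtain ⟨t1, t2, t3, -⟩ := htm δ γ₂ a₂ u d2 (hcl 0 (by omega))
  have hz := fun x (hx : x ∈ Om o p) => hzz _ c δ B A p γ₂ γ₁ a₂ a₁ u J x hB0 hB1 hA h₂ hJ hu
    (fun i l => (t3 i l).mono (by omega) subset_rfl le_rfl) hx (t1 x (Om_sub2 o p hx))
    fun i y => (t2 i y).2.norm_le (Om_sub2 o p hx)
  obtain ⟨F, hF⟩ : ∃ F, F = A / B ^ c := ⟨_, rfl⟩
  have hAF : A ≤ F := hF ▸ le_div_self hA (pow_pos hB0 c) (pow_le_one₀ hB0.le hB2)
  have hF0 : 0 ≤ F := hA.trans hAF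
  rw [← hF]
  have sup : ∀ (w : V n → ℂ) (j : ℕ), M ≤ j → ContDiffOn ℝ ∞ w (Om o p) → (∀ x ∈ Om o p,
      ‖w x‖ * bb o p B x ^ c ≤ Cz * A * 4 * bb o p B x ^ j) →
      nrm (m * p.N) 0 (wz o p m w) ≤ Ce * (F + 1) := by
    intro w j hj hw h
    have h0 : 0 ≤ Cz * A * 4 := by positivity
    refine (hv _ 0 _ _ hτ (wz_tst hw m) (wz_sup h0 fun x hx =>
      hs_sm hB0 hB2 h0 (by omega) hx (h x hx))).trans ?_
    rw [show Cv * (Cz * A * 4) = Cv * (Cz * 4) * A by ring]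
    exact mul_le_mul (by linarith) (by linarith) hA hCe0
  have zs : ∀ l y, ContDiffOn ℝ ∞ (zz J u l y) (Om o p) := fun l y => (hD.zv l y).1
  have ends : ∀ l y, y.1.1.card = 0 ∨ y.1.1.card = M →
      nrm (m * p.N) 0 (wz o p m (zz J u l y)) ≤ Ce * (F + 1) := by
    rintro l y (h | h)
    · refine sup _ (M + 1) (by omega) (zs l y) fun x hx => ?_
      have h1 := (hz x hx).2 (fun l _ => if l = y.2 then 1 else 0) 4 (so_const _) (fun l =>
        (Bd_const _ _ _).mono le_rfl subset_rfl (by split_ifs <;> norm_num)) l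
      rw [hJc _ l x hx, sub_self, zero_sub, norm_neg, Finset.sum_eq_single y, dM_const,
        if_pos (Multiset.card_eq_zero.1 h), if_pos rfl, mul_one] at h1
      · exact h1
      · intro y' _ hy
        rw [dM_const]
        split_ifs with k1 k2
        · exact absurd (Prod.ext (Subtype.ext (k1.trans (Multiset.card_eq_zero.1 h).symm)) k2) hy
        · exact mul_zero _
        · exact mul_zero _
      · simp
    · refine sup _ M le_rfl (zs l y) fun x hx => ?_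
      have h1 := (hz x hx).1 l y
      rw [if_neg fun e => by rw [e.1, Multiset.card_zero] at h; omega, add_zero, h] at h1
      have h2 : 0 ≤ Cz * A * bb o p B x ^ M :=
        mul_nonneg (mul_nonneg hCz hA) (pow_pos (hs_bb hB0 hB2 hx).1 M).le
      linarith
  have o2 : IsOpen (ball (0 : V n) 2) := isOpen_ball
  have sS : ∀ j k, ContDiffOn ℝ ∞ (fun x => γ₁ j k x - γ₂ j k x) (ball 0 2) := fun j k =>
    (h₁.gs j k).sub (h₂.gs j k)
  have sa : ∀ j l m, ContDiffOn ℝ ∞ (fun x => a₁ j l m x - a₂ j l m x) (ball 0 2) := fun j l m =>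
    (h₁.as j l m).sub (h₂.as j l m)
  have sr := fun l (y : Ji o M ι) => (rr_sm sS sa l y).mono (Om_sub2 o p)
  have key := hch p (Cd * δ) (Ce * (F + 1)) γ₁ a₁ _ _ _ _ l₀ hO hκ (by positivity) d3
    (by positivity) hD (fun l y x hx h2 => ?_) sr ends (fun l y x h => ?_) (fun l y x h h' => ?_)
    (fun l β x h => ?_) (fun β x h => ?_) fun β X hβ hX => ?_
  rotate_left
  · have h1 := hs_top hB0 hB2 (mul_nonneg hCz hA) hx h2 (norm_nonneg _) ((hz x hx).1 l y)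
    have h3 : ‖(if y.1.1 = 0 ∧ y.2 = l then 1 else 0 : ℂ)‖ ≤ 1 := by split_ifs <;> simp
    have h4 := norm_sub_le (zz J u l y x + if y.1.1 = 0 ∧ y.2 = l then 1 else 0)
      (if y.1.1 = 0 ∧ y.2 = l then 1 else 0)
    rw [add_sub_cancel_right] at h4
    rw [mul_div_assoc, ← hF, ← mul_assoc] at h1
    have h5 : Real.exp 2 ^ c * Cz * F ≤ Ce * F := mul_le_mul_of_nonneg_right (by linarith) hF0
    rw [mul_add]
    linarith
  · rw [rr_two l y (by omega)]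
    exact Finset.sum_eq_zero fun j _ => Finset.sum_eq_zero fun k _ => if_neg fun e => by
      rw [e.1] at h
      simp at h
  · rw [rr_two l y (by omega)]
    exact Finset.sum_eq_zero fun j _ => Finset.sum_eq_zero fun k _ => if_neg fun e => h' e.2
  · rw [rr_two l (β, l) (by simp only [h]; omega), rr_two l₀ (β, l₀) (by simp only [h]; omega)]
    simp only [and_true]
  · rw [rr_two l₀ (β, l₀) (by simp only [h]; omega)]
    simp only [map_sum, apply_ite conj, map_sub, g₁, g₂, map_zero]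
  · obtain ⟨j, hj⟩ := Multiset.card_eq_one.1 hβ
    have hw : ContDiffOn ℝ ∞ (fun x => J (s j) l₀ x - s j l₀ x -
        ∑ y, zz J u l₀ y x * dM y.1.1 (s j y.2) x) (Om o p) :=
      ((hJ.sm _ (hs j) l₀).sub (((hs j).1 l₀).mono (Om_sub2 o p))).sub (ContDiffOn.sum fun y _ =>
        (zs l₀ y).mul ((dM_smooth o2 ((hs j).1 _) _).mono (Om_sub2 o p)))
    refine hsc p _ _ X (zz J u l₀) (s j) _ l₀ j β hO (by positivity) (d3.trans hη1) hj (zs l₀) hw
      (hs j).1 (fun l => (hsl j l).mono (by omega) subset_rfl hd') (fun x hx => ?_)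
      (sup _ (M + 1) (by omega) hw fun x hx => (hz x hx).2 (s j) 4 (hs j) (fun l => ?_) l₀)
      (fun y hy => ends l₀ y (Or.inl hy)) hX
    · rw [sub_add_cancel, Complex.sub_re, hre j x hx, sub_self]
    · obtain ⟨k1, k2⟩ := hs_lin (M + 1) (l = l₀) j
      exact ((Bd.add o2 (((hs j).1 l).sub k1.contDiffOn) k1.contDiffOn ((hsl j l).mono (by omega)
        subset_rfl le_rfl) k2).congr o2 fun x _ => (sub_add_cancel _ _).symm).mono le_rfl
          subset_rfl (by linarith)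
  have fin : ∀ (σ : V n → ℂ) (s : ℕ), s ≤ M + 2 → ContDiffOn ℝ ∞ σ (ball 0 2) →
      Bd K₃ σ (ball 0 2) (δ + δ) → (∀ x : V n, x o < 0 → σ x = 0) →
      nrm (m * p.N) s (wz o p m σ) ≤ C₁ * p.N ^ 2 * (Ce * (F + 1)) → ∀ x : V n, ‖x‖ < 1 →
      3 < tt o p x → ∀ i ≤ 3, ‖iteratedFDeriv ℝ i σ x‖ ≤
        C₃ * (C₁ * Ce + 1) * p.N ^ (f + 2) * (F + 1) * Real.exp (-(q * tt o p x)) := by
    intro σ s k1 k2 k3 k4 k5 x hx ht i hi3
    refine (hi o p σ _ s hO k1 (by positivity) k2 (k3.mono le_rfl subset_rfl (by linarith))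
      (fun x _ => k4 x) k5 x hx ht i hi3).trans (mul_le_mul_of_nonneg_right ?_ (Real.exp_pos _).le)
    have h1 : 1 ≤ p.N ^ 2 * (F + 1) := one_le_mul_of_one_le_of_one_le hN2 (by linarith)
    have h2 : 0 ≤ C₃ * p.N ^ f := mul_nonneg hC₃ (pow_nonneg (zero_le_one.trans hO.N1) f)
    rw [show C₃ * (C₁ * Ce + 1) * p.N ^ (f + 2) * (F + 1) = C₃ * p.N ^ f *
      (C₁ * p.N ^ 2 * (Ce * (F + 1)) + p.N ^ 2 * (F + 1)) by ring]
    exact mul_le_mul_of_nonneg_left (by linarith) h2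
  intro x hx ht i hi3
  refine ⟨fun j k => ?_, fun j l l' => ?_⟩
  · have c1 : ∀ {γ : V n → ℂ}, ContDiffOn ℝ ∞ γ (ball 0 2) →
        ContDiffOn ℝ ∞ (fun x => γ x - if j = k then 1 else 0) (ball 0 2) := fun h =>
      h.sub contDiffOn_const
    have hb : Bd K₃ (fun x => γ₁ j k x - γ₂ j k x) (ball 0 2) (δ + δ) :=
      ((Bd.add o2 (c1 (h₁.gs j k)) (c1 (h₂.gs j k)).neg (h₁.gb j k) (h₂.gb j k).neg).congr o2
        fun x _ => by ring).mono (by omega) subset_rfl le_rfl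
    by_cases h : j = o ∧ k = o
    · refine fin _ 0 (by omega) (sS j k) hb (fun x hx => sub_eq_zero.2 ((hU x hx).1 j k)) ?_
        x hx ht i hi3
      rw [show wz o p m (fun x => γ₁ j k x - γ₂ j k x) = fun _ => 0 from funext fun y => ?_,
        nrm_zero]
      · positivity
      · by_cases hy : y ∈ Om o p
        · rw [wz, h.1, h.2, h₁.oo y (Om_sub2 o p hy), h₂.oo y (Om_sub2 o p hy), sub_self, mul_zero]
        · rw [wz, om_out hy, zero_mul]
    · have hβ : j ::ₘ k ::ₘ 0 ∈ NS o M := by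
        refine mem_NS.2 ⟨by simpa using hM2, ?_⟩
        simp only [Multiset.count_cons, Multiset.count_zero]
        split_ifs with k1 k2
        · exact absurd ⟨k2.symm, k1.symm⟩ h
        all_goals omega
      obtain ⟨t, ht1, ht2⟩ := rr_sym (S := fun j k x => γ₁ j k x - γ₂ j k x)
        (d := fun k l m x => a₁ k l m x - a₂ k l m x) l₀ ⟨_, hβ⟩ rfl
      have ht3 : (1 : ℝ) ≤ t := by exact_mod_cast ht1
      refine fin _ (M - Multiset.card (j ::ₘ k ::ₘ 0) + 2) (by omega) (sS j k) hb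
        (fun x hx => sub_eq_zero.2 ((hU x hx).1 j k)) (le_trans ?_ (key l₀ (⟨_, hβ⟩, l₀))) x hx ht i hi3
      rw [show wz o p m (fun x => γ₁ j k x - γ₂ j k x) = fun y => (t : ℂ)⁻¹ * _ from
        funext fun y => ?_]
      · refine (nrm_cmul hτ (FEq_int (wz_tst (sr l₀ (⟨_, hβ⟩, l₀)) m)) _ _).trans
          (mul_le_of_le_one_left (nrm_nonneg hτ _ _) ?_)
        rw [norm_inv, Complex.norm_natCast]
        exact inv_le_one_of_one_le₀ ht3
      · by_cases hy : y ∈ Om o p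
        · have : (t : ℂ) ≠ 0 := by exact_mod_cast (by omega : t ≠ 0)
          rw [wz, wz, ht2 y (by rw [h₁.sy k j y (Om_sub2 o p hy), h₂.sy k j y (Om_sub2 o p hy)])]
          field_simp
        · rw [wz, wz, om_out hy, zero_mul, zero_mul, mul_zero]
  · have hβ : j ::ₘ 0 ∈ NS o M :=
      mem_NS.2 ⟨by simpa using (by omega : 1 ≤ M), (Multiset.count_le_card _ _).trans (by simp)⟩
    have hb : Bd K₃ (fun x => a₁ j l l' x - a₂ j l l' x) (ball 0 2) (δ + δ) :=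
      ((Bd.add o2 (h₁.as j l l') (h₂.as j l l').neg (h₁.ab j l l') (h₂.ab j l l').neg).congr o2
        fun x _ => by ring).mono (by omega) subset_rfl le_rfl
    refine fin _ (M - Multiset.card (j ::ₘ 0) + 2) (by omega) (sa j l l') hb
      (fun x hx => sub_eq_zero.2 ((hU x hx).2 j l l')) (le_trans (le_of_eq ?_) (key l (⟨_, hβ⟩, l'))) x hx ht i hi3
    congr 2
    exact funext fun y => (rr_one (S := fun j k x => γ₁ j k x - γ₂ j k x)
      (d := fun k l m x => a₁ k l m x - a₂ k l m x) l (⟨_, hβ⟩, l') rfl).symm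

end Vale.Agent.P088.Mo
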