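import Vale.Agent.P088F.HD
import Vale.Agent.P088F.HAlg0
import Vale.Agent.P088F.Defs
import Vale.Agent.P088F.Est3

/-! P088, part H: solutions close to the exponentials. -/

open MeasureTheory Set Filter Topology Metric
open scoped ContDiff FourierTransform ComplexConjugate

noncomputable section

namespace Vale.Agent.P088.Mo

open Vale.Agent.P292E

open Vale.Agent.P088F (Op LG Fam SolOn)

variable {n : ℕ} {ι : Type} [Fintype ι] [DecidableEq ι]

theorem ap_eq (L : Op n ι) (hc : ∀ l m x, L.c l m x = 0) (u : Fam n ι) (l : ι) (x : V n) :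
    L.ap u l x = Lo L.gc L.a u l x := by
  simp only [Op.ap, Lo, hc, zero_mul, add_zero]
  rw [Finset.sum_comm (s := (Finset.univ : Finset ι))]

theorem so_iff (L : Op n ι) (hc : ∀ l m x, L.c l m x = 0) (u : Fam n ι) :
    So L.gc L.a u ↔ SolOn L (ball 0 2) u := by
  simp only [So, SolOn, ap_eq L hc]

omit [DecidableEq ι] in
theorem hsol_sy (L : Op n ι) (u : Fam n ι) (l : ι) (x : V n) :
    P088F.Sy L.gc L.a L.c u l x = L.ap u l x := by
  simp only [Op.ap, P088F.Sy, Finset.sum_add_distrib, add_assoc]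
  rw [Finset.sum_comm (s := (Finset.univ : Finset ι))]

theorem hsol_bump (n : ℕ) :
    ∃ χ : V n → ℂ, Tst (ball 0 3) χ ∧ ∀ x ∈ ball (0 : V n) (11 / 4), χ x = 1 := by
  let β : ContDiffBump (0 : V n) := ⟨11 / 4, 23 / 8, by norm_num, by norm_num⟩
  have h : tsupport (fun x => ((β x : ℝ) : ℂ)) ⊆ closedBall 0 (23 / 8) := by
    have h := tsupport_comp_subset (g := Complex.ofReal) Complex.ofReal_zero β
    rwa [ContDiffBump.tsupport_eq] at h
  refine ⟨fun x => ((β x : ℝ) : ℂ), ⟨Complex.ofRealCLM.contDiff.comp β.contDiff,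
    (isCompact_closedBall _ _).of_isClosed_subset (isClosed_tsupport _) h,
    h.trans (closedBall_subset_ball (by norm_num))⟩, fun x hx => ?_⟩
  simp only
  rw [β.one_of_mem_closedBall (ball_subset_closedBall hx), Complex.ofReal_one]

omit [Fintype ι] [DecidableEq ι] in
theorem hsol_dl {s : Set (V n)} {f g : V n → ℂ} (hs : IsOpen s) (hf : ContDiffOn ℝ ∞ f s)
    (hg : ContDiffOn ℝ ∞ g s) (l : List (Fin n)) {x : V n} (hx : x ∈ s) :
    dl l (fun x => f x - g x) x = dl l f x - dl l g x := by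
  have e : (fun x => f x - g x) = fun x => f x + -1 * g x := funext fun x => by ring
  rw [e, hd_add hs hf (contDiffOn_const.mul hg) l hx]
  simp only [hd_cmul hs hg (-1) l hx]
  ring

omit [DecidableEq ι] in
theorem hsol_sub {s : Set (V n)} {γ : Fin n → Fin n → V n → ℂ} {a : Fin n → ι → ι → V n → ℂ}
    {u v : Fa ι n} (hs : IsOpen s) (hu : ∀ l, ContDiffOn ℝ ∞ (u l) s)
    (hv : ∀ l, ContDiffOn ℝ ∞ (v l) s) (l : ι) {x : V n} (hx : x ∈ s) :
    Lo γ a (fun l y => u l y - v l y) l x = Lo γ a u l x - Lo γ a v l x := by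
  have h1 : ∀ j k, pd j (pd k fun y => u l y - v l y) x =
      pd j (pd k (u l)) x - pd j (pd k (v l)) x := fun j k => hsol_dl hs (hu l) (hv l) [j, k] hx
  have h2 : ∀ j m, pd j (fun y => u m y - v m y) x = pd j (u m) x - pd j (v m) x :=
    fun j m => hsol_dl hs (hu m) (hv m) [j] hx
  simp only [Lo, h1, h2, mul_sub, Finset.sum_sub_distrib]
  ring

omit [Fintype ι] [DecidableEq ι] in
theorem hsol_gc {L : Op n ι} (hL : L.Sm) (j k : Fin n) : ContDiff ℝ ∞ (L.gc j k) :=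
  Complex.ofRealCLM.contDiff.comp (hL.g j k)

omit [Fintype ι] [DecidableEq ι] in
theorem hsol_g {L : Op n ι} {M : ℕ} {ε : ℝ} (hL : L.Sm) (hN : L.Near M ε) (j k : Fin n) :
    Bd M (fun x => L.gc j k x - if j = k then 1 else 0) univ ε := by
  have h := (hN.g j k).clm Complex.ofRealCLM isOpen_univ ((hL.g j k).sub contDiff_const).contDiffOn
  rw [Complex.ofRealCLM_norm, one_mul] at h
  refine h.congr isOpen_univ fun x _ => ?_
  simp only [Op.gc, Complex.ofRealCLM_apply, Complex.ofReal_sub]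
  split_ifs <;> simp

omit [DecidableEq ι] in
theorem hsol_src {L : Op n ι} {M : ℕ} {ε E : ℝ} (hL : L.Sm) (hN : L.Near M ε) {h : Fa ι n}
    (hs : ∀ l, ContDiff ℝ ∞ (h l)) (hb : ∀ l, Bd (M + 2) (h l) (ball 0 3) E)
    (h0 : ∀ l x, ∑ j, pd j (pd j (h l)) x = 0) (l : ι) :
    ContDiffOn ℝ ∞ (Lo L.gc L.a h l) (ball 0 3) ∧ Bd M (Lo L.gc L.a h l) (ball 0 3)
      (n * (n * (2 ^ M * ε * E)) + n * (Fintype.card ι * (2 ^ M * ε * E))) := by
  have o : IsOpen (ball (0 : V n) 3) := isOpen_ball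
  have s1 : ∀ j m, ContDiffOn ℝ ∞ (pd j (h m)) (ball 0 3) := fun j m =>
    contDiffOn_pd o (hs m).contDiffOn j
  have b1 : ∀ j m, Bd (M + 1) (pd j (h m)) (ball 0 3) E := fun j m =>
    (hb m).pd o (hs m).contDiffOn j
  have t1 : ∀ j k, ContDiffOn ℝ ∞
      (fun x => (L.gc j k x - if j = k then 1 else 0) * pd j (pd k (h l)) x) (ball 0 3) :=
    fun j k => ((hsol_gc hL j k).sub contDiff_const).contDiffOn.mul (contDiffOn_pd o (s1 k l) j)
  have t2 : ∀ j m, ContDiffOn ℝ ∞ (fun x => L.a j l m x * pd j (h m) x) (ball 0 3) :=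
    fun j m => (hL.a j l m).contDiffOn.mul (s1 j m)
  have e : Lo L.gc L.a h l = fun x =>
      ∑ j, ∑ k, (L.gc j k x - if j = k then 1 else 0) * pd j (pd k (h l)) x +
        ∑ j, ∑ m, L.a j l m x * pd j (h m) x := by
    funext x
    simp only [Lo, sub_mul, Finset.sum_sub_distrib, ite_mul, one_mul, zero_mul, Finset.sum_ite_eq,
      Finset.mem_univ, if_true, h0, sub_zero]
  have u1 := ContDiffOn.sum fun j (_ : j ∈ Finset.univ) =>
    ContDiffOn.sum fun k (_ : k ∈ Finset.univ) => t1 j k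
  have u2 := ContDiffOn.sum fun j (_ : j ∈ Finset.univ) =>
    ContDiffOn.sum fun m (_ : m ∈ Finset.univ) => t2 j m
  rw [e]
  refine ⟨u1.add u2, Bd.add o u1 u2 ?_ ?_⟩
  · have k := Bd.sum o (fun j => ContDiffOn.sum fun k (_ : k ∈ Finset.univ) => t1 j k) fun j =>
      Bd.sum o (t1 j) fun k => Bd.mul o ((hsol_gc hL j k).sub contDiff_const).contDiffOn
        (contDiffOn_pd o (s1 k l) j) ((hsol_g hL hN j k).mono le_rfl (subset_univ _) le_rfl)
        ((b1 k l).pd o (s1 k l) j)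
    rwa [Fintype.card_fin] at k
  · have k := Bd.sum o (fun j => ContDiffOn.sum fun m (_ : m ∈ Finset.univ) => t2 j m) fun j =>
      Bd.sum o (t2 j) fun m => Bd.mul o (hL.a j l m).contDiffOn (s1 j m)
        ((hN.a j l m).mono le_rfl (subset_univ _) le_rfl)
        ((b1 j m).mono (Nat.le_succ M) Subset.rfl le_rfl)
    rwa [Fintype.card_fin] at k

omit [DecidableEq ι] in
theorem hsol_n2 {F : Fam n ι} {B : ℝ} (hF : P088F.TstF (ball 0 3) F) (hB : ∀ l x, ‖F l x‖ ≤ B) :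
    P088F.N2 univ F ≤
      ENNReal.ofReal (Fintype.card ι * (volume.real (ball (0 : V n) 3) * B ^ 2)) := by
  have h : ∀ l, ∫⁻ x in univ, ‖F l x‖ₑ ^ 2 ≤
      ENNReal.ofReal (volume.real (ball (0 : V n) 3) * B ^ 2) := fun l => by
    rw [Measure.restrict_univ, ENNReal.ofReal_mul measureReal_nonneg,
      ofReal_measureReal measure_ball_lt_top.ne, mul_comm, ← setLIntegral_const,
      ← lintegral_indicator measurableSet_ball]
    refine lintegral_mono fun x => ?_
    by_cases hx : x ∈ ball (0 : V n) 3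
    · rw [indicator_of_mem hx, ← ofReal_norm, ← ENNReal.ofReal_pow (norm_nonneg _)]
      exact ENNReal.ofReal_le_ofReal (pow_le_pow_left₀ (norm_nonneg _) (hB l x) 2)
    · rw [P088F.tst_zero (hF l) hx]
      simp
  refine (Finset.sum_le_card_nsmul _ _ _ fun l _ => h l).trans_eq ?_
  rw [ENNReal.ofReal_mul (Nat.cast_nonneg _), ENNReal.ofReal_natCast, nsmul_eq_mul,
    Finset.card_univ]

omit [DecidableEq ι] in
theorem hsol_l2 {w : Fam n ι} {s t : Set (V n)} {W : ℝ} (hW : 0 ≤ W) (hs : s ⊆ t)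
    (h : P088F.N2 t w ≤ ENNReal.ofReal W) (l : ι) (hi : IntegrableOn (fun z => ‖w l z‖ ^ 2) s) :
    ∫ z in s, ‖w l z‖ ^ 2 ≤ W := by
  rw [← ENNReal.ofReal_le_ofReal_iff hW,
    ofReal_integral_eq_lintegral_ofReal hi (Eventually.of_forall fun z => sq_nonneg _)]
  refine le_trans ?_ ((Finset.single_le_sum (f := fun l => ∫⁻ x in t, ‖w l x‖ₑ ^ 2)
    (fun _ _ => zero_le) (Finset.mem_univ l)).trans h)
  refine le_trans (le_of_eq (lintegral_congr fun z => ?_)) (lintegral_mono_set hs)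
  rw [← ofReal_norm, ENNReal.ofReal_pow (norm_nonneg _)]

omit [Fintype ι] [DecidableEq ι] in
theorem hsol_har {θ : Fin n → ℂ} (hθ : Null θ) (x : V n) : ∑ j, pd j (pd j (ex θ)) x = 0 := by
  have h : ∀ j, pd j (pd j (ex θ)) x = θ j ^ 2 * ex θ x := fun j => by
    have k : pd j (fun y => θ j * ex θ y) x = θ j * pd j (ex θ) x :=
      hd_cmul isOpen_univ (ex_smooth θ).contDiffOn (θ j) [j] (mem_univ x)
    rw [pd_ex] at k ⊢
    rw [k]
    ring
  simp only [h]
  rw [← Finset.sum_mul, hθ, zero_mul]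

/-- `h l = if l = m then ex θ else 0`, `F = χ * L.ap h` with a bump `χ` of radii `11/4`, `23/8`, `u = h - G F`.
Since `θ` is null (`pd_ex`), `L.ap h = (g - 1) ∂∂ h + a ∂ h` is `O(ε)` with derivatives on `ball 0 3` (`ex_Bd`,
`cut_Bd`). `LG.bd` gives the `L2` bound of `G F`, `P088F.est_sys` at `x ∈ ball 0 2` with `r = 1/4`
(`cs_of_bd'`, `a₀` the identity, `k = 1`) the bound `C ε (1 + |Λ|)` of the derivatives. -/
theorem exists_sol (n : ℕ) (ι : Type) [Fintype ι] [DecidableEq ι] (K : ℕ) (δ Λ : ℝ) (hδ : 0 < δ) :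
    ∃ (K' : ℕ) (ε : ℝ), 0 < ε ∧ ∀ (L : Op n ι) (G : Fam n ι → Fam n ι), L.Sm → L.Near K' ε →
      (∀ l m x, L.c l m x = 0) → LG L (ball 0 30) G Λ → ∀ θ, Null θ → (∀ j, ‖θ j‖ ≤ 1) → ∀ m,
      ∃ u, So L.gc L.a u ∧
        ∀ l, Bd K (fun x => u l x - if l = m then ex θ x else 0) (ball 0 2) δ := by
  obtain ⟨M, hM⟩ := P088F.est_sys n K ι
  obtain ⟨ε₀, hε₀, h1⟩ := hM 1 one_pos
  obtain ⟨C, hC0, hC⟩ := h1 1
  obtain ⟨E, hE0, hE⟩ := ex_Bd n (M + 2)
  obtain ⟨χ, hχ, hχ1⟩ := hsol_bump n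
  obtain ⟨D, hD0, hD⟩ := cut_Bd M isOpen_ball hχ
  obtain ⟨Q, hQ⟩ : ∃ Q : ℝ, Q = n * (n * (2 ^ M * E)) + n * (Fintype.card ι * (2 ^ M * E)) :=
    ⟨_, rfl⟩
  obtain ⟨W, hW⟩ : ∃ W : ℝ, W = Λ ^ 2 * (Fintype.card ι * volume.real (ball (0 : V n) 3)) :=
    ⟨_, rfl⟩
  have hQ0 : 0 ≤ Q := by rw [hQ]; positivity
  have hW0 : 0 ≤ W := by rw [hW]; positivity
  obtain ⟨T, hT⟩ : ∃ T : ℝ, T = 4 ^ K * (C * ((√(4 ^ n * W) + 1) * (D * Q))) := ⟨_, rfl⟩
  have hT0 : 0 ≤ T := by rw [hT]; positivity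
  obtain ⟨ε, hε, e0, e1, e2⟩ : ∃ ε : ℝ, 0 < ε ∧ ε ≤ ε₀ ∧ ε ≤ 1 ∧ T * ε ≤ δ := by
    refine ⟨min ε₀ (min 1 (δ / (T + 1))), by positivity, min_le_left _ _,
      (min_le_right _ _).trans (min_le_left _ _), ?_⟩
    refine (mul_le_mul_of_nonneg_left ((min_le_right _ _).trans (min_le_right _ _)) hT0).trans ?_
    rw [← mul_div_assoc, div_le_iff₀ (by positivity)]
    nlinarith
  refine ⟨M, ε, hε, fun L G hL hN hc hG θ hθ hθ1 m => ?_⟩
  obtain ⟨h, hh⟩ : ∃ h : Fa ι n, h = fun l x => if l = m then ex θ x else 0 := ⟨_, rfl⟩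
  have hp : ∀ l, ContDiff ℝ ∞ (h l) ∧ Bd (M + 2) (h l) (ball 0 3) E ∧
      ∀ x, ∑ j, pd j (pd j (h l)) x = 0 := fun l => by
    by_cases e : l = m
    · have k : h l = ex θ := by rw [hh]; exact funext fun x => if_pos e
      rw [k]
      exact ⟨ex_smooth θ, hE θ hθ1, hsol_har hθ⟩
    · have k : h l = fun _ => 0 := by rw [hh]; exact funext fun x => if_neg e
      have z : ∀ j : Fin n, pd j (fun _ => (0 : ℂ)) = fun _ => 0 := fun j =>
        funext fun x => by simp [pd]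
      rw [k]
      exact ⟨contDiff_const, (Bd_const _ _ _).mono le_rfl Subset.rfl (by simpa using hE0),
        fun x => by simp [z]⟩
  have src := hsol_src hL hN (fun l => (hp l).1) (fun l => (hp l).2.1) fun l => (hp l).2.2
  obtain ⟨F, hF⟩ : ∃ F : Fam n ι, F = fun l x => χ x * Lo L.gc L.a h l x := ⟨_, rfl⟩
  have F3 : P088F.TstF (ball 0 3) F := fun l => by
    rw [hF]
    exact cut_contDiff isOpen_ball hχ (src l).1
  have F30 : P088F.TstF (ball 0 30) F := fun l =>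
    ⟨(F3 l).1, (F3 l).2.1, (F3 l).2.2.trans (ball_subset_ball (by norm_num))⟩
  have hB0 : 0 ≤ D * (Q * ε) := by positivity
  have Fb : ∀ l, Bd M (F l) univ (D * (Q * ε)) := fun l => by
    rw [hF]
    exact hD _ _ (by positivity) (src l).1 ((src l).2.mono le_rfl Subset.rfl (by rw [hQ]; linarith))
  have n2 : P088F.N2 (ball 0 30) (G F) ≤ ENNReal.ofReal (W * (D * (Q * ε)) ^ 2) := by
    refine (hG.bd F F30).trans ((mul_le_mul_right
      (hsol_n2 F3 fun l x => (Fb l).norm_le (mem_univ x)) _).trans_eq ?_)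
    rw [← ENNReal.ofReal_mul (sq_nonneg Λ), hW]
    congr 1
    ring
  have s2 : ball (0 : V n) 2 ⊆ ball 0 30 := ball_subset_ball (by norm_num)
  refine ⟨fun l x => h l x - G F l x, ⟨fun l => (hp l).1.contDiffOn.sub ((hG.sm F F30 l).mono s2),
    fun l x hx => ?_⟩, fun l => ?_⟩
  · rw [hsol_sub isOpen_ball (fun l => (hp l).1.contDiffOn) (hG.sm F F30) l (s2 hx),
      ← ap_eq L hc (G F), hG.eq F F30 l x (s2 hx), hF]
    simp only
    rw [hχ1 x (ball_subset_ball (by norm_num) hx), one_mul, sub_self]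
  · refine Bd.congr isOpen_ball (Bd.neg (f := G F l) fun i hi x hx => ?_) fun x _ => by simp [hh]
    have r0 : (0 : ℝ) < 1 / 4 := by norm_num
    have r1 : (1 / 4 : ℝ) ≤ 1 := by norm_num
    have sb : closedBall x (3 * (1 / 4)) ⊆ ball 0 30 :=
      closedBall_subset_ball' (by linarith [mem_ball.1 hx])
    have sb' := ball_subset_closedBall.trans sb
    have hi2 : ∀ I, IntegrableOn (fun z => ‖G F I z‖ ^ 2) (ball x (3 * (1 / 4))) := fun I =>
      ((((hG.sm F F30 I).continuousOn.mono sb).norm.pow 2).integrableOn_compact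
        (isCompact_closedBall _ _)).mono_set ball_subset_closedBall
    have k := hC (fun p q => if p = q then 1 else 0) L.gc L.a L.c (G F) F x (1 / 4)
      (√(4 ^ n * W) * (D * (Q * ε))) (D * (Q * ε)) r0 (by positivity) hB0
      (fun ξ => by rw [EuclideanSpace.real_norm_sq_eq]; simp [symb, sq])
      (fun p q => by split_ifs <;> simp)
      (fun p q => P088F.cs_of_bd' r0 r1 ((hsol_gc hL p q).sub contDiff_const).contDiffOn
        ((hsol_g hL hN p q).mono le_rfl (subset_univ _) e0))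
      (fun p I J => P088F.cs_of_bd' r0 r1 (hL.a p I J).contDiffOn
        ((hN.a p I J).mono le_rfl (subset_univ _) e0))
      (fun I J => P088F.cs_of_bd' r0 r1 (hL.c I J).contDiffOn
        ((hN.c I J).mono le_rfl (subset_univ _) e1))
      (fun I => P088F.cs_of_bd' r0 r1 (F3 I).1.contDiffOn
        ((Fb I).mono le_rfl (subset_univ _) le_rfl))
      (fun I => (hG.sm F F30 I).mono sb') hi2
      (fun I => (hsol_l2 (by positivity) sb' n2 I (hi2 I)).trans_eq (by
        rw [mul_pow, mul_pow √_, Real.sq_sqrt (by positivity), ← mul_pow, one_div, inv_pow]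
        field_simp))
      (fun I z hz => (hsol_sy L _ I z).trans (hG.eq F F30 I z (sb' hz))) l i hi x
      (mem_ball_self (by norm_num))
    rw [one_div, inv_pow, inv_mul_le_iff₀ (by positivity)] at k
    refine k.trans (le_trans ?_ e2)
    rw [hT]
    refine (mul_le_mul_of_nonneg_right (pow_le_pow_right₀ (by norm_num) hi)
      (by positivity)).trans_eq ?_
    ring

end Vale.Agent.P088.Mo
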