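import Vale.Agent.P088F.HFlat
import Vale.Agent.P088F.HW0

/-! P088, part H: the jet coefficients. -/

open MeasureTheory Set Filter Topology Metric
open scoped ContDiff FourierTransform ComplexConjugate

noncomputable section

namespace Vale.Agent.P088.Mo

open Vale.Agent.P292E

variable {n : ℕ} {ι : Type} [Fintype ι] [DecidableEq ι] {o : Fin n} {M K : ℕ} {δ B A : ℝ} {c : ℕ}
  {p : Pm} {γ γ₁ : Fin n → Fin n → V n → ℂ} {a a₁ : Fin n → ι → ι → V n → ℂ}
  {u : Ji o M ι → Fa ι n} {J : Fa ι n → Fa ι n} {x : V n}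

theorem cm_nm (hd : (Tm u x).det ≠ 0) (y y' : Ji o M ι) :
    Cm u y.1.1 y.2 y' x = if y = y' then 1 else 0 := by
  have h := congrFun (congrFun (Matrix.mul_nonsing_inv _ (isUnit_iff_ne_zero.2 hd)) y) y'
  rw [Matrix.mul_apply, Matrix.one_apply] at h
  exact h

omit [DecidableEq ι] in
theorem ht2_dM {Y : Type} [Fintype Y] (k : Y → ℂ) {F : Y → Fa ι n} (hF : ∀ y, So γ a (F y))
    (hx : x ∈ ball (0 : V n) 2) (α : Mi n) (l : ι) :
    dM α ((∑ y, k y • F y) l) x = ∑ y, k y * dM α (F y l) x := by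
  have e : (∑ y, k y • F y) l = fun z => ∑ y, k y * F y l z := by
    funext z
    simp only [Finset.sum_apply, Pi.smul_apply, smul_eq_mul]
  rw [e, dM_sum _ isOpen_ball (fun y => contDiffOn_const.mul ((hF y).1 l)) α hx]
  exact Finset.sum_congr rfl fun y _ => dM_cmul isOpen_ball ((hF y).1 l) (k y) α hx

omit [DecidableEq ι] in
theorem ht2_Bd {Y : Type} [Fintype Y] {k : Y → ℂ} {F : Y → Fa ι n} (hF : ∀ y, So γ a (F y))
    {E D : ℝ} (hk : ∀ y, ‖k y‖ ≤ E) {l : ι} (hb : ∀ y, Bd K (F y l) (ball 0 2) D) :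
    Bd K ((∑ y, k y • F y) l) (ball 0 2) (Fintype.card Y * (E * D)) := by
  have e : (∑ y, k y • F y) l = fun z => ∑ y, k y * F y l z := by
    funext z
    simp only [Finset.sum_apply, Pi.smul_apply, smul_eq_mul]
  rw [e]
  refine Bd.sum isOpen_ball (fun y => contDiffOn_const.mul ((hF y).1 l)) fun y => ?_
  exact (Bd.clm (ContinuousLinearMap.mul ℝ ℂ (k y)) isOpen_ball ((hF y).1 l) (hb y)).mono le_rfl
    subset_rfl (mul_le_mul_of_nonneg_right
      ((ContinuousLinearMap.opNorm_mul_apply_le ℝ ℂ (k y)).trans (hk y))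
      ((norm_nonneg _).trans ((hb y).norm_le (mem_ball_self two_pos))))

theorem ht2_cm (hu : ∀ i, So γ a (u i)) (hx : x ∈ ball (0 : V n) 2) (α : Mi n) (l : ι)
    (y : Ji o M ι) : dM α ((∑ i, (Tm u x)⁻¹ i y • u i) l) x = Cm u α l y x := by
  rw [ht2_dM _ hu hx]
  exact Finset.sum_congr rfl fun i _ => mul_comm _ _

theorem ht2_low (hd : (Tm u x).det ≠ 0) {α : Mi n} (l : ι) {y : Ji o M ι}
    (h : α.card < y.1.1.card) (hc : α.count o ≤ 1) : Cm u α l y x = 0 := by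
  have h1 := cm_nm hd (⟨α, mem_NS.2 ⟨h.le.trans (mem_NS.1 y.1.2).1, hc⟩⟩, l) y
  rw [if_neg fun e => h.ne (by rw [← e])] at h1
  exact h1

theorem ht2_delta (s : Fa ι n) (l : ι) (x : V n) :
    ∑ y : Ji o M ι, (if y.1.1 = 0 ∧ y.2 = l then 1 else 0) * dM y.1.1 (s y.2) x = s l x := by
  rw [Finset.sum_eq_single (⟨0, mem_NS.2 ⟨Nat.zero_le _, Nat.zero_le _⟩⟩, l) ?_ (by simp)]
  · rw [if_pos ⟨rfl, rfl⟩, one_mul, dM_zero]
  · intro y _ hy
    rw [if_neg fun e => hy (Prod.ext (Subtype.ext e.1) e.2), zero_mul]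

/-- the solution `w = ∑ i, (Tm u x)⁻¹ i y • u i` has `dM α (w l) x = Cm u α l y x`; its normal jets of order
below `y.1.1.card` vanish (`cm_nm`); `flat_sol` -/
theorem cm_tri (hN : Nr o K δ γ a) (hu : ∀ i, So γ a (u i)) (hx : x ∈ ball (0 : V n) 2)
    (hd : (Tm u x).det ≠ 0) {α : Mi n} (l : ι) {y : Ji o M ι} (h : α.card < y.1.1.card) :
    Cm u α l y x = 0 := by
  rw [← ht2_cm hu hx]
  refine flat_sol hN (so_sum _ fun i => (hu i).smul _) hx (fun m β hβ hc => ?_) l α h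
  rw [ht2_cm hu hx, ht2_low hd m hβ hc]

theorem JO.sum (hJ : JO o p B A c γ₁ a₁ γ a J) {Y : Type} (t : Finset Y) (k : Y → ℂ)
    {F : Y → Fa ι n} (hF : ∀ y, So γ a (F y)) (l : ι) (hx : x ∈ Om o p) :
    J (∑ y ∈ t, k y • F y) l x = ∑ y ∈ t, k y * J (F y) l x := by
  classical
  induction t using Finset.induction_on with
  | empty =>
    have h := hJ.smul 0 0 (so_const fun _ => 0) l x hx
    rw [zero_smul, zero_mul] at h
    exact h
  | insert y t hy ih =>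
    rw [Finset.sum_insert hy, Finset.sum_insert hy, hJ.add _ _ ((hF y).smul _)
      (so_sum _ fun y => (hF y).smul _) l x hx, hJ.smul _ _ (hF y) l x hx, ih]

/-- `∑ y, (zz + δ) l y * T y i = J (u i) l`, and the `δ` part gives `dM 0 (u i l)` -/
theorem zz_mul (hd : (Tm u x).det ≠ 0) (l : ι) (i : Ji o M ι) :
    J (u i) l x = u i l x + ∑ y, zz J u l y x * dM y.1.1 (u i y.2) x := by
  have h : ∀ i', ∑ y, (Tm u x)⁻¹ i' y * dM y.1.1 (u i y.2) x = if i' = i then 1 else 0 :=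
    fun i' => by
      have h := congrFun (congrFun (Matrix.nonsing_inv_mul _ (isUnit_iff_ne_zero.2 hd)) i') i
      rw [Matrix.mul_apply, Matrix.one_apply] at h
      exact h
  simp only [zz, sub_mul, Finset.sum_sub_distrib, ht2_delta, Finset.sum_mul, mul_assoc]
  rw [Finset.sum_comm]
  simp only [← Finset.mul_sum, h, mul_ite, mul_one, mul_zero, Finset.sum_ite_eq', Finset.mem_univ,
    if_true, add_sub_cancel]

theorem zz_vz (hJ : JO o p B A c γ₁ a₁ γ a J) (hu : ∀ i, So γ a (u i))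
    (hd : ∀ x ∈ ball (0 : V n) 2, (Tm u x).det ≠ 0)
    (hi : ∀ i y, ContDiffOn ℝ ∞ (fun x => (Tm u x)⁻¹ i y) (ball 0 2)) (l : ι) (y : Ji o M ι) :
    Vz o p (zz J u l y) := by
  refine ⟨(ContDiffOn.sum fun i _ => (hJ.sm _ (hu i) l).mul ((hi i y).mono (Om_sub2 o p))).sub
    contDiffOn_const, fun x hx h0 => ?_⟩
  have h := cm_nm (hd x (Om_sub2 o p hx)) (⟨0, mem_NS.2 ⟨Nat.zero_le _, Nat.zero_le _⟩⟩, l) y
  simp only [Cm, dM_zero] at h
  simp only [zz, hJ.ext _ (hu _) l x hx h0, h]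
  refine sub_eq_zero.2 (if_congr ⟨fun e => ?_, fun e => ?_⟩ rfl rfl)
  · rw [← e]
    exact ⟨rfl, rfl⟩
  · exact Prod.ext (Subtype.ext e.1.symm) e.2.symm

/-- `bb < B`, so `closedBall x (8 bb) ⊆ ball 0 2`. First claim: `JO.sum`, `flat_bd` with `k = card y` for the
`w` of `cm_tri`, `bd`. Second claim: `s - ∑ y, dM y.1.1 (s y.2) x • w y` is a solution whose normal jets of
order at most `M` vanish at `x`; `flat_bd` with `k = M + 1`; `‖dM y.1.1 (s y.2) x‖ ≤ D` by `dM_Bd`. -/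
theorem zz_bd {n : ℕ} (ι : Type) [Fintype ι] [DecidableEq ι] (o : Fin n) (M : ℕ) (C₀ : ℝ) :
    ∃ C : ℝ, 0 ≤ C ∧ ∀ (K c : ℕ) (δ B A : ℝ) (p : Pm) (γ γ₁ : Fin n → Fin n → V n → ℂ)
      (a a₁ : Fin n → ι → ι → V n → ℂ) (u : Ji o M ι → Fa ι n) (J : Fa ι n → Fa ι n) (x : V n),
      0 < B → B ≤ 1 / 100 → 0 ≤ A → Nr o K δ γ a → JO o p B A c γ₁ a₁ γ a J → (∀ i, So γ a (u i)) →
      (∀ i l, Bd (M + 1) (u i l) (ball 0 2) C₀) → x ∈ Om o p → (Tm u x).det ≠ 0 →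
      (∀ i y, ‖(Tm u x)⁻¹ i y‖ ≤ C₀) →
      (∀ l y, ‖zz J u l y x + if y.1.1 = 0 ∧ y.2 = l then 1 else 0‖ * bb o p B x ^ c ≤
        C * A * bb o p B x ^ y.1.1.card) ∧
      ∀ (s : Fa ι n) (D : ℝ), So γ a s → (∀ l, Bd (M + 1) (s l) (ball 0 2) D) → ∀ l,
        ‖J s l x - s l x - ∑ y, zz J u l y x * dM y.1.1 (s y.2) x‖ * bb o p B x ^ c ≤
          C * A * D * bb o p B x ^ (M + 1) := by
  obtain ⟨W, hW⟩ : ∃ W : ℝ, W = Fintype.card (Ji o M ι) * (C₀ * C₀) := ⟨_, rfl⟩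
  have W0 : 0 ≤ W := hW ▸ mul_nonneg (Nat.cast_nonneg _) (mul_self_nonneg _)
  have N0 : (0 : ℝ) ≤ Fintype.card (Ji o M ι) * W := mul_nonneg (Nat.cast_nonneg _) W0
  refine ⟨(1 + Fintype.card (Ji o M ι) * W + W) * 8 ^ (M + 1), by positivity,
    fun K c δ B A p γ γ₁ a a₁ u J x hB hB' hA hN hJ hu hb hx hd hi => ?_⟩
  have hx2 := Om_sub2 o p hx
  have b0 : 0 < bb o p B x := mul_pos hB (Real.exp_pos _)
  have b1 : bb o p B x ≤ B :=
    mul_le_of_le_one_right hB.le (Real.exp_le_one_iff.2 (by linarith [hx.2]))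
  have hs : closedBall x (8 * bb o p B x) ⊆ ball (0 : V n) 2 :=
    closedBall_subset_ball' (by rw [dist_zero_right]; linarith [hx.1])
  have hw : ∀ y, So γ a (∑ i, (Tm u x)⁻¹ i y • u i) := fun y => so_sum _ fun i => (hu i).smul _
  have hwb : ∀ y l, Bd (M + 1) ((∑ i, (Tm u x)⁻¹ i y • u i) l) (ball 0 2) W := fun y l =>
    hW ▸ ht2_Bd hu (fun i => hi i y) fun i => hb i l
  have hz : ∀ l y, J (∑ i, (Tm u x)⁻¹ i y • u i) l x =
      zz J u l y x + if y.1.1 = 0 ∧ y.2 = l then 1 else 0 := fun l y => by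
    rw [hJ.sum _ _ hu l hx, zz, sub_add_cancel]
    exact Finset.sum_congr rfl fun i _ => mul_comm _ _
  refine ⟨fun l y => ?_, fun s D hs' hD l => ?_⟩
  · have hy : y.1.1.card ≤ M + 1 := (mem_NS.1 y.1.2).1.trans M.le_succ
    have h1 := hJ.bd _ (hw y) l x hx _ (flat_bd hN (hw y) (by positivity) hs (k := y.1.1.card)
      (fun m => (hwb y m).mono hy subset_rfl le_rfl) fun m α hα hc => by
        rw [ht2_cm hu hx2, ht2_low hd m hα hc])
    have h2 : W * 8 ^ y.1.1.card ≤ (1 + Fintype.card (Ji o M ι) * W + W) * 8 ^ (M + 1) :=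
      mul_le_mul (by linarith) (pow_le_pow_right₀ (by norm_num) hy) (by positivity) (by positivity)
    rw [hz] at h1
    refine h1.trans (le_of_eq_of_le ?_ (mul_le_mul_of_nonneg_right
      (mul_le_mul_of_nonneg_right h2 hA) (pow_nonneg b0.le _)))
    rw [mul_pow]
    ring
  · have D0 : 0 ≤ D := (norm_nonneg _).trans ((hD l).norm_le hx2)
    have hd' : ∀ y : Ji o M ι, ‖-dM y.1.1 (s y.2) x‖ ≤ D := fun y => by
      rw [norm_neg]
      exact (dM_Bd (K := 0) isOpen_ball (hs'.1 _) _ ((hD y.2).mono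
        (by linarith [(mem_NS.1 y.1.2).1]) subset_rfl le_rfl)).norm_le hx2
    have hv : So γ a (∑ y : Ji o M ι, -dM y.1.1 (s y.2) x • ∑ i, (Tm u x)⁻¹ i y • u i) :=
      so_sum _ fun y => (hw y).smul _
    have h1 := hJ.bd _ (hs'.add hv) l x hx _ (flat_bd hN (hs'.add hv) (by positivity) hs
      (k := M + 1) (fun m => Bd.add isOpen_ball (hs'.1 m) (hv.1 m) (hD m)
        (ht2_Bd hw hd' fun y => hwb y m)) fun m α hα hc => by
          have e := fun y => cm_nm hd (⟨α, mem_NS.2 ⟨Nat.lt_succ_iff.1 hα, hc⟩⟩, m) y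
          refine (dM_add isOpen_ball (hs'.1 m) (hv.1 m) α hx2).trans ?_
          simp only [ht2_dM _ hw hx2, ht2_cm hu hx2] at e ⊢
          simp only [e, mul_ite, mul_one, mul_zero, Finset.sum_ite_eq, Finset.mem_univ, if_true,
            add_neg_cancel])
    have e1 : J (s + ∑ y : Ji o M ι, -dM y.1.1 (s y.2) x • ∑ i, (Tm u x)⁻¹ i y • u i) l x =
        J s l x - s l x - ∑ y, zz J u l y x * dM y.1.1 (s y.2) x := by
      rw [hJ.add _ _ hs' hv l x hx, hJ.sum _ _ hw l hx, ← ht2_delta (o := o) (M := M) s l x,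
        sub_sub, ← Finset.sum_add_distrib, sub_eq_add_neg, ← Finset.sum_neg_distrib]
      refine congrArg (J s l x + ·) (Finset.sum_congr rfl fun y _ => ?_)
      rw [hz]
      ring
    have h2 : 0 ≤ W * 8 ^ (M + 1) * A * D * bb o p B x ^ (M + 1) := by positivity
    rw [e1, mul_pow] at h1
    linarith

end Vale.Agent.P088.Mo
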