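import Vale.Agent.P088F.HW1
import Vale.Agent.P088F.HNrm2

/-! P088, part H: conjugation with the weight. -/

open MeasureTheory Set Filter Topology Metric
open scoped ContDiff FourierTransform

noncomputable section

namespace Vale.Agent.P088.Mo

open Vale.Agent.P292E

/-- the linear part of the gradient of the height -/
def hw_lam {n : ℕ} (o j : Fin n) (x : V n) : ℂ := (2 * x j - if j = o then 8 * x o else 0 : ℝ)

theorem hw_L {n : ℕ} (o j : Fin n) : ∃ L : V n →L[ℝ] ℂ, ‖L‖ ≤ 10 ∧ hw_lam o j = fun x => L x := by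
  refine ⟨Complex.ofRealCLM.comp ((2 : ℝ) • EuclideanSpace.proj j -
    if j = o then (8 : ℝ) • EuclideanSpace.proj o else 0), ?_, funext fun x => ?_⟩
  · refine ContinuousLinearMap.opNorm_le_bound _ (by norm_num) fun x => ?_
    have h1 := abs_le.1 (PiLp.norm_apply_le x j)
    have h2 := abs_le.1 (PiLp.norm_apply_le x o)
    have h3 := norm_nonneg x
    rw [ContinuousLinearMap.comp_apply, Complex.ofRealCLM_apply, Complex.norm_real,
      Real.norm_eq_abs, abs_le]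
    split_ifs <;> simp <;> constructor <;> linarith
  · unfold hw_lam
    split_ifs <;> simp

theorem hw_lam_s {n : ℕ} (o j : Fin n) : ContDiff ℝ ∞ (hw_lam o j) := by
  obtain ⟨L, -, e⟩ := hw_L o j
  rw [e]
  exact L.contDiff

theorem hw_lam_b {n : ℕ} (K : ℕ) (o j : Fin n) : Bd K (hw_lam o j) (ball 0 2) 30 := by
  obtain ⟨L, h, e⟩ := hw_L o j
  rw [e]
  exact (Bd_lin K L).mono le_rfl (ball_subset_ball (by norm_num)) (by linarith)

/-- the defect in the equation of the profile -/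
def hw_H (m : ℕ) (t : ℝ) : ℝ := deriv (hh m) t - m * hh m t

theorem hw_Hc (m : ℕ) : ContDiff ℝ ∞ fun t => (hw_H m t : ℂ) :=
  Complex.ofRealCLM.contDiff.comp
    ((contDiff_infty_iff_deriv.1 (hh_smooth m)).2.sub (contDiff_const.mul (hh_smooth m)))

theorem hw_H0 (m : ℕ) {t : ℝ} (ht : t ∉ Icc (3 / 2 : ℝ) 2) : hw_H m t = 0 := by
  rcases not_and_or.1 ht with h | h
  · have e : hh m =ᶠ[𝓝 t] fun _ => 0 := (eventually_lt_nhds (not_le.1 h)).mono fun s hs => by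
      rw [hh, Real.smoothTransition.zero_of_nonpos (by linarith), zero_mul]
    rw [hw_H, e.deriv_eq, e.self_of_nhds]
    simp
  · have e : hh m =ᶠ[𝓝 t] fun s => Real.exp (m * s) :=
      (eventually_gt_nhds (not_le.1 h)).mono fun s hs => by
        rw [hh, Real.smoothTransition.one_of_one_le (by linarith), one_mul]
    rw [hw_H, e.deriv_eq, e.self_of_nhds, ((hasDerivAt_id' t).const_mul (m : ℝ)).exp.deriv]
    ring

theorem hw_G (m : ℕ) : ∃ G : ℝ, 0 ≤ G ∧ ∀ i ≤ 1, ∀ t,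
    ‖iteratedFDeriv ℝ i (fun t => (hw_H m t : ℂ)) t‖ ≤ G := by
  have h1 : HasCompactSupport fun t => (hw_H m t : ℂ) :=
    HasCompactSupport.intro isCompact_Icc fun t ht => by rw [hw_H0 m ht, Complex.ofReal_zero]
  choose G hG using fun i => (h1.iteratedFDeriv (𝕜 := ℝ) i).exists_bound_of_continuous
    ((hw_Hc m).continuous_iteratedFDeriv (BdC_le i))
  have h2 : ∀ i, 0 ≤ G i := fun i => (norm_nonneg _).trans (hG i 0)
  refine ⟨G 0 + G 1, add_nonneg (h2 0) (h2 1), fun i hi t => (hG i t).trans ?_⟩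
  interval_cases i <;> linarith [h2 0, h2 1]

theorem hw_bu (n : ℕ) : Tst (ball 0 2) fun x => (bu n x : ℂ) := by
  have h : tsupport (fun x => (bu n x : ℂ)) ⊆ closedBall 0 (7 / 8) :=
    closure_minimal (fun x hx => by
      by_contra h
      exact hx (by simp only [(bu n).zero_of_le_dist (le_of_lt (not_le.1 h)),
        Complex.ofReal_zero])) isClosed_closedBall
  exact ⟨Complex.ofRealCLM.contDiff.comp (bu n).contDiff,
    (isCompact_closedBall _ _).of_isClosed_subset (isClosed_tsupport _) h,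
    h.trans (closedBall_subset_ball (by norm_num))⟩

theorem hw_om {n : ℕ} (o : Fin n) (p : Pm) (m : ℕ) (j : Fin n) (x : V n) :
    pd j (om o p m) x = (bu n x * (deriv (hh m) (tt o p x) * fderiv ℝ (tt o p) x (ee j)) +
      hh m (tt o p x) * fderiv ℝ (bu n) x (ee j) : ℝ) := by
  have h1 := (((bu n).contDiff (n := 1)).differentiable one_ne_zero x).hasFDerivAt
  have h2 := ((hh_smooth m).differentiable (by simp) (tt o p x)).hasDerivAt.comp_hasFDerivAt x
    ((tt_smooth o p).differentiable (by simp) x).hasFDerivAt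
  have h3 : HasFDerivAt (om o p m) _ x := Complex.ofRealCLM.hasFDerivAt.comp x (h1.mul h2)
  rw [pd, h3.fderiv]
  simp

theorem hw_int {n : ℕ} {U : Set (V n)} {f : V n → ℂ} (h : Tst U f) : Integrable f :=
  h.1.continuous.integrable_of_hasCompactSupport h.2.1

theorem hw_cut {n : ℕ} {o : Fin n} {p : Pm} {ρ z : V n → ℂ} {D E : ℝ} (h : Tst (Om o p) ρ)
    (h2 : ∀ x ∈ tsupport ρ, tt o p x ≤ 2) (hD : ∀ x, ‖ρ x‖ ≤ D) (hE : 0 ≤ E) (hz : Vz o p z)
    (ht : Top o p z E) : Tst (ball 0 1) (fun x => ρ x * z x) ∧ ∀ x, ‖ρ x * z x‖ ≤ D * E := by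
  have h1 := cut_contDiff (Om_open o p) h hz.1
  have h0 : 0 ≤ D := (norm_nonneg _).trans (hD 0)
  refine ⟨⟨h1.1, h1.2.1, h1.2.2.trans (Om_sub o p)⟩, fun x => ?_⟩
  by_cases hx : x ∈ tsupport ρ
  · rw [norm_mul]
    exact mul_le_mul (hD x) (ht x (h.2.2 hx) (h2 x hx)) (norm_nonneg _) h0
  · rw [image_eq_zero_of_notMem_tsupport hx, zero_mul, norm_zero]
    positivity

theorem hw_lin (n S : ℕ) : ∃ C : ℝ, 0 ≤ C ∧ ∀ (o j : Fin n) (τ κ : ℝ) (s : ℕ) (f : V n → ℂ),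
    1 ≤ τ → 0 ≤ κ → s ≤ S → Tst (ball 0 1) f →
    Integrable (fun x => (τ * κ : ℝ) * (hw_lam o j x * f x)) ∧
      nrm τ (s + 1) (fun x => (τ * κ : ℝ) * (hw_lam o j x * f x)) ≤ C * (κ * nrm τ s f) := by
  obtain ⟨K, C, hC, H⟩ := nrm_mul n S
  refine ⟨C * 30, by positivity, fun o j τ κ s f hτ hκ hs hf => ?_⟩
  have h1 := hw_int (tst_mul (hw_lam_s o j).contDiffOn hf)
  refine ⟨h1.const_mul _, (nrm_cmul hτ h1 _ _).trans ?_⟩
  have h2 := (nrm_succ hτ h1 s).trans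
    (H τ s _ f 30 hτ hs (hw_lam_s o j).contDiffOn (hw_lam_b K o j) hf)
  rw [Complex.norm_real, Real.norm_of_nonneg (by positivity)]
  have := mul_le_mul_of_nonneg_left h2 hκ
  linarith

theorem hw_tau {m : ℕ} (hm : 1 ≤ m) {p : Pm} (hp : Ok p) : 1 ≤ m * p.N :=
  one_le_mul_of_one_le_of_one_le (by exact_mod_cast hm) hp.N1


/-- With `t = tt o p`, `H t = smoothTransition' (2 t - 3) * 2 * exp (m t)` (so `hh' = m hh + H`, `H` smooth,
zero outside `[3/2, 2]`), `ψ j = (if j = o then 1 else 0) + κ λ j`, `λ j x = 2 x j - if j = o then 8 x o else 0`,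
`ρ j = N ψ j * bu * H t`. For `z` in `Vz`, everywhere:
`om * pd j z = pd j (om z) + τ ψ j * (om z) + ρ j * z` (the term `pd j bu * hh t * z` vanishes: where
`‖x‖ ≤ 1 / 2` the bump is locally one, elsewhere `half_le` gives `x o < 0` or `hh t = 0`). `ρ j` is a test
function in `Om` supported in `t ≤ 2`, with `‖ρ j‖ ≤ C N`, `‖pd k (ρ j)‖ ≤ C N ^ 2` (`tt_comp`). -/
theorem w_rho (n m : ℕ) : ∃ C : ℝ, 0 ≤ C ∧ ∀ (o : Fin n) (p : Pm) (j : Fin n), Ok p →
    ∃ ρ : V n → ℂ, Tst (Om o p) ρ ∧ (∀ x ∈ tsupport ρ, tt o p x ≤ 2) ∧ (∀ x, ‖ρ x‖ ≤ C * p.N) ∧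
      (∀ k x, ‖pd k ρ x‖ ≤ C * p.N ^ 2) ∧ ∀ z, Vz o p z → ∀ x, wz o p m (pd j z) x =
        cd o (m * p.N) j (wz o p m z) x + (m * p.N * p.κ : ℝ) *
          ((2 * x j - if j = o then 8 * x o else 0 : ℝ) * wz o p m z x) + ρ x * z x := by
  obtain ⟨G, hG0, hG⟩ := hw_G m
  have hχ := hw_bu n
  obtain ⟨C0, hC0, H0⟩ := cut_Bd 0 isOpen_ball hχ
  obtain ⟨C1, hC1, H1⟩ := cut_Bd 1 isOpen_ball hχ
  refine ⟨C0 * (61 * G) + C1 * (366 * G), by positivity, fun o p j hp => ?_⟩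
  have hN := hp.N1
  have hκ := hp.k0
  set f : V n → ℂ := fun x => (if j = o then (p.N : ℂ) else 0) + (p.N * p.κ : ℝ) * hw_lam o j x
    with hf
  have sf : ContDiff ℝ ∞ f := contDiff_const.add (contDiff_const.mul (hw_lam_s o j))
  have sg : ContDiff ℝ ∞ fun x => (hw_H m (tt o p x) : ℂ) := (hw_Hc m).comp (tt_smooth o p)
  have bf : ∀ K ≤ 1, Bd K f (ball 0 2) (61 * p.N) := fun K hK => by
    refine (Bd.add isOpen_ball contDiffOn_const (contDiff_const.mul (hw_lam_s o j)).contDiffOn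
      (Bd_const K _ _) (Bd.mul isOpen_ball contDiffOn_const (hw_lam_s o j).contDiffOn
        (Bd_const K _ _) (hw_lam_b K o j))).mono le_rfl Subset.rfl ?_
    have h1 : ‖if j = o then (p.N : ℂ) else 0‖ ≤ p.N := by
      split_ifs
      · rw [Complex.norm_real, Real.norm_of_nonneg (by linarith)]
      · rw [norm_zero]
        linarith
    have h2 : (2 : ℝ) ^ K ≤ 2 := (pow_le_pow_right₀ one_le_two hK).trans_eq (pow_one 2)
    have h3 : p.N * p.κ ≤ p.N := mul_le_of_le_one_right (by linarith) (by linarith [hp.k1])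
    rw [Complex.norm_real, Real.norm_of_nonneg (by positivity)]
    have h4 := mul_le_mul h2 h3 (by positivity) (by norm_num)
    linarith
  have bg : ∀ K ≤ 1, Bd K (fun x => (hw_H m (tt o p x) : ℂ)) (ball 0 2)
      (K.factorial * G * (3 * p.N) ^ K) := fun K hK i hi x hx =>
    tt_comp hp hx (hw_Hc m) (fun i hi => hG i (hi.trans hK) _) i hi
  have b0 := H0 _ _ (by positivity) (sf.mul sg).contDiffOn
    (Bd.mul isOpen_ball sf.contDiffOn sg.contDiffOn (bf 0 zero_le_one) (bg 0 zero_le_one))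
  have b1 := H1 _ _ (by positivity) (sf.mul sg).contDiffOn
    (Bd.mul isOpen_ball sf.contDiffOn sg.contDiffOn (bf 1 le_rfl) (bg 1 le_rfl))
  set ρ : V n → ℂ := fun x => (bu n x : ℂ) * (f x * (hw_H m (tt o p x) : ℂ)) with hρ
  have sρ : ContDiff ℝ ∞ ρ := hχ.1.mul (sf.mul sg)
  have hs : tsupport ρ ⊆ closedBall 0 (7 / 8) ∩ tt o p ⁻¹' Icc (3 / 2) 2 := by
    refine closure_minimal (fun x hx => ⟨?_, ?_⟩)
      (isClosed_closedBall.inter (isClosed_Icc.preimage (tt_smooth o p).continuous))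
    · by_contra h
      exact hx (by simp only [hρ, (bu n).zero_of_le_dist (le_of_lt (not_le.1 h)),
        Complex.ofReal_zero, zero_mul])
    · by_contra h
      exact hx (by simp only [hρ, hw_H0 m h, Complex.ofReal_zero, mul_zero])
  have tρ : Tst (Om o p) ρ := ⟨sρ, hχ.2.1.mul_right, fun x hx =>
    ⟨(mem_closedBall_zero_iff.1 (hs hx).1).trans_lt (by norm_num),
      lt_of_lt_of_le (by norm_num) (hs hx).2.1⟩⟩
  refine ⟨ρ, tρ, fun x hx => (hs hx).2.2, fun x => (b0.norm_le (mem_univ x)).trans ?_,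
    fun k x => ((Bd.pd (M := 0) isOpen_univ sρ.contDiffOn b1 k).norm_le (mem_univ x)).trans ?_,
    fun z hz x => ?_⟩
  · have : 0 ≤ C1 * (366 * G) * p.N := by positivity
    simp only [pow_zero, Nat.factorial_zero, Nat.cast_one]
    linarith
  · have : 0 ≤ C0 * (61 * G) * p.N ^ 2 := by positivity
    simp only [pow_one, Nat.factorial_one, Nat.cast_one]
    linarith
  by_cases hx : x ∈ Om o p
  · have dz := (BdC_at (Om_open o p) hz.1 hx 1).differentiableAt one_ne_zero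
    have e1 : pd j (wz o p m z) x = _ :=
      sys_pd_mul ((om_smooth o p m).differentiable (by simp) x) dz j
    have e2 : (fderiv ℝ (bu n) x (ee j) : ℂ) * z x = 0 := by
      by_cases h : ‖x‖ < 3 / 4
      · rw [((bu n).eventuallyEq_one_of_mem_ball (mem_ball_zero_iff.2 h)).fderiv_eq]
        simp
      · rw [hz.2 x hx (not_le.1 fun h0 => h ((half_le hp hx.1 h0
          (zero_le_one.trans hx.2.le)).trans_lt (by norm_num))), mul_zero]
    rw [cd, e1, hw_om, tt_fderiv]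
    simp only [wz, om, hρ, hf, hw_lam, hw_H]
    split_ifs
    all_goals
      push_cast
      linear_combination (-(hh m (tt o p x) : ℂ)) * e2
  · have t1 := cut_contDiff (Om_open o p) (om_tst o p m) hz.1
    have e1 : pd j (wz o p m z) x = 0 :=
      image_eq_zero_of_notMem_tsupport fun h => hx ((t1.pd j).1.2.2 h)
    have e2 : ρ x = 0 := image_eq_zero_of_notMem_tsupport fun h => hx (tρ.2.2 h)
    rw [cd, e1, e2]
    simp only [wz, om_out hx, zero_mul, mul_zero, add_zero]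

/-- `w_rho`, `nrm_mul` for the linear coefficient, `nrm_succ`, `nrm_sup` for `ρ z` -/
theorem w_one (n m S : ℕ) (hm : 1 ≤ m) : ∃ C : ℝ, 0 ≤ C ∧ ∀ (o : Fin n) (p : Pm) (z : V n → ℂ)
    (E : ℝ) (s : ℕ) (j : Fin n), Ok p → s ≤ S → 0 ≤ E → Vz o p z → Top o p z E →
    nrm (m * p.N) (s + 1) (fun x => wz o p m (pd j z) x - cd o (m * p.N) j (wz o p m z) x) ≤
      C * (p.κ * nrm (m * p.N) s (wz o p m z) + p.N * E) := by
  obtain ⟨C, hC, H⟩ := w_rho n m
  obtain ⟨C1, hC1, H1⟩ := hw_lin n S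
  obtain ⟨C2, hC2, H2⟩ := nrm_sup n
  refine ⟨C1 + C2 * C, by positivity, fun o p z E s j hp hs hE hz ht => ?_⟩
  obtain ⟨ρ, r1, r2, r3, -, r5⟩ := H o p j hp
  have hτ := hw_tau hm hp
  obtain ⟨a1, a2⟩ := H1 o j _ _ s _ hτ hp.k0.le hs (wz_tst hz.1 m)
  obtain ⟨b1, b2⟩ := hw_cut r1 r2 r3 hE hz ht
  have e : (fun x => wz o p m (pd j z) x - cd o (m * p.N) j (wz o p m z) x) = fun x =>
      (m * p.N * p.κ : ℝ) * (hw_lam o j x * wz o p m z x) + ρ x * z x := funext fun x => by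
    rw [r5 z hz x, hw_lam]
    ring
  rw [e]
  refine (nrm_add hτ a1 (hw_int b1) _).trans ?_
  have b3 := H2 _ (s + 1) _ _ hτ b1 b2
  have c1 : 0 ≤ C2 * C * (p.κ * nrm (m * p.N) s (wz o p m z)) :=
    mul_nonneg (by positivity) (mul_nonneg hp.k0.le (nrm_nonneg hτ _ _))
  have c2 : 0 ≤ C1 * (p.N * E) := mul_nonneg hC1 (mul_nonneg (by linarith [hp.N1]) hE)
  linarith

/-- `w_one` and `nrm_cd` -/
theorem w_one' (n m S : ℕ) (hm : 1 ≤ m) : ∃ C : ℝ, 0 ≤ C ∧ ∀ (o : Fin n) (p : Pm) (z : V n → ℂ)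
    (E : ℝ) (s : ℕ) (j : Fin n), Ok p → s ≤ S → 0 ≤ E → Vz o p z → Top o p z E →
    nrm (m * p.N) (s + 1) (wz o p m (pd j z)) ≤
      C * (nrm (m * p.N) s (wz o p m z) + p.N * E) := by
  obtain ⟨C, hC, H⟩ := w_one n m S hm
  refine ⟨C + 7, by positivity, fun o p z E s j hp hs hE hz ht => ?_⟩
  have hτ := hw_tau hm hp
  have t1 := wz_tst hz.1 m
  have t2 := cd_tst t1 o (m * p.N) j
  have h1 := nrm_add hτ (hw_int (tst_sub (wz_tst (hz.pd j).1 m) t2)) (hw_int t2) (s + 1)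
  simp only [sub_add_cancel] at h1
  have h2 := H o p z E s j hp hs hE hz ht
  have h3 := nrm_cd hτ t1 s o j
  have h4 := nrm_nonneg hτ s (wz o p m z)
  have h5 := mul_le_mul_of_nonneg_left
    (mul_le_of_le_one_left h4 (by linarith [hp.k1] : p.κ ≤ 1)) hC
  have c2 : 0 ≤ p.N * E := mul_nonneg (by linarith [hp.N1]) hE
  refine le_trans h1 ?_
  linarith

/-- `w_rho` for `pd k z`, then `w_one'`; `ρ * pd k z = pd k (ρ z) - pd k ρ * z` -/
theorem w_two (n m S : ℕ) (hm : 1 ≤ m) : ∃ C : ℝ, 0 ≤ C ∧ ∀ (o : Fin n) (p : Pm) (z : V n → ℂ)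
    (E : ℝ) (s : ℕ) (j k : Fin n), Ok p → s ≤ S → 0 ≤ E → Vz o p z → Top o p z E →
    nrm (m * p.N) (s + 2) (wz o p m (pd j (pd k z))) ≤
      C * (nrm (m * p.N) s (wz o p m z) + p.N ^ 2 * E) := by
  obtain ⟨C, hC, H⟩ := w_rho n m
  obtain ⟨C1, hC1, H1⟩ := hw_lin n (S + 1)
  obtain ⟨C2, hC2, H2⟩ := nrm_sup n
  obtain ⟨C3, hC3, H3⟩ := w_one' n m S hm
  refine ⟨(7 + C1) * C3 + 8 * (C2 * C), by positivity, fun o p z E s j k hp hs hE hz ht => ?_⟩
  obtain ⟨ρ, r1, r2, r3, r4, r5⟩ := H o p j hp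
  have hτ := hw_tau hm hp
  have t1 := wz_tst (hz.pd k).1 m
  have t2 := cd_tst t1 o (m * p.N) j
  obtain ⟨a1, a2⟩ := H1 o j _ _ (s + 1) _ hτ hp.k0.le (by omega) t1
  obtain ⟨b1, b2⟩ := hw_cut r1 r2 r3 hE hz ht
  obtain ⟨d1, d2⟩ := hw_cut (r1.pd k).1 (fun x hx => r2 x ((r1.pd k).2 hx)) (r4 k) hE hz ht
  have e : wz o p m (pd j (pd k z)) = fun x => cd o (m * p.N) j (wz o p m (pd k z)) x +
      (m * p.N * p.κ : ℝ) * (hw_lam o j x * wz o p m (pd k z) x) +
      (pd k (fun x => ρ x * z x) x - pd k ρ x * z x) := funext fun x => by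
    rw [r5 _ (hz.pd k) x, hw_lam]
    congr 1
    by_cases hx : x ∈ Om o p
    · rw [sys_pd_mul (r1.1.differentiable (by simp) x)
        ((BdC_at (Om_open o p) hz.1 hx 1).differentiableAt one_ne_zero), add_sub_cancel_left]
    · have h0 : ∀ {ψ : V n → ℂ}, Tst (Om o p) ψ → ψ x = 0 := fun hψ =>
        image_eq_zero_of_notMem_tsupport fun h => hx (hψ.2.2 h)
      rw [h0 r1, h0 (r1.pd k).1, h0 ((cut_contDiff (Om_open o p) r1 hz.1).pd k).1]
      simp
  rw [e]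
  have g1 := nrm_add hτ ((hw_int t2).add a1) (hw_int (tst_sub (b1.pd k).1 d1)) (s + 2)
  have g2 := nrm_add hτ (hw_int t2) a1 (s + 2)
  have g3 := nrm_sub hτ (hw_int (b1.pd k).1) (hw_int d1) (s + 2)
  have g4 := nrm_cd hτ t1 (s + 1) o j
  have g5 := nrm_pd hτ b1 (s + 1) k
  have g6 := H2 _ (s + 1) _ _ hτ b1 b2
  have g7 := H2 _ (s + 2) _ _ hτ d1 d2
  have hN : p.N * E ≤ p.N ^ 2 * E :=
    mul_le_mul_of_nonneg_right (le_self_pow₀ hp.N1 two_ne_zero) hE
  have g8 := mul_le_mul_of_nonneg_left ((H3 o p z E s k hp hs hE hz ht).trans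
    (mul_le_mul_of_nonneg_left (add_le_add_right hN _) hC3)) (by positivity : 0 ≤ 7 + C1)
  have g9 := mul_le_mul_of_nonneg_left (mul_le_of_le_one_left
    (nrm_nonneg hτ (s + 1) (wz o p m (pd k z))) (by linarith [hp.k1] : p.κ ≤ 1)) hC1
  have c1 : 0 ≤ C2 * C * nrm (m * p.N) s (wz o p m z) :=
    mul_nonneg (by positivity) (nrm_nonneg hτ _ _)
  have c2 := mul_le_mul_of_nonneg_left hN (by positivity : 0 ≤ C2 * C)
  refine le_trans g1 (le_trans (add_le_add g2 g3) ?_)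
  linarith

end Vale.Agent.P088.Mo
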