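import Vale.Agent.P088F.HW0

/-! P088, part H: derivatives of the depth function. -/

open MeasureTheory Set Filter Topology Metric
open scoped ContDiff FourierTransform

noncomputable section

namespace Vale.Agent.P088.Mo

open Vale.Agent.P292E

variable {n : ℕ} {o : Fin n} {p : Pm} {m : ℕ} {x : V n} {z : V n → ℂ}

/-- the coordinate functional -/
def hw1_P (o : Fin n) : V n →L[ℝ] ℝ := EuclideanSpace.proj o

/-- the inner product -/
def hw1_I (n : ℕ) : V n →L[ℝ] V n →L[ℝ] ℝ := innerSL ℝ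

theorem hw1_I_app (x v : V n) : hw1_I n x v = inner ℝ x v := rfl

/-- the second derivative -/
def hw1_L (o : Fin n) (p : Pm) : V n →L[ℝ] V n →L[ℝ] ℝ :=
  (-(p.N * p.κ)) • ((2 : ℝ) • hw1_I n - (8 : ℝ) • (hw1_P o).smulRight (hw1_P o))

theorem hw1_fd (o : Fin n) (p : Pm) :
    fderiv ℝ (tt o p) = fun x => (-p.N) • hw1_P o + hw1_L o p x := by
  funext x
  have h1 : HasFDerivAt (fun y : V n => y o) (hw1_P o) x := (hw1_P o).hasFDerivAt
  have h2 := ((h1.add (((hasStrictFDerivAt_norm_sq x).hasFDerivAt.sub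
    ((h1.pow 2).const_mul 4)).const_mul p.κ)).const_sub p.a).const_mul p.N
  refine (HasFDerivAt.fderiv (f := tt o p) h2).trans (ContinuousLinearMap.ext fun v => ?_)
  simp [hw1_L, hw1_P, hw1_I_app]
  ring

theorem hw1_app (o : Fin n) (p : Pm) (x v : V n) : hw1_L o p x v =
    -(p.N * p.κ) * (2 * inner ℝ x v - 8 * (x o * v o)) := by
  simp [hw1_L, hw1_P, hw1_I_app]

theorem hw1_co (o : Fin n) (x : V n) : |x o| ≤ ‖x‖ := PiLp.norm_apply_le x o

theorem hw1_L_le (hp : Ok p) (o : Fin n) (x : V n) : ‖hw1_L o p x‖ ≤ p.N * ‖x‖ := by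
  have hN := hp.N1
  have h0 := hp.k0
  refine ContinuousLinearMap.opNorm_le_bound _ (by positivity) fun v => ?_
  have h1 : |2 * inner ℝ x v - 8 * (x o * v o)| ≤ 10 * (‖x‖ * ‖v‖) := by
    have a1 := abs_le.1 (abs_real_inner_le_norm x v)
    have a2 := abs_le.1 ((abs_mul _ _).trans_le
      (mul_le_mul (hw1_co o x) (hw1_co o v) (abs_nonneg _) (norm_nonneg _)))
    exact abs_le.2 ⟨by linarith, by linarith⟩
  rw [hw1_app, Real.norm_eq_abs, abs_mul, abs_neg, abs_of_nonneg (by positivity)]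
  refine (mul_le_mul (mul_le_mul_of_nonneg_left hp.k1 (by positivity)) h1 (abs_nonneg _)
    (by positivity)).trans_eq (by ring)

theorem hw1_one (hp : Ok p) (hx : x ∈ ball (0 : V n) 2) : ‖fderiv ℝ (tt o p) x‖ ≤ 3 * p.N := by
  have hN := hp.N1
  have h1 : ‖(-p.N) • hw1_P o‖ ≤ p.N := by
    refine ContinuousLinearMap.opNorm_le_bound _ (by positivity) fun v => ?_
    show |(-p.N) * v o| ≤ _
    rw [abs_mul, abs_neg, abs_of_nonneg (by positivity)]
    exact mul_le_mul_of_nonneg_left (hw1_co o v) (by positivity)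
  have h2 := (hw1_L_le hp o x).trans
    (mul_le_mul_of_nonneg_left (mem_ball_zero_iff.1 hx).le (by positivity))
  rw [hw1_fd]
  exact (norm_add_le _ _).trans (by linarith)

/-- first derivative at most `N (1 + 20 κ)`, second at most `10 κ N`, higher ones vanish -/
theorem tt_der (hp : Ok p) (hx : x ∈ ball (0 : V n) 2) {i : ℕ} (hi : 1 ≤ i) :
    ‖iteratedFDeriv ℝ i (tt o p) x‖ ≤ (3 * p.N) ^ i := by
  have hN := hp.N1
  have f2 : fderiv ℝ (fderiv ℝ (tt o p)) = fun _ => hw1_L o p := by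
    rw [hw1_fd]
    exact funext fun y => ((hw1_L o p).hasFDerivAt.const_add _).fderiv
  obtain _ | _ | _ | i := i
  · omega
  · rw [← norm_iteratedFDeriv_fderiv, norm_iteratedFDeriv_zero, zero_add, pow_one]
    exact hw1_one hp hx
  · rw [← norm_iteratedFDeriv_fderiv, ← norm_iteratedFDeriv_fderiv, norm_iteratedFDeriv_zero, f2]
    refine (ContinuousLinearMap.opNorm_le_bound _ (by positivity) (hw1_L_le hp o)).trans ?_
    show p.N ≤ (3 * p.N) ^ 2
    nlinarith
  · rw [← norm_iteratedFDeriv_fderiv, ← norm_iteratedFDeriv_fderiv, f2,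
      iteratedFDeriv_succ_const, Pi.zero_apply, norm_zero]
    positivity

/-- `norm_iteratedFDeriv_comp_le` -/
theorem tt_comp (hp : Ok p) (hx : x ∈ ball (0 : V n) 2) {g : ℝ → ℂ} (hg : ContDiff ℝ ∞ g) {K : ℕ}
    {G : ℝ} (hG : ∀ i ≤ K, ‖iteratedFDeriv ℝ i g (tt o p x)‖ ≤ G) :
    ∀ i ≤ K, ‖iteratedFDeriv ℝ i (fun y => g (tt o p y)) x‖ ≤ K.factorial * G * (3 * p.N) ^ K := fun i hi => by
  have hN := hp.N1
  have h0 : 0 ≤ G := (norm_nonneg _).trans (hG 0 (Nat.zero_le _))
  refine (norm_iteratedFDeriv_comp_le hg (tt_smooth o p) (by exact_mod_cast le_top) x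
    (fun j hj => hG j (hj.trans hi)) fun j hj _ => tt_der hp hx hj).trans ?_
  exact mul_le_mul (mul_le_mul_of_nonneg_right (Nat.cast_le.2 (Nat.factorial_le hi)) h0)
    (pow_le_pow_right₀ (by linarith) hi) (by positivity) (by positivity)

theorem tt_fderiv (o : Fin n) (p : Pm) (x : V n) (j : Fin n) : fderiv ℝ (tt o p) x (ee j) =
    -(p.N * ((if j = o then 1 else 0) + p.κ * (2 * x j - if j = o then 8 * x o else 0))) := by
  rw [hw1_fd]
  show (-p.N) * ee j o + hw1_L o p x (ee j) = _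
  rw [hw1_app]
  by_cases h : j = o
  · subst h
    simp [ee, EuclideanSpace.inner_single_right]
    ring
  · simp [ee, EuclideanSpace.inner_single_right, h, Ne.symm h]
    ring

theorem tt_lip (hp : Ok p) {y : V n} (hx : x ∈ ball (0 : V n) 2) (hy : y ∈ ball (0 : V n) 2) :
    |tt o p x - tt o p y| ≤ 3 * p.N * ‖x - y‖ :=
  (convex_ball (0 : V n) 2).norm_image_sub_le_of_norm_fderiv_le
    (fun w _ => (tt_smooth o p).differentiable (by simp) w) (fun _ hw => hw1_one hp hw) hy hx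

end Vale.Agent.P088.Mo
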