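import Vale.Agent.P088F.LDefs

/-! P088, part L: an adapted orthonormal coframe. -/

open Set Filter Metric Topology Matrix

noncomputable section

namespace Vale.Agent.P088.Gl.Lc

variable {n : ℕ} [NeZero n]

omit [NeZero n] in
open scoped MatrixOrder in
theorem coframe_sqrt {g : Matrix (Fin n) (Fin n) ℝ} (hg : g.PosDef) :
    ∃ B : Matrix (Fin n) (Fin n) ℝ, g = Bᵀ * B := by
  obtain ⟨B, hB⟩ := CStarAlgebra.nonneg_iff_eq_star_mul_self.mp hg.posSemidef.nonneg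
  exact ⟨B, by rw [hB, star_eq_conjTranspose, conjTranspose_eq_transpose_of_trivial]⟩

theorem coframe_orth {u : Ec n} (hu : ‖u‖ = 1) :
    ∃ Q : Matrix (Fin n) (Fin n) ℝ, Qᵀ * Q = 1 ∧ ∀ k, Q 0 k = u k := by
  have ho : Orthonormal ℝ (({0} : Set (Fin n)).domRestrict (fun _ : Fin n => u)) := by
    constructor
    · intro i
      exact hu
    · intro i j hij
      exact absurd (Subtype.ext (i.2.trans j.2.symm)) hij
  obtain ⟨b, hb⟩ := Orthonormal.exists_orthonormalBasis_extension_of_card_eq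
    (𝕜 := ℝ) (E := Ec n) (ι := Fin n) (by simp) ho
  refine ⟨Matrix.of fun i j => b i j, ?_, fun k => ?_⟩
  · rw [mul_eq_one_comm]
    ext i j
    have h := orthonormal_iff_ite.mp b.orthonormal i j
    rw [PiLp.inner_apply] at h
    simp only [Matrix.mul_apply, Matrix.of_apply, Matrix.transpose_apply, Matrix.one_apply]
    rw [← h]
    refine Finset.sum_congr rfl fun k _ => ?_
    simp [mul_comm]
  · rw [Matrix.of_apply, hb 0 rfl]

theorem coframe {g : Matrix (Fin n) (Fin n) ℝ} (hg : g.PosDef) {ν : Ec n} (hν : ν ≠ 0) :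
    ∃ (M : Matrix (Fin n) (Fin n) ℝ) (t : ℝ), 0 < t ∧ Mᵀ * M = g ∧ ∀ i, M 0 i = t * ν i := by
  obtain ⟨B, hB⟩ := coframe_sqrt hg
  have hdet : Bᵀ.det ≠ 0 := by
    intro h0
    have h1 := hg.det_pos
    rw [hB, det_mul, h0, zero_mul] at h1
    exact lt_irrefl _ h1
  have hU : IsUnit Bᵀ.det := isUnit_iff_ne_zero.mpr hdet
  set q : Ec n := WithLp.toLp 2 ((Bᵀ)⁻¹ *ᵥ ν.ofLp) with hq
  have hBq : Bᵀ *ᵥ q.ofLp = ν.ofLp := by
    rw [hq, WithLp.ofLp_toLp, mulVec_mulVec, mul_nonsing_inv _ hU, one_mulVec]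
  have hq0 : q ≠ 0 := by
    intro h0
    apply hν
    rw [h0] at hBq
    ext i
    have := congrFun hBq i
    simpa using this.symm
  have hn : 0 < ‖q‖ := norm_pos_iff.mpr hq0
  obtain ⟨Q, hQ, hQ0⟩ := coframe_orth (u := ‖q‖⁻¹ • q) (by
    rw [norm_smul, norm_inv, norm_norm, inv_mul_cancel₀ hn.ne'])
  refine ⟨Q * B, ‖q‖⁻¹, inv_pos.mpr hn, ?_, fun i => ?_⟩
  · rw [transpose_mul, Matrix.mul_assoc, ← Matrix.mul_assoc Qᵀ, hQ, Matrix.one_mul, hB]
  · have h1 := congrFun hBq i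
    rw [← h1, Matrix.mul_apply, mulVec, dotProduct, Finset.mul_sum]
    refine Finset.sum_congr rfl fun k _ => ?_
    rw [hQ0, PiLp.smul_apply, smul_eq_mul, transpose_apply]
    ring

end Vale.Agent.P088.Gl.Lc
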