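import Vale.Agent.P088F.LDefs

/-! P088, part L: the region below a paraboloid. -/

open Set Filter Metric Topology Matrix
open scoped ContDiff

noncomputable section

namespace Vale.Agent.P088.Gl.Lc

variable {n : ℕ} [NeZero n]

theorem cap_neg {f : Ec n → ℝ} {t : ℝ} (hf : ContDiffAt ℝ 2 f 0) (h0 : f 0 = 0) (ht : 0 < t)
    (hd : ∀ v, fderiv ℝ f 0 v = t * v 0) : ∃ C ρ : ℝ, 0 < ρ ∧ ∀ w ∈ cap n ρ C, f w < 0 := by
  obtain ⟨K, s, hs, hK⟩ := (hf.fderiv_right (m := 1) (by norm_num)).exists_lipschitzOnWith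
  obtain ⟨ρ, hρ, hb⟩ := Metric.mem_nhds_iff.1 (inter_mem hs (hf.eventually (by simp)))
  refine ⟨K / t, ρ, hρ, fun w hw => ?_⟩
  have hsub : closedBall (0 : Ec n) ‖w‖ ⊆ ball 0 ρ :=
    closedBall_subset_ball (mem_ball_zero_iff.1 hw.1)
  have key := (convex_closedBall (0 : Ec n) ‖w‖).norm_image_sub_le_of_norm_fderiv_le'
    (f := f) (φ := fderiv ℝ f 0) (C := K * ‖w‖)
    (fun x hx => (show ContDiffAt ℝ 2 f x from (hb (hsub hx)).2).differentiableAt (by simp))
    (fun x hx => by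
      have := hK.dist_le_mul x (hb (hsub hx)).1 0 (mem_of_mem_nhds hs)
      rw [dist_eq_norm, dist_zero_right] at this
      exact this.trans (mul_le_mul_of_nonneg_left (mem_closedBall_zero_iff.1 hx) K.2))
    (mem_closedBall_self (norm_nonneg w)) (mem_closedBall_zero_iff.2 le_rfl)
  rw [h0, sub_zero, sub_zero, hd, Real.norm_eq_abs] at key
  have h1 := (abs_le.1 key).2
  have h2 : w 0 < -(K / t) * ‖w‖ ^ 2 := by have := hw.2; simp only [mem_ofPred_eq] at this; linarith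
  have h3 := mul_lt_mul_of_pos_left h2 ht
  have h4 : t * (-(K / t) * ‖w‖ ^ 2) = -(K * ‖w‖ * ‖w‖) := by field_simp
  linarith

theorem cap_ball {Y : Ec n → Ec n} {c : Ec n} {r t : ℝ} (hY : ContDiffAt ℝ 2 Y 0)
    (hr : dist (Y 0) c = r) (ht : 0 < t)
    (hd : ∀ v, t * ∑ i, (Y 0 - c) i * fderiv ℝ Y 0 v i = v 0) :
    ∃ C ρ : ℝ, 0 < ρ ∧ MapsTo Y (cap n ρ C) (ball c r) := by
  have hD := (hY.differentiableAt (by simp)).hasFDerivAt
  obtain ⟨C, ρ, hρ, h⟩ := cap_neg (f := fun w => ‖Y w - c‖ ^ 2 - r ^ 2) (t := 2 / t)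
    (((hY.sub contDiffAt_const).norm_sq ℝ).sub contDiffAt_const)
    (by simp only [← dist_eq_norm, hr, sub_self]) (by positivity) fun v => by
      rw [((hD.sub_const c).norm_sq.sub_const _).fderiv, ← hd v]
      simp only [_root_.smul_apply, ContinuousLinearMap.comp_apply, innerSL_apply_apply,
        PiLp.inner_apply, RCLike.inner_apply, conj_trivial, nsmul_eq_mul, Nat.cast_ofNat]
      rw [← mul_assoc, div_mul_cancel₀ _ ht.ne']
      exact congrArg _ (Finset.sum_congr rfl fun i _ => mul_comm _ _)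
  refine ⟨C, ρ, hρ, fun w hw => ?_⟩
  rw [mem_ball, dist_eq_norm]
  exact lt_of_pow_lt_pow_left₀ 2 (hr ▸ dist_nonneg) (sub_neg.1 (h w hw))

end Vale.Agent.P088.Gl.Lc
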