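import Vale.Agent.P088F.LDefs

/-! P088, part L: local inverses. -/

open Set Filter Metric Topology Matrix
open scoped ContDiff

noncomputable section

namespace Vale.Agent.P088.Gl.Lc

variable {n : ℕ} {O : Set (Ec n)} {X Y : Ec n → Ec n} {p : Ec n} {ρ : ℝ}

/-- `Y` inverts `X` on a ball. -/
structure Cht (O : Set (Ec n)) (X Y : Ec n → Ec n) (p : Ec n) (ρ : ℝ) : Prop where
  r0 : 0 < ρ
  oO : IsOpen O
  sX : ContDiffOn ℝ ∞ X O
  sY : ContDiffOn ℝ ∞ Y (ball 0 ρ)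
  mp : MapsTo Y (ball 0 ρ) O
  y0 : Y 0 = p
  xy : ∀ w ∈ ball (0 : Ec n) ρ, X (Y w) = w
  op : IsOpen (Y '' ball 0 ρ)

theorem Cht.mono (h : Cht O X Y p ρ) {ρ' : ℝ} (h0 : 0 < ρ') (h1 : ρ' ≤ ρ) : Cht O X Y p ρ' := by
  have hs : ball (0 : Ec n) ρ' ⊆ ball 0 ρ := ball_subset_ball h1
  refine ⟨h0, h.oO, h.sX, h.sY.mono hs, h.mp.mono_left hs, h.y0, fun w hw => h.xy w (hs hw), ?_⟩
  have e : Y '' ball 0 ρ' = Y '' ball 0 ρ ∩ X ⁻¹' ball 0 ρ' := by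
    refine Subset.antisymm ?_ ?_
    · rintro _ ⟨w, hw, rfl⟩
      exact ⟨⟨w, hs hw, rfl⟩, by rwa [mem_preimage, h.xy w (hs hw)]⟩
    · rintro _ ⟨⟨w, hw, rfl⟩, h2⟩
      exact ⟨w, by rwa [mem_preimage, h.xy w hw] at h2, rfl⟩
  rw [e]
  exact (h.sX.continuousOn.mono h.mp.image_subset).isOpen_inter_preimage h.op isOpen_ball

theorem exists_cht (hO : IsOpen O) (hX : ContDiffOn ℝ ∞ X O) (hp : p ∈ O) (h0 : X p = 0)
    (hd : (jac X p).det ≠ 0) : ∃ Y ρ, Cht O X Y p ρ := by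
  have d0 : (fderiv ℝ X p).det ≠ 0 := by
    refine ne_of_eq_of_ne ?_ hd
    rw [ContinuousLinearMap.det,
      ← LinearMap.det_toMatrix (EuclideanSpace.basisFun (Fin n) ℝ).toBasis]
    exact congrArg Matrix.det (Matrix.ext fun i j => by simp [LinearMap.toMatrix_apply, jac, bv])
  have hU := (ContinuousLinearMap.continuous_det.comp_continuousOn
    (hX.continuousOn_fderiv_of_isOpen hO (by simp))).isOpen_inter_preimage hO
      (isOpen_compl_singleton (x := (0 : ℝ)))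
  have hc : ∀ z ∈ O, ContDiffAt ℝ ∞ X z := fun z hz => hX.contDiffAt (hO.mem_nhds hz)
  have hf : ∀ z ∈ O, ∀ h : (fderiv ℝ X z).det ≠ 0, HasFDerivAt X
      ((fderiv ℝ X z).toContinuousLinearEquivOfDetNeZero h : Ec n →L[ℝ] Ec n) z := fun z hz h => by
    rw [ContinuousLinearMap.coe_toContinuousLinearEquivOfDetNeZero]
    exact ((hc z hz).differentiableAt (by simp)).hasFDerivAt
  obtain ⟨e, e1, e2, e3⟩ : ∃ e : OpenPartialHomeomorph (Ec n) (Ec n), ⇑e = X ∧ p ∈ e.source ∧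
      ∀ z ∈ e.source, z ∈ O ∧ (fderiv ℝ X z).det ≠ 0 :=
    ⟨((hc p hp).toOpenPartialHomeomorph X (hf p hp d0) (by simp)).restrOpen _ hU, rfl,
      ⟨(hc p hp).mem_toOpenPartialHomeomorph_source (hf p hp d0) (by simp), hp, d0⟩,
      fun z hz => hz.2⟩
  subst e1
  obtain ⟨ρ, r0, hρ⟩ := Metric.isOpen_iff.1 e.open_target 0 (h0 ▸ e.map_source e2)
  have hm : ∀ w ∈ ball (0 : Ec n) ρ, e.symm w ∈ O ∧ (fderiv ℝ e (e.symm w)).det ≠ 0 :=
    fun w hw => e3 _ (e.map_target (hρ hw))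
  exact ⟨e.symm, ρ, r0, hO, hX, fun w hw => (e.contDiffAt_symm (hρ hw)
    (hf _ (hm w hw).1 (hm w hw).2) (hc _ (hm w hw).1)).contDiffWithinAt, fun w hw => (hm w hw).1,
    h0 ▸ e.left_inv e2, fun w hw => e.right_inv (hρ hw),
    e.symm.isOpen_image_of_subset_source isOpen_ball hρ⟩

end Vale.Agent.P088.Gl.Lc
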