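import Vale.Agent.P088F.TDefs

/-! P088: definitions and contracts of part L (local continuation). -/

open MeasureTheory Set Filter Metric Topology Matrix
open scoped ContDiff ENNReal

noncomputable section

namespace Vale.Agent.P088.Gl

variable {n N : ℕ}

/-- Coordinate derivative. -/
def dd {F : Type} [NormedAddCommGroup F] [NormedSpace ℝ F] (i : Fin n) (u : Ec n → F) (z : Ec n) :
    F := fderiv ℝ u z (bv i)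

/-- The conductivity. -/
def Geo.cn (γ : Geo n N) (z : Ec n) : Matrix (Fin n) (Fin n) ℝ := γ.vol z • (γ.g z)⁻¹

/-- The flux. -/
def Geo.fl (γ : Geo n N) (u : Ec n → Fb N) (i : Fin n) (z : Ec n) : Fb N :=
  ∑ j, γ.cn z i j • γ.D j u z

/-- The divergence of the flux. -/
def Geo.Dv (γ : Geo n N) (u : Ec n → Fb N) (z : Ec n) : Fb N := ∑ i, γ.D i (γ.fl u i) z

/-- The connection in the frame `E`. -/
def Geo.fa (γ : Geo n N) (E : Ec n → Op N) (i : Fin n) (z : Ec n) : Op N :=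
  Ring.inverse (E z) * (dd i E z + γ.a i z * E z)

/-- Operators without zero order term. -/
structure Nf (n N : ℕ) where
  g : Ec n → Matrix (Fin n) (Fin n) ℝ
  b : Fin n → Ec n → Op N

/-- The action of the operator. -/
def Nf.ap (L : Nf n N) (u : Ec n → Fb N) (z : Ec n) : Fb N :=
  ∑ j, ∑ k, L.g z j k • dd j (dd k u) z + ∑ k, L.b k z (dd k u z)

/-- Green operators of an operator. -/
structure NG (Ω : Set (Ec n)) (L : Nf n N) (G : (Ec n → Fb N) → Ec n → Fb N) : Prop where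
  add : ∀ F F', ET Ω F → ET Ω F' → EqOn (G (F + F')) (G F + G F') Ω
  smul : ∀ (c : ℂ) F, ET Ω F → EqOn (G (c • F)) (c • G F) Ω
  sm : ∀ F, ET Ω F → ContDiffOn ℝ ∞ (G F) Ω
  eq : ∀ F, ET Ω F → EqOn (L.ap (G F)) F Ω
  inv : ∀ φ F, ET Ω φ → ET Ω F → EqOn (L.ap φ) F Ω → EqOn (G F) φ Ω

/-- The bound in the mean on the ball of radius `r`. -/
def L2b (G : (Ec n → Fb N) → Ec n → Fb N) (y : Ec n) (r Λ : ℝ) : Prop :=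
  ∀ F, ET (ball y r) F →
    ∫⁻ z in ball y r, ‖G F z‖ₑ ^ 2 ≤ ENNReal.ofReal (Λ ^ 2) * ∫⁻ z, ‖F z‖ₑ ^ 2

/-- The scale invariant bound. -/
def Har (G : (Ec n → Fb N) → Ec n → Fb N) (y : Ec n) : Prop :=
  ∃ Λ r₀ : ℝ, 0 < r₀ ∧ ∀ r, 0 < r → r ≤ r₀ → L2b G y r (Λ * r ^ 2)

/-- Hardy bound for Green operators. -/
def HZ (n N : ℕ) : Prop :=
  ∀ (Ω : Set (Ec n)) (γ : Geo n N) (G : (Ec n → Fb N) → Ec n → Fb N) (y : Ec n), IsOpen Ω →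
    γ.Sm Ω → EG Ω γ G → y ∈ Ω → Har G y

/-- The model sections. -/
def ms (l₀ : Fin N) (j : Fin n) (z : Ec n) : Fb N := EuclideanSpace.single l₀ (z j : ℂ)

/-- All derivatives of order at most `K` are at most `ε` on the ball of radius `R`. -/
def Sml {F : Type} [NormedAddCommGroup F] [NormedSpace ℝ F] (K : ℕ) (ε R : ℝ) (f : Ec n → F) :
    Prop := ∀ i ≤ K, ∀ z ∈ ball (0 : Ec n) R, ‖iteratedFDeriv ℝ i f z‖ ≤ ε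

/-- A frame of solutions and sections whose components are the coordinates. -/
structure Frm (ρ : ℝ) (γ : Geo n N) (G : (Ec n → Fb N) → Ec n → Fb N) (E : Ec n → Op N)
    (s : Fin n → Ec n → Fb N) (l₀ : Fin N) : Prop where
  sm : γ.Sm (ball 0 ρ)
  eg : EG (ball 0 ρ) γ G
  sE : ContDiffOn ℝ ∞ E (ball 0 ρ)
  un : ∀ z ∈ ball (0 : Ec n) ρ, IsUnit (E z)
  wE : ∀ ξ, EW (ball 0 ρ) γ (fun z => E z ξ) 0
  ss : ∀ j, ContDiffOn ℝ ∞ (s j) (ball 0 ρ)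
  ws : ∀ j, EW (ball 0 ρ) γ (fun z => E z (s j z)) 0
  re : ∀ j, ∀ z ∈ ball (0 : Ec n) ρ, (s j z l₀).re = z j

variable [NeZero n]

/-- The normalised operator in the frame `E`. -/
def Geo.nf (γ : Geo n N) (E : Ec n → Op N) : Nf n N where
  g z := (γ.cn z 0 0)⁻¹ • γ.cn z
  b j z := (γ.cn z 0 0)⁻¹ •
    ∑ i, (dd i (fun w => γ.cn w i j) z • (1 : Op N) + (2 * γ.cn z i j) • γ.fa E i z)

/-- Its Green operator. -/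
def Geo.ng (γ : Geo n N) (E : Ec n → Op N) (G : (Ec n → Fb N) → Ec n → Fb N) (F : Ec n → Fb N)
    (z : Ec n) : Fb N :=
  Ring.inverse (E z) (G (fun w => (-(γ.cn w 0 0 / γ.vol w)) • E w (F w)) z)

/-- Smooth normalised coefficients. -/
structure Nf.Sm (L : Nf n N) (Ω : Set (Ec n)) : Prop where
  g : ∀ i j, ContDiffOn ℝ ∞ (fun z => L.g z i j) Ω
  b : ∀ j, ContDiffOn ℝ ∞ (L.b j) Ω
  sy : ∀ z ∈ Ω, ∀ i j, L.g z i j = L.g z j i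
  g00 : ∀ z ∈ Ω, L.g z 0 0 = 1

/-- Equal coefficients. -/
def Nf.Eq (L₁ L₂ : Nf n N) (Ω : Set (Ec n)) : Prop :=
  ∀ z ∈ Ω, L₁.g z = L₂.g z ∧ ∀ j, L₁.b j z = L₂.b j z

/-- The region below a paraboloid. -/
def cap (n : ℕ) [NeZero n] (ρ C : ℝ) : Set (Ec n) := ball 0 ρ ∩ {z | z 0 < -(C * ‖z‖ ^ 2)}

/-- An operator with Green operator and sections on a ball. -/
structure Nrm (ρ : ℝ) (L : Nf n N) (G : (Ec n → Fb N) → Ec n → Fb N) (s : Fin n → Ec n → Fb N)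
    (l₀ : Fin N) : Prop where
  sm : L.Sm (ball 0 ρ)
  ng : NG (ball 0 ρ) L G
  ss : ∀ j, ContDiffOn ℝ ∞ (s j) (ball 0 ρ)
  sol : ∀ j, ∀ z ∈ ball (0 : Ec n) ρ, L.ap (s j) z = 0
  re : ∀ j, ∀ z ∈ ball (0 : Ec n) ρ, (s j z l₀).re = z j

/-- The two structures agree on `U`. -/
structure Agr (U : Set (Ec n)) (L₁ L₂ : Nf n N) (G₁ G₂ : (Ec n → Fb N) → Ec n → Fb N)
    (s₁ s₂ : Fin n → Ec n → Fb N) : Prop where
  op : L₁.Eq L₂ U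
  s : ∀ j, EqOn (s₁ j) (s₂ j) U
  G : ∀ F, ET U F → EqOn (G₁ F) (G₂ F) U

/-- Normalisation at the origin. -/
structure At0 (L : Nf n N) (G : (Ec n → Fb N) → Ec n → Fb N) (s : Fin n → Ec n → Fb N)
    (l₀ : Fin N) : Prop where
  har : Har G 0
  g0 : L.g 0 = 1
  s0 : ∀ j i, dd i (s j) 0 = ms l₀ j (bv i)

/-- Close to the flat model. -/
structure Nr (K : ℕ) (ε R Λ : ℝ) (L : Nf n N) (G : (Ec n → Fb N) → Ec n → Fb N)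
    (s : Fin n → Ec n → Fb N) (l₀ : Fin N) : Prop where
  g : ∀ i j, Sml K ε R fun z => L.g z i j - (1 : Matrix (Fin n) (Fin n) ℝ) i j
  b : ∀ j, Sml K ε R (L.b j)
  s : ∀ j, Sml K ε R fun z => s j z - ms l₀ j z
  l2 : L2b G 0 R Λ

/-- The local theorem near the flat model. -/
def LV (n N : ℕ) [NeZero n] : Prop :=
  ∀ l₀ : Fin N, ∃ R : ℝ, 0 < R ∧ ∀ Λ : ℝ, ∃ (K : ℕ) (ε c : ℝ), 0 < ε ∧ 0 < c ∧ c ≤ R ∧
    ∀ (L₁ L₂ : Nf n N) (G₁ G₂ : (Ec n → Fb N) → Ec n → Fb N) (s₁ s₂ : Fin n → Ec n → Fb N),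
      Nrm R L₁ G₁ s₁ l₀ → Nrm R L₂ G₂ s₂ l₀ → Nr K ε R Λ L₁ G₁ s₁ l₀ → Nr K ε R Λ L₂ G₂ s₂ l₀ →
      Agr (lo n R) L₁ L₂ G₁ G₂ s₁ s₂ → L₁.Eq L₂ (ball 0 c)

/-- The local theorem at a point. -/
def LZ (n N : ℕ) [NeZero n] : Prop :=
  ∀ (ρ C : ℝ) (l₀ : Fin N) (L₁ L₂ : Nf n N) (G₁ G₂ : (Ec n → Fb N) → Ec n → Fb N)
    (s₁ s₂ : Fin n → Ec n → Fb N), 0 < ρ → Nrm ρ L₁ G₁ s₁ l₀ → Nrm ρ L₂ G₂ s₂ l₀ →
    At0 L₁ G₁ s₁ l₀ → At0 L₂ G₂ s₂ l₀ → Agr (cap n ρ C) L₁ L₂ G₁ G₂ s₁ s₂ →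
    ∃ ε, 0 < ε ∧ ε ≤ ρ ∧ L₁.Eq L₂ (ball 0 ε)

/-- Local continuation in matched coordinates. -/
def LM (n N : ℕ) [NeZero n] : Prop :=
  ∀ (ρ C : ℝ) (l₀ : Fin N) (γ₁ γ₂ : Geo n N) (G₁ G₂ : (Ec n → Fb N) → Ec n → Fb N)
    (E₁ E₂ V : Ec n → Op N) (s₁ s₂ : Fin n → Ec n → Fb N) (D : Set (Ec n)), 0 < ρ →
    Frm ρ γ₁ G₁ E₁ s₁ l₀ → Frm ρ γ₂ G₂ E₂ s₂ l₀ → γ₂.g 0 = 1 →
    (∀ j i, dd i (s₂ j) 0 = ms l₀ j (bv i)) → D ⊆ ball 0 ρ → cap n ρ C ⊆ D →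
    EIso D γ₁ γ₂ id V → ERel D G₁ G₂ id V → (∀ z ∈ D, E₁ z = V z * E₂ z) →
    (∀ j, EqOn (s₁ j) (s₂ j) D) →
    ∃ ε, 0 < ε ∧ ε ≤ ρ ∧ EIso (ball 0 ε) γ₁ γ₂ id fun z => E₁ z * Ring.inverse (E₂ z)

end Vale.Agent.P088.Gl
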