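import Vale.Agent.P088F.LSm

/-! P088, part L: a parallel endomorphism, and the metric from the conductivity. -/

open MeasureTheory Set Filter Metric Topology Matrix
open scoped ContDiff ENNReal

noncomputable section

namespace Vale.Agent.P088.Gl

variable {n N : ℕ} {ε : ℝ} {γ₁ γ₂ : Geo n N} {y z : Ec n}

/-- Along the segment from `y` to `z` (inside the ball, compact, so `∑ i, ‖a i‖` is bounded on it)
`f t = W (y + t • (z - y))` satisfies `‖f' t‖ ≤ K * ‖f t‖` (`fderiv_eq_sum`); use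
`eq_zero_of_abs_deriv_le_mul_abs_self_of_eq_zero_right` or `norm_le_gronwallBound_of_norm_deriv_right_le`. -/
theorem ode_zero {W : Ec n → Op N} {a : Fin n → Ec n → Op N} (hW : ContDiffOn ℝ ∞ W (ball 0 ε))
    (ha : ∀ i, ContinuousOn (a i) (ball 0 ε))
    (h : ∀ i, ∀ z ∈ ball (0 : Ec n) ε, dd i W z = W z * a i z - a i z * W z)
    (hy : y ∈ ball (0 : Ec n) ε) (h0 : W y = 0) (hz : z ∈ ball (0 : Ec n) ε) : W z = 0 := by
  set p : ℝ → Ec n := fun t => y + t • (z - y) with hp
  have hmem : ∀ t ∈ Icc (0 : ℝ) 1, p t ∈ ball (0 : Ec n) ε := fun t ht =>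
    (convex_ball (0 : Ec n) ε).add_smul_sub_mem hy hz ht
  have hpc : Continuous p := by fun_prop
  have hpd : ∀ t, HasDerivAt p (z - y) t := fun t => by
    have := ((hasDerivAt_id t).smul_const (z - y)).const_add y
    rw [one_smul] at this
    exact this
  have hac : ContinuousOn (fun t => ∑ i, ‖a i (p t)‖) (Icc (0 : ℝ) 1) :=
    continuousOn_finsetSum _ fun i _ => ((ha i).comp hpc.continuousOn hmem).norm
  obtain ⟨K, hK⟩ := isCompact_Icc.exists_bound_of_continuousOn hac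
  have key := eq_zero_of_abs_deriv_le_mul_abs_self_of_eq_zero_right (f := fun t => W (p t))
    (f' := fun t => fderiv ℝ W (p t) (z - y)) (K := 2 * ‖z - y‖ * K) (a := 0) (b := 1)
    (hW.continuousOn.comp hpc.continuousOn hmem)
    (fun t ht => ((sm_dif isOpen_ball hW (hmem t (Ico_subset_Icc_self ht))).hasFDerivAt.comp_hasDerivAt
      t (hpd t)).hasDerivWithinAt)
    (by simpa [hp] using h0)
    (fun t ht => by
      have hm := hmem t (Ico_subset_Icc_self ht)
      have hK' := hK t (Ico_subset_Icc_self ht)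
      rw [Real.norm_eq_abs] at hK'
      have hK2 := (le_abs_self _).trans hK'
      rw [fderiv_eq_sum]
      calc ‖∑ k, (z - y) k • dd k W (p t)‖ ≤ ∑ k, ‖(z - y) k • dd k W (p t)‖ := norm_sum_le _ _
        _ ≤ ∑ k, 2 * ‖z - y‖ * ‖W (p t)‖ * ‖a k (p t)‖ := Finset.sum_le_sum fun k _ => by
            rw [norm_smul, h k _ hm]
            have h1 : ‖(z - y) k‖ ≤ ‖z - y‖ := PiLp.norm_apply_le (z - y) k
            have h2 : ‖W (p t) * a k (p t) - a k (p t) * W (p t)‖ ≤ 2 * ‖W (p t)‖ * ‖a k (p t)‖ := by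
              refine (norm_sub_le _ _).trans ?_
              have := norm_mul_le (W (p t)) (a k (p t))
              have := norm_mul_le (a k (p t)) (W (p t))
              linarith
            calc _ ≤ ‖z - y‖ * (2 * ‖W (p t)‖ * ‖a k (p t)‖) := by gcongr
              _ = _ := by ring
        _ = 2 * ‖z - y‖ * ‖W (p t)‖ * ∑ k, ‖a k (p t)‖ := by rw [Finset.mul_sum]
        _ ≤ 2 * ‖z - y‖ * ‖W (p t)‖ * K := by gcongr
        _ = _ := by ring)
    1 ⟨zero_le_one, le_rfl⟩
  simpa [hp] using key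

private theorem par_alg {R : Type} [Ring R] (s u a b : R) :
    s * (u * b - a * u) + (-b * s - s * -a) * u - 0 = (s * u - 1) * b - b * (s * u - 1) := by
  noncomm_ring

/-- `W = star U * U - 1` satisfies `dd i W = W * a₂ - a₂ * W` (`dd_mul`, `dd_star`, `sm_star`; `a₁`, `a₂`
are skew). -/
theorem par_uni {U : Ec n → Op N} (h₁ : γ₁.Sm (ball 0 ε)) (h₂ : γ₂.Sm (ball 0 ε))
    (hU : ContDiffOn ℝ ∞ U (ball 0 ε))
    (h : ∀ z ∈ ball (0 : Ec n) ε, ∀ i, U z * γ₂.a i z = γ₁.a i z * U z + dd i U z)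
    (hy : y ∈ ball (0 : Ec n) ε) (h0 : star (U y) * U y = 1) (hz : z ∈ ball (0 : Ec n) ε) :
    star (U z) * U z = 1 := by
  have key := ode_zero (W := fun w => star (U w) * U w - 1) (a := γ₂.a)
    (((sm_star hU).mul hU).sub contDiffOn_const) (fun i => (h₂.a i).continuousOn)
    (fun i w hw => by
      have hd := sm_dif isOpen_ball hU hw
      have hd' := sm_dif isOpen_ball (sm_star hU) hw
      have e1 : dd i U w = U w * γ₂.a i w - γ₁.a i w * U w := by rw [h w hw i]; abel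
      have e2 : ∀ A B : Op N, star (A - B) = star A - star B := fun A B =>
        map_sub (starL' ℝ (A := Op N)) A B
      rw [dd_sub (hd'.fun_mul hd) (differentiableAt_const _), dd_const, dd_mul hd' hd, dd_star hd, e1,
        e2, star_mul, star_mul, h₁.skew i w hw, h₂.skew i w hw]
      exact par_alg _ _ _ _) hy (by simp [h0]) hz
  exact sub_eq_zero.1 key

/-- `det (cn z) = vol z ^ n * (det (g z))⁻¹` and `det (g z) = vol z ^ 2`, so `det (cn z) = vol z ^ (n - 2)`;
hence the volumes agree (`pow_left_injective`-type lemma, `n - 2 ≠ 0`), then the inverses. -/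
theorem g_of_cn (hn : 3 ≤ n) (h₁ : (γ₁.g z).PosDef) (h₂ : (γ₂.g z).PosDef)
    (h : γ₁.cn z = γ₂.cn z) : γ₁.g z = γ₂.g z := by
  have hd : ∀ γ : Geo n N, (γ.g z).PosDef → (γ.cn z).det = γ.vol z ^ (n - 2) := fun γ hγ => by
    have hp : 0 < (γ.g z).det := hγ.det_pos
    have hv : 0 < γ.vol z := Real.sqrt_pos.2 hp
    have h2 : γ.vol z ^ 2 = (γ.g z).det := Real.sq_sqrt hp.le
    have h3 : γ.vol z ^ n = γ.vol z ^ (n - 2) * γ.vol z ^ 2 := by
      rw [← pow_add]; congr 1; omega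
    unfold Geo.cn
    rw [det_smul, det_nonsing_inv, Ring.inverse_eq_inv', Fintype.card_fin, h3, h2]
    field_simp
  have hv : γ₁.vol z = γ₂.vol z := by
    have e : γ₁.vol z ^ (n - 2) = γ₂.vol z ^ (n - 2) := by rw [← hd _ h₁, ← hd _ h₂, h]
    exact (pow_left_inj₀ (Real.sqrt_nonneg _) (Real.sqrt_nonneg _) (by omega)).1 e
  have hp : 0 < γ₂.vol z := Real.sqrt_pos.2 h₂.det_pos
  unfold Geo.cn at h
  rw [hv] at h
  have hi : (γ₁.g z)⁻¹ = (γ₂.g z)⁻¹ := smul_right_injective _ hp.ne' h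
  rw [← nonsing_inv_nonsing_inv (γ₁.g z) h₁.det_pos.ne'.isUnit, hi,
    nonsing_inv_nonsing_inv _ h₂.det_pos.ne'.isUnit]

end Vale.Agent.P088.Gl
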