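import Vale.Agent.P088.Stmt

/-! P088, part L: annuli and scaled bump functions. -/

open MeasureTheory Set Filter Topology Metric
open scoped ContDiff ENNReal

noncomputable section

namespace Vale.Agent.P088.Gl

variable {n N : ℕ}

/-- Image of `Ioo a b ×ˢ sphere 0 1` under `(t, ω) ↦ y + t • ω` (`isPreconnected_sphere`). -/
theorem annulus_conn (hn : 3 ≤ n) (y : Ec n) {a b : ℝ} (ha : 0 ≤ a) :
    IsPreconnected (ball y b \ closedBall y a) := by
  have h1 : 1 < Module.rank ℝ (Ec n) := by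
    rw [← Module.finrank_eq_rank, finrank_euclideanSpace_fin]
    exact_mod_cast (by omega : 1 < n)
  have h2 := ((isPreconnected_Ioo (a := a) (b := b)).prod
    (isPreconnected_sphere h1 (0 : Ec n) 1)).image (fun p : ℝ × Ec n => y + p.1 • p.2)
    (by fun_prop)
  have e : ball y b \ closedBall y a =
      (fun p : ℝ × Ec n => y + p.1 • p.2) '' (Ioo a b ×ˢ sphere (0 : Ec n) 1) := by
    ext z
    simp only [mem_diff, mem_ball, mem_closedBall, not_le, dist_eq_norm]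
    constructor
    · rintro ⟨k1, k2⟩
      have k3 : ‖z - y‖ ≠ 0 := (ha.trans_lt k2).ne'
      refine ⟨(‖z - y‖, ‖z - y‖⁻¹ • (z - y)), ⟨⟨k2, k1⟩, ?_⟩, ?_⟩
      · rw [mem_sphere_zero_iff_norm, norm_smul, norm_inv, norm_norm, inv_mul_cancel₀ k3]
      · show y + ‖z - y‖ • ‖z - y‖⁻¹ • (z - y) = z
        rw [smul_inv_smul₀ k3, add_sub_cancel]
    · rintro ⟨⟨t, w⟩, ⟨⟨k1, k2⟩, k3⟩, rfl⟩
      rw [add_sub_cancel_left, norm_smul, mem_sphere_zero_iff_norm.1 k3, mul_one,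
        Real.norm_of_nonneg (ha.trans k1.le)]
      exact ⟨k2, k1⟩
  rwa [e]

/-- `χ z = β (r⁻¹ • (z - y))` for a fixed bump `β : ContDiffBump 0` with radii `1`, `2`; Leibniz
(`norm_iteratedFDeriv_smul_le`) and scaling (`iteratedFDeriv_comp_const_smul`,
`iteratedFDeriv_comp_sub` or `ContinuousLinearMap.iteratedFDeriv_comp_right`). -/
theorem bump_scale (n N M : ℕ) : ∃ K : ℝ, 0 ≤ K ∧ ∀ (y : Ec n) (r : ℝ), 0 < r → r ≤ 1 →
    ∃ χ : Ec n → ℝ, ContDiff ℝ ∞ χ ∧ tsupport χ ⊆ closedBall y (2 * r) ∧ (∀ z, |χ z| ≤ 1) ∧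
      (∀ᶠ z in 𝓝 y, χ z = 1) ∧ ∀ (F : Ec n → Fb N) (B : ℝ), ContDiff ℝ ∞ F →
        (∀ i ≤ M, ∀ z, ‖iteratedFDeriv ℝ i F z‖ ≤ B) → ∀ i ≤ M, ∀ z,
          r ^ i * ‖iteratedFDeriv ℝ i (fun z => χ z • F z) z‖ ≤ K * B := by
  let β : ContDiffBump (0 : Ec n) := ⟨1, 2, one_pos, one_lt_two⟩
  have hβ : ContDiff ℝ ∞ β := β.contDiff
  have hc : ∀ j : ℕ, ∃ c : ℝ, ∀ z, ‖iteratedFDeriv ℝ j β z‖ ≤ c := fun j =>
    (hβ.continuous_iteratedFDeriv (by exact_mod_cast le_top)).bounded_above_of_compact_support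
      (β.hasCompactSupport.iteratedFDeriv j)
  choose c hc using hc
  have c0 : ∀ j, 0 ≤ c j := fun j => (norm_nonneg _).trans (hc j 0)
  have s0 : ∀ i, 0 ≤ ∑ j ∈ Finset.range (i + 1), (i.choose j : ℝ) * c j := fun i =>
    Finset.sum_nonneg fun j _ => mul_nonneg (Nat.cast_nonneg _) (c0 j)
  refine ⟨∑ i ∈ Finset.range (M + 1), ∑ j ∈ Finset.range (i + 1), (i.choose j : ℝ) * c j,
    Finset.sum_nonneg fun i _ => s0 i, fun y r hr h1 => ?_⟩
  have hχ : ContDiff ℝ ∞ fun z : Ec n => β (r⁻¹ • (z - y)) := hβ.comp (by fun_prop)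
  have hn : ∀ z : Ec n, ‖r⁻¹ • (z - y)‖ = dist z y / r := fun z => by
    rw [norm_smul, norm_inv, Real.norm_of_nonneg hr.le, dist_eq_norm, div_eq_inv_mul]
  refine ⟨fun z => β (r⁻¹ • (z - y)), hχ, closure_minimal (fun z hz => ?_) isClosed_closedBall,
    fun z => abs_le.2 ⟨by linarith [β.nonneg (x := r⁻¹ • (z - y))], β.le_one⟩, ?_,
    fun F B hF hB i hi z => ?_⟩
  · have k : r⁻¹ • (z - y) ∈ Function.support β := hz
    rw [β.support_eq, mem_ball_zero_iff, hn, div_lt_iff₀ hr] at k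
    exact k.le
  · filter_upwards [ball_mem_nhds y hr] with z hz
    refine β.one_of_mem_closedBall ?_
    rw [mem_closedBall_zero_iff, hn]
    exact (div_le_one hr).2 (mem_ball.1 hz).le
  · have B0 : 0 ≤ B := (norm_nonneg _).trans (hB 0 (Nat.zero_le M) 0)
    have hd : ∀ j ≤ i, r ^ i * ‖iteratedFDeriv ℝ j (fun z : Ec n => β (r⁻¹ • (z - y))) z‖ ≤ c j := by
      intro j hj
      rw [iteratedFDeriv_comp_sub (f := fun w : Ec n => β (r⁻¹ • w)),
        iteratedFDeriv_comp_const_smul r⁻¹ (hβ.of_le (by exact_mod_cast le_top)), norm_smul,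
        norm_pow, norm_inv, Real.norm_of_nonneg hr.le, ← mul_assoc, inv_pow,
        ← pow_sub₀ r hr.ne' hj]
      exact (mul_le_of_le_one_left (norm_nonneg _) (pow_le_one₀ hr.le h1)).trans (hc j _)
    refine (mul_le_mul_of_nonneg_left (norm_iteratedFDeriv_smul_le hχ hF z
      (n := i) (by exact_mod_cast le_top)) (pow_nonneg hr.le i)).trans ?_
    refine le_trans ?_ (mul_le_mul_of_nonneg_right (Finset.single_le_sum (fun i _ => s0 i)
      (Finset.mem_range.2 (Nat.lt_succ_of_le hi))) B0)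
    rw [Finset.mul_sum, Finset.sum_mul]
    refine Finset.sum_le_sum fun j hj => ?_
    rw [← mul_assoc, mul_left_comm]
    exact mul_le_mul (mul_le_mul_of_nonneg_left (hd j (Nat.lt_succ_iff.1 (Finset.mem_range.1 hj)))
      (Nat.cast_nonneg _)) (hB _ ((Nat.sub_le i j).trans hi) z) (norm_nonneg _)
      (mul_nonneg (Nat.cast_nonneg _) (c0 j))

end Vale.Agent.P088.Gl
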