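import Vale.Agent.P088.Stmt

/-! P088, part L: a Hardy type inequality on small balls. -/

open MeasureTheory Set Filter Topology Metric
open scoped ContDiff ENNReal

noncomputable section

namespace Vale.Agent.P088.Gl

variable {n N : ℕ}

theorem lr1_sq {α E : Type} [MeasurableSpace α] [NormedAddCommGroup E] (f : α → E)
    (μ : Measure α) : ∫⁻ z, ‖f z‖ₑ ^ 2 ∂μ = eLpNorm f (2 : NNReal) μ ^ 2 := by
  have h := eLpNorm_nnreal_pow_eq_lintegral (f := f) (μ := μ) (p := 2) two_ne_zero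
  simp only [NNReal.coe_ofNat, ENNReal.rpow_two] at h
  exact h.symm

/-- Hoelder (`eLpNorm_le_eLpNorm_mul_rpow_measure_univ` for `volume.restrict (ball y r)`, exponents
`2 ≤ p' = 2n/(n-2)`, `Measure.addHaar_ball`: the factor is `(r^n vol B)^(1/n)`) and the Sobolev
inequality `eLpNorm_le_eLpNorm_fderiv_of_eq` with `p = 2`; square. -/
theorem hardy_cpt (hn : 3 ≤ n) : ∃ C : ℝ, 0 ≤ C ∧ ∀ w : Ec n → Fb N, ContDiff ℝ 1 w →
    HasCompactSupport w → ∀ (y : Ec n) (r : ℝ), 0 < r →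
      ∫⁻ z in ball y r, ‖w z‖ₑ ^ 2 ≤ ENNReal.ofReal (C * r ^ 2) * ∫⁻ z, ‖fderiv ℝ w z‖ₑ ^ 2 := by
  have h3 : (3 : ℝ) ≤ n := by exact_mod_cast hn
  have h0 : (0 : ℝ) < n := by linarith
  have h2 : (0 : ℝ) < n - 2 := by linarith
  have hd : Module.finrank ℝ (Ec n) = n := finrank_euclideanSpace_fin
  let q : NNReal := ⟨2 * n / (n - 2), by positivity⟩
  have hq : (q : ℝ) = 2 * n / (n - 2) := rfl
  have hq1 : (q : ℝ)⁻¹ = ((2 : NNReal) : ℝ)⁻¹ - (Module.finrank ℝ (Ec n) : ℝ)⁻¹ := by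
    rw [hq, hd, NNReal.coe_ofNat]
    field_simp
  have hq2 : (2 : NNReal) ≤ q := by
    rw [← NNReal.coe_le_coe, hq, NNReal.coe_ofNat, le_div_iff₀ h2]
    linarith
  have hq3 : 1 / ((2 : NNReal) : ℝ≥0∞).toReal - 1 / (q : ℝ≥0∞).toReal = (n : ℝ)⁻¹ := by
    rw [ENNReal.coe_toReal, ENNReal.coe_toReal, one_div, one_div, hq1, hd, sub_sub_cancel]
  let S : NNReal := SNormLESNormFDerivOfEqConst (Fb N) (volume : Measure (Ec n)) (2 : NNReal)
  let B : ℝ≥0∞ := volume (ball (0 : Ec n) 1) ^ (n : ℝ)⁻¹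
  have hB : B ≠ ⊤ := ENNReal.rpow_ne_top_of_nonneg (by positivity) measure_ball_lt_top.ne
  refine ⟨(S * B.toReal) ^ 2, by positivity, fun w hw hc y r hr => ?_⟩
  have h4 : eLpNorm w q volume ≤ S * eLpNorm (fderiv ℝ w) (2 : NNReal) volume :=
    eLpNorm_le_eLpNorm_fderiv_of_eq volume hw hc one_le_two (by omega) hq1
  have h5 := eLpNorm_le_eLpNorm_mul_rpow_measure_univ (μ := volume.restrict (ball y r))
    (ENNReal.coe_le_coe.2 hq2) hw.continuous.aestronglyMeasurable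
  have h6 : (volume.restrict (ball y r)) univ ^ (n : ℝ)⁻¹ = ENNReal.ofReal r * B := by
    rw [Measure.restrict_apply_univ, Measure.addHaar_ball_of_pos _ _ hr,
      ENNReal.mul_rpow_of_nonneg _ _ (by positivity), hd,
      ENNReal.ofReal_rpow_of_nonneg (by positivity) (by positivity),
      Real.pow_rpow_inv_natCast hr.le (by omega)]
  rw [hq3, h6] at h5
  have h7 := h5.trans (mul_le_mul_left ((eLpNorm_restrict_le _ _ _ _).trans h4) _)
  have e : ENNReal.ofReal ((S * B.toReal) ^ 2 * r ^ 2) = (S * (ENNReal.ofReal r * B)) ^ 2 := by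
    rw [← mul_pow, ENNReal.ofReal_pow (by positivity), ENNReal.ofReal_mul (by positivity),
      ENNReal.ofReal_mul (by positivity), ENNReal.ofReal_toReal hB, ENNReal.ofReal_coe_nnreal]
    ring
  rw [lr1_sq, lr1_sq, e, ← mul_pow, mul_right_comm]
  exact pow_le_pow_left' h7 2

/-- Apply `hardy_cpt` to `χ • u`, `χ : ContDiffBump y` with radii `ρ / 2`, `3 * ρ / 4`;
`‖D (χ • u)‖ ≤ ‖D u‖ + K ‖u‖` on the ball, `= 0` outside. -/
theorem hardy_loc (hn : 3 ≤ n) (y : Ec n) {ρ : ℝ} (hρ : 0 < ρ) : ∃ C : ℝ, 0 ≤ C ∧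
    ∀ u : Ec n → Fb N, ContDiffOn ℝ ∞ u (ball y ρ) → ∀ r : ℝ, 0 < r → r ≤ ρ / 2 →
      ∫⁻ z in ball y r, ‖u z‖ₑ ^ 2 ≤ ENNReal.ofReal (C * r ^ 2) *
        ∫⁻ z in ball y ρ, ENNReal.ofReal (‖fderiv ℝ u z‖ ^ 2 + ‖u z‖ ^ 2) := by
  obtain ⟨C, hC, h⟩ := hardy_cpt (N := N) hn
  let χ : ContDiffBump y := ⟨ρ / 2, 3 * ρ / 4, by positivity, by linarith⟩
  have hχ : ContDiff ℝ 1 χ := χ.contDiff
  have hs : tsupport χ ⊆ ball y ρ := by
    rw [χ.tsupport_eq]
    exact closedBall_subset_ball (show 3 * ρ / 4 < ρ by linarith)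
  obtain ⟨K, hK⟩ := (hχ.continuous_fderiv one_ne_zero).bounded_above_of_compact_support
    (χ.hasCompactSupport.fderiv ℝ)
  refine ⟨C * (1 + K ^ 2), by positivity, fun u hu r hr hr' => ?_⟩
  let w : Ec n → Fb N := fun z => χ z • u z
  have hts : tsupport w ⊆ ball y ρ := (tsupport_smul_subset_left _ _).trans hs
  have hu1 : ∀ z ∈ ball y ρ, ContDiffAt ℝ 1 u z := fun z hz =>
    (hu.contDiffAt (isOpen_ball.mem_nhds hz)).of_le (by exact_mod_cast le_top)
  have hw : ContDiff ℝ 1 w := contDiff_iff_contDiffAt.2 fun z => by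
    by_cases hz : z ∈ tsupport w
    · exact hχ.contDiffAt.smul (hu1 z (hts hz))
    · exact contDiffAt_const.congr_of_eventuallyEq (notMem_tsupport_iff_eventuallyEq.1 hz)
  have hc : HasCompactSupport w := χ.hasCompactSupport.smul_right
  have h1 : ∫⁻ z in ball y r, ‖u z‖ₑ ^ 2 = ∫⁻ z in ball y r, ‖w z‖ₑ ^ 2 :=
    setLIntegral_congr_fun measurableSet_ball fun z hz => by
      have : χ z = 1 := χ.one_of_mem_closedBall
        (ball_subset_closedBall (ball_subset_ball hr' hz))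
      simp only [w, this, one_smul]
  have h2 : ∀ z ∈ ball y ρ, ‖fderiv ℝ w z‖ₑ ^ 2 ≤ ENNReal.ofReal (1 + K ^ 2) *
      ENNReal.ofReal (‖fderiv ℝ u z‖ ^ 2 + ‖u z‖ ^ 2) := fun z hz => by
    have h3 : ‖fderiv ℝ w z‖ ≤ ‖fderiv ℝ u z‖ + K * ‖u z‖ := by
      rw [fderiv_fun_smul (hχ.differentiable one_ne_zero z)
        ((hu1 z hz).differentiableAt one_ne_zero)]
      refine (norm_add_le _ _).trans (add_le_add ?_ ?_)
      · rw [norm_smul, Real.norm_of_nonneg χ.nonneg]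
        exact mul_le_of_le_one_left (norm_nonneg _) χ.le_one
      · rw [ContinuousLinearMap.norm_smulRight_apply]
        exact mul_le_mul_of_nonneg_right (hK z) (norm_nonneg _)
    rw [← ofReal_norm, ← ENNReal.ofReal_pow (norm_nonneg _),
      ← ENNReal.ofReal_mul (by positivity)]
    refine ENNReal.ofReal_le_ofReal ((pow_le_pow_left₀ (norm_nonneg _) h3 2).trans ?_)
    nlinarith [sq_nonneg (K * ‖fderiv ℝ u z‖ - ‖u z‖)]
  have h3 : ∫⁻ z, ‖fderiv ℝ w z‖ₑ ^ 2 ≤ ENNReal.ofReal (1 + K ^ 2) *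
      ∫⁻ z in ball y ρ, ENNReal.ofReal (‖fderiv ℝ u z‖ ^ 2 + ‖u z‖ ^ 2) := by
    rw [← lintegral_const_mul' _ _ ENNReal.ofReal_ne_top,
      ← setLIntegral_eq_of_support_subset (s := ball y ρ) fun z hz => ?_]
    · exact setLIntegral_mono' measurableSet_ball h2
    · by_contra hz'
      refine hz ?_
      show ‖fderiv ℝ w z‖ₑ ^ 2 = 0
      rw [fderiv_of_notMem_tsupport ℝ fun h4 => hz' (hts h4), ← ofReal_norm, norm_zero,
        ENNReal.ofReal_zero, zero_pow two_ne_zero]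
  rw [h1, mul_right_comm, ENNReal.ofReal_mul (by positivity), mul_assoc]
  exact (h w hw hc y r hr).trans (mul_le_mul_right h3 _)

end Vale.Agent.P088.Gl
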