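import Vale.Agent.P088F.TE1

/-! P088: transport of forms, weak equations and Green operators along isometries. -/

open MeasureTheory Set Filter Metric Topology Matrix
open scoped ContDiff ENNReal

noncomputable section

namespace Vale.Agent.P088.Gl

variable {n N : ℕ} {Ω Ω' B : Set (Ec n)} {γ γ₁ γ₂ : Geo n N} {Ψ : Ec n → Ec n}
  {V : Ec n → Op N} {z : Ec n} {u₁ u₂ w₁ w₂ F F₁ F₂ φ : Ec n → Fb N}
  {G : (Ec n → Fb N) → Ec n → Fb N}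

/-- Pull back. -/
def pb (Ω : Set (Ec n)) (Ψ : Ec n → Ec n) (V : Ec n → Op N) (F : Ec n → Fb N) : Ec n → Fb N :=
  Ω.indicator fun z => star (V z) (F (Ψ z))

/-- Push forward. -/
def pf (Ω : Set (Ec n)) (Ψ : Ec n → Ec n) (V : Ec n → Op N) (F : Ec n → Fb N) : Ec n → Fb N :=
  (Ψ '' Ω).indicator fun w => V (Function.invFunOn Ψ Ω w) (F (Function.invFunOn Ψ Ω w))

theorem pf_add (F F' : Ec n → Fb N) : pf Ω Ψ V (F + F') = pf Ω Ψ V F + pf Ω Ψ V F' := by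
  funext w
  by_cases hw : w ∈ Ψ '' Ω
  · simp only [pf, Pi.add_apply, indicator_of_mem hw, map_add]
  · simp only [pf, Pi.add_apply, indicator_of_notMem hw, add_zero]

theorem pf_smul (c : ℂ) (F : Ec n → Fb N) : pf Ω Ψ V (c • F) = c • pf Ω Ψ V F := by
  funext w
  by_cases hw : w ∈ Ψ '' Ω
  · simp only [pf, Pi.smul_apply, indicator_of_mem hw, map_smul]
  · simp only [pf, Pi.smul_apply, indicator_of_notMem hw, smul_zero]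

theorem et_ind {O O' : Set (Ec n)} (ho : IsOpen O) {α β : Ec n → Ec n} {W : Ec n → Op N}
    (sα : ContDiffOn ℝ ∞ α O) (sW : ContDiffOn ℝ ∞ W O) (cβ : ContinuousOn β O')
    (hβ : ∀ z ∈ O, β (α z) = z) (mβ : MapsTo β O' O) (hF : ET O' F) :
    ET O (O.indicator fun z => W z (F (α z))) ∧
      tsupport (O.indicator fun z => W z (F (α z))) ⊆ β '' tsupport F := by
  have hK := hF.2.1.isCompact.image_of_continuousOn (cβ.mono hF.2.2)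
  have h1 : tsupport (O.indicator fun z => W z (F (α z))) ⊆ β '' tsupport F := by
    refine closure_minimal (fun z hz => ?_) hK.isClosed
    by_cases h : z ∈ O
    · refine ⟨α z, subset_tsupport _ fun e => hz ?_, hβ z h⟩
      rw [indicator_of_mem h, e, map_zero]
    · exact absurd (indicator_of_notMem h _) hz
  have h2 := h1.trans (image_subset_iff.2 fun z hz => mβ (hF.2.2 hz))
  refine ⟨⟨contDiff_iff_contDiffAt.2 fun z => ?_, hK.of_isClosed_subset (isClosed_tsupport _) h1,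
    h2⟩, h1⟩
  by_cases h : z ∈ O
  · exact (((contDiffOn_op sW (hF.1.comp_contDiffOn sα)).congr fun y hy =>
      indicator_of_mem hy _).contDiffAt (ho.mem_nhds h))
  · exact contDiffAt_const.congr_of_eventuallyEq
      (notMem_tsupport_iff_eventuallyEq.1 fun e => h (h2 e))

/-- A compactly supported solution solves the equation on every set. -/
theorem EW.ext (h : EW Ω γ φ F) (ho : IsOpen Ω) (hφ : ET Ω φ) (hF : ET Ω F) (B : Set (Ec n)) :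
    EW B γ φ F := by
  refine ⟨hφ.1.contDiffOn, fun ζ hζ => ?_⟩
  obtain ⟨χ, c1, c2, c3, c4, -⟩ := exists_cut (hφ.2.1.isCompact.union hF.2.1.isCompact) ho
    (union_subset hφ.2.2 hF.2.2)
  refine ((γ.form_congr_right fun z hz => ?_).trans
    (h.2 _ (et_cut ho c1 c2 c3 hζ.1.contDiffOn))).trans (γ.pair_congr_right fun z hz => ?_)
  · filter_upwards [c4 z (Or.inl hz)] with y hy
    rw [hy, one_smul]
  · rw [(c4 z (Or.inr hz)).self_of_nhds, one_smul]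

theorem EG.mono (h : EG B γ G) (ho : IsOpen Ω) (hs : Ω ⊆ B) : EG Ω γ G := by
  obtain ⟨C, hC⟩ := h.bound
  exact ⟨fun F F' a b => (h.add F F' (a.mono hs) (b.mono hs)).mono hs,
    fun c F a => (h.smul c F (a.mono hs)).mono hs, fun F a => (h.sol F (a.mono hs)).mono hs,
    fun φ F a b e => (h.inv φ F (a.mono hs) (b.mono hs) (e.ext ho a b B)).mono hs,
    fun F F' a b => h.symm F F' (a.mono hs) (b.mono hs),
    C, fun F a => (lintegral_mono_set hs).trans (hC F (a.mono hs))⟩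

namespace EIso

theorem pb_rel (h : EIso Ω γ₁ γ₂ Ψ V) (F : Ec n → Fb N) (z : Ec n) (hz : z ∈ Ω) :
    F (Ψ z) = V z (pb Ω Ψ V F z) := by
  rw [pb, indicator_of_mem hz, uni_right (h.uni z hz)]

theorem pf_rel (h : EIso Ω γ₁ γ₂ Ψ V) (F : Ec n → Fb N) (z : Ec n) (hz : z ∈ Ω) :
    pf Ω Ψ V F (Ψ z) = V z (F z) := by
  rw [pf, indicator_of_mem (mem_image_of_mem Ψ hz), h.inj.leftInvOn_invFunOn hz]

theorem pf_eq (h : EIso Ω γ₁ γ₂ Ψ V) (h₁ : tsupport F₁ ⊆ Ψ '' Ω)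
    (e : ∀ z ∈ Ω, F₁ (Ψ z) = V z (F₂ z)) : pf Ω Ψ V F₂ = F₁ := by
  funext w
  by_cases hw : w ∈ Ψ '' Ω
  · obtain ⟨z, hz, rfl⟩ := hw
    rw [h.pf_rel F₂ z hz, e z hz]
  · rw [pf, indicator_of_notMem hw, image_eq_zero_of_notMem_tsupport fun a => hw (h₁ a)]

theorem symm' (h : EIso Ω γ₁ γ₂ Ψ V) (h₂ : γ₂.Sm Ω) : EIso (Ψ '' Ω) γ₂ γ₁ (Function.invFunOn Ψ Ω)
    fun w => star (V (Function.invFunOn Ψ Ω w)) := h.symm h₂ fun _ hz => h.inj.leftInvOn_invFunOn hz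

theorem inv_maps (h : EIso Ω γ₁ γ₂ Ψ V) : MapsTo (Function.invFunOn Ψ Ω) (Ψ '' Ω) Ω :=
  forall_mem_image.2 fun _ hz => (h.inj.leftInvOn_invFunOn hz).symm ▸ hz

theorem et_pb' (h : EIso Ω γ₁ γ₂ Ψ V) (h₂ : γ₂.Sm Ω) (hF : ET (Ψ '' Ω) F) :
    ET Ω (pb Ω Ψ V F) ∧ tsupport (pb Ω Ψ V F) ⊆ Function.invFunOn Ψ Ω '' tsupport F :=
  et_ind h.op h.sΨ (contDiffOn_star h.sV) (h.symm' h₂).sΨ.continuousOn
    (fun _ hz => h.inj.leftInvOn_invFunOn hz) h.inv_maps hF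

theorem et_pb (h : EIso Ω γ₁ γ₂ Ψ V) (h₂ : γ₂.Sm Ω) (hF : ET (Ψ '' Ω) F) : ET Ω (pb Ω Ψ V F) :=
  (h.et_pb' h₂ hF).1

theorem et_pf' (h : EIso Ω γ₁ γ₂ Ψ V) (h₂ : γ₂.Sm Ω) (hF : ET Ω F) :
    ET (Ψ '' Ω) (pf Ω Ψ V F) ∧ tsupport (pf Ω Ψ V F) ⊆ Ψ '' tsupport F :=
  et_ind (h.symm' h₂).op (h.symm' h₂).sΨ (h.sV.comp (h.symm' h₂).sΨ h.inv_maps) h.sΨ.continuousOn
    (forall_mem_image.2 fun _ hz => congrArg Ψ (h.inj.leftInvOn_invFunOn hz)) (mapsTo_image Ψ Ω) hF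

theorem et_pf (h : EIso Ω γ₁ γ₂ Ψ V) (h₂ : γ₂.Sm Ω) (hF : ET Ω F) : ET (Ψ '' Ω) (pf Ω Ψ V F) :=
  (h.et_pf' h₂ hF).1

theorem sm_pb (h : EIso Ω γ₁ γ₂ Ψ V) (hu : ContDiffOn ℝ ∞ u₁ (Ψ '' Ω))
    (e : ∀ z ∈ Ω, u₁ (Ψ z) = V z (u₂ z)) : ContDiffOn ℝ ∞ u₂ Ω :=
  (contDiffOn_op (contDiffOn_star h.sV) (hu.comp h.sΨ (mapsTo_image Ψ Ω))).congr fun z hz => by
    rw [Function.comp_apply, e z hz, uni_left (h.uni z hz)]

theorem sm_pf (h : EIso Ω γ₁ γ₂ Ψ V) (h₂ : γ₂.Sm Ω) (hu : ContDiffOn ℝ ∞ u₂ Ω)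
    (e : ∀ z ∈ Ω, u₁ (Ψ z) = V z (u₂ z)) : ContDiffOn ℝ ∞ u₁ (Ψ '' Ω) :=
  (contDiffOn_op (h.sV.comp (h.symm' h₂).sΨ h.inv_maps)
    (hu.comp (h.symm' h₂).sΨ h.inv_maps)).congr (forall_mem_image.2 fun z hz => by
      simp only [Function.comp_apply, h.inj.leftInvOn_invFunOn hz, e z hz])

theorem integral (h : EIso Ω γ₁ γ₂ Ψ V) {W : Type} [NormedAddCommGroup W] [NormedSpace ℝ W]
    {f₁ f₂ : Ec n → W} (e : ∀ z ∈ Ω, f₂ z = f₁ (Ψ z)) :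
    ∫ z in Ω, γ₂.vol z • f₂ z = ∫ w in Ψ '' Ω, γ₁.vol w • f₁ w := by
  rw [integral_image_eq_integral_abs_det_fderiv_smul volume h.op.measurableSet
    (fun z hz => (h.dΨ hz).hasFDerivAt.hasFDerivWithinAt) h.inj]
  exact setIntegral_congr_fun h.op.measurableSet fun z hz => by
    simp only [h.vol hz, e z hz, mul_smul]

theorem lintegral (h : EIso Ω γ₁ γ₂ Ψ V) {f₁ f₂ : Ec n → ℝ} (e : ∀ z ∈ Ω, f₂ z = f₁ (Ψ z)) :
    ∫⁻ z in Ω, ENNReal.ofReal (γ₂.vol z * f₂ z) =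
      ∫⁻ w in Ψ '' Ω, ENNReal.ofReal (γ₁.vol w * f₁ w) := by
  rw [lintegral_image_eq_lintegral_abs_det_fderiv_mul volume h.op.measurableSet
    (fun z hz => (h.dΨ hz).hasFDerivAt.hasFDerivWithinAt) h.inj]
  exact setLIntegral_congr_fun h.op.measurableSet fun z hz => by
    simp only [h.vol hz, e z hz, mul_assoc, ENNReal.ofReal_mul (abs_nonneg _)]

theorem den' (h : EIso Ω γ₁ γ₂ Ψ V) (h₂ : γ₂.Sm Ω) (a : ContDiffOn ℝ ∞ u₂ Ω)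
    (e : ∀ z ∈ Ω, u₁ (Ψ z) = V z (u₂ z)) (b : ContDiffOn ℝ ∞ w₂ Ω)
    (e' : ∀ z ∈ Ω, w₁ (Ψ z) = V z (w₂ z)) (hz : z ∈ Ω) :
    γ₂.den u₂ w₂ z = γ₁.den u₁ w₁ (Ψ z) :=
  have o := (h.symm' h₂).op.mem_nhds (mem_image_of_mem Ψ hz)
  h.den h₂ hz (((h.sm_pf h₂ a e).contDiffAt o).differentiableAt (by simp))
    ((a.contDiffAt (h.op.mem_nhds hz)).differentiableAt (by simp))
    (mem_of_superset (h.op.mem_nhds hz) e)
    (((h.sm_pf h₂ b e').contDiffAt o).differentiableAt (by simp))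
    ((b.contDiffAt (h.op.mem_nhds hz)).differentiableAt (by simp))
    (mem_of_superset (h.op.mem_nhds hz) e')

theorem form (h : EIso Ω γ₁ γ₂ Ψ V) (h₂ : γ₂.Sm Ω) (a : ContDiffOn ℝ ∞ u₂ Ω)
    (e : ∀ z ∈ Ω, u₁ (Ψ z) = V z (u₂ z)) (b : ContDiffOn ℝ ∞ w₂ Ω)
    (e' : ∀ z ∈ Ω, w₁ (Ψ z) = V z (w₂ z)) (s₂ : tsupport u₂ ⊆ Ω ∨ tsupport w₂ ⊆ Ω)
    (s₁ : tsupport u₁ ⊆ Ψ '' Ω ∨ tsupport w₁ ⊆ Ψ '' Ω) : γ₂.form u₂ w₂ = γ₁.form u₁ w₁ := by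
  have k : ∀ (γ : Geo n N) (O : Set (Ec n)) (u w : Ec n → Fb N), tsupport u ⊆ O ∨ tsupport w ⊆ O →
      γ.form u w = ∫ z in O, γ.vol z • γ.den u w z := fun γ O u w s =>
    (setIntegral_eq_integral_of_forall_compl_eq_zero fun z hz => by
      rcases s with s | s
      · rw [γ.den_zero_left w fun c => hz (s c), smul_zero]
      · rw [γ.den_zero_right u fun c => hz (s c), smul_zero]).symm
  rw [k γ₂ Ω u₂ w₂ s₂, k γ₁ _ u₁ w₁ s₁]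
  exact h.integral fun z hz => h.den' h₂ a e b e' hz

theorem pair (h : EIso Ω γ₁ γ₂ Ψ V) (e : ∀ z ∈ Ω, u₁ (Ψ z) = V z (u₂ z))
    (e' : ∀ z ∈ Ω, w₁ (Ψ z) = V z (w₂ z)) (s₂ : tsupport u₂ ⊆ Ω ∨ tsupport w₂ ⊆ Ω)
    (s₁ : tsupport u₁ ⊆ Ψ '' Ω ∨ tsupport w₁ ⊆ Ψ '' Ω) : γ₂.pair u₂ w₂ = γ₁.pair u₁ w₁ := by
  have k : ∀ (γ : Geo n N) (O : Set (Ec n)) (u w : Ec n → Fb N), tsupport u ⊆ O ∨ tsupport w ⊆ O →
      γ.pair u w = ∫ z in O, γ.vol z • inner ℂ (u z) (w z) := fun γ O u w s =>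
    (setIntegral_eq_integral_of_forall_compl_eq_zero fun z hz => by
      rcases s with s | s
      · rw [image_eq_zero_of_notMem_tsupport fun c => hz (s c), inner_zero_left, smul_zero]
      · rw [image_eq_zero_of_notMem_tsupport (f := w) fun c => hz (s c), inner_zero_right,
          smul_zero]).symm
  rw [k γ₂ Ω u₂ w₂ s₂, k γ₁ _ u₁ w₁ s₁]
  exact h.integral (f₁ := fun w => inner ℂ (u₁ w) (w₁ w)) fun z hz => by
    rw [e z hz, e' z hz, uni_inner (h.uni z hz)]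

/-- Pull back of weak solutions. -/
theorem ew_pb (h : EIso Ω γ₁ γ₂ Ψ V) (h₂ : γ₂.Sm Ω) (hu : EW B γ₁ u₁ F₁) (hm : MapsTo Ψ Ω B)
    (e : ∀ z ∈ Ω, u₁ (Ψ z) = V z (u₂ z)) (e' : ∀ z ∈ Ω, F₁ (Ψ z) = V z (F₂ z)) :
    EW Ω γ₂ u₂ F₂ := by
  have s := h.sm_pb (hu.1.mono hm.image_subset) e
  refine ⟨s, fun ζ hζ => ?_⟩
  have t := h.et_pf h₂ hζ
  rw [h.form h₂ s e hζ.1.contDiffOn (h.pf_rel ζ) (Or.inr hζ.2.2) (Or.inr t.2.2),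
    h.pair e' (h.pf_rel ζ) (Or.inr hζ.2.2) (Or.inr t.2.2)]
  exact hu.2 _ (t.mono hm.image_subset)

/-- Push forward of weak solutions. -/
theorem ew_pf (h : EIso Ω γ₁ γ₂ Ψ V) (h₂ : γ₂.Sm Ω) (hu : EW Ω γ₂ u₂ F₂)
    (e : ∀ z ∈ Ω, u₁ (Ψ z) = V z (u₂ z)) (e' : ∀ z ∈ Ω, F₁ (Ψ z) = V z (F₂ z)) :
    EW (Ψ '' Ω) γ₁ u₁ F₁ := by
  refine ⟨h.sm_pf h₂ hu.1 e, fun ζ hζ => ?_⟩
  have t := h.et_pb h₂ hζ
  rw [← h.form h₂ hu.1 e t.1.contDiffOn (h.pb_rel ζ) (Or.inr t.2.2) (Or.inr hζ.2.2),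
    ← h.pair e' (h.pb_rel ζ) (Or.inr t.2.2) (Or.inr hζ.2.2)]
  exact hu.2 _ t

/-- Pull back of Green operators. -/
theorem eg_pb (h : EIso Ω γ₁ γ₂ Ψ V) (h₂ : γ₂.Sm Ω) (hG : EG B γ₁ G) (hm : MapsTo Ψ Ω B) :
    EG Ω γ₂ fun F z => star (V z) (G (pf Ω Ψ V F) (Ψ z)) := by
  replace hG := hG.mono (h.symm' h₂).op hm.image_subset
  have r : ∀ (u : Ec n → Fb N), ∀ z ∈ Ω, u (Ψ z) = V z (star (V z) (u (Ψ z))) :=
    fun u z hz => (uni_right (h.uni z hz) _).symm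
  have s : ∀ F, ET Ω F → EW Ω γ₂ (fun z => star (V z) (G (pf Ω Ψ V F) (Ψ z))) F := fun F hF =>
    h.ew_pb h₂ (hG.sol _ (h.et_pf h₂ hF)) (mapsTo_image Ψ Ω) (r _) (h.pf_rel F)
  have q : ∀ F F', ET Ω F → γ₂.pair F (fun z => star (V z) (G (pf Ω Ψ V F') (Ψ z))) =
      γ₁.pair (pf Ω Ψ V F) (G (pf Ω Ψ V F')) := fun F F' hF =>
    h.pair (h.pf_rel F) (r _) (Or.inl hF.2.2) (Or.inl (h.et_pf h₂ hF).2.2)
  refine ⟨fun F F' a b z hz => ?_, fun c F a z hz => ?_, s, fun φ F a b e z hz => ?_,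
    fun F F' a b => ?_, ?_⟩
  · simp only [pf_add, hG.add _ _ (h.et_pf h₂ a) (h.et_pf h₂ b) (mem_image_of_mem Ψ hz),
      Pi.add_apply, map_add]
  · simp only [pf_smul, hG.smul c _ (h.et_pf h₂ a) (mem_image_of_mem Ψ hz), Pi.smul_apply, map_smul]
  · simp only [hG.inv _ _ (h.et_pf h₂ a) (h.et_pf h₂ b) (h.ew_pf h₂ e (h.pf_rel φ) (h.pf_rel F))
      (mem_image_of_mem Ψ hz), h.pf_rel φ z hz, uni_left (h.uni z hz)]
  · rw [q F F' a, hG.symm _ _ (h.et_pf h₂ a) (h.et_pf h₂ b)]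
    exact (h.pair (r _) (h.pf_rel F') (Or.inr b.2.2) (Or.inr (h.et_pf h₂ b).2.2)).symm
  · obtain ⟨C, hC⟩ := hG.bound
    refine ⟨C, fun F hF => ?_⟩
    rw [q F F hF]
    refine le_trans (le_of_eq (h.lintegral fun z hz => ?_)) (hC _ (h.et_pf h₂ hF))
    rw [h.den' h₂ (s F hF).1 (r _) (s F hF).1 (r _) hz, uni_norm (Unitary.star_mem (h.uni z hz))]

theorem erel_pb (h : EIso Ω γ₁ γ₂ Ψ V) (G : (Ec n → Fb N) → Ec n → Fb N) :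
    ERel Ω G (fun F z => star (V z) (G (pf Ω Ψ V F) (Ψ z))) Ψ V := fun F₁ F₂ a _ e z hz => by
  simp only [h.pf_eq a.2.2 e, uni_right (h.uni z hz)]

end EIso

theorem ERel.mono {G₁ G₂ : (Ec n → Fb N) → Ec n → Fb N} (h : ERel Ω G₁ G₂ Ψ V) (hi : InjOn Ψ Ω)
    (hs : Ω' ⊆ Ω) : ERel Ω' G₁ G₂ Ψ V := fun F₁ F₂ a b e z hz => by
  refine h F₁ F₂ (a.mono (image_mono hs)) (b.mono hs) (fun y hy => ?_) z (hs hz)
  by_cases c : y ∈ Ω'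
  · exact e y c
  · rw [image_eq_zero_of_notMem_tsupport (f := F₂) fun d => c (b.2.2 d), map_zero]
    refine image_eq_zero_of_notMem_tsupport fun d => c ?_
    obtain ⟨x, hx, e⟩ := a.2.2 d
    exact hi (hs hx) hy e ▸ hx

end Vale.Agent.P088.Gl
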