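import Vale.Agent.P088F.LDefs
import Vale.Agent.P088F.TE2

/-! P088, part L: calculus. -/

open MeasureTheory Set Filter Metric Topology Matrix
open scoped ContDiff ENNReal

noncomputable section

namespace Vale.Agent.P088.Gl

variable {n N : ℕ} {Ω : Set (Ec n)} {γ : Geo n N} {z : Ec n} {i j : Fin n}

theorem lsm_mono (h : γ.Sm Ω) {Ω' : Set (Ec n)} (h' : Ω' ⊆ Ω) : γ.Sm Ω' :=
  ⟨fun i j => (h.g i j).mono h', fun z hz => h.pos z (h' hz), fun i => (h.a i).mono h',
    fun i z hz => h.skew i z (h' hz)⟩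

theorem lsm_vol_pos (h : γ.Sm Ω) (hz : z ∈ Ω) : 0 < γ.vol z :=
  Real.sqrt_pos.2 (h.pos z hz).det_pos

theorem lsm_vol (h : γ.Sm Ω) : ContDiffOn ℝ ∞ γ.vol Ω :=
  (contDiffOn_det h.g).sqrt fun z hz => (h.pos z hz).det_pos.ne'

theorem lsm_gi (h : γ.Sm Ω) (i j : Fin n) : ContDiffOn ℝ ∞ (fun z => (γ.g z)⁻¹ i j) Ω := by
  simp only [Matrix.inv_def, Ring.inverse_eq_inv', Matrix.smul_apply, smul_eq_mul,
    Matrix.adjugate_apply]
  refine ((contDiffOn_det h.g).inv fun z hz => (h.pos z hz).det_pos.ne').mul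
    (contDiffOn_det fun k l => ?_)
  simp only [Matrix.updateRow_apply]
  split_ifs
  exacts [contDiffOn_const, h.g k l]

theorem cn_apply (γ : Geo n N) (z : Ec n) (i j : Fin n) : γ.cn z i j = γ.vol z * (γ.g z)⁻¹ i j :=
  rfl

theorem lsm_cn (h : γ.Sm Ω) (i j : Fin n) : ContDiffOn ℝ ∞ (fun z => γ.cn z i j) Ω :=
  (lsm_vol h).mul (lsm_gi h i j)

theorem lsm_pos (h : γ.Sm Ω) (hz : z ∈ Ω) : (γ.cn z).PosDef :=
  (h.pos z hz).inv.smul (lsm_vol_pos h hz)

theorem lsm_symm (h : γ.Sm Ω) (hz : z ∈ Ω) (i j : Fin n) : γ.cn z i j = γ.cn z j i :=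
  ((lsm_pos h hz).isHermitian.apply i j).symm

theorem lsm_diag (h : γ.Sm Ω) (hz : z ∈ Ω) (i : Fin n) : 0 < γ.cn z i i :=
  (lsm_pos h hz).diag_pos

/-- Evaluation of endomorphisms as a real bilinear map. -/
theorem app_bil : IsBoundedBilinearMap ℝ fun p : Op N × Fb N => p.1 p.2 where
  add_left _ _ _ := rfl
  smul_left _ _ _ := rfl
  add_right a x y := map_add a x y
  smul_right c a x := a.map_smul_of_tower c x
  bound := ⟨1, one_pos, fun a x => by simpa using a.le_opNorm x⟩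

theorem sm_app {A : Ec n → Op N} {u : Ec n → Fb N} (hA : ContDiffOn ℝ ∞ A Ω)
    (hu : ContDiffOn ℝ ∞ u Ω) : ContDiffOn ℝ ∞ (fun z => A z (u z)) Ω :=
  app_bil.contDiff.comp_contDiffOn (hA.prodMk hu)

theorem sm_inv {E : Ec n → Op N} (hE : ContDiffOn ℝ ∞ E Ω) (hu : ∀ z ∈ Ω, IsUnit (E z)) :
    ContDiffOn ℝ ∞ (fun z => Ring.inverse (E z)) Ω := fun z hz => by
  obtain ⟨e, he⟩ := hu z hz
  have := contDiffAt_ringInverse (𝕜 := ℝ) (n := ∞) e
  rw [he] at this
  exact this.comp_contDiffWithinAt z (hE z hz)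

theorem sm_comp {u : Ec n → Fb N} (hu : ContDiffOn ℝ ∞ u Ω) (l : Fin N) :
    ContDiffOn ℝ ∞ (fun z => u z l) Ω :=
  ((EuclideanSpace.proj l : Fb N →L[ℂ] ℂ).restrictScalars ℝ).contDiff.comp_contDiffOn hu

section dd

variable {F : Type} [NormedAddCommGroup F] [NormedSpace ℝ F] {u w : Ec n → F}

theorem sm_at (hΩ : IsOpen Ω) (hu : ContDiffOn ℝ ∞ u Ω) (hz : z ∈ Ω) : ContDiffAt ℝ ∞ u z :=
  hu.contDiffAt (hΩ.mem_nhds hz)

theorem sm_dif (hΩ : IsOpen Ω) (hu : ContDiffOn ℝ ∞ u Ω) (hz : z ∈ Ω) : DifferentiableAt ℝ u z :=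
  (sm_at hΩ hu hz).differentiableAt (by simp)

theorem dd_sm (hΩ : IsOpen Ω) (hu : ContDiffOn ℝ ∞ u Ω) (i : Fin n) : ContDiffOn ℝ ∞ (dd i u) Ω :=
  (hu.fderiv_of_isOpen hΩ le_rfl).clm_apply contDiffOn_const

theorem dd_congr (h : u =ᶠ[𝓝 z] w) : dd i u z = dd i w z := by
  simp only [dd, h.fderiv_eq]

theorem dd_ev (h : u =ᶠ[𝓝 z] w) : dd i u =ᶠ[𝓝 z] dd i w :=
  h.eventuallyEq_nhds.mono fun _ hy => dd_congr hy

theorem dd_eqOn (hΩ : IsOpen Ω) (h : EqOn u w Ω) : EqOn (dd i u) (dd i w) Ω :=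
  fun _ hz => dd_congr (h.eventuallyEq_of_mem (hΩ.mem_nhds hz))

theorem dd_const (c : F) : dd i (fun _ => c) z = 0 := by simp [dd]

theorem dd_add (hu : DifferentiableAt ℝ u z) (hw : DifferentiableAt ℝ w z) :
    dd i (fun y => u y + w y) z = dd i u z + dd i w z := by
  simp only [dd, fderiv_fun_add hu hw, ContinuousLinearMap.add_apply]

theorem dd_sub (hu : DifferentiableAt ℝ u z) (hw : DifferentiableAt ℝ w z) :
    dd i (fun y => u y - w y) z = dd i u z - dd i w z := by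
  simp only [dd, fderiv_fun_sub hu hw, ContinuousLinearMap.sub_apply]

theorem dd_neg : dd i (fun y => -u y) z = -dd i u z := by
  simp only [dd, fderiv_fun_neg, ContinuousLinearMap.neg_apply]

theorem dd_sum {ι : Type} {s : Finset ι} {f : ι → Ec n → F}
    (h : ∀ k ∈ s, DifferentiableAt ℝ (f k) z) :
    dd i (fun y => ∑ k ∈ s, f k y) z = ∑ k ∈ s, dd i (f k) z := by
  simp only [dd, fderiv_fun_sum h, ContinuousLinearMap.sum_apply]

theorem dd_smul {c : Ec n → ℝ} (hc : DifferentiableAt ℝ c z) (hu : DifferentiableAt ℝ u z) :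
    dd i (fun y => c y • u y) z = c z • dd i u z + dd i c z • u z := by
  simp only [dd, fderiv_fun_smul hc hu, ContinuousLinearMap.add_apply,
    ContinuousLinearMap.smul_apply, ContinuousLinearMap.smulRight_apply]

theorem dd_comm (hu : ContDiffAt ℝ ∞ u z) : dd i (dd j u) z = dd j (dd i u) z := by
  have h1 : DifferentiableAt ℝ (fderiv ℝ u) z :=
    (hu.fderiv_right (m := ∞) le_rfl).differentiableAt (by simp)
  have h2 : ∀ a b : Fin n, dd a (dd b u) z = fderiv ℝ (fderiv ℝ u) z (bv a) (bv b) := fun a b => by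
    unfold dd
    rw [fderiv_clm_apply h1 (differentiableAt_const _)]
    simp
  rw [h2, h2]
  exact (hu.isSymmSndFDerivAt (by simp; exact WithTop.coe_le_coe.2 le_top)).eq _ _

/-- A function with vanishing coordinate derivatives has vanishing derivative. -/
theorem fderiv_eq_sum (u : Ec n → F) (z v : Ec n) : fderiv ℝ u z v = ∑ k, v k • dd k u z := by
  conv_lhs => rw [bv_sum v]
  simp only [map_sum, map_smul, dd]

end dd

theorem dd_mul {R : Type} [NormedRing R] [NormedAlgebra ℝ R] {A B : Ec n → R}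
    (hA : DifferentiableAt ℝ A z) (hB : DifferentiableAt ℝ B z) :
    dd i (fun y => A y * B y) z = A z * dd i B z + dd i A z * B z := by
  simp only [dd, fderiv_fun_mul' hA hB, ContinuousLinearMap.add_apply,
    ContinuousLinearMap.smul_apply, smul_eq_mul, MulOpposite.smul_eq_mul_unop,
    MulOpposite.unop_op]

theorem dif_app {A : Ec n → Op N} {u : Ec n → Fb N} (hA : DifferentiableAt ℝ A z)
    (hu : DifferentiableAt ℝ u z) : DifferentiableAt ℝ (fun y => A y (u y)) z :=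
  (app_bil.differentiableAt _).comp z (hA.prodMk hu)

theorem dd_app {A : Ec n → Op N} {u : Ec n → Fb N} (hA : DifferentiableAt ℝ A z)
    (hu : DifferentiableAt ℝ u z) :
    dd i (fun y => A y (u y)) z = A z (dd i u z) + dd i A z (u z) := by
  have := ((app_bil.hasFDerivAt (A z, u z)).comp z (hA.hasFDerivAt.prodMk hu.hasFDerivAt)).fderiv
  unfold dd
  refine (congrArg (fun f => f (bv i)) this).trans ?_
  simp

theorem dd_comp {u : Ec n → Fb N} (hu : DifferentiableAt ℝ u z) (l : Fin N) :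
    dd i (fun y => u y l) z = dd i u z l := by
  have := (((EuclideanSpace.proj l : Fb N →L[ℂ] ℂ).restrictScalars ℝ).hasFDerivAt.comp z
    hu.hasFDerivAt).fderiv
  unfold dd
  exact congrArg (fun f => f (bv i)) this

theorem ops_zero (a : Op N) : (0 : ℝ) • a = 0 := by module

theorem ops_add (c d : ℝ) (a : Op N) : (c + d) • a = c • a + d • a := by module

theorem ops_neg (c : ℝ) (a : Op N) : (-c) • a = -(c • a) := by module

theorem ops_sum {ι : Type} (s : Finset ι) (c : ι → ℝ) (a : Op N) :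
    (∑ i ∈ s, c i) • a = ∑ i ∈ s, c i • a := by
  ext1 x; simp [Finset.sum_smul]

theorem ops_mul (c : ℝ) (a b : Op N) : (c • a) * b = c • (a * b) := rfl

theorem ops_mul' (c : ℝ) (a b : Op N) : a * (c • b) = c • (a * b) := by
  ext1 x; exact a.map_smul_of_tower c (b x)

theorem ops_star (c : ℝ) (a : Op N) : star (c • a) = c • star a :=
  (starL' ℝ (A := Op N)).map_smul c a

theorem dd_star {B : Ec n → Op N} (hB : DifferentiableAt ℝ B z) :
    dd i (fun y => star (B y)) z = star (dd i B z) :=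
  congrArg (fun f => f (bv i))
    ((starL' ℝ (A := Op N)).toContinuousLinearMap.hasFDerivAt.comp z hB.hasFDerivAt).fderiv

theorem sm_star {B : Ec n → Op N} (hB : ContDiffOn ℝ ∞ B Ω) :
    ContDiffOn ℝ ∞ (fun y => star (B y)) Ω :=
  (starL' ℝ (A := Op N)).toContinuousLinearMap.contDiff.comp_contDiffOn hB

theorem D_eq (γ : Geo n N) (i : Fin n) (u : Ec n → Fb N) (z : Ec n) :
    γ.D i u z = dd i u z + γ.a i z (u z) := rfl

/-- A function that is smooth on `Ω` and vanishes off the support of a test section. -/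
theorem ET.of_supp {F u : Ec n → Fb N} (hΩ : IsOpen Ω) (hF : ET Ω F) (hu : ContDiffOn ℝ ∞ u Ω)
    (h0 : ∀ z, z ∉ tsupport F → u z = 0) : ET Ω u := by
  have hs : tsupport u ⊆ tsupport F :=
    closure_minimal (fun z hz => not_not.1 fun h => hz (h0 z h)) (isClosed_tsupport F)
  refine ⟨contDiff_iff_contDiffAt.2 fun z => ?_, hF.2.1.mono' ((subset_tsupport u).trans hs),
    hs.trans hF.2.2⟩
  by_cases hz : z ∈ tsupport F
  · exact sm_at hΩ hu (hF.2.2 hz)
  · exact contDiffAt_const.congr_of_eventuallyEq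
      (notMem_tsupport_iff_eventuallyEq.1 fun h => hz (hs h))

theorem et_app {A : Ec n → Op N} {F : Ec n → Fb N} (hΩ : IsOpen Ω) (hA : ContDiffOn ℝ ∞ A Ω)
    (hF : ET Ω F) : ET Ω fun z => A z (F z) :=
  hF.of_supp hΩ (sm_app hA hF.1.contDiffOn) fun z hz => by
    rw [image_eq_zero_of_notMem_tsupport hz, map_zero]

variable [NeZero n] {ρ C : ℝ}

theorem cap_open (ρ C : ℝ) : IsOpen (cap n ρ C) :=
  isOpen_ball.inter (isOpen_lt (by fun_prop) (by fun_prop))

theorem cap_sub : cap n ρ C ⊆ ball 0 ρ := inter_subset_left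

theorem cap_ev (hρ : 0 < ρ) (C : ℝ) :
    ∀ᶠ t : ℝ in 𝓝[>] 0, (-t) • (bv 0 : Ec n) ∈ cap n ρ C := by
  have h1 : ∀ᶠ t : ℝ in 𝓝[>] 0, t < ρ := mem_nhdsWithin_of_mem_nhds (Iio_mem_nhds hρ)
  have h2 : ∀ᶠ t : ℝ in 𝓝[>] 0, C * t < 1 := mem_nhdsWithin_of_mem_nhds
    ((by fun_prop : Continuous fun t : ℝ => C * t).continuousAt.eventually_lt continuousAt_const
      (by simp))
  filter_upwards [h1, h2, self_mem_nhdsWithin] with t a b (c : 0 < t)
  have hn : ‖(-t) • (bv 0 : Ec n)‖ = t := by simp [norm_smul, bv, abs_of_pos c]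
  refine ⟨by rwa [mem_ball_zero_iff, hn], ?_⟩
  show ((-t) • (bv 0 : Ec n)) 0 < -(C * ‖(-t) • (bv 0 : Ec n)‖ ^ 2)
  rw [hn]
  simp only [bv, PiLp.smul_apply, PiLp.single_apply, if_true, smul_eq_mul]
  nlinarith

theorem cap_closure (hρ : 0 < ρ) (C : ℝ) : (0 : Ec n) ∈ closure (cap n ρ C) := by
  refine mem_closure_of_tendsto (b := 𝓝[>] (0 : ℝ)) ?_ (cap_ev hρ C)
  refine tendsto_nhdsWithin_of_tendsto_nhds ?_
  have : Continuous fun t : ℝ => (-t) • (bv 0 : Ec n) := by fun_prop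
  simpa using this.tendsto 0

/-- Continuous functions that agree on the cap agree at the origin. -/
theorem cap_eq {X : Type} [TopologicalSpace X] [T2Space X] {f g : Ec n → X} (hρ : 0 < ρ)
    (hf : ContinuousAt f 0) (hg : ContinuousAt g 0) (h : EqOn f g (cap n ρ C)) : f 0 = g 0 :=
  have := mem_closure_iff_nhdsWithin_neBot.1 (cap_closure (n := n) hρ C)
  tendsto_nhds_unique_of_eventuallyEq (l := 𝓝[cap n ρ C] 0) hf.continuousWithinAt
    hg.continuousWithinAt (h.eventuallyEq_of_mem self_mem_nhdsWithin)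

end Vale.Agent.P088.Gl
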