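import Vale.Agent.P088F.Defs

/-! P088F: monotonicity of the basic notions. -/

open scoped ContDiff Topology ENNReal
open Set Filter MeasureTheory Metric

noncomputable section

namespace Vale.Agent.P088F

open Vale.Agent.P292E

variable {n : ℕ} {ι : Type} [Fintype ι] [DecidableEq ι]

theorem mono_bd {F : Type} [NormedAddCommGroup F] [NormedSpace ℝ F] {K K' : ℕ} {f : V n → F}
    {s s' : Set (V n)} {B B' : ℝ} (h : Bd K f s B) (hK : K' ≤ K) (hs : s' ⊆ s) (hB : B ≤ B') :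
    Bd K' f s' B' := fun i hi x hx => (h i (hi.trans hK) x (hs hx)).trans hB

omit [Fintype ι] [DecidableEq ι] in
theorem Op.Near.mono {L : Op n ι} {K K' : ℕ} {ε ε' : ℝ} (h : L.Near K ε) (hK : K' ≤ K)
    (hε : ε ≤ ε') : L.Near K' ε' :=
  ⟨fun j k => mono_bd (h.g j k) hK Subset.rfl hε, fun j l m => mono_bd (h.a j l m) hK Subset.rfl hε,
    fun l m => mono_bd (h.c l m) hK Subset.rfl hε⟩

omit [Fintype ι] [DecidableEq ι] in
theorem Op.Bdd.mono {L : Op n ι} {K K' : ℕ} {M M' c c' : ℝ} (h : L.Bdd K M c) (hK : K' ≤ K)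
    (hM : M ≤ M') (hc : c' ≤ c) : L.Bdd K' M' c' :=
  ⟨fun j k => mono_bd (h.g j k) hK Subset.rfl hM, fun j l m => mono_bd (h.a j l m) hK Subset.rfl hM,
    fun l m => mono_bd (h.c l m) hK Subset.rfl hM,
    fun x ξ => (mul_le_mul_of_nonneg_right hc (sq_nonneg _)).trans (h.ell x ξ)⟩

omit [Fintype ι] [DecidableEq ι] in
theorem Op.EqOn.mono {L L' : Op n ι} {s s' : Set (V n)} (h : L.EqOn L' s) (hs : s' ⊆ s) :
    L.EqOn L' s' := fun x hx => h x (hs hx)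

omit [Fintype ι] [DecidableEq ι] in
theorem TstF.mono {s s' : Set (V n)} {φ : Fam n ι} (h : TstF s φ) (hs : s ⊆ s') : TstF s' φ :=
  fun l => ⟨(h l).1, (h l).2.1, (h l).2.2.trans hs⟩

omit [DecidableEq ι] in
theorem SolOn.mono {L : Op n ι} {s s' : Set (V n)} {u : Fam n ι} (h : SolOn L s u) (hs : s' ⊆ s) :
    SolOn L s' u := ⟨fun l => (h.1 l).mono hs, fun l x hx => h.2 l x (hs hx)⟩

omit [DecidableEq ι] in
theorem N2.mono {s s' : Set (V n)} (u : Fam n ι) (hs : s ⊆ s') : N2 s u ≤ N2 s' u :=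
  Finset.sum_le_sum fun _ _ => lintegral_mono_set hs

omit [DecidableEq ι] in
theorem Sol.mono {P Q : Op n ι} {Ω Ω' : Set (V n × V n)} {W : Kr n ι} (h : Sol P Q Ω W)
    (hs : Ω' ⊆ Ω) : Sol P Q Ω' W :=
  ⟨fun l m => (h.sm l m).mono hs, fun p hp => h.ex p (hs hp), fun p hp => h.ey p (hs hp)⟩

omit [Fintype ι] [DecidableEq ι] in
theorem KBd.mono {W : Kr n ι} {Ω Ω' : Set (V n × V n)} {A A' : ℝ} (h : KBd W Ω A) (hs : Ω' ⊆ Ω)
    (hA : A ≤ A') : KBd W Ω' A' := fun p hp l m => (h p (hs hp) l m).trans hA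

omit [DecidableEq ι] in
theorem LG.mono {L : Op n ι} {B B' : Set (V n)} {G : Fam n ι → Fam n ι} {Λ Λ' : ℝ}
    (h : LG L B G Λ) (hs : B' ⊆ B) (hΛ : Λ ^ 2 ≤ Λ' ^ 2) : LG L B' G Λ' where
  add F F' hF hF' l x hx := h.add F F' (hF.mono hs) (hF'.mono hs) l x (hs hx)
  smul z F hF l x hx := h.smul z F (hF.mono hs) l x (hs hx)
  sm F hF l := (h.sm F (hF.mono hs) l).mono hs
  eq F hF l x hx := h.eq F (hF.mono hs) l x (hs hx)
  inv φ hφ l x hx := h.inv φ (hφ.mono hs) l x (hs hx)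
  bd F hF := ((N2.mono _ hs).trans (h.bd F (hF.mono hs))).trans
    (mul_le_mul_left (ENNReal.ofReal_le_ofReal hΛ) _)

theorem offd_mono {B B' : Set (V n)} (hs : B' ⊆ B) : offd B' ⊆ offd B :=
  fun _ hp => ⟨hs hp.1, hs hp.2.1, hp.2.2⟩

theorem Ker.mono {L : Op n ι} {B B' : Set (V n)} {K : Kr n ι} (h : Ker L B K) (hs : B' ⊆ B) :
    Ker L B' K :=
  ⟨h.sol.mono (offd_mono hs), fun x hx φ hφ => h.rep x (hs hx) φ (hφ.mono hs)⟩

variable [NeZero n]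

theorem Dat.Ok.mono {d : Dat n ι} {K K' c₀ : ℕ} {ε ε' R R' Λ : ℝ} (h : d.Ok K ε R c₀ Λ)
    (hK : K' ≤ K) (hε : ε ≤ ε') (hR : R' ≤ R) : d.Ok K' ε' R' c₀ Λ :=
  have hs : ball (0 : V n) R' ⊆ ball 0 R := ball_subset_ball hR
  ⟨h.sm1, h.sm2, h.nr1.mono hK hε, h.nr2.mono hK hε, h.eqU, h.k1.mono hs, h.k2.mono hs,
    h.lg.mono hs le_rfl, h.nn, fun p hp => h.b1 p (offd_mono hs hp),
    fun p hp => h.b2 p (offd_mono hs hp), fun p hp => h.eqK p (offd_mono hs hp)⟩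

theorem Dat.Nm.mono {d : Dat n ι} {K K' : ℕ} {ε ε' R R' : ℝ} {l₀ : ι} {s s' : Fin n → Fam n ι}
    (h : d.Nm K ε R l₀ s s') (hK : K' ≤ K) (hε : ε ≤ ε') (hR : R' ≤ R) : d.Nm K' ε' R' l₀ s s' :=
  have hs : ball (0 : V n) R' ⊆ ball 0 R := ball_subset_ball hR
  ⟨h.g1, h.g2, h.c1, h.c2, fun j => (h.s1 j).mono hs, fun j => (h.s2 j).mono hs,
    fun j l x hx => h.eqU j l x (hs hx), fun j x hx => h.re j x (hs hx),
    fun j l => mono_bd (h.nr1 j l) hK hs hε, fun j l => mono_bd (h.nr2 j l) hK hs hε⟩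

theorem Dat.Ext.mono {d : Dat n ι} {Ω Ω' : Set (V n × V n)} {W : Kr n ι} (h : d.Ext Ω W)
    (hs : Ω' ⊆ Ω) : d.Ext Ω' W :=
  ⟨h.sol.mono hs, fun p hp => h.e1 p (hs hp), fun p hp => h.e2 p (hs hp)⟩

omit [Fintype ι] [DecidableEq ι] [NeZero n] in
theorem Dat.Df.mono {d : Dat n ι} {x : V n} {δ δ' : ℝ} (h : d.Df x δ) (hδ : δ ≤ δ') : d.Df x δ' :=
  fun i hi => ⟨fun j k => ((h i hi).1 j k).trans hδ, fun j l m => ((h i hi).2.1 j l m).trans hδ,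
    fun l m => ((h i hi).2.2 l m).trans hδ⟩

omit [NeZero n] in
theorem mono_sub {F : Type} [NormedAddCommGroup F] [NormedSpace ℝ F] {f g : V n → F} {ε : ℝ}
    (hf : ContDiff ℝ ∞ f) (hg : ContDiff ℝ ∞ g) (h1 : Bd 3 f univ ε) (h2 : Bd 3 g univ ε)
    {i : ℕ} (hi : i ≤ 3) (x : V n) : ‖iteratedFDeriv ℝ i (fun y => f y - g y) x‖ ≤ 2 * ε := by
  have e : iteratedFDeriv ℝ i (fun y => f y - g y) x =
      iteratedFDeriv ℝ i f x - iteratedFDeriv ℝ i g x :=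
    iteratedFDeriv_sub_apply (hf.of_le (by exact_mod_cast le_top)).contDiffAt
      (hg.of_le (by exact_mod_cast le_top)).contDiffAt
  rw [e]
  have := h1 i hi x trivial
  have := h2 i hi x trivial
  linarith [norm_sub_le (iteratedFDeriv ℝ i f x) (iteratedFDeriv ℝ i g x)]

omit [Fintype ι] [DecidableEq ι] [NeZero n] in
theorem df_of_near {d : Dat n ι} {ε : ℝ} (s1 : d.L1.Sm) (s2 : d.L2.Sm) (h1 : d.L1.Near 3 ε)
    (h2 : d.L2.Near 3 ε) (x : V n) : d.Df x (2 * ε) := by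
  refine fun i hi => ⟨fun j k => ?_, fun j l m => mono_sub (s1.a j l m) (s2.a j l m) (h1.a j l m)
    (h2.a j l m) hi x, fun l m => mono_sub (s1.c l m) (s2.c l m) (h1.c l m) (h2.c l m) hi x⟩
  have := mono_sub ((s1.g j k).sub contDiff_const) ((s2.g j k).sub contDiff_const) (h1.g j k)
    (h2.g j k) hi x
  simpa only [sub_sub_sub_cancel_right] using this

omit [Fintype ι] [DecidableEq ι] [NeZero n] in
theorem Par.Ok.mono {P : Par} {N₀ N₁ c c' : ℝ} (h : P.Ok N₀ c) (hN : N₁ ≤ N₀) (hc : c ≤ c') :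
    P.Ok N₁ c' := ⟨h.a0, h.a1, hN.trans h.N0, h.B0, h.B1.trans hc⟩

theorem Par.b_pos {P : Par} (h : 0 < P.B) (x : V n) : 0 < P.b x := mul_pos h (Real.exp_pos _)

end Vale.Agent.P088F
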