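import Vale.Agent.P088F.LSm
import Vale.Agent.P088F.Mono
import Vale.Agent.P292E.BdC

/-! P088, part L: the local theorem for operators given on a ball. -/

open MeasureTheory Set Filter Metric Topology Matrix
open scoped ContDiff ENNReal

noncomputable section

namespace Vale.Agent.P088.Gl

open Vale.Agent.P292E Vale.Agent.P088F

variable {n N : ℕ}

section cut
variable {F : Type} [NormedAddCommGroup F] [NormedSpace ℝ F] {χ : Ec n → ℝ} {s : Set (Ec n)}

theorem LVw_zero (f : Ec n → F) {x : Ec n} (hx : x ∉ tsupport χ) :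
    (fun x => χ x • f x) =ᶠ[𝓝 x] fun _ => 0 :=
  (notMem_tsupport_iff_eventuallyEq.1 hx).mono fun y hy => by
    simp only [hy, Pi.zero_apply, zero_smul]

theorem LVw_cut (hs : IsOpen s) (hχ : ContDiff ℝ ∞ χ) (ht : tsupport χ ⊆ s) {f : Ec n → F}
    (hf : ContDiffOn ℝ ∞ f s) : ContDiff ℝ ∞ fun x => χ x • f x := by
  refine contDiff_iff_contDiffAt.2 fun x => ?_
  by_cases hx : x ∈ tsupport χ
  · exact hχ.contDiffAt.smul (hf.contDiffAt (hs.mem_nhds (ht hx)))
  · exact contDiffAt_const.congr_of_eventuallyEq (LVw_zero f hx)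

theorem LVw_bd (hs : IsOpen s) (hχ : ContDiff ℝ ∞ χ) (ht : tsupport χ ⊆ s) {K : ℕ} {B ε : ℝ}
    (hB : 0 ≤ B) (hb : Bd K χ (tsupport χ) B) (hε : 0 ≤ ε) {f : Ec n → F}
    (hf : ContDiffOn ℝ ∞ f s) (h : Bd K f s ε) :
    Bd K (fun x => χ x • f x) univ (2 ^ K * B * ε) := by
  intro i hi x _
  by_cases hx : x ∈ tsupport χ
  · have h1 := norm_iteratedFDerivWithin_smul_le (𝕜 := ℝ) (N := ∞) (n := i) hχ.contDiffOn hf
      hs.uniqueDiffOn (ht hx) (BdC_le i)
    simp only [iteratedFDerivWithin_of_isOpen _ hs (ht hx)] at h1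
    refine h1.trans ((Finset.sum_le_sum fun j hj => mul_le_mul (mul_le_mul_of_nonneg_left
      (hb j ((Nat.lt_succ_iff.1 (Finset.mem_range.1 hj)).trans hi) x hx) (Nat.cast_nonneg _))
      (h _ ((Nat.sub_le _ _).trans hi) x (ht hx)) (norm_nonneg _) (by positivity)).trans ?_)
    rw [← Finset.sum_mul, ← Finset.sum_mul, ← Nat.cast_sum, Nat.sum_range_choose]
    push_cast
    gcongr
    exact one_le_two
  · rw [((LVw_zero f hx).iteratedFDeriv ℝ i).eq_of_nhds, iteratedFDeriv_fun_zero, Pi.zero_apply,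
      norm_zero]
    positivity

end cut

/-- Components of a section. -/
def cf (u : Ec n → Fb N) : Fam n (Fin N) := fun l x => u x l

/-- The section with given components. -/
def fc (F : Fam n (Fin N)) : Ec n → Fb N := fun x => WithLp.toLp 2 fun l => F l x

/-- Matrix entries. -/
def ent (l m : Fin N) : Op N →L[ℝ] ℂ :=
  ((EuclideanSpace.proj l : Fb N →L[ℂ] ℂ).comp
    (ContinuousLinearMap.apply ℂ (Fb N) (EuclideanSpace.single m 1))).restrictScalars ℝ

theorem ent_norm (l m : Fin N) : ‖ent l m‖ ≤ 1 :=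
  ContinuousLinearMap.opNorm_le_bound _ zero_le_one fun A => by
    refine (PiLp.norm_apply_le (A (EuclideanSpace.single m 1)) l).trans ((A.le_opNorm _).trans ?_)
    simp

theorem ent_sum (A : Op N) (v : Fb N) (l : Fin N) : A v l = ∑ m, ent l m A * v m := by
  have e : v = ∑ m, v m • EuclideanSpace.single m (1 : ℂ) := by
    ext i
    simp [Pi.single_apply]
  conv_lhs => rw [e]
  simp [ent, mul_comm]

/-- The operator extended to the whole space. -/
def nop (χ : Ec n → ℝ) (L : Nf n N) : P088F.Op n (Fin N) where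
  g j k x := (if j = k then 1 else 0) + χ x • (L.g x j k - (1 : Matrix (Fin n) (Fin n) ℝ) j k)
  a j l m x := χ x • ent l m (L.b j x)
  c _ _ _ := 0

variable {χ : Ec n → ℝ} {L : Nf n N} {s : Set (Ec n)} {x : Ec n}

theorem nop_g (hx : χ x = 1) (j k : Fin n) : (nop χ L).g j k x = L.g x j k := by
  simp [nop, hx, one_apply]

theorem nop_ap (hs : IsOpen s) {u : Ec n → Fb N} (hu : ContDiffOn ℝ ∞ u s) (hx : x ∈ s)
    (h1 : χ x = 1) (l : Fin N) : (nop χ L).ap (cf u) l x = L.ap u x l := by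
  have e1 : ∀ k m, ∀ y ∈ s, pd k (cf u m) y = dd k u y m := fun k m y hy =>
    dd_comp (sm_dif hs hu hy) m
  have e2 : ∀ j k, pd j (pd k (cf u l)) x = dd j (dd k u) x l := fun j k =>
    (dd_congr (mem_of_superset (hs.mem_nhds hx) (e1 k l))).trans
      (dd_comp (sm_dif hs (dd_sm hs hu k) hx) l)
  simp only [P088F.Op.ap, P088F.Op.gc, nop_g h1, e2, e1 _ _ x hx, Nf.ap]
  simp only [nop, h1, one_smul, zero_mul, add_zero, PiLp.add_apply, WithLp.ofLp_sum,
    Finset.sum_apply, PiLp.smul_apply, ent_sum]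
  exact congrArg₂ (· + ·) rfl Finset.sum_comm

theorem tstF_iff {F : Fam n (Fin N)} : TstF s F ↔ ET s (fc F) := by
  constructor
  · intro h
    have ht : tsupport (fc F) ⊆ ⋃ l, tsupport (F l) := by
      refine closure_minimal (fun x hx => ?_)
        (isClosed_iUnion_of_finite fun l => isClosed_tsupport _)
      by_contra h0
      exact hx (PiLp.ext fun l => image_eq_zero_of_notMem_tsupport (f := F l) fun h1 =>
        h0 (mem_iUnion.2 ⟨l, h1⟩))
    exact ⟨(contDiff_piLp 2).2 fun l => (h l).1,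
      (isCompact_iUnion fun l => (h l).2.1).of_isClosed_subset (isClosed_tsupport _) ht,
      ht.trans (iUnion_subset fun l => (h l).2.2)⟩
  · intro h l
    have ht : tsupport (F l) ⊆ tsupport (fc F) :=
      closure_mono fun x hx h0 => hx (congrArg (fun v : Fb N => v l) h0)
    exact ⟨(contDiff_piLp 2).1 h.1 l, h.2.1.of_isClosed_subset (isClosed_tsupport _) ht,
      ht.trans h.2.2⟩

theorem LVw_N2 (hs : IsOpen s) {u : Ec n → Fb N} (hu : ContDiffOn ℝ ∞ u s) :
    N2 s (cf u) = ∫⁻ x in s, ‖u x‖ₑ ^ 2 := by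
  refine (lintegral_finsetSum' _ fun l _ => (((sm_comp hu l).continuousOn.aemeasurable
    hs.measurableSet).enorm.pow_const 2)).symm.trans (lintegral_congr fun x => ?_)
  simp only [← ofReal_norm, ← ENNReal.ofReal_pow (norm_nonneg _)]
  rw [← ENNReal.ofReal_sum_of_nonneg fun _ _ => by positivity, EuclideanSpace.norm_sq_eq]

theorem LVw_off {u : Ec n → Fb N} (hx : x ∉ tsupport u) : L.ap u x = 0 := by
  have h0 : u =ᶠ[𝓝 x] fun _ => 0 := notMem_tsupport_iff_eventuallyEq.1 hx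
  have h1 : ∀ k, dd k u =ᶠ[𝓝 x] fun _ => 0 := fun k =>
    (dd_ev h0).trans (Eventually.of_forall fun _ => dd_const _)
  have h2 : ∀ j k, dd j (dd k u) x = 0 := fun j k => (dd_congr (h1 k)).trans (dd_const _)
  simp [Nf.ap, h2, (h1 _).eq_of_nhds]

theorem LVw_off' (P : P088F.Op n (Fin N)) {u : Ec n → Fb N} (hx : x ∉ tsupport u) (l : Fin N) :
    P.ap (cf u) l x = 0 := by
  have h0 : ∀ m, cf u m =ᶠ[𝓝 x] fun _ => 0 := fun m =>
    (notMem_tsupport_iff_eventuallyEq.1 hx).mono fun y hy => congrArg (fun v : Fb N => v m) hy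
  have h1 : ∀ k m, pd k (cf u m) =ᶠ[𝓝 x] fun _ => 0 := fun k m =>
    (dd_ev (h0 m)).trans (Eventually.of_forall fun _ => dd_const _)
  have h2 : ∀ j k, pd j (pd k (cf u l)) x = 0 := fun j k => (dd_congr (h1 k l)).trans (dd_const _)
  simp [P088F.Op.ap, h2, (h1 _ _).eq_of_nhds, (h0 _).eq_of_nhds]

variable [NeZero n]

theorem LVw_ap_sm (hs : IsOpen s) (hL : L.Sm s) {u : Ec n → Fb N} (hu : ContDiffOn ℝ ∞ u s) :
    ContDiffOn ℝ ∞ (L.ap u) s :=
  (ContDiffOn.sum fun j _ => ContDiffOn.sum fun k _ =>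
    (hL.g j k).smul (dd_sm hs (dd_sm hs hu k) j)).add
    (ContDiffOn.sum fun k _ => sm_app (hL.b k) (dd_sm hs hu k))

theorem LVw_lg {R R' Λ : ℝ} (hR : R ≤ R') (h1 : ∀ x ∈ ball (0 : Ec n) R, χ x = 1)
    {G : (Ec n → Fb N) → Ec n → Fb N} (hL : L.Sm (ball 0 R')) (hG : NG (ball 0 R') L G)
    (h2 : L2b G 0 R' Λ) : LG (nop χ L) (ball 0 R) (fun F => cf (G (fc F))) Λ := by
  have hb : ball (0 : Ec n) R ⊆ ball 0 R' := ball_subset_ball hR
  have et : ∀ F, TstF (ball 0 R) F → ET (ball (0 : Ec n) R') (fc (N := N) F) := fun F hF =>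
    (tstF_iff.1 hF).mono hb
  refine ⟨fun F F' hF hF' l x hx =>
      congrArg (fun v : Fb N => v l) (hG.add _ _ (et F hF) (et F' hF') (hb hx)),
    fun z F hF l x hx => congrArg (fun v : Fb N => v l) (hG.smul z _ (et F hF) (hb hx)),
    fun F hF l => (sm_comp (hG.sm _ (et F hF)) l).mono hb, fun F hF l x hx => ?_,
    fun φ hφ l x hx => ?_, fun F hF => ?_⟩
  · rw [nop_ap isOpen_ball (hG.sm _ (et F hF)) (hb hx) (h1 x hx), hG.eq _ (et F hF) (hb hx)]
    rfl
  · have e : fc ((nop χ L).ap φ) = L.ap (fc φ) := funext fun y => PiLp.ext fun m => by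
      by_cases hy : y ∈ tsupport (fc φ)
      · have hy' := (tstF_iff.1 hφ).2.2 hy
        exact nop_ap isOpen_univ (et φ hφ).1.contDiffOn (mem_univ y) (h1 y hy') m
      · rw [LVw_off hy]
        exact LVw_off' _ hy m
    change G (fc ((nop χ L).ap φ)) x l = _
    rw [e, hG.inv _ _ (et φ hφ) ((et φ hφ).of_supp isOpen_ball
      (LVw_ap_sm isOpen_ball hL (et φ hφ).1.contDiffOn) fun z hz => LVw_off hz)
      (fun _ _ => rfl) (hb hx)]
    rfl
  · refine (N2.mono _ hb).trans ?_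
    rw [LVw_N2 isOpen_ball (hG.sm _ (et F hF))]
    refine (h2 _ (et F hF)).trans_eq ?_
    rw [← Measure.restrict_univ (μ := volume), ← LVw_N2 isOpen_univ (et F hF).1.contDiffOn]
    rfl

theorem LVw_near {R B ε : ℝ} {K : ℕ} (hχ : ContDiff ℝ ∞ χ) (ht : tsupport χ ⊆ ball 0 R)
    (hB : 0 ≤ B) (hb : Bd K χ (tsupport χ) B) (hε : 0 ≤ ε) (hL : L.Sm (ball 0 R))
    (hg : ∀ i j, Sml K ε R fun z => L.g z i j - (1 : Matrix (Fin n) (Fin n) ℝ) i j)
    (hc : ∀ j, Sml K ε R (L.b j)) : (nop χ L).Near K (2 ^ K * B * ε) := by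
  refine ⟨fun j k => ?_, fun j l m => LVw_bd isOpen_ball hχ ht hB hb hε
    ((ent l m).contDiff.comp_contDiffOn (hL.b j)) ((Bd.clm (ent l m) isOpen_ball (hL.b j)
      (hc j)).mono le_rfl subset_rfl (mul_le_of_le_one_left hε (ent_norm l m))),
    fun l m => (Bd_const K 0 univ).mono le_rfl subset_rfl (by rw [norm_zero]; positivity)⟩
  simp only [nop, add_sub_cancel_left]
  exact LVw_bd isOpen_ball hχ ht hB hb hε ((hL.g j k).sub contDiffOn_const) (hg j k)

theorem LVw_sm {R ε : ℝ} {K : ℕ} (hχ : ContDiff ℝ ∞ χ) (ht : tsupport χ ⊆ ball 0 R)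
    (hL : L.Sm (ball 0 R)) (h : (nop χ L).Near K ε) (hε : n * ε < 1) : (nop χ L).Sm := by
  refine ⟨fun j k => contDiff_const.add
      (LVw_cut isOpen_ball hχ ht ((hL.g j k).sub contDiffOn_const)),
    fun j l m => LVw_cut isOpen_ball hχ ht ((ent l m).contDiff.comp_contDiffOn (hL.b j)),
    fun _ _ => contDiff_const, fun j k x => ?_, fun x ξ hξ => ?_⟩
  · by_cases hx : x ∈ tsupport χ
    · simp only [nop, hL.sy x (ht hx) j k, one_apply, eq_comm (a := j)]
    · simp only [nop, image_eq_zero_of_notMem_tsupport hx, zero_smul, eq_comm (a := j)]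
  · have h1 : ∀ j k, (if j = k then ξ j ^ 2 else 0) - ε / 2 * (ξ j ^ 2 + ξ k ^ 2) ≤
        (nop χ L).g j k x * ξ j * ξ k := fun j k => by
      have h2 := abs_le.1 ((h.g j k).norm_le (mem_univ x))
      by_cases e : j = k
      · subst e
        simp only [if_true] at h2 ⊢
        nlinarith [sq_nonneg (ξ j)]
      · simp only [if_neg e, sub_zero] at h2 ⊢
        nlinarith [mul_nonneg (sub_nonneg.2 h2.2) (sq_nonneg (ξ j - ξ k)),
          mul_nonneg (sub_nonneg.2 h2.1) (sq_nonneg (ξ j + ξ k))]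
    refine lt_of_lt_of_le ?_ (Finset.sum_le_sum fun j _ => Finset.sum_le_sum fun k _ => h1 j k)
    have h3 : 0 < ∑ j, ξ j ^ 2 := by
      rw [← EuclideanSpace.real_norm_sq_eq]; positivity
    simp only [Finset.sum_sub_distrib, Finset.sum_ite_eq, Finset.mem_univ, if_true,
      ← Finset.mul_sum, Finset.sum_add_distrib, Finset.sum_const, Finset.card_univ,
      Fintype.card_fin, nsmul_eq_mul]
    nlinarith

omit [NeZero n] in
theorem LVw_s {R R' ε ε' : ℝ} {K : ℕ} (hR : R ≤ R') (hε : 0 ≤ ε) (hε' : ε ≤ ε') {l₀ : Fin N}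
    {j : Fin n} {u : Ec n → Fb N} (hu : ContDiffOn ℝ ∞ u (ball 0 R'))
    (h : Sml K ε R' fun z => u z - ms l₀ j z) (l : Fin N) :
    Bd K (fun x => cf u l x - if l = l₀ then ((x j : ℝ) : ℂ) else 0) (ball 0 R) ε' := by
  have h1 : ContDiff ℝ ∞ (ms l₀ j : Ec n → Fb N) := (contDiff_piLp 2).2 fun m => by
    simp only [ms, PiLp.single_apply]
    split_ifs
    exacts [Complex.ofRealCLM.contDiff.comp (EuclideanSpace.proj j : Ec n →L[ℝ] ℝ).contDiff,
      contDiff_const]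
  have h2 := Bd.clm ((EuclideanSpace.proj l : Fb N →L[ℂ] ℂ).restrictScalars ℝ) isOpen_ball
    (hu.sub h1.contDiffOn) h
  have h3 : ‖(EuclideanSpace.proj l : Fb N →L[ℂ] ℂ).restrictScalars ℝ‖ ≤ 1 :=
    ContinuousLinearMap.opNorm_le_bound _ zero_le_one fun v => by
      rw [one_mul]; exact PiLp.norm_apply_le v l
  refine (h2.congr isOpen_ball fun x _ => ?_).mono le_rfl (ball_subset_ball hR)
    ((mul_le_of_le_one_left hε h3).trans hε')
  simp [cf, ms, PiLp.single_apply]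

theorem lv (h : LT0 n (Fin N)) : LV n N := by
  intro l₀
  obtain ⟨R, hR, h⟩ := h
  refine ⟨2 * R, by positivity, fun Λ => ?_⟩
  obtain ⟨K, ε, c, hε, hc, hcR, h⟩ := h Λ
  let χ : ContDiffBump (0 : Ec n) := ⟨R, 3 / 2 * R, hR, by linarith⟩
  have hχ : ContDiff ℝ ∞ χ := χ.contDiff
  have ht : tsupport χ ⊆ ball 0 (2 * R) := by
    rw [χ.tsupport_eq]
    exact closedBall_subset_ball (show 3 / 2 * R < 2 * R by linarith)
  have h1 : ∀ x ∈ ball (0 : Ec n) R, χ x = 1 := fun x hx =>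
    χ.one_of_mem_closedBall (ball_subset_closedBall hx)
  obtain ⟨B, hB, hb⟩ := exists_Bd K isOpen_univ hχ.contDiffOn χ.hasCompactSupport (subset_univ _)
  have hR2 : R ≤ 2 * R := by linarith
  have hs : ball (0 : Ec n) R ⊆ ball 0 (2 * R) := ball_subset_ball hR2
  set δ := min ε (1 / (n + 1)) with hδ
  have hδ0 : 0 < δ := lt_min hε (by positivity)
  have hn : n * δ < 1 := by
    have h2 : δ * (n + 1) ≤ 1 := (le_div_iff₀ (by positivity)).1 (min_le_right _ _)
    linarith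
  set e := δ / (2 ^ K * B + 1) with he
  have he0 : 0 < e := by positivity
  have he1 : e * (2 ^ K * B + 1) = δ := div_mul_cancel₀ _ (by positivity)
  have he2 : 2 ^ K * B * e ≤ δ := by linarith
  have he3 : e ≤ ε := by
    have : 0 ≤ 2 ^ K * B * e := by positivity
    have := min_le_left ε (1 / (n + 1))
    linarith
  refine ⟨K, e, c, he0, hc, hcR.trans hR2, fun L₁ L₂ G₁ G₂ s₁ s₂ m₁ m₂ r₁ r₂ ag z hz => ?_⟩
  have n₁ := (LVw_near hχ ht hB hb he0.le m₁.sm r₁.g r₁.b).mono le_rfl he2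
  have n₂ := (LVw_near hχ ht hB hb he0.le m₂.sm r₂.g r₂.b).mono le_rfl he2
  have g0 : ∀ {L : Nf n N}, L.Sm (ball 0 (2 * R)) → ∀ x, (nop χ L).g 0 0 x = 1 := fun hL x => by
    by_cases hx : x ∈ tsupport χ
    · simp [nop, hL.g00 x (ht hx)]
    · simp [nop, image_eq_zero_of_notMem_tsupport hx]
  have so : ∀ {L G s}, Nrm (2 * R) L G s l₀ → ∀ j, SolOn (nop χ L) (ball 0 R) (cf (s j)) :=
    fun hm j => ⟨fun l => (sm_comp (hm.ss j) l).mono hs, fun l x hx => by
      rw [nop_ap isOpen_ball (hm.ss j) (hs hx) (h1 x hx), hm.sol j x (hs hx)]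
      rfl⟩
  have key := h ⟨nop χ L₁, nop χ L₂, 0, 0, fun F => cf (G₂ (fc F))⟩ (fun F => cf (G₁ (fc F))) l₀
    (fun j => cf (s₁ j)) (fun j => cf (s₂ j)) (LVw_sm hχ ht m₁.sm n₁ hn) (LVw_sm hχ ht m₂.sm n₂ hn)
    (n₁.mono le_rfl (min_le_left _ _)) (n₂.mono le_rfl (min_le_left _ _))
    (fun x hx => by
      by_cases h2 : x ∈ tsupport χ
      · have h3 := ag.op x ⟨ht h2, hx⟩
        simp [nop, h3.1, h3.2]
      · simp [nop, image_eq_zero_of_notMem_tsupport h2])
    (LVw_lg hR2 h1 m₁.sm m₁.ng r₁.l2) (LVw_lg hR2 h1 m₂.sm m₂.ng r₂.l2)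
    (fun F hF l x hx => congrArg (fun v : Fb N => v l) (ag.G _ ((tstF_iff.1 hF).mono
      (inter_subset_inter_left _ hs)) ⟨hs hx.1, hx.2⟩))
    ⟨g0 m₁.sm, g0 m₂.sm, fun _ _ _ => rfl, fun _ _ _ => rfl, so m₁, so m₂,
      fun j l x hx hx' => congrArg (fun v : Fb N => v l) (ag.s j ⟨hs hx, hx'⟩),
      fun j x hx => (m₁.re j x (hs hx)).trans (m₂.re j x (hs hx)).symm,
      fun j => LVw_s hR2 he0.le he3 (m₁.ss j) (r₁.s j),
      fun j => LVw_s hR2 he0.le he3 (m₂.ss j) (r₂.s j)⟩ z hz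
  have hz1 := h1 z (ball_subset_ball hcR hz)
  refine ⟨Matrix.ext fun j k => (nop_g hz1 j k).symm.trans ((key.1 j k).trans (nop_g hz1 j k)),
    fun j => ContinuousLinearMap.ext fun v => PiLp.ext fun l => ?_⟩
  have h2 := key.2.1 j l
  simp only [nop, hz1, one_smul] at h2
  simp only [ent_sum, h2]

end Vale.Agent.P088.Gl
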