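import Vale.Agent.P088F.LZm0

/-! P088, part L: the zoomed structures. -/

open MeasureTheory Set Filter Metric Topology Matrix
open scoped ContDiff ENNReal

noncomputable section

namespace Vale.Agent.P088.Gl

variable {n N : ℕ} {p : Ec n} {t ρ R : ℝ} {G G₁ G₂ : (Ec n → Fb N) → Ec n → Fb N}

/-- `add, smul, sm` from `et_zi`; `eq` from `ap_cs`, `ap_zm`, `zi_zm`. For `inv φ F`: apply
`h.inv` to `fun z => t ^ 2 • φ (zi p t z)` and `fun z => F (zi p t z)`; by `ap_zm` (everywhere)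
`t ^ 2 • L.ap (φ ∘ zi) z = (L.zm p t).ap φ (zi p t z)`, which equals `F (zi p t z)` on the ball and
off the ball (both vanish there, `ap_off`). -/
theorem ng_zm {L : Nf n N} (h : NG (ball 0 ρ) L G) (ht : 0 < t)
    (hs : MapsTo (zm p t) (ball 0 R) (ball 0 ρ)) : NG (ball 0 R) (L.zm p t) (zG G p t) := by
  have t0 := ht.ne'
  have t2 := pow_ne_zero 2 t0
  refine ⟨fun F F' hF hF' x hx => ?_, fun c F hF x hx => ?_, fun F hF => ?_, fun F hF x hx => ?_,
    fun φ F hφ hF he x hx => ?_⟩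
  · exact (congrArg (fun a => (t ^ 2)⁻¹ • a)
      (h.add _ _ (et_zi t0 hF hs) (et_zi t0 hF' hs) (hs hx))).trans (smul_add _ _ _)
  · exact (congrArg (fun a => (t ^ 2)⁻¹ • a) (h.smul c _ (et_zi t0 hF hs) (hs hx))).trans
      (smul_comm (t ^ 2)⁻¹ c (G (fun z => F (zi p t z)) (zm p t x)))
  · exact ((h.sm _ (et_zi t0 hF hs)).comp (zm_sm p t).contDiffOn hs).const_smul _
  · unfold zG
    rw [ap_cs, ap_zm, h.eq _ (et_zi t0 hF hs) (hs hx), inv_smul_smul₀ t2]
    exact congrArg F (zi_zm t0 x)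
  · have h1 := et_zi t0 hφ hs
    have h2 := h.inv (fun z => t ^ 2 • φ (zi p t z)) _ (h1.of_supp isOpen_ball
      (h1.1.const_smul _).contDiffOn fun z hz => by
        rw [image_eq_zero_of_notMem_tsupport (f := fun z => φ (zi p t z)) hz, smul_zero])
      (et_zi t0 hF hs) (fun z _ => by
        have h3 := ap_zm (p := p) (t := t) L (fun z => φ (zi p t z)) (zi p t z)
        simp only [zm_zi t0, zi_zm t0] at h3
        rw [ap_cs, ← h3]
        by_cases h4 : zi p t z ∈ ball (0 : Ec n) R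
        · exact he h4
        · exact (ap_off _ fun h5 => h4 (hφ.2.2 h5)).trans
            (image_eq_zero_of_notMem_tsupport fun h5 => h4 (hF.2.2 h5)).symm) (hs hx)
    unfold zG
    rw [h2, inv_smul_smul₀ t2, zi_zm t0]

/-- Change of variables (`Measure.addHaar` under `zm`: `lintegral` over `x` of `f (zm p t x)` is
`ofReal (t ^ n)⁻¹` times the integral of `f`; `Measure.map_addHaar_smul`, `lintegral_add_left_eq_self`),
on both sides. -/
theorem l2b_zm {r Λ : ℝ} (h : L2b G 0 r (Λ * t ^ 2)) (ht : 0 < t)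
    (hs : MapsTo (zm p t) (ball 0 R) (ball 0 r)) : L2b (zG G p t) 0 R Λ := by
  have t0 := ht.ne'
  have cv : ∀ f : Ec n → ℝ≥0∞, ∫⁻ x, f (zm p t x) =
      ENNReal.ofReal |(t ^ Module.finrank ℝ (Ec n))⁻¹| * ∫⁻ z, f z := fun f => by
    have h1 := lintegral_map_equiv (μ := volume) (fun y => f (p + y)) (MeasurableEquiv.smul₀ t t0)
    rw [MeasurableEquiv.coe_smul₀, Measure.map_addHaar_smul _ t0, lintegral_smul_measure,
      lintegral_add_left_eq_self f p] at h1
    exact h1.symm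
  intro F hF
  have h1 := h _ (et_zi t0 hF hs)
  have h2 := cv fun z => ‖F (zi p t z)‖ₑ ^ 2
  have h3 := cv ((ball 0 r).indicator fun z => ‖G (fun z => F (zi p t z)) z‖ₑ ^ 2)
  simp only [zi_zm t0] at h2
  rw [lintegral_indicator measurableSet_ball] at h3
  have h4 : ∫⁻ x in ball 0 R, ‖G (fun z => F (zi p t z)) (zm p t x)‖ₑ ^ 2 ≤
      ∫⁻ x, (ball 0 r).indicator (fun z => ‖G (fun z => F (zi p t z)) z‖ₑ ^ 2) (zm p t x) := by
    rw [← lintegral_indicator measurableSet_ball]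
    refine lintegral_mono fun x => ?_
    by_cases hx : x ∈ ball (0 : Ec n) R
    · rw [indicator_of_mem hx, indicator_of_mem (hs hx)]
    · rw [indicator_of_notMem hx]
      exact zero_le
  have h5 : ‖(t ^ 2)⁻¹‖ₑ ^ 2 * ENNReal.ofReal ((Λ * t ^ 2) ^ 2) = ENNReal.ofReal (Λ ^ 2) := by
    rw [Real.enorm_eq_ofReal (by positivity), ← ENNReal.ofReal_pow (by positivity),
      ← ENNReal.ofReal_mul (by positivity)]
    congr 1
    field_simp
  simp only [zG, enorm_smul, mul_pow]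
  rw [lintegral_const_mul' _ _ (ENNReal.pow_ne_top enorm_ne_top), h2, ← h5, mul_assoc, mul_left_comm
    (ENNReal.ofReal ((Λ * t ^ 2) ^ 2))]
  exact mul_le_mul_right (h4.trans (h3.trans_le (mul_le_mul_right h1 _))) _

variable [NeZero n]

theorem nrm_zm {L : Nf n N} {s : Fin n → Ec n → Fb N} {l₀ : Fin N} (h : Nrm ρ L G s l₀)
    (ht : 0 < t) (hR : 0 < R) (hs : MapsTo (zm p t) (ball 0 R) (ball 0 ρ)) :
    Nrm R (L.zm p t) (zG G p t) (zs s p t) l₀ := by
  have hp : p ∈ ball (0 : Ec n) ρ := by simpa [zm] using hs (mem_ball_self hR)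
  refine ⟨⟨fun i j => (h.sm.g i j).comp (zm_sm p t).contDiffOn hs,
    fun j => ((h.sm.b j).comp (zm_sm p t).contDiffOn hs).const_smul t,
    fun z hz => h.sm.sy _ (hs hz), fun z hz => h.sm.g00 _ (hs hz)⟩, ng_zm h.ng ht hs,
    fun j => (((h.ss j).comp (zm_sm p t).contDiffOn hs).sub contDiffOn_const).const_smul _,
    fun j z hz => ?_, fun j z hz => ?_⟩
  · unfold zs
    rw [ap_cs, ap_sub_const, ap_zm, h.sol j _ (hs hz), smul_zero, smul_zero]
  · simp only [zs, PiLp.smul_apply, PiLp.sub_apply, Complex.smul_re, Complex.sub_re,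
      h.re j _ (hs hz), h.re j p hp]
    simp [zm, ht.ne']

theorem agr_zm {U U' : Set (Ec n)} {L₁ L₂ : Nf n N} {s₁ s₂ : Fin n → Ec n → Fb N}
    (h : Agr U L₁ L₂ G₁ G₂ s₁ s₂) (ht : 0 < t) (hp : p ∈ U) (hU : MapsTo (zm p t) U' U) :
    Agr U' (L₁.zm p t) (L₂.zm p t) (zG G₁ p t) (zG G₂ p t) (zs s₁ p t) (zs s₂ p t) := by
  refine ⟨fun z hz => ⟨(h.op _ (hU hz)).1, fun j => congrArg (fun a => t • a) ((h.op _ (hU hz)).2 j)⟩,
    fun j z hz => ?_, fun F hF z hz => congrArg (fun a => (t ^ 2)⁻¹ • a)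
      (h.G _ (et_zi ht.ne' hF hU) (hU hz))⟩
  simp only [zs, h.s j (hU hz), h.s j hp]

end Vale.Agent.P088.Gl
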