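import Vale.Agent.P088F.LZm1
import Vale.Agent.P088F.LZm2

/-! P088, part L: the local theorem at a point from the local theorem near the flat model. -/

open MeasureTheory Set Filter Metric Topology Matrix
open scoped ContDiff ENNReal

noncomputable section

namespace Vale.Agent.P088.Gl

variable {n N : ℕ}

theorem lzm_ev (A : ℝ) {B : ℝ} (hB : 0 < B) : ∀ᶠ t in 𝓝[>] (0 : ℝ), A * t < B :=
  nhdsWithin_le_nhds ((by fun_prop : Continuous fun t : ℝ => A * t).continuousAt.eventually_lt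
    continuousAt_const (by simpa using hB))

/-- The model sections as linear maps. -/
def msL (l₀ : Fin N) (j : Fin n) : Ec n →L[ℝ] Fb N :=
  (EuclideanSpace.proj j : Ec n →L[ℝ] ℝ).smulRight (EuclideanSpace.single l₀ (1 : ℂ))

theorem ms_eq (l₀ : Fin N) (j : Fin n) : ms l₀ j = msL l₀ j := by
  funext z
  ext l
  by_cases h : l = l₀ <;> simp [ms, msL, h]

variable [NeZero n]

theorem nr_ev {ρ ε R Λ Λ₀ r₀ : ℝ} {L : Nf n N} {G : (Ec n → Fb N) → Ec n → Fb N}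
    {s : Fin n → Ec n → Fb N} {l₀ : Fin N} (hρ : 0 < ρ) (h : Nrm ρ L G s l₀) (a : At0 L G s l₀)
    (K : ℕ) (hε : 0 < ε) (hR : 0 < R) (hr : 0 < r₀)
    (hb : ∀ r, 0 < r → r ≤ r₀ → L2b G 0 r (Λ₀ * r ^ 2)) (hΛ : |Λ₀| * (4 * R ^ 2) ≤ Λ) :
    ∀ᶠ t in 𝓝[>] (0 : ℝ), ∀ p : Ec n, ‖p‖ ≤ t * R →
      Nr K ε R Λ (L.zm p t) (zG G p t) (zs s p t) l₀ := by
  have h1 := eventually_all.2 fun i => eventually_all.2 fun j =>
    sml_zm0 (f := fun z => L.g z i j - (1 : Matrix (Fin n) (Fin n) ℝ) i j) hρ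
      ((h.sm.g i j).sub contDiffOn_const) (by simp only [a.g0, sub_self]) K hε hR
  have h2 := eventually_all.2 fun j => sml_zm1 hρ (h.sm.b j) K hε hR
  have h3 := eventually_all.2 fun j =>
    sml_zm2 (f := fun z => s j z - msL l₀ j z) hρ ((h.ss j).sub (msL l₀ j).contDiff.contDiffOn)
      (by
        rw [fderiv_fun_sub (sm_dif isOpen_ball (h.ss j) (mem_ball_self hρ))
          (msL l₀ j).differentiableAt, sub_eq_zero]
        ext1 v
        rw [fderiv_eq_sum, fderiv_eq_sum]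
        refine Finset.sum_congr rfl fun k _ => ?_
        rw [a.s0, ms_eq, dd, ContinuousLinearMap.fderiv]) K hε hR
  filter_upwards [h1, h2, h3, lzm_ev (2 * R) hr, self_mem_nhdsWithin] with t h1 h2 h3 h4 ht p hp
  have ht : 0 < t := ht
  refine ⟨fun i j => h1 i j p hp, fun j => h2 j p hp, fun j => ?_, ?_⟩
  · have e : (fun z => zs s p t j z - ms l₀ j z) = fun x => t⁻¹ •
        ((s j (zm p t x) - msL l₀ j (zm p t x)) - (s j p - msL l₀ j p)) := by
      funext x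
      have : msL l₀ j (zm p t x) = msL l₀ j p + t • msL l₀ j x := by
        rw [zm, map_add, map_smul]
      rw [this, ms_eq, zs, show s j (zm p t x) - (msL l₀ j p + t • msL l₀ j x) - (s j p - msL l₀ j p)
        = (s j (zm p t x) - s j p) - t • msL l₀ j x by abel, smul_sub t⁻¹ _ (t • _), smul_smul,
        inv_mul_cancel₀ ht.ne', one_smul]
    rw [e]
    exact h3 j p hp
  · refine l2b_zm (r := 2 * t * R) ((hb _ (by positivity) (by linarith)).mono ?_) ht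
      fun x hx => mem_ball_zero_iff.2 (norm_zm ht hp hx)
    rw [abs_mul, abs_of_nonneg (sq_nonneg (2 * t * R))]
    have := mul_le_mul_of_nonneg_right hΛ (sq_nonneg t)
    linarith

theorem lz (h : LV n N) : LZ n N := by
  intro ρ C l₀ L₁ L₂ G₁ G₂ s₁ s₂ hρ n₁ n₂ a₁ a₂ ag
  obtain ⟨R, hR, H⟩ := h l₀
  obtain ⟨Λ₁, r₁, hr₁, b₁⟩ := a₁.har
  obtain ⟨Λ₂, r₂, hr₂, b₂⟩ := a₂.har
  obtain ⟨K, ε, c, hε, hc, hcR, H⟩ := H (max |Λ₁| |Λ₂| * (4 * R ^ 2))
  have e₁ := nr_ev hρ n₁ a₁ K hε hR hr₁ b₁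
    (mul_le_mul_of_nonneg_right (le_max_left |Λ₁| |Λ₂|) (by positivity))
  have e₂ := nr_ev hρ n₂ a₂ K hε hR hr₂ b₂
    (mul_le_mul_of_nonneg_right (le_max_right |Λ₁| |Λ₂|) (by positivity))
  obtain ⟨t, ⟨⟨e₁, e₂⟩, t₁, t₂⟩, ht⟩ := (((e₁.and e₂).and ((lzm_ev (2 * R) hρ).and
    (lzm_ev (|C| * (4 * R ^ 2)) (half_pos hc)))).and self_mem_nhdsWithin).exists
  have ht : 0 < t := ht
  have htc : 0 < t * c / 2 := by positivity
  set p : Ec n := (-(t * c / 2)) • bv 0 with hp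
  have np : ‖p‖ = t * c / 2 := by
    rw [hp, norm_smul, norm_neg, Real.norm_of_nonneg htc.le]
    simp [bv]
  have p0 : p 0 = -(t * c / 2) := by simp [hp, bv]
  have hpR : ‖p‖ ≤ t * R := by
    have := mul_le_mul_of_nonneg_left hcR ht.le
    rw [np]; linarith
  have hs : MapsTo (zm p t) (ball 0 R) (ball 0 ρ) := fun x hx =>
    mem_ball_zero_iff.2 ((norm_zm ht hpR hx).trans (by linarith))
  have hcap : ∀ x ∈ ball (0 : Ec n) R, x 0 ≤ 0 → zm p t x ∈ cap n ρ C := fun x hx h0 => by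
    refine ⟨hs hx, ?_⟩
    have k1 : zm p t x 0 = -(t * c / 2) + t * x 0 := by simp [zm, p0]
    have k2 : ‖zm p t x‖ ^ 2 ≤ (2 * t * R) ^ 2 :=
      pow_le_pow_left₀ (norm_nonneg _) (norm_zm ht hpR hx).le 2
    have k3 : C * ‖zm p t x‖ ^ 2 ≤ |C| * (2 * t * R) ^ 2 :=
      mul_le_mul (le_abs_self C) k2 (sq_nonneg _) (abs_nonneg C)
    have k4 := mul_lt_mul_of_pos_left t₂ ht
    have k5 := mul_nonpos_of_nonneg_of_nonpos ht.le h0
    show zm p t x 0 < -(C * ‖zm p t x‖ ^ 2)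
    rw [k1]; linarith
  have hpc : p ∈ cap n ρ C := by
    have := hcap 0 (mem_ball_self hR) le_rfl
    rwa [zm, smul_zero, add_zero] at this
  have E := H _ _ _ _ _ _ (nrm_zm n₁ ht hR hs) (nrm_zm n₂ ht hR hs) (e₁ p hpR) (e₂ p hpR)
    (agr_zm ag ht hpc fun x hx => hcap x hx.1 (le_of_lt hx.2))
  refine ⟨min (t * c / 2) ρ, lt_min htc hρ, min_le_right _ _, fun z hz => ?_⟩
  have hz' : zi p t z ∈ ball (0 : Ec n) c := by
    rw [← zm_ball (p := p) ht, zm_zi ht.ne', mem_ball, dist_eq_norm]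
    have k1 := norm_sub_le z p
    have k2 := (mem_ball_zero_iff.1 hz).trans_le (min_le_left _ _)
    linarith
  obtain ⟨E1, E2⟩ := E _ hz'
  simp only [Nf.zm, zm_zi ht.ne'] at E1 E2
  refine ⟨E1, fun j => ?_⟩
  ext1 v
  have k : t • L₁.b j z v = t • L₂.b j z v := congrArg (fun A : Op N => A v) (E2 j)
  exact smul_right_injective _ ht.ne' k

end Vale.Agent.P088.Gl
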