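import Vale.Agent.P088F.LSm

/-! P088, part L: the zoom. -/

open MeasureTheory Set Filter Metric Topology Matrix
open scoped ContDiff ENNReal

noncomputable section

namespace Vale.Agent.P088.Gl

variable {n N : ℕ} {p x z : Ec n} {t : ℝ}

/-- The zoom map. -/
def zm (p : Ec n) (t : ℝ) (x : Ec n) : Ec n := p + t • x

/-- Its inverse. -/
def zi (p : Ec n) (t : ℝ) (z : Ec n) : Ec n := t⁻¹ • (z - p)

/-- The zoomed operator. -/
def Nf.zm (L : Nf n N) (p : Ec n) (t : ℝ) : Nf n N :=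
  ⟨fun x => L.g (Gl.zm p t x), fun j x => t • L.b j (Gl.zm p t x)⟩

/-- The zoomed Green operator. -/
def zG (G : (Ec n → Fb N) → Ec n → Fb N) (p : Ec n) (t : ℝ) (F : Ec n → Fb N) (x : Ec n) : Fb N :=
  (t ^ 2)⁻¹ • G (fun z => F (zi p t z)) (zm p t x)

/-- The zoomed sections. -/
def zs (s : Fin n → Ec n → Fb N) (p : Ec n) (t : ℝ) (j : Fin n) (x : Ec n) : Fb N :=
  t⁻¹ • (s j (zm p t x) - s j p)

theorem zm_zi (ht : t ≠ 0) (z : Ec n) : zm p t (zi p t z) = z := by
  simp [zm, zi, smul_smul, ht]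

theorem zi_zm (ht : t ≠ 0) (x : Ec n) : zi p t (zm p t x) = x := by
  simp [zm, zi, smul_smul, ht]

theorem zm_sm (p : Ec n) (t : ℝ) : ContDiff ℝ ∞ (zm p t) := by
  unfold zm; fun_prop

theorem zi_sm (p : Ec n) (t : ℝ) : ContDiff ℝ ∞ (zi p t) := by
  unfold zi; fun_prop

theorem zm_ball {R : ℝ} (ht : 0 < t) : zm p t x ∈ ball p (t * R) ↔ x ∈ ball 0 R := by
  simp [zm, norm_smul, abs_of_pos ht, ht]

theorem norm_zm {R : ℝ} (ht : 0 < t) (hp : ‖p‖ ≤ t * R) (hx : x ∈ ball (0 : Ec n) R) :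
    ‖zm p t x‖ < 2 * t * R := by
  have h1 := norm_add_le p (t • x)
  rw [norm_smul, Real.norm_of_nonneg ht.le] at h1
  have := mul_lt_mul_of_pos_left (mem_ball_zero_iff.1 hx) ht
  unfold zm; linarith

variable {F : Type} [NormedAddCommGroup F] [NormedSpace ℝ F]

theorem fderiv_zm (u : Ec n → F) : fderiv ℝ (fun x => u (zm p t x)) x = t • fderiv ℝ u (zm p t x) := by
  have := fderiv_comp_smul (𝕜 := ℝ) (f := fun y => u (p + y)) (x := x) t
  rwa [fderiv_comp_add_left] at this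

theorem dd_zm (u : Ec n → F) (i : Fin n) : dd i (fun x => u (zm p t x)) x = t • dd i u (zm p t x) := by
  simp only [dd, fderiv_zm, ContinuousLinearMap.smul_apply]

theorem dd_cs (c : ℝ) (u : Ec n → F) (i : Fin n) : dd i (fun x => c • u x) x = c • dd i u x := by
  have := congrFun (fderiv_const_smul_field (𝕜 := ℝ) (f := u) c) x
  exact congrArg (fun f => f (bv i)) this

theorem dd_sub_const (c : F) (u : Ec n → F) (i : Fin n) : dd i (fun x => u x - c) x = dd i u x := by
  simp only [dd, fderiv_sub_const]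

theorem ap_cs (L : Nf n N) (c : ℝ) (u : Ec n → Fb N) (x : Ec n) :
    L.ap (fun x => c • u x) x = c • L.ap u x := by
  have h1 : ∀ k, dd k (fun x => c • u x) = fun x => c • dd k u x := fun k => funext fun _ => dd_cs ..
  simp only [Nf.ap, h1, dd_cs, smul_add, Finset.smul_sum, ContinuousLinearMap.map_smul_of_tower,
    smul_comm c]

theorem ap_sub_const (L : Nf n N) (c : Fb N) (u : Ec n → Fb N) (x : Ec n) :
    L.ap (fun x => u x - c) x = L.ap u x := by
  have h1 : ∀ k, dd k (fun x => u x - c) = dd k u := fun k => funext fun _ => dd_sub_const ..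
  simp only [Nf.ap, h1]

theorem ap_zm (L : Nf n N) (u : Ec n → Fb N) (x : Ec n) :
    (L.zm p t).ap (fun x => u (zm p t x)) x = t ^ 2 • L.ap u (zm p t x) := by
  have h1 : ∀ k, dd k (fun x => u (zm p t x)) = fun x => t • dd k u (zm p t x) :=
    fun k => funext fun _ => dd_zm ..
  simp only [Nf.ap, Nf.zm, h1, dd_cs, dd_zm (dd _ u), smul_add, Finset.smul_sum,
    ContinuousLinearMap.map_smul_of_tower, ContinuousLinearMap.smul_apply, smul_smul, sq]
  simp only [mul_comm, mul_left_comm, mul_assoc]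

theorem ap_congr (L : Nf n N) {u w : Ec n → Fb N} (h : u =ᶠ[𝓝 x] w) : L.ap u x = L.ap w x := by
  simp only [Nf.ap, dd_congr h, fun j k => dd_congr (i := j) (dd_ev (i := k) h)]

theorem ap_off (L : Nf n N) {u : Ec n → Fb N} (h : x ∉ tsupport u) : L.ap u x = 0 := by
  rw [ap_congr L (notMem_tsupport_iff_eventuallyEq.1 h)]
  have h1 : ∀ k, dd k (0 : Ec n → Fb N) = fun _ => 0 := fun k => funext fun _ => dd_const 0
  simp only [Nf.ap, h1, dd_const, smul_zero, map_zero, Finset.sum_const_zero, add_zero]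

theorem et_zi {U U' : Set (Ec n)} {F : Ec n → Fb N} (ht : t ≠ 0) (hF : ET U' F)
    (hU : MapsTo (zm p t) U' U) : ET U fun z => F (zi p t z) := by
  have hc := hF.2.1.image (zm_sm p t).continuous
  have hs : tsupport (fun z => F (zi p t z)) ⊆ zm p t '' tsupport F :=
    closure_minimal (fun z hz => ⟨_, subset_tsupport F hz, zm_zi ht z⟩) hc.isClosed
  exact ⟨hF.1.comp (zi_sm p t), hc.of_isClosed_subset (isClosed_tsupport _) hs,
    hs.trans (image_subset_iff.2 fun x hx => hU (hF.2.2 hx))⟩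

theorem L2b.mono {G : (Ec n → Fb N) → Ec n → Fb N} {y : Ec n} {r Λ Λ' : ℝ} (h : L2b G y r Λ)
    (hΛ : |Λ| ≤ Λ') : L2b G y r Λ' := fun F hF =>
  (h F hF).trans (mul_le_mul_left (ENNReal.ofReal_le_ofReal (by
    rw [← sq_abs]; exact pow_le_pow_left₀ (abs_nonneg _) hΛ 2)) _)

end Vale.Agent.P088.Gl
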