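import Vale.Agent.P088F.LZm0

/-! P088, part L: zoomed functions are small. -/

open MeasureTheory Set Filter Metric Topology Matrix
open scoped ContDiff ENNReal

noncomputable section

namespace Vale.Agent.P088.Gl

variable {n : ℕ} {F : Type} [NormedAddCommGroup F] [NormedSpace ℝ F] {f : Ec n → F} {ρ ε R : ℝ}

/-- `iteratedFDeriv_comp_add_left` and `ContinuousLinearEquiv.iteratedFDerivWithin_comp_right` with
`s = univ` (the dilation as a continuous linear equivalence; `t = 0` can be excluded). -/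
theorem iter_zm (f : Ec n → F) (p x : Ec n) {t : ℝ} (ht : 0 < t) (i : ℕ) :
    ‖iteratedFDeriv ℝ i (fun x => f (zm p t x)) x‖ ≤ t ^ i * ‖iteratedFDeriv ℝ i f (zm p t x)‖ := by
  let g : Ec n ≃L[ℝ] Ec n := ContinuousLinearEquiv.equivOfInverse
    (t • ContinuousLinearMap.id ℝ (Ec n)) (t⁻¹ • ContinuousLinearMap.id ℝ (Ec n))
    (fun y => by simp [smul_smul, ht.ne']) (fun y => by simp [smul_smul, ht.ne'])
  have h := g.iteratedFDerivWithin_comp_right (s := univ) (fun y => f (p + y)) uniqueDiffOn_univ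
    (x := x) (mem_univ _) i
  rw [preimage_univ, iteratedFDerivWithin_univ, iteratedFDerivWithin_univ,
    iteratedFDeriv_comp_add_left] at h
  have e : (fun x => f (zm p t x)) = (fun y => f (p + y)) ∘ g := rfl
  have hg : ‖(g : Ec n →L[ℝ] Ec n)‖ ≤ t :=
    ContinuousLinearMap.opNorm_le_bound _ ht.le fun y => by
      show ‖t • y‖ ≤ _
      rw [norm_smul, Real.norm_of_nonneg ht.le]
  rw [e, h, mul_comm]
  refine (ContinuousMultilinearMap.norm_compContinuousLinearMap_le _ _).trans ?_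
  refine mul_le_mul_of_nonneg_left ?_ (norm_nonneg _)
  rw [Finset.prod_const, Finset.card_univ, Fintype.card_fin]
  exact pow_le_pow_left₀ (norm_nonneg _) hg i

/-- Derivatives of order at most `K` are bounded on `closedBall 0 (ρ / 2)`. -/
theorem iter_bd (hρ : 0 < ρ) (hf : ContDiffOn ℝ ∞ f (ball 0 ρ)) (K : ℕ) :
    ∃ M, 0 ≤ M ∧ ∀ i ≤ K, ∀ z : Ec n, ‖z‖ ≤ ρ / 2 → ‖iteratedFDeriv ℝ i f z‖ ≤ M := by
  have h : ∀ i : ℕ, ∃ M, ∀ z ∈ closedBall (0 : Ec n) (ρ / 2), ‖iteratedFDeriv ℝ i f z‖ ≤ M :=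
    fun i => (isCompact_closedBall _ _).exists_bound_of_continuousOn
      ((ContinuousOn.continuousOn_iteratedFDeriv hf isOpen_ball (by exact_mod_cast le_top)).mono
        (closedBall_subset_ball (by linarith)))
  choose M hM using h
  refine ⟨∑ i ∈ Finset.range (K + 1), |M i|, Finset.sum_nonneg fun i _ => abs_nonneg _,
    fun i hi z hz => ?_⟩
  refine (hM i z (mem_closedBall_zero_iff.2 hz)).trans ((le_abs_self _).trans ?_)
  exact Finset.single_le_sum (f := fun i => |M i|) (fun i _ => abs_nonneg _)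
    (Finset.mem_range.2 (Nat.lt_succ_of_le hi))

theorem lzm1_ev {c δ : ℝ} (hδ : 0 < δ) : ∀ᶠ t in 𝓝[>] (0 : ℝ), t * c < δ := by
  have h : Tendsto (fun t : ℝ => t * c) (𝓝 0) (𝓝 (0 * c)) :=
    (continuous_id.mul continuous_const).tendsto 0
  rw [zero_mul] at h
  exact (h.eventually (gt_mem_nhds hδ)).filter_mono nhdsWithin_le_nhds

/-- Order zero: continuity at `0` and `norm_zm`; order `i ≥ 1`: `t ^ i * M ≤ t * M`. -/
theorem sml_zm0 (hρ : 0 < ρ) (hf : ContDiffOn ℝ ∞ f (ball 0 ρ)) (h0 : f 0 = 0) (K : ℕ)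
    (hε : 0 < ε) (hR : 0 < R) :
    ∀ᶠ t in 𝓝[>] (0 : ℝ), ∀ p : Ec n, ‖p‖ ≤ t * R → Sml K ε R fun x => f (zm p t x) := by
  obtain ⟨M, hM0, hM⟩ := iter_bd hρ hf K
  have hc : ContinuousAt f 0 := hf.continuousOn.continuousAt (ball_mem_nhds _ hρ)
  obtain ⟨δ, hδ, hδ'⟩ := Metric.continuousAt_iff.1 hc ε hε
  filter_upwards [lzm1_ev (c := 2 * R) hδ, lzm1_ev (c := 2 * R) (half_pos hρ), lzm1_ev (c := M) hε,
    lzm1_ev (c := 1) one_pos, self_mem_nhdsWithin] with t h1 h2 h3 h4 ht p hp i hi z hz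
  have ht' : 0 < t := ht
  have hn := norm_zm ht' hp hz
  rcases Nat.eq_zero_or_pos i with rfl | hi0
  · rw [norm_iteratedFDeriv_zero]
    have := hδ' (x := zm p t z) (by rw [dist_zero_right]; linarith)
    rw [h0, dist_zero_right] at this
    exact this.le
  · refine (iter_zm f p z ht' i).trans (le_trans ?_ h3.le)
    exact mul_le_mul (pow_le_of_le_one ht'.le (by linarith) hi0.ne') (hM i hi _ (by linarith))
      (norm_nonneg _) ht'.le

theorem sml_zm1 (hρ : 0 < ρ) (hf : ContDiffOn ℝ ∞ f (ball 0 ρ)) (K : ℕ) (hε : 0 < ε)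
    (hR : 0 < R) :
    ∀ᶠ t in 𝓝[>] (0 : ℝ), ∀ p : Ec n, ‖p‖ ≤ t * R → Sml K ε R fun x => t • f (zm p t x) := by
  obtain ⟨M, hM0, hM⟩ := iter_bd hρ hf K
  filter_upwards [lzm1_ev (c := 2 * R) (half_pos hρ), lzm1_ev (c := M) hε,
    lzm1_ev (c := 1) one_pos, self_mem_nhdsWithin] with t h2 h3 h4 ht p hp i hi z hz
  have ht' : 0 < t := ht
  have hn := norm_zm ht' hp hz
  have hs : ContDiffAt ℝ i (fun x => f (zm p t x)) z :=
    ((hf.contDiffAt (isOpen_ball.mem_nhds (mem_ball_zero_iff.2 (by linarith)))).comp z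
      (zm_sm p t).contDiffAt).of_le (by exact_mod_cast le_top)
  rw [iteratedFDeriv_const_smul_apply' hs, norm_smul, Real.norm_of_nonneg ht'.le]
  refine le_trans (mul_le_mul_of_nonneg_left ((iter_zm f p z ht' i).trans ?_) ht'.le) h3.le
  calc t ^ i * ‖iteratedFDeriv ℝ i f (zm p t z)‖ ≤ 1 * M :=
        mul_le_mul (pow_le_one₀ ht'.le (by linarith)) (hM i hi _ (by linarith)) (norm_nonneg _)
          zero_le_one
    _ = M := one_mul M

/-- The derivative of the function is `fun x => fderiv ℝ f (zm p t x)` everywhere (`fderiv_zm`,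
`fderiv_const_smul_field`); apply `sml_zm0` to `fderiv ℝ f` with `ε / (R + 1)`, use
`norm_iteratedFDeriv_fderiv` for orders `i + 1` and the mean value inequality on `ball 0 R` for
order zero (the function vanishes at `0`). -/
theorem sml_zm2 (hρ : 0 < ρ) (hf : ContDiffOn ℝ ∞ f (ball 0 ρ)) (h0 : fderiv ℝ f 0 = 0) (K : ℕ)
    (hε : 0 < ε) (hR : 0 < R) :
    ∀ᶠ t in 𝓝[>] (0 : ℝ), ∀ p : Ec n, ‖p‖ ≤ t * R →
      Sml K ε R fun x => t⁻¹ • (f (zm p t x) - f p) := by
  have hR1 : 0 < R + 1 := by linarith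
  have hε1 : ε / (R + 1) ≤ ε := div_le_self hε.le (by linarith)
  filter_upwards [sml_zm0 hρ (hf.fderiv_of_isOpen isOpen_ball le_rfl) h0 K (div_pos hε hR1) hR,
    lzm1_ev (c := 2 * R) hρ, self_mem_nhdsWithin] with t h1 h2 ht p hp i hi z hz
  have ht' : 0 < t := ht
  have hd : fderiv ℝ (fun x => t⁻¹ • (f (zm p t x) - f p)) = fun x => fderiv ℝ f (zm p t x) := by
    funext x
    have e := congrFun (fderiv_const_smul_field (𝕜 := ℝ) (f := fun x => f (zm p t x) - f p) t⁻¹) x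
    refine e.trans ?_
    rw [Pi.smul_apply, fderiv_sub_const, fderiv_zm, smul_smul, inv_mul_cancel₀ ht'.ne', one_smul]
  rcases i with _ | i
  · rw [norm_iteratedFDeriv_zero]
    have hdf : ∀ x ∈ ball (0 : Ec n) R,
        DifferentiableAt ℝ (fun x => t⁻¹ • (f (zm p t x) - f p)) x := fun x hx => by
      have hn := norm_zm ht' hp hx
      have hs : DifferentiableAt ℝ (fun x => f (zm p t x)) x :=
        ((hf.contDiffAt (isOpen_ball.mem_nhds (mem_ball_zero_iff.2 (by linarith)))).comp x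
          (zm_sm p t).contDiffAt).differentiableAt (by simp)
      exact (hs.sub_const _).const_smul t⁻¹
    have h3 := (convex_ball (0 : Ec n) R).norm_image_sub_le_of_norm_fderiv_le (C := ε / (R + 1))
      hdf (fun x hx => by
        have := h1 p hp 0 (Nat.zero_le _) x hx
        rwa [norm_iteratedFDeriv_zero, ← congrFun hd x] at this) (mem_ball_self hR) hz
    simp only [zm, smul_zero, add_zero, sub_self, sub_zero] at h3
    refine le_trans h3 ?_
    have h4 := mem_ball_zero_iff.1 hz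
    calc ε / (R + 1) * ‖z‖ ≤ ε / (R + 1) * (R + 1) :=
          mul_le_mul_of_nonneg_left (by linarith) (div_pos hε hR1).le
      _ = ε := div_mul_cancel₀ _ hR1.ne'
  · rw [← norm_iteratedFDeriv_fderiv, hd]
    exact (h1 p hp i (by omega) z hz).trans hε1

end Vale.Agent.P088.Gl
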