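import Vale.Agent.P088F.PA
import Vale.Agent.P088F.CD2

/-! P088, part A: the local Carleman estimate. -/

open scoped ContDiff Topology
open Set Filter MeasureTheory Metric

noncomputable section

namespace Vale.Agent.P088F

open Vale.Agent.P292E Vale.Agent.P088

variable {n : ℕ} {ι : Type} [Fintype ι]

/-- From an admissible weight to the Carleman estimate for the system. -/
theorem pa_fin {L : Op n ι} {α γ : V n → ℝ} {s : Set (V n)} {m M' M B τ : ℝ} (hL : L.Sm)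
    (hm : 0 < m) (hM : 0 ≤ M') (h : ∀ x ∈ s, Car.Adm ee L.g (fun y => -α y) γ m M' x)
    (hB : ∀ x ∈ s, ∀ i j, |Car.dd (ee i) (L.g i j) x| ≤ B)
    (ha : ∀ x ∈ s, ∀ j l k, ‖L.a j l k x‖ ≤ M) (hc : ∀ x ∈ s, ∀ l k, ‖L.c l k x‖ ≤ M)
    (h1 : 1 ≤ τ) (h2 : M' ≤ τ) (h3 : M' + M' / m ≤ τ * m)
    (h4 : (2 * (2 * (Fintype.card ι) ^ 2 * (n + 1) * M ^ 2) + 2 * n ^ 3 * B ^ 2) * (8 * M' + 8) ≤
      τ * m) {v : Fam n ι} (hv : TstF s v) :
    ∫ x, Real.exp (-2 * τ * α x) * ∑ l, (τ ^ 3 * ‖v l x‖ ^ 2 + τ * ∑ j, ‖pd j (v l) x‖ ^ 2) ≤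
      (16 * M' + 16) / m * 2 * ∫ x, Real.exp (-2 * τ * α x) * ∑ l, ‖L.ap v l x‖ ^ 2 := by
  have hK : IsCompact (⋃ l, tsupport (v l)) := isCompact_iUnion fun l => (hv l).2.1
  have hKs : ⋃ l, tsupport (v l) ⊆ s := iUnion_subset fun l => (hv l).2.2
  have v1 : ∀ l x, Car.SA (v l) x := fun l x => (hv l).1.contDiffAt
  have v0 : ∀ l, ∀ x ∉ ⋃ l, tsupport (v l), v l x = 0 := fun l x hx =>
    image_eq_zero_of_notMem_tsupport fun h' => hx (mem_iUnion.2 ⟨l, h'⟩)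
  have z : ∀ x ∉ ⋃ l, tsupport (v l), Real.exp (2 * τ * -α x) * (2 * Car.n0 (L.ap v) x) = 0 :=
    fun x hx => by simp [Car.n0, pa_zero hK.isClosed v0 _ x hx]
  have k := Car.carl_nd volume Car.sq_complex hK (fun x hx => h x (hKs hx)) (fun l x _ => v1 l x)
    v0 hm hM (by positivity) (fun x hx => hB x (hKs hx)) h1 h2 h3 (by rwa [Fintype.card_fin])
    (r := fun x => 2 * Car.n0 (L.ap v) x)
    (Car.int_loc volume hK (fun x hx => (contDiffAt_const.mul (h x (hKs hx)).sφ).exp.mul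
      (contDiffAt_const.mul (Car.sq_complex.sa0 (pa_sa hL fun l => v1 l x)))) z).integrableOn
    fun x hx => pa_low (ha x (hKs hx)) (hc x (hKs hx))
  rw [setIntegral_eq_integral_of_forall_compl_eq_zero z] at k
  refine (le_of_eq ?_).trans (k.trans (le_of_eq ?_))
  · refine integral_congr_ae (.of_forall fun x => ?_)
    simp only [Finset.sum_add_distrib, ← Finset.mul_sum, mul_neg, neg_mul]
    rw [add_comm]
    rfl
  · rw [mul_assoc, ← integral_const_mul 2]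
    congr 2
    funext x
    simp only [mul_neg, neg_mul, Car.n0]
    ring

theorem pa_perp {g : Mf n} {α : V n → ℝ} {x : V n} {c : ℝ} (a1 : ∀ i j, Car.SA (g i j) x)
    (a2 : ∀ i j, g i j x = g j i x) (a3 : Car.SA α x) (h : Sup g α x c) (ξ : Fin n → ℝ)
    (hξ : ∑ k, Car.fx ee g (fun y => -α y) k x * ξ k = 0) :
    2 * c * Car.sq2 ξ ≤ Car.hh ee g (fun y => -α y)
      (Car.zz ee g (fun y => -α y) x / Car.qq ee g (fun y => -α y) x) 0 ξ x := by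
  simp only [Car.fx_neg, neg_mul, Finset.sum_neg_distrib, neg_eq_zero] at hξ
  have h2 := h.2 (WithLp.toLp 2 ξ) ((pa_X a2 _).symm.trans hξ)
  have h3 := pa_LL a1 a2 a3 (WithLp.toLp 2 ξ)
  have h4 : Car.zz ee g α x = 2 * hs g α x (gr α x) :=
    (Car.zz_eq a1 a2 a3).trans (pa_LL a1 a2 a3 (gr α x))
  have h5 : Car.qq ee g α x = ip g x (gr α x) (gr α x) := Car.qq_eq _ _ _
  have h6 : Car.qf g x ξ ξ = ip g x (WithLp.toLp 2 ξ) (WithLp.toLp 2 ξ) := rfl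
  rw [← pa_sq2] at h2
  simp only [Car.hh, Car.LL_neg, Car.zz_neg, Car.qq_neg, h4, h5, h6, zero_mul, add_zero]
  dsimp only at h2 h3
  rw [h3]
  rw [mul_div_right_comm] at h2
  rw [neg_div, mul_div_assoc]
  linarith

/-- The data of a weight near a point. -/
def PaT (n : ℕ) (M c : ℝ) : Type :=
  {q : Mf n × (V n → ℝ) × V n // (∀ i j, ContDiff ℝ ∞ (q.1 i j)) ∧
    (∀ i j x, q.1 i j x = q.1 j i x) ∧ (∀ j k, Bd 3 (q.1 j k) univ M) ∧
    (∀ x ξ, c * ‖ξ‖ ^ 2 ≤ ip q.1 x ξ ξ) ∧ ContDiff ℝ ∞ q.2.1 ∧ Bd 4 q.2.1 (ball q.2.2 1) M ∧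
    Sup q.1 q.2.1 q.2.2 c}

theorem pa_loc (n : ℕ) (M : ℝ) {c : ℝ} (hc : 0 < c) : ∃ (γ : PaT n M c → ℝ) (d m M' : ℝ),
    0 < d ∧ d ≤ 1 ∧ 0 < m ∧ 0 < M' ∧ ∀ s : PaT n M c, ∀ x ∈ ball s.1.2.2 d,
      Car.Adm ee s.1.1 (fun y => -s.1.2.1 y) (fun _ => γ s) m M' x := by
  have ua : ∀ i j, Car.UB ee (fun s : Car.Bl (fun s : PaT n M c => s.1.2.2) 1 => s.1.2) 2
      fun s => s.1.1.1.1 i j := fun i j => Car.ub_of_bd (fun s => (s.1.1.2.1 i j).contDiffAt)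
        fun s k hk => s.1.1.2.2.2.1 i j k (by omega) _ trivial
  have uφ : Car.UB ee (fun s : Car.Bl (fun s : PaT n M c => s.1.2.2) 1 => s.1.2) 3
      fun s y => -s.1.1.1.2.1 y :=
    ((Car.ub_c (-1)).mul (Car.ub_of_bd (fun s => s.1.1.2.2.2.2.2.1.contDiffAt)
      fun s k hk => s.1.1.2.2.2.2.2.2.1 k (by omega) _ s.2)).congr
      fun _ => .of_forall fun _ => neg_one_mul _
  have hq : ∀ s : PaT n M c, c * c ^ 2 ≤ Car.qq ee s.1.1 (fun y => -s.1.2.1 y) s.1.2.2 := fun s => by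
    rw [Car.qq_neg, Car.qq_eq]
    refine le_trans ?_ (s.2.2.2.2.1 _ (gr s.1.2.1 s.1.2.2))
    gcongr
    exact s.2.2.2.2.2.2.2.1
  obtain ⟨Λ, h1⟩ := Car.psc_of_perp (p := fun s : PaT n M c => s.1.2.2) (a := fun s => s.1.1)
    (φ := fun s y => -s.1.2.1 y)
    (fun i j => (ua i j).pred.comp fun s : PaT n M c => ⟨(s, s.1.2.2), mem_ball_self one_pos⟩)
    (uφ.pred.comp fun s : PaT n M c => ⟨(s, s.1.2.2), mem_ball_self one_pos⟩) hc (by positivity) hq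
    fun s => pa_perp (fun i j => (s.2.1 i j).contDiffAt) (fun i j => s.2.2.1 i j _)
      s.2.2.2.2.2.1.contDiffAt s.2.2.2.2.2.2.2
  exact Car.adm_loc (p := fun s : PaT n M c => s.1.2.2) (a := fun s => s.1.1)
    (φ := fun s y => -s.1.2.1 y) (Car.he_es n) one_pos ua (fun s i j x _ => s.2.2.1 i j x) uφ
    (half_pos hc) (by positivity) hq h1

theorem pa_d1 {f : V n → ℝ} {x : V n} {M : ℝ} (h : ‖iteratedFDeriv ℝ 1 f x‖ ≤ M) (i : Fin n) :
    |Car.dd (ee i) f x| ≤ M := by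
  rw [norm_iteratedFDeriv_one] at h
  refine ((fderiv ℝ f x).le_opNorm (ee i)).trans ?_
  simpa [ee] using h

theorem scl : SCl n ι := by
  intro M c hc
  obtain ⟨γ, d, m, M', hd, hd1, hm, hM, h⟩ := pa_loc n M hc
  refine ⟨d, max (max 1 M') (max ((M' + M' / m) / m)
    ((2 * (2 * (Fintype.card ι) ^ 2 * (n + 1) * M ^ 2) + 2 * n ^ 3 * M ^ 2) * (8 * M' + 8) / m)),
    (16 * M' + 16) / m * 2, hd, hd1, (le_max_left _ _).trans (le_max_left _ _), by positivity,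
    fun L α x₀ hL hb hα hα' hsup τ hτ v hv => ?_⟩
  simp only [max_le_iff, div_le_iff₀ hm] at hτ
  exact pa_fin hL hm hM.le (h ⟨(L.g, α, x₀), hL.g, hL.symm, hb.g, hb.ell, hα, hα', hsup⟩)
    (fun x _ i j => pa_d1 (hb.g i j 1 (by omega) x trivial) i)
    (fun x _ j l k => by simpa using hb.a j l k 0 (by omega) x trivial)
    (fun x _ l k => by simpa using hb.c l k 0 (by omega) x trivial) hτ.1.1 hτ.1.2 hτ.2.1 hτ.2.2 hv

end Vale.Agent.P088F
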