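import Vale.Agent.P088F.DStep
import Vale.Agent.P088F.DPush
import Vale.Agent.P088F.DEc
import Vale.Agent.P088F.DS1a
import Vale.Agent.P088F.DS1
import Vale.Agent.P088F.DS2
import Vale.Agent.P088F.DS3

/-! P088F, part D. -/

namespace Vale.Agent.P088F

variable {n : ℕ} {ι : Type} [Fintype ι] [DecidableEq ι] [NeZero n]

theorem d1 (hn : 3 ≤ n) (hs : SLAB n ι) (hu : UCP n ι) (ht : TB n ι) : D1 n ι :=
  have hf := Dd.fpush ht (Dd.push (Dd.step hs hu))
  Dd.d1_of ht (Dd.s2 hf (Dd.s1 hu (Dd.s1a hn hu (Dd.ec hf))))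

theorem stepE (hq : PQ n ι) (hs : SLAB n ι) (hu : UCP n ι) (ht : TB n ι) : StepE n ι :=
  Dd.stepE_of ht hq (Dd.push (Dd.step hs hu))

end Vale.Agent.P088F
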