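import Vale.Agent.P088F.FC7a
import Vale.Agent.P088F.FTh
import Vale.Agent.P088F.FIE
import Vale.Agent.P088F.FTA
import Vale.Agent.P088F.FTAK
import Vale.Agent.P088F.FFwd
import Vale.Agent.P088F.FCom
import Vale.Agent.P088F.FCo
import Vale.Agent.P088F.FCi
import Vale.Agent.P088F.FCut
import Vale.Agent.P088F.FKb
import Vale.Agent.P088F.FSrc
import Vale.Agent.P088F.FFar
import Vale.Agent.P088F.FAbs
import Vale.Agent.P088F.FMid
import Vale.Agent.P088F.FEnd

/-! P088F, part F: the bound on the new domain. -/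

namespace Vale.Agent.P088F

open Fw

variable {n : ℕ} {ι : Type} [Fintype ι] [DecidableEq ι] [NeZero n]

theorem stepW (se : StepE n ι) (cb : C7B n ι) (sc : SC n ι) (ie : IE n ι) (tb : TB n ι) :
    StepW n ι :=
  have tk : TAK n ι := tak (three_ann c7a (iel ie tb))
  have sr : SRC n ι := src (ies ie tb) tb (kb (ies ie tb) tb)
  have fa : FAR n ι := far (fwd sc tb) sr
  stepW_of se (iel ie tb) (mid tb tk sr fa (absorb tb (cut cb tb ths com co (ci n)) tk sr fa))

end Vale.Agent.P088F
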