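import Vale.Agent.P088F.PL0b

/-! P088F: the local theorem in normal form. -/

open scoped ContDiff Topology ENNReal
open Set Filter MeasureTheory Metric

noncomputable section

namespace Vale.Agent.P088F

open Vale.Agent.P292E

variable {n : ℕ} {ι : Type} [Fintype ι] [DecidableEq ι]

theorem l0_fund {O : Set (V n)} (hO : IsOpen O) {f g : V n → ℂ} (hf : ContinuousOn f O)
    (hg : ContinuousOn g O) (h : ∀ φ, Tst O φ → ∫ y, f y * φ y = ∫ y, g y * φ y) : EqOn f g O := by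
  have h1 : ContinuousOn (f - g) O := hf.sub hg
  have h2 : ∀ᵐ y, y ∈ O → (f - g) y = 0 := by
    refine hO.ae_eq_zero_of_integral_contDiff_smul_eq_zero (h1.locallyIntegrableOn hO.measurableSet)
      fun φ a1 a2 a3 => ?_
    have t : Tst O fun y => (φ y : ℂ) := ⟨Complex.ofRealCLM.contDiff.comp a1,
      a2.comp_left Complex.ofReal_zero, (tsupport_comp_subset Complex.ofReal_zero φ).trans a3⟩
    have i : ∀ {u : V n → ℂ}, ContinuousOn u O → Integrable fun y => u y * (φ y : ℂ) := by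
      intro u hu
      refine Continuous.integrable_of_hasCompactSupport ?_ t.2.1.mul_left
      refine ((hu.mul t.1.continuous.continuousOn).continuous_of_tsupport_subset hO ?_)
      exact (tsupport_mul_subset_right).trans t.2.2
    have := h _ t
    rw [← sub_eq_zero, ← integral_sub (i hf) (i hg)] at this
    rw [← this]
    refine integral_congr_ae (.of_forall fun y => ?_)
    simp only [Pi.sub_apply, Complex.real_smul]; ring
  have h3 : EqOn (f - g) 0 O := Measure.eqOn_open_of_ae_eq (μ := volume)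
    ((ae_restrict_iff' hO.measurableSet).2 h2) hO h1 continuousOn_const
  exact fun y hy => sub_eq_zero.1 (h3 hy)

theorem l0_ker {L L' : Op n ι} {B O : Set (V n)} {G G' : Fam n ι → Fam n ι} {K K' : Kr n ι}
    (hO : IsOpen O) (hs : O ⊆ B) (k : Ker L B K) (k' : Ker L' B K') (r : Rp G B K)
    (r' : Rp G' B K') (h : ∀ F, TstF O F → ∀ l, ∀ x ∈ O, G F l x = G' F l x) {x y : V n}
    (hx : x ∈ O) (hy : y ∈ O) (hxy : x ≠ y) (l m : ι) : K l m x y = K' l m x y := by
  have c : ∀ {L : Op n ι} {K : Kr n ι}, Ker L B K → ContinuousOn (K l m x) (O \ {x}) := fun k =>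
    (k.sol.sm l m).continuousOn.comp (f := fun y => (x, y)) (by fun_prop)
      fun z hz => ⟨hs hx, hs hz.1, fun e => hz.2 e.symm⟩
  refine l0_fund (hO.sdiff isClosed_singleton) (c k) (c k') (fun φ hφ => ?_) ⟨hy, hxy.symm⟩
  have t : TstF O (Pi.single m φ : Fam n ι) := fun i => by
    by_cases e : i = m
    · subst e
      rw [Pi.single_eq_same]
      exact ⟨hφ.1, hφ.2.1, hφ.2.2.trans sdiff_subset⟩
    · rw [Pi.single_eq_of_ne e]
      exact ⟨contDiff_const, HasCompactSupport.zero, by simp⟩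
  have z : ∀ᶠ y in 𝓝 x, ∀ i, (Pi.single m φ : Fam n ι) i y = 0 := by
    have : x ∉ tsupport φ := fun a => (hφ.2.2 a).2 rfl
    filter_upwards [notMem_tsupport_iff_eventuallyEq.1 this] with y hy i
    by_cases e : i = m
    · subst e; simpa using hy
    · simp [Pi.single_eq_of_ne e]
  have s : ∀ (K : Kr n ι) y, ∑ i, K l i x y * (Pi.single m φ : Fam n ι) i y = K l m x y * φ y :=
    fun K y => by
      rw [Finset.sum_eq_single m (fun i _ e => by simp [Pi.single_eq_of_ne e]) (by simp),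
        Pi.single_eq_same]
  have := h _ t l x hx
  rw [r _ (t.mono hs) x (hs hx) z, r' _ (t.mono hs) x (hs hx) z] at this
  simpa only [s] using this

variable [NeZero n]

theorem ux_open : IsOpen (Ux n) := isOpen_lt (by fun_prop) continuous_const

theorem lt0 (hE : KE n ι) (hD : KD n ι) (hT : TB n ι) (hK : LTK n ι) : LT0 n ι := by
  obtain ⟨c₀, K, hD⟩ := hD
  obtain ⟨R, hR, hK⟩ := hK c₀
  obtain ⟨-, -, -, -, ⟨ε₀, hε₀, hT⟩, -⟩ := hT
  refine ⟨R + 1, by linarith, fun Λ => ?_⟩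
  obtain ⟨C, hC, hD⟩ := hD 2 (1 / 2) R Λ (by norm_num)
  obtain ⟨K', ε', c, hε', hc, hcR, hK⟩ := hK (C + |Λ|)
  refine ⟨max K K', min ε₀ ε', c, by positivity, hc, by linarith,
    fun d G1 l₀ s s' s1 s2 n1 n2 hU g1 g2 hG hn => ?_⟩
  obtain ⟨K1, k1, r1⟩ := hE _ _ _ _ s1 isOpen_ball g1
  obtain ⟨K2, k2, r2⟩ := hE _ _ _ _ s2 isOpen_ball g2
  have hs : ball (0 : V n) R ⊆ ball 0 (R + 1) := ball_subset_ball (by linarith)
  have b : ∀ {L : Op n ι} {G : Fam n ι → Fam n ι} {Kk : Kr n ι}, L.Sm →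
      L.Near (max K K') (min ε₀ ε') → LG L (ball 0 (R + 1)) G Λ → Ker L (ball 0 (R + 1)) Kk →
      Rp G (ball 0 (R + 1)) Kk → ∀ p ∈ offd (ball (0 : V n) R), ∀ l m,
        ‖Kk l m p.1 p.2‖ ≤ (C + |Λ|) / ‖p.1 - p.2‖ ^ c₀ := fun a1 a2 a3 a4 a5 p hp l m => by
    refine (hD _ _ _ a1 (hT K _ _ a1 (min_le_left _ ε') (a2.mono (le_max_left _ _) le_rfl)) a3 a4
      a5 p hp l m).trans ?_
    gcongr
    linarith [abs_nonneg Λ]
  have hn' := hn.mono (le_max_right _ _) (min_le_right _ _) (by linarith : R ≤ R + 1)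
  refine hK ⟨d.L1, d.L2, K1, K2, d.G2⟩ l₀ s s' ⟨s1, s2, n1.mono (le_max_right _ _)
    (min_le_right _ _), n2.mono (le_max_right _ _) (min_le_right _ _), hU, k1.mono hs, k2.mono hs,
    g2.mono hs ?_, by positivity, b s1 n1 g1 k1 r1, b s2 n2 g2 k2 r2, fun p hp h1 h2 l m => ?_⟩
    ⟨hn'.g1, hn'.g2, hn'.c1, hn'.c2, hn'.s1, hn'.s2, hn'.eqU, hn'.re, hn'.nr1, hn'.nr2⟩
  · rw [← sq_abs Λ]
    exact pow_le_pow_left₀ (abs_nonneg _) (by linarith) 2
  · exact l0_ker (isOpen_ball.inter ux_open) inter_subset_left k1 k2 r1 r2 hG ⟨hs hp.1, h1⟩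
      ⟨hs hp.2.1, h2⟩ hp.2.2 l m

end Vale.Agent.P088F
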