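import Vale.Agent.P088F.Mono

/-! P088F: one step of the iteration, elementary inequalities. -/

open scoped ContDiff Topology ENNReal
open Set Filter MeasureTheory Metric

noncomputable section

namespace Vale.Agent.P088F

open Vale.Agent.P292E

variable {n : ℕ} {ι : Type} [NeZero n]

/-- the next parameters -/
structure Par.Nx (P P' : Par) (ℓ : ℝ) : Prop where
  κ : P'.κ = P.κ
  N : P'.N = 4 * P.N
  B : P'.B = P.B ^ 2
  a : P'.a = P.a - (ℓ + 10) / P.N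
  e : P.B = Real.exp (-ℓ)
  l : 11 ≤ ℓ
  N0 : 0 < P.N

theorem l0a_exp : 400 * Real.exp (-(19 / 2)) ≤ 1 := by
  have h1 : (2.7 : ℝ) < Real.exp 1 := lt_trans (by norm_num) Real.exp_one_gt_d9
  have h2 : (400 : ℝ) ≤ Real.exp (19 / 2) := by
    have : Real.exp 7 ≤ Real.exp (19 / 2) := Real.exp_le_exp.2 (by norm_num)
    have h3 : Real.exp 7 = Real.exp 1 ^ 7 := by rw [← Real.exp_nat_mul]; norm_num
    have h4 : (2.7 : ℝ) ^ 7 ≤ Real.exp 1 ^ 7 := pow_le_pow_left₀ (by norm_num) h1.le 7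
    norm_num at h4
    linarith
  rw [Real.exp_neg, ← div_eq_mul_inv, div_le_one (Real.exp_pos _)]
  exact h2

namespace Par.Nx

variable {P P' : Par} {ℓ : ℝ}

theorem B0 (h : P.Nx P' ℓ) : 0 < P.B := h.e ▸ Real.exp_pos _

theorem b_eq (h : P.Nx P' ℓ) (x : V n) :
    P.b x = P.B ^ 2 * Real.exp (P.N * (psi P.κ x - P'.a) - 10) := by
  have hN := h.N0.ne'
  have : P.N * (psi P.κ x - P.a) = -ℓ + (P.N * (psi P.κ x - P'.a) - 10) := by
    rw [h.a]; field_simp; ring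
  rw [Par.b, this, Real.exp_add, ← h.e]; ring

theorem lt_of (h : P.Nx P' ℓ) {t : ℝ} (ht : t < P'.a + 2 / P'.N) : t < P.a - 3 / P.N := by
  have hN := h.N0
  have hl := h.l
  have : P'.a + 2 / P'.N = P.a - 3 / P.N - (ℓ + 13 / 2) / P.N := by
    rw [h.a, h.N]; field_simp; ring
  have : 0 < (ℓ + 13 / 2) / P.N := by positivity
  linarith

theorem b_le (h : P.Nx P' ℓ) {x : V n} (hx : psi P.κ x < P'.a + 2 / P'.N) :
    4 * P.b x ≤ P'.B / 100 := by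
  have hN := h.N0
  have h1 : P.N * (psi P.κ x - P'.a) - 10 ≤ -(19 / 2) := by
    have : P.N * (psi P.κ x - P'.a) ≤ P.N * (2 / P'.N) := by gcongr; linarith
    have e : P.N * (2 / P'.N) = 1 / 2 := by rw [h.N]; field_simp; norm_num
    linarith
  have h2 := Real.exp_le_exp.2 h1
  have h3 := l0a_exp
  have h4 : 0 < P.B ^ 2 := pow_pos h.B0 2
  rw [h.b_eq, h.B]
  nlinarith

theorem b_ge (h : P.Nx P' ℓ) {x : V n} (hx : P'.a - 2 / P'.N < psi P.κ x) : P.B ^ 3 ≤ P.b x := by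
  have hN := h.N0
  have hl := h.l
  have h1 : -ℓ ≤ P.N * (psi P.κ x - P'.a) - 10 := by
    have : P.N * (-(2 / P'.N)) ≤ P.N * (psi P.κ x - P'.a) := by gcongr; linarith
    have e : P.N * (-(2 / P'.N)) = -(1 / 2) := by rw [h.N]; field_simp; norm_num
    linarith
  have h2 := Real.exp_le_exp.2 h1
  rw [← h.e] at h2
  have h4 : 0 < P.B ^ 2 := pow_pos h.B0 2
  rw [h.b_eq]
  nlinarith

theorem sub (h : P.Nx P' ℓ) : P'.old n ⊆ P.new n := by
  rintro p ⟨h1, h2, h3, h4⟩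
  rw [h.κ] at h3
  have := h.lt_of h3
  have h5 := h.b_le h3
  have h6 := Par.b_pos h.B0 p.1
  have : 0 < 3 / P.N := by have := h.N0; positivity
  exact ⟨h1, h2, by linarith, by linarith⟩

theorem top (h : P.Nx P' ℓ) {W : Kr n ι} {D : ℝ} {e : ℕ} (hD : 0 ≤ D) (hW : P.WB W D e) :
    KBd W (P'.top n) (D / P.B ^ (4 * e)) := by
  rintro p ⟨⟨h1, -, h3, h4⟩, h5, h6⟩ l m
  rw [h.κ] at h3 h6
  have h7 := h.lt_of h3
  have hN := h.N0
  have h8 : 1 / P.N ≤ 3 / P.N := by gcongr; norm_num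
  have hB := h.B0
  refine (hW p.1 p.2 h1 (by linarith) h5 ((h.b_le h3).trans h4.le) l m).trans ?_
  have h9 : P.B ^ (4 * e) ≤ (P.B * P.b p.1) ^ e := by
    rw [pow_mul]
    refine pow_le_pow_left₀ (by positivity) ?_ e
    have := h.b_ge h6
    nlinarith
  exact div_le_div_of_nonneg_left hD (by positivity) h9

theorem pw (h : P.Nx P' ℓ) {x : V n} (hx : psi P.κ x < P'.a) (p r : ℕ) :
    (P.b x / P.B) ^ (4 * p + r) ≤ P.B ^ r * P'.b x ^ p := by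
  have hB := h.B0
  have hN := h.N0
  have hl := h.l
  have hB1 : P.B ≤ 1 := by rw [h.e]; exact Real.exp_le_one_iff.2 (by linarith)
  obtain ⟨t, ht⟩ : ∃ t, t = P.N * (psi P.κ x - P'.a) := ⟨_, rfl⟩
  have ht0 : t ≤ 0 := ht ▸ mul_nonpos_of_nonneg_of_nonpos hN.le (by linarith)
  have e1 : P.b x / P.B = P.B * Real.exp (t - 10) := by rw [h.b_eq, ← ht]; field_simp
  have e2 : P'.b x = P.B ^ 2 * Real.exp t ^ 4 := by
    rw [Par.b, h.B, h.N, h.κ, ← Real.exp_nat_mul, ht]; congr 2; push_cast; ring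
  have h1 : Real.exp (t - 10) ≤ Real.exp t := Real.exp_le_exp.2 (by linarith)
  have h2 : Real.exp t ≤ 1 := Real.exp_le_one_iff.2 ht0
  have h3 := Real.exp_pos (t - 10)
  have h4 := Real.exp_pos t
  rw [e1, e2, pow_add, mul_comm]
  refine mul_le_mul (pow_le_pow_left₀ (by positivity) (by nlinarith) r) ?_ (by positivity)
    (by positivity)
  rw [pow_mul]
  refine pow_le_pow_left₀ (by positivity) ?_ p
  rw [mul_pow]
  refine mul_le_mul (pow_le_pow_of_le_one hB.le hB1 (by norm_num))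
    (pow_le_pow_left₀ h3.le h1 4) (by positivity) (by positivity)

end Par.Nx

theorem l0a_psi_ge {κ : ℝ} (h0 : 0 < κ) (h1 : κ ≤ 1 / 12) {x : V n} (hx : ‖x‖ < 2) :
    -3 ≤ psi κ x := by
  have h2 : |x 0| ≤ ‖x‖ := by simpa using PiLp.norm_apply_le x 0
  have h3 := abs_le.1 h2
  have h4 : x 0 ^ 2 ≤ ‖x‖ ^ 2 := sq_le_sq' h3.1 h3.2
  have h5 : ‖x‖ ^ 2 ≤ 4 := by nlinarith [norm_nonneg x]
  unfold psi
  nlinarith

theorem l0a_psi_le {κ : ℝ} (h0 : 0 < κ) (h1 : κ ≤ 1 / 12) {x : V n} (hx : ‖x‖ < κ / 32) :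
    psi κ x < κ / 8 := by
  have h2 : |x 0| ≤ ‖x‖ := by simpa using PiLp.norm_apply_le x 0
  have h3 := abs_le.1 h2
  have h5 : ‖x‖ ^ 2 ≤ 1 / 32 := by nlinarith [norm_nonneg x]
  unfold psi
  nlinarith [sq_nonneg (x 0)]

/-- the parameters at stage `j` -/
def seqP (κ ℓ N : ℝ) (j : ℕ) : Par where
  κ := κ
  a := κ / 4 - (2 * ℓ + 40 / 3) / N + (2 * ℓ / 2 ^ j + 40 / 3 / 4 ^ j) / N
  N := 4 ^ j * N
  B := Real.exp (-(2 ^ j * ℓ))

theorem seqP_nx {κ ℓ N : ℝ} (hl : 11 ≤ ℓ) (hN : 0 < N) (j : ℕ) :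
    (seqP κ ℓ N j).Nx (seqP κ ℓ N (j + 1)) (2 ^ j * ℓ) where
  κ := rfl
  N := by simp only [seqP]; ring
  B := by simp only [seqP]; rw [← Real.exp_nat_mul]; congr 1; push_cast; ring
  a := by
    have e : (4 : ℝ) ^ j = 2 ^ j * 2 ^ j := by rw [← mul_pow]; norm_num
    simp only [seqP, pow_succ, e]; field_simp; ring
  e := rfl
  l := by nlinarith [one_le_pow₀ (one_le_two (α := ℝ)) (n := j)]
  N0 := by simp only [seqP]; positivity

theorem seqP_a {κ ℓ N : ℝ} (hl : 11 ≤ ℓ) (hN : 0 < N) (h : (2 * ℓ + 40 / 3) / N ≤ κ / 8) (j : ℕ) :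
    κ / 8 ≤ (seqP κ ℓ N j).a ∧ (seqP κ ℓ N j).a ≤ κ / 4 := by
  have h1 : 2 * ℓ / 2 ^ j ≤ 2 * ℓ := div_le_self (by linarith) (one_le_pow₀ one_le_two)
  have h2 : 40 / 3 / 4 ^ j ≤ (40 / 3 : ℝ) := div_le_self (by norm_num) (one_le_pow₀ (by norm_num))
  have h3 : (2 * ℓ / 2 ^ j + 40 / 3 / 4 ^ j) / N ≤ (2 * ℓ + 40 / 3) / N := by gcongr
  have h4 : 0 ≤ (2 * ℓ / 2 ^ j + 40 / 3 / 4 ^ j) / N := by
    have : 0 ≤ ℓ := by linarith
    positivity
  simp only [seqP]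
  constructor <;> linarith

theorem seqP_ok {κ ℓ N N₀ c : ℝ} (hκ : 0 < κ) (hl : 11 ≤ ℓ) (hN : 0 < N) (hN₀ : N₀ ≤ N)
    (h : (2 * ℓ + 40 / 3) / N ≤ κ / 8) (hc : Real.exp (-(ℓ / 2)) * N ^ 3 ≤ c) (j : ℕ) :
    (seqP κ ℓ N j).Ok N₀ c := by
  have ha := seqP_a hl hN h j
  refine ⟨by linarith [ha.1], ha.2, ?_, Real.exp_pos _, ?_⟩
  · simp only [seqP]
    nlinarith [one_le_pow₀ (by norm_num : (1 : ℝ) ≤ 4) (n := j)]
  · simp only [seqP]
    rw [← Real.exp_half]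
    refine le_trans ?_ hc
    rw [mul_pow, ← mul_assoc]
    gcongr
    have e : ((4 : ℝ) ^ j) ^ 3 = Real.exp (j * Real.log 64) := by
      rw [Real.exp_nat_mul, Real.exp_log (by norm_num), ← pow_mul, mul_comm, pow_mul]; norm_num
    rw [e, ← Real.exp_add, Real.exp_le_exp]
    have h1 : Real.log 64 ≤ 5 := by
      rw [show (64 : ℝ) = 2 ^ 6 by norm_num, Real.log_pow]
      have := Real.log_two_lt_d9
      push_cast; linarith
    have h2 : (j : ℝ) + 1 ≤ 2 ^ j := by exact_mod_cast Nat.lt_two_pow_self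
    have h3 : (0 : ℝ) ≤ j := Nat.cast_nonneg j
    nlinarith

theorem l0a_choose {κ c : ℝ} (hκ : 0 < κ) (hc : 0 < c) (N₀ : ℝ) : ∃ ℓ N : ℝ, 11 ≤ ℓ ∧ 1 ≤ N ∧
    N₀ ≤ N ∧ (2 * ℓ + 40 / 3) / N ≤ κ / 8 ∧ Real.exp (-(ℓ / 2)) * N ^ 3 ≤ c := by
  have h1 : Tendsto (fun t : ℝ => (64 / κ) ^ 3 * (t ^ 3 * Real.exp (-t))) atTop (𝓝 0) := by
    simpa using (Real.tendsto_pow_mul_exp_neg_atTop_nhds_zero 3).const_mul ((64 / κ) ^ 3)
  obtain ⟨t, h2, h3, h4, h5⟩ := ((h1.eventually (ge_mem_nhds hc)).and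
    ((eventually_ge_atTop 6).and ((eventually_ge_atTop (κ / 64 * N₀)).and
      (eventually_ge_atTop (κ / 64))))).exists
  refine ⟨2 * t, 64 / κ * t, by linarith, ?_, ?_, ?_, ?_⟩
  · rw [div_mul_eq_mul_div, le_div_iff₀ hκ]; linarith
  · rw [div_mul_eq_mul_div, le_div_iff₀ hκ]; linarith
  · rw [div_le_iff₀ (by positivity)]
    have : κ / 8 * (64 / κ * t) = 8 * t := by field_simp; norm_num
    linarith
  · rw [show 2 * t / 2 = t by ring, mul_pow]; linarith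

theorem l0a_B (κ N : ℝ) {ℓ : ℝ} (hl : 11 ≤ ℓ) (C : ℝ) (f : ℕ) :
    Tendsto (fun j => C * (seqP κ ℓ N j).N ^ f * (seqP κ ℓ N j).B) atTop (𝓝 0) := by
  have h1 : Tendsto (fun j : ℕ => (2 : ℝ) ^ j * ℓ) atTop atTop :=
    (tendsto_pow_atTop_atTop_of_one_lt one_lt_two).atTop_mul_const (by linarith)
  have h2 := ((Real.tendsto_pow_mul_exp_neg_atTop_nhds_zero (2 * f)).comp h1).const_mul
    (C * N ^ f / ℓ ^ (2 * f))
  rw [mul_zero] at h2
  refine h2.congr fun j => ?_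
  have e : (4 : ℝ) ^ j = (2 ^ j) ^ 2 := by rw [← pow_mul, mul_comm, pow_mul]; norm_num
  have : ℓ ≠ 0 := by linarith
  simp only [seqP, Function.comp, e, mul_pow, ← pow_mul]
  field_simp
  rw [mul_assoc j]

end Vale.Agent.P088F
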