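import Vale.Agent.P088F.PL0a

/-! P088F: the iteration. -/

open scoped ContDiff Topology ENNReal
open Set Filter MeasureTheory Metric

noncomputable section

namespace Vale.Agent.P088F

open Vale.Agent.P292E

variable {n : ℕ} {ι : Type} [Fintype ι] [DecidableEq ι] [NeZero n]

/-- the bounds on the top zones -/
def seqA (A₀ Λ : ℝ) (u B : ℕ → ℝ) (e : ℕ) : ℕ → ℝ
  | 0 => A₀
  | j + 1 => u j * (seqA A₀ Λ u B e j + Λ) / B j ^ (4 * e)

theorem seqA_nn {A₀ Λ : ℝ} {u B : ℕ → ℝ} (e : ℕ) (h0 : 0 ≤ A₀) (hΛ : 0 ≤ Λ) (hu : ∀ j, 0 ≤ u j)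
    (hB : ∀ j, 0 < B j) : ∀ j, 0 ≤ seqA A₀ Λ u B e j
  | 0 => h0
  | j + 1 => by
    have := seqA_nn e h0 hΛ hu hB j
    have := hu j
    have := hB j
    rw [seqA]; positivity

theorem seqA_le {A₀ Λ : ℝ} {u B : ℕ → ℝ} (e : ℕ) (h0 : 0 ≤ A₀) (hΛ : 0 ≤ Λ) (hu : ∀ j, 0 ≤ u j)
    (hB : ∀ j, 0 < B j) (hB1 : ∀ j, B j ≤ 1) (hs : ∀ j, B (j + 1) = B j ^ 2) {j₁ : ℕ}
    (h : ∀ j, j₁ ≤ j → (u j + 1) * B j ≤ 1) : ∃ G, 0 ≤ G ∧ ∀ j, j₁ ≤ j →
      (seqA A₀ Λ u B e j + Λ + 1) * B j ^ (4 * e + 1) ≤ G := by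
  have hn := seqA_nn e h0 hΛ hu hB
  refine ⟨(seqA A₀ Λ u B e j₁ + Λ + 1) * B j₁ ^ (4 * e + 1),
    by have := hn j₁; have := hB j₁; positivity, fun j hj => ?_⟩
  induction j, hj using Nat.le_induction with
  | base => exact le_rfl
  | succ j hj ih =>
    refine le_trans ?_ ih
    have h1 := h j hj
    have h2 := hB j
    have h3 := hn j
    have h4 := hu j
    have h5 : B j ^ (4 * e) ≤ 1 := pow_le_one₀ h2.le (hB1 j)
    have h6 : 0 < B j ^ (4 * e) := pow_pos h2 _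
    rw [seqA, hs, ← pow_mul, two_mul, pow_add, ← mul_assoc]
    gcongr
    rw [pow_succ]
    generalize B j ^ (4 * e) = y at h5 h6 ⊢
    generalize seqA A₀ Λ u B e j = a at h3 ⊢
    have e1 : (u j * (a + Λ) / y + Λ + 1) * (y * B j) = (u j * (a + Λ) + (Λ + 1) * y) * B j := by
      field_simp; ring
    have h7 : u j * (a + Λ) + (Λ + 1) * y ≤ (u j + 1) * (a + Λ + 1) := by nlinarith
    rw [e1]
    calc _ ≤ (u j + 1) * (a + Λ + 1) * B j := by gcongr
      _ = (a + Λ + 1) * ((u j + 1) * B j) := by ring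
      _ ≤ (a + Λ + 1) * 1 := by gcongr
      _ = _ := mul_one _

theorem l0b_key {v u X B G : ℝ} {e' s r : ℕ} (hu : 0 ≤ u) (hX : 0 ≤ X) (hB : 0 < B)
    (h1 : v * B ≤ 1) (h2 : (u + 1) * B ≤ 1) (h3 : (X + 1) * B ^ s ≤ G) (hr : r = e' + s + 3) :
    v * (u * X + 1) / B ^ e' * B ^ r ≤ G * B := by
  have e1 : v * (u * X + 1) / B ^ e' * B ^ r = v * B * ((u * X + 1) * B * B ^ s) * B := by
    rw [hr]; field_simp; ring
  have h4 : (u * X + 1) * B ≤ X + 1 := by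
    calc _ ≤ (u + 1) * (X + 1) * B := by gcongr; nlinarith
      _ = (X + 1) * ((u + 1) * B) := by ring
      _ ≤ (X + 1) * 1 := by gcongr
      _ = _ := mul_one _
  rw [e1]
  gcongr
  calc _ ≤ 1 * ((X + 1) * B ^ s) := by gcongr
    _ ≤ G := by rwa [one_mul]

theorem ltk (h1 : D1 n ι) (hW : StepW n ι) (hS : StepS n ι) : LTK n ι := by
  intro c₀
  obtain ⟨p, e, κw, hκw, hW⟩ := hW c₀
  obtain ⟨e', hS⟩ := hS e
  obtain ⟨κs, hκs, hS⟩ := hS (4 * p + (e' + (4 * e + 1) + 3))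
  obtain ⟨κ, hκ, k1, k2, k3⟩ : ∃ κ : ℝ, 0 < κ ∧ κ ≤ κw ∧ κ ≤ κs ∧ κ ≤ 1 / 12 :=
    ⟨min κw (min κs (1 / 12)), by positivity, min_le_left _ _,
      (min_le_right _ _).trans (min_le_left _ _), (min_le_right _ _).trans (min_le_right _ _)⟩
  obtain ⟨Kw, f, εw, cw, Nw, Cw, hεw, hcw, hW⟩ := hW κ hκ k1
  obtain ⟨cs, Ns, hcs, hS⟩ := hS κ hκ k2
  obtain ⟨ℓ, N, hl, hN1, hN2, hN3, hN4⟩ := l0a_choose hκ (lt_min hcw hcs) (max Nw Ns)
  have hN : 0 < N := by linarith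
  have ok := seqP_ok hκ hl hN hN2 hN3 hN4
  have nx := seqP_nx (κ := κ) hl hN
  have ha := seqP_a hl hN hN3
  have hlim := l0a_B κ N hl
  have hκ' : ∀ j, (seqP κ ℓ N j).κ = κ := fun _ => rfl
  have hN0 : ∀ j, (seqP κ ℓ N (j + 1)).N = 4 * (seqP κ ℓ N j).N := fun j => (nx j).N
  generalize seqP κ ℓ N = P at ok nx ha hlim hκ' hN0
  have hB : ∀ j, 0 < (P j).B := fun j => (ok j).B0
  have hNp : ∀ j, 0 < (P j).N := fun j => (nx j).N0
  have hB1 : ∀ j, (P j).B ≤ 1 := fun j => by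
    rw [(nx j).e]; exact Real.exp_le_one_iff.2 (by linarith [(nx j).l])
  obtain ⟨K1, R, ε1, C1, hR, hε1, h1⟩ := h1 c₀ ((P 0).B / 100) (by have := hB 0; positivity)
  refine ⟨R, by linarith, fun Λ => ?_⟩
  rcases lt_or_ge Λ 0 with hΛ | hΛ
  · exact ⟨0, 1, 1, one_pos, one_pos, by linarith, fun d _ _ _ h _ => absurd h.nn (not_le.2 hΛ)⟩
  obtain ⟨Ks, f', εs, Cs, hεs, hS⟩ := hS c₀ Λ
  have hB0 : Tendsto (fun j => (P j).B) atTop (𝓝 0) := by simpa using hlim 1 0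
  have t1 : Tendsto (fun j => (|Cw| * (P j).N ^ f + 1) * (P j).B) atTop (𝓝 0) := by
    simpa [add_mul] using (hlim |Cw| f).add hB0
  obtain ⟨j₁, hj₁⟩ := eventually_atTop.1 ((t1.eventually (ge_mem_nhds one_pos)).and
    ((hlim |Cs| f').eventually (ge_mem_nhds one_pos)))
  have hu : ∀ j, 0 ≤ |Cw| * (P j).N ^ f := fun j => by have := hNp j; positivity
  have hA0 : 0 ≤ |C1| * Λ := by positivity
  obtain ⟨G, hG0, hG⟩ := seqA_le (u := fun j => |Cw| * (P j).N ^ f) (B := fun j => (P j).B) e hA0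
    hΛ hu hB hB1 (fun j => (nx j).B) fun j hj => (hj₁ j hj).1
  have hA := seqA_nn (u := fun j => |Cw| * (P j).N ^ f) (B := fun j => (P j).B) e hA0 hΛ hu hB
  have t2 : Tendsto (fun j => G * (P j).B) atTop (𝓝 0) := by simpa using hB0.const_mul G
  obtain ⟨j₂, hj₂⟩ := eventually_atTop.1 ((t2.eventually (ge_mem_nhds one_pos)).and
    (eventually_ge_atTop j₁))
  obtain ⟨δ, hδ, hδ'⟩ : ∃ δ : ℝ, 0 < δ ∧ ∀ j ≤ j₂, δ ≤ ((P j).B * Real.exp (-4 * (P j).N)) ^ p := by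
    obtain ⟨j, -, hj⟩ := (Finset.range (j₂ + 1)).exists_min_image
      (fun j => ((P j).B * Real.exp (-4 * (P j).N)) ^ p) ⟨0, by simp⟩
    exact ⟨_, by have := hB j; positivity, fun i hi => hj i (by simpa [Nat.lt_succ_iff] using hi)⟩
  refine ⟨max (max Kw Ks) (max K1 3), min (min εw εs) (min ε1 (δ / 2)), κ / 32, by positivity,
    by positivity, by linarith, fun d l₀ s s' hd hn => ?_⟩
  have dW : d.Ok Kw εw 30 c₀ Λ := hd.mono (by omega) ((min_le_left _ _).trans (min_le_left _ _)) hR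
  have dS : d.Ok Ks εs 30 c₀ Λ := hd.mono (by omega) ((min_le_left _ _).trans (min_le_right _ _)) hR
  have nS : d.Nm Ks εs 30 l₀ s s' :=
    hn.mono (by omega) ((min_le_left _ _).trans (min_le_right _ _)) hR
  have d1 : d.Ok K1 ε1 R c₀ Λ :=
    hd.mono (by omega) ((min_le_right _ _).trans (min_le_left _ _)) le_rfl
  have d3 : d.Ok 3 (δ / 2) R c₀ Λ :=
    hd.mono (by omega) ((min_le_right _ _).trans (min_le_right _ _)) le_rfl
  have free : ∀ j ≤ j₂, (P j).H d p := fun j hj x hx _ => by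
    refine (df_of_near d3.sm1 d3.sm2 d3.nr1 d3.nr2 x).mono ?_
    have h2 := l0a_psi_ge hκ k3 hx
    have h3 := (ha j).2
    have h4 := hNp j
    have h5 := hB j
    refine (by linarith : 2 * (δ / 2) ≤ δ).trans ((hδ' j hj).trans ?_)
    refine pow_le_pow_left₀ (by positivity) (mul_le_mul_of_nonneg_left (Real.exp_le_exp.2 ?_)
      h5.le) p
    rw [hκ']
    nlinarith
  generalize hAs : seqA (|C1| * Λ) Λ (fun j => |Cw| * (P j).N ^ f) (fun j => (P j).B) e = A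
    at hG hA
  have step : ∀ j, (∃ W, d.Ext ((P j).old n) W ∧ KBd W ((P j).top n) (A j)) → (P j).H d p →
      (∃ W, d.Ext ((P (j + 1)).old n) W ∧ KBd W ((P (j + 1)).top n) (A (j + 1))) ∧
      (j₁ ≤ j → ∀ x : V n, ‖x‖ < 2 → psi κ x < (P (j + 1)).a →
        d.Df x (G * (P j).B * (P (j + 1)).b x ^ p)) := by
    rintro j ⟨W₀, h2, h3⟩ h4
    obtain ⟨W, h5, h6⟩ := hW (P j) d Λ (A j) W₀ (hκ' j)
      ((ok j).mono (le_max_left _ _) (min_le_left _ _)) dW h4 h2 h3 (hA j)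
    have h7 := hA j
    have h8 := hNp j
    have h9 := hB j
    have h6' : (P j).WB W (|Cw| * (P j).N ^ f * (A j + Λ)) e := fun x y a1 a2 a3 a4 l m => by
      have := Par.b_pos h9 x
      refine (h6 x y a1 a2 a3 a4 l m).trans ?_
      gcongr
      exact le_abs_self _
    refine ⟨⟨W, h5.mono (nx j).sub, ?_⟩, fun hj x hx hx' => ?_⟩
    · have := (nx j).top (by positivity) h6'
      rw [← hAs] at this ⊢
      exact this
    · have h10 : psi κ x < (P j).a - 3 / (P j).N :=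
        (nx j).lt_of (by have := hNp (j + 1); have : 0 < 2 / (P (j + 1)).N := by positivity
                         linarith)
      refine (hS (P j) d _ W l₀ s s' (hκ' j) ((ok j).mono (le_max_right _ _) (min_le_right _ _))
        dS nS h5 (by positivity) h6' x hx h10).mono ?_
      have h11 := (nx j).pw (x := x) (by rwa [hκ']) p (e' + (4 * e + 1) + 3)
      have h12 := l0b_key (v := |Cs| * (P j).N ^ f') (hu j) (add_nonneg h7 hΛ) h9
        (hj₁ j hj).2 (hj₁ j hj).1 (hG j hj) (rfl : e' + (4 * e + 1) + 3 = _)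
      have h13 := Par.b_pos h9 x
      have h14 := Par.b_pos (hB (j + 1)) x
      calc _ ≤ |Cs| * (P j).N ^ f' * (|Cw| * (P j).N ^ f * (A j + Λ) + 1) / (P j).B ^ e' *
            ((P j).B ^ (e' + (4 * e + 1) + 3) * (P (j + 1)).b x ^ p) := by
            gcongr
            exact le_abs_self _
        _ ≤ _ := by rw [← mul_assoc]; gcongr
  have all : ∀ j, (∃ W, d.Ext ((P j).old n) W ∧ KBd W ((P j).top n) (A j)) ∧ (P j).H d p := by
    intro j
    induction j with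
    | zero =>
      obtain ⟨W, h2, h3⟩ := h1 d Λ d1
      have hs : (P 0).old n ⊆ Om0 n ((P 0).B / 100) := fun q hq => ⟨hq.1, hq.2.1, hq.2.2.2⟩
      refine ⟨⟨W, h2.mono hs, h3.mono (fun q hq => hs hq.1) ?_⟩, free 0 (Nat.zero_le _)⟩
      rw [← hAs, seqA]
      gcongr
      exact le_abs_self _
    | succ j ih =>
      obtain ⟨h2, h3⟩ := step j ih.1 ih.2
      refine ⟨h2, ?_⟩
      rcases le_or_gt (j + 1) j₂ with h | h
      · exact free _ h
      · intro x hx hx'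
        have h4 := hj₂ j (by omega)
        rw [hκ'] at hx'
        refine (h3 h4.2 x hx hx').mono ?_
        have := Par.b_pos (hB (j + 1)) x
        exact mul_le_of_le_one_left (by positivity) h4.1
  intro x hx
  rw [mem_ball_zero_iff] at hx
  have h2 := l0a_psi_le hκ k3 hx
  have fin : ∀ j, j₁ ≤ j → d.Df x (G * (P j).B) := fun j hj => by
    have h3 := (ha (j + 1)).1
    refine ((step j (all j).1 (all j).2).2 hj x (by linarith) (by linarith)).mono ?_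
    have h4 := hB j
    refine mul_le_of_le_one_right (by positivity) (pow_le_one₀ (Par.b_pos (hB _) x).le ?_)
    have h5 := hNp (j + 1)
    refine mul_le_one₀ (hB1 _) (Real.exp_pos _).le (Real.exp_le_one_iff.2 ?_)
    rw [hκ']
    nlinarith
  have z : ∀ t : ℝ, (∀ j, j₁ ≤ j → t ≤ G * (P j).B) → t ≤ 0 := fun t ht =>
    ge_of_tendsto t2 (eventually_atTop.2 ⟨j₁, ht⟩)
  refine ⟨fun j k => ?_, fun j l m => ?_, fun l m => ?_⟩
  · have := z _ fun i hi => (fin i hi 0 (by norm_num)).1 j k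
    rwa [norm_iteratedFDeriv_zero, norm_le_zero_iff, sub_eq_zero] at this
  · have := z _ fun i hi => (fin i hi 0 (by norm_num)).2.1 j l m
    rwa [norm_iteratedFDeriv_zero, norm_le_zero_iff, sub_eq_zero] at this
  · have := z _ fun i hi => (fin i hi 0 (by norm_num)).2.2 l m
    rwa [norm_iteratedFDeriv_zero, norm_le_zero_iff, sub_eq_zero] at this

end Vale.Agent.P088F
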