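import Vale.Agent.P088F.QDefs
import Vale.Agent.P088F.DTh3

/-! P088F part Q: derivatives of the phase. -/

open scoped ContDiff Topology RealInnerProductSpace
open Set Filter Metric

noncomputable section

namespace Vale.Agent.P088F

open Vale.Agent.P292E

variable {n : ℕ}

theorem qcalc_co (z w : V n) (j : Fin n) (t : ℝ) :
    HasDerivAt (fun t : ℝ => (z + t • w) j) (w j) t := by
  simp only [PiLp.add_apply, PiLp.smul_apply, smul_eq_mul]
  simpa using ((hasDerivAt_id t).mul_const (w j)).const_add (z j)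

theorem qcalc_ip {h : Mf n} (hh : ∀ j k, ContDiff ℝ ∞ (h j k)) (m u z w z' w' : V n) (t : ℝ) :
    HasDerivAt (fun t : ℝ => ip h (m + t • u) (z + t • w) (z' + t • w'))
      (ip (dg h u) (m + t • u) (z + t • w) (z' + t • w') + ip h (m + t • u) w (z' + t • w') +
        ip h (m + t • u) (z + t • w) w') t := by
  unfold ip
  rw [← Finset.sum_add_distrib, ← Finset.sum_add_distrib]
  refine HasDerivAt.fun_sum fun j _ => ?_
  rw [← Finset.sum_add_distrib, ← Finset.sum_add_distrib]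
  refine HasDerivAt.fun_sum fun k _ => ?_
  have h1 : HasDerivAt (fun t : ℝ => h j k (m + t • u)) (dg h u j k (m + t • u)) t :=
    ((hh j k).differentiable (by simp) _).hasFDerivAt.comp_hasDerivAt t (Dd.dcalc_line m u t)
  refine ((h1.fun_mul (qcalc_co z w j t)).fun_mul (qcalc_co z' w' k t)).congr_deriv ?_
  ring

theorem qcalc_dg_sm {h : Mf n} (hh : ∀ j k, ContDiff ℝ ∞ (h j k)) (u : V n) (j k : Fin n) :
    ContDiff ℝ ∞ (dg h u j k) :=
  ((hh j k).fderiv_right (m := ∞) (by simp)).clm_apply contDiff_const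

theorem qcalc_dg2 {h : Mf n} (hh : ∀ j k, ContDiff ℝ ∞ (h j k)) (u : V n) :
    dg (dg h u) u = dg2 h u := by
  funext j k x
  have h1 := (((hh j k).fderiv_right (m := ∞) (by simp)).differentiable (by simp) x).hasFDerivAt
  have h2 := (h1.clm_apply (hasFDerivAt_const u x)).fderiv
  have h3 : dg (dg h u) u j k x = fderiv ℝ (fun y => fderiv ℝ (h j k) y u) x u := rfl
  rw [h3, h2]
  simp [dg2]

theorem qcalc_sym {h : Mf n} {x : V n} (hs : ∀ j k, h j k x = h k j x) (u v : V n) :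
    ip h x u v = ip h x v u := by
  rw [ip_gl, ip_gl, ← gl_symm hs, real_inner_comm]

theorem qcalc_dg_sym {h : Mf n} (hs : ∀ j k x, h j k x = h k j x) (u : V n) (j k : Fin n)
    (x : V n) : dg h u j k x = dg h u k j x := by
  have e : h j k = h k j := funext (hs j k)
  simp only [dg, e]

theorem qcalc_ee [NeZero n] (y : V n) : ⟪(ee 0 : V n), y⟫ = y 0 := by
  simp [ee, EuclideanSpace.inner_single_left]

theorem qcalc_pv [NeZero n] (κ N : ℝ) (y a : V n) :
    ⟪pv κ N (ee 0) y, a⟫ = N * (a 0 + κ * (2 * ⟪y, a⟫ - 8 * y 0 * a 0)) := by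
  simp only [pv, sv, inner_add_left, inner_sub_left, real_inner_smul_left, qcalc_ee]
  ring

theorem qcalc_log [NeZero n] {P : Par} (hB : 0 < P.B) (x a : V n) (t : ℝ) :
    HasDerivAt (fun t : ℝ => Real.log (P.b (x + t • a)))
      (⟪pv P.κ P.N (ee 0) x, a⟫ + t * sS P.κ P.N (ee 0) a) t := by
  simp only [Dd.dth3_log hB, psi]
  have h0 := qcalc_co x a 0 t
  have h1 := (Dd.dcalc_line x a t).norm_sq
  refine ((((h0.fun_add ((h1.fun_sub ((h0.fun_pow 2).const_mul 4)).const_mul P.κ)).sub_const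
    P.a).const_mul P.N).const_add _).congr_deriv ?_
  rw [qcalc_pv, sS, qcalc_ee, inner_add_left, real_inner_smul_left, real_inner_self_eq_norm_sq]
  simp only [PiLp.add_apply, PiLp.smul_apply, smul_eq_mul]
  norm_num
  ring

theorem qcalc_w [NeZero n] {P : Par} (hB : 0 < P.B) (x : V n) :
    P.w x = pv P.κ P.N (ee 0) x := by
  refine ext_inner_right ℝ fun a => ?_
  rw [Par.w, Dd.dcalc_gr]
  have h1 := ((Dd.dth3_lsm hB).differentiable (by simp) x).hasFDerivAt.comp_hasDerivAt_of_eq 0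
    (Dd.dcalc_line x a 0) (by simp)
  have h2 := qcalc_log hB x a 0
  rw [zero_mul, add_zero] at h2
  exact h1.unique h2

theorem qcalc_Ev (h : Mf n) (m z v : V n) :
    ⟪Ev h m z, v⟫ = ip (dg h ((1 / 2 : ℝ) • v)) m z z / ip h m z z := by
  have e : ∀ j k, dg h ((1 / 2 : ℝ) • v) j k m = ∑ i, 1 / 2 * v i * dg h (ee i) j k m := by
    intro j k
    have := Dd.dcalc_gr (h j k) m v
    simp only [dg, map_smul, smul_eq_mul, ← this, inner_sum', gr, pr, Finset.mul_sum]
    exact Finset.sum_congr rfl fun i _ => by ring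
  have e2 : ip (dg h ((1 / 2 : ℝ) • v)) m z z = ∑ i, 1 / 2 * v i * ip (dg h (ee i)) m z z := by
    simp only [ip, e, Finset.sum_mul, Finset.mul_sum]
    refine (Finset.sum_congr rfl fun j _ => Finset.sum_comm).trans (Finset.sum_comm.trans ?_)
    exact Finset.sum_congr rfl fun i _ => Finset.sum_congr rfl fun j _ =>
      Finset.sum_congr rfl fun k _ => by ring
  rw [inner_sum', e2, Finset.sum_div]
  refine Finset.sum_congr rfl fun i _ => ?_
  simp only [Ev]
  ring

theorem qcalc_qq (g : Mf n) (p : V n × V n) :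
    qq g p = ip (hm g) ((1 / 2 : ℝ) • (p.1 + p.2)) (p.2 - p.1) (p.2 - p.1) := rfl

theorem qcalc_sm {g : Mf n} (hh : ∀ j k, ContDiff ℝ ∞ (hm g j k)) : ContDiff ℝ ∞ (qq g) := by
  have h1 : ∀ j, ContDiff ℝ ∞ fun p : V n × V n => (p.2 - p.1) j := fun j =>
    (EuclideanSpace.proj (𝕜 := ℝ) j).contDiff.comp (contDiff_snd.sub contDiff_fst)
  have h2 : ContDiff ℝ ∞ fun p : V n × V n => (1 / 2 : ℝ) • (p.1 + p.2) :=
    (contDiff_fst.add contDiff_snd).const_smul _
  exact ContDiff.sum fun j _ => ContDiff.sum fun k _ =>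
    (((hh j k).comp h2).mul (h1 j)).mul (h1 k)

theorem qcalc_main [NeZero n] {P : Par} {g : Mf n} {p : V n × V n} {m z : V n} {q : ℝ}
    (hB : 0 < P.B) (hh : ∀ j k, ContDiff ℝ ∞ (hm g j k)) (hs : ∀ j k x, hm g j k x = hm g k j x)
    (em : m = (1 / 2 : ℝ) • (p.1 + p.2)) (ez : z = p.2 - p.1) (eq : q = ip (hm g) m z z)
    (hq : 0 < q) (a c u w : V n) (eu : u = (1 / 2 : ℝ) • (a + c)) (ew : w = c - a) :
    DifferentiableAt ℝ (P.Th g) p ∧
    fderiv ℝ (P.Th g) p (a, c) = 2 * ip (hm g) m z w / q + ⟪Ev (hm g) m z, a + c⟫ -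
      ⟪pv P.κ P.N (ee 0) p.1, a⟫ - ⟪pv P.κ P.N (ee 0) p.2, c⟫ ∧
    fderiv ℝ (fderiv ℝ (P.Th g)) p (a, c) (a, c) =
      (2 * ip (hm g) m w w + 4 * ip (dg (hm g) u) m z w + ip (dg2 (hm g) u) m z z) / q -
        (2 * ip (hm g) m z w / q + ⟪Ev (hm g) m z, a + c⟫) ^ 2 -
        sS P.κ P.N (ee 0) a - sS P.κ P.N (ee 0) c := by
  have hqp : qq g p = q := by rw [qcalc_qq, eq, em, ez]
  have hc : ContDiffAt ℝ ∞ (P.Th g) p :=
    (((qcalc_sm hh).contDiffAt.log (hqp ▸ hq.ne')).sub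
      ((Dd.dth3_lsm hB).comp contDiff_fst).contDiffAt).sub
      ((Dd.dth3_lsm hB).comp contDiff_snd).contDiffAt
  have e : (fun t : ℝ => P.Th g (p + t • (a, c))) = fun t : ℝ =>
      Real.log (ip (hm g) (m + t • u) (z + t • w) (z + t • w)) - Real.log (P.b (p.1 + t • a)) -
        Real.log (P.b (p.2 + t • c)) := by
    funext t
    have e1 : (1 / 2 : ℝ) • (p.1 + t • a + (p.2 + t • c)) = m + t • u := by
      rw [em, eu]; module
    have e2 : p.2 + t • c - (p.1 + t • a) = z + t • w := by rw [ez, ew]; module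
    simp only [Par.Th, qcalc_qq, Prod.fst_add, Prod.snd_add, Prod.smul_mk, e1, e2]
  have hF := qcalc_ip hh m u z w z w
  have hpos : ∀ᶠ t in 𝓝 (0 : ℝ), 0 < ip (hm g) (m + t • u) (z + t • w) (z + t • w) := by
    refine (hF 0).continuousAt.eventually (lt_mem_nhds ?_)
    simpa only [zero_smul, add_zero, ← eq] using hq
  have g1 := qcalc_ip (qcalc_dg_sm hh u) m u z w z w 0
  have g2 := qcalc_ip hh m u w 0 z w 0
  have g3 := qcalc_ip hh m u z w w 0 0
  simp only [smul_zero, add_zero] at g2 g3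
  have l1 : HasDerivAt (fun t : ℝ => ⟪pv P.κ P.N (ee 0) p.1, a⟫ + t * sS P.κ P.N (ee 0) a)
      (1 * sS P.κ P.N (ee 0) a) 0 := ((hasDerivAt_id (0 : ℝ)).mul_const _).const_add _
  have l2 : HasDerivAt (fun t : ℝ => ⟪pv P.κ P.N (ee 0) p.2, c⟫ + t * sS P.κ P.N (ee 0) c)
      (1 * sS P.κ P.N (ee 0) c) 0 := ((hasDerivAt_id (0 : ℝ)).mul_const _).const_add _
  have h := Dd.line12 (Θ := P.Th g) (p := p) (v := (a, c))
    (hc.of_le (WithTop.coe_le_coe.2 (le_top (a := (2 : ℕ∞)))))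
    (by
      rw [e]
      filter_upwards [hpos] with t ht
      exact (((hF t).log ht.ne').fun_sub (qcalc_log hB p.1 a t)).fun_sub (qcalc_log hB p.2 c t))
    (((((g1.fun_add g2).fun_add g3).fun_div (hF 0) hpos.self_of_nhds.ne').fun_sub l1).fun_sub l2)
  have s1 := qcalc_sym (fun j k => hs j k m) w z
  have s2 := qcalc_sym (fun j k => qcalc_dg_sym hs u j k m) w z
  have z1 : ip (hm g) m 0 z = 0 := by simp [ip]
  have z2 : ip (hm g) m z 0 = 0 := by simp [ip]
  have hE : ⟪Ev (hm g) m z, a + c⟫ = ip (dg (hm g) u) m z z / q := by rw [qcalc_Ev, ← eu, ← eq]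
  refine ⟨hc.differentiableAt (by simp), h.1.trans ?_, h.2.trans ?_⟩
  · simp only [zero_smul, add_zero, zero_mul, ← eq, s1, hE]
    ring
  · simp only [zero_smul, add_zero, ← eq, s1, s2, z1, z2, hE, qcalc_dg2 hh]
    field_simp
    ring

theorem q_calc [NeZero n] : QCalc n := by
  intro P g p m z q hB hh hs em ez eq hq
  have k := qcalc_main hB hh hs em ez eq hq
  have hi : ∀ a, ⟪(2 / q) • gl (hm g) m z, a⟫ = 2 * ip (hm g) m z a / q := fun a => by
    rw [real_inner_smul_left, gl_symm fun j k => hs j k m, ← ip_gl]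
    ring
  refine ⟨qcalc_w hB, ext_inner_right ℝ fun a => ?_, ext_inner_right ℝ fun a => ?_,
    fun a c u w eu ew => (k a c u w eu ew).2.2⟩
  · obtain ⟨k1, k2, -⟩ := k a 0 _ _ rfl rfl
    have e : ip (hm g) m z (0 - a) = -ip (hm g) m z a := by
      rw [ip_gl, ip_gl, zero_sub, map_neg, inner_neg_right]
    rw [Dd.grx_inner k1, k2, inner_sub_left, inner_add_left, inner_neg_left, hi, e, add_zero,
      inner_zero_right]
    ring
  · obtain ⟨k1, k2, -⟩ := k 0 a _ _ rfl rfl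
    rw [Dd.gry_inner k1, k2, inner_sub_left, inner_add_left, hi, sub_zero, zero_add,
      inner_zero_right]
    ring

end Vale.Agent.P088F
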