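import Vale.Agent.P088F.QDefs

/-! P088F part Q: the gauge error and the orthogonal part. -/

open scoped RealInnerProductSpace

noncomputable section

namespace Vale.Agent.P088F

open Vale.Agent.P292E

variable {n : ℕ}

theorem qgau_ip {u v : V n} {a b : ℝ} (hu : ‖u‖ ≤ a) (hv : ‖v‖ ≤ b) : |⟪u, v⟫| ≤ a * b :=
  (abs_real_inner_le_norm u v).trans
    (mul_le_mul hu hv (norm_nonneg _) ((norm_nonneg _).trans hu))

theorem qgau_mul {x y a b : ℝ} (hx : |x| ≤ a) (hy : |y| ≤ b) : |x * y| ≤ a * b :=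
  (abs_mul x y).trans_le (mul_le_mul hx hy (abs_nonneg _) ((abs_nonneg _).trans hx))

theorem qgau_nm {T : V n →ₗ[ℝ] V n} {δ c : ℝ} (h : ∀ v, ‖T v - v‖ ≤ δ * ‖v‖) (hc : 1 + δ ≤ c)
    (v : V n) : ‖T v‖ ≤ c * ‖v‖ := by
  have h1 := norm_sub_norm_le (T v) v
  have h2 := mul_le_mul_of_nonneg_right hc (norm_nonneg v)
  linarith [h v]

theorem qgau_cl {A G H : V n →ₗ[ℝ] V n} {δ ρ : ℝ} (hδ : 0 ≤ δ) (hρ : ρ ≤ 1) (hG : GH G H δ)
    (hA : CG A G (δ * ρ)) (v : V n) : ‖A v - v‖ ≤ 2 * δ * ‖v‖ := by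
  have h1 := norm_sub_le_norm_sub_add_norm_sub (A v) (G v) v
  have h2 := mul_le_mul_of_nonneg_right (mul_le_of_le_one_right hδ hρ) (norm_nonneg v)
  linarith [hA.cl v, hG.nG v]

theorem qgau_pos {T : V n →ₗ[ℝ] V n} {δ : ℝ} (h : ∀ v, ‖T v - v‖ ≤ δ * ‖v‖) (v : V n) :
    |⟪v, T v⟫ - ‖v‖ ^ 2| ≤ δ * ‖v‖ ^ 2 := by
  rw [← real_inner_self_eq_norm_sq, ← inner_sub_right, real_inner_self_eq_norm_sq]
  exact (qgau_ip le_rfl (h v)).trans_eq (by ring)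

theorem q_gau : QGau n := by
  intro δ N ρ hδ hδ' hN hρ hρ' A G H hG hA p X E ξ hp hX hE
  have nA := qgau_nm (c := 2) (qgau_cl hδ hρ' hG hA) (by linarith)
  have nG := qgau_nm (c := 2) hG.nG (by linarith)
  have nH := qgau_nm (c := 2) hG.nH (by linarith)
  have t1 := qgau_mul (qgau_ip hp (nA ξ)) (qgau_ip hE (nA ξ))
  have t2 := qgau_mul (qgau_ip hp ((hA.cl X).trans
    (mul_le_mul_of_nonneg_left hX (mul_nonneg hδ hρ.le)))) (qgau_ip (le_refl ‖ξ‖) (nA ξ))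
  have t3 := qgau_mul (qgau_ip hp ((nA E).trans (mul_le_mul_of_nonneg_left hE zero_le_two)))
    (qgau_ip (le_refl ‖ξ‖) (nA ξ))
  have t4 := qgau_mul (qgau_ip hp ((nG X).trans (mul_le_mul_of_nonneg_left hX zero_le_two)))
    (qgau_ip (nA ξ) ((nH (A ξ - G ξ)).trans (mul_le_mul_of_nonneg_left (hA.cl ξ) zero_le_two)))
  have e1 : 2 * N * (δ * ρ * (8 / ρ)) * (‖ξ‖ * (2 * ‖ξ‖)) = 32 * (δ * N * ‖ξ‖ ^ 2) := by
    field_simp
    ring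
  have e2 : 2 * N * (2 * (8 / ρ)) * (2 * ‖ξ‖ * (2 * (δ * ρ * ‖ξ‖))) = 128 * (δ * N * ‖ξ‖ ^ 2) := by
    field_simp
    ring
  have e3 : 0 ≤ δ * N * ‖ξ‖ ^ 2 := by positivity
  rw [e1, inner_sub_right] at t2
  rw [e2, map_sub, hG.hg, inner_sub_right, real_inner_comm ξ] at t4
  rw [map_add, inner_add_left, inner_add_right, abs_le]
  constructor
  · linarith [abs_le.1 t1, abs_le.1 t2, abs_le.1 t3, abs_le.1 t4]
  · linarith [abs_le.1 t1, abs_le.1 t2, abs_le.1 t3, abs_le.1 t4]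

theorem qgau_sq {A : V n →ₗ[ℝ] V n} (hs : ∀ u v, ⟪A u, v⟫ = ⟪u, A v⟫)
    (h : ∀ v, ‖A v - v‖ ≤ 1 / 50 * ‖v‖) (ξ w : V n) (t : ℝ) :
    ⟪ξ, A ξ⟫ - ⟪w, A ξ⟫ ^ 2 / ⟪w, A w⟫ ≤ 51 / 50 * ‖ξ - t • w‖ ^ 2 := by
  have h1 := (abs_le.1 (qgau_pos h (ξ - t • w))).2
  have e : ⟪ξ, A w⟫ = ⟪w, A ξ⟫ := by rw [← hs, real_inner_comm]
  simp only [map_sub, map_smul, inner_sub_left, inner_sub_right, real_inner_smul_left,
    real_inner_smul_right, e] at h1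
  rcases eq_or_ne w 0 with rfl | hw
  · simp only [inner_zero_left] at h1 ⊢
    rw [div_zero]
    linarith
  · have h2 : 0 < ⟪w, A w⟫ := by
      have h3 := pow_pos (norm_pos_iff.2 hw) 2
      linarith [(abs_le.1 (qgau_pos h w)).1]
    have h3 : 2 * t * ⟪w, A ξ⟫ - t ^ 2 * ⟪w, A w⟫ ≤ ⟪w, A ξ⟫ ^ 2 / ⟪w, A w⟫ := by
      rw [le_div_iff₀ h2]
      linarith [sq_nonneg (t * ⟪w, A w⟫ - ⟪w, A ξ⟫)]
    linarith

theorem q_perp : QPerp n := by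
  intro δ N ρ s q hδ hδ' hN hρ hρ' hs A G H hG hA z F ξ ϖ hz hq hF hϖ
  have x0 := norm_nonneg ξ
  have cA : ∀ v, ‖A v - v‖ ≤ 1 / 50 * ‖v‖ := fun v => (qgau_cl hδ hρ' hG hA v).trans
    (mul_le_mul_of_nonneg_right (by linarith) (norm_nonneg v))
  have nA := qgau_nm (c := 51 / 50) cA (by norm_num)
  have nH := qgau_nm (c := 101 / 100) hG.nH (by linarith)
  have q0 : 0 < q := by
    have h1 := (abs_le.1 (qgau_pos hG.nH z)).1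
    have h2 := pow_pos hρ 2
    have h3 := mul_le_mul_of_nonneg_right hδ' h2.le
    rw [hz, ← hq] at h1
    linarith
  obtain ⟨c, hc⟩ : ∃ c, c = ⟪z, H (A ξ)⟫ := ⟨_, rfl⟩
  obtain ⟨y, hy⟩ : ∃ y, y = H (A ξ - (c / q) • z) := ⟨_, rfl⟩
  have e1 : ξ - (s * c / 2) • ϖ = y + (H (G ξ - A ξ) - (s * c / 2) • F) := by
    have e : s * c / 2 * (s * (2 / q)) = c / q := by
      rw [show s * c / 2 * (s * (2 / q)) = s ^ 2 * (c / q) by ring, hs, one_mul]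
    rw [hϖ, smul_add, smul_smul, e, hy, map_sub, map_sub, map_smul, hG.hg]
    abel
  have e2 : ⟪y, G y⟫ = ⟪A ξ, H (A ξ)⟫ - c ^ 2 / q := by
    have e : ⟪A ξ, H z⟫ = c := by rw [hc, ← hG.sH, real_inner_comm]
    rw [real_inner_comm, hy, hG.gh]
    simp only [map_sub, map_smul, inner_sub_left, inner_sub_right, real_inner_smul_left,
      real_inner_smul_right, e, ← hc, ← hq]
    field_simp
    ring
  have h1 : 99 / 100 * ‖y‖ ^ 2 ≤ ⟪y, G y⟫ := by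
    have h3 := mul_le_mul_of_nonneg_right hδ' (sq_nonneg ‖y‖)
    linarith [(abs_le.1 (qgau_pos hG.nG y)).1]
  have r0 : ρ * ‖ξ‖ ≤ ρ * N * ‖ξ‖ :=
    mul_le_mul_of_nonneg_right (le_mul_of_one_le_right hρ.le hN) x0
  have h2 : ‖H (G ξ - A ξ)‖ ≤ 1 / 50 * (ρ * N * ‖ξ‖) := by
    have h3 := hA.cl ξ
    have h4 := mul_le_mul_of_nonneg_right hδ' (mul_nonneg hρ.le x0)
    rw [norm_sub_rev] at h3
    linarith [nH (G ξ - A ξ), mul_nonneg hρ.le x0]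
  have h3 : ‖(s * c / 2) • F‖ ≤ 8 / 5 * (ρ * N * ‖ξ‖) := by
    have h4 : |c| ≤ ρ * (101 / 100 * (51 / 50 * ‖ξ‖)) := hc ▸ qgau_ip hz.le
      ((nH _).trans (mul_le_mul_of_nonneg_left (nA ξ) (by norm_num)))
    have h5 : |s| = 1 := (pow_eq_one_iff_of_nonneg (abs_nonneg s) two_ne_zero).1
      ((sq_abs s).trans hs)
    have h6 := mul_le_mul h4 hF (norm_nonneg _) ((abs_nonneg _).trans h4)
    have h7 : 0 ≤ ρ * N * ‖ξ‖ := by positivity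
    rw [norm_smul, Real.norm_eq_abs, abs_div, abs_mul, h5, one_mul, abs_two]
    linarith
  have h4 : ‖ξ - (s * c / 2) • ϖ‖ ≤ ‖y‖ + 2 * (ρ * N * ‖ξ‖) := by
    rw [e1]
    linarith [norm_add_le y (H (G ξ - A ξ) - (s * c / 2) • F),
      norm_sub_le (H (G ξ - A ξ)) ((s * c / 2) • F), mul_nonneg hρ.le x0]
  have h5 := pow_le_pow_left₀ (norm_nonneg _) h4 2
  have h6 := qgau_sq hA.sA cA ξ ϖ (s * c / 2)
  rw [← hc, ← e2]
  linarith [sq_nonneg (‖y‖ - 2 * (ρ * N * ‖ξ‖)), sq_nonneg (ρ * N * ‖ξ‖), sq_nonneg ‖y‖]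

end Vale.Agent.P088F
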