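import Vale.Agent.P088F.QDefs

/-! P088F part Q: bounds for the entries and cancellation of the connection terms. -/

open scoped ContDiff Topology RealInnerProductSpace
open Set Filter Metric

noncomputable section

namespace Vale.Agent.P088F

open Vale.Agent.P292E

variable {n : ℕ}

theorem qhs_ee (i : Fin n) : ‖(ee i : V n)‖ = 1 := by
  simp [ee]

theorem qhs_app (L : V n →L[ℝ] ℝ) (i : Fin n) : |L (ee i)| ≤ ‖L‖ := by
  have h := L.le_opNorm (ee i)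
  rw [qhs_ee, mul_one] at h
  exact h

theorem qhs_b0 {f : V n → ℝ} {t ε : ℝ} (h : Bd 3 (fun x => f x - t) univ ε) (x : V n) :
    |f x - t| ≤ ε := by
  have h0 := h 0 (by norm_num) x (mem_univ _)
  rw [norm_iteratedFDeriv_zero] at h0
  exact h0

theorem qhs_b1 {f : V n → ℝ} {t ε : ℝ} (h : Bd 3 (fun x => f x - t) univ ε) (x : V n) :
    ‖fderiv ℝ f x‖ ≤ ε := by
  have h0 := h 1 (by norm_num) x (mem_univ _)
  rw [norm_iteratedFDeriv_one, fderiv_sub_const] at h0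
  exact h0

theorem qhs_b2 {f : V n → ℝ} {t ε : ℝ} (h : Bd 3 (fun x => f x - t) univ ε) (x : V n) :
    ‖fderiv ℝ (fderiv ℝ f) x‖ ≤ ε := by
  have h0 := h 2 (by norm_num) x (mem_univ _)
  have e : fderiv ℝ (fun x => f x - t) = fderiv ℝ f := by
    funext y
    exact fderiv_sub_const t
  rw [← norm_iteratedFDeriv_fderiv, norm_iteratedFDeriv_one, e] at h0
  exact h0

theorem q_ent : QEnt n := by
  intro ε c ρ f f' t x y hε ht hf hf' hb hb' hc hxy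
  have hε0 : 0 ≤ ε := (abs_nonneg _).trans (qhs_b0 hb x)
  have d1 : Differentiable ℝ f := hf.differentiable (by simp)
  have d1' : Differentiable ℝ f' := hf'.differentiable (by simp)
  have d2' : Differentiable ℝ (fderiv ℝ f') :=
    (hf'.fderiv_right (m := ∞) (by simp)).differentiable (by simp)
  have m1 : ‖f' y - f' x‖ ≤ ε * ρ :=
    ((convex_univ (𝕜 := ℝ) (E := V n)).norm_image_sub_le_of_norm_fderiv_le
      (fun z _ => d1' z) (fun z _ => qhs_b1 hb' z) (mem_univ x) (mem_univ y)).trans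
      (mul_le_mul_of_nonneg_left hxy hε0)
  have m2 : ‖fderiv ℝ f' y - fderiv ℝ f' x‖ ≤ ε * ρ :=
    ((convex_univ (𝕜 := ℝ) (E := V n)).norm_image_sub_le_of_norm_fderiv_le
      (fun z _ => d2' z) (fun z _ => qhs_b2 hb' z) (mem_univ x) (mem_univ y)).trans
      (mul_le_mul_of_nonneg_left hxy hε0)
  have c0 : |f x - f' x| ≤ c * ρ := by
    have h0 := hc 0 (by norm_num)
    rw [norm_iteratedFDeriv_zero] at h0
    exact h0
  have c1 : ‖fderiv ℝ f x - fderiv ℝ f' x‖ ≤ c * ρ := by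
    have h0 := hc 1 (by norm_num)
    rw [norm_iteratedFDeriv_one, fderiv_fun_sub (d1 x) (d1' x)] at h0
    exact h0
  have a0 := abs_le.1 (qhs_b0 hb x)
  have a0' := abs_le.1 (qhs_b0 hb' y)
  have at' := abs_le.1 ht
  rw [Real.norm_eq_abs] at m1
  have am := abs_le.1 m1
  have ac := abs_le.1 c0
  refine ⟨abs_le.2 ⟨by linarith [a0.1, at'.1], by linarith [a0.2, at'.2]⟩,
    abs_le.2 ⟨by linarith [a0'.1, at'.1], by linarith [a0'.2, at'.2]⟩,
    abs_le.2 ⟨by linarith [am.2, ac.1], by linarith [am.1, ac.2]⟩, fun i => ⟨?_, ?_, ?_⟩⟩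
  · exact (qhs_app _ i).trans (qhs_b1 hb x)
  · exact (qhs_app _ i).trans (qhs_b1 hb' y)
  · have h1 := abs_le.1 ((qhs_app _ i).trans m2)
    have h2 := abs_le.1 ((qhs_app _ i).trans c1)
    rw [sub_apply] at h1 h2
    unfold pr
    exact abs_le.2 ⟨by linarith [h1.2, h2.1], by linarith [h1.1, h2.2]⟩

theorem qhs_m4 {a b c d A B C D : ℝ} (ha : |a| ≤ A) (hb : |b| ≤ B) (hc : |c| ≤ C) (hd : |d| ≤ D) :
    |a * b * c * d| ≤ A * B * C * D := by
  have hA := (abs_nonneg _).trans ha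
  have hB := (abs_nonneg _).trans hb
  have hC := (abs_nonneg _).trans hc
  rw [abs_mul, abs_mul, abs_mul]
  gcongr

theorem qhs_prod {g g' p p' δ ρ : ℝ} (hg : |g| ≤ 2) (hg' : |g'| ≤ 2) (hd : |g - g'| ≤ δ * ρ)
    (hp : |p| ≤ δ) (hp' : |p'| ≤ δ) (hq : |p - p'| ≤ δ * ρ) (h1 : δ ≤ 1) :
    |g * p| ≤ 2 * δ ∧ |g' * p'| ≤ 2 * δ ∧ |g' * p' - g * p| ≤ 3 * δ * ρ := by
  have h0 := (abs_nonneg _).trans hd
  refine ⟨?_, ?_, ?_⟩
  · rw [abs_mul]; gcongr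
  · rw [abs_mul]; gcongr
  · have e : g' * p' - g * p = -((g - g') * p' + g * (p - p')) := by ring
    rw [e, abs_neg]
    have k1 : |(g - g') * p'| ≤ δ * ρ * 1 := by
      rw [abs_mul]
      exact mul_le_mul hd (hp'.trans h1) (abs_nonneg _) h0
    have k2 : |g * (p - p')| ≤ 2 * (δ * ρ) := by
      rw [abs_mul]
      exact mul_le_mul hg hq (abs_nonneg _) (by norm_num)
    linarith [abs_add_le ((g - g') * p') (g * (p - p'))]

theorem qhs_term {G G' a b a' b' z f f' δ ρ N A A' D : ℝ} (hδ : 0 ≤ δ) (hρ : 0 < ρ) (hN : 1 ≤ N)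
    (hG : |G| ≤ 2 * δ) (hG' : |G'| ≤ 2 * δ) (hd : |G' - G| ≤ 3 * δ * ρ) (ha : |a| ≤ A)
    (hb : |b| ≤ A) (ha' : |a'| ≤ A') (hb' : |b'| ≤ A') (da : |a' - a| ≤ D) (db : |b' - b| ≤ D)
    (hz : |z| ≤ 6 / ρ) (hf : |f| ≤ 3 * N) (hf' : |f'| ≤ 3 * N) :
    |G * a * b * (-z + f) + G' * a' * b' * (z + f')| ≤
      24 * δ * (D / ρ * (A + A') + N * (A ^ 2 + A' ^ 2)) := by
  have hA := (abs_nonneg _).trans ha
  have hA' := (abs_nonneg _).trans ha'
  have hD := (abs_nonneg _).trans da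
  have e : G * a * b * (-z + f) + G' * a' * b' * (z + f') =
      (G' - G) * a * b * z + G' * (a' - a) * b' * z + G' * a * (b' - b) * z + G * a * b * f +
        G' * a' * b' * f' := by ring
  have k1 := abs_le.1 (qhs_m4 hd ha hb hz)
  have k2 := abs_le.1 (qhs_m4 hG' da hb' hz)
  have k3 := abs_le.1 (qhs_m4 hG' ha db hz)
  have k4 := abs_le.1 (qhs_m4 hG ha hb hf)
  have k5 := abs_le.1 (qhs_m4 hG' ha' hb' hf')
  have e1 : 3 * δ * ρ * A * A * (6 / ρ) = 18 * (δ * A ^ 2) := by field_simp; ring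
  have e2 : 2 * δ * D * A' * (6 / ρ) = 12 * (δ * (D / ρ) * A') := by ring
  have e3 : 2 * δ * A * D * (6 / ρ) = 12 * (δ * (D / ρ) * A) := by ring
  have e4 : 2 * δ * A * A * (3 * N) = 6 * (δ * A ^ 2 * N) := by ring
  have e5 : 2 * δ * A' * A' * (3 * N) = 6 * (δ * A' ^ 2 * N) := by ring
  have e6 : 24 * δ * (D / ρ * (A + A') + N * (A ^ 2 + A' ^ 2)) =
      24 * (δ * (D / ρ) * A) + 24 * (δ * (D / ρ) * A') + 24 * (δ * A ^ 2 * N) +
        24 * (δ * A' ^ 2 * N) := by ring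
  have p1 : δ * A ^ 2 ≤ δ * A ^ 2 * N := le_mul_of_one_le_right (by positivity) hN
  have p2 : 0 ≤ δ * (D / ρ) * A := by positivity
  have p3 : 0 ≤ δ * (D / ρ) * A' := by positivity
  have p4 : 0 ≤ δ * A' ^ 2 * N := by
    have : 0 ≤ N := by linarith
    positivity
  rw [e1] at k1
  rw [e2] at k2
  rw [e3] at k3
  rw [e4] at k4
  rw [e5] at k5
  rw [e, e6]
  exact abs_le.2 ⟨by linarith [k1.1, k2.1, k3.1, k4.1, k5.1],
    by linarith [k1.2, k2.2, k3.2, k4.2, k5.2]⟩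

theorem qhs_sum1 {T : Fin n → ℝ} {B : ℝ} (h : ∀ i, |T i| ≤ B) : |∑ i, T i| ≤ n * B := by
  refine (Finset.abs_sum_le_sum_abs _ _).trans ((Finset.sum_le_sum fun i _ => h i).trans ?_)
  simp

theorem qhs_sum4 {T : Fin n → Fin n → Fin n → Fin n → ℝ} {B : ℝ} (h : ∀ i j k l, |T i j k l| ≤ B) :
    |∑ i, ∑ j, ∑ k, ∑ l, T i j k l| ≤ n * (n * (n * (n * B))) :=
  qhs_sum1 fun i => qhs_sum1 fun j => qhs_sum1 fun k => qhs_sum1 fun l => h i j k l

theorem qhs_exp (g : Mf n) (x w ξ : V n) :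
    hsT g x w ξ = ∑ i, ∑ k, ∑ l, ∑ j, g i j x * pr i (g k l) x * ξ j * ξ k * w l -
      1 / 2 * ∑ l, ∑ j, ∑ k, ∑ m, g l m x * pr l (g j k) x * ξ j * ξ k * w m := by
  unfold hsT
  simp only [gv, Finset.sum_mul]
  congr 1
  · exact Finset.sum_congr rfl fun i _ => Finset.sum_congr rfl fun k _ =>
      Finset.sum_congr rfl fun l _ => Finset.sum_congr rfl fun j _ => by ring
  · congr 1
    exact Finset.sum_congr rfl fun i _ => Finset.sum_congr rfl fun k _ =>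
      Finset.sum_congr rfl fun l _ => Finset.sum_congr rfl fun j _ => by ring

theorem qhs_co (u : V n) (i : Fin n) : |u i| ≤ ‖u‖ := PiLp.norm_apply_le u i

theorem q_hs : QHs n := by
  refine ⟨36 * (n : ℝ) ^ 4 + 1, le_add_of_nonneg_left (by positivity), ?_⟩
  intro δ N ρ g g' x y Z F F' ξ ζ hδ hδ1 hN hρ hg hZ hF hF'
  have key : ∀ i j k l a b c : Fin n,
      |g i j x * pr i (g k l) x * ξ a * ξ b * (-Z + F) c +
        g' i j y * pr i (g' k l) y * ζ a * ζ b * (Z + F') c| ≤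
        24 * δ * (‖ζ - ξ‖ / ρ * (‖ξ‖ + ‖ζ‖) + N * (‖ξ‖ ^ 2 + ‖ζ‖ ^ 2)) := by
    intro i j k l a b c
    obtain ⟨h1, h2, h3, -⟩ := hg i j
    obtain ⟨h4, h5, h6⟩ := (hg k l).2.2.2 i
    obtain ⟨k1, k2, k3⟩ := qhs_prod h1 h2 h3 h4 h5 h6 hδ1
    exact qhs_term hδ hρ hN k1 k2 k3 (qhs_co ξ a) (qhs_co ξ b) (qhs_co ζ a) (qhs_co ζ b)
      (qhs_co (ζ - ξ) a) (qhs_co (ζ - ξ) b) ((qhs_co Z c).trans hZ) ((qhs_co F c).trans hF)
      ((qhs_co F' c).trans hF')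
  have s1 := abs_le.1 (qhs_sum4 fun i k l j => key i j k l j k l)
  have s2 := abs_le.1 (qhs_sum4 fun l j k m => key l m j k j k m)
  simp only [Finset.sum_add_distrib] at s1 s2
  rw [qhs_exp, qhs_exp]
  have hN0 : 0 ≤ N := by linarith
  generalize hB : ‖ζ - ξ‖ / ρ * (‖ξ‖ + ‖ζ‖) + N * (‖ξ‖ ^ 2 + ‖ζ‖ ^ 2) = B at s1 s2 ⊢
  have hB0 : 0 ≤ δ * B := by
    rw [← hB]
    positivity
  have e1 : (n : ℝ) * (n * (n * (n * (24 * δ * B)))) = 24 * ((n : ℝ) ^ 4 * (δ * B)) := by ring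
  have e2 : (36 * (n : ℝ) ^ 4 + 1) * δ * B = 36 * ((n : ℝ) ^ 4 * (δ * B)) + δ * B := by ring
  rw [e1] at s1 s2
  rw [e2]
  exact abs_le.2 ⟨by linarith [s1.1, s2.2], by linarith [s1.2, s2.1]⟩

end Vale.Agent.P088F
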