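import Vale.Agent.P088F.QHs
import Vale.Agent.P088F.EInv

/-! P088F part Q: the inverse field. -/

open scoped ContDiff RealInnerProductSpace
open Set

noncomputable section

namespace Vale.Agent.P088F

open Vale.Agent.P292E

variable {n : ℕ}

theorem qinv_comp {a b : Mf n} {x : V n} (h : ∀ j k, ∑ l, a j l x * b l k x = dl j k) (w : V n) :
    gl a x (gl b x w) = w := by
  ext j
  simp only [gl_apply, Finset.mul_sum, ← mul_assoc]
  rw [Finset.sum_comm]
  simp only [← Finset.sum_mul, h, dl_sum]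

theorem qinv_prod {a b : Mf n} (ha : ∀ j k, ContDiff ℝ ∞ (a j k)) (hb : ∀ j k, ContDiff ℝ ∞ (b j k))
    (x u w : V n) (j : Fin n) :
    HasDerivAt (fun t : ℝ => gl a (x + t • u) (gl b (x + t • u) w) j)
      ((gl (dg a u) x (gl b x w) + gl a x (gl (dg b u) x w)) j) 0 := by
  have d : ∀ f : V n → ℝ, ContDiff ℝ ∞ f →
      HasDerivAt (fun t : ℝ => f (x + t • u)) (fderiv ℝ f x u) 0 := fun f hf =>
    (hf.differentiable (by simp) x).hasFDerivAt.hasLineDerivAt u
  have h := HasDerivAt.fun_sum (u := Finset.univ) fun k _ => (d _ (ha j k)).fun_mul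
    (HasDerivAt.fun_sum (u := Finset.univ) fun l _ => (d _ (hb k l)).mul_const (w l))
  refine h.congr_deriv ?_
  simp [gl_apply, dg, Finset.sum_add_distrib]

theorem qinv_dg {a : Mf n} (ha : ∀ j k, ContDiff ℝ ∞ (a j k)) (u : V n) (j k : Fin n) :
    ContDiff ℝ ∞ (dg a u j k) :=
  ((ha j k).fderiv_right (m := ∞) (by simp)).clm_apply contDiff_const

theorem qinv_dg2 {a : Mf n} (ha : ∀ j k, ContDiff ℝ ∞ (a j k)) (u : V n) :
    dg (dg a u) u = dg2 a u := by
  funext j k x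
  have h := (((ha j k).fderiv_right (m := ∞) (by simp)).differentiable (by simp) x).hasFDerivAt
  have h1 := (h.clm_apply (hasFDerivAt_const u x)).fderiv
  change fderiv ℝ (fun x => fderiv ℝ (a j k) x u) x u = _
  rw [h1]
  simp [dg2]

theorem q_inv : QInv n := by
  refine ⟨1 / (2 * (n + 1)), 12 * (n + 1), by positivity,
    by linarith [(Nat.cast_nonneg n : (0 : ℝ) ≤ n)], fun ε g h0 h1 hs hy hb => ?_⟩
  obtain ⟨s, hs1, hs2, hs3, hs0⟩ : ∃ s : ℝ, n * ε = s ∧ s ≤ 1 / 2 ∧ 12 * s ≤ 12 * (n + 1) * ε ∧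
      0 ≤ s := by
    rw [le_div_iff₀ (by positivity)] at h1
    exact ⟨_, rfl, by nlinarith, by nlinarith, by positivity⟩
  have a0 : ∀ x v, ‖gl g x v - v‖ ≤ s * ‖v‖ := fun x v => by
    have h := gl_close (g' := fun j k _ => dl j k) (y := x) (fun j k => qhs_b0 (hb j k) x) v
    have e : gl (fun j k _ => dl j k) x v = v := by
      ext j
      exact dl_sum j v
    rwa [e, hs1] at h
  have a1 : ∀ x u v, ‖gl (dg g u) x v‖ ≤ s * ‖u‖ * ‖v‖ := fun x u v => by
    have h := gl_le (g := dg g u) (x := x) (s := ε * ‖u‖) (fun j k =>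
      ((fderiv ℝ (g j k) x).le_opNorm u).trans (by gcongr; exact qhs_b1 (hb j k) x)) v
    rwa [← mul_assoc, hs1] at h
  have a2 : ∀ x u v, ‖gl (dg2 g u) x v‖ ≤ s * ‖u‖ ^ 2 * ‖v‖ := fun x u v => by
    have h := gl_le (g := dg2 g u) (x := x) (s := ε * ‖u‖ * ‖u‖) (fun j k =>
      ((fderiv ℝ (fderiv ℝ (g j k)) x).le_opNorm₂ u u).trans
        (by gcongr; exact qhs_b2 (hb j k) x)) v
    rw [← hs1]
    exact h.trans_eq (by ring)
  have a3 : ∀ x v, ‖v‖ ≤ 2 * ‖gl g x v‖ := fun x v => by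
    have h := norm_sub_norm_le v (gl g x v)
    rw [norm_sub_rev] at h
    nlinarith [a0 x v, norm_nonneg v]
  have gs : GS g := ⟨hs, hy, fun x v hv => by
    have h := abs_real_inner_le_norm v (gl g x v - v)
    rw [inner_sub_right, real_inner_self_eq_norm_sq, ← ip_gl] at h
    have h2 := mul_le_mul_of_nonneg_left (a0 x v) (norm_nonneg v)
    have h3 : 0 < ‖v‖ ^ 2 := by positivity
    nlinarith [(abs_le.1 h).1]⟩
  have hi : ∀ j k, ContDiff ℝ ∞ (hm g j k) := gs.ism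
  have gh : ∀ x v, gl g x (gl (hm g) x v) = v := fun x => qinv_comp (gs.mul_inv x)
  have b0 : ∀ x v, ‖gl (hm g) x v‖ ≤ 2 * ‖v‖ := fun x v => by
    have h := a3 x (gl (hm g) x v)
    rwa [gh] at h
  have d1 : ∀ x u w, gl (dg g u) x (gl (hm g) x w) + gl g x (gl (dg (hm g) u) x w) = 0 := by
    intro x u w
    ext j
    have h := qinv_prod hs hi x u w j
    simp only [gh] at h
    exact h.unique (hasDerivAt_const _ _)
  have d2 : ∀ x u w, gl g x (gl (dg2 (hm g) u) x w) = -gl (dg2 g u) x (gl (hm g) x w) -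
      (2 : ℝ) • gl (dg g u) x (gl (dg (hm g) u) x w) := by
    intro x u w
    ext j
    have h := (qinv_prod (qinv_dg hs u) hi x u w j).fun_add (qinv_prod hs (qinv_dg hi u) x u w j)
    simp only [← PiLp.add_apply, d1, qinv_dg2 hs, qinv_dg2 hi] at h
    have h2 := h.unique (hasDerivAt_const _ _)
    simp only [PiLp.add_apply, PiLp.sub_apply, PiLp.neg_apply, PiLp.smul_apply, smul_eq_mul] at h2 ⊢
    linarith
  have b1 : ∀ x u w, ‖gl (dg (hm g) u) x w‖ ≤ 4 * s * ‖u‖ * ‖w‖ := fun x u w => by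
    have h := a3 x (gl (dg (hm g) u) x w)
    rw [eq_neg_of_add_eq_zero_right (d1 x u w), norm_neg] at h
    have h2 := (a1 x u _).trans (mul_le_mul_of_nonneg_left (b0 x w) (by positivity))
    linarith
  have b2 : ∀ x u w, ‖gl (dg2 (hm g) u) x w‖ ≤ 12 * s * ‖u‖ ^ 2 * ‖w‖ := fun x u w => by
    have h := a3 x (gl (dg2 (hm g) u) x w)
    rw [d2] at h
    have h1 := norm_sub_le (-gl (dg2 g u) x (gl (hm g) x w))
      ((2 : ℝ) • gl (dg g u) x (gl (dg (hm g) u) x w))
    rw [norm_neg, norm_smul, Real.norm_two] at h1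
    have h2 := (a2 x u _).trans (mul_le_mul_of_nonneg_left (b0 x w) (by positivity))
    have h3 := (a1 x u _).trans (mul_le_mul_of_nonneg_left (b1 x u w) (by positivity))
    have h4 : 0 ≤ s * ‖u‖ ^ 2 * ‖w‖ := by positivity
    nlinarith
  refine ⟨hi, fun j k x => gs.isymm x j k, fun x => ⟨gl_symm fun j k => hy j k x,
    gl_symm fun j k => gs.isymm x j k, gh x, qinv_comp (gs.inv_mul x), fun v =>
    (a0 x v).trans (by gcongr ?_ * _; linarith), fun v => ?_⟩, fun x u z w => ?_, fun x u z => ?_⟩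
  · have h := a0 x (gl (hm g) x v)
    rw [gh, norm_sub_rev] at h
    refine (h.trans (mul_le_mul_of_nonneg_left (b0 x v) hs0)).trans ?_
    rw [← mul_assoc]
    exact mul_le_mul_of_nonneg_right (by linarith) (norm_nonneg v)
  · rw [ip_gl]
    calc _ ≤ ‖z‖ * (4 * s * ‖u‖ * ‖w‖) :=
          (abs_real_inner_le_norm _ _).trans (by gcongr; exact b1 x u w)
      _ ≤ ‖z‖ * (12 * (n + 1) * ε * ‖u‖ * ‖w‖) := by gcongr _ * (?_ * _ * _); linarith
      _ = _ := by ring
  · rw [ip_gl]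
    calc _ ≤ ‖z‖ * (12 * s * ‖u‖ ^ 2 * ‖z‖) :=
          (abs_real_inner_le_norm _ _).trans (by gcongr; exact b2 x u z)
      _ ≤ ‖z‖ * (12 * (n + 1) * ε * ‖u‖ ^ 2 * ‖z‖) := by gcongr _ * (?_ * _ * _)
      _ = _ := by ring

end Vale.Agent.P088F
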