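import Vale.Agent.P088F.QSc

/-! P088F, part Q: the inequality for a frozen metric. -/

open scoped RealInnerProductSpace

namespace Vale.Agent.P088F

open Vale.Agent.P292E

variable {n : ℕ}

theorem qsc2_near {A : V n →ₗ[ℝ] V n} {δ : ℝ} (h : ∀ v, ‖A v - v‖ ≤ δ * ‖v‖) (hδ : δ ≤ 1 / 100)
    (u v : V n) : |⟪u, A v⟫ - ⟪u, v⟫| ≤ 1 / 100 * ‖u‖ * ‖v‖ := by
  rw [← inner_sub_right]
  have h1 := mul_le_mul_of_nonneg_left ((h v).trans (mul_le_mul_of_nonneg_right hδ (norm_nonneg v)))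
    (norm_nonneg u)
  linarith [abs_real_inner_le_norm u (A v - v)]

theorem qsc2_abs {A : V n →ₗ[ℝ] V n} {δ : ℝ} (h : ∀ v, ‖A v - v‖ ≤ δ * ‖v‖) (hδ : δ ≤ 1 / 100)
    {u v : V n} {a b : ℝ} (hu : ‖u‖ ≤ a) (hv : ‖v‖ ≤ b) : |⟪u, A v⟫| ≤ 3 / 2 * a * b := by
  have h1 := abs_sub_abs_le_abs_sub ⟪u, A v⟫ ⟪u, v⟫
  have h2 := mul_le_mul hu hv (norm_nonneg _) ((norm_nonneg _).trans hu)
  linarith [qsc2_near h hδ u v, abs_real_inner_le_norm u v, mul_nonneg (norm_nonneg u) (norm_nonneg v)]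

theorem qsc2_low {A : V n →ₗ[ℝ] V n} {δ : ℝ} (h : ∀ v, ‖A v - v‖ ≤ δ * ‖v‖) (hδ : δ ≤ 1 / 100)
    (v : V n) : 99 / 100 * ‖v‖ ^ 2 ≤ ⟪v, A v⟫ := by
  have h1 := (abs_le.1 (qsc2_near h hδ v v)).1
  rw [real_inner_self_eq_norm_sq] at h1
  linarith

theorem qsc2_inner {u v : V n} {a b : ℝ} (hu : ‖u‖ ≤ a) (hv : ‖v‖ ≤ b) : |⟪u, v⟫| ≤ a * b :=
  (abs_real_inner_le_norm u v).trans (mul_le_mul hu hv (norm_nonneg _) ((norm_nonneg _).trans hu))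

theorem qsc2_sv (κ N : ℝ) (e u v : V n) :
    ⟪sv κ N e u, v⟫ = N * (κ * (2 * ⟪u, v⟫ - 8 * ⟪e, u⟫ * ⟪e, v⟫)) := by
  simp only [sv, real_inner_smul_left, inner_sub_left]
  ring

theorem qsc2_sS (κ N : ℝ) (e u : V n) : sS κ N e u = ⟪sv κ N e u, u⟫ := by
  rw [qsc2_sv, sS, real_inner_self_eq_norm_sq]
  ring

theorem qsc2_nsv {κ N : ℝ} (hκ : 0 ≤ κ) (hN : 0 ≤ N) {e : V n} (he : ‖e‖ = 1) (u : V n) :
    ‖sv κ N e u‖ ≤ 10 * κ * N * ‖u‖ := by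
  have h1 : ‖(2 : ℝ) • u - (8 * ⟪e, u⟫) • e‖ ≤ 10 * ‖u‖ := by
    have h2 := qsc2_inner he.le (le_refl ‖u‖)
    refine (norm_sub_le _ _).trans ?_
    rw [norm_smul, norm_smul, he, Real.norm_eq_abs, Real.norm_eq_abs, abs_mul, abs_two,
      abs_of_pos (show (0 : ℝ) < 8 by norm_num)]
    linarith
  rw [sv, norm_smul, Real.norm_of_nonneg (mul_nonneg hN hκ)]
  linarith [mul_le_mul_of_nonneg_left h1 (mul_nonneg hN hκ)]

theorem qsc2_npv {κ N : ℝ} (hκ : 0 ≤ κ) (hκ1 : κ ≤ 1 / 1000) (hN : 0 ≤ N) {e x : V n}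
    (he : ‖e‖ = 1) (hx : ‖x‖ ≤ 3) : ‖pv κ N e x‖ ≤ 2 * N := by
  refine (norm_add_le _ _).trans ?_
  have h1 := mul_le_mul_of_nonneg_left hx (show 0 ≤ 10 * κ * N by positivity)
  have h2 := mul_le_mul_of_nonneg_right hκ1 hN
  rw [norm_smul, he, Real.norm_of_nonneg hN]
  linarith [qsc2_nsv hκ hN he x]

theorem qsc2_plane {κ δ N q : ℝ} (hκ : 0 < κ) (hκ1 : κ ≤ 1 / 1000) (hδ : δ ≤ 1 / 100) (hN : 1 ≤ N)
    {G H : V n →ₗ[ℝ] V n} (h : GH G H δ) {z e x p u : V n} (he : ‖e‖ = 1) (hx : ‖x‖ ≤ 2)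
    (hq : q = ⟪z, H z⟫) (hq0 : 0 < q) (hp : p = pv κ N e x) (hu : ⟪z, H u⟫ = 0) :
    2 * κ * N * ⟪u, H u⟫ ≤ (⟪p, G p⟫ - ⟪p, z⟫ ^ 2 / q) * ⟪u, H u⟫ - ⟪p, u⟫ ^ 2 -
      ⟪sv κ N e u, u⟫ - ⟪sv κ N e z, z⟫ / q * ⟪u, H u⟫ := by
  have hN0 : 0 < N := by linarith
  have pos : ∀ v, 0 ≤ ⟪v, H v⟫ := fun v => le_trans (by positivity) (qsc2_low h.nH hδ v)
  have e1 : ∀ v, ⟪p, v⟫ = N * (⟪e, v⟫ + κ * (2 * ⟪x, v⟫ - 8 * ⟪e, x⟫ * ⟪e, v⟫)) := fun v => by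
    rw [hp, pv, inner_add_left, real_inner_smul_left, qsc2_sv]
    ring
  have e2 : ∀ v, (2 * ⟪x, v⟫ - 8 * ⟪e, x⟫ * ⟪e, v⟫) ^ 2 ≤ 400 * ‖v‖ ^ 2 := fun v => by
    have h1 := abs_le.1 (qsc2_inner hx (le_refl ‖v‖))
    have h2 := abs_le.1 (qsc_mul (qsc2_inner he.le hx) (qsc2_inner he.le (le_refl ‖v‖)))
    exact (sq_le_sq' (b := 20 * ‖v‖) (by linarith) (by linarith)).trans_eq (by ring)
  have e3 : N ^ 2 * (99 / 100 - 40 * κ) ≤ ⟪p, G p⟫ := by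
    have h1 := norm_sub_sq_real p (N • e)
    have h2 := abs_le.1 (qsc2_inner he.le hx)
    rw [real_inner_smul_right, e1, real_inner_self_eq_norm_sq, norm_smul, he,
      Real.norm_of_nonneg hN0.le, real_inner_comm e x] at h1
    have h3 := mul_le_mul_of_nonneg_left h2.2 (show 0 ≤ N ^ 2 * κ by positivity)
    have h4 : 0 ≤ N ^ 2 * κ := by positivity
    linarith [qsc2_low h.nG hδ p, sq_nonneg ‖p - N • e‖]
  have e4 : ⟪p, u⟫ ^ 2 ≤ (⟪p, G p⟫ - ⟪p, z⟫ ^ 2 / q) * ⟪u, H u⟫ := by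
    have h1 : ∀ t : ℝ, 0 ≤ ⟪u, H u⟫ * (t * t) + 2 * ⟪p, u⟫ * t + (⟪p, G p⟫ - ⟪p, z⟫ ^ 2 / q) := by
      intro t
      refine (pos (G p - (⟪p, z⟫ / q) • z + t • u)).trans_eq ?_
      have s1 : ⟪u, H z⟫ = 0 := by rw [← h.sH, real_inner_comm, hu]
      simp only [map_add, map_sub, map_smul, inner_add_left, inner_add_right, inner_sub_left,
        inner_sub_right, real_inner_smul_left, real_inner_smul_right, h.hg, h.sG, h.gh, hu, s1, ← hq,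
        real_inner_comm p z, real_inner_comm p u]
      field_simp
      ring
    have h2 := discrim_le_zero h1
    rw [discrim] at h2
    linarith
  rw [qsc2_sv, qsc2_sv, real_inner_self_eq_norm_sq, real_inner_self_eq_norm_sq]
  exact qsc_plane hκ hκ1 hN hq0 (pos u) (hq ▸ qsc2_low h.nH hδ z) (qsc2_low h.nH hδ u) e3 (e1 z)
    (e1 u) (e2 z) (e2 u) e4

theorem q_algH0 : QAlgH n := by
  refine ⟨1 / 1000, 500000, by norm_num, by norm_num, by norm_num, ?_⟩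
  intro κ δ μ N ρ hκ hκ1 _ hμ hδ1 hμ1 hN hρ hl G H h z e x a c w p p' X Y q hz he hx hq hw hp hp' hX
    hY
  have hδ : δ ≤ 1 / 100 := by linarith
  have hN0 : 0 < N := by linarith
  obtain rfl : c = a + w := by rw [hw, add_sub_cancel]
  have pos : ∀ v, 0 ≤ ⟪v, H v⟫ := fun v => le_trans (by positivity) (qsc2_low h.nH hδ v)
  have sy : ∀ u v, ⟪u, H v⟫ = ⟪v, H u⟫ := fun u v => by rw [← h.sH, real_inner_comm]
  have q1 : 99 / 100 * ρ ^ 2 ≤ q := by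
    rw [hq, ← hz]
    exact qsc2_low h.nH hδ z
  have hq0 : 0 < q := lt_of_lt_of_le (by positivity) q1
  have r2 : ρ ≤ 1 := by nlinarith [mul_le_mul_of_nonneg_left (one_le_pow₀ hN (n := 2)) hρ.le]
  obtain ⟨ν, hν, ν0⟩ : ∃ ν, ‖w‖ = ρ * ν ∧ 0 ≤ ν := ⟨‖w‖ / ρ, by field_simp, by positivity⟩
  have np : ‖p‖ ≤ 2 * N := hp ▸ qsc2_npv hκ.le hκ1 hN0.le he (by linarith)
  have np' : ‖p'‖ ≤ 2 * N := hp' ▸ qsc2_npv hκ.le hκ1 hN0.le he (by linarith [norm_add_le x z])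
  have ns : ∀ u, ‖sv κ N e u‖ ≤ N * ‖u‖ := fun u => (qsc2_nsv hκ.le hN0.le he u).trans
    (mul_le_mul_of_nonneg_right (by nlinarith) (norm_nonneg u))
  have nz : ‖sv κ N e z‖ ≤ N * ρ := hz ▸ ns z
  have ep : p' = p + sv κ N e z := by
    rw [hp, hp', pv, pv, add_assoc, sv, sv, sv, ← smul_add, inner_add_right]
    congr 2
    module
  have bH := @qsc2_abs n H δ h.nH hδ
  have bG := @qsc2_abs n G δ h.nG hδ
  have a0 := norm_nonneg a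
  have na := le_refl ‖a‖
  have bd : |⟪p', G p'⟫ - ⟪p, G p⟫| ≤ 6 * ρ * N ^ 2 := by
    have e1 : ⟪p', G p'⟫ - ⟪p, G p⟫ = ⟪sv κ N e z, G p'⟫ + ⟪sv κ N e z, G p⟫ := by
      nth_rewrite 1 [ep]
      rw [inner_add_left]
      nth_rewrite 1 [ep]
      rw [map_add, inner_add_right, ← h.sG p (sv κ N e z), real_inner_comm (sv κ N e z)]
      ring
    rw [e1]
    linarith [abs_add_le ⟪sv κ N e z, G p'⟫ ⟪sv κ N e z, G p⟫, bG nz np', bG nz np]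
  have hD := qsc2_plane hκ hκ1 hδ hN h (u := a - (⟪z, H a⟫ / q) • z) he hx hq hq0 hp (by
    rw [map_sub, map_smul, inner_sub_right, real_inner_smul_right, ← hq]
    field_simp
    ring)
  have u1 := pos (w - (⟪z, H w⟫ / q) • z + ⟪z, H a⟫ • G p - ⟪p, z⟫ • a)
  have u2 := pos (w - (⟪z, H w⟫ / q) • z + (2 * ⟪z, H a⟫) • G p - (2 * ⟪p, z⟫) • a)
  have u3 := pos (a - (⟪z, H a⟫ / q) • z - (w - (⟪z, H w⟫ / q) • z))
  have u4 := pos (a - (⟪z, H a⟫ / q) • z)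
  have M := qsc_main (κ := κ) (δ := δ) (μ := μ) (N := N) (ρ := ρ) (α := ‖a‖) (ν := ν) (q := q)
    (A := ⟪a, H a⟫) (za := ⟪z, H a⟫) (zw := ⟪z, H w⟫) (aw := ⟪a, H w⟫) (ww := ⟪w, H w⟫)
    (Pa := ⟪p, a⟫) (Pz := ⟪p, z⟫) (Pw := ⟪p, w⟫) (PP := ⟪p, G p⟫) (PP' := ⟪p', G p'⟫)
    (haa := ⟪sv κ N e a, a⟫) (haw := ⟪sv κ N e a, w⟫) (hww := ⟪sv κ N e w, w⟫)
    (hza := ⟪sv κ N e z, a⟫) (hzw := ⟪sv κ N e z, w⟫) (hzz := ⟪sv κ N e z, z⟫) hκ (by linarith) hμ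
    hδ1 hμ1 hN hρ a0 ν0 hl (by linarith [sq_nonneg ρ])
    (by linarith [(abs_le.1 (bH hz.le hz.le)).2, sq_nonneg ρ])
    (by linarith [bH na na, sq_nonneg ‖a‖]) (by linarith [bH hz.le na, mul_nonneg hρ.le a0])
    (by linarith [bH hz.le hν.le, mul_nonneg hρ.le (mul_nonneg hρ.le ν0)])
    (by linarith [bH na hν.le, mul_nonneg a0 (mul_nonneg hρ.le ν0)])
    (by linarith [bH hν.le hν.le, sq_nonneg (ρ * ν)])
    (by linarith [qsc2_low h.nH hδ w, congrArg (· ^ 2) hν, sq_nonneg (ρ * ν)])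
    (qsc2_inner np na) (qsc2_inner np hz.le) (qsc2_inner np hν.le) (by linarith [bG np np])
    (by linarith [bG np' np']) bd (qsc2_inner (ns a) hν.le)
    (qsc2_inner ((ns w).trans_eq (by rw [hν])) hν.le) (qsc2_inner nz na) (qsc2_inner nz hν.le)
    (qsc2_inner nz hz.le) (u1.trans_eq ?_) (u2.trans_eq ?_) (u3.trans_eq ?_) (u4.trans_eq ?_)
    (le_of_eq_of_le ?_ (hD.trans_eq ?_))
  · refine le_of_eq_of_le ?_ (M.trans_eq ?_)
    all_goals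
      simp only [hX, hY, qsc2_sS, map_add, map_sub, map_neg, map_smul, inner_add_left,
        inner_add_right, inner_sub_left, inner_sub_right, inner_neg_left, inner_neg_right,
        real_inner_smul_left, real_inner_smul_right, h.sH, h.gh, sy w a, hν]
      simp only [ep, inner_add_left, qsc2_sv, inner_add_right, real_inner_comm a w]
      field_simp
      try ring
  all_goals
    simp only [map_add, map_sub, map_smul, inner_add_left, inner_add_right, inner_sub_left,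
      inner_sub_right, real_inner_smul_left, real_inner_smul_right, h.hg, h.sG, h.gh, ← hq, sy w a,
      sy a z, sy w z, real_inner_comm p z, real_inner_comm p a, real_inner_comm p w, qsc2_sv,
      real_inner_comm z a]
    field_simp
    try ring

end Vale.Agent.P088F
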