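import Vale.Agent.P088F.QAbs
import Vale.Agent.P088F.QGau
import Vale.Agent.P088F.QHs
import Vale.Agent.P088F.QInv
import Vale.Agent.P088F.QCalc
import Vale.Agent.P088F.QSc2

/-! P088F part Q: the pointwise positivity. -/

open scoped ContDiff Topology RealInnerProductSpace
open Set Filter Metric

noncomputable section

namespace Vale.Agent.P088F

open Vale.Agent.P292E

variable {n : ℕ}

theorem GH.mono {G H : V n →ₗ[ℝ] V n} {δ δ' : ℝ} (h : GH G H δ) (hd : δ ≤ δ') : GH G H δ' :=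
  ⟨h.sG, h.sH, h.gh, h.hg, fun v => (h.nG v).trans (by gcongr), fun v => (h.nH v).trans (by gcongr)⟩

theorem pq_q {G H : V n →ₗ[ℝ] V n} {δ : ℝ} (h : GH G H δ) (hδ : δ ≤ 1 / 100) (z : V n) :
    ‖z‖ ^ 2 / 2 ≤ ⟪z, H z⟫ ∧ ‖H z‖ ≤ 3 / 2 * ‖z‖ := by
  have h1 : ‖H z - z‖ ≤ 1 / 100 * ‖z‖ := (h.nH z).trans (by gcongr)
  have h2 := abs_real_inner_le_norm z (H z - z)
  rw [inner_sub_right, real_inner_self_eq_norm_sq] at h2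
  have h3 := norm_add_le (H z - z) z
  rw [sub_add_cancel] at h3
  have h4 := mul_le_mul_of_nonneg_left h1 (norm_nonneg z)
  exact ⟨by nlinarith [(abs_le.1 h2).1, norm_nonneg z], by linarith [norm_nonneg z]⟩

theorem pq_A {A G H : V n →ₗ[ℝ] V n} {δ s : ℝ} (h : GH G H δ) (hA : CG A G s) (hδ : δ ≤ 1 / 100)
    (hs : s ≤ 1 / 100) (v : V n) : ‖A v‖ ≤ 2 * ‖v‖ ∧ ‖v‖ ≤ 2 * ‖A v‖ := by
  have h1 : ‖G v - v‖ ≤ 1 / 100 * ‖v‖ := (h.nG v).trans (by gcongr)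
  have h2 : ‖A v - G v‖ ≤ 1 / 100 * ‖v‖ := (hA.cl v).trans (by gcongr)
  have h3 := norm_add_le (A v - G v) (G v - v)
  rw [sub_add_sub_cancel] at h3
  have h4 := norm_add_le (A v - v) v
  have h5 := norm_sub_le (A v) (A v - v)
  rw [sub_add_cancel] at h4
  rw [sub_sub_cancel] at h5
  constructor <;> linarith [norm_nonneg v]

theorem pq_pv {κ N : ℝ} (hκ : 0 < κ) (hκ0 : κ ≤ 1 / 100) (hN : 1 ≤ N) {e x : V n} (he : ‖e‖ = 1)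
    (hx : ‖x‖ ≤ 3) : ‖pv κ N e x‖ ≤ 2 * N := by
  have h1 := abs_real_inner_le_norm e x
  have h2 := norm_sub_le ((2 : ℝ) • x) ((8 * ⟪e, x⟫) • e)
  rw [norm_smul, norm_smul, he, Real.norm_eq_abs, Real.norm_eq_abs, abs_mul] at h2
  rw [he] at h1
  have h3 : ‖sv κ N e x‖ ≤ N * κ * 30 := by
    rw [sv, norm_smul, Real.norm_of_nonneg (by positivity)]
    refine mul_le_mul_of_nonneg_left (h2.trans ?_) (by positivity)
    norm_num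
    linarith
  have h4 := norm_add_le (N • e) (sv κ N e x)
  rw [norm_smul, he, Real.norm_of_nonneg (by positivity)] at h4
  unfold pv
  nlinarith

theorem pq_Ev {h : Mf n} {m z : V n} {s : ℝ} (hs : 0 ≤ s) (hz : z ≠ 0)
    (hq : ‖z‖ ^ 2 / 2 ≤ ip h m z z)
    (hd : ∀ u, |ip (dg h u) m z z| ≤ s * ‖u‖ * ‖z‖ * ‖z‖) : ‖Ev h m z‖ ≤ n * s := by
  have hz' : 0 < ‖z‖ ^ 2 := by positivity
  have h1 : ∀ i, |Ev h m z i| ≤ s := fun i => by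
    have h2 := hd (ee i)
    rw [show ‖(ee i : V n)‖ = 1 by simp [ee]] at h2
    change |ip (dg h (ee i)) m z z / (2 * ip h m z z)| ≤ s
    rw [abs_div, abs_of_pos (by linarith : 0 < 2 * ip h m z z), div_le_iff₀ (by linarith)]
    nlinarith
  have h2 : ‖Ev h m z‖ ^ 2 ≤ (n * s) ^ 2 := by
    rw [EuclideanSpace.real_norm_sq_eq]
    calc ∑ i, Ev h m z i ^ 2 ≤ ∑ _i : Fin n, s ^ 2 :=
          Finset.sum_le_sum fun i _ => sq_le_sq' (abs_le.1 (h1 i)).1 (abs_le.1 (h1 i)).2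
      _ = n * s ^ 2 := by simp
      _ ≤ _ := by
        have : (n : ℝ) ≤ n ^ 2 := by exact_mod_cast Nat.le_self_pow two_ne_zero n
        nlinarith [sq_nonneg s]
  exact (abs_le_of_sq_le_sq' h2 (by positivity)).2

/-- the size of the error terms -/
theorem pq_T {s C N ρ q x y w u d t1 t2 t3 : ℝ} (hs : 0 ≤ s) (hs1 : s ≤ 1) (hC : 1 ≤ C) (hN : 1 ≤ N)
    (hρ : 0 < ρ) (hq : ρ ^ 2 / 2 ≤ q) (hx : 0 ≤ x) (hy : 0 ≤ y) (hw : 0 ≤ w) (hu0 : 0 ≤ u)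
    (hu : u ≤ x + y) (hd : d ≤ 2 * w + 4 * s * ρ * x) (h1 : |t1| ≤ s * u * ρ * w)
    (h2 : |t2| ≤ s * u ^ 2 * ρ ^ 2) (h3 : |t3| ≤ C * s * (d / ρ * (x + y) + N * (x ^ 2 + y ^ 2))) :
    |(4 * t1 + t2) / q + t3| ≤ 23 * C * s * (w ^ 2 / (N * ρ ^ 2) + N * (x ^ 2 + y ^ 2)) := by
  have hN0 : 0 < N := by linarith
  have hq0 : 0 < q := lt_of_lt_of_le (by positivity) hq
  obtain ⟨v, hv⟩ : ∃ v, v = w / (N * ρ) := ⟨_, rfl⟩
  have hv0 : 0 ≤ v := by rw [hv]; positivity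
  have hw' : w = N * ρ * v := by rw [hv]; field_simp
  have e0 : w ^ 2 / (N * ρ ^ 2) = N * v ^ 2 := by rw [hw']; field_simp
  obtain ⟨M, hM⟩ : ∃ M, M = N * v ^ 2 + N * (x ^ 2 + y ^ 2) := ⟨_, rfl⟩
  have k1 : N * (v * (x + y)) ≤ M := by
    rw [hM, ← mul_add]
    refine mul_le_mul_of_nonneg_left ?_ hN0.le
    nlinarith [sq_nonneg (v - x), sq_nonneg (v - y), sq_nonneg x, sq_nonneg y]
  have k2 : N * (x ^ 2 + y ^ 2) ≤ M := by rw [hM]; nlinarith [sq_nonneg v]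
  have k3 : (x + y) ^ 2 ≤ 2 * M := by nlinarith [sq_nonneg (x - y), sq_nonneg x, sq_nonneg y]
  have hM0 : 0 ≤ M := le_trans (by positivity) k2
  rw [e0, ← hM]
  have a1 : |(4 * t1 + t2) / q| ≤ 12 * s * M := by
    rw [abs_div, abs_of_pos hq0, div_le_iff₀ hq0]
    have b1 : |t1| ≤ s * ρ ^ 2 * M := by
      refine h1.trans ?_
      calc s * u * ρ * w ≤ s * (x + y) * ρ * w := by gcongr
        _ = s * ρ ^ 2 * (N * (v * (x + y))) := by rw [hw']; ring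
        _ ≤ _ := by gcongr
    have b2 : |t2| ≤ s * ρ ^ 2 * (2 * M) := by
      refine h2.trans ?_
      calc s * u ^ 2 * ρ ^ 2 ≤ s * (x + y) ^ 2 * ρ ^ 2 := by gcongr
        _ = s * ρ ^ 2 * (x + y) ^ 2 := by ring
        _ ≤ _ := by gcongr
    have b3 := mul_le_mul_of_nonneg_left hq (show 0 ≤ 12 * s * M by positivity)
    have b4 := abs_add_le (4 * t1) t2
    rw [abs_mul, abs_of_pos (by norm_num : (0 : ℝ) < 4)] at b4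
    linarith
  have a2 : |t3| ≤ C * s * (11 * M) := by
    refine h3.trans (mul_le_mul_of_nonneg_left ?_ (by positivity))
    have b1 : d / ρ ≤ 2 * (N * v) + 4 * (x + y) := by
      rw [div_le_iff₀ hρ]
      have : s * (ρ * x) ≤ 1 * (ρ * (x + y)) := by gcongr; linarith
      rw [hw'] at hd
      linarith
    have b2 := mul_le_mul_of_nonneg_right b1 (add_nonneg hx hy)
    linarith
  have a3 : 1 * (s * M) ≤ C * (s * M) := by gcongr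
  linarith [abs_add_le ((4 * t1 + t2) / q) t3]

theorem pq_Z {q ρ : ℝ} {v : V n} (hρ : 0 < ρ) (hq : ρ ^ 2 / 2 ≤ q) (hv : ‖v‖ ≤ 3 / 2 * ρ) :
    ‖(2 / q) • v‖ ≤ 6 / ρ := by
  have hq0 : 0 < q := lt_of_lt_of_le (by positivity) hq
  rw [norm_smul, Real.norm_of_nonneg (by positivity), div_mul_eq_mul_div, div_le_div_iff₀ hq0 hρ]
  nlinarith

theorem pq_const {δ ε₀ C₁ C₂ k : ℝ} (hδ : 0 < δ) (hε₀ : 0 < ε₀) (hC₁ : 1 ≤ C₁) (hC₂ : 1 ≤ C₂)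
    (hk : 1 ≤ k) : ∃ ε s : ℝ, 0 < ε ∧ ε ≤ ε₀ ∧ 0 < s ∧ 23 * C₂ * s ≤ δ ∧ s ≤ δ ∧ C₁ * ε ≤ s ∧
      k * (ε + ε) ≤ s ∧ k * (C₁ * ε) ≤ s ∧ ε + ε ≤ s := by
  obtain ⟨K, hK⟩ : ∃ K : ℝ, K = k * C₁ * 2 := ⟨_, rfl⟩
  have hK1 : C₁ ≤ K := by rw [hK]; nlinarith
  have hK2 : k * 2 ≤ K := by rw [hK]; nlinarith
  have hK3 : k * C₁ ≤ K := by rw [hK]; nlinarith
  obtain ⟨ε, hε⟩ : ∃ ε, ε = min ε₀ (δ / (23 * C₂ * K)) := ⟨_, rfl⟩
  have hK0 : 0 < K := by linarith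
  have hε0 : 0 < ε := by rw [hε]; positivity
  have hεδ : 23 * C₂ * (K * ε) ≤ δ := by
    have : ε ≤ δ / (23 * C₂ * K) := hε ▸ min_le_right _ _
    rw [le_div_iff₀ (by positivity)] at this
    linarith
  have hs0 : 0 < K * ε := by positivity
  exact ⟨ε, K * ε, hε0, hε ▸ min_le_left _ _, hs0, hεδ, by nlinarith, by gcongr, by nlinarith,
    by nlinarith, by nlinarith⟩

theorem pq_small {ρ N ε δ : ℝ} (hρ : 0 < ρ) (hN : 1 ≤ N) (h : ρ * N ^ 2 ≤ ε) (hε : ε ≤ δ)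
    (hδ : δ ≤ 1 / 100) : ρ ≤ 1 / 100 ∧ δ * ρ ≤ 1 / 100 := by
  have : ρ * 1 ≤ ρ * N ^ 2 := by gcongr; nlinarith
  exact ⟨by linarith, by nlinarith⟩

variable {ι : Type} [Fintype ι] [DecidableEq ι] [NeZero n]

theorem pq : PQ n ι := by
  obtain ⟨κ₀, hκ₀, hκ₀', habs⟩ := q_abs (n := n) q_algH0 q_gau q_perp
  obtain ⟨ε₀, C₁, hε₀, hC₁, hinv⟩ := q_inv (n := n)
  obtain ⟨C₂, hC₂, hhs⟩ := q_hs (n := n)
  refine ⟨κ₀, 4, hκ₀, fun κ hκ hκ' η hη => ?_⟩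
  obtain ⟨δ, η', hδ, hδ1, hη', H⟩ := habs κ hκ hκ' η hη
  obtain ⟨ε, s, hε0, hε, hs0, hεδ, hsδ, hs1, hs2, hs3, hs4⟩ :=
    pq_const hδ hε₀ hC₁ hC₂ (k := n) (by exact_mod_cast NeZero.pos n)
  refine ⟨ε, ε, 1, η', hε0, hε0, hη', ?_⟩
  intro P d p hPκ hN hB s1 s2 n1 n2 hx hne hρN hDf ξ ζ
  obtain ⟨hsm, hsy, hGH, hd1, hd2⟩ := hinv ε d.L2.g hε0 hε s2.g s2.symm n2.g
  obtain ⟨ρ, hρ⟩ : ∃ ρ, ρ = ‖p.1 - p.2‖ := ⟨_, rfl⟩
  obtain ⟨m, hm'⟩ : ∃ m : V n, m = (1 / 2 : ℝ) • (p.1 + p.2) := ⟨_, rfl⟩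
  obtain ⟨z, hz⟩ : ∃ z : V n, z = p.2 - p.1 := ⟨_, rfl⟩
  obtain ⟨q, hq⟩ : ∃ q, q = ip (hm d.L2.g) m z z := ⟨_, rfl⟩
  rw [← hρ] at hρN hDf ⊢
  have hρ0 : 0 < ρ := by rw [hρ]; exact norm_pos_iff.2 (sub_ne_zero.2 hne)
  have hzρ : ‖z‖ = ρ := by rw [hz, hρ, norm_sub_rev]
  obtain ⟨hρ1, hδρ⟩ := pq_small hρ0 hN hρN (by linarith : ε ≤ δ) hδ1
  have hm1 : ‖m - p.1‖ ≤ ρ := by
    rw [show m - p.1 = (1 / 2 : ℝ) • z by rw [hm', hz]; module, norm_smul, hzρ]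
    norm_num; linarith
  have hm2 : ‖m - p.2‖ ≤ ρ := by
    rw [show m - p.2 = (-(1 / 2) : ℝ) • z by rw [hm', hz]; module, norm_smul, hzρ]
    norm_num; linarith
  have hδt : ∀ j k : Fin n, |(if j = k then 1 else 0 : ℝ)| ≤ 1 := fun j k => by
    split_ifs <;> simp
  have e1 := fun j k y hy => q_ent ε ε ρ (d.L1.g j k) (d.L2.g j k) _ p.1 y (by linarith) (hδt j k)
    (s1.g j k) (s2.g j k) (n1.g j k) (n2.g j k) (fun i hi => (hDf i hi).1 j k) hy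
  have e2 := fun j k => q_ent ε ε ρ (d.L2.g j k) (d.L2.g j k) _ p.2 m (by linarith) (hδt j k)
    (s2.g j k) (s2.g j k) (n2.g j k) (n2.g j k)
    (fun i _ => by simp only [sub_self, iteratedFDeriv_fun_zero, Pi.zero_apply, norm_zero]; positivity)
    hm2
  have hG : GH (gl d.L2.g m) (gl (hm d.L2.g) m) δ := (hGH m).mono (by linarith)
  have hsρ : n * ((ε + ε) * ρ) ≤ s * ρ := by rw [← mul_assoc]; gcongr
  have c1 : ∀ v, ‖gl d.L1.g p.1 v - gl d.L2.g m v‖ ≤ s * ρ * ‖v‖ := fun v =>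
    (gl_close (fun j k => (e1 j k m hm1).2.2.1) v).trans (by gcongr)
  have c2 : ∀ v, ‖gl d.L2.g p.2 v - gl d.L2.g m v‖ ≤ s * ρ * ‖v‖ := fun v =>
    (gl_close (fun j k => (e2 j k).2.2.1) v).trans (by gcongr)
  have hA : CG (gl d.L1.g p.1) (gl d.L2.g m) (δ * ρ) :=
    ⟨gl_symm fun j k => s1.symm j k _, fun v => (c1 v).trans (by gcongr)⟩
  have hA' : CG (gl d.L2.g p.2) (gl d.L2.g m) (δ * ρ) :=
    ⟨gl_symm fun j k => s2.symm j k _, fun v => (c2 v).trans (by gcongr)⟩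
  obtain ⟨hq1, hHz⟩ := pq_q hG hδ1 z
  rw [← ip_gl, ← hq] at hq1
  have hq0 : 0 < q := lt_of_lt_of_le (by rw [hzρ]; positivity) hq1
  obtain ⟨hw, hgx, hgy, hD⟩ := q_calc P d.L2.g p m z q hB hsm hsy hm' hz hq hq0
  have hE : ‖Ev (hm d.L2.g) m z‖ ≤ δ :=
    (pq_Ev (by positivity) (norm_pos_iff.1 (hzρ ▸ hρ0)) (hq ▸ hq1) fun u => hd1 m u z z).trans
      (by linarith)
  have he : ‖(ee 0 : V n)‖ = 1 := by simp [ee]
  have hy : p.2 = p.1 + z := by rw [hz]; abel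
  have hp := pq_pv hκ (hκ'.trans hκ₀') hN he (x := p.1) (by linarith)
  have hp' := pq_pv hκ (hκ'.trans hκ₀') hN he (x := p.2)
    (by rw [hy]; linarith [norm_add_le p.1 z])
  rw [hPκ] at hw hgx hgy hD
  obtain ⟨w, hw'⟩ : ∃ w, w = gl d.L2.g p.2 ζ - gl d.L1.g p.1 ξ := ⟨_, rfl⟩
  obtain ⟨u, hu⟩ : ∃ u, u = (1 / 2 : ℝ) • (gl d.L1.g p.1 ξ + gl d.L2.g p.2 ζ) := ⟨_, rfl⟩
  have hZ := pq_Z hρ0 (hzρ ▸ hq1) (hzρ ▸ hHz)
  have hT3 := hhs s P.N ρ d.L1.g d.L2.g p.1 p.2 _ _ _ ξ ζ hs0.le (by linarith) hN hρ0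
    (fun j k => by
      obtain ⟨a1, a2, a3, a4⟩ := e1 j k p.2 (by rw [← hz, hzρ])
      exact ⟨a1, a2, a3.trans (by gcongr), fun i => ⟨(a4 i).1.trans (by linarith),
        (a4 i).2.1.trans (by linarith), (a4 i).2.2.trans (by gcongr)⟩⟩) hZ
    ((norm_sub_le (Ev (hm d.L2.g) m z) (pv κ P.N (ee 0) p.1)).trans (by linarith))
    ((norm_sub_le (Ev (hm d.L2.g) m z) (pv κ P.N (ee 0) p.2)).trans (by linarith))
  rw [← add_sub_assoc, ← add_sub_assoc, ← hgx, ← hgy] at hT3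
  have hu1 : ‖u‖ ≤ ‖ξ‖ + ‖ζ‖ := by
    rw [hu, norm_smul]
    have := norm_add_le (gl d.L1.g p.1 ξ) (gl d.L2.g p.2 ζ)
    norm_num
    linarith [(pq_A hG hA hδ1 hδρ ξ).1, (pq_A hG hA' hδ1 hδρ ζ).1]
  have hd : ‖ζ - ξ‖ ≤ 2 * ‖w‖ + 4 * s * ρ * ‖ξ‖ := by
    have h1 := (pq_A hG hA' hδ1 hδρ (ζ - ξ)).2
    have h2 : gl d.L2.g p.2 (ζ - ξ) = w + ((gl d.L1.g p.1 ξ - gl d.L2.g m ξ) -
        (gl d.L2.g p.2 ξ - gl d.L2.g m ξ)) := by rw [map_sub, hw']; abel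
    rw [h2] at h1
    linarith [norm_add_le w ((gl d.L1.g p.1 ξ - gl d.L2.g m ξ) - (gl d.L2.g p.2 ξ - gl d.L2.g m ξ)),
      norm_sub_le (gl d.L1.g p.1 ξ - gl d.L2.g m ξ) (gl d.L2.g p.2 ξ - gl d.L2.g m ξ), c1 ξ, c2 ξ]
  have hT := pq_T hs0.le (by linarith) hC₂ hN hρ0 (hzρ ▸ hq1) (norm_nonneg ξ) (norm_nonneg ζ)
    (norm_nonneg w) (norm_nonneg u) hu1 hd ((hd1 m u z w).trans (by rw [hzρ]; gcongr))
    ((hd2 m u z).trans (by rw [hzρ]; gcongr)) hT3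
  have main := H P.N ρ hN hρ0 (by linarith) _ _ _ _ hG hA hA' z (ee 0) p.1 ξ ζ _ w _ _ _ _ q _ hzρ he
    hx.le (by rw [hq, ip_gl]) hE hw' rfl (congrArg _ hy) hgx hgy
    (hT.trans (by gcongr))
  unfold Lev perp tau gau
  simp only [gv_gl]
  rw [hD _ _ u w hu hw', hw, hw, ← hw']
  simp only [ip_gl] at main ⊢
  refine main.trans (le_of_eq ?_)
  ring

end Vale.Agent.P088F
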