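import Vale.Agent.P088F.QDefs

/-! P088F part Q: the abstract form of the positivity. -/

open scoped ContDiff Topology RealInnerProductSpace
open Set Filter Metric

noncomputable section

namespace Vale.Agent.P088F

open Vale.Agent.P292E

variable {n : ℕ}

theorem qabs_norm_A {A G H : V n →ₗ[ℝ] V n} {δ ρ : ℝ} (hδ0 : 0 ≤ δ) (hδ : δ ≤ 1 / 100)
    (hρ1 : ρ ≤ 1) (hG : GH G H δ) (hA : CG A G (δ * ρ)) (v : V n) : ‖A v‖ ≤ 2 * ‖v‖ := by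
  have h1 := hG.nG v
  have h2 := hA.cl v
  have h3 : A v = (A v - G v) + (G v - v) + v := by abel
  have h4 : ‖A v‖ ≤ ‖A v - G v‖ + ‖G v - v‖ + ‖v‖ := by
    calc ‖A v‖ = ‖(A v - G v) + (G v - v) + v‖ := by rw [← h3]
      _ ≤ _ := norm_add₃_le
  have h5 : δ * ρ ≤ 1 / 100 := (mul_le_of_le_one_right hδ0 hρ1).trans hδ
  have h6 := norm_nonneg v
  have h7 := mul_le_mul_of_nonneg_right h5 h6
  have h8 := mul_le_mul_of_nonneg_right hδ h6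
  linarith

theorem qabs_norm_pv {κ N : ℝ} (hκ0 : 0 ≤ κ) (hκ : κ ≤ 1 / 100) (hN : 1 ≤ N) {e x : V n}
    (he : ‖e‖ = 1) (hx : ‖x‖ ≤ 3) : ‖pv κ N e x‖ ≤ 2 * N := by
  have hN0 : 0 ≤ N := by linarith
  have h1 : |⟪e, x⟫| ≤ 3 := by
    have := abs_real_inner_le_norm e x
    rw [he] at this
    linarith
  have h2 : ‖(2 : ℝ) • x - (8 * ⟪e, x⟫) • e‖ ≤ 30 := by
    refine (norm_sub_le _ _).trans ?_
    rw [norm_smul, norm_smul, he, Real.norm_eq_abs, Real.norm_eq_abs, abs_mul]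
    have a2 : |(2 : ℝ)| = 2 := abs_of_pos two_pos
    have a8 : |(8 : ℝ)| = 8 := abs_of_pos (by norm_num)
    rw [a2, a8]
    linarith
  have h3 : ‖sv κ N e x‖ ≤ N * κ * 30 := by
    unfold sv
    rw [norm_smul, Real.norm_eq_abs, abs_of_nonneg (mul_nonneg hN0 hκ0)]
    exact mul_le_mul_of_nonneg_left h2 (mul_nonneg hN0 hκ0)
  have h4 : N * κ ≤ N * (1 / 100) := mul_le_mul_of_nonneg_left hκ hN0
  unfold pv
  refine (norm_add_le _ _).trans ?_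
  rw [norm_smul, he, Real.norm_eq_abs, abs_of_nonneg hN0]
  linarith

theorem qabs_norm_Z {G H : V n →ₗ[ℝ] V n} {δ ρ q : ℝ} (hδ : δ ≤ 1 / 100)
    (hρ : 0 < ρ) (hG : GH G H δ) {z : V n} (hz : ‖z‖ = ρ) (hq : q = ⟪z, H z⟫) :
    ‖(2 / q) • H z‖ ≤ 3 / ρ := by
  have h1 := hG.nH z
  rw [hz] at h1
  have h2 : δ * ρ ≤ 1 / 100 * ρ := mul_le_mul_of_nonneg_right hδ hρ.le
  have h3 : ‖H z‖ ≤ 101 / 100 * ρ := by
    have : ‖H z‖ ≤ ‖H z - z‖ + ‖z‖ := by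
      calc ‖H z‖ = ‖(H z - z) + z‖ := by rw [sub_add_cancel]
        _ ≤ _ := norm_add_le _ _
    rw [hz] at this
    linarith
  have h4 : 99 / 100 * ρ ^ 2 ≤ q := by
    have e1 : q = ⟪z, H z - z⟫ + ρ ^ 2 := by
      rw [inner_sub_right, real_inner_self_eq_norm_sq, hz, hq]; ring
    have e2 := abs_real_inner_le_norm z (H z - z)
    rw [hz] at e2
    have e3 := (abs_le.1 e2).1
    have e4 : ρ * ‖H z - z‖ ≤ ρ * (1 / 100 * ρ) :=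
      mul_le_mul_of_nonneg_left (h1.trans h2) hρ.le
    nlinarith
  have hq0 : 0 < q := lt_of_lt_of_le (by positivity) h4
  rw [norm_smul, Real.norm_eq_abs, abs_of_pos (by positivity), div_mul_eq_mul_div,
    div_le_div_iff₀ hq0 hρ]
  have h5 : ‖H z‖ * ρ ≤ 101 / 100 * ρ * ρ := mul_le_mul_of_nonneg_right h3 hρ.le
  nlinarith

theorem qabs_s2 {δ N x y s : ℝ} (hδ0 : 0 < δ) (hδ : δ ≤ 1 / 100) (hN : 1 ≤ N)
    (hs : |s| ≤ δ * (2 * x + 2 * y)) : s ^ 2 ≤ δ * (N * (x ^ 2 + y ^ 2)) / 10 := by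
  obtain ⟨S, hS⟩ : ∃ S, S = N * (x ^ 2 + y ^ 2) := ⟨_, rfl⟩
  have hxy : x ^ 2 + y ^ 2 ≤ S := by
    rw [hS]; exact le_mul_of_one_le_left (by positivity) hN
  have hS0 : 0 ≤ S := le_trans (by positivity) hxy
  rw [← hS]
  have a1 : s ^ 2 ≤ (δ * (2 * x + 2 * y)) ^ 2 := by
    rw [← sq_abs s]; exact pow_le_pow_left₀ (abs_nonneg _) hs 2
  have a2 : (2 * x + 2 * y) ^ 2 ≤ 8 * S := by nlinarith [sq_nonneg (x - y)]
  have a3 : δ ^ 2 * (2 * x + 2 * y) ^ 2 ≤ δ ^ 2 * (8 * S) :=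
    mul_le_mul_of_nonneg_left a2 (sq_nonneg _)
  have a5 : 0 ≤ δ * S := by positivity
  have a4 : δ * (δ * S) ≤ 1 / 100 * (δ * S) := mul_le_mul_of_nonneg_right hδ a5
  have a6 : (δ * (2 * x + 2 * y)) ^ 2 = δ ^ 2 * (2 * x + 2 * y) ^ 2 := by ring
  have a7 : δ ^ 2 * (8 * S) = 8 * (δ * (δ * S)) := by ring
  linarith

theorem qabs_am {N t x y : ℝ} (hN : 0 < N) :
    t * (x + y) ≤ t ^ 2 / N + N * (x ^ 2 + y ^ 2) := by
  obtain ⟨W, hW⟩ : ∃ W, W = t ^ 2 / N := ⟨_, rfl⟩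
  rw [← hW]
  have b2 : W * N = t ^ 2 := by rw [hW]; field_simp
  have b3 : N * (t * (x + y)) ≤ N * (W + N * (x ^ 2 + y ^ 2)) := by
    nlinarith [sq_nonneg (t - N * x), sq_nonneg (t - N * y), sq_nonneg (N * x), sq_nonneg (N * y)]
  exact le_of_mul_le_mul_left b3 hN

theorem qabs_us {δ N ρ x y v s u : ℝ} (hδ0 : 0 < δ) (hN : 0 < N) (hρ : 0 < ρ) (hv : 0 ≤ v)
    (hs : |s| ≤ δ * (2 * x + 2 * y)) (hu : |u| ≤ 3 / ρ * v) :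
    u * s ≤ 6 * (δ * (v ^ 2 / (N * ρ ^ 2))) + 6 * (δ * (N * (x ^ 2 + y ^ 2))) := by
  have a1 : u * s ≤ 3 / ρ * v * (δ * (2 * x + 2 * y)) := by
    refine (le_abs_self _).trans ?_
    rw [abs_mul]
    exact mul_le_mul hu hs (abs_nonneg _) (by positivity)
  have a2 := qabs_am (t := v / ρ) (x := x) (y := y) hN
  have b1 : (v / ρ) ^ 2 / N = v ^ 2 / (N * ρ ^ 2) := by field_simp
  rw [b1] at a2
  have a3 := mul_le_mul_of_nonneg_left a2 hδ0.le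
  have a4 : 3 / ρ * v * (δ * (2 * x + 2 * y)) = 6 * (δ * (v / ρ * (x + y))) := by ring
  rw [mul_add δ] at a3
  linarith

theorem qabs_r {κ δ N ρ x y Pa Pc Ra Rc : ℝ} (hκ0 : 0 < κ) (hκ : κ ≤ 1 / 100) (hδ0 : 0 < δ)
    (hδ : δ ≤ 1 / 100) (hN : 0 < N) (hρ : 0 < ρ) (hρN : ρ * N ≤ δ)
    (hRa : Ra ≤ 3 * Pa + 50 * (ρ * N) ^ 2 * x ^ 2) (hRc : Rc ≤ 3 * Pc + 50 * (ρ * N) ^ 2 * y ^ 2) :
    κ * N / 4 * (Ra + Rc) ≤ 3 / 4 * κ * N * (Pa + Pc) + δ * (N * (x ^ 2 + y ^ 2)) := by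
  have a1 : (ρ * N) ^ 2 ≤ δ := by
    have : (ρ * N) ^ 2 ≤ δ ^ 2 := pow_le_pow_left₀ (by positivity) hρN 2
    nlinarith
  have a2 : Ra + Rc ≤ 3 * (Pa + Pc) + 50 * (δ * (x ^ 2 + y ^ 2)) := by
    have := mul_le_mul_of_nonneg_right a1 (show 0 ≤ x ^ 2 + y ^ 2 by positivity)
    linarith
  have a3 := mul_le_mul_of_nonneg_left a2 (show 0 ≤ κ * N / 4 by positivity)
  have a5 : 0 ≤ δ * (N * (x ^ 2 + y ^ 2)) := by positivity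
  have a4 := mul_le_mul_of_nonneg_right hκ a5
  have a6 : κ * N / 4 * (3 * (Pa + Pc) + 50 * (δ * (x ^ 2 + y ^ 2))) =
      3 / 4 * κ * N * (Pa + Pc) + 50 / 4 * (κ * (δ * (N * (x ^ 2 + y ^ 2)))) := by ring
  rw [a6] at a3
  generalize δ * (N * (x ^ 2 + y ^ 2)) = D at a3 a4 a5 ⊢
  linarith

theorem qabs_l {η' δ B N x y na : ℝ} (hδ0 : 0 < δ) (hη0 : 0 < η') (hB : 0 < B) (hN : 0 < N)
    (hna0 : 0 ≤ na) (hna : na ≤ 2 * x) :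
    B * (η' + 20 * δ + δ) * N * na ^ 2 ≤
      4 * (B * η' * (N * (x ^ 2 + y ^ 2))) + 84 * (B * δ * (N * (x ^ 2 + y ^ 2))) := by
  have a1 : na ^ 2 ≤ 4 * (x ^ 2 + y ^ 2) := by
    have := pow_le_pow_left₀ hna0 hna 2
    nlinarith [sq_nonneg y]
  have a2 := mul_le_mul_of_nonneg_left a1 (show 0 ≤ B * (η' + 20 * δ + δ) * N by positivity)
  have a3 : B * (η' + 20 * δ + δ) * N * (4 * (x ^ 2 + y ^ 2)) =
      4 * (B * η' * (N * (x ^ 2 + y ^ 2))) + 84 * (B * δ * (N * (x ^ 2 + y ^ 2))) := by ring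
  rw [a3] at a2
  exact a2

theorem qabs_lin {a1 a2 a3 a4 a5 a6 a7 a8 a9 b1 b2 b3 b4 b5 b6 b7 L T Ga Gc Ga' Gc' : ℝ}
    (s2 : a1 ≤ a2 / 10) (us : a3 ≤ 6 * a4 + 6 * a2) (r1 : a5 ≤ a6 + a2)
    (g1 : Ga + Gc - 200 * a2 ≤ Ga' + Gc') (l1 : a7 ≤ 4 * a8 + 84 * a9) (t1 : b1 ≤ 2 * b2 + 2 * a1)
    (t2 : -(a4 + a2) ≤ T) (k1 : 16 * a8 ≤ b3) (k2 : 4000 * a9 ≤ b3) (k3 : a2 ≤ a9) (k4 : 0 ≤ a2)
    (k5 : 0 ≤ a4) (k6 : b4 = b5 + 2 * a3 + a1) (k7 : b6 = b7 + 20 * a4)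
    (hm : a6 - 2 * b1 + b6 - a7 ≤ L - b5 + Ga + Gc) :
    a5 - b3 - 4 * b2 + b7 ≤ L - b4 + T + Ga' + Gc' := by
  linarith

/-- the scalar inequality -/
theorem qabs_scalar {κ η δ η' B N ρ x y v na Pa Pc Ra Rc τ s u T L Ga Gc Ga' Gc' : ℝ}
    (hκ0 : 0 < κ) (hκ : κ ≤ 1 / 100) (hδ0 : 0 < δ) (hδ : δ ≤ 1 / 100) (hη0 : 0 < η')
    (hB : 1 ≤ B) (hN : 1 ≤ N) (hρ : 0 < ρ) (hρN : ρ * N ≤ δ)
    (hη' : 16 * (B * η') ≤ η * κ) (hδ' : 4000 * (B * δ) ≤ η * κ)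
    (hv : 0 ≤ v) (hna0 : 0 ≤ na) (hna : na ≤ 2 * x)
    (hs : |s| ≤ δ * (2 * x + 2 * y)) (hu : |u| ≤ 3 / ρ * v)
    (hT : |T| ≤ δ * (v ^ 2 / (N * ρ ^ 2) + N * (x ^ 2 + y ^ 2)))
    (hRa : Ra ≤ 3 * Pa + 50 * (ρ * N) ^ 2 * x ^ 2) (hRc : Rc ≤ 3 * Pc + 50 * (ρ * N) ^ 2 * y ^ 2)
    (hGa : |Ga' - Ga| ≤ 200 * δ * N * x ^ 2) (hGc : |Gc' - Gc| ≤ 200 * δ * N * y ^ 2)
    (hm : 3 / 4 * κ * N * (Pa + Pc) - 2 * (τ - s) ^ 2 + (η' + 20 * δ) * v ^ 2 / (N * ρ ^ 2) -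
      B * (η' + 20 * δ + δ) * N * na ^ 2 ≤ L - u ^ 2 + Ga + Gc) :
    κ * N / 4 * (Ra + Rc) - η * κ * N * (x ^ 2 + y ^ 2) - 4 * τ ^ 2 + η' / (N * ρ ^ 2) * v ^ 2 ≤
      L - (u + s) ^ 2 + T + Ga' + Gc' := by
  have hN0 : 0 < N := by linarith
  have hB0 : 0 < B := by linarith
  have hS0 : 0 ≤ N * (x ^ 2 + y ^ 2) := by positivity
  have k4 : 0 ≤ δ * (N * (x ^ 2 + y ^ 2)) := by positivity
  refine qabs_lin (qabs_s2 hδ0 hδ hN hs) (qabs_us hδ0 hN0 hρ hv hs hu)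
    (qabs_r hκ0 hκ hδ0 hδ hN0 hρ hρN hRa hRc) ?_ (qabs_l (y := y) hδ0 hη0 hB0 hN0 hna0 hna)
    ?_ ?_ ?_ ?_ ?_ k4 (by positivity) (b5 := u ^ 2) (by ring) (by ring) hm
  · have a1 := (abs_le.1 hGa).1
    have a2 := (abs_le.1 hGc).1
    have a3 : 200 * δ * N * x ^ 2 + 200 * δ * N * y ^ 2 = 200 * (δ * (N * (x ^ 2 + y ^ 2))) := by
      ring
    rw [← a3]
    generalize 200 * δ * N * x ^ 2 = D at a1 ⊢
    generalize 200 * δ * N * y ^ 2 = D' at a2 ⊢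
    linarith only [a1, a2]
  · nlinarith only [sq_nonneg (τ + s)]
  · rw [← mul_add]; exact (abs_le.1 hT).1
  · have := mul_le_mul_of_nonneg_right hη' hS0
    linarith only [this]
  · have := mul_le_mul_of_nonneg_right hδ' hS0
    linarith only [this]
  · have := le_mul_of_one_le_left k4 hB
    linarith only [this]

theorem q_abs (h1 : QAlgH n) (h2 : QGau n) (h3 : QPerp n) : QAbs n := by
  obtain ⟨κ₀, B, hκ₀, hκ₁, hB, h1⟩ := h1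
  refine ⟨κ₀, hκ₀, hκ₁, fun κ hκ0 hκ η hη => ?_⟩
  have hB0 : 0 < B := by linarith
  obtain ⟨δ, hδ0, hδ1, hδ2⟩ : ∃ δ : ℝ, 0 < δ ∧ 4000 * (B * δ) ≤ η * κ ∧ 200 * (B * δ) ≤ 1 := by
    refine ⟨min (η * κ / (4000 * B)) (1 / (200 * B)), by positivity, ?_, ?_⟩
    · have := min_le_left (η * κ / (4000 * B)) (1 / (200 * B))
      rw [le_div_iff₀ (by positivity)] at this
      linarith
    · have := min_le_right (η * κ / (4000 * B)) (1 / (200 * B))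
      rw [le_div_iff₀ (by positivity)] at this
      linarith
  obtain ⟨η', hη0, hη1, hη2⟩ : ∃ η' : ℝ, 0 < η' ∧ 16 * (B * η') ≤ η * κ ∧ 2 * (B * η') ≤ 1 := by
    refine ⟨min (η * κ / (16 * B)) (1 / (2 * B)), by positivity, ?_, ?_⟩
    · have := min_le_left (η * κ / (16 * B)) (1 / (2 * B))
      rw [le_div_iff₀ (by positivity)] at this
      linarith
    · have := min_le_right (η * κ / (16 * B)) (1 / (2 * B))
      rw [le_div_iff₀ (by positivity)] at this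
      linarith
  have hδ : δ ≤ 1 / 100 := by
    have := le_mul_of_one_le_left hδ0.le hB
    linarith
  refine ⟨δ, η', hδ0, hδ, hη0, ?_⟩
  intro N ρ hN hρ hρN A A' G H hG hA hA' z e x ξ ζ E w p p' ϖ ϖ' q T hz he hx hq hE hw hp hp' hϖ hϖ' hT
  have hκ' : κ ≤ 1 / 100 := hκ.trans hκ₁
  have hρN1 : ρ * N ≤ δ := by
    have : ρ * N ≤ ρ * N ^ 2 := mul_le_mul_of_nonneg_left (by nlinarith) hρ.le
    linarith
  have hρ1 : ρ ≤ 1 := by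
    have := le_mul_of_one_le_right hρ.le hN
    linarith
  have ha := qabs_norm_A hδ0.le hδ hρ1 hG hA ξ
  have hc := qabs_norm_A hδ0.le hδ hρ1 hG hA' ζ
  have np : ‖p‖ ≤ 2 * N := by
    rw [hp]; exact qabs_norm_pv hκ0.le hκ' hN he (by linarith)
  have np' : ‖p'‖ ≤ 2 * N := by
    rw [hp']
    refine qabs_norm_pv hκ0.le hκ' hN he ((norm_add_le _ _).trans ?_)
    rw [hz]; linarith
  have nZ := qabs_norm_Z hδ hρ hG hz hq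
  have hNρ : 3 / ρ + 2 * N ≤ 8 / ρ := by
    have a1 : N ≤ 1 / ρ := by rw [le_div_iff₀ hρ]; linarith
    have a2 : 3 / ρ = 3 * (1 / ρ) := by ring
    have a3 : 8 / ρ = 8 * (1 / ρ) := by ring
    have a4 : 0 < 1 / ρ := by positivity
    linarith
  obtain ⟨X, hX⟩ : ∃ X : V n, X = -((2 / q) • H z) - p := ⟨_, rfl⟩
  obtain ⟨Y, hY⟩ : ∃ Y : V n, Y = (2 / q) • H z - p' := ⟨_, rfl⟩
  have nX : ‖X‖ ≤ 8 / ρ := by
    rw [hX]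
    refine (norm_sub_le _ _).trans ?_
    rw [norm_neg]; linarith
  have nY : ‖Y‖ ≤ 8 / ρ := by
    rw [hY]
    refine (norm_sub_le _ _).trans ?_
    linarith
  have eX : ϖ = X + E := by rw [hϖ, hX]; abel
  have eY : ϖ' = Y + E := by rw [hϖ', hY]; abel
  have nF : ‖E - p‖ ≤ 3 * N := (norm_sub_le _ _).trans (by linarith)
  have nF' : ‖E - p'‖ ≤ 3 * N := (norm_sub_le _ _).trans (by linarith)
  have r1 := h3 δ N ρ (-1) q hδ0.le hδ hN hρ hρ1 (by norm_num) A G H hG hA z (E - p) ξ ϖ hz hq nF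
    (by rw [hϖ, neg_one_mul, neg_smul]; abel)
  have r2 := h3 δ N ρ 1 q hδ0.le hδ hN hρ hρ1 (by norm_num) A' G H hG hA' z (E - p') ζ ϖ' hz hq
    nF' (by rw [hϖ', one_mul]; abel)
  have g1 := h2 δ N ρ hδ0.le (by linarith) hN hρ hρ1 A G H hG hA p X E ξ np nX hE
  have g2 := h2 δ N ρ hδ0.le (by linarith) hN hρ hρ1 A' G H hG hA' p' Y E ζ np' nY hE
  rw [← eX] at g1
  rw [← eY] at g2
  have m1 := h1 κ δ (η' + 20 * δ) N ρ hκ0 hκ hδ0.le (by positivity) (by linarith) (by linarith)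
    hN hρ hρN G H hG z e x (A ξ) (A' ζ) w p p' X Y q hz he hx hq hw hp hp' hX hY
  have eτ : ⟪X, A ξ⟫ + ⟪Y, A' ζ⟫ = (⟪ϖ, A ξ⟫ + ⟪ϖ', A' ζ⟫) - ⟪E, A ξ + A' ζ⟫ := by
    rw [eX, eY, inner_add_left, inner_add_left, inner_add_right]; ring
  rw [eτ] at m1
  have hs : |⟪E, A ξ + A' ζ⟫| ≤ δ * (2 * ‖ξ‖ + 2 * ‖ζ‖) := by
    refine (abs_real_inner_le_norm _ _).trans ?_
    exact mul_le_mul hE ((norm_add_le _ _).trans (by linarith)) (norm_nonneg _) hδ0.le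
  have hu : |2 * ⟪z, H w⟫ / q| ≤ 3 / ρ * ‖w‖ := by
    have a1 : 2 * ⟪z, H w⟫ / q = ⟪(2 / q) • H z, w⟫ := by
      rw [real_inner_smul_left, hG.sH]; ring
    rw [a1]
    exact (abs_real_inner_le_norm _ _).trans (mul_le_mul_of_nonneg_right nZ (norm_nonneg _))
  have fin := qabs_scalar (η := η) (L := 2 * ⟪w, H w⟫ / q - sS κ N e (A ξ) - sS κ N e (A' ζ))
    (τ := ⟪ϖ, A ξ⟫ + ⟪ϖ', A' ζ⟫)
    hκ0 hκ' hδ0 hδ hη0 hB hN hρ hρN1 hη1 hδ1 (norm_nonneg w)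
    (norm_nonneg (A ξ)) ha hs hu hT r1 r2 g1 g2 (by linarith only [m1])
  linarith only [fin]

end Vale.Agent.P088F
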