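import Vale.Agent.P088F.QDefs

/-! P088F part Q: the flat inequality. -/

open scoped ContDiff Topology RealInnerProductSpace
open Set Filter Metric

noncomputable section

namespace Vale.Agent.P088F

open Vale.Agent.P292E

variable {n : ℕ}

/-- Gram determinant of the parts orthogonal to `o` -/
def qgm (o a u : V n) : ℝ :=
  (‖u‖ ^ 2 - ⟪o, u⟫ ^ 2) * (‖a‖ ^ 2 - ⟪o, a⟫ ^ 2) - (⟪u, a⟫ - ⟪o, a⟫ * ⟪o, u⟫) ^ 2

theorem qalg_in {o : V n} (ho : ‖o‖ = 1) (u v : V n) :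
    ⟪u - ⟪o, u⟫ • o, v - ⟪o, v⟫ • o⟫ = ⟪u, v⟫ - ⟪o, v⟫ * ⟪o, u⟫ := by
  simp only [inner_sub_left, inner_sub_right, real_inner_smul_left, real_inner_smul_right,
    real_inner_self_eq_norm_sq, ho, real_inner_comm o u]
  ring

theorem qalg_sq {o : V n} (ho : ‖o‖ = 1) (u : V n) :
    ‖u - ⟪o, u⟫ • o‖ ^ 2 = ‖u‖ ^ 2 - ⟪o, u⟫ ^ 2 := by
  rw [← real_inner_self_eq_norm_sq, qalg_in ho, real_inner_self_eq_norm_sq]; ring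

theorem qgm_nonneg {o : V n} (ho : ‖o‖ = 1) (a u : V n) : 0 ≤ qgm o a u := by
  unfold qgm
  rw [← qalg_sq ho, ← qalg_sq ho, ← qalg_in ho, sub_nonneg, ← mul_pow]
  exact sq_le_sq' (abs_le.1 (abs_real_inner_le_norm _ _)).1 (real_inner_le_norm _ _)

theorem qgm_par (o a u v : V n) :
    qgm o a (u - v) + qgm o a (u + v) = 2 * qgm o a u + 2 * qgm o a v := by
  simp only [qgm, norm_sub_sq_real, norm_add_sq_real, inner_sub_left, inner_sub_right,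
    inner_add_left, inner_add_right]
  ring

theorem qgm_smul (o a u : V n) (t : ℝ) : qgm o a (t • u) = t ^ 2 * qgm o a u := by
  simp only [qgm, norm_smul, real_inner_smul_left, real_inner_smul_right, mul_pow, Real.norm_eq_abs,
    sq_abs]
  ring

theorem qalg_K {κ N : ℝ} (hκ : 0 < κ) (hκ0 : κ ≤ 1 / 200) (hN : 1 ≤ N) {o e a P : V n}
    (ho : ‖o‖ = 1) (he : |‖e‖ ^ 2 - 1| ≤ 1 / 100) (hP : ‖P - N • e‖ ≤ 30 * κ * N) :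
    3 * κ * N * (‖a‖ ^ 2 - ⟪o, a⟫ ^ 2) ≤ 2 * qgm o a P +
      N * κ * (-8 * (‖a‖ ^ 2 - ⟪o, a⟫ ^ 2) +
        16 * (‖e‖ ^ 2 * (‖a‖ ^ 2 - ⟪o, a⟫ ^ 2) - qgm o a e)) := by
  have hb : 0 ≤ ‖a‖ ^ 2 - ⟪o, a⟫ ^ 2 := by rw [← qalg_sq ho]; positivity
  have hle : ∀ u, qgm o a u ≤ ‖u‖ ^ 2 * (‖a‖ ^ 2 - ⟪o, a⟫ ^ 2) := fun u => by
    unfold qgm
    nlinarith [mul_nonneg (sq_nonneg ⟪o, u⟫) hb, sq_nonneg (⟪u, a⟫ - ⟪o, a⟫ * ⟪o, u⟫)]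
  have h1 := qgm_par o a P (P - N • e)
  rw [sub_sub_cancel, qgm_smul] at h1
  have h2 := qgm_nonneg ho a (P + (P - N • e))
  have h3 := hle (P - N • e)
  have h4 : ‖P - N • e‖ ^ 2 ≤ N ^ 2 / 32 := by
    have : ‖P - N • e‖ ≤ 3 / 20 * N := hP.trans (by nlinarith)
    nlinarith [norm_nonneg (P - N • e)]
  have h5 := mul_le_mul_of_nonneg_right h4 hb
  have h6 := qgm_nonneg ho a P
  have h7 := hle e
  have h8 := mul_le_mul_of_nonneg_right (abs_le.1 he).1 hb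
  have hNk : 0 < N * κ := by positivity
  generalize ‖a‖ ^ 2 - ⟪o, a⟫ ^ 2 = b at *
  rcases le_total (qgm o a e) (b / 4) with h | h
  · nlinarith [mul_le_mul_of_nonneg_left (show 3 * b ≤ -8 * b + 16 * (‖e‖ ^ 2 * b - qgm o a e) by
      nlinarith) hNk.le]
  · have h9 : N ^ 2 * (b / 4) ≤ N ^ 2 * qgm o a e := by gcongr
    have h10 : 11 * (N * κ) * b ≤ N ^ 2 / 8 * b := by
      refine mul_le_mul_of_nonneg_right ?_ hb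
      nlinarith
    nlinarith [mul_le_mul_of_nonneg_left (show -8 * b ≤ -8 * b + 16 * (‖e‖ ^ 2 * b - qgm o a e) by
      nlinarith) hNk.le]

theorem qalg_in_le {u v : V n} {s t : ℝ} (hu : ‖u‖ ≤ s) (hv : ‖v‖ ≤ t) : |⟪u, v⟫| ≤ s * t :=
  (abs_real_inner_le_norm _ _).trans (mul_le_mul hu hv (norm_nonneg _) ((norm_nonneg _).trans hu))

theorem qalg_mul {u v s t : ℝ} (hu : |u| ≤ s) (hv : |v| ≤ t) : |u * v| ≤ s * t := by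
  rw [abs_mul]
  exact mul_le_mul hu hv (abs_nonneg _) ((abs_nonneg _).trans hu)

/-- the final scalar step -/
theorem qalg_fin {κ δ μ N s m U τ α b b' w R : ℝ} (hκ : 0 < κ) (hκ0 : κ ≤ 1 / 200) (hδ : 0 ≤ δ)
    (hμ : 0 ≤ μ) (h1 : 50000 * δ ≤ 1) (h2 : 50000 * μ ≤ 1) (hN : 1 ≤ N) (hs : 0 ≤ s)
    (hsN : s * N ≤ δ) (hb : 0 ≤ b) (hb' : N * b' ≤ 2 * N * b + 2 * s * m ^ 2) (hw : w ≤ m ^ 2)
    (hm : m ^ 2 ≤ 12 * U ^ 2 + 3 * τ ^ 2 + 588 * (N * α) ^ 2)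
    (hR : 2 * U ^ 2 - τ ^ 2 + 3 * κ * N * b - 6 * δ * N * α ^ 2 - 83 * s * m ^ 2 ≤ R) :
    3 / 4 * κ * N * (b + b') - 2 * τ ^ 2 + μ * w / N - 50000 * (μ + δ) * N * α ^ 2 ≤ R := by
  have hN0 : 0 < N := by linarith
  obtain ⟨y, hy⟩ : ∃ y, y = m ^ 2 / N := ⟨_, rfl⟩
  have hy0 : 0 ≤ y := by rw [hy]; positivity
  have hyN : m ^ 2 = N * y := by rw [hy]; field_simp
  have e1 : s * m ^ 2 ≤ δ * y := by rw [hyN]; nlinarith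
  have e2 : μ * w / N ≤ μ * y := by
    rw [hy, mul_div_assoc]; gcongr
  have e3 : y ≤ 12 * U ^ 2 + 3 * τ ^ 2 + 588 * (N * α ^ 2) := by
    rw [hy, div_le_iff₀ hN0]
    nlinarith [sq_nonneg U, sq_nonneg τ]
  have e4 : κ * (N * b') ≤ κ * (2 * N * b + 2 * s * m ^ 2) := by gcongr
  have e5 : κ * (s * m ^ 2) ≤ 1 / 200 * (s * m ^ 2) := by gcongr
  have e6 : (μ + δ) * y ≤ (μ + δ) * (12 * U ^ 2 + 3 * τ ^ 2 + 588 * (N * α ^ 2)) := by gcongr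
  have e7 : (μ + δ) * U ^ 2 ≤ 1 / 25000 * U ^ 2 := by gcongr; linarith
  have e8 : (μ + δ) * τ ^ 2 ≤ 1 / 25000 * τ ^ 2 := by gcongr; linarith
  have e9 : 0 ≤ κ * (N * b) := by positivity
  have e10 : 0 ≤ μ * y := by positivity
  have e11 : 0 ≤ μ * (N * α ^ 2) := by positivity
  have e12 : 0 ≤ δ * (N * α ^ 2) := by positivity
  have e13 : 0 ≤ s * m ^ 2 := by positivity
  nlinarith [sq_nonneg U, sq_nonneg τ]

theorem qalg_id {κ N r : ℝ} (hr : 0 < r) {o e a W P Q c P' X Y U Δ : V n} {D : ℝ} (ho : ‖o‖ = 1)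
    (hc : c = a + r • W) (hP' : P' = P + r • Q) (hX : X = -((2 / r) • o) - P)
    (hY : Y = (2 / r) • o - P') (hD : D = ⟪P', W⟫ + ⟪Q, a⟫)
    (hU : U = W - ⟪o, W⟫ • o + (⟪o, a⟫ • P - ⟪o, P⟫ • a)) (hΔ : Δ = Q - sv κ N e o) :
    ⟪X, a⟫ + ⟪Y, c⟫ = 2 * (⟪o, W⟫ - ⟪P, a⟫) - r * D ∧
    2 * ‖W‖ ^ 2 - 4 * ⟪o, W⟫ ^ 2 - sS κ N e a - sS κ N e c +
      (2 * ⟪P, a⟫ * ⟪X, a⟫ - ⟪P, X⟫ * ‖a‖ ^ 2) + (2 * ⟪P', c⟫ * ⟪Y, c⟫ - ⟪P', Y⟫ * ‖c‖ ^ 2) =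
      2 * ‖U‖ ^ 2 - 2 * (⟪o, W⟫ - ⟪P, a⟫) ^ 2 + (2 * qgm o a P +
        N * κ * (-8 * (‖a‖ ^ 2 - ⟪o, a⟫ ^ 2) +
          16 * (‖e‖ ^ 2 * (‖a‖ ^ 2 - ⟪o, a⟫ ^ 2) - qgm o a e))) +
        (4 * (⟪Δ, a⟫ * ⟪o, a⟫) - 2 * (⟪o, Δ⟫ * ‖a‖ ^ 2)) +
        r * (-2 * (N * κ * ⟪W, a + c⟫) + 8 * (N * κ * (⟪e, W⟫ * (⟪e, a⟫ + ⟪e, c⟫))) -
          2 * (D * (⟪P, a⟫ + ⟪P', c⟫)) + ⟪Q, P + P'⟫ * ‖c‖ ^ 2 + ‖P‖ ^ 2 * ⟪W, a + c⟫ +
          4 * (⟪Q, W⟫ * ⟪o, a⟫) + 4 * (D * ⟪o, W⟫) - 2 * (⟪o, P⟫ * ‖W‖ ^ 2) -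
          2 * (⟪o, Q⟫ * ⟪W, a + c⟫)) := by
  have iB : ⟪P', c⟫ = ⟪P, a⟫ + r * D := by
    rw [hD, hc, inner_add_right, real_inner_smul_right]
    conv_lhs => rw [hP', inner_add_left, real_inner_smul_left, ← hP']
    ring
  have iD : D = ⟪P, W⟫ + ⟪Q, a⟫ + r * ⟪Q, W⟫ := by
    rw [hD, hP', inner_add_left, real_inner_smul_left]; ring
  have iF : ⟪W, a + c⟫ = 2 * ⟪a, W⟫ + r * ‖W‖ ^ 2 := by
    rw [hc, inner_add_right, inner_add_right, real_inner_smul_right, real_inner_self_eq_norm_sq,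
      real_inner_comm a W]
    ring
  have ic : ‖c‖ ^ 2 = ‖a‖ ^ 2 + r * ⟪W, a + c⟫ := by
    rw [iF, hc, norm_add_sq_real, real_inner_smul_right, norm_smul, Real.norm_of_nonneg hr.le]; ring
  have iP : ‖P'‖ ^ 2 = ‖P‖ ^ 2 + r * ⟪Q, P + P'⟫ := by
    rw [hP', norm_add_sq_real, norm_smul, Real.norm_of_nonneg hr.le, inner_add_right,
      inner_add_right, real_inner_smul_right, real_inner_smul_right, real_inner_self_eq_norm_sq,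
      real_inner_comm P Q]
    ring
  have ioc : ⟪o, c⟫ = ⟪o, a⟫ + r * ⟪o, W⟫ := by rw [hc, inner_add_right, real_inner_smul_right]
  have iec : ⟪e, c⟫ = ⟪e, a⟫ + r * ⟪e, W⟫ := by rw [hc, inner_add_right, real_inner_smul_right]
  have ioP : ⟪o, P'⟫ = ⟪o, P⟫ + r * ⟪o, Q⟫ := by rw [hP', inner_add_right, real_inner_smul_right]
  have iXa : ⟪X, a⟫ = -(2 / r * ⟪o, a⟫) - ⟪P, a⟫ := by
    rw [hX, inner_sub_left, inner_neg_left, real_inner_smul_left]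
  have iPX : ⟪P, X⟫ = -(2 / r * ⟪o, P⟫) - ‖P‖ ^ 2 := by
    rw [hX, inner_sub_right, inner_neg_right, real_inner_smul_right, real_inner_self_eq_norm_sq,
      real_inner_comm]
  have iYc : ⟪Y, c⟫ = 2 / r * ⟪o, c⟫ - ⟪P', c⟫ := by
    rw [hY, inner_sub_left, real_inner_smul_left]
  have iPY : ⟪P', Y⟫ = 2 / r * ⟪o, P'⟫ - ‖P'‖ ^ 2 := by
    rw [hY, inner_sub_right, real_inner_smul_right, real_inner_self_eq_norm_sq, real_inner_comm]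
  have iU : ‖U‖ ^ 2 = ‖W‖ ^ 2 - ⟪o, W⟫ ^ 2 + 2 * (⟪o, a⟫ * ⟪P, W⟫ - ⟪o, P⟫ * ⟪a, W⟫) +
      (⟪o, a⟫ ^ 2 * ‖P‖ ^ 2 - 2 * ⟪o, a⟫ * ⟪o, P⟫ * ⟪P, a⟫ + ⟪o, P⟫ ^ 2 * ‖a‖ ^ 2) := by
    rw [hU, norm_add_sq_real, qalg_sq ho, norm_sub_sq_real]
    simp only [inner_sub_left, inner_sub_right, real_inner_smul_left, real_inner_smul_right,
      norm_smul, mul_pow, Real.norm_eq_abs, sq_abs]
    rw [real_inner_comm P W, real_inner_comm a W]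
    ring
  have iQa : ⟪Q, a⟫ = N * κ * (2 * ⟪o, a⟫ - 8 * ⟪o, e⟫ * ⟪e, a⟫) + ⟪Δ, a⟫ := by
    rw [hΔ, sv]
    simp only [inner_sub_left, real_inner_smul_left]
    rw [real_inner_comm o e]
    ring
  have iQo : ⟪o, Q⟫ = N * κ * (2 - 8 * ⟪o, e⟫ ^ 2) + ⟪o, Δ⟫ := by
    rw [hΔ, sv]
    simp only [inner_sub_right, real_inner_smul_right, real_inner_self_eq_norm_sq, ho]
    rw [real_inner_comm o e]
    ring
  constructor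
  · rw [iXa, iYc, ioc, iB]; field_simp; ring
  · rw [iXa, iPX, iYc, iPY, iU, iP, sS, sS, ioc, iec, ioP, iB, ic, iF, iD, iQa, iQo, qgm, qgm]
    field_simp
    ring

theorem qalg_rem {κ N k D : ℝ} (hκ : 0 < κ) (hκ0 : κ ≤ 1 / 200) (hN : 1 ≤ N)
    {o e a W P Q c P' : V n} (ho : ‖o‖ = 1) (he : ‖e‖ ≤ 3 / 2) (na : ‖a‖ ≤ k) (nc : ‖c‖ ≤ k)
    (nW : ‖W‖ ≤ N * k) (nP : ‖P‖ ≤ 2 * N) (nP' : ‖P'‖ ≤ 3 * N) (nQ : ‖Q‖ ≤ N)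
    (bD : |D| ≤ 4 * N * (N * k)) :
    -(82 * N * (N * k) ^ 2) ≤
      -2 * (N * κ * ⟪W, a + c⟫) + 8 * (N * κ * (⟪e, W⟫ * (⟪e, a⟫ + ⟪e, c⟫))) -
        2 * (D * (⟪P, a⟫ + ⟪P', c⟫)) + ⟪Q, P + P'⟫ * ‖c‖ ^ 2 + ‖P‖ ^ 2 * ⟪W, a + c⟫ +
        4 * (⟪Q, W⟫ * ⟪o, a⟫) + 4 * (D * ⟪o, W⟫) - 2 * (⟪o, P⟫ * ‖W‖ ^ 2) -
        2 * (⟪o, Q⟫ * ⟪W, a + c⟫) := by
  have nac : ‖a + c‖ ≤ 2 * k := (norm_add_le _ _).trans (by linarith)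
  have nPP : ‖P + P'‖ ≤ 5 * N := (norm_add_le _ _).trans (by linarith)
  have bF := qalg_in_le nW nac
  have sqle : ∀ {u : V n} {t : ℝ}, ‖u‖ ≤ t → |‖u‖ ^ 2| ≤ t ^ 2 := fun hu => by
    rw [abs_of_nonneg (sq_nonneg _)]; gcongr
  have t1 := qalg_mul (qalg_in_le he nW)
    ((abs_add_le _ _).trans (add_le_add (qalg_in_le he na) (qalg_in_le he nc)))
  have t2 := abs_le.1 (qalg_mul bD
    ((abs_add_le _ _).trans (add_le_add (qalg_in_le nP na) (qalg_in_le nP' nc))))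
  have t3 := abs_le.1 (qalg_mul (qalg_in_le nQ nPP) (sqle nc))
  have t4 := abs_le.1 (qalg_mul (sqle nP) bF)
  have t5 := abs_le.1 (qalg_mul (qalg_in_le nQ nW) (qalg_in_le ho.le na))
  have t6 := abs_le.1 (qalg_mul bD (qalg_in_le ho.le nW))
  have t7 := abs_le.1 (qalg_mul (qalg_in_le ho.le nP) (sqle nW))
  have t8 := abs_le.1 (qalg_mul (qalg_in_le ho.le nQ) bF)
  have hNk : |N * κ| ≤ N * (1 / 200) := by
    rw [abs_of_nonneg (by positivity)]; gcongr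
  have u1 := abs_le.1 (qalg_mul hNk bF)
  have u2 := abs_le.1 (qalg_mul hNk t1)
  have hy : (N * k) ^ 2 ≤ N * (N * k) ^ 2 := by nlinarith [sq_nonneg (N * k)]
  linarith [t2.2, t3.1, t4.1, t5.1, t6.1, t7.2, t8.2, u1.2, u2.1, sq_nonneg (N * k)]

theorem qalg_nrm {κ δ N : ℝ} (hκ : 0 < κ) (hκ0 : κ ≤ 1 / 200) (hδ : δ ≤ 1 / 2) (hN : 1 ≤ N)
    {o e P Q : V n} (ho : ‖o‖ = 1) (he : ‖e‖ ≤ 3 / 2) (hP : ‖P - N • e‖ ≤ 30 * κ * N)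
    (hQ : ‖Q - sv κ N e o‖ ≤ δ * N) : ‖P‖ ≤ 2 * N ∧ ‖Q‖ ≤ N := by
  have hN0 : 0 < N := by linarith
  constructor
  · have := norm_add_le (P - N • e) (N • e)
    rw [sub_add_cancel, norm_smul, Real.norm_of_nonneg hN0.le] at this
    nlinarith
  · have eo : |⟪e, o⟫| ≤ 3 / 2 * 1 := qalg_in_le he ho.le
    have h3 := norm_add_le (Q - sv κ N e o) (sv κ N e o)
    have h4 := norm_sub_le ((2 : ℝ) • o) ((8 * ⟪e, o⟫) • e)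
    rw [norm_smul, norm_smul, ho, Real.norm_eq_abs, Real.norm_eq_abs, abs_mul] at h4
    have h5 : ‖sv κ N e o‖ ≤ N * κ * 20 := by
      rw [sv, norm_smul, Real.norm_of_nonneg (by positivity)]
      refine mul_le_mul_of_nonneg_left (h4.trans ?_) (by positivity)
      norm_num
      nlinarith [abs_nonneg ⟪e, o⟫, norm_nonneg e]
    rw [sub_add_cancel] at h3
    nlinarith

theorem qalg_m {N s m τ d : ℝ} (hs1 : s ≤ 1 / 4) (hm0 : 0 ≤ m) {o a W P U : V n}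
    (ho : ‖o‖ = 1) (nP : ‖P‖ ≤ 2 * N) (hm : m = ‖W‖ + N * ‖a‖) (hd : |d| ≤ 4 * s * m)
    (hτ : τ = 2 * (⟪o, W⟫ - ⟪P, a⟫) - d)
    (hU : U = W - ⟪o, W⟫ • o + (⟪o, a⟫ • P - ⟪o, P⟫ • a)) :
    m ^ 2 ≤ 12 * ‖U‖ ^ 2 + 3 * τ ^ 2 + 588 * (N * ‖a‖) ^ 2 := by
  have hW : W = U + ⟪o, W⟫ • o - (⟪o, a⟫ • P - ⟪o, P⟫ • a) := by rw [hU]; abel
  have h1 : ‖W‖ ≤ ‖U‖ + |⟪o, W⟫| + (‖a‖ * (2 * N) + 2 * N * ‖a‖) := by
    conv_lhs => rw [hW]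
    refine (norm_sub_le _ _).trans (add_le_add ((norm_add_le _ _).trans ?_)
      ((norm_sub_le _ _).trans (add_le_add ?_ ?_)))
    · rw [norm_smul, ho, mul_one, Real.norm_eq_abs]
    · rw [norm_smul, Real.norm_eq_abs]
      exact mul_le_mul (by simpa using qalg_in_le ho.le (le_refl ‖a‖)) nP (norm_nonneg _)
        (norm_nonneg _)
    · rw [norm_smul, Real.norm_eq_abs]
      exact mul_le_mul_of_nonneg_right (by simpa using qalg_in_le ho.le nP) (norm_nonneg _)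
  have h2 := abs_le.1 (qalg_in_le nP (le_refl ‖a‖))
  have h3 : |⟪o, W⟫| ≤ |τ| / 2 + 2 * s * m + 2 * N * ‖a‖ := by
    have := abs_le.1 hd
    have h4 := le_abs_self τ
    have h5 := neg_abs_le τ
    rw [abs_le]
    constructor <;> linarith
  have h4 : s * m ≤ 1 / 4 * m := by gcongr
  have h5 : m ≤ 2 * ‖U‖ + |τ| + 14 * (N * ‖a‖) := by linarith
  have h6 : m ^ 2 ≤ (2 * ‖U‖ + |τ| + 14 * (N * ‖a‖)) ^ 2 := by gcongr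
  rw [← sq_abs τ]
  nlinarith [sq_nonneg (2 * ‖U‖ - |τ|), sq_nonneg (|τ| - 14 * (N * ‖a‖)),
    sq_nonneg (2 * ‖U‖ - 14 * (N * ‖a‖))]

theorem qalg_b {N r s m : ℝ} (hN : 1 ≤ N) (hr : 0 < r) (hs : s = r * N) (hr1 : r ≤ 1)
    {o a W c : V n} (ho : ‖o‖ = 1) (hc : c = a + r • W) (nW : ‖W‖ ≤ m) :
    N * (‖c‖ ^ 2 - ⟪o, c⟫ ^ 2) ≤ 2 * N * (‖a‖ ^ 2 - ⟪o, a⟫ ^ 2) + 2 * s * m ^ 2 := by
  have hN0 : 0 < N := by linarith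
  have h3 : c - ⟪o, c⟫ • o = (a - ⟪o, a⟫ • o) + r • (W - ⟪o, W⟫ • o) := by
    rw [hc, inner_add_right, real_inner_smul_right]; module
  have h4 := norm_add_le (a - ⟪o, a⟫ • o) (r • (W - ⟪o, W⟫ • o))
  rw [← h3, norm_smul, Real.norm_of_nonneg hr.le] at h4
  have h5 : ‖W - ⟪o, W⟫ • o‖ ^ 2 ≤ m ^ 2 := by
    rw [qalg_sq ho]
    linarith [sq_nonneg ⟪o, W⟫, pow_le_pow_left₀ (norm_nonneg _) nW 2]
  rw [← qalg_sq ho, ← qalg_sq ho]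
  have h6 := pow_le_pow_left₀ (norm_nonneg _) h4 2
  have h7 : ‖c - ⟪o, c⟫ • o‖ ^ 2 ≤ 2 * ‖a - ⟪o, a⟫ • o‖ ^ 2 + 2 * (r ^ 2 * m ^ 2) := by
    linarith [sq_nonneg (‖a - ⟪o, a⟫ • o‖ - r * ‖W - ⟪o, W⟫ • o‖),
      mul_le_mul_of_nonneg_left h5 (sq_nonneg r)]
  have h8 : r * (r * N * m ^ 2) ≤ 1 * (r * N * m ^ 2) := by gcongr
  have h9 := mul_le_mul_of_nonneg_left h7 hN0.le
  rw [hs]
  linarith

theorem q_alg : QAlg n := by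
  refine ⟨1 / 200, 50000, by norm_num, by norm_num, ?_⟩
  intro κ δ μ N r hκ hκ0 hδ hμ h1 h2 hN hr hrN o e a W P Q c P' X Y ho he hP hQ hc hP' hX hY
  have hN0 : 0 < N := by linarith
  obtain ⟨s, hs⟩ : ∃ s, s = r * N := ⟨_, rfl⟩
  have hs0 : 0 < s := by rw [hs]; positivity
  have hsN : s * N ≤ δ := by rw [hs]; nlinarith
  have hs1 : s ≤ 1 / 50000 := by nlinarith
  have hrs : r ≤ s := by rw [hs]; nlinarith
  have he2 : ‖e‖ ≤ 3 / 2 := by nlinarith [(abs_le.1 he).2, norm_nonneg e]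
  obtain ⟨nP, nQ⟩ := qalg_nrm hκ hκ0 (by linarith) hN ho he2 hP hQ
  obtain ⟨k, hk⟩ : ∃ k, k = ‖W‖ / N + ‖a‖ := ⟨_, rfl⟩
  have hW0 := norm_nonneg W
  have ha0 := norm_nonneg a
  have hkN : N * k = ‖W‖ + N * ‖a‖ := by rw [hk]; field_simp
  have na : ‖a‖ ≤ k := by rw [hk]; exact le_add_of_nonneg_left (by positivity)
  have nW : ‖W‖ ≤ N * k := by rw [hkN]; exact le_add_of_nonneg_right (by positivity)
  have hk0 : 0 ≤ k := ha0.trans na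
  have hsW : s * ‖W‖ ≤ 1 * ‖W‖ := by gcongr; linarith
  have nc : ‖c‖ ≤ k := by
    have h3 := norm_add_le a (r • W)
    rw [← hc, norm_smul, Real.norm_of_nonneg hr.le] at h3
    refine le_of_mul_le_mul_left ?_ hN0
    have := mul_le_mul_of_nonneg_left h3 hN0.le
    rw [hs] at hsW
    linarith
  have nP' : ‖P'‖ ≤ 3 * N := by
    have h3 := norm_add_le P (r • Q)
    rw [← hP', norm_smul, Real.norm_of_nonneg hr.le] at h3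
    have : r * ‖Q‖ ≤ 1 * N := by gcongr; linarith
    linarith
  have bD : |⟪P', W⟫ + ⟪Q, a⟫| ≤ 4 * N * (N * k) := by
    have h3 := qalg_in_le nP' nW
    have h4 := qalg_in_le nQ na
    have := mul_nonneg (mul_nonneg hN0.le hk0) (sub_nonneg.2 hN)
    refine (abs_add_le _ _).trans ?_
    linarith
  obtain ⟨iτ, main⟩ := qalg_id (κ := κ) (N := N) (e := e) hr ho hc hP' hX hY rfl rfl rfl
  have hrem := mul_le_mul_of_nonneg_left (qalg_rem hκ hκ0 hN ho he2 na nc nW nP nP' nQ bD) hr.le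
  have hd : |r * (⟪P', W⟫ + ⟪Q, a⟫)| ≤ 4 * s * (N * k) := by
    rw [abs_mul, abs_of_pos hr, hs]
    linarith [mul_le_mul_of_nonneg_left bD hr.le]
  have hm := qalg_m (by linarith) (by positivity) ho nP hkN hd iτ rfl
  have hK := qalg_K hκ hκ0 hN (a := a) ho he hP
  have t9 := abs_le.1 (qalg_mul (qalg_in_le hQ (le_refl ‖a‖)) (qalg_in_le ho.le (le_refl ‖a‖)))
  have t10 := abs_le.1 (qalg_mul (qalg_in_le ho.le hQ) (abs_of_nonneg (sq_nonneg ‖a‖)).le)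
  have hd2 : (r * (⟪P', W⟫ + ⟪Q, a⟫)) ^ 2 ≤ s * (N * k) ^ 2 := by
    have h3 := sq_le_sq' (abs_le.1 hd).1 (abs_le.1 hd).2
    have h4 : s * (s * (N * k) ^ 2) ≤ 1 / 16 * (s * (N * k) ^ 2) := by gcongr; linarith
    linarith
  have hb' := qalg_b hN hr hs (by linarith) ho hc nW
  refine qalg_fin hκ hκ0 hδ hμ h1 h2 hN hs0.le hsN (by rw [← qalg_sq ho]; positivity) hb'
    (pow_le_pow_left₀ hW0 nW 2) hm ?_
  rw [main, iτ]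
  rw [hs] at hd2 ⊢
  linarith [sq_nonneg (2 * (⟪o, W⟫ - ⟪P, a⟫) - 2 * (r * (⟪P', W⟫ + ⟪Q, a⟫))), t9.1, t10.2]

end Vale.Agent.P088F
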