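import Vale.Agent.P088F.Defs

/-! P088F, part Q: the model of the gauged Hessian. -/

open scoped RealInnerProductSpace

noncomputable section

namespace Vale.Agent.P088F

open Vale.Agent.P292E

variable {n : ℕ}

/-- the bilinear form of a matrix field as a linear map -/
def ipL (g : Mf n) (x : V n) : V n →ₗ[ℝ] V n →ₗ[ℝ] ℝ :=
  LinearMap.mk₂ ℝ (ip g x)
    (fun a b c => by simp only [ip, PiLp.add_apply, mul_add, add_mul, Finset.sum_add_distrib])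
    (fun t a c => by
      simp only [ip, PiLp.smul_apply, smul_eq_mul, Finset.mul_sum]
      exact Finset.sum_congr rfl fun _ _ => Finset.sum_congr rfl fun _ _ => by ring)
    (fun a b c => by simp only [ip, PiLp.add_apply, mul_add, Finset.sum_add_distrib])
    (fun t a c => by
      simp only [ip, PiLp.smul_apply, smul_eq_mul, Finset.mul_sum]
      exact Finset.sum_congr rfl fun _ _ => Finset.sum_congr rfl fun _ _ => by ring)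

theorem ipL_apply (g : Mf n) (x a b : V n) : ipL g x a b = ip g x a b := rfl

/-- model of `tau` -/
def tauM (Γ : V n →ₗ[ℝ] V n →ₗ[ℝ] ℝ) (z a w P P' : V n) : ℝ :=
  2 * Γ z w / Γ z z - Γ P a - Γ P' (a + w)

variable [NeZero n]

/-- differential of `psi` -/
def dps (κ : ℝ) (x v : V n) : ℝ := v 0 + κ * (2 * ⟪x, v⟫ - 8 * x 0 * v 0)

/-- Hessian of `psi` -/
def hps (κ : ℝ) (u v : V n) : ℝ := κ * (2 * ⟪u, v⟫ - 8 * u 0 * v 0)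

/-- model of `Lev` -/
def levM (κ N : ℝ) (Γ : V n →ₗ[ℝ] V n →ₗ[ℝ] ℝ) (z a w P P' : V n) : ℝ :=
  2 * Γ w w / Γ z z - 4 * Γ z w ^ 2 / Γ z z ^ 2 - N * hps κ a a - N * hps κ (a + w) (a + w) +
    (2 * Γ P a * (-2 * Γ z a / Γ z z - Γ P a) - (-2 * Γ P z / Γ z z - Γ P P) * Γ a a) +
    (2 * Γ P' (a + w) * (2 * Γ z (a + w) / Γ z z - Γ P' (a + w)) -
      (2 * Γ P' z / Γ z z - Γ P' P') * Γ (a + w) (a + w))

variable (n)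

/-- the model inequality with room for errors -/
def QM : Prop :=
  ∃ κ₀ C : ℝ, 0 < κ₀ ∧ ∀ κ, 0 < κ → κ ≤ κ₀ → ∀ η, 0 < η → ∃ δ N₀ η' : ℝ, 0 < δ ∧ 1 ≤ N₀ ∧ 0 < η' ∧
    ∀ (N : ℝ) (Γ : V n →ₗ[ℝ] V n →ₗ[ℝ] ℝ) (x z a w P P' : V n) (L τ p₁ p₂ s : ℝ), N₀ ≤ N →
      (∀ u v, Γ u v = Γ v u) → (∀ u v, |Γ u v - ⟪u, v⟫| ≤ 1 / 100 * ‖u‖ * ‖v‖) → ‖x‖ < 2 → z ≠ 0 →
      ‖z‖ * N ^ 2 ≤ δ → (∀ v, Γ P v = N * dps κ x v) → (∀ v, Γ P' v = N * dps κ (x + z) v) →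
      levM κ N Γ z a w P P' -
        δ * (N * (‖a‖ ^ 2 + ‖a + w‖ ^ 2) + ‖w‖ ^ 2 / (N * ‖z‖ ^ 2)) ≤ L →
      |τ - tauM Γ z a w P P'| ≤ δ * (‖a‖ + ‖a + w‖) →
      p₁ ≤ 2 * (Γ a a - Γ z a ^ 2 / Γ z z) + δ * ‖a‖ ^ 2 →
      p₂ ≤ 2 * (Γ (a + w) (a + w) - Γ z (a + w) ^ 2 / Γ z z) + δ * ‖a + w‖ ^ 2 →
      ‖a‖ ^ 2 + ‖a + w‖ ^ 2 ≤ 4 * s →
      κ * N / 4 * (p₁ + p₂) - η * κ * N * s - C * τ ^ 2 + η' / (N * ‖z‖ ^ 2) * ‖w‖ ^ 2 ≤ L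

end Vale.Agent.P088F
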