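import Vale.Agent.P088F.QDefs

/-! P088F, part Q: scalar estimates for the model. -/

namespace Vale.Agent.P088F

theorem qsc_mul {a b A B : ℝ} (h1 : |a| ≤ A) (h2 : |b| ≤ B) : |a * b| ≤ A * B := by
  rw [abs_mul]
  exact mul_le_mul h1 h2 (abs_nonneg _) ((abs_nonneg _).trans h1)

/-- the error terms -/
theorem qsc_err {N ρ α ν l X haw hww t3 d1 s Pa t7 hq d2 d3 A PP : ℝ} (hN : 1 ≤ N) (hρ : 0 ≤ ρ)
    (hα : 0 ≤ α) (hν : 0 ≤ ν) (hl : ρ * N ^ 2 ≤ l) (hl1 : l ≤ 1) (hX : N * α ^ 2 + ν ^ 2 / N ≤ X)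
    (h1 : |haw| ≤ N * α * (ρ * ν)) (h2 : |hww| ≤ N * (ρ * ν) * (ρ * ν))
    (h3 : |t3| ≤ 4 * N * ρ * ν * α) (h4 : |d1| ≤ ρ * N * (α + 3 * ν)) (h5 : |s| ≤ 4 * ν)
    (h6 : |Pa| ≤ 2 * N * α) (h7 : |t7| ≤ 8 * N * ρ * ν ^ 2) (h8 : |hq| ≤ 2 * N)
    (h9 : |d2| ≤ 4 * ρ * α * ν + 2 * ρ ^ 2 * ν ^ 2) (h10 : |d3| ≤ 6 * ρ * N ^ 2)
    (h11 : |A| ≤ 2 * α ^ 2) (h12 : |PP| ≤ 6 * N ^ 2) :
    -(300 * l * X) ≤ -2 * haw - hww + 4 * t3 + 4 * (d1 * s) - 4 * (Pa * d1) - 3 * (d1 * d1) -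
      2 * t7 - 2 * (hq * d2) + d3 * A + PP * d2 := by
  have hN0 : 0 < N := by linarith
  obtain ⟨Y, hY, hY0⟩ : ∃ Y, ν ^ 2 = N * Y ∧ 0 ≤ Y := ⟨ν ^ 2 / N, by field_simp, by positivity⟩
  have e : ν ^ 2 / N = Y := by rw [hY]; field_simp
  rw [e] at hX
  have a0 : 0 ≤ N * α ^ 2 := by positivity
  have a1 : α * ν ≤ X := by
    have : N * (α * ν) ≤ N * X := by nlinarith [sq_nonneg (N * α - ν), mul_nonneg hN0.le a0]
    exact le_of_mul_le_mul_left this hN0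
  have hX0 : 0 ≤ X := by linarith
  have r1 : ρ * N ≤ ρ * N ^ 2 := mul_le_mul_of_nonneg_left (by nlinarith) hρ
  have r2 : ρ ≤ ρ * N := le_mul_of_one_le_right hρ hN
  have l0 : 0 ≤ l := le_trans (by positivity) hl
  have b1 : ρ * N ^ 2 * (α * ν) ≤ l * X := mul_le_mul hl a1 (by positivity) l0
  have b2 : ρ * N * (N * α ^ 2) ≤ l * X := mul_le_mul (r1.trans hl) (by linarith) a0 l0
  have b3 : ρ * N ^ 2 * Y ≤ l * X := mul_le_mul hl (by linarith) hY0 l0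
  have b1' : ρ * N * (α * ν) ≤ l * X := mul_le_mul (r1.trans hl) a1 (by positivity) l0
  have b3' : ρ * N * ν ^ 2 ≤ l * X := by rw [hY]; linarith
  have b4 : ρ * N * (ρ * N * ν ^ 2) ≤ l * X :=
    (mul_le_of_le_one_left (by positivity) (by linarith)).trans b3'
  have b5 : ρ * (ρ * N * ν ^ 2) ≤ l * X :=
    (mul_le_of_le_one_left (by positivity) (by linarith)).trans b3'
  have b6 : ρ * (ρ * N * (N * α ^ 2)) ≤ l * X :=
    (mul_le_of_le_one_left (by positivity) (by linarith)).trans b2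
  have b7 : ρ * (ρ * N ^ 2 * (α * ν)) ≤ l * X :=
    (mul_le_of_le_one_left (by positivity) (by linarith)).trans b1
  have lX : 0 ≤ l * X := mul_nonneg l0 hX0
  have c1 := (abs_le.1 h1).2
  have c2 := (abs_le.1 h2).2
  have c3 := (abs_le.1 h3).1
  have c4 := (abs_le.1 (qsc_mul h4 h5)).1
  have c5 := (abs_le.1 (qsc_mul h6 h4)).2
  have c6 := (abs_le.1 (qsc_mul h4 h4)).2
  have c7 := (abs_le.1 h7).2
  have c8 := (abs_le.1 (qsc_mul h8 h9)).2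
  have c9 := (abs_le.1 (qsc_mul h10 h11)).1
  have c10 := (abs_le.1 (qsc_mul h12 h9)).1
  linarith

/-- the plane dichotomy -/
theorem qsc_plane {κ N q u PP Pz Pu z0 u0 zz uu ez eu : ℝ} (hκ : 0 < κ) (hκ1 : κ ≤ 1 / 1000)
    (hN : 1 ≤ N) (hq : 0 < q) (hu : 0 ≤ u) (h1 : 99 / 100 * zz ≤ q) (h2 : 99 / 100 * uu ≤ u)
    (h3 : N ^ 2 * (99 / 100 - 40 * κ) ≤ PP) (h4 : Pz = N * (z0 + κ * ez))
    (h5 : Pu = N * (u0 + κ * eu)) (h6 : ez ^ 2 ≤ 400 * zz) (h7 : eu ^ 2 ≤ 400 * uu)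
    (h8 : Pu ^ 2 ≤ (PP - Pz ^ 2 / q) * u) :
    2 * κ * N * u ≤ (PP - Pz ^ 2 / q) * u - Pu ^ 2 - N * (κ * (2 * uu - 8 * u0 * u0)) -
      N * (κ * (2 * zz - 8 * z0 * z0)) / q * u := by
  obtain ⟨t, ht⟩ : ∃ t, t = z0 ^ 2 / q := ⟨_, rfl⟩
  obtain ⟨r, hr⟩ : ∃ r, r = zz / q := ⟨_, rfl⟩
  have hκN : 0 < κ * N := by positivity
  have t0 : 0 ≤ t := by rw [ht]; positivity
  have r1 : r ≤ 100 / 99 := by
    rw [hr, div_le_iff₀ hq]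
    linarith
  have e : N * (κ * (2 * zz - 8 * z0 * z0)) / q = κ * N * (2 * r - 8 * t) := by
    rw [ht, hr]
    field_simp
  have ru : r * u ≤ 100 / 99 * u := mul_le_mul_of_nonneg_right r1 hu
  rw [e]
  by_cases h : 4 / 5 * u ≤ u0 ^ 2 + t * u
  · have : 2 * u ≤ -(2 * uu - 8 * u0 * u0) - (2 * r - 8 * t) * u := by linarith
    linarith [mul_le_mul_of_nonneg_left this hκN.le]
  · have k2 : κ ^ 2 ≤ 1 / 1000000 := (pow_le_pow_left₀ hκ.le hκ1 2).trans (by norm_num)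
    have a1 : (κ * ez) ^ 2 ≤ 1 / 2000 * q := by
      have := mul_le_mul k2 h6 (sq_nonneg _) (by norm_num)
      rw [mul_pow]
      linarith
    have a2 : (κ * eu) ^ 2 ≤ 1 / 2000 * u := by
      have := mul_le_mul k2 h7 (sq_nonneg _) (by norm_num)
      rw [mul_pow]
      linarith
    have a3 : Pz ^ 2 / q ≤ N ^ 2 * (11 / 10 * t + 11 / 2000) := by
      have e2 : t * q = z0 ^ 2 := by rw [ht]; field_simp
      have : (z0 + κ * ez) ^ 2 ≤ (11 / 10 * t + 11 / 2000) * q := by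
        linarith [sq_nonneg (z0 - 10 * (κ * ez))]
      rw [div_le_iff₀ hq, h4, mul_pow, mul_assoc]
      exact mul_le_mul_of_nonneg_left this (sq_nonneg _)
    have a4 : Pu ^ 2 ≤ N ^ 2 * (11 / 10 * u0 ^ 2 + 11 / 2000 * u) := by
      rw [h5, mul_pow]
      exact mul_le_mul_of_nonneg_left (by linarith [sq_nonneg (u0 - 10 * (κ * eu))]) (sq_nonneg _)
    have a0 : N ^ 2 * (95 / 100) ≤ N ^ 2 * (99 / 100 - 40 * κ) :=
      mul_le_mul_of_nonneg_left (by linarith) (sq_nonneg _)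
    have a5 : N ^ 2 * (95 / 100 - (11 / 10 * t + 11 / 2000)) * u ≤ (PP - Pz ^ 2 / q) * u :=
      mul_le_mul_of_nonneg_right (by linarith) hu
    have a6 : N ^ 2 * (u0 ^ 2 + t * u) ≤ N ^ 2 * (4 / 5 * u) :=
      mul_le_mul_of_nonneg_left (not_le.1 h).le (sq_nonneg _)
    have a7 : κ * N * u ≤ 1 / 1000 * N ^ 2 * u :=
      mul_le_mul_of_nonneg_right
        (mul_le_mul hκ1 (le_self_pow₀ hN two_ne_zero) (by linarith) (by norm_num)) hu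
    have a8 : (2 * uu - 8 * u0 * u0) + (2 * r - 8 * t) * u ≤ 5 * u := by
      linarith [mul_nonneg t0 hu, sq_nonneg u0]
    have a9 := mul_le_mul_of_nonneg_left a8 hκN.le
    have a10 : 0 ≤ N ^ 2 * u := by positivity
    linarith

/-- the size of the increment -/
theorem qsc_inc {N ρ α ν δ q ww s W V UU Pa d1 τ : ℝ} (hN : 1 ≤ N) (hρ : 0 < ρ)
    (hl : ρ * N ^ 2 ≤ δ) (hδ : δ ≤ 1 / 12) (hq : ρ ^ 2 / 2 ≤ q) (h1 : (ρ * ν) ^ 2 ≤ 2 * ww)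
    (hq' : q ≤ 2 * ρ ^ 2) (h2 : ww = s ^ 2 * q + W) (h3 : W ≤ 2 * UU + 2 * V) (hU : 0 ≤ UU)
    (h4 : V ≤ 48 * ρ ^ 2 * α ^ 2 * N ^ 2) (h5 : |Pa| ≤ 2 * N * α) (h6 : |d1| ≤ ρ * N * (α + 3 * ν))
    (h7 : τ = 2 * s - 2 * Pa - d1) :
    ν ^ 2 / N ≤ 1616 * (N * α ^ 2) + 8 * τ ^ 2 + 16 * (UU / q) := by
  have hN0 : 0 < N := by linarith
  have hq0 : 0 < q := lt_of_lt_of_le (by positivity) hq
  obtain ⟨T, hT, T0⟩ : ∃ T, UU = T * q ∧ 0 ≤ T := ⟨UU / q, by field_simp, by positivity⟩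
  have e : UU / q = T := by rw [hT]; field_simp
  have r1 : ρ * N ≤ 1 / 12 :=
    ((mul_le_mul_of_nonneg_left (le_self_pow₀ hN two_ne_zero) hρ.le).trans hl).trans hδ
  have r2 : (ρ * N) ^ 2 ≤ 1 / 144 := (pow_le_pow_left₀ (by positivity) r1 2).trans (by norm_num)
  have r3 : ρ ^ 2 ≤ 1 := pow_le_one₀ hρ.le (by linarith [le_mul_of_one_le_right hρ.le hN])
  have a1 : Pa ^ 2 ≤ (2 * N * α) ^ 2 := sq_le_sq' (abs_le.1 h5).1 (abs_le.1 h5).2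
  have a2 : d1 ^ 2 ≤ (ρ * N * (α + 3 * ν)) ^ 2 := sq_le_sq' (abs_le.1 h6).1 (abs_le.1 h6).2
  have a3 : (ρ * N) ^ 2 * (α + 3 * ν) ^ 2 ≤ (ρ * N) ^ 2 * (2 * α ^ 2 + 18 * ν ^ 2) :=
    mul_le_mul_of_nonneg_left (by linarith [sq_nonneg (α - 3 * ν)]) (sq_nonneg _)
  have a4 := mul_le_mul_of_nonneg_right r2 (sq_nonneg ν)
  have a5 := mul_le_mul_of_nonneg_right r3 (sq_nonneg (N * α))
  have a6 : s ^ 2 ≤ 2 * Pa ^ 2 + τ ^ 2 + d1 ^ 2 := by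
    have : s = Pa + (τ + d1) / 2 := by linarith
    rw [this]
    linarith [sq_nonneg (Pa - (τ + d1) / 2), sq_nonneg (τ - d1)]
  have a7 : ρ ^ 2 * ν ^ 2 ≤ ρ ^ 2 * (4 * s ^ 2 + 8 * T + 192 * (N * α) ^ 2) := by
    have b1 := mul_le_mul_of_nonneg_left hq' (sq_nonneg s)
    have b2 := mul_le_mul_of_nonneg_left hq' T0
    linarith
  have a8 := le_of_mul_le_mul_left a7 (by positivity)
  have a9 : 8 * τ ^ 2 + 16 * T ≤ (8 * τ ^ 2 + 16 * T) * N :=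
    le_mul_of_one_le_right (by positivity) hN
  rw [e, div_le_iff₀ hN0]
  linarith [sq_nonneg (N * α)]

/-- the model inequality in terms of numbers -/
theorem qsc_main {κ δ μ N ρ α ν q A za zw aw ww Pa Pz Pw PP PP' haa haw hww hza hzw hzz : ℝ}
    (hκ : 0 < κ) (hκ1 : κ ≤ 1) (hμ : 0 ≤ μ) (hδ1 : 500000 * δ ≤ 1) (hμ1 : 500000 * μ ≤ 1)
    (hN : 1 ≤ N) (hρ : 0 < ρ) (hα : 0 ≤ α) (hν : 0 ≤ ν) (hl : ρ * N ^ 2 ≤ δ)
    (hq : ρ ^ 2 / 2 ≤ q) (hq' : q ≤ 2 * ρ ^ 2) (bA : |A| ≤ 2 * α ^ 2) (bza : |za| ≤ 2 * ρ * α)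
    (bzw : |zw| ≤ 2 * ρ * (ρ * ν)) (baw : |aw| ≤ 2 * α * (ρ * ν)) (bww : |ww| ≤ 2 * (ρ * ν) ^ 2)
    (bw : (ρ * ν) ^ 2 ≤ 2 * ww) (bPa : |Pa| ≤ 2 * N * α) (bPz : |Pz| ≤ 2 * N * ρ)
    (bPw : |Pw| ≤ 2 * N * (ρ * ν)) (bP : |PP| ≤ 6 * N ^ 2) (bP' : |PP'| ≤ 6 * N ^ 2)
    (bd : |PP' - PP| ≤ 6 * ρ * N ^ 2) (h1 : |haw| ≤ N * α * (ρ * ν))
    (h2 : |hww| ≤ N * (ρ * ν) * (ρ * ν)) (h3 : |hza| ≤ N * ρ * α) (h4 : |hzw| ≤ N * ρ * (ρ * ν))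
    (h5 : |hzz| ≤ N * ρ * ρ)
    (u1 : 0 ≤ ww - zw ^ 2 / q + 2 * (za * Pw - Pz * aw) +
      (za ^ 2 * PP - 2 * za * Pz * Pa + Pz ^ 2 * A))
    (u2 : 0 ≤ ww - zw ^ 2 / q + 4 * (za * Pw - Pz * aw) +
      4 * (za ^ 2 * PP - 2 * za * Pz * Pa + Pz ^ 2 * A))
    (u3 : 0 ≤ A - za ^ 2 / q - 2 * (aw - za * zw / q) + (ww - zw ^ 2 / q))
    (u4 : 0 ≤ A - za ^ 2 / q)
    (hD : 2 * κ * N * (A - za ^ 2 / q) ≤ (PP - Pz ^ 2 / q) * (A - za ^ 2 / q) -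
      (Pa - za / q * Pz) ^ 2 - (haa - 2 * (za / q) * hza + (za / q) ^ 2 * hzz) -
      hzz / q * (A - za ^ 2 / q)) :
    3 / 4 * κ * N * ((A - za ^ 2 / q) + (A + 2 * aw + ww - (za + zw) ^ 2 / q)) -
        2 * ((-(2 / q * za) - Pa) + (2 / q * (za + zw) - (Pa + (Pw + hza + hzw)))) ^ 2 +
        μ * (ν ^ 2 / N) - 500000 * (μ + δ) * N * α ^ 2 ≤
      2 * ww / q - (2 * zw / q) ^ 2 - haa - (haa + 2 * haw + hww) +
        (2 * Pa * (-(2 / q * za) - Pa) - (-(2 / q * Pz) - PP) * A) +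
        (2 * (Pa + (Pw + hza + hzw)) * (2 / q * (za + zw) - (Pa + (Pw + hza + hzw))) -
          (2 / q * (Pz + hzz) - PP') * (A + 2 * aw + ww)) := by
  have hN0 : 0 < N := by linarith
  have hq0 : 0 < q := lt_of_lt_of_le (by positivity) hq
  have hδ : 0 ≤ δ := le_trans (by positivity) hl
  have r1 : ρ * N ≤ δ := (mul_le_mul_of_nonneg_left (le_self_pow₀ hN two_ne_zero) hρ.le).trans hl
  have r2 : ρ ≤ 1 := by linarith [le_mul_of_one_le_right hρ.le hN]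
  have dv : ∀ {x B : ℝ}, 0 ≤ B → |x| ≤ B * (ρ ^ 2 / 2) → |x / q| ≤ B := fun hB h => by
    rw [abs_div, abs_of_pos hq0, div_le_iff₀ hq0]
    exact h.trans (mul_le_mul_of_nonneg_left hq hB)
  have b1 : |Pw + hza + hzw| ≤ ρ * N * (α + 3 * ν) := by
    have := mul_le_mul_of_nonneg_right r2 (show 0 ≤ N * ρ * ν by positivity)
    linarith [abs_add_three Pw hza hzw]
  have b2 : |2 * aw + ww| ≤ 4 * ρ * α * ν + 2 * ρ ^ 2 * ν ^ 2 := by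
    have := abs_add_le (2 * aw) ww
    rw [abs_mul, abs_two] at this
    linarith
  have E := qsc_err (t3 := hzw * za / q) (s := zw / q) (t7 := Pz * ww / q) (hq := hzz / q) hN hρ.le
    hα hν hl (by linarith) le_rfl h1 h2 (dv (by positivity) (by linarith [qsc_mul h4 bza])) b1
    (dv (by positivity) (by linarith)) bPa (dv (by positivity) (by linarith [qsc_mul bPz bww]))
    (dv (by positivity) (by linarith)) b2 bd bA bP'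
  have b3 : za ^ 2 * PP - 2 * za * Pz * Pa + Pz ^ 2 * A ≤ 48 * ρ ^ 2 * α ^ 2 * N ^ 2 := by
    linarith [(abs_le.1 (qsc_mul (qsc_mul bza bza) bP)).2,
      (abs_le.1 (qsc_mul (qsc_mul bza bPz) bPa)).1, (abs_le.1 (qsc_mul (qsc_mul bPz bPz) bA)).2]
  obtain ⟨τ, hτ⟩ : ∃ τ, τ = 2 * (zw / q) - 2 * Pa - (Pw + hza + hzw) := ⟨_, rfl⟩
  have I := qsc_inc (s := zw / q) (W := ww - zw ^ 2 / q) hN hρ hl (by linarith) hq bw hq'
    (by field_simp; ring) (by linarith) u1 b3 bPa b1 hτ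
  obtain ⟨T, hT⟩ : ∃ T, T = (ww - zw ^ 2 / q + 2 * (za * Pw - Pz * aw) +
      (za ^ 2 * PP - 2 * za * Pz * Pa + Pz ^ 2 * A)) / q := ⟨_, rfl⟩
  have T0 : 0 ≤ T := hT ▸ div_nonneg u1 hq0.le
  rw [← hT] at I
  have e1 : (-(2 / q * za) - Pa) + (2 / q * (za + zw) - (Pa + (Pw + hza + hzw))) = τ := by
    rw [hτ]
    ring
  have e2 : 2 * ww / q - (2 * zw / q) ^ 2 - haa - (haa + 2 * haw + hww) +
        (2 * Pa * (-(2 / q * za) - Pa) - (-(2 / q * Pz) - PP) * A) +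
        (2 * (Pa + (Pw + hza + hzw)) * (2 / q * (za + zw) - (Pa + (Pw + hza + hzw))) -
          (2 / q * (Pz + hzz) - PP') * (A + 2 * aw + ww)) =
      -τ ^ 2 + (τ - (Pw + hza + hzw)) ^ 2 / 2 + 2 * T +
        2 * ((PP - Pz ^ 2 / q) * (A - za ^ 2 / q) - (Pa - za / q * Pz) ^ 2 -
          (haa - 2 * (za / q) * hza + (za / q) ^ 2 * hzz) - hzz / q * (A - za ^ 2 / q)) +
        (-2 * haw - hww + 4 * (hzw * za / q) + 4 * ((Pw + hza + hzw) * (zw / q)) -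
          4 * (Pa * (Pw + hza + hzw)) - 3 * ((Pw + hza + hzw) * (Pw + hza + hzw)) -
          2 * (Pz * ww / q) - 2 * (hzz / q * (2 * aw + ww)) + (PP' - PP) * A +
          PP' * (2 * aw + ww)) := by
    rw [hτ, hT]
    field_simp
    ring
  have c1 : A + 2 * aw + ww - (za + zw) ^ 2 / q ≤ 2 * (A - za ^ 2 / q) + 4 * (ρ * ν) ^ 2 := by
    have e3 : (za + zw) ^ 2 / q = za ^ 2 / q + 2 * (za * zw / q) + zw ^ 2 / q := by ring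
    have : 0 ≤ zw ^ 2 / q := by positivity
    linarith [(abs_le.1 bww).2]
  obtain ⟨Y, hY, Y0⟩ : ∃ Y, ν ^ 2 = N * Y ∧ 0 ≤ Y := ⟨ν ^ 2 / N, by field_simp, by positivity⟩
  have e4 : ν ^ 2 / N = Y := by rw [hY]; field_simp
  have c2 : κ * N * (ρ * ν) ^ 2 ≤ δ * Y := by
    have d1 : κ * ρ ≤ 1 := mul_le_one₀ hκ1 hρ.le r2
    have d2 := mul_le_mul_of_nonneg_right hl Y0
    have d3 := mul_le_mul_of_nonneg_right d1 (show 0 ≤ ρ * N ^ 2 * Y by positivity)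
    rw [mul_pow, hY]
    linarith
  have c3 := mul_le_mul_of_nonneg_left c1 (show 0 ≤ κ * N by positivity)
  have c4 := mul_nonneg (show 0 ≤ κ * N by positivity) u4
  rw [e4] at E I
  rw [e1, e2, e4]
  have c5 := mul_le_mul_of_nonneg_left I hμ
  have c6 := mul_le_mul_of_nonneg_left I hδ
  have c7 := mul_le_mul_of_nonneg_right hδ1 (sq_nonneg τ)
  have c8 := mul_le_mul_of_nonneg_right hμ1 (sq_nonneg τ)
  have c9 := mul_le_mul_of_nonneg_right hδ1 T0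
  have c10 := mul_le_mul_of_nonneg_right hμ1 T0
  have c11 : 0 ≤ μ * (N * α ^ 2) := by positivity
  have c12 : 0 ≤ δ * (N * α ^ 2) := by positivity
  linarith [sq_nonneg (τ - (Pw + hza + hzw)), sq_nonneg τ]

end Vale.Agent.P088F
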