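import Vale.Agent.P088F.TC1

/-! P088: transfer of forms, weak equations and Green operators to a chart. -/

open MeasureTheory Set Filter Bundle Metric Topology Matrix
open scoped Manifold ContDiff ENNReal

noncomputable section

namespace Vale.Agent.P088.Gl

variable {n N : ℕ} {Ω : Set (Ec n)}

/-- A cutoff equal to one near a compact set. -/
theorem exists_cut {K : Set (Ec n)} (hK : IsCompact K) (hΩ : IsOpen Ω) (hs : K ⊆ Ω) :
    ∃ χ : Ec n → ℝ, ContDiff ℝ ∞ χ ∧ HasCompactSupport χ ∧ tsupport χ ⊆ Ω ∧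
      (∀ z ∈ K, ∀ᶠ y in 𝓝 z, χ y = 1) ∧ ∀ z, χ z ∈ Icc (0 : ℝ) 1 := by
  obtain ⟨L, hL, h1, h2⟩ := exists_compact_between hK hΩ hs
  obtain ⟨f, f1, f2, f3⟩ := exists_contMDiffMap_one_nhds_of_subset_interior (n := (⊤ : ℕ∞)) 𝓘(ℝ, Ec n)
    hK.isClosed h1
  have h3 : tsupport f ⊆ L := closure_minimal (fun z hz => by_contra fun h => hz (f2 z h)) hL.isClosed
  exact ⟨f, f.contMDiff.contDiff, hL.of_isClosed_subset (isClosed_tsupport _) h3, h3.trans h2,
    fun z hz => f1.filter_mono (nhds_le_nhdsSet hz), f3⟩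

theorem ET.cut {V : Type} [NormedAddCommGroup V] [NormedSpace ℝ V] {χ : Ec n → ℝ} {u : Ec n → V}
    (hΩ : IsOpen Ω) (h1 : ContDiff ℝ ∞ χ) (h3 : tsupport χ ⊆ Ω) (hu : ContDiffOn ℝ ∞ u Ω) :
    ContDiff ℝ ∞ fun z => χ z • u z := by
  refine contDiff_iff_contDiffAt.2 fun z => ?_
  by_cases hz : z ∈ tsupport χ
  · exact h1.contDiffAt.smul (hu.contDiffAt (hΩ.mem_nhds (h3 hz)))
  · refine contDiffAt_const (c := 0).congr_of_eventuallyEq ?_
    filter_upwards [notMem_tsupport_iff_eventuallyEq.1 hz] with y hy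
    rw [hy, Pi.zero_apply, zero_smul]

theorem et_cut {χ : Ec n → ℝ} {u : Ec n → Fb N} (hΩ : IsOpen Ω) (h1 : ContDiff ℝ ∞ χ)
    (h2 : HasCompactSupport χ) (h3 : tsupport χ ⊆ Ω) (hu : ContDiffOn ℝ ∞ u Ω) :
    ET Ω fun z => χ z • u z :=
  ⟨ET.cut hΩ h1 h3 hu, h2.smul_right, (tsupport_smul_subset_left _ _).trans h3⟩

theorem Geo.form_congr (γ : Geo n N) {u u' w w' : Ec n → Fb N}
    (h : ∀ z, γ.den u w z = γ.den u' w' z) : γ.form u w = γ.form u' w' := by
  simp only [Geo.form, h]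

theorem Geo.form_congr_left (γ : Geo n N) {u u' w : Ec n → Fb N}
    (h : ∀ z ∈ tsupport w, u =ᶠ[𝓝 z] u') : γ.form u w = γ.form u' w :=
  γ.form_congr fun z => by
    by_cases hz : z ∈ tsupport w
    · exact γ.den_congr (h z hz) EventuallyEq.rfl
    · rw [γ.den_zero_right u hz, γ.den_zero_right u' hz]

theorem Geo.form_congr_right (γ : Geo n N) {u w w' : Ec n → Fb N}
    (h : ∀ z ∈ tsupport u, w =ᶠ[𝓝 z] w') : γ.form u w = γ.form u w' :=
  γ.form_congr fun z => by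
    by_cases hz : z ∈ tsupport u
    · exact γ.den_congr EventuallyEq.rfl (h z hz)
    · rw [γ.den_zero_left w hz, γ.den_zero_left w' hz]

theorem Geo.pair_congr_left (γ : Geo n N) {u u' w : Ec n → Fb N}
    (h : ∀ z ∈ tsupport w, u z = u' z) : γ.pair u w = γ.pair u' w := by
  refine integral_congr_ae (ae_of_all _ fun z => ?_)
  by_cases hz : z ∈ tsupport w
  · simp only [h z hz]
  · simp only [image_eq_zero_of_notMem_tsupport hz, inner_zero_right]

theorem Geo.pair_congr_right (γ : Geo n N) {u w w' : Ec n → Fb N}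
    (h : ∀ z ∈ tsupport u, w z = w' z) : γ.pair u w = γ.pair u w' := by
  refine integral_congr_ae (ae_of_all _ fun z => ?_)
  by_cases hz : z ∈ tsupport u
  · simp only [h z hz]
  · simp only [image_eq_zero_of_notMem_tsupport hz, inner_zero_left]

theorem EW.congr {γ : Geo n N} {u u' F F' : Ec n → Fb N} (h : EW Ω γ u F) (hΩ : IsOpen Ω)
    (hu : EqOn u' u Ω) (hF : EqOn F' F Ω) : EW Ω γ u' F' :=
  ⟨h.1.congr hu, fun ζ hζ => ((γ.form_congr_left fun _ hz =>
    hu.eventuallyEq_of_mem (hΩ.mem_nhds (hζ.2.2 hz))).trans (h.2 ζ hζ)).trans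
      (γ.pair_congr_left fun _ hz => (hF (hζ.2.2 hz)).symm)⟩

variable {H : Type} [TopologicalSpace H] {I : ModelWithCorners ℝ (Ec n) H}
  {M : Type} [TopologicalSpace M] [ChartedSpace H M] [IsManifold I ∞ M] [T2Space M]
  {g : Met I M} {A : Conn I M N} {p : M} {O : Set M}

theorem mden_ps_right {u : M → Fb N} {ζ : Ec n → Fb N} (hζ : ET (cd I p) ζ)
    (hu : ∀ z ∈ tsupport ζ, MDifferentiableAt I 𝓘(ℝ, Fb N) u ((extChartAt I p).symm z))
    {z : Ec n} (hz : z ∈ (extChartAt I p).target) :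
    mden g A u (ps I p ζ) ((extChartAt I p).symm z) = (cg g A p).den (pl I p u) ζ z := by
  by_cases h : z ∈ tsupport ζ
  · rw [mden_chart (hζ.2.2 h) (hu z h) ((hζ.mti Subset.rfl).1.mdifferentiableAt (by simp))]
    exact Geo.den_congr _ EventuallyEq.rfl
      (mem_of_superset (cd_nhds (hζ.2.2 h)) fun y hy => pl_ps ζ hy)
  · rw [Geo.den_zero_right _ _ h, mden_zero_right]
    intro h1
    obtain ⟨y, hy, e⟩ := tsupport_ps hζ.2.1 (hζ.2.2.trans (cd_sub I p)) h1
    exact h ((extChartAt I p).symm.injOn (cd_sub I p (hζ.2.2 hy)) hz e ▸ hy)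

theorem mden_ps_left {u : M → Fb N} {ζ : Ec n → Fb N} (hζ : ET (cd I p) ζ)
    (hu : ∀ z ∈ tsupport ζ, MDifferentiableAt I 𝓘(ℝ, Fb N) u ((extChartAt I p).symm z))
    {z : Ec n} (hz : z ∈ (extChartAt I p).target) :
    mden g A (ps I p ζ) u ((extChartAt I p).symm z) = (cg g A p).den ζ (pl I p u) z := by
  by_cases h : z ∈ tsupport ζ
  · rw [mden_chart (hζ.2.2 h) ((hζ.mti Subset.rfl).1.mdifferentiableAt (by simp)) (hu z h)]
    exact Geo.den_congr _ (mem_of_superset (cd_nhds (hζ.2.2 h)) fun y hy => pl_ps ζ hy)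
      EventuallyEq.rfl
  · rw [Geo.den_zero_left _ _ h, mden_zero_left]
    intro h1
    obtain ⟨y, hy, e⟩ := tsupport_ps hζ.2.1 (hζ.2.2.trans (cd_sub I p)) h1
    exact h ((extChartAt I p).symm.injOn (cd_sub I p (hζ.2.2 hy)) hz e ▸ hy)

omit [IsManifold I ∞ M] in
theorem notMem_tsupport_ps {ζ : Ec n → Fb N} (hζ : ET (cd I p) ζ) {x : M}
    (hx : x ∉ (extChartAt I p).source) : x ∉ tsupport (ps I p ζ) := fun h1 => by
  obtain ⟨y, hy, rfl⟩ := tsupport_ps hζ.2.1 (hζ.2.2.trans (cd_sub I p)) h1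
  exact hx ((extChartAt I p).map_target (cd_sub I p (hζ.2.2 hy)))

variable [MeasurableSpace M] [BorelSpace M] {μ : Measure M}

theorem form_ps_right (hv : IsVol g μ) {u : M → Fb N} {ζ : Ec n → Fb N} (hζ : ET (cd I p) ζ)
    (hu : ∀ z ∈ tsupport ζ, MDifferentiableAt I 𝓘(ℝ, Fb N) u ((extChartAt I p).symm z)) :
    form g μ A u (ps I p ζ) = (cg g A p).form (pl I p u) ζ :=
  vol_integral' hv p (fun _ hx => mden_zero_right u (notMem_tsupport_ps hζ hx))
    (fun _ hz => Geo.den_zero_right _ _ fun h => hz (cd_sub I p (hζ.2.2 h)))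
    fun _ hz => mden_ps_right hζ hu hz

theorem form_ps_left (hv : IsVol g μ) {u : M → Fb N} {ζ : Ec n → Fb N} (hζ : ET (cd I p) ζ)
    (hu : ∀ z ∈ tsupport ζ, MDifferentiableAt I 𝓘(ℝ, Fb N) u ((extChartAt I p).symm z)) :
    form g μ A (ps I p ζ) u = (cg g A p).form ζ (pl I p u) :=
  vol_integral' hv p (fun _ hx => mden_zero_left u (notMem_tsupport_ps hζ hx))
    (fun _ hz => Geo.den_zero_left _ _ fun h => hz (cd_sub I p (hζ.2.2 h)))
    fun _ hz => mden_ps_left hζ hu hz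

theorem pair_ps_right (hv : IsVol g μ) (A : Conn I M N) (F : M → Fb N) {ζ : Ec n → Fb N}
    (hζ : tsupport ζ ⊆ (extChartAt I p).target) :
    ∫ x, inner ℂ (F x) (ps I p ζ x) ∂μ = (cg g A p).pair (pl I p F) ζ :=
  vol_integral' hv p (fun _ hx => by rw [ps_of_notMem ζ hx, inner_zero_right])
    (fun _ hz => by rw [image_eq_zero_of_notMem_tsupport fun h => hz (hζ h), inner_zero_right])
    fun _ hz => congrArg _ (pl_ps ζ hz)

theorem pair_ps_left (hv : IsVol g μ) (A : Conn I M N) (F : M → Fb N) {ζ : Ec n → Fb N}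
    (hζ : tsupport ζ ⊆ (extChartAt I p).target) :
    ∫ x, inner ℂ (ps I p ζ x) (F x) ∂μ = (cg g A p).pair ζ (pl I p F) :=
  vol_integral' hv p (fun _ hx => by rw [ps_of_notMem ζ hx, inner_zero_left])
    (fun _ hz => by rw [image_eq_zero_of_notMem_tsupport fun h => hz (hζ h), inner_zero_left])
    fun _ hz => congrArg (inner ℂ · _) (pl_ps ζ hz)

/-- A weak solution on the manifold is a weak solution in the chart. -/
theorem MW.ew (hv : IsVol g μ) {u F : M → Fb N} (h : MW g μ A O u F) (hO : IsOpen O)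
    (hΩ : Ω ⊆ cd I p) (hm : MapsTo (extChartAt I p).symm Ω O) :
    EW Ω (cg g A p) (pl I p u) (pl I p F) := by
  refine ⟨pl_contDiffOn h.1 (hΩ.trans (cd_sub I p)) hm, fun ζ hζ => ?_⟩
  have h1 : ET (cd I p) ζ := ⟨hζ.1, hζ.2.1, hζ.2.2.trans hΩ⟩
  rw [← form_ps_right hv h1 fun z hz => (h.1.contMDiffAt
    (hO.mem_nhds (hm (hζ.2.2 hz)))).mdifferentiableAt (by simp),
    ← pair_ps_right hv A F (h1.2.2.trans (cd_sub I p))]
  exact h.2 _ (hζ.mt hΩ hm)

omit [T2Space M] [MeasurableSpace M] [BorelSpace M] in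
theorem isOpen_interior' : IsOpen (I.interior M) := I.isOpen_interior (n := ∞) (by simp)

theorem MW.ewi (hv : IsVol g μ) {u F : M → Fb N} (h : MW g μ A (I.interior M) u F)
    (hΩ : Ω ⊆ cd I p) : EW Ω (cg g A p) (pl I p u) (pl I p F) :=
  h.ew hv isOpen_interior' hΩ fun _ hz => symm_interior (hΩ hz)

/-- A compactly supported weak solution in the chart is a weak solution on the manifold. -/
theorem EW.mw (hv : IsVol g μ) {φ F : Ec n → Fb N} (h : EW Ω (cg g A p) φ F) (ho : IsOpen Ω)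
    (hΩ : Ω ⊆ cd I p) (hφ : ET Ω φ) (hF : ET Ω F) (O : Set M) :
    MW g μ A O (ps I p φ) (ps I p F) := by
  refine ⟨(hφ.mti hΩ).1.contMDiffOn, fun ζ hζ => ?_⟩
  obtain ⟨χ, c1, c2, c3, c4, -⟩ := exists_cut (hφ.2.1.isCompact.union hF.2.1.isCompact) ho
    (union_subset hφ.2.2 hF.2.2)
  have h1 := h.2 _ (et_cut ho c1 c2 c3 (pl_contDiffOn hζ.1.contMDiffOn (hΩ.trans (cd_sub I p))
    (mapsTo_univ _ _)))
  rw [form_ps_left hv ⟨hφ.1, hφ.2.1, hφ.2.2.trans hΩ⟩ fun z _ => hζ.1.mdifferentiableAt (by simp),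
    pair_ps_left hv A ζ (hF.2.2.trans (hΩ.trans (cd_sub I p)))]
  refine ((Geo.form_congr_right _ fun z hz => ?_).trans h1).trans
    (Geo.pair_congr_right _ fun z hz => ?_)
  · filter_upwards [c4 z (Or.inl hz)] with y hy
    rw [hy, one_smul]
  · rw [(c4 z (Or.inr hz)).self_of_nhds, one_smul]

/-- The Green operator in a chart. -/
theorem MG.eg (hv : IsVol g μ) {G : (M → Fb N) → M → Fb N} (h : MG g μ A G) (ho : IsOpen Ω)
    (hΩ : Ω ⊆ cd I p) : EG Ω (cg g A p) fun F => pl I p (G (ps I p F)) := by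
  have ht := hΩ.trans (cd_sub I p)
  refine ⟨fun F F' hF hF' z hz => ?_, fun c F hF z hz => ?_, fun F hF => ?_,
    fun φ F hφ hF hw z hz => ?_, fun F F' hF hF' => ?_, ?_⟩
  · rw [ps_add]
    exact h.add _ _ (hF.mti hΩ) (hF'.mti hΩ) (symm_interior (hΩ hz))
  · rw [ps_smul]
    exact h.smul c _ (hF.mti hΩ) (symm_interior (hΩ hz))
  · exact ((h.sol _ (hF.mti hΩ)).ewi hv hΩ).congr ho (fun _ _ => rfl)
      fun z hz => (pl_ps F (ht hz)).symm
  · exact (h.inv _ _ (hφ.mti hΩ) (hF.mti hΩ) (hw.mw hv ho hΩ hφ hF _)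
      (symm_interior (hΩ hz))).trans (pl_ps φ (ht hz))
  · rw [← pair_ps_left hv A _ (hF.2.2.trans ht), ← pair_ps_right hv A _ (hF'.2.2.trans ht)]
    exact h.symm _ _ (hF.mti hΩ) (hF'.mti hΩ)
  · obtain ⟨C, hC⟩ := h.bound
    refine ⟨C, fun F hF => ?_⟩
    rw [← pair_ps_left hv A _ (hF.2.2.trans ht)]
    refine le_trans ?_ (hC _ (hF.mti hΩ))
    refine le_trans (le_of_eq (setLIntegral_congr_fun ho.measurableSet fun z hz => ?_))
      (vol_lintegral_le (A := A) hv p _ ho.measurableSet ht isOpen_interior'.measurableSet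
        fun _ hz => symm_interior (hΩ hz))
    have d := ((h.sol _ (hF.mti hΩ)).1.contMDiffAt
      (isOpen_interior'.mem_nhds (symm_interior (hΩ hz)))).mdifferentiableAt (by simp)
    rw [ENNReal.ofReal_mul (show 0 ≤ (cg g A p).vol z from Real.sqrt_nonneg _), mden_chart (hΩ hz) d d]
    rfl

end Vale.Agent.P088.Gl
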