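import Vale.Agent.P088.Meas

/-! P088: geometric definitions and contracts for the global part. -/

open MeasureTheory Set Filter Bundle Metric Topology Matrix
open scoped Manifold ContDiff ENNReal

noncomputable section

namespace Vale.Agent.P088.Gl

section Euclid

/-- A metric and a connection in coordinates. -/
structure Geo (n N : ℕ) where
  g : Ec n → Matrix (Fin n) (Fin n) ℝ
  a : Fin n → Ec n → Op N

variable {n N : ℕ}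

/-- Smooth positive metric and smooth skew connection on `Ω`. -/
structure Geo.Sm (γ : Geo n N) (Ω : Set (Ec n)) : Prop where
  g : ∀ i j, ContDiffOn ℝ ∞ (fun z => γ.g z i j) Ω
  pos : ∀ z ∈ Ω, (γ.g z).PosDef
  a : ∀ i, ContDiffOn ℝ ∞ (γ.a i) Ω
  skew : ∀ i, ∀ z ∈ Ω, star (γ.a i z) = -γ.a i z

/-- Covariant derivative. -/
def Geo.D (γ : Geo n N) (i : Fin n) (u : Ec n → Fb N) (z : Ec n) : Fb N :=
  fderiv ℝ u z (bv i) + γ.a i z (u z)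

/-- Energy density. -/
def Geo.den (γ : Geo n N) (u w : Ec n → Fb N) (z : Ec n) : ℂ :=
  ∑ i, ∑ j, (γ.g z)⁻¹ i j • inner ℂ (γ.D i u z) (γ.D j w z)

/-- Volume density. -/
def Geo.vol (γ : Geo n N) (z : Ec n) : ℝ := √(γ.g z).det

/-- Energy form. -/
def Geo.form (γ : Geo n N) (u w : Ec n → Fb N) : ℂ := ∫ z, γ.vol z • γ.den u w z

/-- Pairing. -/
def Geo.pair (γ : Geo n N) (u w : Ec n → Fb N) : ℂ := ∫ z, γ.vol z • inner ℂ (u z) (w z)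

/-- Test sections. -/
def ET (Ω : Set (Ec n)) (F : Ec n → Fb N) : Prop :=
  ContDiff ℝ ∞ F ∧ HasCompactSupport F ∧ tsupport F ⊆ Ω

/-- `u` is smooth on `Ω` and solves the equation with right hand side `F`. -/
def EW (Ω : Set (Ec n)) (γ : Geo n N) (u F : Ec n → Fb N) : Prop :=
  ContDiffOn ℝ ∞ u Ω ∧ ∀ ζ, ET Ω ζ → γ.form u ζ = γ.pair F ζ

/-- Green operators in coordinates. -/
structure EG (Ω : Set (Ec n)) (γ : Geo n N) (G : (Ec n → Fb N) → Ec n → Fb N) : Prop where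
  add : ∀ F F', ET Ω F → ET Ω F' → EqOn (G (F + F')) (G F + G F') Ω
  smul : ∀ (c : ℂ) F, ET Ω F → EqOn (G (c • F)) (c • G F) Ω
  sol : ∀ F, ET Ω F → EW Ω γ (G F) F
  inv : ∀ φ F, ET Ω φ → ET Ω F → EW Ω γ φ F → EqOn (G F) φ Ω
  symm : ∀ F F', ET Ω F → ET Ω F' → γ.pair F (G F') = γ.pair (G F) F'
  bound : ∃ C : ℝ, ∀ F, ET Ω F →
    ∫⁻ z in Ω, ENNReal.ofReal (γ.vol z * ((γ.den (G F) (G F) z).re + ‖G F z‖ ^ 2)) ≤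
      ENNReal.ofReal (C * (γ.pair F (G F)).re)

/-- Jacobian matrix. -/
def jac (Ψ : Ec n → Ec n) (z : Ec n) : Matrix (Fin n) (Fin n) ℝ :=
  Matrix.of fun k i => fderiv ℝ Ψ z (bv i) k

/-- `Ψ, V` carry `γ₂` on `Ω` to `γ₁`. -/
structure EIso (Ω : Set (Ec n)) (γ₁ γ₂ : Geo n N) (Ψ : Ec n → Ec n) (V : Ec n → Op N) : Prop where
  op : IsOpen Ω
  sΨ : ContDiffOn ℝ ∞ Ψ Ω
  inj : InjOn Ψ Ω
  sV : ContDiffOn ℝ ∞ V Ω
  uni : ∀ z ∈ Ω, V z ∈ unitary (Op N)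
  met : ∀ z ∈ Ω, γ₂.g z = (jac Ψ z)ᵀ * γ₁.g (Ψ z) * jac Ψ z
  con : ∀ z ∈ Ω, ∀ i,
    V z * γ₂.a i z = (∑ k, jac Ψ z k i • γ₁.a k (Ψ z)) * V z + fderiv ℝ V z (bv i)

/-- The Green operators correspond on `Ω`. -/
def ERel (Ω : Set (Ec n)) (G₁ G₂ : (Ec n → Fb N) → Ec n → Fb N) (Ψ : Ec n → Ec n)
    (V : Ec n → Op N) : Prop :=
  ∀ F₁ F₂, ET (Ψ '' Ω) F₁ → ET Ω F₂ → (∀ z ∈ Ω, F₁ (Ψ z) = V z (F₂ z)) →
    ∀ z ∈ Ω, G₁ F₁ (Ψ z) = V z (G₂ F₂ z)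

/-- Local continuation (part L). -/
def LC (n N : ℕ) : Prop :=
  ∀ (B₁ B₂ D : Set (Ec n)) (γ₁ γ₂ : Geo n N) (G₁ G₂ : (Ec n → Fb N) → Ec n → Fb N)
    (c x₀ y₀ : Ec n) (r : ℝ) (Ψ : Ec n → Ec n) (V : Ec n → Op N) (V₀ : Op N),
    IsOpen B₁ → IsOpen B₂ → γ₁.Sm B₁ → γ₂.Sm B₂ → EG B₁ γ₁ G₁ → EG B₂ γ₂ G₂ →
    0 < r → ball c r ⊆ D → D ⊆ B₂ → dist x₀ c = r → x₀ ∈ B₂ → y₀ ∈ B₁ →
    EIso D γ₁ γ₂ Ψ V → MapsTo Ψ D B₁ → Tendsto Ψ (𝓝[D] x₀) (𝓝 y₀) →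
    Tendsto V (𝓝[D] x₀) (𝓝 V₀) → ERel D G₁ G₂ Ψ V →
    ∃ ε > 0, ∃ (Ψ' : Ec n → Ec n) (V' : Ec n → Op N), ball x₀ ε ⊆ B₂ ∧
      EIso (ball x₀ ε) γ₁ γ₂ Ψ' V' ∧ MapsTo Ψ' (ball x₀ ε) B₁ ∧
      ∀ z ∈ D ∩ ball x₀ ε, Ψ' z = Ψ z ∧ V' z = V z

/-- Unique continuation. -/
def GU (n N : ℕ) : Prop :=
  ∀ (Ω Ω' : Set (Ec n)) (γ : Geo n N) (u : Ec n → Fb N), IsOpen Ω → IsPreconnected Ω → γ.Sm Ω →
    EW Ω γ u 0 → IsOpen Ω' → Ω'.Nonempty → Ω' ⊆ Ω → EqOn u 0 Ω' → EqOn u 0 Ω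

/-- Interior estimate. -/
def GI (n N : ℕ) : Prop :=
  ∀ (γ : Geo n N) (y : Ec n) (r : ℝ), 0 < r → γ.Sm (ball y r) → ∃ C : ℝ, ∀ u : Ec n → Fb N,
    EW (ball y r) γ u 0 →
      ENNReal.ofReal (‖u y‖ ^ 2) ≤ ENNReal.ofReal C * ∫⁻ z in ball y r, ENNReal.ofReal (‖u z‖ ^ 2)

/-- Regularity of very weak solutions. -/
def GR (n N : ℕ) : Prop :=
  ∀ (Ω : Set (Ec n)) (γ : Geo n N) (k : Ec n → Fb N), IsOpen Ω → γ.Sm Ω →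
    LocallyIntegrableOn k Ω → (∀ φ F, ET Ω φ → ET Ω F → EW Ω γ φ F → γ.pair k F = 0) →
    ∃ u, EW Ω γ u 0 ∧ ∀ᵐ z, z ∈ Ω → k z = u z

/-- Small sources have small potentials. -/
def GS (n N : ℕ) : Prop :=
  ∀ (Ω : Set (Ec n)) (γ : Geo n N) (G : (Ec n → Fb N) → Ec n → Fb N) (F : Ec n → Fb N) (y : Ec n)
    (η : ℝ), IsOpen Ω → γ.Sm Ω → EG Ω γ G → ET Ω F → y ∈ Ω → 0 < η →
    ∃ χ : Ec n → ℝ, ContDiff ℝ ∞ χ ∧ tsupport χ ⊆ ball y η ∧ (∀ z, |χ z| ≤ 1) ∧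
      (∀ᶠ z in 𝓝 y, χ z = 1) ∧ ‖G (fun z => χ z • F z) y‖ ≤ η ∧
      ‖fderiv ℝ (G fun z => χ z • F z) y‖ ≤ η

/-- Unique continuation for functionals. -/
def GF (n N : ℕ) : Prop :=
  ∀ (Ω Ω' : Set (Ec n)) (γ : Geo n N) (T : (Ec n → Fb N) → ℂ) (C : ℝ), IsOpen Ω →
    IsPreconnected Ω → γ.Sm Ω → IsOpen Ω' → Ω'.Nonempty → Ω' ⊆ Ω →
    (∀ F F', ET Ω F → ET Ω F' → T (F + F') = T F + T F') →
    (∀ (c : ℂ) F, ET Ω F → T (c • F) = c * T F) →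
    (∀ F, ET Ω F → ‖T F‖ ^ 2 ≤ C * ∫ z, ‖F z‖ ^ 2) →
    (∀ φ F, ET Ω φ → ET Ω F → EW Ω γ φ F → T F = 0) →
    (∀ F, ET Ω' F → T F = 0) → ∀ F, ET Ω F → T F = 0

variable [NeZero n]

/-- Closed upper half ball. -/
def hp (n : ℕ) [NeZero n] (r : ℝ) : Set (Ec n) := ball 0 r ∩ {z | 0 ≤ z 0}

/-- Open upper half ball. -/
def up (n : ℕ) [NeZero n] (r : ℝ) : Set (Ec n) := ball 0 r ∩ {z | 0 < z 0}

/-- Open lower half ball. -/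
def lo (n : ℕ) [NeZero n] (r : ℝ) : Set (Ec n) := ball 0 r ∩ {z | z 0 < 0}

end Euclid

section Mfd

variable {n N : ℕ} {H : Type} [TopologicalSpace H] {I : ModelWithCorners ℝ (Ec n) H}
  {M : Type} [TopologicalSpace M] [ChartedSpace H M] [IsManifold I ∞ M]

/-- The data in the chart at `p`. -/
def cg (g : Met I M) (A : Conn I M N) (p : M) : Geo n N :=
  ⟨gm g p, fun i z => A.A ((extChartAt I p).symm z) (fr I p z (bv i))⟩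

/-- The interior part of the chart at `p`. -/
def cd (I : ModelWithCorners ℝ (Ec n) H) (p : M) : Set (Ec n) := interior (extChartAt I p).target

/-- Pull back to the chart. -/
def pl {V : Type} (I : ModelWithCorners ℝ (Ec n) H) (p : M) (u : M → V) (z : Ec n) : V :=
  u ((extChartAt I p).symm z)

/-- Push forward from the chart. -/
def ps {V : Type} [Zero V] (I : ModelWithCorners ℝ (Ec n) H) (p : M) (F : Ec n → V) : M → V :=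
  (extChartAt I p).source.indicator fun x => F (extChartAt I p x)

/-- Test sections. -/
def MT (I : ModelWithCorners ℝ (Ec n) H) (O : Set M) (F : M → Fb N) : Prop :=
  ContMDiff I 𝓘(ℝ, Fb N) ∞ F ∧ tsupport F ⊆ O

/-- Energy density. -/
def mden (g : Met I M) (A : Conn I M N) (u w : M → Fb N) (x : M) : ℂ :=
  ∑ i, ∑ j, gi g x i j • inner ℂ (cov A u x (bv i)) (cov A w x (bv j))

/-- `Φ, U` carry `g₂, A₂` on `O` to `g₁, A₁`. -/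
structure Iso (g₁ : Met I M) (A₁ : Conn I M N) (g₂ : Met I M) (A₂ : Conn I M N) (O : Set M)
    (Φ : M → M) (U : M → Op N) : Prop where
  op : IsOpen O
  int : O ⊆ I.interior M
  mp : MapsTo Φ O (I.interior M)
  sΦ : ContMDiffOn I I ∞ Φ O
  inj : InjOn Φ O
  sU : ContMDiffOn I 𝓘(ℝ, Op N) ∞ U O
  uni : ∀ x ∈ O, U x ∈ unitary (Op N)
  met : ∀ x ∈ O, ∀ v w, g₂.inner x v w = g₁.inner (Φ x) (mfderiv I I Φ x v) (mfderiv I I Φ x w)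
  con : ∀ x ∈ O, ∀ v, U x * A₂.A x v = A₁.A (Φ x) (mfderiv I I Φ x v) * U x + dif I U x v

/-- The Green operators correspond on `O`. -/
def GRel (I : ModelWithCorners ℝ (Ec n) H) (O : Set M) (G₁ G₂ : (M → Fb N) → M → Fb N)
    (Φ : M → M) (U : M → Op N) : Prop :=
  ∀ F₁ F₂, MT I (Φ '' O) F₁ → MT I O F₂ → (∀ x ∈ O, F₁ (Φ x) = U x (F₂ x)) →
    ∀ x ∈ O, G₁ F₁ (Φ x) = U x (G₂ F₂ x)

/-- The solutions correspond at `x` and `y`. -/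
def SRel (I : ModelWithCorners ℝ (Ec n) H) (Γ : Set M) (S₁ S₂ : (M → Fb N) → M → Fb N) (x y : M)
    (V : Op N) : Prop :=
  ∀ f, IsTest I Γ f → S₁ f y = V (S₂ f x)

/-- Two point Runge property. -/
def Run (I : ModelWithCorners ℝ (Ec n) H) (Γ : Set M) (S : (M → Fb N) → M → Fb N) : Prop :=
  ∀ q ∈ I.boundary M, ∀ y ∈ I.interior M, ∀ y' ∈ I.interior M, y ≠ y' → ∀ ξ ξ' : Fb N,
    (∀ f, IsTest I Γ f → f q = 0 → inner ℂ ξ (S f y) = inner ℂ ξ' (S f y')) → ξ = 0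

variable [MeasurableSpace M]

/-- `u` is smooth on `O` and solves the equation with right hand side `F`. -/
def MW (g : Met I M) (μ : Measure M) (A : Conn I M N) (O : Set M) (u F : M → Fb N) : Prop :=
  ContMDiffOn I 𝓘(ℝ, Fb N) ∞ u O ∧
    ∀ ζ, MT I O ζ → form g μ A u ζ = ∫ x, inner ℂ (F x) (ζ x) ∂μ

/-- Green operators. -/
structure MG (g : Met I M) (μ : Measure M) (A : Conn I M N) (G : (M → Fb N) → M → Fb N) :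
    Prop where
  add : ∀ F F', MT I (I.interior M) F → MT I (I.interior M) F' →
    EqOn (G (F + F')) (G F + G F') (I.interior M)
  smul : ∀ (c : ℂ) F, MT I (I.interior M) F → EqOn (G (c • F)) (c • G F) (I.interior M)
  sol : ∀ F, MT I (I.interior M) F → MW g μ A (I.interior M) (G F) F
  inv : ∀ φ F, MT I (I.interior M) φ → MT I (I.interior M) F → MW g μ A (I.interior M) φ F →
    EqOn (G F) φ (I.interior M)
  symm : ∀ F F', MT I (I.interior M) F → MT I (I.interior M) F' →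
    ∫ x, inner ℂ (F x) (G F' x) ∂μ = ∫ x, inner ℂ (G F x) (F' x) ∂μ
  bound : ∃ C : ℝ, ∀ F, MT I (I.interior M) F →
    ∫⁻ x in I.interior M, ENNReal.ofReal ((mden g A (G F) (G F) x).re + ‖G F x‖ ^ 2) ∂μ ≤
      ENNReal.ofReal (C * (∫ x, inner ℂ (F x) (G F x) ∂μ).re)

/-- One of the two structures. -/
structure Dat (Γ : Set M) (g : Met I M) (μ : Measure M) (A : Conn I M N)
    (S : (M → Fb N) → M → Fb N) : Prop where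
  vol : IsVol g μ
  sol : ∀ f, IsTest I Γ f → IsSol g μ A f (S f)

/-- Equal data. -/
def Eqd (Γ : Set M) (g₁ : Met I M) (μ₁ : Measure M) (A₁ : Conn I M N) (S₁ : (M → Fb N) → M → Fb N)
    (g₂ : Met I M) (μ₂ : Measure M) (A₂ : Conn I M N) (S₂ : (M → Fb N) → M → Fb N) : Prop :=
  ∀ f h, IsTest I Γ f → IsTest I Γ h → form g₁ μ₁ A₁ (S₁ f) (S₁ h) = form g₂ μ₂ A₂ (S₂ f) (S₂ h)

end Mfd

section Bdry

variable {n N : ℕ} [NeZero n] {M : Type} [TopologicalSpace M]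
  [ChartedSpace (EuclideanHalfSpace n) M] [IsManifold (𝓡∂ n) ∞ M]

/-- A boundary chart `τ` with gauge `W` and data `γ` extended across the boundary. -/
structure XP (Γ : Set M) (g : Met (𝓡∂ n) M) (A : Conn (𝓡∂ n) M N) (p : M) (r : ℝ)
    (τ θ : Ec n → Ec n) (W : Ec n → Op N) (γ : Geo n N) : Prop where
  r0 : 0 < r
  sm : γ.Sm (ball 0 r)
  τ0 : τ 0 = extChartAt (𝓡∂ n) p p
  sτ : ContDiffOn ℝ ∞ τ (hp n r)
  mp : MapsTo τ (hp n r) (extChartAt (𝓡∂ n) p).target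
  op : ∃ T, IsOpen T ∧ τ '' hp n r = T ∩ {z | 0 ≤ z 0}
  sθ : ContDiffOn ℝ ∞ θ (τ '' hp n r)
  inv : ∀ z ∈ hp n r, θ (τ z) = z
  bd : ∀ z ∈ hp n r, z 0 = 0 → τ z 0 = 0 ∧ (extChartAt (𝓡∂ n) p).symm (τ z) ∈ Γ
  int : MapsTo τ (up n r) (cd (𝓡∂ n) p)
  sW : ContDiffOn ℝ ∞ W (hp n r)
  W1 : ∀ z ∈ hp n r, z 0 = 0 → W z = 1
  iso : EIso (up n r) (cg g A p) γ τ W

/-- Push forward from the half ball. -/
def xps (p : M) (r : ℝ) (τ θ : Ec n → Ec n) (W : Ec n → Op N) (F : Ec n → Fb N) : M → Fb N :=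
  ps (𝓡∂ n) p ((τ '' hp n r).indicator fun w => W (θ w) (F (θ w)))

variable [MeasurableSpace M]

/-- Green operators of the extended manifold: `G` from `M` to `M`, `GB` from the ball to the ball,
`GM` from the ball to `M`. -/
structure XG (Γ : Set M) (g : Met (𝓡∂ n) M) (μ : Measure M) (A : Conn (𝓡∂ n) M N)
    (S : (M → Fb N) → M → Fb N) (p : M) (r : ℝ) (τ θ : Ec n → Ec n) (W : Ec n → Op N)
    (γ : Geo n N) (G : (M → Fb N) → M → Fb N) (GB : (Ec n → Fb N) → Ec n → Fb N)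
    (GM : (Ec n → Fb N) → M → Fb N) : Prop where
  mg : MG g μ A G
  eg : EG (ball 0 r) γ GB
  add : ∀ F F', ET (ball 0 r) F → ET (ball 0 r) F' →
    EqOn (GM (F + F')) (GM F + GM F') ((𝓡∂ n).interior M)
  smul : ∀ (c : ℂ) F, ET (ball 0 r) F → EqOn (GM (c • F)) (c • GM F) ((𝓡∂ n).interior M)
  sol : ∀ F, ET (ball 0 r) F → MW g μ A ((𝓡∂ n).interior M) (GM F) (xps p r τ θ W F)
  inv : ∀ φ F, ET (ball 0 r) φ → ET (ball 0 r) F → EW (ball 0 r) γ φ F →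
    EqOn (GM F) (xps p r τ θ W φ) ((𝓡∂ n).interior M)
  bound : ∃ C : ℝ, ∀ F, ET (ball 0 r) F →
    ∫⁻ x in (𝓡∂ n).interior M, ENNReal.ofReal (‖GM F x‖ ^ 2) ∂μ ≤
      ENNReal.ofReal (C * ∫ z, γ.vol z * ‖F z‖ ^ 2)
  ball : ∀ F, ET (ball 0 r) F → ∀ z ∈ up n r,
    GM F ((extChartAt (𝓡∂ n) p).symm (τ z)) = W z (GB F z)
  upper : ∀ F, ET (up n r) F → EqOn (GM F) (G (xps p r τ θ W F)) ((𝓡∂ n).interior M)
  dens : ∀ F, ET (lo n r) F → ∃ φ : ℕ → Ec n → Fb N, (∀ k, ET (Metric.ball 0 r) (φ k)) ∧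
    Tendsto (fun k => ∫⁻ x in (𝓡∂ n).interior M,
      ENNReal.ofReal (‖S (xps p r τ θ W (φ k)) x - GM F x‖ ^ 2) ∂μ) atTop (𝓝 0)

end Bdry

/-- The patch. -/
structure Patch {n : ℕ} [NeZero n] {M : Type} [TopologicalSpace M]
    [ChartedSpace (EuclideanHalfSpace n) M] (Γ : Set M) : Prop where
  op : ∃ O, IsOpen O ∧ Γ = O ∩ (𝓡∂ n).boundary M
  ne : Γ.Nonempty

/-- Boundary determination with extension (part B). -/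
def BD (n N : ℕ) [NeZero n] : Prop :=
  ∀ (M : Type) [TopologicalSpace M] [ChartedSpace (EuclideanHalfSpace n) M]
    [IsManifold (𝓡∂ n) ∞ M] [T2Space M] [CompactSpace M] [ConnectedSpace M] [MeasurableSpace M]
    [BorelSpace M] (Γ : Set M) (g₁ g₂ : Met (𝓡∂ n) M) (μ₁ μ₂ : Measure M)
    (A₁ A₂ : Conn (𝓡∂ n) M N) (S₁ S₂ : (M → Fb N) → M → Fb N),
    Patch (n := n) Γ → Dat Γ g₁ μ₁ A₁ S₁ → Dat Γ g₂ μ₂ A₂ S₂ → Eqd Γ g₁ μ₁ A₁ S₁ g₂ μ₂ A₂ S₂ →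
    ∀ p ∈ Γ, ∃ (r : ℝ) (τ₁ θ₁ τ₂ θ₂ : Ec n → Ec n) (W₁ W₂ : Ec n → Op N) (γ₁ γ₂ : Geo n N),
      XP Γ g₁ A₁ p r τ₁ θ₁ W₁ γ₁ ∧ XP Γ g₂ A₂ p r τ₂ θ₂ W₂ γ₂ ∧
      (∀ z ∈ hp n r, z 0 = 0 → τ₁ z = τ₂ z) ∧
      ∀ z ∈ lo n r, γ₁.g z = γ₂.g z ∧ ∀ i, γ₁.a i z = γ₂.a i z

/-- Green operators of the extensions (part G). -/
def GX (n N : ℕ) [NeZero n] : Prop :=
  ∀ (M : Type) [TopologicalSpace M] [ChartedSpace (EuclideanHalfSpace n) M]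
    [IsManifold (𝓡∂ n) ∞ M] [T2Space M] [CompactSpace M] [ConnectedSpace M] [MeasurableSpace M]
    [BorelSpace M] (Γ : Set M) (g₁ g₂ : Met (𝓡∂ n) M) (μ₁ μ₂ : Measure M)
    (A₁ A₂ : Conn (𝓡∂ n) M N) (S₁ S₂ : (M → Fb N) → M → Fb N),
    Patch (n := n) Γ → Dat Γ g₁ μ₁ A₁ S₁ → Dat Γ g₂ μ₂ A₂ S₂ → Eqd Γ g₁ μ₁ A₁ S₁ g₂ μ₂ A₂ S₂ →
    ∀ (p : M) (r : ℝ) (τ₁ θ₁ τ₂ θ₂ : Ec n → Ec n) (W₁ W₂ : Ec n → Op N) (γ₁ γ₂ : Geo n N),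
      XP Γ g₁ A₁ p r τ₁ θ₁ W₁ γ₁ → XP Γ g₂ A₂ p r τ₂ θ₂ W₂ γ₂ →
      (∀ z ∈ hp n r, z 0 = 0 → τ₁ z = τ₂ z) →
      (∀ z ∈ lo n r, γ₁.g z = γ₂.g z ∧ ∀ i, γ₁.a i z = γ₂.a i z) →
      ∃ G₁ GB₁ GM₁ G₂ GB₂ GM₂, XG Γ g₁ μ₁ A₁ S₁ p r τ₁ θ₁ W₁ γ₁ G₁ GB₁ GM₁ ∧
        XG Γ g₂ μ₂ A₂ S₂ p r τ₂ θ₂ W₂ γ₂ G₂ GB₂ GM₂ ∧
        ∀ F, ET (lo n r) F → EqOn (GB₁ F) (GB₂ F) (lo n r)

end Vale.Agent.P088.Gl
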