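import Vale.Agent.P088F.TE2

/-! P088 T: local isometries in coordinates, the interface used by the global part. -/

open MeasureTheory Set Filter Bundle Metric Topology Matrix
open scoped Manifold ContDiff ENNReal

noncomputable section

namespace Vale.Agent.P088.Gl

variable {n N : ℕ} {Ω Ω' B₁ B₂ : Set (Ec n)} {γ γ₁ γ₂ γ₃ : Geo n N} {Ψ Ψ' : Ec n → Ec n}
  {V V' : Ec n → Op N} {u u' w F F' φ u₁ u₂ w₁ w₂ F₁ F₂ : Ec n → Fb N} {z : Ec n}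
  {G G₁ G₂ : (Ec n → Fb N) → Ec n → Fb N}

/-- Pull back. -/
def epull (Ψ : Ec n → Ec n) (V : Ec n → Op N) (u : Ec n → Fb N) (z : Ec n) : Fb N :=
  star (V z) (u (Ψ z))

theorem uni_adj (W : Op N) (a b : Fb N) : inner ℂ a (W b) = inner ℂ (star W a) b :=
  (W.adjoint_inner_left b a).symm

theorem ti_mono (h : EIso Ω γ₁ γ₂ Ψ V) (h1 : IsOpen Ω') (h2 : Ω' ⊆ Ω) : EIso Ω' γ₁ γ₂ Ψ V :=
  ⟨h1, h.sΨ.mono h2, h.inj.mono h2, h.sV.mono h2, fun z hz => h.uni z (h2 hz),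
    fun z hz => h.met z (h2 hz), fun z hz => h.con z (h2 hz)⟩

theorem ti_congr (h : EIso Ω γ₁ γ₂ Ψ V) (e : ∀ z ∈ Ω, Ψ' z = Ψ z ∧ V' z = V z) :
    EIso Ω γ₁ γ₂ Ψ' V' := by
  exact h.congr (fun z hz => (e z hz).1) fun z hz => (e z hz).2

theorem ti_refl (hΩ : IsOpen Ω) (e : ∀ z ∈ Ω, γ₁.g z = γ₂.g z ∧ ∀ i, γ₁.a i z = γ₂.a i z) :
    EIso Ω γ₁ γ₂ id fun _ => 1 := by
  have h := EIso.refl γ₁ hΩ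
  exact ⟨hΩ, h.sΨ, h.inj, h.sV, h.uni, fun z hz => (e z hz).1 ▸ h.met z hz,
    fun z hz i => (e z hz).2 i ▸ h.con z hz i⟩

theorem ti_open (h : EIso Ω γ₁ γ₂ Ψ V) (hs : γ₂.Sm Ω) : IsOpen (Ψ '' Ω) := by
  exact h.open_image hs h.op subset_rfl

theorem ti_trans (h' : EIso Ω' γ₁ γ₂ Ψ' V') (h : EIso Ω γ₂ γ₃ Ψ V) (hm : MapsTo Ψ Ω Ω') :
    EIso Ω γ₁ γ₃ (Ψ' ∘ Ψ) fun z => V' (Ψ z) * V z := by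
  exact h'.trans h hm

theorem ti_symm (h : EIso Ω γ₁ γ₂ Ψ V) (hs : γ₂.Sm Ω) {θ : Ec n → Ec n} (e : ∀ z ∈ Ω, θ (Ψ z) = z) :
    EIso (Ψ '' Ω) γ₂ γ₁ θ fun y => star (V (θ y)) := by
  exact h.symm hs e

theorem ti_push (h : EIso Ω γ₁ γ₂ Ψ V) (hs : γ₂.Sm Ω) (hF : ET Ω F₂) :
    ∃ F₁, ET (Ψ '' Ω) F₁ ∧ tsupport F₁ ⊆ Ψ '' tsupport F₂ ∧ ∀ z ∈ Ω, F₁ (Ψ z) = V z (F₂ z) := by
  exact ⟨_, (h.et_pf' hs hF).1, (h.et_pf' hs hF).2, h.pf_rel F₂⟩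

theorem ti_pull (h : EIso Ω γ₁ γ₂ Ψ V) (hs : γ₂.Sm Ω) (hF : ET (Ψ '' Ω) F₁) :
    ∃ F₂, ET Ω F₂ ∧ ∀ z ∈ Ω, F₁ (Ψ z) = V z (F₂ z) := by
  exact ⟨_, h.et_pb hs hF, h.pb_rel F₁⟩

theorem ti_smooth (h : EIso Ω γ₁ γ₂ Ψ V) (hu : ContDiffOn ℝ ∞ u B₁) (hm : MapsTo Ψ Ω B₁) :
    ContDiffOn ℝ ∞ (epull Ψ V u) Ω := by
  exact h.sm_pb (hu.mono hm.image_subset) fun z hz => (uni_right (h.uni z hz) _).symm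

theorem ti_den (h : EIso Ω γ₁ γ₂ Ψ V) (hs : γ₂.Sm Ω) (hz : z ∈ Ω)
    (hu : DifferentiableAt ℝ u₁ (Ψ z)) (hw : DifferentiableAt ℝ w₁ (Ψ z))
    (e1 : ∀ᶠ y in 𝓝 z, u₁ (Ψ y) = V y (u₂ y)) (e2 : ∀ᶠ y in 𝓝 z, w₁ (Ψ y) = V y (w₂ y)) :
    γ₂.den u₂ w₂ z = γ₁.den u₁ w₁ (Ψ z) := by
  have k : ∀ {a b : Ec n → Fb N}, DifferentiableAt ℝ a (Ψ z) →
      (∀ᶠ y in 𝓝 z, a (Ψ y) = V y (b y)) → DifferentiableAt ℝ b z := fun {a b} ha e => by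
    obtain ⟨L, hL, -⟩ := hasFDerivAt_op
      (((contDiffOn_star h.sV).contDiffAt (h.op.mem_nhds hz)).differentiableAt (by simp)).hasFDerivAt
      (ha.comp z (h.dΨ hz)).hasFDerivAt
    refine hL.differentiableAt.congr_of_eventuallyEq ?_
    filter_upwards [e, h.op.mem_nhds hz] with y h1 h2
    rw [Function.comp_apply, h1, uni_left (h.uni y h2)]
  exact h.den hs hz hu (k hu e1) e1 hw (k hw e2) e2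

theorem ti_integral (h : EIso Ω γ₁ γ₂ Ψ V) (f : Ec n → ℂ) (hs : IsOpen Ω') (h1 : Ω' ⊆ Ω) :
    ∫ y in Ψ '' Ω', γ₁.vol y • f y = ∫ z in Ω', γ₂.vol z • f (Ψ z) :=
  ((h.mono hs h1).integral fun _ _ => rfl).symm

theorem ti_pair (h : EIso Ω γ₁ γ₂ Ψ V) (h₁ : ET (Ψ '' Ω) F₁) (h₂ : ET Ω F₂)
    (e1 : ∀ z ∈ Ω, u₁ (Ψ z) = V z (u₂ z)) (e2 : ∀ z ∈ Ω, F₁ (Ψ z) = V z (F₂ z)) :
    γ₁.pair u₁ F₁ = γ₂.pair u₂ F₂ := by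
  exact (h.pair e1 e2 (Or.inr h₂.2.2) (Or.inr h₁.2.2)).symm

theorem ti_ew (h : EIso Ω γ₁ γ₂ Ψ V) (hs : γ₂.Sm Ω) (hu : EW B₁ γ₁ u₁ F₁) (hm : MapsTo Ψ Ω B₁)
    (e1 : ∀ z ∈ Ω, u₁ (Ψ z) = V z (u₂ z)) (e2 : ∀ z ∈ Ω, F₁ (Ψ z) = V z (F₂ z)) :
    EW Ω γ₂ u₂ F₂ := by
  exact h.ew_pb hs hu hm e1 e2

end Vale.Agent.P088.Gl
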